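import Vale.Agent.P264.StmS

/-!
Products: multiplication by a symbol and the algebra property.
-/

namespace Vale.Agent.P264

open scoped ContDiff
open Set MeasureTheory Filter

namespace Al

/-- the Leibniz constant -/
noncomputable def lc (j : ℕ) : ℝ := (j + 1) * ∑ i ∈ Finset.range (j + 1), (j.choose i : ℝ) ^ 2

theorem lc_nonneg (j : ℕ) : 0 ≤ lc j := by
  unfold lc
  positivity

theorem leib (hA : BaseA) (n j : ℕ) (r : ℤ) {lam ε K : ℝ} {a b : ℝ → ℝ} (hl : 0 < lam)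
    (ha : ContDiffOn ℝ ∞ a (dom ε)) (hb : ContDiffOn ℝ ∞ b (dom ε))
    (hB : ∀ i ≤ j, ∃ B : ℝ → ℝ, IntegrableOn B (dom ε) ∧ ∫ x in dom ε, B x ≤ K ∧ ∀ x ∈ dom ε,
      iteratedDeriv i a x ^ 2 * iteratedDeriv (j - i) b x ^ 2 * wt n lam ε j (j + 2) r x ≤ B x) :
    IntegrableOn (fun x => iteratedDeriv j (fun x => a x * b x) x ^ 2 * wt n lam ε j (j + 2) r x)
      (dom ε) ∧ TT n lam ε j (j + 2) r (fun x => a x * b x) ≤ lc j * K := by
  choose! B h1 h2 h3 using hB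
  have hm := (hA.dom_open ε).measurableSet
  have hi : ∀ i ∈ Finset.range (j + 1), IntegrableOn (fun x => (j.choose i : ℝ) ^ 2 * B i x)
      (dom ε) := fun i hi => (h1 i (Finset.mem_range_succ_iff.1 hi)).const_mul _
  have hS : IntegrableOn (fun x => ((j : ℝ) + 1) *
      ∑ i ∈ Finset.range (j + 1), (j.choose i : ℝ) ^ 2 * B i x) (dom ε) :=
    (integrable_finsetSum _ hi).const_mul _
  have hp : ∀ x ∈ dom ε, iteratedDeriv j (fun x => a x * b x) x ^ 2 * wt n lam ε j (j + 2) r x ≤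
      ((j : ℝ) + 1) * ∑ i ∈ Finset.range (j + 1), (j.choose i : ℝ) ^ 2 * B i x := by
    intro x hx
    rw [hA.iter_mul j ha hb hx]
    refine (mul_le_mul_of_nonneg_right sq_sum_le_card_mul_sum_sq
      (hA.wt_nonneg n _ _ _ hx)).trans ?_
    rw [Finset.card_range, Nat.cast_succ, mul_assoc, Finset.sum_mul]
    refine mul_le_mul_of_nonneg_left (Finset.sum_le_sum fun i hi => ?_) (by positivity)
    exact le_of_eq_of_le (by ring) (mul_le_mul_of_nonneg_left
      (h3 i (Finset.mem_range_succ_iff.1 hi) x hx) (sq_nonneg _))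
  have hI : IntegrableOn
      (fun x => iteratedDeriv j (fun x => a x * b x) x ^ 2 * wt n lam ε j (j + 2) r x) (dom ε) := by
    refine hS.mono' ((((hA.iter_cont j (ha.mul hb)).continuousOn.pow 2).mul
      (hA.wt_cont n ε j _ r hl).continuousOn).aestronglyMeasurable hm)
      ((ae_restrict_iff' hm).2 (.of_forall fun x hx => ?_))
    rw [Real.norm_of_nonneg (mul_nonneg (sq_nonneg _) (hA.wt_nonneg n _ _ _ hx))]
    exact hp x hx
  refine ⟨hI, (setIntegral_mono_on hI hS hm hp).trans ?_⟩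
  rw [integral_const_mul, integral_finsetSum _ hi, lc, mul_assoc, Finset.sum_mul]
  refine mul_le_mul_of_nonneg_left (Finset.sum_le_sum fun i hi => ?_) (by positivity)
  rw [integral_const_mul]
  exact mul_le_mul_of_nonneg_left (h2 i (Finset.mem_range_succ_iff.1 hi)) (sq_nonneg _)

theorem Th_mul (hA : BaseA) (n : ℕ) {lam ε x : ℝ} (hp : Par lam ε) (hx : x ∈ dom ε) {e e₁ e₂ : ℤ}
    (h1 : ((n : ℤ) - 1 + e₁).toNat + ((n : ℤ) - 1 + e₂).toNat ≤ ((n : ℤ) - 1 + e).toNat)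
    (h2 : e₁.toNat + e₂.toNat ≤ e.toNat) :
    Th n lam ε e x ≤ Th n lam ε e₁ x * Th n lam ε e₂ x := by
  have hv := hA.vp_pos x hp.1
  have h3 : 0 ≤ x / vp lam x := div_nonneg hx.1.le hv.le
  have h4 : 0 ≤ 1 - ε * x := sub_nonneg.2 hx.2.le
  unfold Th
  rw [mul_mul_mul_comm, ← pow_add, ← pow_add]
  exact mul_le_mul (pow_le_pow_of_le_one h3 ((div_le_one hv).2 (hA.x_le _ _)) h1)
    (pow_le_pow_of_le_one h4 (sub_le_self _ (mul_nonneg hp.2.1 hx.1.le)) h2) (pow_nonneg h4 _)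
    (pow_nonneg h3 _)

theorem term (hA : BaseA) {n h i l : ℕ} {r s : ℤ} {lam ε P H : ℝ} {a b : ℝ → ℝ} (hn : 1 ≤ n)
    (hh : n + 3 ≤ h) (hil : i ≤ l) (hj : i + l ≤ h) (hp : Par lam ε) (hb : Adm lam ε s b)
    (hP0 : 0 ≤ P) (hP : ∀ x ∈ dom ε, iteratedDeriv i a x ^ 2 * vp lam x ^ (2 * (i : ℤ) + r) *
      Th n lam ε (2 * (i : ℤ) - h + 4) x ≤ P) (hH : TT n lam ε l (2 * (l : ℤ) - h + 2) s b ≤ H) :
    ∃ B : ℝ → ℝ, IntegrableOn B (dom ε) ∧ ∫ x in dom ε, B x ≤ P * H ∧ ∀ x ∈ dom ε,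
      iteratedDeriv i a x ^ 2 * iteratedDeriv l b x ^ 2 *
        wt n lam ε (i + l) ((i + l : ℕ) + 2) (r + s) x ≤ B x := by
  refine ⟨fun x => P * (iteratedDeriv l b x ^ 2 * wt n lam ε l (2 * (l : ℤ) - h + 2) s x),
    (hA.intT n l _ hp hb).const_mul P, ?_, fun x hx => ?_⟩
  · rw [integral_const_mul]
    exact mul_le_mul_of_nonneg_left hH hP0
  · have hv := hA.vp_pos x hp.1
    refine le_trans ?_ (mul_le_mul_of_nonneg_right (hP x hx)
      (mul_nonneg (sq_nonneg _) (hA.wt_nonneg n _ _ _ hx)))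
    unfold wt
    rw [show 2 * ((i + l : ℕ) : ℤ) - 1 + (r + s) = 2 * i + r + (2 * l - 1 + s) by push_cast; ring,
      zpow_add₀ hv.ne']
    calc _ ≤ iteratedDeriv i a x ^ 2 * iteratedDeriv l b x ^ 2 *
          (vp lam x ^ (2 * (i : ℤ) + r) * vp lam x ^ (2 * (l : ℤ) - 1 + s) *
            (Th n lam ε (2 * (i : ℤ) - h + 4) x * Th n lam ε (2 * (l : ℤ) - h + 2) x)) := by
          gcongr
          exact Th_mul hA n hp hx (by omega) (by omega)
      _ = _ := by ring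

end Al

open Al

theorem mulS (hA : BaseA) : MulStmt := by
  intro n h
  refine ⟨∑ j ∈ Finset.range (h + 1), lc j, Finset.sum_nonneg fun j _ => lc_nonneg j,
    fun lam ε M r q a f hp ha hf hI => ?_⟩
  have key := fun j (hj : j ≤ h) => leib hA n j r (K := M ^ 2 * QQ n lam ε h (r + 2 * q) f) hp.1
    ha.1 hf fun i hi => by
      refine ⟨fun x => M ^ 2 * (iteratedDeriv (j - i) f x ^ 2 *
        wt n lam ε (j - i) ((j - i : ℕ) + 2) (r + 2 * q) x), (hI _ (by omega)).const_mul _, ?_,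
        fun x hx => ?_⟩
      · rw [integral_const_mul]
        exact mul_le_mul_of_nonneg_left (hA.TT_le_QQ n lam ε _ f (by omega)) (sq_nonneg _)
      · have hv := hA.vp_pos x hp.1
        have h1 : iteratedDeriv i a x ^ 2 ≤ (M * vp lam x ^ (q - (i : ℤ))) ^ 2 := by
          rw [← sq_abs]
          exact pow_le_pow_left₀ (abs_nonneg _) (ha.2 i (hi.trans hj) x hx) 2
        have h2 := hA.Th_nonneg n (lam := lam) (j + 2) hx
        unfold wt
        beta_reduce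
        rw [show 2 * ((j - i : ℕ) : ℤ) - 1 + (r + 2 * q) = q - i + (q - i) + (2 * j - 1 + r) by
          push_cast [hi]; ring, zpow_add₀ hv.ne' (q - i + (q - i)), zpow_add₀ hv.ne' (q - i)]
        calc _ ≤ (M * vp lam x ^ (q - (i : ℤ))) ^ 2 * iteratedDeriv (j - i) f x ^ 2 *
              (vp lam x ^ (2 * (j : ℤ) - 1 + r) * Th n lam ε ((j - i : ℕ) + 2) x) := by
              gcongr
              exact hA.Th_anti n hp hx (by omega)
          _ = _ := by ring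
  refine ⟨fun j hj => (key j hj).1, ?_⟩
  rw [mul_assoc, Finset.sum_mul]
  exact Finset.sum_le_sum fun j hj => (key j (Finset.mem_range_succ_iff.1 hj)).2

theorem al (hA : BaseA) (hB : BaseB) (hH : HardyStmt) (hP : PtStmt) : AlStmt := by
  intro n h r hn hh
  have _ := @hB.mono
  obtain ⟨H₀, h₀, hH₀⟩ := hH n h 0 hn
  obtain ⟨H₁, h₁, hH₁⟩ := hH n h r hn
  obtain ⟨P₀, p₀, hP₀⟩ := hP n h 0 hn
  obtain ⟨P₁, p₁, hP₁⟩ := hP n h r hn
  refine ⟨(∑ j ∈ Finset.range (h + 1), lc j) * (P₀ * H₁ + P₁ * H₀),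
    mul_nonneg (Finset.sum_nonneg fun j _ => lc_nonneg j) (by positivity),
    fun lam ε a b hp ha hb => ?_⟩
  have qa := hA.QQ_nonneg n lam ε h 0 a
  have qb := hA.QQ_nonneg n lam ε h r b
  rw [mul_assoc, mul_assoc, Finset.sum_mul]
  refine Finset.sum_le_sum fun j hj => (leib hA n j r hp.1 ha.1 hb.1 fun i hi => ?_).2
  obtain ⟨l, rfl⟩ := Nat.exists_eq_add_of_le hi
  have hj' := Finset.mem_range_succ_iff.1 hj
  rw [Nat.add_sub_cancel_left]
  rcases le_total i l with hil | hil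
  · obtain ⟨B, h1, h2, h3⟩ := term hA hn hh hil hj' hp hb (mul_nonneg p₀ qa)
      (hP₀ lam ε a hp ha i (by omega)) (hH₁ lam ε b hp hb l (by omega) _ le_rfl)
    refine ⟨B, h1, h2.trans ?_, by simpa only [zero_add] using h3⟩
    nlinarith [mul_nonneg (mul_nonneg p₁ h₀) (mul_nonneg qa qb)]
  · obtain ⟨B, h1, h2, h3⟩ := term hA hn hh hil (add_comm i l ▸ hj') hp ha (mul_nonneg p₁ qb)
      (hP₁ lam ε b hp hb l (by omega)) (hH₀ lam ε a hp ha i (by omega) _ le_rfl)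
    refine ⟨B, h1, h2.trans ?_, fun x hx => ?_⟩
    · nlinarith [mul_nonneg (mul_nonneg p₀ h₁) (mul_nonneg qa qb)]
    · have := h3 x hx
      rwa [add_zero, add_comm l, mul_comm (iteratedDeriv l b x ^ 2)] at this

end Vale.Agent.P264
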