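import Vale.Agent.P264.StmG

/-!
Cauchy estimates on the half line and composition with the inverse function.
-/

namespace Vale.Agent.P264

open scoped ContDiff
open Set MeasureTheory Filter Topology

namespace CompAux

theorem zpow_cmp {a b : ℝ} (ha : 0 < a) (hb : 0 < b) (h1 : a ≤ 2 * b) (h2 : b ≤ 2 * a) (q : ℤ) :
    a ^ q ≤ 2 ^ q.natAbs * b ^ q := by
  obtain ⟨n, rfl | rfl⟩ := Int.eq_nat_or_neg q
  · rw [Int.natAbs_natCast, zpow_natCast, zpow_natCast, ← mul_pow]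
    exact pow_le_pow_left₀ ha.le h1 n
  · rw [Int.natAbs_neg, Int.natAbs_natCast, zpow_neg, zpow_neg, zpow_natCast, zpow_natCast,
      ← div_eq_mul_inv, le_div_iff₀ (pow_pos hb n), ← div_eq_inv_mul, div_le_iff₀ (pow_pos ha n),
      ← mul_pow]
    exact pow_le_pow_left₀ hb.le h2 n

theorem iter_re {Φ : ℂ → ℂ} (h : ∀ r : ℝ, 0 < r → AnalyticAt ℂ Φ r) (i : ℕ) :
    ∀ r : ℝ, 0 < r → iteratedDeriv i (fun r : ℝ => (Φ r).re) r = (iteratedDeriv i Φ r).re := by
  induction i with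
  | zero => intro r _; simp
  | succ i ih =>
    intro r hr
    have e : iteratedDeriv i (fun r : ℝ => (Φ r).re) =ᶠ[𝓝 r]
        fun r : ℝ => (iteratedDeriv i Φ r).re :=
      (Ioi_mem_nhds hr : Ioi (0 : ℝ) ∈ 𝓝 r) |> fun h' => Filter.mem_of_superset h' fun x hx => ih x hx
    rw [iteratedDeriv_succ, iteratedDeriv_succ, e.deriv_eq]
    have hd : DifferentiableAt ℂ (iteratedDeriv i Φ) r := by
      rw [iteratedDeriv_eq_iterate]
      exact ((h r hr).iterated_deriv i).differentiableAt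
    exact hd.hasDerivAt.real_of_complex.deriv

theorem sym_deriv {q : ℤ} {f : ℝ → ℝ} (h : SymR q f) : SymR (q - 1) (deriv f) := by
  refine ⟨h.1.deriv_of_isOpen isOpen_Ioi (by simp), fun i => ?_⟩
  obtain ⟨C, hC⟩ := h.2 (i + 1)
  refine ⟨C, fun r hr => ?_⟩
  have := hC r hr
  rw [iteratedDeriv_succ'] at this
  have e : q - 1 - (i : ℤ) = q - ((i + 1 : ℕ) : ℤ) := by
    push_cast
    ring
  rw [e]
  exact this

theorem sym_mul (hA : BaseA) {p q : ℤ} {f g : ℝ → ℝ} (hf : SymR p f) (hg : SymR q g) :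
    SymR (p + q) fun x => f x * g x := by
  refine ⟨hf.1.mul hg.1, fun j => ?_⟩
  choose A hA' using hf.2
  choose B hB' using hg.2
  refine ⟨∑ i ∈ Finset.range (j + 1), (j.choose i : ℝ) * (A i * B (j - i)), fun r hr => ?_⟩
  have e := hA.iter_mul (ε := 0) (f := f) (g := g) j (x := r) (hA.dom_zero ▸ hf.1)
    (hA.dom_zero ▸ hg.1) (hA.dom_zero ▸ hr)
  rw [e, Finset.sum_mul]
  refine (Finset.abs_sum_le_sum_abs _ _).trans (Finset.sum_le_sum fun i hi => ?_)
  have hij : i ≤ j := Nat.lt_succ_iff.1 (Finset.mem_range.1 hi)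
  have h1 := mul_le_mul (hA' i r hr) (hB' (j - i) r hr) (abs_nonneg _)
    ((abs_nonneg _).trans (hA' i r hr))
  have h2 : (1 + r) ^ (p + q - (j : ℤ)) =
      (1 + r) ^ (p - (i : ℤ)) * (1 + r) ^ (q - ((j - i : ℕ) : ℤ)) := by
    rw [← zpow_add₀ (by positivity), Nat.cast_sub hij]
    congr 1
    ring
  have h3 := mul_le_mul_of_nonneg_left h1 (Nat.cast_nonneg (α := ℝ) (j.choose i))
  rw [abs_mul, abs_mul, Nat.abs_cast, h2]
  linarith

/-- the derivative in the new variable -/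
noncomputable def XX (b f : ℝ → ℝ) : ℝ → ℝ := fun x => b x * deriv f x

theorem sym_XX (hA : BaseA) {b ψ : ℝ → ℝ} (hb : SymR (-2) b) (hψ : SymR (-3) ψ) (i : ℕ) :
    SymR (-3 - 3 * i) ((XX b)^[i] ψ) := by
  induction i with
  | zero => simpa using hψ
  | succ i ih =>
    rw [Function.iterate_succ_apply']
    have e : (-3 - 3 * ((i + 1 : ℕ) : ℤ)) = -2 + (-3 - 3 * (i : ℤ) - 1) := by
      push_cast
      ring
    rw [e]
    exact sym_mul hA hb (sym_deriv ih)

theorem comp_deriv {b ζ g : ℝ → ℝ} (hζ : ∀ η, 0 < η → 0 < ζ η ∧ HasDerivAt ζ (b (ζ η)) η)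
    (hg : ContDiffOn ℝ ∞ g (Ioi 0)) {η : ℝ} (hη : 0 < η) :
    HasDerivAt (fun η => g (ζ η)) (XX b g (ζ η)) η := by
  have h1 : DifferentiableAt ℝ g (ζ η) :=
    (hg.contDiffAt (Ioi_mem_nhds (hζ η hη).1)).differentiableAt (by simp)
  have h2 := h1.hasDerivAt.comp η (hζ η hη).2
  rw [mul_comm] at h2
  exact h2

theorem comp_smooth {b ζ : ℝ → ℝ} (hζ : ∀ η, 0 < η → 0 < ζ η ∧ HasDerivAt ζ (b (ζ η)) η)
    (hb : ContDiffOn ℝ ∞ b (Ioi 0)) (n : ℕ) :
    ∀ g : ℝ → ℝ, ContDiffOn ℝ ∞ g (Ioi 0) → ContDiffOn ℝ n (fun η => g (ζ η)) (Ioi 0) := by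
  induction n with
  | zero =>
    intro g hg
    rw [Nat.cast_zero, contDiffOn_zero]
    exact fun η hη => (comp_deriv hζ hg hη).continuousAt.continuousWithinAt
  | succ n ih =>
    intro g hg
    rw [Nat.cast_succ, contDiffOn_succ_iff_deriv_of_isOpen isOpen_Ioi]
    refine ⟨fun η hη => (comp_deriv hζ hg hη).differentiableAt.differentiableWithinAt,
      fun h => absurd h (by simp), ?_⟩
    refine (ih (XX b g) (hb.mul (hg.deriv_of_isOpen isOpen_Ioi (by simp)))).congr fun η hη => ?_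
    exact (comp_deriv hζ hg hη).deriv

theorem comp_iter (hA : BaseA) {b ψ ζ : ℝ → ℝ}
    (hζ : ∀ η, 0 < η → 0 < ζ η ∧ HasDerivAt ζ (b (ζ η)) η) (hb : SymR (-2) b) (hψ : SymR (-3) ψ)
    (i : ℕ) : ∀ η, 0 < η → iteratedDeriv i (fun η => ψ (ζ η)) η = (XX b)^[i] ψ (ζ η) := by
  induction i with
  | zero => intro η _; simp
  | succ i ih =>
    intro η hη
    have e : iteratedDeriv i (fun η => ψ (ζ η)) =ᶠ[𝓝 η] fun η => (XX b)^[i] ψ (ζ η) :=
      Filter.mem_of_superset (Ioi_mem_nhds hη) fun x hx => ih x hx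
    rw [iteratedDeriv_succ, e.deriv_eq, Function.iterate_succ_apply']
    exact (comp_deriv hζ (sym_XX hA hb hψ i).1 hη).deriv

end CompAux

open CompAux

theorem cauchy (hH : HolStmt) : CauchyStmt := by
  rintro Φ q hΦ ⟨C, hC⟩
  have han : ∀ r : ℝ, 0 < r → AnalyticAt ℂ Φ r := fun r hr =>
    hΦ.analyticAt (hH.open_O.mem_nhds (hH.real_mem r hr.le))
  refine ⟨fun r hr => ((han r hr).contDiffAt.real_of_complex).contDiffWithinAt, fun i => ?_⟩
  refine ⟨i.factorial * (|C| * 2 ^ q.natAbs) * 200 ^ i, fun r hr => ?_⟩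
  rw [iter_re han i r hr]
  refine (Complex.abs_re_le_norm _).trans ?_
  have hR : 0 < (1 + r) / 200 := by positivity
  have hsub : Metric.closedBall (r : ℂ) ((1 + r) / 200) ⊆ OmO :=
    (Metric.closedBall_subset_ball (by linarith)).trans (hH.tube r hr.le)
  have hd : DiffContOnCl ℂ Φ (Metric.ball (r : ℂ) ((1 + r) / 200)) :=
    DifferentiableOn.diffContOnCl (hΦ.mono (Metric.closure_ball_subset_closedBall.trans hsub))
  have hb : ∀ z ∈ Metric.sphere (r : ℂ) ((1 + r) / 200),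
      ‖Φ z‖ ≤ |C| * 2 ^ q.natAbs * (1 + r) ^ q := fun z hz => by
    have h1 := hC z (hsub (Metric.sphere_subset_closedBall hz))
    have h2 : ‖z - r‖ = (1 + r) / 200 := mem_sphere_iff_norm.1 hz
    have h3 : ‖(r : ℂ)‖ = r := by
      rw [Complex.norm_real, Real.norm_of_nonneg hr.le]
    have h4 := norm_sub_norm_le z r
    have h5 := norm_sub_norm_le (r : ℂ) z
    rw [norm_sub_rev] at h5
    have h0 := norm_nonneg z
    have h6 := zpow_cmp (a := 1 + ‖z‖) (b := 1 + r) (by positivity) (by positivity)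
      (by linarith) (by linarith) q
    have h7 := mul_le_mul_of_nonneg_left h6 (abs_nonneg C)
    have h8 := mul_le_mul_of_nonneg_right (le_abs_self C)
      (zpow_pos (a := 1 + ‖z‖) (by positivity) q).le
    linarith
  refine (Complex.norm_iteratedDeriv_le_of_forall_mem_sphere_norm_le i hR hd hb).trans_eq ?_
  rw [zpow_sub₀ (by positivity), zpow_natCast, div_pow]
  field_simp

theorem comp (hA : BaseA) : CompStmt := by
  rintro E b ψ h0 hc hd hb hψ ⟨C, hC⟩ hT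
  have hmono : StrictMonoOn E (Ici 0) := by
    refine strictMonoOn_of_deriv_pos (convex_Ici 0) hc fun x hx => ?_
    rw [interior_Ici] at hx
    rw [(hd x hx).2.deriv]
    exact inv_pos.2 (hd x hx).1
  have hpos : ∀ r, 0 < r → 0 < E r := fun r hr => h0 ▸ hmono self_mem_Ici hr.le hr
  have hex : ∀ η, ∃ r, 0 < η → 0 < r ∧ E r = η := fun η => by
    by_cases hη : 0 < η
    · obtain ⟨R, hR, hR0⟩ := ((hT.eventually_ge_atTop η).and (eventually_ge_atTop 0)).exists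
      obtain ⟨r, hr, hr'⟩ := intermediate_value_Icc hR0 (hc.mono Icc_subset_Ici_self)
        (⟨h0.le.trans hη.le, hR⟩ : η ∈ Icc (E 0) (E R))
      refine ⟨r, fun _ => ⟨lt_of_le_of_ne hr.1 ?_, hr'⟩⟩
      rintro rfl
      exact hη.ne (h0.symm.trans hr')
    · exact ⟨0, fun h => absurd h hη⟩
  choose ζ hζ using hex
  have hinv : ∀ r, 0 < r → ζ (E r) = r := fun r hr =>
    hmono.injOn (hζ _ (hpos r hr)).1.le hr.le (hζ _ (hpos r hr)).2
  have hζm : MonotoneOn ζ (Ioi 0) := fun x hx y hy hxy => by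
    rw [← hmono.le_iff_le (hζ x hx).1.le (hζ y hy).1.le, (hζ x hx).2, (hζ y hy).2]
    exact hxy
  have hder : ∀ η, 0 < η → HasDerivAt ζ (b (ζ η)) η := fun η hη => by
    have h1 : ContinuousAt ζ η := by
      refine continuousAt_of_monotoneOn_of_image_mem_nhds hζm (Ioi_mem_nhds hη) ?_
      exact Filter.mem_of_superset (Ioi_mem_nhds (hζ η hη).1) fun r hr =>
        ⟨E r, hpos r hr, hinv r hr⟩
    have h2 := HasDerivAt.of_local_left_inverse h1 (hd _ (hζ η hη).1).2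
      (inv_pos.2 (hd _ (hζ η hη).1).1).ne'
      (Filter.mem_of_superset (Ioi_mem_nhds hη) fun x hx => (hζ x hx).2)
    rwa [inv_inv] at h2
  have hζ' : ∀ η, 0 < η → 0 < ζ η ∧ HasDerivAt ζ (b (ζ η)) η := fun η hη =>
    ⟨(hζ η hη).1, hder η hη⟩
  refine ⟨ζ, fun η hη => ⟨(hζ η hη).1, (hζ η hη).2, hder η hη⟩,
    fun r hr => ⟨hpos r hr, hinv r hr⟩, fun h => ?_⟩
  have key : ∀ i : ℕ, ∃ M, 0 ≤ M ∧ ∀ η, 0 < η →
      |iteratedDeriv i (fun η => ψ (ζ η)) η| ≤ M * vp 1 η ^ (-1 - (i : ℤ)) := fun i => by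
    obtain ⟨D, hD⟩ := (sym_XX hA hb hψ i).2 0
    refine ⟨|D| * (1 + |C|) ^ (i + 1), by positivity, fun η hη => ?_⟩
    rw [comp_iter hA hζ' hb hψ i η hη]
    have hr := (hζ η hη).1
    have h1 := hD _ hr
    have e1 : (-3 - 3 * (i : ℤ) - ((0 : ℕ) : ℤ)) = -((3 * (i + 1) : ℕ) : ℤ) := by
      push_cast
      ring
    have e2 : (-1 - (i : ℤ)) = -((i + 1 : ℕ) : ℤ) := by
      push_cast
      ring
    rw [iteratedDeriv_zero, e1, zpow_neg, zpow_natCast, pow_mul] at h1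
    rw [e2, zpow_neg, zpow_natCast]
    have h2 : (1 : ℝ) ≤ (1 + ζ η) ^ 3 := one_le_pow₀ (by linarith)
    have h3 := hC _ hr.le
    rw [(hζ η hη).2] at h3
    have h4 := mul_le_mul_of_nonneg_right (le_abs_self C) (zero_le_one.trans h2)
    have h5 : vp 1 η ≤ (1 + |C|) * (1 + ζ η) ^ 3 := by
      have := hA.vp_le zero_le_one hη.le
      linarith
    have hv := hA.vp_pos η one_pos
    have h6 : (((1 + ζ η) ^ 3) ^ (i + 1))⁻¹ ≤ (1 + |C|) ^ (i + 1) * (vp 1 η ^ (i + 1))⁻¹ := by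
      rw [← div_eq_mul_inv, le_div_iff₀ (pow_pos hv _), ← div_eq_inv_mul,
        div_le_iff₀ (by positivity), ← mul_pow]
      exact pow_le_pow_left₀ hv.le h5 _
    have h7 := mul_le_mul_of_nonneg_left h6 (abs_nonneg D)
    have h8 := mul_le_mul_of_nonneg_right (le_abs_self D)
      (by positivity : 0 ≤ (((1 + ζ η) ^ 3) ^ (i + 1))⁻¹)
    linarith
  choose M hM hM' using key
  refine ⟨∑ i ∈ Finset.range (h + 1), M i, ?_, fun i hi x hx => ?_⟩
  · rw [hA.dom_zero]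
    exact contDiffOn_infty.2 fun n => comp_smooth hζ' hb.1 n ψ hψ.1
  · rw [hA.dom_zero] at hx
    refine (hM' i x hx).trans (mul_le_mul_of_nonneg_right ?_ (zpow_pos (hA.vp_pos x one_pos) _).le)
    exact Finset.single_le_sum (fun j _ => hM j) (Finset.mem_range.2 (Nat.lt_succ_of_le hi))

end Vale.Agent.P264
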