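import Vale.Agent.P264.StmG

/-! The error of the limit profile. -/

namespace Vale.Agent.P264

open scoped ComplexConjugate
open Set Filter Topology

namespace F0

theorem an_add {f g : ℂ → ℂ} (hf : An f) (hg : An g) : An fun z => f z + g z :=
  ⟨fun z hz => (hf.1 z hz).add (hg.1 z hz), fun z => by simp only [map_add, hf.2, hg.2]⟩

theorem an_sub {f g : ℂ → ℂ} (hf : An f) (hg : An g) : An fun z => f z - g z :=
  ⟨fun z hz => (hf.1 z hz).sub (hg.1 z hz), fun z => by simp only [map_sub, hf.2, hg.2]⟩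

theorem an_cmul {f : ℂ → ℂ} {c : ℂ} (hc : conj c = c) (hf : An f) : An fun z => c * f z :=
  ⟨fun z hz => analyticAt_const.mul (hf.1 z hz), fun z => by simp only [map_mul, hf.2, hc]⟩

theorem JJ_cmul (k : ℕ) (c : ℂ) (f : ℂ → ℂ) (z : ℂ) :
    JJ k (fun w => c * f w) z = c * JJ k f z := by
  unfold JJ
  rw [← intervalIntegral.integral_const_mul]
  congr 1
  funext t
  ring

theorem ne_of_mm {w : ℂ} (h : mm w ≠ 0) :
    1000 + 3 * w ≠ 0 ∧ 1000 + w ≠ 0 ∧ qq w ≠ 0 ∧ ww w ≠ 0 ∧ vv w ≠ 0 := by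
  refine ⟨?_, ?_, ?_, ?_, ?_⟩ <;> intro h0 <;> exact h (by simp [mm, h0])

/-- `g` is the Euler derivative of `f` -/
def HasD (f g : ℂ → ℂ) : Prop := ∀ w, mm w ≠ 0 → DifferentiableAt ℂ f w ∧ Dh f w = g w

theorem hasD_xi (hG : GeoStmt) {f f' g : ℂ → ℂ}
    (hf : ∀ w, qq w ≠ 0 → HasDerivAt f (f' (xi w)) (xi w))
    (hg : ∀ w, qq w ≠ 0 → xi w * f' (xi w) * (ww w * vv w) / qq w = g w) :
    HasD (fun w => f (xi w)) g := by
  intro w hw
  obtain ⟨h1, h2, h3, h4, h5⟩ := ne_of_mm hw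
  have h6 : HasDerivAt (fun w => f (xi w)) (f' (xi w) * ((1 + w / 1000) * (1 + 3 * w / 1000))) w :=
    (hf w h3).comp w (hG.xi_deriv w)
  refine ⟨h6.differentiableAt, ?_⟩
  rw [← hg w h3, Dh, h6.deriv]
  generalize f' (xi w) = y
  have h7 : 1000 + w * 3 ≠ 0 := by rwa [mul_comm]
  rw [mm, xi]
  field_simp

noncomputable def a0 (w : ℂ) : ℂ := 1 / qq w
noncomputable def a1 (w : ℂ) : ℂ := xi w ^ 2 / qq w
noncomputable def a2 (w : ℂ) : ℂ := xi w ^ 4 / qq w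

/-- polynomials in the three atoms -/
inductive Pol : (ℂ → ℂ) → Prop
  | a0 : Pol a0
  | a1 : Pol a1
  | a2 : Pol a2
  | const (c : ℂ) : Pol fun _ => c
  | add {f g : ℂ → ℂ} : Pol f → Pol g → Pol fun w => f w + g w
  | mul {f g : ℂ → ℂ} : Pol f → Pol g → Pol fun w => f w * g w

theorem atom_bd (hG : GeoStmt) {k : ℕ} (hk : k ≤ 4) :
    ∃ C, ∀ z ∈ OmC, ‖xi z ^ k / qq z‖ ≤ C := by
  obtain ⟨C, hC, hb⟩ := hG.bd
  refine ⟨C, fun z hz => ?_⟩
  have h1 := (hb z hz).2.2.2.2.2.2.2.1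
  have hC0 : 0 < C := by linarith
  have h2 : 0 < 1 + ‖xi z‖ ^ 4 := by positivity
  have h3 : 0 < ‖qq z‖ := lt_of_lt_of_le (by positivity) h1
  rw [inv_mul_le_iff₀ hC0] at h1
  rw [norm_div, norm_pow, div_le_iff₀ h3]
  refine le_trans ?_ h1
  rcases le_total ‖xi z‖ 1 with h | h
  · have h4 := pow_le_one₀ (n := k) (norm_nonneg _) h
    have h5 : 0 ≤ ‖xi z‖ ^ 4 := by positivity
    linarith
  · have h4 := pow_le_pow_right₀ h hk
    linarith

theorem Pol.bd (hG : GeoStmt) {f : ℂ → ℂ} (h : Pol f) : ∃ C, ∀ z ∈ OmC, ‖f z‖ ≤ C := by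
  induction h with
  | a0 => simpa [F0.a0] using atom_bd hG (k := 0) (by norm_num)
  | a1 => exact atom_bd hG (by norm_num)
  | a2 => exact atom_bd hG (by norm_num)
  | const c => exact ⟨‖c‖, fun _ _ => le_rfl⟩
  | add _ _ h1 h2 =>
    obtain ⟨C, hC⟩ := h1
    obtain ⟨D, hD⟩ := h2
    exact ⟨C + D, fun z hz => (norm_add_le _ _).trans (add_le_add (hC z hz) (hD z hz))⟩
  | mul _ _ h1 h2 =>
    obtain ⟨C, hC⟩ := h1
    obtain ⟨D, hD⟩ := h2
    exact ⟨C * D, fun z hz => (norm_mul_le _ _).trans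
      (mul_le_mul (hC z hz) (hD z hz) (norm_nonneg _) ((norm_nonneg _).trans (hC z hz)))⟩

theorem atom_D (hG : GeoStmt) (k : ℕ) : HasD (fun w => xi w ^ k / qq w) fun w =>
    (1 + 8 / 9 * a1 w) * ((k + -4 * a2 w) * (xi w ^ k / qq w)) := by
  refine hasD_xi hG (f := fun x => x ^ k / (x ^ 4 + 4 / 27))
    (f' := fun x => (k * x ^ (k - 1) * (x ^ 4 + 4 / 27) - x ^ k * (4 * x ^ 3)) /
      (x ^ 4 + 4 / 27) ^ 2) (fun w hw => ?_) fun w hw => ?_
  · have h1 : HasDerivAt (fun x : ℂ => x ^ 4 + 4 / 27) (4 * xi w ^ 3) (xi w) := by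
      simpa using (hasDerivAt_pow 4 (xi w)).add_const (4 / 27)
    exact (hasDerivAt_pow k (xi w)).fun_div h1 hw
  · have h1 : xi w * (k * xi w ^ (k - 1)) = k * xi w ^ k := by
      rcases k with _ | k
      · simp
      · rw [Nat.add_sub_cancel, pow_succ]
        ring
    have h2 : ww w * vv w = qq w + 8 / 9 * xi w ^ 2 := by
      rw [ww, vv, qq]
      ring
    have h3 : xi w ^ 4 + 4 / 27 = qq w := rfl
    simp only [h2, h3, a1, a2]
    rw [← mul_div_assoc, mul_sub, ← mul_assoc (xi w), h1]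
    field_simp
    ring

theorem Pol.hasD (hG : GeoStmt) {f : ℂ → ℂ} (h : Pol f) : ∃ g, Pol g ∧ HasD f g := by
  have hN : Pol fun w => 1 + 8 / 9 * F0.a1 w := (Pol.const 1).add ((Pol.const _).mul Pol.a1)
  have hM : ∀ k : ℕ, Pol fun w => k + -4 * F0.a2 w := fun k =>
    (Pol.const _).add ((Pol.const _).mul Pol.a2)
  induction h with
  | a0 =>
    refine ⟨_, hN.mul ((hM 0).mul Pol.a0), ?_⟩
    have h1 := atom_D hG 0
    simp only [pow_zero] at h1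
    exact h1
  | a1 => exact ⟨_, hN.mul ((hM 2).mul Pol.a1), atom_D hG 2⟩
  | a2 => exact ⟨_, hN.mul ((hM 4).mul Pol.a2), atom_D hG 4⟩
  | const c => exact ⟨_, Pol.const 0, fun w _ => ⟨differentiableAt_const _, by simp [Dh]⟩⟩
  | add _ _ h1 h2 =>
    obtain ⟨f', hf, hf'⟩ := h1
    obtain ⟨g', hg, hg'⟩ := h2
    refine ⟨_, hf.add hg, fun w hw => ⟨(hf' w hw).1.add (hg' w hw).1, ?_⟩⟩
    rw [← (hf' w hw).2, ← (hg' w hw).2, Dh, Dh, Dh, deriv_fun_add (hf' w hw).1 (hg' w hw).1]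
    ring
  | mul p1 p2 h1 h2 =>
    obtain ⟨f', hf, hf'⟩ := h1
    obtain ⟨g', hg, hg'⟩ := h2
    refine ⟨_, (hf.mul p2).add (p1.mul hg), fun w hw => ⟨(hf' w hw).1.mul (hg' w hw).1, ?_⟩⟩
    rw [← (hf' w hw).2, ← (hg' w hw).2, Dh, Dh, Dh, deriv_fun_mul (hf' w hw).1 (hg' w hw).1]
    ring

theorem mm_ne (hG : GeoStmt) {z : ℂ} (hz : z ∈ OmC) : mm z ≠ 0 := by
  obtain ⟨C, hC, hb⟩ := hG.bd
  have h1 := (hb z hz).2.2.2.2.1
  intro h0
  rw [h0, Complex.zero_re] at h1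
  exact absurd h1 (not_le.2 (inv_pos.2 (by linarith)))

/-- agreement with a polynomial in the atoms -/
def Good (f : ℂ → ℂ) : Prop := ∃ p, Pol p ∧ ∀ z ∈ OmC, f =ᶠ[𝓝 z] p

theorem ev_mm (hG : GeoStmt) {z : ℂ} (hz : z ∈ OmC) : ∀ᶠ w in 𝓝 z, mm w ≠ 0 :=
  (hG.an.2.2.2.2.2.2.1.1 z hz).continuousAt.eventually_ne (mm_ne hG hz)

theorem Good.bd (hG : GeoStmt) {f : ℂ → ℂ} (h : Good f) : ∃ C, ∀ z ∈ OmC, ‖f z‖ ≤ C := by
  obtain ⟨p, hp, h⟩ := h
  obtain ⟨C, hC⟩ := hp.bd hG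
  exact ⟨C, fun z hz => (h z hz).self_of_nhds ▸ hC z hz⟩

theorem Good.Dh (hG : GeoStmt) {f : ℂ → ℂ} (h : Good f) : Good (Dh f) := by
  obtain ⟨p, hp, h⟩ := h
  obtain ⟨g, hg, hD⟩ := hp.hasD hG
  refine ⟨g, hg, fun z hz => ?_⟩
  filter_upwards [(h z hz).deriv, ev_mm hG hz] with w h1 h2
  rw [← (hD w h2).2, P264.Dh, P264.Dh, h1]

theorem G0_eq {w : ℂ} (h : qq w ≠ 0) :
    G0 w = 2 / 3 * (2 / 9 - xi w ^ 2) / qq w := by
  have h1 : vv w ^ 2 = qq w + 4 / 9 * xi w ^ 2 - 8 / 81 := by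
    rw [vv, qq]
    ring
  rw [G0, g0]
  field_simp
  rw [h1]
  ring

theorem good_G0 (hG : GeoStmt) : Good G0 := by
  refine ⟨_, ((Pol.const (4 / 27)).mul Pol.a0).add ((Pol.const (-2 / 3)).mul Pol.a1),
    fun z hz => ?_⟩
  filter_upwards [ev_mm hG hz] with w hw
  rw [G0_eq (ne_of_mm hw).2.2.1, a0, a1]
  ring

theorem prim_G0 (hG : GeoStmt) (hJ : JStmt) {z : ℂ} (hz : z ∈ OmC) :
    1 - g0 z = ee z ^ 2 * JJ 1 G0 z := by
  have hψ : An fun w => 2 / 3 * xi w / vv w :=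
    ⟨fun w hw => (analyticAt_const.mul (hG.an.1.1 w hw)).div (hG.an.2.1.1 w hw)
      (ne_of_mm (mm_ne hG hw)).2.2.2.2, fun w => by
        simp only [map_div₀, map_mul, hG.an.1.2, hG.an.2.1.2, map_ofNat]⟩
  have h1 := hJ.prim (f := G0) hψ (fun w hw => ?_) z hz
  · obtain ⟨-, -, -, -, h5⟩ := ne_of_mm (mm_ne hG hz)
    have h2 : xi 0 = 0 := by simp [xi]
    have h3 : ee z = xi z * ww z / vv z := by
      rw [ee, e1, xi]
      ring
    have h4 : qq z = 3 * vv z ^ 2 - 2 * xi z ^ 2 * ww z := by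
      rw [vv, qq, ww]
      ring
    rw [sq, mul_assoc, h1, h2, h3, g0, h4]
    field_simp
    ring
  · obtain ⟨h1, h2, h3, h4, h5⟩ := ne_of_mm (mm_ne hG hw)
    have h6 := hG.xi_deriv w
    have h7 : HasDerivAt vv (2 * xi w * ((1 + w / 1000) * (1 + 3 * w / 1000))) w := by
      have h8 : HasDerivAt (fun x => xi x ^ 2)
          (2 * xi w * ((1 + w / 1000) * (1 + 3 * w / 1000))) w := by simpa using h6.fun_pow 2
      exact h8.add_const (2 / 9)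
    have h8 : 2 / 9 - xi w ^ 2 = vv w - 2 * xi w ^ 2 := by
      rw [vv]
      ring
    rw [((h6.const_mul (2 / 3)).fun_div h7 h5).deriv, G0_eq h3, h8, e1, mm]
    field_simp

end F0

open F0 in
theorem f0 (hH : HolStmt) (hG : GeoStmt) (hJ : JStmt) : F0Stmt := by
  obtain ⟨C0, h0⟩ := (good_G0 hG).bd hG
  obtain ⟨C1, h1⟩ := ((good_G0 hG).Dh hG).bd hG
  obtain ⟨C2, h2⟩ := (((good_G0 hG).Dh hG).Dh hG).bd hG
  have hA : An G0 := hG.an.2.2.2.2.2.2.2.2.2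
  have hA1 : An (Dh G0) := hG.an_Dh hA
  refine ⟨C2 + 5 * C1 + 5 * C0, fun n hn => ?_⟩
  have hn0 : (n : ℂ) ≠ 0 := Nat.cast_ne_zero.2 (by omega)
  have hnR : (1 : ℝ) ≤ n := Nat.one_le_cast.2 hn
  set u : ℂ → ℂ := fun w => Dh G0 w + ((n + 1 : ℕ) : ℂ) * G0 w with hu
  have hU : An u := an_add hA1 (an_cmul (map_natCast _ _) hA)
  have hV : An fun w => ((n : ℂ) ^ 2)⁻¹ * (Dh u w + ((n + 2 : ℕ) : ℂ) * u w) :=
    an_cmul (by simp) (an_add (hG.an_Dh hU) (an_cmul (map_natCast _ _) hU))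
  refine ⟨fun w => ((n : ℂ) ^ 2)⁻¹ * (Dh u w + ((n + 2 : ℕ) : ℂ) * u w) - G0 w,
    hH.an_hol (an_sub hV hA), fun z hz => ?_, fun z hz => ?_⟩
  · have e1 : Dh u z = Dh (Dh G0) z + ((n + 1 : ℕ) : ℂ) * Dh G0 z := by
      rw [hu, Dh, deriv_fun_add (hA1.1 z hz).differentiableAt
        ((hA.1 z hz).differentiableAt.const_mul _), deriv_const_mul_field, Dh, Dh]
      ring
    have e2 : ((n : ℂ) ^ 2)⁻¹ * (Dh u z + ((n + 2 : ℕ) : ℂ) * u z) - G0 z =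
        (Dh (Dh G0) z + ((2 * n + 3 : ℝ) : ℂ) * Dh G0 z + ((3 * n + 2 : ℝ) : ℂ) * G0 z) /
          (n : ℂ) ^ 2 := by
      rw [e1, hu]
      push_cast
      field_simp
      ring
    have p0 := (norm_nonneg _).trans (h0 z hz)
    have p1 := (norm_nonneg _).trans (h1 z hz)
    have p2 := (norm_nonneg _).trans (h2 z hz)
    have b1 : ‖((2 * n + 3 : ℝ) : ℂ) * Dh G0 z‖ ≤ 5 * n * C1 := by
      rw [norm_mul, Complex.norm_real, Real.norm_of_nonneg (by positivity)]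
      exact mul_le_mul (by linarith) (h1 z hz) (norm_nonneg _) (by positivity)
    have b0 : ‖((3 * n + 2 : ℝ) : ℂ) * G0 z‖ ≤ 5 * n * C0 := by
      rw [norm_mul, Complex.norm_real, Real.norm_of_nonneg (by positivity)]
      exact mul_le_mul (by linarith) (h0 z hz) (norm_nonneg _) (by positivity)
    have b2 : ‖Dh (Dh G0) z‖ ≤ n * C2 := (h2 z hz).trans (le_mul_of_one_le_left p2 hnR)
    simp only
    rw [e2, norm_div, norm_pow, Complex.norm_natCast, div_le_div_iff₀ (by positivity)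
      (by positivity), sq, ← mul_assoc]
    refine mul_le_mul_of_nonneg_right ((norm_add₃_le).trans ?_) (by positivity)
    linarith
  · have e1 : ∀ w ∈ OmC, JJ (n + 2) (fun w => G0 w + (((n : ℂ) ^ 2)⁻¹ *
        (Dh u w + ((n + 2 : ℕ) : ℂ) * u w) - G0 w)) w = ((n : ℂ) ^ 2)⁻¹ * u w := by
      intro w hw
      simp only [add_sub_cancel]
      rw [JJ_cmul, hJ.left_inv (by omega) hU w hw]
    rw [prim_G0 hG hJ hz, KK]
    congr 1
    refine hJ.congr 1 fun t ht => ?_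
    have hw := hH.star_C z hz t ht
    simp only
    rw [hJ.congr (n + 1) (g := fun w => ((n : ℂ) ^ 2)⁻¹ * u w)
      fun s hs => e1 _ (hH.star_C _ hw s hs), JJ_cmul,
      hJ.left_inv (by omega) hA _ hw, mul_inv_cancel_left₀ (pow_ne_zero 2 hn0)]

end Vale.Agent.P264
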