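import Vale.Agent.P264.StmG

/-!
The root of the characteristic cubic and the exponential dichotomy in the far field.
-/

namespace Vale.Agent.P264

open scoped Topology InnerProductSpace
open Set Filter

namespace Far

/-- The characteristic cubic. -/
def cub (N x : ℝ) : ℝ := (x - 1) * (x + N - 1) * (x + N)

lemma cub_lt {N x y : ℝ} (hN : 1 ≤ N) (hx : 1 ≤ x) (h : x < y) : cub N x < cub N y := by
  unfold cub
  have h1 : (x - 1) * (x + N - 1) < (y - 1) * (y + N - 1) := by nlinarith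
  have h2 : 0 ≤ (x - 1) * (x + N - 1) := mul_nonneg (by linarith) (by linarith)
  exact mul_lt_mul'' h1 (by linarith) h2 (by linarith)

lemma lt_of_cub {N x y : ℝ} (hN : 1 ≤ N) (hy : 1 ≤ y) (h : cub N x < cub N y) : x < y := by
  by_contra h1
  rcases (not_lt.1 h1).eq_or_lt with h2 | h2
  · rw [h2] at h
    exact lt_irrefl _ h
  · exact lt_asymm h (cub_lt hN hy h2)

lemma exists_root {N T : ℝ} (hN : 1 ≤ N) (hT : 0 < T) : ∃ x, 1 < x ∧ cub N x = T := by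
  have hc : ContinuousOn (cub N) (Icc 1 (1 + T)) := by
    unfold cub
    fun_prop
  have h1 : T ≤ cub N (1 + T) := by
    unfold cub
    have h2 : 1 ≤ (1 + T + N - 1) * (1 + T + N) := by nlinarith
    nlinarith
  have h0 : cub N 1 = 0 := by simp [cub]
  obtain ⟨x, hx, hx'⟩ := intermediate_value_Icc (by linarith) hc ⟨h0.trans_le hT.le, h1⟩
  refine ⟨x, hx.1.lt_of_ne fun h => ?_, hx'⟩
  rw [← h, h0] at hx'
  exact hT.ne hx'

lemma cont_root {N : ℝ} (hN : 1 ≤ N) {T μ : ℝ → ℝ} (hT : Continuous T)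
    (h : ∀ s, 1 < μ s ∧ cub N (μ s) = T s) (s : ℝ) : ContinuousAt μ s := by
  refine tendsto_order.2 ⟨fun a ha => ?_, fun a ha => ?_⟩
  · rcases le_or_gt a 1 with h1 | h1
    · exact .of_forall fun t => h1.trans_lt (h t).1
    · have h2 := cub_lt hN h1.le ha
      rw [(h s).2] at h2
      filter_upwards [(hT.tendsto s).eventually (lt_mem_nhds h2)] with t ht
      exact lt_of_cub hN (h t).1.le (by rwa [(h t).2])
  · have h2 := cub_lt hN (h s).1.le ha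
    rw [(h s).2] at h2
    filter_upwards [(hT.tendsto s).eventually (gt_mem_nhds h2)] with t ht
    exact lt_of_cub hN ((h s).1.trans ha).le (by rwa [(h t).2])

lemma deriv_nonpos {g : ℝ → ℝ} {g' a S : ℝ} (h : HasDerivAt g g' a) (ha : a < S)
    (hm : ∀ s ∈ Icc a S, g s ≤ g a) : g' ≤ 0 := by
  refine le_of_tendsto ((hasDerivAt_iff_tendsto_slope.1 h).mono_left (nhdsGT_le_nhdsNE a)) ?_
  filter_upwards [Ioo_mem_nhdsGT ha] with s hs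
  rw [slope_def_field]
  exact div_nonpos_of_nonpos_of_nonneg (sub_nonpos.2 (hm s ⟨hs.1.le, hs.2.le⟩))
    (sub_nonneg.2 hs.1.le)

lemma deriv_nonneg {g : ℝ → ℝ} {g' a S : ℝ} (h : HasDerivAt g g' a) (ha : S < a)
    (hm : ∀ s ∈ Icc S a, g s ≤ g a) : 0 ≤ g' := by
  refine ge_of_tendsto ((hasDerivAt_iff_tendsto_slope.1 h).mono_left (nhdsLT_le_nhdsNE a)) ?_
  filter_upwards [Ioo_mem_nhdsLT ha] with s hs
  rw [slope_def_field]
  exact div_nonneg_of_nonpos (sub_nonpos.2 (hm s ⟨hs.1.le, hs.2.le⟩)) (sub_nonpos.2 hs.2.le)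

lemma exists_weight (s₀ : ℝ) : ∃ ω ω' : ℝ → ℝ, ω s₀ = 1 / 2 ∧ ∀ s, HasDerivAt ω (ω' s) s ∧
    0 < ω s ∧ ω s ≤ 1 ∧ ω s ≤ Real.exp (-(7 * (s - s₀))) ∧ ω' s ≤ 0 ∧ -ω' s ≤ 7 * ω s := by
  refine ⟨fun s => (1 + Real.exp (7 * (s - s₀)))⁻¹, fun s =>
    -(Real.exp (7 * (s - s₀)) * 7) / (1 + Real.exp (7 * (s - s₀))) ^ 2, by norm_num, fun s => ?_⟩
  have he := Real.exp_pos (7 * (s - s₀))
  refine ⟨?_, by positivity, inv_le_one_of_one_le₀ (by linarith), ?_, ?_, ?_⟩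
  · have h1 : HasDerivAt (fun s => 7 * (s - s₀)) 7 s := by
      simpa using ((hasDerivAt_id s).sub_const s₀).const_mul 7
    exact (h1.exp.const_add 1).inv (by positivity)
  · rw [Real.exp_neg]
    exact inv_anti₀ he (by linarith)
  · exact div_nonpos_of_nonpos_of_nonneg (by linarith) (by positivity)
  · show -(-(Real.exp (7 * (s - s₀)) * 7) / (1 + Real.exp (7 * (s - s₀))) ^ 2) ≤
      7 * (1 + Real.exp (7 * (s - s₀)))⁻¹
    rw [neg_div, neg_neg, div_le_iff₀ (by positivity), pow_two, ← mul_assoc, mul_assoc 7,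
      inv_mul_cancel₀ (by positivity)]
    linarith

/-- The maximum principle argument. -/
lemma core {X Y Z X' Y' Z' : ℝ → ℂ} {s₁ S φ : ℝ} (hφ : 0 ≤ φ)
    (hX : ∀ s ∈ Icc s₁ S, HasDerivAt X (X' s) s) (hY : ∀ s ∈ Icc s₁ S, HasDerivAt Y (Y' s) s)
    (hZ : ∀ s ∈ Icc s₁ S, HasDerivAt Z (Z' s) s)
    (hL : ∀ s ∈ Icc s₁ S, 0 ≤ 2 * ⟪X s, X' s⟫_ℝ + 2 * ⟪Y s, Y' s⟫_ℝ +
      (⟪X s, Y' s⟫_ℝ + ⟪X' s, Y s⟫_ℝ) → ‖X s‖ + ‖Y s‖ ≤ 32 * ‖Z s‖)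
    (hM : ∀ s ∈ Icc s₁ S, ⟪Z s, Z' s⟫_ℝ ≤ 7 * ‖Z s‖ ^ 2 → ‖Z s‖ ≤ 2 * φ + (‖X s‖ + ‖Y s‖) / 128)
    {s₀ : ℝ} (h₀ : s₀ ∈ Icc s₁ S) :
    ‖Z s₀‖ ≤ 4 * (Real.exp (-(7 * (S - s₀))) * ‖Z S‖) + 8 * φ + (‖X s₁‖ + ‖Y s₁‖) / 16 ∧
      ‖X s₀‖ + ‖Y s₀‖ ≤ 8 * (‖X s₁‖ + ‖Y s₁‖) + 256 * (Real.exp (-(7 * (S - s₀))) * ‖Z S‖) +
        512 * φ := by
  obtain ⟨ω, ω', hω₀, hω⟩ := exists_weight s₀
  have d1 : ∀ s ∈ Icc s₁ S, HasDerivAt (fun s => ω s ^ 2 * ‖Z s‖ ^ 2)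
      (2 * ω s * ω' s * ‖Z s‖ ^ 2 + ω s ^ 2 * (2 * ⟪Z s, Z' s⟫_ℝ)) s := fun s hs =>
    (((hω s).1.fun_pow 2).fun_mul (hZ s hs).norm_sq).congr_deriv (by norm_num)
  have d2 : ∀ s ∈ Icc s₁ S, HasDerivAt (fun s => ω s ^ 2 * (‖X s‖ ^ 2 + ‖Y s‖ ^ 2 + ⟪X s, Y s⟫_ℝ))
      (2 * ω s * ω' s * (‖X s‖ ^ 2 + ‖Y s‖ ^ 2 + ⟪X s, Y s⟫_ℝ) + ω s ^ 2 * (2 * ⟪X s, X' s⟫_ℝ +
        2 * ⟪Y s, Y' s⟫_ℝ + (⟪X s, Y' s⟫_ℝ + ⟪X' s, Y s⟫_ℝ))) s := fun s hs =>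
    (((hω s).1.fun_pow 2).fun_mul (((hX s hs).norm_sq.fun_add (hY s hs).norm_sq).fun_add
      ((hX s hs).inner ℝ (hY s hs)))).congr_deriv (by norm_num)
  obtain ⟨a, ha, hma⟩ := isCompact_Icc.exists_isMaxOn ⟨s₀, h₀⟩
    fun s hs => (d1 s hs).continuousAt.continuousWithinAt
  obtain ⟨b, hb, hmb⟩ := isCompact_Icc.exists_isMaxOn ⟨s₀, h₀⟩
    fun s hs => (d2 s hs).continuousAt.continuousWithinAt
  have l1 : ∀ s, (‖X s‖ + ‖Y s‖) ^ 2 ≤ 4 * (‖X s‖ ^ 2 + ‖Y s‖ ^ 2 + ⟪X s, Y s⟫_ℝ) ∧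
      ‖X s‖ ^ 2 + ‖Y s‖ ^ 2 + ⟪X s, Y s⟫_ℝ ≤ (‖X s‖ + ‖Y s‖) ^ 2 := fun s => by
    have h := abs_le.1 (abs_real_inner_le_norm (X s) (Y s))
    constructor <;> nlinarith [h.1, h.2, sq_nonneg (‖X s‖ - ‖Y s‖),
      mul_nonneg (norm_nonneg (X s)) (norm_nonneg (Y s))]
  have t0 : ∀ s, 0 ≤ ‖X s‖ + ‖Y s‖ := fun s => by positivity
  have m1 : ∀ s ∈ Icc s₁ S, ω s * ‖Z s‖ ≤ ω a * ‖Z a‖ := fun s hs => by
    refine le_of_pow_le_pow_left₀ two_ne_zero (mul_nonneg (hω a).2.1.le (norm_nonneg _)) ?_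
    rw [mul_pow, mul_pow]
    exact hma hs
  have m2 : ∀ s ∈ Icc s₁ S, ω s * (‖X s‖ + ‖Y s‖) ≤ 2 * (ω b * (‖X b‖ + ‖Y b‖)) := fun s hs => by
    refine le_of_pow_le_pow_left₀ two_ne_zero (mul_nonneg zero_le_two (mul_nonneg (hω b).2.1.le (t0 b))) ?_
    have h1 : ω s ^ 2 * _ ≤ ω b ^ 2 * _ := hmb hs
    have h2 := mul_le_mul_of_nonneg_left (l1 s).1 (sq_nonneg (ω s))
    have h3 := mul_le_mul_of_nonneg_left (l1 b).2 (sq_nonneg (ω b))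
    rw [mul_pow, mul_pow, mul_pow]
    linarith
  have e0 : 0 ≤ Real.exp (-(7 * (S - s₀))) * ‖Z S‖ := by positivity
  have a0 : 0 ≤ ω a * ‖Z a‖ := mul_nonneg (hω a).2.1.le (norm_nonneg _)
  have b0 : 0 ≤ ω b * (‖X b‖ + ‖Y b‖) := mul_nonneg (hω b).2.1.le (t0 b)
  have k1 : ω a * ‖Z a‖ ≤ Real.exp (-(7 * (S - s₀))) * ‖Z S‖ + 2 * φ +
      ω b * (‖X b‖ + ‖Y b‖) / 64 := by
    rcases ha.2.eq_or_lt with h | h
    · have h1 := mul_le_mul_of_nonneg_right (hω S).2.2.2.1 (norm_nonneg (Z S))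
      rw [h]
      linarith
    · have h1 := deriv_nonpos (d1 a ha) h fun s hs => hma ⟨ha.1.trans hs.1, hs.2⟩
      obtain ⟨-, w0, w1, -, -, w2⟩ := hω a
      have h2 := mul_le_mul_of_nonneg_right w2 (mul_nonneg w0.le (sq_nonneg ‖Z a‖))
      have h3 := hM a ha (le_of_mul_le_mul_left (by linarith) (pow_pos w0 2))
      have h4 := mul_le_mul_of_nonneg_left h3 w0.le
      have h5 := mul_le_mul_of_nonneg_right w1 hφ
      linarith [m2 a ha]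
  have k2 : ω b * (‖X b‖ + ‖Y b‖) ≤ ‖X s₁‖ + ‖Y s₁‖ + 32 * (ω a * ‖Z a‖) := by
    rcases hb.1.eq_or_lt with h | h
    · have h1 := mul_le_mul_of_nonneg_right (hω s₁).2.2.1 (t0 s₁)
      rw [← h]
      linarith
    · have h1 := deriv_nonneg (d2 b hb) h fun s hs => hmb ⟨hs.1, hs.2.trans hb.2⟩
      obtain ⟨-, w0, -, -, w1, -⟩ := hω b
      have h2 : 0 ≤ ‖X b‖ ^ 2 + ‖Y b‖ ^ 2 + ⟪X b, Y b⟫_ℝ := by
        linarith [(l1 b).1, sq_nonneg (‖X b‖ + ‖Y b‖)]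
      have h3 := mul_nonneg (mul_nonneg w0.le (neg_nonneg.2 w1)) h2
      have h4 := hL b hb (le_of_mul_le_mul_left (by linarith) (pow_pos w0 2))
      have h5 := mul_le_mul_of_nonneg_left h4 w0.le
      linarith [m1 b hb, t0 s₁]
  have n1 := m1 s₀ h₀
  have n2 := m2 s₀ h₀
  rw [hω₀] at n1 n2
  constructor <;> linarith

lemma ineqL {X Y E₁ E₂ : ℂ} {ν b z : ℝ} (hν : 0 < ν) (h1 : ν ≤ b) (h2 : b ≤ 2 * ν) (hz : 0 ≤ z)
    (e1 : ‖E₁‖ ≤ 3 * ν * ((‖X‖ + ‖Y‖) / 32)) (e2 : ‖E₂‖ ≤ 3 * ν * (2 * z + (‖X‖ + ‖Y‖) / 32))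
    (h : 0 ≤ 2 * ⟪X, (3 * ν) • Y + E₁⟫_ℝ + 2 * ⟪Y, (-(3 * b)) • Y + (-(3 * ν)) • X + E₂⟫_ℝ +
      (⟪X, (-(3 * b)) • Y + (-(3 * ν)) • X + E₂⟫_ℝ + ⟪(3 * ν) • Y + E₁, Y⟫_ℝ)) :
    ‖X‖ + ‖Y‖ ≤ 32 * z := by
  simp only [inner_add_right, inner_add_left, real_inner_smul_right, real_inner_smul_left,
    real_inner_self_eq_norm_sq, real_inner_comm X Y] at h
  have r1 := (abs_le.1 (abs_real_inner_le_norm X Y)).1
  have r2 := (real_inner_le_norm X E₁).trans (mul_le_mul_of_nonneg_left e1 (norm_nonneg X))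
  have r3 := (real_inner_le_norm Y E₂).trans (mul_le_mul_of_nonneg_left e2 (norm_nonneg Y))
  have r4 := (real_inner_le_norm X E₂).trans (mul_le_mul_of_nonneg_left e2 (norm_nonneg X))
  have r5 := (real_inner_le_norm E₁ Y).trans (mul_le_mul_of_nonneg_right e1 (norm_nonneg Y))
  have hx := norm_nonneg X
  have hy := norm_nonneg Y
  generalize ‖X‖ = x at *
  generalize ‖Y‖ = y at *
  have r6 := mul_le_mul_of_nonneg_left r1 (hν.le.trans h1)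
  have r7 : 0 ≤ ν * x ^ 2 / 2 + (2 * b - 3 * ν / 2) * y ^ 2 - b * (x * y) := by
    refine le_of_mul_le_mul_left ?_ hν
    have r8 := mul_nonneg (mul_nonneg (sub_nonneg.2 h1) (by linarith : 0 ≤ 3 * ν - b)) (sq_nonneg y)
    nlinarith [sq_nonneg (ν * x - b * y)]
  have r8 : ν * ((x ^ 2 + y ^ 2) / 2) ≤ ν * (3 * (x + y) ^ 2 / 32 + 2 * z * (x + 2 * y)) := by
    linarith
  have r9 := le_of_mul_le_mul_left r8 hν
  by_contra hc
  have hc' := not_le.1 hc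
  have ht : 0 < x + y := by linarith
  nlinarith [sq_nonneg (x - y), mul_pos ht (sub_pos.2 hc'), mul_nonneg hz hx]

lemma norm_m {m : ℂ} (h : ‖m / 3 - 1‖ ≤ 1 / 1000) : ‖m - 3‖ ≤ 3 / 1000 ∧ ‖m‖ ≤ 4 := by
  have h1 : ‖m - 3‖ ≤ 3 / 1000 := by
    rw [show m - 3 = 3 * (m / 3 - 1) by ring, norm_mul, Complex.norm_ofNat]
    linarith
  have h2 := norm_le_norm_add_norm_sub' m 3
  rw [Complex.norm_ofNat] at h2
  exact ⟨h1, by linarith⟩

lemma norm_re {r R : ℝ} (h0 : 0 ≤ r) (h : r ≤ R) : ‖(r : ℂ)‖ ≤ R := by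
  rwa [Complex.norm_real, Real.norm_of_nonneg h0]

lemma lemL {X Y Z m : ℂ} {ν b k : ℝ} (hν : 10000 ≤ ν) (h1 : ν ≤ b) (h2 : b ≤ 2 * ν) (k0 : 0 ≤ k)
    (k1 : k ≤ 6) (hm : ‖m / 3 - 1‖ ≤ 1 / 1000)
    (h : 0 ≤ 2 * ⟪X, m * (X + ν * Y)⟫_ℝ +
      2 * ⟪Y, m * (-(b * Y) + (ν - 1 : ℝ) * (Z - X)) - k * Y⟫_ℝ +
      (⟪X, m * (-(b * Y) + (ν - 1 : ℝ) * (Z - X)) - k * Y⟫_ℝ + ⟪m * (X + ν * Y), Y⟫_ℝ)) :
    ‖X‖ + ‖Y‖ ≤ 32 * ‖Z‖ := by
  obtain ⟨m1, m2⟩ := norm_m hm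
  have q1 : m * (X + ν * Y) = (3 * ν) • Y + (m * X + (m - 3) * (ν * Y)) := by
    rw [Complex.real_smul]
    push_cast
    ring
  have q2 : m * (-(b * Y) + (ν - 1 : ℝ) * (Z - X)) - k * Y = (-(3 * b)) • Y + (-(3 * ν)) • X +
      (m * ((ν - 1 : ℝ) * Z) + 3 * X - (m - 3) * (b * Y) - (m - 3) * ((ν - 1 : ℝ) * X) - k * Y) := by
    rw [Complex.real_smul, Complex.real_smul]
    push_cast
    ring
  rw [q1, q2] at h
  have n1 := norm_re (by linarith : 0 ≤ ν) le_rfl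
  have n2 := norm_re (by linarith : 0 ≤ b) h2
  have n3 := norm_re (by linarith : 0 ≤ ν - 1) (by linarith : ν - 1 ≤ ν)
  have n4 := norm_re k0 k1
  have p1 := mul_le_mul_of_nonneg_right hν (norm_nonneg X)
  have p2 := mul_le_mul_of_nonneg_right hν (norm_nonneg Y)
  have p3 := mul_nonneg (by linarith : 0 ≤ ν) (norm_nonneg Z)
  have hx := norm_nonneg X
  have hy := norm_nonneg Y
  refine ineqL (by linarith) h1 h2 (norm_nonneg Z) ?_ ?_ h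
  · calc _ ≤ 4 * ‖X‖ + 3 / 1000 * (ν * ‖Y‖) := by
          refine (norm_add_le _ _).trans ?_
          simp only [norm_mul]
          gcongr
      _ ≤ _ := by linarith
  · calc _ ≤ 4 * (ν * ‖Z‖) + 3 * ‖X‖ + 3 / 1000 * (2 * ν * ‖Y‖) + 3 / 1000 * (ν * ‖X‖) +
          6 * ‖Y‖ := by
          refine norm_sub_le_of_le (norm_sub_le_of_le (norm_sub_le_of_le
            (norm_add_le_of_le ?_ ?_) ?_) ?_) ?_ <;> simp only [norm_mul, Complex.norm_ofNat] <;>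
            gcongr
      _ ≤ _ := by linarith

lemma lemZ {X Y Z m ε f : ℂ} {μ k r φ : ℝ} (hμ : 10000 ≤ μ) (k0 : 0 ≤ k) (k1 : k ≤ 6) (r0 : 0 ≤ r)
    (r1 : r ≤ 2) (hm : ‖m / 3 - 1‖ ≤ 1 / 1000) (hε : ‖ε‖ ≤ 1 / 1000) (hf : ‖f‖ ≤ φ)
    (h : ⟪Z, m * (μ * Z + (μ - 1 : ℝ) * (ε * X + f)) - k * (r * (Z - X) - Y)⟫_ℝ ≤ 7 * ‖Z‖ ^ 2) :
    ‖Z‖ ≤ 2 * φ + (‖X‖ + ‖Y‖) / 128 := by
  obtain ⟨m1, m2⟩ := norm_m hm
  have q1 : m * (μ * Z + (μ - 1 : ℝ) * (ε * X + f)) - k * (r * (Z - X) - Y) = (3 * μ) • Z +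
      ((m - 3) * (μ * Z) + m * ((μ - 1 : ℝ) * (ε * X + f)) - k * (r * (Z - X) - Y)) := by
    rw [Complex.real_smul]
    push_cast
    ring
  have n1 := norm_re (by linarith : 0 ≤ μ) le_rfl
  have n2 := norm_re (by linarith : 0 ≤ μ - 1) (by linarith : μ - 1 ≤ μ)
  have n3 := norm_re k0 k1
  have n4 := norm_re r0 r1
  have n5 : ‖ε * X + f‖ ≤ 1 / 1000 * ‖X‖ + φ := by
    refine (norm_add_le _ _).trans ?_
    rw [norm_mul]
    gcongr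
  have n6 : ‖r * (Z - X) - Y‖ ≤ 2 * (‖Z‖ + ‖X‖) + ‖Y‖ := by
    refine norm_sub_le_of_le ?_ le_rfl
    have n7 := norm_sub_le Z X
    rw [norm_mul]
    gcongr
  have hφ : 0 ≤ φ := (norm_nonneg f).trans hf
  have n7 : ‖(m - 3) * (μ * Z) + m * ((μ - 1 : ℝ) * (ε * X + f)) - k * (r * (Z - X) - Y)‖ ≤
      3 / 1000 * (μ * ‖Z‖) + 4 * (μ * (1 / 1000 * ‖X‖ + φ)) + 6 * (2 * (‖Z‖ + ‖X‖) + ‖Y‖) := by
    refine norm_sub_le_of_le (norm_add_le_of_le ?_ ?_) ?_ <;> simp only [norm_mul] <;> gcongr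
  rw [q1, inner_add_right, real_inner_smul_right, real_inner_self_eq_norm_sq] at h
  have n8 := (abs_le.1 ((abs_real_inner_le_norm Z _).trans
    (mul_le_mul_of_nonneg_left n7 (norm_nonneg Z)))).1
  have hx := norm_nonneg X
  have hy := norm_nonneg Y
  rcases (norm_nonneg Z).eq_or_lt with hz | hz
  · rw [← hz]
    positivity
  have n9 : 3 * μ * ‖Z‖ ≤ 7 * ‖Z‖ + (3 / 1000 * (μ * ‖Z‖) + 4 * (μ * (1 / 1000 * ‖X‖ + φ)) +
      6 * (2 * (‖Z‖ + ‖X‖) + ‖Y‖)) := le_of_mul_le_mul_left (by linarith) hz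
  have p1 := mul_le_mul_of_nonneg_right hμ hx
  have p2 := mul_le_mul_of_nonneg_right hμ hy
  have p3 := mul_le_mul_of_nonneg_right hμ hz.le
  have p4 := mul_nonneg (by linarith : 0 ≤ μ) hφ
  exact le_of_mul_le_mul_left (by linarith) (by linarith : 0 < μ)

end Far

open Far

theorem root : RootStmt := by
  intro n c hn hc
  have hN : (1 : ℝ) ≤ n := by exact_mod_cast hn
  have hT : ∀ s, 0 < (n : ℝ) ^ 2 * (c * Real.exp (6 * s)) := fun s => by positivity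
  refine ⟨?_, fun μ hμ s => ?_⟩
  · choose μ h using fun s => exists_root hN (hT s)
    exact ⟨μ, h⟩
  have h1 := (hμ s).1
  have a1 : 0 < μ s - 1 := by linarith
  have a2 : 0 < μ s + n - 1 := by linarith
  have a3 : 0 < μ s + n := by linarith
  have hc' := cont_root hN (T := fun s => (n : ℝ) ^ 2 * (c * Real.exp (6 * s))) (by fun_prop) hμ s
  have hd : HasDerivAt (fun x => (Real.log (x - 1) + Real.log (x + n - 1) + Real.log (x + n) -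
      Real.log ((n : ℝ) ^ 2 * c)) / 6) ((1 / (μ s - 1) + 1 / (μ s + n - 1) + 1 / (μ s + n)) / 6)
      (μ s) :=
    ((((((hasDerivAt_id' (μ s)).sub_const 1).log a1.ne').fun_add
      ((((hasDerivAt_id' (μ s)).add_const _).sub_const 1).log a2.ne')).fun_add
      (((hasDerivAt_id' (μ s)).add_const _).log a3.ne')).sub_const _).div_const 6
  have hp : 0 < (1 / (μ s - 1) + 1 / (μ s + n - 1) + 1 / (μ s + n)) / 6 := by positivity
  refine ⟨_, hd.of_local_left_inverse hc' hp.ne' (.of_forall fun t => ?_), by positivity, ?_, ?_⟩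
  · have h2 := (hμ t).1
    have b1 : μ t - 1 ≠ 0 := by linarith
    have b2 : μ t + n - 1 ≠ 0 := by linarith
    have b3 : μ t + n ≠ 0 := by linarith
    rw [← Real.log_mul b1 b2, ← Real.log_mul (mul_ne_zero b1 b2) b3, (hμ t).2, ← mul_assoc,
      Real.log_mul (by positivity) (Real.exp_pos _).ne', Real.log_exp]
    ring
  · rw [inv_le_comm₀ hp (by positivity), mul_inv, ← one_div (μ s + n - 1)]
    have b1 : 0 < 1 / (μ s - 1) := by positivity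
    have b2 : 0 < 1 / (μ s + n) := by positivity
    linarith
  · refine le_of_mul_le_mul_left ?_ (by positivity : (0 : ℝ) < (n : ℝ) ^ 2)
    rw [← (hμ s).2]
    have b1 : μ s + n ≤ n * (μ s + 1) := by nlinarith
    calc _ ≤ (μ s + 1) * (n * (μ s + 1)) * (n * (μ s + 1)) := by
          gcongr <;> linarith
      _ = _ := by ring

theorem far (h : RootStmt) : FarStmt := by
  refine ⟨1 / 1000, 10001 ^ 3, 512, by norm_num, by norm_num,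
    fun n c s₁ S φ μ m ε f u p w hn hc hS hV hμ hs => ?_⟩
  choose μ' hd h0 h6 hb using (h n c hn hc).2 μ hμ
  have hN : (1 : ℝ) ≤ n := by exact_mod_cast hn
  have hbig : ∀ s ∈ Icc s₁ S, 10000 ≤ μ s := fun s hs' => by
    have h1 : c * Real.exp (6 * s₁) ≤ c * Real.exp (6 * s) := by gcongr; exact hs'.1
    have h2 := le_of_pow_le_pow_left₀ three_ne_zero (by linarith [(hμ s).1])
      ((hV.trans h1).trans (hb s))
    linarith
  have hφ : 0 ≤ φ := (norm_nonneg _).trans (hs s₁ ⟨le_rfl, hS⟩).2.2.1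
  have a2 : ∀ s, 0 < μ s + n - 1 := fun s => by linarith [(hμ s).1]
  have a3 : ∀ s, 0 < μ s + n := fun s => by linarith [(hμ s).1]
  have c2 : ∀ s, (μ s : ℂ) + n - 1 ≠ 0 := fun s => by exact_mod_cast (a2 s).ne'
  have c3 : ∀ s, (μ s : ℂ) + n ≠ 0 := fun s => by exact_mod_cast (a3 s).ne'
  have dν : ∀ s, HasDerivAt (fun s => (μ s : ℂ) + n) (μ' s) s := fun s =>
    (hd s).ofReal_comp.add_const _
  have hY : ∀ s, ‖p s / ((μ s : ℂ) + n)‖ = ‖p s‖ / (μ s + n) := fun s => by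
    rw [norm_div, ← Complex.ofReal_natCast, ← Complex.ofReal_add, Complex.norm_real,
      Real.norm_of_nonneg (a3 s).le]
  have key := fun s₀ (h₀ : s₀ ∈ Icc s₁ S) => core (X := u) (Y := fun s => p s / ((μ s : ℂ) + n))
    (Z := fun s => Zf n (μ s) (u s) (p s) (w s))
    (X' := fun s => m s * (u s + (μ s + n : ℝ) * (p s / ((μ s : ℂ) + n))))
    (Y' := fun s => m s * (-((μ s + n + n - 1 : ℝ) * (p s / ((μ s : ℂ) + n))) +
      (μ s + n - 1 : ℝ) * (Zf n (μ s) (u s) (p s) (w s) - u s)) -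
        (μ' s / (μ s + n) : ℝ) * (p s / ((μ s : ℂ) + n)))
    (Z' := fun s => m s * (μ s * Zf n (μ s) (u s) (p s) (w s) + (μ s - 1 : ℝ) * (ε s * u s + f s)) -
      (μ' s / (μ s + n - 1) : ℝ) * (((2 * (μ s + n) - 1) / (μ s + n) : ℝ) *
        (Zf n (μ s) (u s) (p s) (w s) - u s) - p s / ((μ s : ℂ) + n))) hφ
    (fun s hs' => (hs s hs').2.2.2.1.congr_deriv (by
      have := c3 s
      push_cast
      field_simp))
    (fun s hs' => ((hs s hs').2.2.2.2.1.fun_div (dν s) (c3 s)).congr_deriv (by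
      have := c2 s
      have := c3 s
      unfold Zf
      push_cast
      field_simp
      ring))
    (fun s hs' => by
      obtain ⟨-, -, -, d1, d2, d3⟩ := hs s hs'
      have d4 := (dν s).sub_const 1
      refine ((d1.fun_add (d2.fun_div d4 (c2 s))).fun_add ((d3.const_mul (n : ℂ)).fun_div
        (d4.fun_mul (dν s)) (mul_ne_zero (c2 s) (c3 s)))).congr_deriv ?_
      have e : ((μ s : ℂ) - 1) * (μ s + n - 1) * (μ s + n) =
          (n : ℂ) ^ 2 * (c * Real.exp (6 * s) : ℝ) := by exact_mod_cast (hμ s).2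
      have e' : (n : ℂ) * (m s * (-(n * w s) + n * (c * Real.exp (6 * s) : ℝ) *
          ((1 + ε s) * u s + f s))) = m s * (-(n * (n * w s)) + ((μ s : ℂ) - 1) * (μ s + n - 1) *
            (μ s + n) * ((1 + ε s) * u s + f s)) := by
        rw [e]
        ring
      have := c2 s
      have := c3 s
      rw [e']
      unfold Zf
      push_cast
      field_simp
      ring)
    (fun s hs' => lemL (by linarith [hbig s hs']) (by linarith) (by linarith [(hμ s).1])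
      (div_nonneg (h0 s) (a3 s).le) (by rw [div_le_iff₀ (a3 s)]; linarith [h6 s]) (hs s hs').1)
    (fun s hs' => lemZ (hbig s hs') (div_nonneg (h0 s) (a2 s).le)
      (by rw [div_le_iff₀ (a2 s)]; exact h6 s) (div_nonneg (by linarith [a2 s]) (a3 s).le)
      (by rw [div_le_iff₀ (a3 s)]; linarith) (hs s hs').1 (hs s hs').2.1 (hs s hs').2.2.1) h₀
  simp only [hY] at key
  have p0 : ∀ s, 0 ≤ Real.exp (-(7 * (S - s))) * ‖Zf n (μ S) (u S) (p S) (w S)‖ := fun s => by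
    positivity
  have p1 : ∀ s, 0 ≤ ‖p s‖ / (μ s + n) := fun s => div_nonneg (norm_nonneg _) (a3 s).le
  refine ⟨?_, fun s hs' => ?_⟩
  · linarith [(key s₁ ⟨le_rfl, hS⟩).1, p0 s₁, p1 s₁, norm_nonneg (u s₁)]
  · linarith [(key s hs').2, p0 s, p1 s₁, p1 s, norm_nonneg (u s₁)]

end Vale.Agent.P264
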