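import Vale.Agent.P264.StmG

/-!
The nonlinear fixed point for the holomorphic profile.
-/

namespace Vale.Agent.P264

open Set Filter Topology

namespace Fix

/-- the quadratic remainder -/
noncomputable def NN (g u : ℂ) : ℂ := u ^ 2 / (2 * g ^ 2 * (g - u))

theorem norm_sub_ge {g u : ℂ} {D r : ℝ} (hD : 1 ≤ D) (hg : D⁻¹ ≤ ‖g‖) (hu : ‖u‖ ≤ r)
    (hr : 2 * D * r ≤ 1) : (2 * D)⁻¹ ≤ ‖g - u‖ := by
  have h1 : ‖g‖ - ‖u‖ ≤ ‖g - u‖ := norm_sub_norm_le g u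
  have h2 : r ≤ (2 * D)⁻¹ := by
    rw [← one_div, le_div_iff₀ (by linarith)]
    linarith
  have h3 : D⁻¹ = 2 * (2 * D)⁻¹ := by field_simp
  linarith

theorem ne_of_le {g : ℂ} {D : ℝ} (hD : 0 < D) (hg : D⁻¹ ≤ ‖g‖) : g ≠ 0 :=
  norm_pos_iff.mp ((inv_pos.mpr hD).trans_le hg)

theorem norm_inv_le {g : ℂ} {D : ℝ} (hD : 0 < D) (hg : D⁻¹ ≤ ‖g‖) : ‖g⁻¹‖ ≤ D := by
  rw [norm_inv]
  exact inv_le_of_inv_le₀ hD hg

theorem NN_lip {g u v : ℂ} {D r : ℝ} (hD : 1 ≤ D) (hg : D⁻¹ ≤ ‖g‖) (hg' : ‖g‖ ≤ D)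
    (hu : ‖u‖ ≤ r) (hv : ‖v‖ ≤ r) (hr : 2 * D * r ≤ 1) :
    ‖NN g u - NN g v‖ ≤ 6 * D ^ 5 * r * ‖u - v‖ := by
  have hD0 : 0 < D := by linarith
  have hr0 : 0 ≤ r := (norm_nonneg _).trans hu
  have h1 := norm_sub_ge hD hg hu hr
  have h2 := norm_sub_ge hD hg hv hr
  have n0 := ne_of_le hD0 hg
  have n1 := ne_of_le (by linarith) h1
  have n2 := ne_of_le (by linarith) h2
  have e : NN g u - NN g v =
      (g * (u + v) - u * v) * (g⁻¹) ^ 2 * (g - u)⁻¹ * (g - v)⁻¹ / 2 * (u - v) := by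
    unfold NN
    field_simp
    ring
  have b0 := norm_inv_le hD0 hg
  have b1 := norm_inv_le (by linarith) h1
  have b2 := norm_inv_le (by linarith) h2
  have b3 : ‖g * (u + v) - u * v‖ ≤ 3 * D * r := by
    have c1 : ‖g * (u + v)‖ ≤ D * (r + r) := by
      rw [norm_mul]
      exact mul_le_mul hg' ((norm_add_le _ _).trans (add_le_add hu hv)) (norm_nonneg _) hD0.le
    have c2 : ‖u * v‖ ≤ r * r := by
      rw [norm_mul]
      exact mul_le_mul hu hv (norm_nonneg _) hr0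
    have c3 : r ≤ D := by nlinarith
    have c4 := norm_sub_le (g * (u + v)) (u * v)
    nlinarith
  rw [e, norm_mul]
  refine mul_le_mul_of_nonneg_right ?_ (norm_nonneg _)
  rw [norm_div, norm_mul, norm_mul, norm_mul, norm_pow, Complex.norm_ofNat]
  calc ‖g * (u + v) - u * v‖ * ‖g⁻¹‖ ^ 2 * ‖(g - u)⁻¹‖ * ‖(g - v)⁻¹‖ / 2
      ≤ 3 * D * r * D ^ 2 * (2 * D) * (2 * D) / 2 := by gcongr
    _ = 6 * D ^ 5 * r := by ring

theorem hol_HH (hH : HolStmt) (hG : GeoStmt) (κ : ℝ) {F u : ℂ → ℂ} (hF : Hol F) (hu : Hol u) :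
    Hol (HH κ F u) := by
  have h1 : Hol AA := hH.an_hol hG.an.2.2.2.2.2.2.2.2.1
  refine hH.hol_congr (fun w _ => ?_)
    (hH.hol_add (hH.hol_sub (hH.hol_const κ) (hH.hol_mul h1 hu)) hF)
  unfold HH
  ring

theorem linEq_sub (hH : HolStmt) (hG : GeoStmt) (hJ : JStmt) {n : ℕ} {a κ a' κ' : ℝ}
    {F F' u u' : ℂ → ℂ} (hF : Hol F) (hF' : Hol F') (hu : Hol u) (hu' : Hol u')
    (h : LinEq n a κ F u) (h' : LinEq n a' κ' F' u') :
    LinEq n (a - a') (κ - κ') (fun z => F z - F' z) (fun z => u z - u' z) := by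
  intro z hz
  have e1 : HH (κ - κ') (fun z => F z - F' z) (fun z => u z - u' z) =
      fun w => 1 * HH κ F u w + (-1) * HH κ' F' u' w := by
    funext w
    unfold HH
    push_cast
    ring
  rw [e1, hJ.KK_lin n 1 (-1) (hol_HH hH hG κ hF hu).2.1 (hol_HH hH hG κ' hF' hu').2.1 hz]
  have e2 := h z hz
  have e3 := h' z hz
  push_cast
  linear_combination e2 - e3

/-- a contraction of the ball of radius `r` has a fixed point -/
theorem fixed (hH : HolStmt) {r : ℝ} (hr : 0 ≤ r)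
    (T : {u : ℂ → ℂ // Hol u ∧ ∀ z ∈ OmC, ‖u z‖ ≤ r} → {u : ℂ → ℂ // Hol u ∧ ∀ z ∈ OmC, ‖u z‖ ≤ r})
    (hT : ∀ u v (d : ℝ), (∀ z ∈ OmC, ‖u.1 z - v.1 z‖ ≤ d) →
      ∀ z ∈ OmC, ‖(T u).1 z - (T v).1 z‖ ≤ d / 2) :
    ∃ u, ∀ z ∈ OmC, (T u).1 z = u.1 z := by
  let u0 : {u : ℂ → ℂ // Hol u ∧ ∀ z ∈ OmC, ‖u z‖ ≤ r} :=
    ⟨fun _ => ((0 : ℝ) : ℂ), hH.hol_const 0, fun z _ => by simpa using hr⟩
  let s : ℕ → ℂ → ℂ := fun j => (T^[j] u0).1
  have hs : ∀ j, ∀ z ∈ OmC, dist (s j z) (s (j + 1) z) ≤ 4 * r / 2 / 2 ^ j := by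
    intro j
    induction j with
    | zero =>
      intro z hz
      have h1 := (T^[0] u0).2.2 z hz
      have h2 := (T^[0 + 1] u0).2.2 z hz
      have h3 := norm_sub_le (s 0 z) (s (0 + 1) z)
      rw [dist_eq_norm]
      change ‖s 0 z‖ ≤ r at h1
      change ‖s (0 + 1) z‖ ≤ r at h2
      norm_num at h3 ⊢
      linarith
    | succ j ih =>
      intro z hz
      have h1 := hT (T^[j] u0) (T^[j + 1] u0) _ (fun w hw => by
        have := ih w hw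
        rwa [dist_eq_norm] at this) z hz
      rw [← Function.iterate_succ_apply' T j, ← Function.iterate_succ_apply' T (j + 1)] at h1
      rw [dist_eq_norm, pow_succ, ← div_div]
      exact h1
  let f : ℂ → ℂ := fun z => limUnder atTop fun j => s j z
  have hf : ∀ z ∈ OmC, Tendsto (fun j => s j z) atTop (𝓝 (f z)) := fun z hz =>
    (cauchySeq_of_le_geometric_two fun j => hs j z hz).tendsto_limUnder
  have hd : ∀ j, ∀ z ∈ OmC, dist (s j z) (f z) ≤ 4 * r / 2 ^ j := fun j z hz =>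
    dist_le_of_le_geometric_two_of_tendsto (fun j => hs j z hz) (hf z hz) j
  have h0 : Tendsto (fun j : ℕ => 4 * r / 2 ^ j) atTop (𝓝 0) :=
    tendsto_const_nhds.div_atTop (tendsto_pow_atTop_atTop_of_one_lt one_lt_two)
  have hfH : Hol f := by
    refine hH.hol_lim (u := s) (fun j => (T^[j] u0).2.1) fun R => ?_
    rw [Metric.tendstoUniformlyOn_iff]
    intro ε hε
    filter_upwards [h0.eventually (gt_mem_nhds hε)] with j hj z hz
    rw [dist_comm]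
    exact (hd j z hz.1).trans_lt hj
  have hfb : ∀ z ∈ OmC, ‖f z‖ ≤ r := fun z hz =>
    le_of_tendsto' (hf z hz).norm fun j => (T^[j] u0).2.2 z hz
  refine ⟨⟨f, hfH, hfb⟩, fun z hz => ?_⟩
  have h1 : Tendsto (fun j => s (j + 1) z) atTop (𝓝 ((T ⟨f, hfH, hfb⟩).1 z)) := by
    rw [tendsto_iff_norm_sub_tendsto_zero]
    refine squeeze_zero (fun j => norm_nonneg _) (fun j => ?_) (by simpa using h0.div_const 2)
    have h2 := hT (T^[j] u0) ⟨f, hfH, hfb⟩ _ (fun w hw => by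
      have := hd j w hw
      rwa [dist_eq_norm] at this) z hz
    rw [← Function.iterate_succ_apply' T j] at h2
    exact h2
  exact tendsto_nhds_unique h1 ((tendsto_add_atTop_iff_nat 1).mpr (hf z hz))

end Fix

open _root_.Vale.Agent.P264.Fix in
theorem fixS (hH : HolStmt) (hG : GeoStmt) (hJ : JStmt) (hL : LinStmt) (hF : F0Stmt) :
    HolSolStmt := by
  intro ρ hρ
  obtain ⟨D, hD, hbd⟩ := hG.bd
  obtain ⟨C, n₀, hC, hlin⟩ := hL
  obtain ⟨C₀, hF0⟩ := hF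
  have hg1 : ∀ z ∈ OmC, D⁻¹ ≤ ‖g0 z‖ := fun z hz => (hbd z hz).2.2.2.2.2.1
  have hg2 : ∀ z ∈ OmC, ‖g0 z‖ ≤ D := fun z hz => (hbd z hz).2.2.2.2.2.2.1
  have hg : Hol g0 := hH.an_hol hG.an.2.2.2.2.2.2.2.1
  have hG0 : Hol G0 := hH.an_hol hG.an.2.2.2.2.2.2.2.2.2
  have hD0 : 0 < D := by linarith
  have hD5 : D ≤ D ^ 5 := le_self_pow₀ hD (by norm_num)
  obtain ⟨r, hr0, hrρ, hrE⟩ : ∃ r : ℝ, 0 < r ∧ r ≤ ρ ∧ 12 * D ^ 5 * (C + 1) * r ≤ 1 := by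
    have hE : 0 < 12 * D ^ 5 * (C + 1) := by positivity
    refine ⟨min ρ (1 / (12 * D ^ 5 * (C + 1))), lt_min hρ (by positivity), min_le_left _ _, ?_⟩
    have := min_le_right ρ (1 / (12 * D ^ 5 * (C + 1)))
    rwa [le_div_iff₀ hE, mul_comm] at this
  have hp1 : 0 ≤ D ^ 5 * C * r := by positivity
  have hp2 : D * r ≤ D ^ 5 * r := mul_le_mul_of_nonneg_right hD5 hr0.le
  have hp3 : 0 ≤ D * r := by positivity
  have hr1 : 2 * D * r ≤ 1 := by nlinarith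
  have hr2 : C * (6 * D ^ 5 * r) ≤ 1 / 2 := by nlinarith
  obtain ⟨n, hn0, hn2, hn⟩ : ∃ n : ℕ, n₀ ≤ n ∧ 2 ≤ n ∧ C * (C₀ / n) ≤ r / 2 := by
    obtain ⟨m, hm⟩ := exists_nat_ge (2 * C * C₀ / r)
    refine ⟨m + n₀ + 2, by omega, by omega, ?_⟩
    have h1 : (0 : ℝ) < ((m + n₀ + 2 : ℕ) : ℝ) := by positivity
    have h2 : (m : ℝ) ≤ ((m + n₀ + 2 : ℕ) : ℝ) := by exact_mod_cast (by omega)
    rw [div_le_iff₀ hr0] at hm
    rw [← mul_div_assoc, div_le_iff₀ h1]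
    nlinarith
  obtain ⟨F₀, hF₀, hF₀b, hF₀e⟩ := hF0 n (by omega)
  have hne : ∀ {u : ℂ → ℂ}, (∀ z ∈ OmC, ‖u z‖ ≤ r) → ∀ z ∈ OmC, g0 z - u z ≠ 0 :=
    fun hu z hz => ne_of_le (by linarith) (norm_sub_ge hD (hg1 z hz) (hu z hz) hr1)
  have hFu : ∀ u : ℂ → ℂ, Hol u → (∀ z ∈ OmC, ‖u z‖ ≤ r) →
      Hol fun z => -NN (g0 z) (u z) - F₀ z := by
    intro u hu hub
    have h1 := hH.hol_div (hH.hol_mul hu hu)
      (hH.hol_mul (hH.hol_mul (hH.hol_const (-2)) (hH.hol_mul hg hg)) (hH.hol_sub hg hu))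
      fun z hz => mul_ne_zero (mul_ne_zero (by norm_num)
        (mul_self_ne_zero.mpr (ne_of_le hD0 (hg1 z hz)))) (hne hub z hz)
    refine hH.hol_congr (fun z _ => ?_) (hH.hol_sub h1 hF₀)
    unfold NN
    push_cast
    rw [neg_mul, neg_mul, div_neg, sq, sq]
  have hstep : ∀ u : {u : ℂ → ℂ // Hol u ∧ ∀ z ∈ OmC, ‖u z‖ ≤ r},
      ∃ v : {u : ℂ → ℂ // Hol u ∧ ∀ z ∈ OmC, ‖u z‖ ≤ r}, ∃ a κ : ℝ,
        LinEq n a κ (fun z => -NN (g0 z) (u.1 z) - F₀ z) v.1 := by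
    rintro ⟨u, hu, hub⟩
    have hb : ∀ z ∈ OmC, ‖-NN (g0 z) (u z) - F₀ z‖ ≤ 6 * D ^ 5 * r * r + C₀ / n := by
      intro z hz
      have h1 := NN_lip (v := 0) hD (hg1 z hz) (hg2 z hz) (hub z hz) (by simpa using hr0.le) hr1
      have h2 : NN (g0 z) 0 = 0 := by simp [NN]
      rw [h2, sub_zero, sub_zero] at h1
      have h3 := norm_sub_le (-NN (g0 z) (u z)) (F₀ z)
      have h4 : 6 * D ^ 5 * r * ‖u z‖ ≤ 6 * D ^ 5 * r * r :=
        mul_le_mul_of_nonneg_left (hub z hz) (by positivity)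
      rw [norm_neg] at h3
      linarith [hF₀b z hz]
    obtain ⟨⟨a, κ, v, hv, hvb, hve⟩, hap⟩ := hlin n hn0 _ _ (hFu u hu hub) hb
    refine ⟨⟨v, hv, fun z hz => ((hap a κ v hv hvb hve).2.2 z hz).trans ?_⟩, a, κ, hve⟩
    nlinarith
  choose T A κ hT using hstep
  obtain ⟨u, hu⟩ := fixed hH hr0.le T fun u v d hd z hz => by
    have hd0 : 0 ≤ d := (norm_nonneg _).trans (hd z hz)
    have h1 := linEq_sub hH hG hJ (hFu _ u.2.1 u.2.2) (hFu _ v.2.1 v.2.2) (T u).2.1 (T v).2.1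
      (hT u) (hT v)
    have hb : ∀ w ∈ OmC, ‖(-NN (g0 w) (u.1 w) - F₀ w) - (-NN (g0 w) (v.1 w) - F₀ w)‖ ≤
        6 * D ^ 5 * r * d := by
      intro w hw
      have h2 := NN_lip hD (hg1 w hw) (hg2 w hw) (u.2.2 w hw) (v.2.2 w hw) hr1
      have h3 : (-NN (g0 w) (u.1 w) - F₀ w) - (-NN (g0 w) (v.1 w) - F₀ w) =
          -(NN (g0 w) (u.1 w) - NN (g0 w) (v.1 w)) := by ring
      rw [h3, norm_neg]
      exact h2.trans (mul_le_mul_of_nonneg_left (hd w hw) (by positivity))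
    have h4 := ((hlin n hn0 _ _ (hH.hol_sub (hFu _ u.2.1 u.2.2) (hFu _ v.2.1 v.2.2)) hb).2 _ _ _
      (hH.hol_sub (T u).2.1 (T v).2.1) ⟨r + r, fun w hw => (norm_sub_le _ _).trans
        (add_le_add ((T u).2.2 w hw) ((T v).2.2 w hw))⟩ h1).2.2 z hz
    refine h4.trans ?_
    nlinarith
  refine ⟨n, A u, κ u, fun z => 1 - g0 z + (T u).1 z, hn2, ?_, fun z hz => ?_, fun z hz => ?_⟩
  · refine hH.hol_congr (fun z _ => ?_)
      (hH.hol_add (hH.hol_sub (hH.hol_const 1) hg) (T u).2.1)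
    simp
  · rw [add_sub_cancel_left]
    exact ((T u).2.2 z hz).trans hrρ
  · have e1 := hJ.KK_lin n 1 1 (hH.hol_add hG0 hF₀).2.1
      (hol_HH hH hG (κ u) (hFu _ u.2.1 u.2.2) (T u).2.1).2.1 hz
    have e2 := hJ.KK_congr n (F := fun w => 1 * (G0 w + F₀ w) +
        1 * HH (κ u) (fun z => -NN (g0 z) (u.1 z) - F₀ z) (T u).1 w)
      (G := fun w => 3 / 2 + κ u - 1 / (2 * (1 - (1 - g0 w + (T u).1 w)))) (fun w hw => by
        have n0 := ne_of_le hD0 (hg1 w hw)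
        have n1 := hne u.2.2 w hw
        have e3 : 1 - (1 - g0 w + u.1 w) = g0 w - u.1 w := by ring
        simp only [HH, G0, AA, NN, hu w hw, e3]
        field_simp
        ring) hz
    have e4 := hT u z hz
    have e5 := hF₀e z hz
    rw [← e2, e1]
    linear_combination e4 + e5

end Vale.Agent.P264
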