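import Vale.Agent.P264.StmG

/-!
Explicit rational functions on the sector (part G, file Geo). See PLAN.md.
-/

namespace Vale.Agent.P264

open scoped ContDiff ComplexConjugate Topology
open Set MeasureTheory Filter

namespace Geo

/-! ### Estimates in the variable `x = xi ^ 2` -/

lemma norm_ge_sub (x : ℂ) (c : ℝ) (hc : 0 ≤ c) : c - ‖x‖ ≤ ‖x + c‖ ∧ ‖x‖ - c ≤ ‖x + c‖ := by
  have h1 := norm_sub_le (x + c) x
  have h2 := norm_sub_le (x + c) c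
  rw [add_sub_cancel_left, Complex.norm_real, Real.norm_of_nonneg hc] at h1
  rw [add_sub_cancel_right, Complex.norm_real, Real.norm_of_nonneg hc] at h2
  constructor <;> linarith

lemma norm_le_add (x : ℂ) (c : ℝ) (hc : 0 ≤ c) : ‖x + c‖ ≤ ‖x‖ + c := by
  have h1 := norm_add_le x c
  rwa [Complex.norm_real, Real.norm_of_nonneg hc] at h1

/-- The three regions for `x`. -/
def Reg (x : ℂ) : Prop := ‖x‖ ≤ 0.0101 ∨ 0.48 * ‖x‖ ≤ x.re ∨ 9 ≤ ‖x‖

lemma lin_low {x : ℂ} (h : Reg x) {c : ℝ} (h1 : 2 / 9 ≤ c) (h2 : c ≤ 1) :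
    1 / 6 * (1 + ‖x‖) ≤ ‖x + c‖ := by
  have hc : 0 ≤ c := by linarith
  have := norm_ge_sub x c hc
  have n0 := norm_nonneg x
  rcases h with h | h | h
  · linarith [this.1]
  · have := Complex.re_le_norm (x + c)
    rw [Complex.add_re, Complex.ofReal_re] at this
    linarith
  · linarith [this.2]

lemma quad_b {x : ℂ} (h : 0.48 * ‖x‖ ≤ x.re) :
    0.46 * (‖x‖ ^ 4 + (4 / 27) ^ 2) ≤ ‖x ^ 2 + (4 / 27 : ℝ)‖ ^ 2 := by
  have n0 := norm_nonneg x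
  have e1 : ‖x‖ ^ 2 = x.re ^ 2 + x.im ^ 2 := by
    rw [Complex.sq_norm, Complex.normSq_apply]; ring
  have e2 : ‖x ^ 2 + (4 / 27 : ℝ)‖ ^ 2 =
      ‖x‖ ^ 4 + (4 / 27) ^ 2 + 2 * (4 / 27) * (2 * x.re ^ 2 - ‖x‖ ^ 2) := by
    have : ‖x‖ ^ 4 = (x.re ^ 2 + x.im ^ 2) ^ 2 := by rw [← e1]; ring
    rw [this, e1, Complex.sq_norm, Complex.normSq_apply]
    simp only [sq, Complex.add_re, Complex.mul_re, Complex.ofReal_re, Complex.add_im,
      Complex.mul_im, Complex.ofReal_im]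
    ring
  have e3 : (0.48 * ‖x‖) ^ 2 ≤ x.re ^ 2 := pow_le_pow_left₀ (by positivity) h 2
  rw [e2]
  nlinarith [sq_nonneg (‖x‖ ^ 2 - 4 / 27)]

lemma quad_low {x : ℂ} (h : Reg x) : 1 / 20 * (1 + ‖x‖ ^ 2) ≤ ‖x ^ 2 + (4 / 27 : ℝ)‖ := by
  have := norm_ge_sub (x ^ 2) (4 / 27) (by norm_num)
  rw [norm_pow] at this
  have n0 := norm_nonneg x
  rcases h with h | h | h
  · nlinarith [this.1]
  · have k := quad_b h
    refine le_of_sq_le_sq ?_ (norm_nonneg _)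
    nlinarith [sq_nonneg (‖x‖ ^ 2 - 1), sq_nonneg (‖x‖ ^ 2)]
  · nlinarith [this.2]

/-- The factor `N = ww vv / qq`. -/
noncomputable def NN (x : ℂ) : ℂ := 1 + 8 / 9 * (x / (x ^ 2 + (4 / 27 : ℝ)))

lemma NN_near {x : ℂ} (h : ‖x‖ ≤ 0.0101 ∨ 9 ≤ ‖x‖) : ‖NN x - 1‖ ≤ 1 / 10 := by
  have hr : Reg x := h.elim Or.inl fun h => Or.inr (Or.inr h)
  have q := quad_low hr
  have n0 := norm_nonneg x
  have q0 : 0 < ‖x ^ 2 + (4 / 27 : ℝ)‖ := lt_of_lt_of_le (by positivity) q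
  have := norm_ge_sub (x ^ 2) (4 / 27) (by norm_num)
  rw [norm_pow] at this
  have e : ‖(8 / 9 : ℂ)‖ = 8 / 9 := by norm_num
  rw [NN, add_sub_cancel_left, norm_mul, norm_div x, e, ← mul_div_assoc, div_le_iff₀ q0]
  rcases h with h | h
  · nlinarith [this.1]
  · nlinarith [this.2]

lemma NN_b {x : ℂ} (h : 0.48 * ‖x‖ ≤ x.re) : 1 ≤ (NN x).re ∧ ‖NN x‖ ≤ 4 := by
  have q := quad_low (Or.inr (Or.inl h))
  have k := quad_b h
  have n0 := norm_nonneg x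
  have q0 : 0 < ‖x ^ 2 + (4 / 27 : ℝ)‖ := lt_of_lt_of_le (by positivity) q
  have r0 : 0 ≤ x.re := le_trans (by positivity) h
  constructor
  · have : 0 ≤ (x / (x ^ 2 + (4 / 27 : ℝ))).re := by
      rw [Complex.div_re, ← add_div]
      refine div_nonneg ?_ (Complex.normSq_nonneg _)
      simp only [sq, Complex.add_re, Complex.mul_re, Complex.ofReal_re, Complex.add_im,
        Complex.mul_im, Complex.ofReal_im]
      have : 0 ≤ x.re * (x.re ^ 2 + x.im ^ 2 + 4 / 27) := by positivity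
      nlinarith
    have e : (8 / 9 : ℂ) = ((8 / 9 : ℝ) : ℂ) := by push_cast; rfl
    rw [NN, e, Complex.add_re, Complex.re_ofReal_mul, Complex.one_re]
    linarith
  · have e : ‖(8 / 9 : ℂ)‖ = 8 / 9 := by norm_num
    have k2 : ‖x‖ ≤ 3 * ‖x ^ 2 + (4 / 27 : ℝ)‖ := by
      refine le_of_sq_le_sq ?_ (by positivity)
      nlinarith [sq_nonneg (‖x‖ ^ 2 - 4 / 27)]
    have k3 : ‖x / (x ^ 2 + (4 / 27 : ℝ))‖ ≤ 3 := by
      rw [norm_div, div_le_iff₀ q0]; exact k2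
    have := norm_add_le (1 : ℂ) (8 / 9 * (x / (x ^ 2 + (4 / 27 : ℝ))))
    rw [norm_one, norm_mul, e] at this
    rw [NN]; linarith

lemma div_bd {p N : ℂ} (hp : ‖p‖ ≤ 3) (hN : 9 / 10 ≤ N.re) (hN' : ‖N‖ ≤ 4)
    (h : 1 / 2 ≤ (p * conj N).re) : ‖p / N‖ ≤ 4 ∧ 1 / 32 ≤ (p / N).re := by
  have n1 : 9 / 10 ≤ ‖N‖ := hN.trans (Complex.re_le_norm N)
  have n0 : 0 < ‖N‖ := by linarith
  constructor
  · rw [norm_div, div_le_iff₀ n0]; linarith
  · have e : (p / N).re = (p * conj N).re / ‖N‖ ^ 2 := by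
      rw [Complex.div_re, Complex.sq_norm, ← add_div]
      simp [Complex.mul_re]
    rw [e, le_div_iff₀ (by positivity)]
    nlinarith

/-! ### Geometry in the variable `z` -/

noncomputable def ph (z : ℂ) : ℂ := (1000 + 3 * z) / (1000 + z)

lemma re_ge {z : ℂ} (hz : z ∈ OmC) : -(1 / 10) ≤ z.re := by
  rcases hz with h | h
  · have : 0 ≤ √3 * |z.im| := by positivity
    have h' : √3 * |z.im| ≤ z.re := h
    linarith
  · rw [mem_closedBall_zero_iff] at h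
    have := Complex.abs_re_le_norm z
    linarith [neg_abs_le z.re]

lemma sq_fac (z : ℂ) : ‖1 + z / 1000‖ ^ 2 = 1 + z.re / 500 + ‖z‖ ^ 2 / 1000000 := by
  have e : (1000 : ℂ) = ((1000 : ℝ) : ℂ) := by push_cast; rfl
  rw [Complex.sq_norm, Complex.sq_norm, Complex.normSq_apply, Complex.normSq_apply, e]
  simp only [Complex.add_re, Complex.add_im, Complex.div_ofReal_re, Complex.div_ofReal_im,
    Complex.one_re, Complex.one_im]
  ring

lemma fac_bd {z : ℂ} (hz : z ∈ OmC) : 1 / 1000000 * (1 + ‖z‖ ^ 2) ≤ ‖1 + z / 1000‖ ^ 2 ∧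
    ‖1 + z / 1000‖ ^ 2 ≤ 2 * (1 + ‖z‖ ^ 2) := by
  have := re_ge hz
  have h2 := Complex.re_le_norm z
  rw [sq_fac]
  constructor
  · linarith
  · nlinarith [sq_nonneg (‖z‖ - 1)]

lemma fac_ne {z : ℂ} (hz : z ∈ OmC) : 1 + z / 1000 ≠ 0 := by
  intro h
  have := (fac_bd hz).1
  rw [h, norm_zero] at this
  nlinarith [sq_nonneg ‖z‖]

lemma den_ne {z : ℂ} (hz : z ∈ OmC) : 1000 + z ≠ 0 := by
  intro h
  refine fac_ne hz ?_
  linear_combination h / 1000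

lemma den3_ne {z : ℂ} (hz : z ∈ OmC) : 1000 + 3 * z ≠ 0 := by
  intro h
  have := congrArg Complex.re h
  have h2 := re_ge hz
  simp at this
  linarith

lemma fac_le (z : ℂ) : ‖1 + z / 1000‖ ≤ 1 + ‖z‖ / 1000 := by
  have := norm_add_le (1 : ℂ) (z / 1000)
  rwa [norm_one, norm_div, Complex.norm_ofNat] at this

lemma norm_x (z : ℂ) : ‖xi z ^ 2‖ = ‖z‖ ^ 2 * ‖1 + z / 1000‖ ^ 4 := by
  rw [xi, norm_pow, norm_mul, norm_pow]; ring

lemma ph_near {z : ℂ} (h : ‖z‖ ≤ 3) : ‖ph z - 1‖ ≤ 1 / 100 := by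
  have k := (norm_ge_sub z 1000 (by norm_num)).1
  have e : z + ((1000 : ℝ) : ℂ) = 1000 + z := by push_cast; ring
  rw [e] at k
  have n0 : 0 < ‖1000 + z‖ := by linarith
  have e2 : ph z - 1 = 2 * z / (1000 + z) := by
    have := norm_pos_iff.1 n0
    rw [ph]; field_simp; ring
  rw [e2, norm_div, norm_mul, Complex.norm_ofNat, div_le_iff₀ n0]
  linarith

lemma ph_far {z : ℂ} (h : 0 ≤ z.re) : 1 ≤ (ph z).re ∧ ‖ph z‖ ≤ 3 := by
  have p : 0 < Complex.normSq (1000 + z) := by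
    rw [Complex.normSq_apply]
    simp only [Complex.add_re, Complex.re_ofNat]
    nlinarith [mul_self_nonneg (1000 + z).im]
  have n0 : 0 < ‖1000 + z‖ := norm_pos_iff.2 (Complex.normSq_pos.1 p)
  constructor
  · rw [ph, Complex.div_re, ← add_div, le_div_iff₀ p, Complex.normSq_apply]
    simp only [Complex.add_re, Complex.re_ofNat, Complex.add_im, Complex.im_ofNat, Complex.mul_re,
      Complex.mul_im]
    nlinarith [sq_nonneg z.re, sq_nonneg z.im]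
  · rw [ph, norm_div, div_le_iff₀ n0]
    refine le_of_sq_le_sq ?_ (by positivity)
    rw [mul_pow, Complex.sq_norm, Complex.sq_norm, Complex.normSq_apply, Complex.normSq_apply]
    simp only [Complex.add_re, Complex.re_ofNat, Complex.add_im, Complex.im_ofNat, Complex.mul_re,
      Complex.mul_im]
    nlinarith

lemma case_a {z : ℂ} (h : ‖z‖ ≤ 1 / 10) : ‖xi z ^ 2‖ ≤ 0.0101 := by
  have h1 : ‖1 + z / 1000‖ ≤ 1.0001 := by linarith [fac_le z]
  have h2 := pow_le_pow_left₀ (norm_nonneg _) h1 4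
  have h3 := pow_le_pow_left₀ (norm_nonneg _) h 2
  rw [norm_x]
  refine (mul_le_mul h3 h2 (by positivity) (by positivity)).trans (by norm_num)

lemma case_b {z : ℂ} (hs : √3 * |z.im| ≤ z.re) (h : ‖z‖ ≤ 3) :
    0.48 * ‖xi z ^ 2‖ ≤ (xi z ^ 2).re := by
  set w := z / 1000 with hw
  have nw : ‖w‖ ≤ 0.003 := by
    rw [hw, norm_div, Complex.norm_ofNat]; linarith
  set t := w * (4 + w * (6 + w * (4 + w))) with ht
  have w0 := norm_nonneg w
  have t1 : ‖4 + w‖ ≤ 4.003 := by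
    have := norm_add_le (4 : ℂ) w
    rw [Complex.norm_ofNat] at this; linarith
  have t2 : ‖6 + w * (4 + w)‖ ≤ 6.02 := by
    have := norm_add_le (6 : ℂ) (w * (4 + w))
    rw [Complex.norm_ofNat, norm_mul] at this
    nlinarith [norm_nonneg (4 + w)]
  have t3 : ‖4 + w * (6 + w * (4 + w))‖ ≤ 4.02 := by
    have := norm_add_le (4 : ℂ) (w * (6 + w * (4 + w)))
    rw [Complex.norm_ofNat, norm_mul] at this
    nlinarith [norm_nonneg (6 + w * (4 + w))]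
  have t4 : ‖t‖ ≤ 0.013 := by
    rw [ht, norm_mul]
    nlinarith [norm_nonneg (4 + w * (6 + w * (4 + w)))]
  have e : xi z ^ 2 = z ^ 2 + z ^ 2 * t := by rw [xi, ← hw, ht]; ring
  have n2 : ‖z ^ 2 * t‖ ≤ 0.013 * ‖z‖ ^ 2 := by
    rw [norm_mul, norm_pow]; nlinarith [sq_nonneg ‖z‖]
  have e1 : ‖z‖ ^ 2 = z.re ^ 2 + z.im ^ 2 := by
    rw [Complex.sq_norm, Complex.normSq_apply]; ring
  have s1 : (√3 * |z.im|) ^ 2 ≤ z.re ^ 2 := pow_le_pow_left₀ (by positivity) hs 2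
  rw [mul_pow, Real.sq_sqrt (by norm_num), sq_abs] at s1
  have r1 : (z ^ 2).re = z.re ^ 2 - z.im ^ 2 := by simp [sq]
  have r2 := Complex.abs_re_le_norm (z ^ 2 * t)
  have r3 := neg_abs_le (z ^ 2 * t).re
  have r4 := norm_add_le (z ^ 2) (z ^ 2 * t)
  rw [norm_pow] at r4
  rw [e, Complex.add_re]
  linarith [sq_nonneg ‖z‖]

lemma case_c {z : ℂ} (hs : 0 ≤ z.re) (h : 3 ≤ ‖z‖) : 9 ≤ ‖xi z ^ 2‖ := by
  have h1 : 1 ≤ ‖1 + z / 1000‖ ^ 2 := by
    rw [sq_fac]; nlinarith [sq_nonneg ‖z‖]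
  have h2 : 1 ≤ ‖1 + z / 1000‖ ^ 4 := by nlinarith
  rw [norm_x]
  nlinarith

lemma reg {z : ℂ} (hz : z ∈ OmC) : Reg (xi z ^ 2) := by
  rcases hz with h | h
  · have h' : √3 * |z.im| ≤ z.re := h
    rcases le_total ‖z‖ 3 with k | k
    · exact Or.inr (Or.inl (case_b h' k))
    · exact Or.inr (Or.inr (case_c (le_trans (by positivity) h') k))
  · exact Or.inl (case_a (mem_closedBall_zero_iff.1 h))

lemma vv_eq (z : ℂ) : vv z = xi z ^ 2 + ((2 / 9 : ℝ) : ℂ) := by rw [vv]; push_cast; rfl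

lemma ww_eq (z : ℂ) : ww z = xi z ^ 2 + ((2 / 3 : ℝ) : ℂ) := by rw [ww]; push_cast; rfl

lemma qq_eq (z : ℂ) : qq z = (xi z ^ 2) ^ 2 + ((4 / 27 : ℝ) : ℂ) := by
  rw [qq]; push_cast; ring

lemma vv_low {z : ℂ} (hz : z ∈ OmC) : 1 / 6 * (1 + ‖xi z ^ 2‖) ≤ ‖vv z‖ := by
  rw [vv_eq]; exact lin_low (reg hz) le_rfl (by norm_num)

lemma ww_low {z : ℂ} (hz : z ∈ OmC) : 1 / 6 * (1 + ‖xi z ^ 2‖) ≤ ‖ww z‖ := by
  rw [ww_eq]; exact lin_low (reg hz) (by norm_num) (by norm_num)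

lemma qq_low {z : ℂ} (hz : z ∈ OmC) : 1 / 20 * (1 + ‖xi z ^ 2‖ ^ 2) ≤ ‖qq z‖ := by
  rw [qq_eq]; exact quad_low (reg hz)

lemma vv_ne {z : ℂ} (hz : z ∈ OmC) : vv z ≠ 0 :=
  norm_pos_iff.1 (lt_of_lt_of_le (by positivity) (vv_low hz))

lemma ww_ne {z : ℂ} (hz : z ∈ OmC) : ww z ≠ 0 :=
  norm_pos_iff.1 (lt_of_lt_of_le (by positivity) (ww_low hz))

lemma qq_ne {z : ℂ} (hz : z ∈ OmC) : qq z ≠ 0 :=
  norm_pos_iff.1 (lt_of_lt_of_le (by positivity) (qq_low hz))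

lemma mm_eq {z : ℂ} (hz : z ∈ OmC) : mm z = ph z / NN (xi z ^ 2) := by
  have e : NN (xi z ^ 2) = ww z * vv z / qq z := by
    have := qq_ne hz
    rw [NN, ← qq_eq, eq_div_iff this]
    field_simp
    simp only [qq, ww, vv]; ring
  rw [e, mm, ph, div_div_eq_mul_div]

lemma near_case {p N : ℂ} (hp : ‖p - 1‖ ≤ 1 / 100) (hN : 9 / 10 ≤ N.re) (hN' : ‖N‖ ≤ 4) :
    ‖p / N‖ ≤ 4 ∧ 1 / 32 ≤ (p / N).re := by
  refine div_bd ?_ hN hN' ?_
  · have := norm_add_le (p - 1) 1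
    rw [sub_add_cancel, norm_one] at this; linarith
  · have e : p * conj N = conj N + (p - 1) * conj N := by ring
    have r2 := Complex.abs_re_le_norm ((p - 1) * conj N)
    have r3 := neg_abs_le ((p - 1) * conj N).re
    rw [norm_mul, Complex.norm_conj] at r2
    rw [e, Complex.add_re, Complex.conj_re]
    nlinarith [norm_nonneg N, norm_nonneg (p - 1)]

lemma one_near {N : ℂ} (h : ‖N - 1‖ ≤ 1 / 10) : 9 / 10 ≤ N.re ∧ ‖N‖ ≤ 4 := by
  constructor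
  · have r2 := Complex.abs_re_le_norm (N - 1)
    have r3 := neg_abs_le (N - 1).re
    rw [Complex.sub_re, Complex.one_re] at r2 r3
    linarith
  · have := norm_add_le (N - 1) 1
    rw [sub_add_cancel, norm_one] at this; linarith

lemma mm_bd {z : ℂ} (hz : z ∈ OmC) : ‖mm z‖ ≤ 4 ∧ 1 / 32 ≤ (mm z).re := by
  rw [mm_eq hz]
  rcases hz with h | h
  · have h' : √3 * |z.im| ≤ z.re := h
    have h0 : 0 ≤ z.re := le_trans (by positivity) h'
    rcases le_total ‖z‖ 3 with k | k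
    · have := NN_b (case_b h' k)
      exact near_case (ph_near k) (by linarith [this.1]) this.2
    · have k1 := NN_near (Or.inr (case_c h0 k))
      have k2 := one_near k1
      have k3 := ph_far h0
      refine div_bd k3.2 k2.1 k2.2 ?_
      set N := NN (xi z ^ 2)
      have e : ph z * conj N = ph z + ph z * conj (N - 1) := by
        rw [map_sub, map_one]; ring
      have r2 := Complex.abs_re_le_norm (ph z * conj (N - 1))
      have r3 := neg_abs_le (ph z * conj (N - 1)).re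
      rw [norm_mul, Complex.norm_conj] at r2
      rw [e, Complex.add_re]
      nlinarith [norm_nonneg (N - 1), norm_nonneg (ph z)]
  · have h' := mem_closedBall_zero_iff.1 h
    have k2 := one_near (NN_near (Or.inl (case_a h')))
    exact near_case (ph_near (by linarith)) k2.1 k2.2

lemma mm_ne {z : ℂ} (hz : z ∈ OmC) : mm z ≠ 0 := by
  intro h
  have := (mm_bd hz).2
  rw [h, Complex.zero_re] at this
  norm_num at this

lemma g0_bd {z : ℂ} (hz : z ∈ OmC) : 1 / 120 ≤ ‖g0 z‖ ∧ ‖g0 z‖ ≤ 12 := by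
  have v1 := vv_low hz
  have q1 := qq_low hz
  have v2 := norm_le_add (xi z ^ 2) (2 / 9) (by norm_num)
  have q2 := norm_le_add ((xi z ^ 2) ^ 2) (4 / 27) (by norm_num)
  rw [← vv_eq] at v2
  rw [← qq_eq, norm_pow] at q2
  have v0 := norm_pos_iff.2 (vv_ne hz)
  have x0 := norm_nonneg (xi z ^ 2)
  set X := ‖xi z ^ 2‖
  have a1 := pow_le_pow_left₀ (by positivity) v1 2
  have a2 := pow_le_pow_left₀ (by positivity) v2 2
  rw [g0, norm_div, norm_mul, norm_pow, Complex.norm_ofNat]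
  constructor
  · rw [le_div_iff₀ (by positivity)]
    nlinarith [sq_nonneg (X - 1)]
  · rw [div_le_iff₀ (by positivity)]
    nlinarith

lemma g0_ne {z : ℂ} (hz : z ∈ OmC) : g0 z ≠ 0 :=
  norm_pos_iff.1 (lt_of_lt_of_le (by norm_num) (g0_bd hz).1)

lemma e1_bd {z : ℂ} (hz : z ∈ OmC) : 1 / 6000000 * (1 + ‖z‖ ^ 2) ≤ ‖e1 z‖ ∧
    ‖e1 z‖ ≤ 12 * (1 + ‖z‖ ^ 2) := by
  have v1 := vv_low hz
  have w1 := ww_low hz
  have v2 := norm_le_add (xi z ^ 2) (2 / 9) (by norm_num)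
  have w2 := norm_le_add (xi z ^ 2) (2 / 3) (by norm_num)
  rw [← vv_eq] at v2
  rw [← ww_eq] at w2
  have v0 := norm_pos_iff.2 (vv_ne hz)
  have x0 := norm_nonneg (xi z ^ 2)
  obtain ⟨f1, f2⟩ := fac_bd hz
  have r1 : 1 / 6 ≤ ‖ww z‖ / ‖vv z‖ := by rw [le_div_iff₀ v0]; linarith
  have r2 : ‖ww z‖ / ‖vv z‖ ≤ 6 := by rw [div_le_iff₀ v0]; linarith
  rw [e1, norm_div, norm_mul, norm_pow, mul_div_assoc]
  constructor
  · have := mul_le_mul f1 r1 (by norm_num) (by positivity)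
    linarith
  · have := mul_le_mul f2 r2 (by positivity) (by positivity)
    linarith

lemma bd : ∃ C : ℝ, 1 ≤ C ∧ ∀ z ∈ OmC, 1000 + z ≠ 0 ∧
    C⁻¹ * (1 + ‖z‖ ^ 2) ≤ ‖e1 z‖ ∧ ‖e1 z‖ ≤ C * (1 + ‖z‖ ^ 2) ∧ ‖mm z‖ ≤ C ∧ C⁻¹ ≤ (mm z).re ∧
    C⁻¹ ≤ ‖g0 z‖ ∧ ‖g0 z‖ ≤ C ∧ C⁻¹ * (1 + ‖xi z‖ ^ 4) ≤ ‖qq z‖ ∧
    C⁻¹ * (1 + ‖xi z‖ ^ 2) ≤ ‖vv z‖ ∧ C⁻¹ * (1 + ‖xi z‖ ^ 2) ≤ ‖ww z‖ := by
  refine ⟨6000000, by norm_num, fun z hz => ?_⟩
  obtain ⟨a1, a2⟩ := e1_bd hz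
  obtain ⟨b1, b2⟩ := mm_bd hz
  obtain ⟨c1, c2⟩ := g0_bd hz
  have d1 := qq_low hz
  have d2 := vv_low hz
  have d3 := ww_low hz
  rw [norm_pow] at d1 d2 d3
  rw [← pow_mul] at d1
  have p1 : 0 ≤ ‖z‖ ^ 2 := by positivity
  have p2 : 0 ≤ ‖xi z‖ ^ 2 := by positivity
  have p3 : 0 ≤ ‖xi z‖ ^ 4 := by positivity
  norm_num at d1 ⊢
  refine ⟨den_ne hz, ?_, ?_, ?_, ?_, ?_, ?_, ?_, ?_, ?_⟩ <;> linarith

/-! ### Analyticity -/

lemma an_xi : An xi :=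
  ⟨fun z _ => by unfold xi; fun_prop, fun z => by simp [xi, map_ofNat]⟩

lemma an_vv : An vv :=
  ⟨fun z hz => by have := an_xi.1 z hz; unfold vv; fun_prop,
    fun z => by simp [vv, an_xi.2 z, map_ofNat]⟩

lemma an_ww : An ww :=
  ⟨fun z hz => by have := an_xi.1 z hz; unfold ww; fun_prop,
    fun z => by simp [ww, an_xi.2 z, map_ofNat]⟩

lemma an_qq : An qq :=
  ⟨fun z hz => by have := an_xi.1 z hz; unfold qq; fun_prop,
    fun z => by simp [qq, an_xi.2 z, map_ofNat]⟩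

lemma an_e1 : An e1 :=
  ⟨fun z hz => AnalyticAt.fun_div (AnalyticAt.fun_mul (by fun_prop) (an_ww.1 z hz))
      (an_vv.1 z hz) (vv_ne hz),
    fun z => by simp [e1, an_ww.2 z, an_vv.2 z, map_ofNat]⟩

lemma an_ee : An ee :=
  ⟨fun z hz => AnalyticAt.fun_mul analyticAt_id (an_e1.1 z hz),
    fun z => by simp [ee, an_e1.2 z]⟩

lemma an_mm : An mm :=
  ⟨fun z hz => AnalyticAt.fun_div (AnalyticAt.fun_mul
      (AnalyticAt.fun_div (by fun_prop) (by fun_prop) (den_ne hz)) (an_qq.1 z hz))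
      (AnalyticAt.fun_mul (an_ww.1 z hz) (an_vv.1 z hz)) (mul_ne_zero (ww_ne hz) (vv_ne hz)),
    fun z => by simp [mm, an_ww.2 z, an_vv.2 z, an_qq.2 z, map_ofNat]⟩

lemma an_g0 : An g0 :=
  ⟨fun z hz => AnalyticAt.fun_div (an_qq.1 z hz)
      (by have := an_vv.1 z hz; fun_prop) (mul_ne_zero three_ne_zero (pow_ne_zero 2 (vv_ne hz))),
    fun z => by simp [g0, an_vv.2 z, an_qq.2 z, map_ofNat]⟩

lemma an_AA : An AA :=
  ⟨fun z hz => AnalyticAt.fun_div analyticAt_const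
      (by have := an_g0.1 z hz; fun_prop) (mul_ne_zero two_ne_zero (pow_ne_zero 2 (g0_ne hz))),
    fun z => by simp [AA, an_g0.2 z, map_ofNat]⟩

lemma an_G0 : An G0 :=
  ⟨fun z hz => AnalyticAt.fun_sub analyticAt_const (AnalyticAt.fun_div analyticAt_const
      (by have := an_g0.1 z hz; fun_prop) (mul_ne_zero two_ne_zero (g0_ne hz))),
    fun z => by simp [G0, an_g0.2 z, map_ofNat]⟩

lemma an_Dh {f : ℂ → ℂ} (hf : An f) : An (Dh f) := by
  refine ⟨fun z hz => AnalyticAt.fun_div (AnalyticAt.fun_mul analyticAt_id (hf.1 z hz).deriv)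
    (an_mm.1 z hz) (mm_ne hz), fun z => ?_⟩
  have e : conj ∘ f ∘ conj = f := by
    funext w; simp [hf.2 w]
  have k := congrFun (deriv_conj_conj (f := f)) (conj z)
  rw [e] at k
  simp only [Function.comp_apply, Complex.conj_conj] at k
  simp [Dh, an_mm.2 z, k]

lemma xi_deriv (z : ℂ) : HasDerivAt xi ((1 + z / 1000) * (1 + 3 * z / 1000)) z := by
  have h := (hasDerivAt_id z).fun_mul
    ((((hasDerivAt_id z).div_const 1000).const_add 1).fun_pow 2)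
  refine HasDerivAt.congr_deriv h ?_
  simp; ring

lemma ee_deriv {z : ℂ} (hz : z ∈ OmC) : HasDerivAt ee (e1 z * mm z) z := by
  have hx := xi_deriv z
  have hv : HasDerivAt vv _ z := (hx.fun_pow 2).add_const (2 / 9)
  have hw : HasDerivAt ww _ z := (hx.fun_pow 2).add_const (2 / 3)
  have h := (hx.fun_mul hw).fun_div hv (vv_ne hz)
  have e : ee = fun y => xi y * ww y / vv y := by
    funext y; simp only [ee, e1, xi]; ring
  rw [e]
  refine HasDerivAt.congr_deriv h ?_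
  have h1 := vv_ne hz
  have h2 := ww_ne hz
  have h3 := den_ne hz
  simp only [e1, mm]
  field_simp
  simp only [qq, ww, vv]
  push_cast
  ring

lemma Dh_xi {f : ℂ → ℂ} {f' : ℂ} {z : ℂ} (hz : z ∈ OmC) (hf : HasDerivAt f f' (xi z)) :
    Dh (fun w => f (xi w)) z = xi z * f' * (ww z * vv z) / qq z := by
  have h : deriv (fun w => f (xi w)) z = _ := (hf.comp z (xi_deriv z)).deriv
  have h1 := vv_ne hz
  have h2 := ww_ne hz
  have h3 := den_ne hz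
  have h4 := den3_ne hz
  have h5 := qq_ne hz
  rw [Dh, h, mm]
  have e : xi z = z * (1 + z / 1000) ^ 2 := rfl
  rw [div_eq_div_iff (div_ne_zero (mul_ne_zero (div_ne_zero h4 h3) h5) (mul_ne_zero h2 h1)) h5]
  nth_rewrite 1 [e]
  field_simp

lemma g0_real (r : ℝ) : (g0 r).re = ((r * (1 + r / 1000) ^ 2) ^ 4 + 4 / 27) /
    (3 * ((r * (1 + r / 1000) ^ 2) ^ 2 + 2 / 9) ^ 2) := by
  have : g0 r = ((((r * (1 + r / 1000) ^ 2) ^ 4 + 4 / 27) /
      (3 * ((r * (1 + r / 1000) ^ 2) ^ 2 + 2 / 9) ^ 2) : ℝ) : ℂ) := by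
    simp only [g0, qq, vv, xi]; push_cast; rfl
  rw [this, Complex.ofReal_re]

lemma real_g0 (r : ℝ) : 1 / 4 ≤ (g0 r).re := by
  rw [g0_real, le_div_iff₀ (by positivity)]
  set y := r * (1 + r / 1000) ^ 2
  nlinarith [sq_nonneg (y ^ 2 - 2 / 3)]

lemma real_g0' : (g0 1).re ≤ 1 / 2 := by
  have := g0_real 1
  rw [Complex.ofReal_one] at this
  rw [this]; norm_num

/-! ### Asymptotics along the ray -/

noncomputable def yW (w : ℂ) : ℂ := w ^ 6 / (w + 1 / 1000) ^ 4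
noncomputable def vW (w : ℂ) : ℂ := 1 + 2 / 9 * yW w
noncomputable def uW (w : ℂ) : ℂ := 1 + 2 / 3 * yW w
noncomputable def qW (w : ℂ) : ℂ := 1 + 4 / 27 * yW w ^ 2
noncomputable def MW (w : ℂ) : ℂ := (1000 * w + 3) / (1000 * w + 1) * qW w / (uW w * vW w)
noncomputable def EW (w : ℂ) : ℂ := (w + 1 / 1000) ^ 4 * (uW w / vW w) ^ 2
noncomputable def AW (w : ℂ) : ℂ := 1 / (2 * (qW w / (3 * vW w ^ 2)) ^ 2)

lemma yW_zero : yW 0 = 0 := by simp [yW]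

lemma c_yW : ContinuousAt yW 0 :=
  ContinuousAt.div (by fun_prop) (by fun_prop) (by norm_num)

lemma c_vW : ContinuousAt vW 0 := by have := c_yW; unfold vW; fun_prop

lemma c_uW : ContinuousAt uW 0 := by have := c_yW; unfold uW; fun_prop

lemma c_qW : ContinuousAt qW 0 := by have := c_yW; unfold qW; fun_prop

lemma c_MW : ContinuousAt MW 0 :=
  ContinuousAt.div (ContinuousAt.mul (ContinuousAt.div (by fun_prop) (by fun_prop) (by norm_num))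
    c_qW) (c_uW.mul c_vW) (by simp [uW, vW, yW_zero])

lemma c_EW : ContinuousAt EW 0 :=
  ContinuousAt.mul (by fun_prop) ((c_uW.div c_vW (by simp [vW, yW_zero])).pow 2)

lemma c_AW : ContinuousAt AW 0 :=
  ContinuousAt.div continuousAt_const (continuousAt_const.mul
    ((c_qW.div (continuousAt_const.mul (c_vW.pow 2)) (by simp [vW, yW_zero])).pow 2))
    (by simp [qW, vW, yW_zero])

lemma inv_eq {z : ℂ} (hz : z ∈ OmC) (h0 : z ≠ 0) :
    mm z = MW z⁻¹ ∧ ee z ^ 2 = z ^ 6 * EW z⁻¹ ∧ AA z = AW z⁻¹ := by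
  have h1 := fac_ne hz
  have h3 := den_ne hz
  have hx : xi z ≠ 0 := mul_ne_zero h0 (pow_ne_zero 2 h1)
  have ea : z⁻¹ + 1 / 1000 = (1 + z / 1000) / z := by field_simp
  have ex : xi z ^ 2 = z ^ 6 * (z⁻¹ + 1 / 1000) ^ 4 := by
    rw [ea, xi]; field_simp
  have ey : yW z⁻¹ = (xi z ^ 2)⁻¹ := by
    rw [ex, yW, mul_inv, inv_pow, div_eq_mul_inv]
  have ev : vW z⁻¹ = vv z / xi z ^ 2 := by rw [vW, ey, vv]; field_simp
  have eu : uW z⁻¹ = ww z / xi z ^ 2 := by rw [uW, ey, ww]; field_simp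
  have eq : qW z⁻¹ = qq z / xi z ^ 4 := by rw [qW, ey, qq]; field_simp
  have h4 := vv_ne hz
  have h5 := ww_ne hz
  have h6 := qq_ne hz
  refine ⟨?_, ?_, ?_⟩
  · have e : (1000 * z⁻¹ + 3) / (1000 * z⁻¹ + 1) = (1000 + 3 * z) / (1000 + z) := by
      have : 1000 * z⁻¹ + 1 = (1000 + z) / z := by field_simp
      rw [this]; field_simp
    rw [MW, e, ev, eu, eq, mm]
    field_simp
  · have e : ee z = xi z * (ww z / vv z) := by simp only [ee, e1, xi]; ring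
    rw [EW, ← mul_assoc, ← ex, e, ev, eu]
    field_simp
  · rw [AW, ev, eq, AA, g0]
    field_simp

lemma ray_pow (s : ℝ) : ray s ^ 6 = -(Real.exp (6 * s) : ℂ) := by
  rw [ray, ← Complex.exp_nat_mul]
  have : ((6 : ℕ) : ℂ) * (s + Real.pi / 6 * Complex.I) = (6 * s : ℝ) + Real.pi * Complex.I := by
    push_cast; ring
  rw [this, Complex.exp_add, Complex.exp_pi_mul_I, Complex.ofReal_exp]
  ring

lemma ray_asym (hH : HolStmt) (ε : ℝ) (hε : 0 < ε) : ∃ s₁, ∀ s, s₁ ≤ s →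
    ‖mm (ray s) / 3 - 1‖ ≤ ε ∧ ‖-(ee (ray s) ^ 2 * AA (ray s)) / VV s - 1‖ ≤ ε ∧
      ‖ee (ray s)‖ ^ 2 ≤ VV s := by
  have h0 : ∀ s, ray s ≠ 0 := fun s => Complex.exp_ne_zero _
  have t0 : Tendsto (fun s => (ray s)⁻¹) atTop (𝓝 0) := by
    rw [tendsto_zero_iff_norm_tendsto_zero]
    simp only [norm_inv, hH.ray_norm]
    exact tendsto_inv_atTop_zero.comp Real.tendsto_exp_atTop
  have t1 : Tendsto (fun s => ‖MW (ray s)⁻¹ / 3 - 1‖) atTop (𝓝 ‖MW 0 / 3 - 1‖) :=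
    (((c_MW.tendsto.comp t0).div_const 3).sub_const 1).norm
  have t2 : Tendsto (fun s => ‖2 * 1000 ^ 4 / 9 * (EW (ray s)⁻¹ * AW (ray s)⁻¹) - 1‖) atTop
      (𝓝 ‖2 * 1000 ^ 4 / 9 * (EW 0 * AW 0) - 1‖) :=
    ((((c_EW.tendsto.comp t0).mul (c_AW.tendsto.comp t0)).const_mul _).sub_const 1).norm
  have t3 : Tendsto (fun s => ‖EW (ray s)⁻¹‖) atTop (𝓝 ‖EW 0‖) := (c_EW.tendsto.comp t0).norm
  have v1 : ‖MW 0 / 3 - 1‖ < ε := by
    have : MW 0 / 3 - 1 = 0 := by simp [MW, qW, uW, vW, yW_zero]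
    rw [this, norm_zero]; exact hε
  have v2 : ‖2 * 1000 ^ 4 / 9 * (EW 0 * AW 0) - 1‖ < ε := by
    have : 2 * 1000 ^ 4 / 9 * (EW 0 * AW 0) - 1 = 0 := by
      simp only [EW, AW, qW, uW, vW, yW_zero]; norm_num
    rw [this, norm_zero]; exact hε
  have v3 : ‖EW 0‖ < 9 / (2 * 1000 ^ 4) := by
    simp only [EW, uW, vW, yW_zero]; norm_num
  obtain ⟨s₁, hs⟩ := eventually_atTop.1 ((t1.eventually_lt_const v1).and
    ((t2.eventually_lt_const v2).and (t3.eventually_lt_const v3)))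
  refine ⟨s₁, fun s h => ?_⟩
  obtain ⟨k1, k2, k3⟩ := hs s h
  obtain ⟨e1, e2, e3⟩ := inv_eq (hH.ray_mem s) (h0 s)
  have p : 0 < Real.exp (6 * s) := Real.exp_pos _
  refine ⟨by rw [e1]; exact k1.le, ?_, ?_⟩
  · have : -(ee (ray s) ^ 2 * AA (ray s)) / VV s =
        2 * 1000 ^ 4 / 9 * (EW (ray s)⁻¹ * AW (ray s)⁻¹) := by
      have p' : (Real.exp (6 * s) : ℂ) ≠ 0 := Complex.ofReal_ne_zero.2 p.ne'
      rw [e2, e3, ray_pow, VV, Complex.ofReal_mul]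
      generalize (Real.exp (6 * s) : ℂ) = E at p'
      push_cast
      field_simp
    rw [this]; exact k2.le
  · rw [← norm_pow, e2, ray_pow, norm_mul, norm_neg, Complex.norm_real, Real.norm_of_nonneg p.le,
      VV, mul_comm]
    exact mul_le_mul_of_nonneg_right k3.le p.le

end Geo

theorem geo (hH : HolStmt) : GeoStmt where
  bd := Geo.bd
  an := ⟨Geo.an_xi, Geo.an_vv, Geo.an_ww, Geo.an_qq, Geo.an_e1, Geo.an_ee, Geo.an_mm, Geo.an_g0,
    Geo.an_AA, Geo.an_G0⟩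
  an_Dh := Geo.an_Dh
  xi_deriv := Geo.xi_deriv
  ee_deriv := fun _ hz => Geo.ee_deriv hz
  Dh_xi := Geo.Dh_xi
  mm_zero := by simp [mm, qq, ww, vv, xi]; norm_num
  real_g0 := Geo.real_g0
  real_g0' := Geo.real_g0'
  ray_asym := Geo.ray_asym hH

end Vale.Agent.P264
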