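import Vale.Agent.P264.StmG

/-! P264, part G: the domain, the holomorphic classes and the Phragmen-Lindelof principle. -/

namespace Vale.Agent.P264

open scoped ContDiff ComplexConjugate Topology
open Set MeasureTheory Filter

namespace HolAux

theorem cos_eq {y : ℝ} (hy : |y| ≤ Real.pi) :
    Real.cos (|y| + Real.pi / 3) = (Real.cos y - √3 * |Real.sin y|) / 2 := by
  rw [Real.cos_add, Real.cos_abs, Real.cos_pi_div_three, Real.sin_pi_div_three,
    Real.abs_sin_eq_sin_abs_of_abs_le_pi hy]
  ring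

theorem exp_eq {w : ℂ} (hw : |w.im| ≤ Real.pi) : (Complex.exp w).re - √3 * |(Complex.exp w).im| =
    2 * Real.exp w.re * Real.cos (|w.im| + Real.pi / 3) := by
  rw [cos_eq hw, Complex.exp_re, Complex.exp_im, abs_mul, abs_of_pos (Real.exp_pos _)]
  ring

theorem exp_O {w : ℂ} (hw : |w.im| < Real.pi / 6) : Complex.exp w ∈ OmO := by
  have h := Real.pi_pos
  have h1 := exp_eq (w := w) (by linarith)
  have h2 := mul_pos (Real.exp_pos w.re) (Real.cos_pos_of_mem_Ioo
    (x := |w.im| + Real.pi / 3) ⟨by linarith [abs_nonneg w.im], by linarith⟩)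
  exact Or.inl (mem_ofPred_eq ▸ by linarith)

theorem exp_C {w : ℂ} (hw : |w.im| ≤ Real.pi / 6) : Complex.exp w ∈ OmC := by
  have h := Real.pi_pos
  have h1 := exp_eq (w := w) (by linarith)
  have h2 := mul_nonneg (Real.exp_pos w.re).le (Real.cos_nonneg_of_mem_Icc
    (x := |w.im| + Real.pi / 3) ⟨by linarith [abs_nonneg w.im], by linarith⟩)
  exact Or.inl (mem_ofPred_eq ▸ by linarith)

theorem log_mem {z : ℂ} (h0 : z ≠ 0) (hz : √3 * |z.im| ≤ z.re) :
    |(Complex.log z).im| ≤ Real.pi / 6 := by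
  have h := Real.pi_pos
  have h1 : |(Complex.log z).im| ≤ Real.pi := Complex.log_im z ▸ Complex.abs_arg_le_pi z
  have h2 := exp_eq h1
  rw [Complex.exp_log h0] at h2
  by_contra hn
  have h3 := mul_neg_of_pos_of_neg (Real.exp_pos (Complex.log z).re)
    (Real.cos_neg_of_pi_div_two_lt_of_lt (x := |(Complex.log z).im| + Real.pi / 3)
      (by linarith [not_le.1 hn]) (by linarith))
  linarith

theorem sub : OmO ⊆ OmC := union_subset_union (fun z hz => le_of_lt (a := √3 * |z.im|) hz)
  Metric.ball_subset_closedBall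

theorem conj_mem : ∀ z ∈ OmC, conj z ∈ OmC := by
  rintro z (h | h)
  · exact Or.inl (by simpa using h)
  · exact Or.inr (by simpa using h)

theorem ray_im (s : ℝ) : ((s : ℂ) + Real.pi / 6 * Complex.I).im = Real.pi / 6 := by simp

theorem ray_mem (s : ℝ) : ray s ∈ OmC :=
  exp_C (by rw [ray_im, abs_of_pos (by positivity)])

theorem tube (r : ℝ) (hr : 0 ≤ r) : Metric.ball (r : ℂ) ((1 + r) / 100) ⊆ OmO := fun w hw => by
  rw [mem_ball_iff_norm] at hw
  by_cases h : r ≤ 1 / 20
  · refine Or.inr (mem_ball_zero_iff.2 ?_)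
    have h1 := norm_add_le (w - r) r
    rw [sub_add_cancel, Complex.norm_real, Real.norm_of_nonneg hr] at h1
    linarith
  · have h1 := Complex.abs_re_le_norm (w - r)
    have h2 := Complex.abs_im_le_norm (w - r)
    rw [Complex.sub_re, Complex.ofReal_re] at h1
    rw [Complex.sub_im, Complex.ofReal_im, sub_zero] at h2
    have h3 : √3 ≤ 2 := Real.sqrt_le_iff.2 ⟨by norm_num, by norm_num⟩
    have h4 := mul_le_mul_of_nonneg_right h3 (abs_nonneg w.im)
    exact Or.inl (mem_ofPred_eq ▸ by linarith [neg_abs_le (w.re - r), not_le.1 h])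

theorem pl {u : ℂ → ℂ} {B : ℝ} (hu : Hol u)
    (hg : ∃ K B', ∀ z ∈ OmC, ‖u z‖ ≤ B' * Real.exp (K * ‖z‖ ^ 2)) (hr : ∀ s, ‖u (ray s)‖ ≤ B)
    (z : ℂ) (h0 : z ≠ 0) (hz : √3 * |z.im| ≤ z.re) : ‖u z‖ ≤ B := by
  obtain ⟨K, B', hg⟩ := hg
  have h := Real.pi_pos
  have h1 : ∀ w : ℂ, w.im = Real.pi / 6 → Complex.exp w = ray w.re := fun w hw =>
    congrArg Complex.exp (Complex.ext (by simp) (by rw [ray_im, hw]))
  rw [← Complex.exp_log h0]
  refine PhragmenLindelof.horizontal_strip (f := fun w => u (Complex.exp w))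
    (a := -(Real.pi / 6)) (b := Real.pi / 6) ⟨hu.1.comp Complex.differentiable_exp.differentiableOn
      fun w hw => exp_O (abs_lt.2 hw), hu.2.1.comp Complex.continuous_exp.continuousOn
      fun w hw => exp_C (abs_le.2 (closure_minimal (preimage_mono Ioo_subset_Icc_self)
        (isClosed_Icc.preimage Complex.continuous_im) hw))⟩ ⟨2, ?_, |K|, ?_⟩ (fun w hw => ?_)
    (fun w hw => h1 w hw ▸ hr _) (abs_le.1 (log_mem h0 hz)).1 (abs_le.1 (log_mem h0 hz)).2
  · rw [lt_div_iff₀ (by linarith)]
    linarith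
  · refine Asymptotics.IsBigO.of_bound |B'| (mem_inf_of_right fun w hw => ?_)
    refine (hg _ (sub (exp_O (abs_lt.2 hw)))).trans ?_
    rw [Real.norm_of_nonneg (Real.exp_pos _).le, Complex.norm_exp, ← Real.exp_nat_mul]
    exact mul_le_mul (le_abs_self _) (Real.exp_le_exp.2 (mul_le_mul (le_abs_self _)
      (Real.exp_le_exp.2 (by simpa using le_abs_self w.re)) (Real.exp_pos _).le (abs_nonneg _)))
      (Real.exp_pos _).le (abs_nonneg _)
  · have h2 := h1 (conj w) (by rw [Complex.conj_im, hw, neg_neg])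
    rw [Complex.exp_conj] at h2
    rw [← Complex.conj_conj (Complex.exp w), h2, hu.2.2 _ (ray_mem _), Complex.norm_conj]
    exact hr _

end HolAux

theorem holS : HolStmt where
  open_O := (isOpen_lt (by fun_prop) (by fun_prop)).union Metric.isOpen_ball
  closed_C := (isClosed_le (by fun_prop) (by fun_prop)).union Metric.isClosed_closedBall
  sub := HolAux.sub
  star_O := by
    rintro z (h | h) t ht
    · rcases ht.1.eq_or_lt with rfl | h0
      · exact Or.inr (by simp)
      · refine Or.inl ?_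
        rw [mem_ofPred_eq, Complex.im_ofReal_mul, Complex.re_ofReal_mul, abs_mul, abs_of_pos h0, mul_left_comm]
        exact mul_lt_mul_of_pos_left h h0
    · rw [mem_ball_zero_iff] at h
      refine Or.inr (mem_ball_zero_iff.2 (lt_of_le_of_lt ?_ h))
      rw [norm_mul, Complex.norm_real, Real.norm_of_nonneg ht.1]
      exact mul_le_of_le_one_left (norm_nonneg _) ht.2
  star_C := by
    rintro z (h | h) t ht
    · refine Or.inl ?_
      rw [mem_ofPred_eq, Complex.im_ofReal_mul, Complex.re_ofReal_mul, abs_mul, abs_of_nonneg ht.1,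
        mul_left_comm]
      exact mul_le_mul_of_nonneg_left h ht.1
    · rw [mem_closedBall_zero_iff] at h
      refine Or.inr (mem_closedBall_zero_iff.2 (le_trans ?_ h))
      rw [norm_mul, Complex.norm_real, Real.norm_of_nonneg ht.1]
      exact mul_le_of_le_one_left (norm_nonneg _) ht.2
  conj_mem := HolAux.conj_mem
  ray_mem := HolAux.ray_mem
  ray_norm := fun s => by simp [ray, Complex.norm_exp]
  ray_deriv := fun s => by
    have h := (((hasDerivAt_id' s).ofReal_comp).add_const (Real.pi / 6 * Complex.I)).cexp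
    rw [Complex.ofReal_one, mul_one] at h
    exact h
  real_mem := fun r hr => HolAux.tube r hr (Metric.mem_ball_self (by positivity))
  tube := HolAux.tube
  hol_const := fun c => ⟨differentiableOn_const _, continuousOn_const,
    fun _ _ => (Complex.conj_ofReal c).symm⟩
  hol_add := fun hf hg => ⟨hf.1.add hg.1, hf.2.1.add hg.2.1, fun z hz => by
    simp only [map_add, hf.2.2 z hz, hg.2.2 z hz]⟩
  hol_sub := fun hf hg => ⟨hf.1.sub hg.1, hf.2.1.sub hg.2.1, fun z hz => by
    simp only [map_sub, hf.2.2 z hz, hg.2.2 z hz]⟩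
  hol_mul := fun hf hg => ⟨hf.1.mul hg.1, hf.2.1.mul hg.2.1, fun z hz => by
    simp only [map_mul, hf.2.2 z hz, hg.2.2 z hz]⟩
  hol_div := fun hf hg h => ⟨hf.1.div hg.1 fun z hz => h z (HolAux.sub hz), hf.2.1.div hg.2.1 h,
    fun z hz => by simp only [map_div₀, hf.2.2 z hz, hg.2.2 z hz]⟩
  hol_congr := fun h hf => ⟨hf.1.congr fun z hz => (h (HolAux.sub hz)).symm,
    hf.2.1.congr h.symm, fun z hz => by
      rw [← h hz, ← h (HolAux.conj_mem z hz), hf.2.2 z hz]⟩
  hol_real := fun hf r hr => by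
    have h := hf.2.2 r (HolAux.sub (HolAux.tube r hr (Metric.mem_ball_self (by positivity))))
    rw [Complex.conj_ofReal] at h
    exact Complex.conj_eq_iff_im.1 h.symm
  hol_lim := fun {u f} hu h => by
    have h1 : TendstoLocallyUniformlyOn u f atTop OmC := fun U hU x _ =>
      ⟨OmC ∩ Metric.closedBall 0 (‖x‖ + 1), inter_mem_nhdsWithin _
        (Metric.closedBall_mem_nhds_of_mem (mem_ball_zero_iff.2 (lt_add_one _))), h _ U hU⟩
    refine ⟨(h1.mono HolAux.sub).differentiableOn (Eventually.of_forall fun j => (hu j).1)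
      ((isOpen_lt (by fun_prop) (by fun_prop)).union Metric.isOpen_ball),
      h1.continuousOn (Frequently.of_forall fun j => (hu j).2.1), fun z hz => ?_⟩
    refine tendsto_nhds_unique (h1.tendsto_at (HolAux.conj_mem z hz)) ?_
    simp only [fun j => (hu j).2.2 z hz]
    exact (Complex.continuous_conj.tendsto _).comp (h1.tendsto_at hz)
  an_hol := fun hf => ⟨fun z hz => (hf.1 z (HolAux.sub hz)).differentiableAt.differentiableWithinAt,
    fun z hz => (hf.1 z hz).continuousAt.continuousWithinAt, fun z _ => hf.2 z⟩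
  pl := HolAux.pl

end Vale.Agent.P264
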