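import Vale.Agent.P264.StmG

/-! P264, part G: the averaging operators along rays. -/

namespace Vale.Agent.P264

open scoped ContDiff ComplexConjugate Topology
open Set MeasureTheory Filter

namespace JopAux

/-- weighted mean along the segment from the origin -/
noncomputable def II (j : ℕ) (φ : ℂ → ℂ) (z : ℂ) : ℂ := ∫ t in (0 : ℝ)..1, (t : ℂ) ^ j * φ (t * z)

theorem JJ_eq (k : ℕ) (f : ℂ → ℂ) (z : ℂ) :
    JJ k f z = II (k - 1) (fun w => e1 w ^ k * mm w * f w) z / e1 z ^ k := by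
  rw [II, ← intervalIntegral.integral_div, JJ]
  refine intervalIntegral.integral_congr fun t _ => ?_
  simp only [div_pow]
  ring

section
variable (hH : HolStmt)
include hH

theorem seg {φ : ℂ → ℂ} (hφ : ContinuousOn φ OmC) {z : ℂ} (hz : z ∈ OmC) :
    ContinuousOn (fun t : ℝ => φ (t * z)) (Icc 0 1) :=
  hφ.comp (by fun_prop) (hH.star_C z hz)

theorem II_int (j : ℕ) {φ : ℂ → ℂ} (hφ : ContinuousOn φ OmC) {z : ℂ} (hz : z ∈ OmC) :
    IntervalIntegrable (fun t : ℝ => (t : ℂ) ^ j * φ (t * z)) volume 0 1 :=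
  (ContinuousOn.mul (by fun_prop) (seg hH hφ hz)).intervalIntegrable_of_Icc zero_le_one

theorem II_cont (j : ℕ) {φ : ℂ → ℂ} (hφ : ContinuousOn φ OmC) : ContinuousOn (II j φ) OmC := by
  rw [continuousOn_iff_continuous_domRestrict]
  have h : Continuous (Function.uncurry fun (x : OmC) (t : ℝ) =>
      (t : ℂ) ^ j * φ ((projIcc (0 : ℝ) 1 zero_le_one t : ℝ) * x)) :=
    Continuous.mul (by fun_prop) (hφ.comp_continuous
      ((Complex.continuous_ofReal.comp (continuous_subtype_val.comp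
        (continuous_projIcc.comp continuous_snd))).mul (by fun_prop))
      fun p => hH.star_C _ p.1.2 _ (projIcc _ _ _ _).2)
  refine (intervalIntegral.continuous_parametric_intervalIntegral_of_continuous' (μ := volume) h
    0 1).congr fun x => intervalIntegral.integral_congr fun t ht => ?_
  rw [uIcc_of_le zero_le_one] at ht
  simp only [projIcc_of_mem _ ht]

theorem II_diff (j : ℕ) {φ : ℂ → ℂ} (hφ : DifferentiableOn ℂ φ OmO) :
    DifferentiableOn ℂ (II j φ) OmO := fun z hz => by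
  obtain ⟨ε, hε, hs⟩ := Metric.nhds_basis_closedBall.mem_iff.1 (hH.open_O.mem_nhds hz)
  have hd := (hφ.deriv hH.open_O).continuousOn
  have h1 : ∀ {ψ : ℂ → ℂ}, ContinuousOn ψ OmO → ∀ x ∈ OmO,
      ContinuousOn (fun t : ℝ => ψ (t * x)) (Icc 0 1) := fun h x hx =>
    h.comp (by fun_prop) (hH.star_O x hx)
  have h2 : ∀ {F : ℝ → ℂ}, ContinuousOn F (Icc 0 1) →
      AEStronglyMeasurable F (volume.restrict (uIoc 0 1)) := fun h =>
    (intervalIntegrable_iff.1 (h.intervalIntegrable_of_Icc zero_le_one)).aestronglyMeasurable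
  obtain ⟨C, hC⟩ := (isCompact_Icc.prod (isCompact_closedBall z ε)).exists_bound_of_continuousOn
    (f := fun p : ℝ × ℂ => (p.1 : ℂ) ^ j * (deriv φ (p.1 * p.2) * p.1))
    (ContinuousOn.mul (by fun_prop) (ContinuousOn.mul (hd.comp (by fun_prop)
      fun p hp => hH.star_O _ (hs hp.2) _ hp.1) (by fun_prop)))
  have h3 : ∀ t ∈ uIoc (0 : ℝ) 1, t ∈ Icc (0 : ℝ) 1 := fun t ht =>
    Ioc_subset_Icc_self (uIoc_of_le (zero_le_one' ℝ) ▸ ht)
  refine (intervalIntegral.hasDerivAt_integral_of_dominated_loc_of_deriv_le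
    (F := fun x (t : ℝ) => (t : ℂ) ^ j * φ (t * x))
    (F' := fun x (t : ℝ) => (t : ℂ) ^ j * (deriv φ (t * x) * t)) (bound := fun _ => C)
    (Metric.closedBall_mem_nhds z hε) ?_ ?_ ?_ (Eventually.of_forall fun t ht x hx =>
      hC (t, x) ⟨h3 t ht, hx⟩) intervalIntegrable_const (Eventually.of_forall fun t ht x hx =>
        ?_)).2.differentiableAt.differentiableWithinAt
  · filter_upwards [hH.open_O.mem_nhds hz] with x hx
    exact h2 (ContinuousOn.mul (by fun_prop) (h1 hφ.continuousOn x hx))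
  · exact (ContinuousOn.mul (by fun_prop) (h1 hφ.continuousOn z hz)).intervalIntegrable_of_Icc
      zero_le_one
  · exact h2 (ContinuousOn.mul (by fun_prop) ((h1 hd z hz).mul (by fun_prop)))
  · have h4 := (hφ.differentiableAt (hH.open_O.mem_nhds
      (hH.star_O _ (hs hx) _ (h3 t ht)))).hasDerivAt.comp x ((hasDerivAt_id' x).const_mul (t : ℂ))
    rw [mul_one] at h4
    exact h4.const_mul _

theorem II_hol (j : ℕ) {φ : ℂ → ℂ} (hφ : Hol φ) : Hol (II j φ) := by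
  refine ⟨II_diff hH j hφ.1, II_cont hH j hφ.2.1, fun z hz => ?_⟩
  rw [II, II, ← intervalIntegral.intervalIntegral_conj]
  refine intervalIntegral.integral_congr fun t ht => ?_
  rw [uIcc_of_le zero_le_one] at ht
  simp only [map_mul, map_pow, Complex.conj_ofReal, ← hφ.2.2 _ (hH.star_C z hz t ht)]

theorem hol_pow {f : ℂ → ℂ} (hf : Hol f) (k : ℕ) : Hol fun z => f z ^ k :=
  ⟨hf.1.pow k, hf.2.1.pow k, fun z hz => (fun _ => by simp only [map_pow, hf.2.2 z hz]) hH⟩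

theorem congrOn (k : ℕ) {f g : ℂ → ℂ} (h : EqOn f g OmC) : EqOn (JJ k f) (JJ k g) OmC :=
  fun z hz => intervalIntegral.integral_congr fun t ht => by
    rw [uIcc_of_le zero_le_one] at ht
    simp only [h (hH.star_C z hz t ht)]

variable (hG : GeoStmt)
include hG

theorem e1_hol : Hol e1 := hH.an_hol hG.an.2.2.2.2.1
theorem ee_hol : Hol ee := hH.an_hol hG.an.2.2.2.2.2.1
theorem mm_hol : Hol mm := hH.an_hol hG.an.2.2.2.2.2.2.1

omit hH in
theorem ne {z : ℂ} (hz : z ∈ OmC) : e1 z ≠ 0 ∧ mm z ≠ 0 := by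
  obtain ⟨C, hC, h⟩ := hG.bd
  obtain ⟨-, h1, -, -, h2, -⟩ := h z hz
  have h3 : 0 < C⁻¹ := inv_pos.2 (by linarith)
  refine ⟨norm_pos_iff.1 (lt_of_lt_of_le (by positivity) h1), fun e => ?_⟩
  rw [e, Complex.zero_re] at h2
  linarith

theorem phi_cont (k : ℕ) {f : ℂ → ℂ} (hf : ContinuousOn f OmC) :
    ContinuousOn (fun w => e1 w ^ k * mm w * f w) OmC :=
  (((e1_hol hH hG).2.1.pow k).mul (mm_hol hH hG).2.1).mul hf

theorem cont {k : ℕ} {f : ℂ → ℂ} (hf : ContinuousOn f OmC) : ContinuousOn (JJ k f) OmC := by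
  rw [funext (JJ_eq k f)]
  exact (II_cont hH _ (phi_cont hH hG k hf)).div ((e1_hol hH hG).2.1.pow k)
    fun z hz => pow_ne_zero _ (ne hG hz).1

theorem hol {k : ℕ} {f : ℂ → ℂ} (hf : Hol f) : Hol (JJ k f) := by
  rw [funext (JJ_eq k f)]
  exact hH.hol_div (II_hol hH _ (hH.hol_mul (hH.hol_mul (hol_pow hH (e1_hol hH hG) k)
    (mm_hol hH hG)) hf)) (hol_pow hH (e1_hol hH hG) k) fun z hz => pow_ne_zero _ (ne hG hz).1

theorem lin (k : ℕ) {f g : ℂ → ℂ} (a b : ℂ) {z : ℂ} (hf : ContinuousOn f OmC)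
    (hg : ContinuousOn g OmC) (hz : z ∈ OmC) :
    JJ k (fun w => a * f w + b * g w) z = a * JJ k f z + b * JJ k g z := by
  simp only [JJ_eq, II]
  rw [← mul_div_assoc, ← mul_div_assoc, ← add_div, ← intervalIntegral.integral_const_mul,
    ← intervalIntegral.integral_const_mul, ← intervalIntegral.integral_add
      ((II_int hH _ (phi_cont hH hG k hf) hz).const_mul a)
      ((II_int hH _ (phi_cont hH hG k hg) hz).const_mul b)]
  refine congrArg (· / _) (intervalIntegral.integral_congr fun t _ => ?_)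
  ring

omit hH hG in
theorem line {u : ℂ → ℂ} {z : ℂ} {t : ℝ} (h : AnalyticAt ℂ u (t * z)) :
    HasDerivAt (fun t : ℝ => u (t * z)) (deriv u (t * z) * z) t := by
  have h1 := (h.differentiableAt.hasDerivAt.comp (t : ℂ)
    ((hasDerivAt_id' (t : ℂ)).mul_const z)).comp_ofReal
  rw [one_mul] at h1
  exact h1

omit hH in
theorem E_deriv {z : ℂ} {t : ℝ} (h : (t : ℂ) * z ∈ OmC) :
    HasDerivAt (fun t : ℝ => t * e1 (t * z)) (e1 (t * z) * mm (t * z)) t := by
  have h1 := hG.an.2.2.2.2.1.1 _ h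
  have h2 := (hG.ee_deriv _ h).unique ((hasDerivAt_id' _).mul h1.differentiableAt.hasDerivAt)
  have h3 := (hasDerivAt_id' t).ofReal_comp.mul (line h1)
  rw [h2]
  refine h3.congr_deriv ?_
  rw [Complex.ofReal_one]
  ring

theorem decay : ∃ δ : ℝ, 0 < δ ∧ ∀ z ∈ OmC, ∀ t ∈ Ioc (0 : ℝ) 1,
    t * ‖e1 (t * z) / e1 z‖ ≤ t ^ δ := by
  obtain ⟨C, hC, h⟩ := hG.bd
  refine ⟨C⁻¹, inv_pos.2 (by linarith), fun z hz t ht => ?_⟩
  have h1 : ∀ s ∈ Icc t 1, HasDerivAt (fun s : ℝ => ‖s * e1 (s * z)‖ ^ 2 * s ^ (-(2 * C⁻¹)))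
      (2 * s * s ^ (-(2 * C⁻¹)) * ‖e1 (s * z)‖ ^ 2 * ((mm (s * z)).re - C⁻¹)) s := fun s hs => by
    have h0 := ht.1.trans_le hs.1
    refine ((E_deriv hG (hH.star_C z hz s ⟨h0.le, hs.2⟩)).norm_sq.mul
      (Real.hasDerivAt_rpow_const (Or.inl h0.ne'))).congr_deriv ?_
    rw [Complex.inner, Real.rpow_sub_one h0.ne', norm_mul, mul_pow, Complex.norm_real,
      Real.norm_of_nonneg h0.le, map_mul, Complex.conj_ofReal, Complex.sq_norm,
      show e1 (s * z) * mm (s * z) * (s * conj (e1 (s * z))) =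
        s * (e1 (s * z) * conj (e1 (s * z)) * mm (s * z)) by ring, Complex.mul_conj,
      Complex.re_ofReal_mul, Complex.re_ofReal_mul]
    field_simp
    ring
  have h2 := monotoneOn_of_hasDerivWithinAt_nonneg (convex_Icc t 1)
    (fun s hs => (h1 s hs).continuousAt.continuousWithinAt)
    (fun s hs => (h1 s (interior_subset hs)).hasDerivWithinAt) (fun s hs => by
      have h3 := interior_subset hs
      have h0 := ht.1.trans_le h3.1
      have h4 := sub_nonneg.2 (h _ (hH.star_C z hz s ⟨h0.le, h3.2⟩)).2.2.2.2.1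
      positivity) ⟨le_rfl, ht.2⟩ ⟨ht.2, le_rfl⟩ ht.2
  simp only [Complex.ofReal_one, one_mul, Real.one_rpow, mul_one, norm_mul, Complex.norm_real,
    Real.norm_of_nonneg ht.1.le] at h2
  have h3 : 0 < t ^ C⁻¹ := Real.rpow_pos_of_pos ht.1 _
  rw [Real.rpow_neg ht.1.le, mul_comm 2, Real.rpow_mul ht.1.le, Real.rpow_two, ← div_eq_mul_inv,
    ← div_pow] at h2
  have h4 := le_of_sq_le_sq h2 (norm_nonneg _)
  rwa [norm_div, ← mul_div_assoc, div_le_iff₀ (norm_pos_iff.2 (ne hG hz).1), ← div_le_iff₀' h3]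

theorem bd1 : ∃ C : ℝ, 0 ≤ C ∧ ∀ (k : ℕ) (f : ℂ → ℂ) (B : ℝ), 1 ≤ k → ∀ z ∈ OmC,
    (∀ t ∈ Icc (0 : ℝ) 1, ‖f (t * z)‖ ≤ B) → ‖JJ k f z‖ ≤ C / k * B := by
  obtain ⟨δ, hδ, hd⟩ := decay hH hG
  obtain ⟨C, hC, h⟩ := hG.bd
  refine ⟨C / δ, by positivity, fun k f B hk z hz hf => ?_⟩
  obtain ⟨j, rfl⟩ : ∃ j, k = j + 1 := ⟨k - 1, by omega⟩
  have h1 : -1 < δ * (j + 1 : ℕ) - 1 := by
    have : 0 < δ * (j + 1 : ℕ) := by positivity
    linarith
  refine (intervalIntegral.norm_integral_le_of_norm_le (g := fun t => t ^ (δ * (j + 1 : ℕ) - 1) *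
    (C * B)) zero_le_one (Eventually.of_forall fun t ht => ?_)
    ((intervalIntegral.intervalIntegrable_rpow' h1).mul_const _)).trans (le_of_eq ?_)
  · rw [norm_mul, norm_mul, mul_assoc]
    refine mul_le_mul ?_ (mul_le_mul (h _ (hH.star_C z hz t ⟨ht.1.le, ht.2⟩)).2.2.2.1
      (hf t ⟨ht.1.le, ht.2⟩) (norm_nonneg _) (by linarith)) (by positivity)
      (Real.rpow_nonneg ht.1.le _)
    rw [Real.rpow_sub_one ht.1.ne', le_div_iff₀ ht.1, Real.rpow_mul_natCast ht.1.le, norm_mul,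
      norm_pow, norm_pow, Complex.norm_real, Real.norm_of_nonneg ht.1.le, Nat.add_sub_cancel,
      mul_right_comm, ← pow_succ, ← mul_pow]
    exact pow_le_pow_left₀ (mul_nonneg ht.1.le (norm_nonneg _)) (hd z hz t ht) _
  · rw [intervalIntegral.integral_mul_const, integral_rpow (Or.inl h1), sub_add_cancel,
      Real.one_rpow, Real.zero_rpow (by positivity)]
    field_simp
    ring

theorem bd2 (k : ℕ) : ∃ C : ℝ, 0 ≤ C ∧ ∀ (f : ℂ → ℂ) (B A : ℝ), 0 < A → ∀ z ∈ OmC,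
    (∀ t ∈ Icc (0 : ℝ) 1, ‖f (t * z)‖ ≤ B * Real.exp (A * t ^ 2)) →
    ‖JJ k f z‖ ≤ C * B * Real.exp A * min 1 A⁻¹ := by
  obtain ⟨C, hC, h⟩ := hG.bd
  have hC0 : 0 < C := by linarith
  refine ⟨(C ^ 2) ^ k * C, by positivity, fun f B A hA z hz hf => ?_⟩
  have hB : 0 ≤ B := by simpa using (norm_nonneg _).trans (hf 0 ⟨le_rfl, zero_le_one⟩)
  refine (intervalIntegral.norm_integral_le_of_norm_le
    (g := fun t => (C ^ 2) ^ k * C * B * Real.exp (A * t)) zero_le_one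
    (Eventually.of_forall fun t ht => ?_) (Continuous.intervalIntegrable (by fun_prop) _ _)).trans ?_
  · have h1 := h _ (hH.star_C z hz t ⟨ht.1.le, ht.2⟩)
    have h2 : ‖e1 (t * z) / e1 z‖ ≤ C ^ 2 := by
      rw [norm_div, div_le_iff₀ (norm_pos_iff.2 (ne hG hz).1)]
      have h3 : ‖(t : ℂ) * z‖ ^ 2 ≤ ‖z‖ ^ 2 := pow_le_pow_left₀ (norm_nonneg _) (by
        rw [norm_mul, Complex.norm_real, Real.norm_of_nonneg ht.1.le]
        exact mul_le_of_le_one_left (norm_nonneg _) ht.2) 2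
      have h4 := (h z hz).2.1
      rw [inv_mul_le_iff₀ hC0] at h4
      nlinarith [h1.2.2.1, mul_le_mul_of_nonneg_left h4 hC0.le,
        mul_le_mul_of_nonneg_left h3 hC0.le]
    rw [norm_mul, norm_mul, norm_mul, norm_pow, norm_pow, Complex.norm_real,
      Real.norm_of_nonneg ht.1.le, mul_assoc _ B]
    refine mul_le_mul (mul_le_mul ((mul_le_of_le_one_left (by positivity)
      (pow_le_one₀ ht.1.le ht.2)).trans (pow_le_pow_left₀ (norm_nonneg _) h2 k)) h1.2.2.2.1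
      (norm_nonneg _) (by positivity)) ((hf t ⟨ht.1.le, ht.2⟩).trans (mul_le_mul_of_nonneg_left
        (Real.exp_le_exp.2 (mul_le_mul_of_nonneg_left ?_ hA.le)) hB)) (norm_nonneg _)
      (by positivity)
    nlinarith [ht.1, ht.2]
  · rw [intervalIntegral.integral_const_mul, mul_assoc _ (Real.exp A),
      intervalIntegral.integral_comp_mul_left Real.exp hA.ne', integral_exp, mul_zero, mul_one,
      Real.exp_zero, smul_eq_mul]
    refine mul_le_mul_of_nonneg_left ?_ (by positivity)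
    rw [mul_min_of_nonneg _ _ (Real.exp_pos A).le, mul_one]
    refine le_min ?_ (by nlinarith [inv_pos.2 hA])
    have h1 := mul_le_mul_of_nonneg_right (Real.add_one_le_exp (-A)) (Real.exp_pos A).le
    rw [← Real.exp_add, neg_add_cancel, Real.exp_zero] at h1
    rw [inv_mul_le_iff₀ hA]
    linarith

theorem radial {k : ℕ} {f : ℂ → ℂ} (hk : 1 ≤ k) (hf : ContinuousOn f OmC) {θ : ℂ}
    (hθ : ∀ ρ : ℝ, 0 ≤ ρ → (ρ : ℂ) * θ ∈ OmC) {ρ : ℝ} (hρ : 0 < ρ) :
    HasDerivAt (fun ρ : ℝ => JJ k f (ρ * θ))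
      (mm (ρ * θ) * (f (ρ * θ) - k * JJ k f (ρ * θ)) / ρ) ρ := by
  obtain ⟨j, rfl⟩ : ∃ j, k = j + 1 := ⟨k - 1, by omega⟩
  obtain ⟨g, hg⟩ : ∃ g : ℝ → ℂ, g = fun τ : ℝ =>
    (τ : ℂ) ^ j * (e1 (τ * θ) ^ (j + 1) * mm (τ * θ) * f (τ * θ)) := ⟨_, rfl⟩
  have h1 : ContinuousOn g (Ici 0) :=
    hg ▸ ContinuousOn.mul (by fun_prop) ((phi_cont hH hG _ hf).comp (by fun_prop) hθ)
  have h2 : ∀ r : ℝ, 0 < r → JJ (j + 1) f (r * θ) =
      (∫ τ in (0 : ℝ)..r, g τ) / (r * e1 (r * θ)) ^ (j + 1) := fun r hr => by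
    have h3 := intervalIntegral.integral_comp_mul_right (a := 0) (b := 1) g hr.ne'
    rw [zero_mul, one_mul, eq_inv_smul_iff₀ hr.ne'] at h3
    have h4 : (r : ℂ) ^ (j + 1) ≠ 0 := pow_ne_zero _ (Complex.ofReal_ne_zero.2 hr.ne')
    rw [JJ_eq, ← h3, mul_pow, ← div_div, II, Complex.real_smul,
      ← intervalIntegral.integral_const_mul, ← intervalIntegral.integral_div ((r : ℂ) ^ (j + 1))]
    refine congrArg (· / e1 (r * θ) ^ (j + 1)) (intervalIntegral.integral_congr fun t _ => ?_)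
    simp only [hg, Nat.add_sub_cancel, Complex.ofReal_mul, mul_assoc]
    rw [eq_div_iff h4]
    ring
  have h3 := intervalIntegral.integral_hasDerivAt_right
    ((h1.mono Icc_subset_Ici_self).intervalIntegrable_of_Icc hρ.le)
    ((h1.mono Ioi_subset_Ici_self).stronglyMeasurableAtFilter isOpen_Ioi ρ hρ)
    (h1.continuousAt (Ici_mem_nhds hρ))
  have h4 := (ne hG (hθ ρ hρ.le)).1
  have h5 : (ρ : ℂ) ≠ 0 := Complex.ofReal_ne_zero.2 hρ.ne'
  refine ((h3.div ((E_deriv hG (hθ ρ hρ.le)).pow (j + 1))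
    (pow_ne_zero _ (mul_ne_zero h5 h4))).congr_of_eventuallyEq
      ((lt_mem_nhds hρ).mono h2)).congr_deriv ?_
  rw [h2 ρ hρ]
  generalize (∫ τ in (0 : ℝ)..ρ, g τ) = G
  simp only [hg, Nat.add_sub_cancel, Pi.pow_apply]
  field_simp
  ring

theorem ray_ode {k : ℕ} {f : ℂ → ℂ} (hk : 1 ≤ k) (hf : ContinuousOn f OmC) (s : ℝ) :
    HasDerivAt (fun s => JJ k f (ray s)) (mm (ray s) * (f (ray s) - k * JJ k f (ray s))) s := by
  have h1 : ∀ s, ray s = (Real.exp s : ℂ) * ray 0 := fun s => by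
    simp [ray, Complex.exp_add]
  have h2 := (radial hH hG hk hf (θ := ray 0) (fun ρ hρ => by
    rcases hρ.eq_or_lt with rfl | h
    · simpa using hH.star_C _ (hH.ray_mem 0) 0 ⟨le_rfl, zero_le_one⟩
    · rw [← Real.exp_log h, ← h1]
      exact hH.ray_mem _) (Real.exp_pos s)).scomp s (Real.hasDerivAt_exp s)
  rw [Complex.real_smul, mul_div_cancel₀ _ (Complex.ofReal_ne_zero.2 (Real.exp_pos s).ne'),
    ← h1] at h2
  exact h2.congr_of_eventuallyEq (Eventually.of_forall fun s => congrArg _ (h1 s))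

theorem Dh_JJ {k : ℕ} {f : ℂ → ℂ} (hk : 1 ≤ k) (hf : Hol f) (r : ℝ) (hr : 0 < r) :
    Dh (JJ k f) r = f r - k * JJ k f r := by
  have h1 := radial hH hG hk hf.2.1 (θ := 1)
    (fun ρ hρ => by simpa using hH.sub (hH.real_mem ρ hρ)) hr
  simp only [mul_one] at h1
  have h2 := ((hol hH hG (k := k) hf).1.differentiableAt
    (hH.open_O.mem_nhds (hH.real_mem r hr.le))).hasDerivAt.comp_ofReal
  rw [Dh, h2.unique h1, mul_div_cancel₀ _ (Complex.ofReal_ne_zero.2 hr.ne'),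
    mul_div_cancel_left₀ _ (ne hG (hH.sub (hH.real_mem r hr.le))).2]

theorem left_inv {k : ℕ} {u : ℂ → ℂ} (hk : 1 ≤ k) (hu : An u) (z : ℂ) (hz : z ∈ OmC) :
    JJ k (fun w => Dh u w + k * u w) z = u z := by
  obtain ⟨j, rfl⟩ : ∃ j, k = j + 1 := ⟨k - 1, by omega⟩
  rw [JJ_eq, II, intervalIntegral.integral_eq_sub_of_hasDerivAt
    (f := fun t : ℝ => (t * e1 (t * z)) ^ (j + 1) * u (t * z)) (fun t ht => ?_)
    (II_int hH _ (phi_cont hH hG _ ((hH.an_hol (hG.an_Dh hu)).2.1.fun_add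
      (continuousOn_const.fun_mul (hH.an_hol hu).2.1))) hz)]
  · simp only [Complex.ofReal_one, one_mul, Complex.ofReal_zero, zero_mul,
      zero_pow (Nat.succ_ne_zero j), sub_zero]
    exact mul_div_cancel_left₀ _ (pow_ne_zero _ (ne hG hz).1)
  · rw [uIcc_of_le zero_le_one] at ht
    have h1 := hH.star_C z hz t ht
    refine (((E_deriv hG h1).pow (j + 1)).mul (line (hu.1 _ h1))).congr_deriv ?_
    have h2 := (ne hG h1).2
    simp only [Dh, Nat.add_sub_cancel, Pi.pow_apply]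
    field_simp
    ring

theorem prim {ψ f : ℂ → ℂ} (hψ : An ψ) (h : ∀ w ∈ OmC, deriv ψ w = e1 w * mm w * f w) (z : ℂ)
    (hz : z ∈ OmC) : ee z * JJ 1 f z = ψ z - ψ 0 := by
  have h1 := intervalIntegral.integral_eq_sub_of_hasDerivAt (a := 0) (b := 1)
    (f := fun t : ℝ => ψ (t * z)) (f' := fun t : ℝ => deriv ψ (t * z) * z)
    (fun t ht => line (hψ.1 _ (hH.star_C z hz t (uIcc_of_le (zero_le_one' ℝ) ▸ ht))))
    (((seg hH (fun w hw => (hψ.1 w hw).deriv.continuousAt.continuousWithinAt) hz).mul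
      continuousOn_const).intervalIntegrable_of_Icc zero_le_one)
  simp only [Complex.ofReal_one, one_mul, Complex.ofReal_zero, zero_mul] at h1
  rw [JJ_eq, ee, pow_one, mul_assoc, mul_div_cancel₀ _ (ne hG hz).1, II, ← h1,
    ← intervalIntegral.integral_const_mul]
  refine intervalIntegral.integral_congr fun t ht => ?_
  rw [uIcc_of_le zero_le_one] at ht
  simp only [h _ (hH.star_C z hz t ht)]
  ring

theorem KK_bd : ∃ C : ℝ, 0 ≤ C ∧ ∀ (n : ℕ) (f : ℂ → ℂ) (B : ℝ), ∀ z ∈ OmC,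
    (∀ t ∈ Icc (0 : ℝ) 1, ‖f (t * z)‖ ≤ B) → ‖KK n f z‖ ≤ C * ‖ee z‖ ^ 2 * B := by
  obtain ⟨C, hC, h⟩ := bd1 hH hG
  refine ⟨C ^ 3, by positivity, fun n f B z hz hf => ?_⟩
  have hB : 0 ≤ B := (norm_nonneg _).trans (hf 0 ⟨le_rfl, zero_le_one⟩)
  have h1 : ∀ (k : ℕ) (g : ℂ → ℂ) (B : ℝ), 1 ≤ k → (∀ t ∈ Icc (0 : ℝ) 1, ‖g (t * z)‖ ≤ B) →
      ∀ t ∈ Icc (0 : ℝ) 1, ‖JJ k g (t * z)‖ ≤ C / k * B := fun k g B hk hg t ht =>
    h k g B hk _ (hH.star_C z hz t ht) fun s hs => by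
      rw [← mul_assoc, ← Complex.ofReal_mul]
      exact hg _ ⟨mul_nonneg hs.1 ht.1, mul_le_one₀ hs.2 ht.1 ht.2⟩
  have h2 := h 1 (fun w => (n : ℂ) ^ 2 * JJ (n + 1) (JJ (n + 2) f) w) (C ^ 2 * B) le_rfl z hz
    fun t ht => by
      rw [norm_mul, norm_pow, Complex.norm_natCast]
      refine (mul_le_mul_of_nonneg_left (h1 (n + 1) _ _ (by omega) (h1 (n + 2) f B (by omega) hf)
        t ht) (sq_nonneg _)).trans ?_
      have h3 : (n : ℝ) ^ 2 / ((n + 1) * (n + 2)) ≤ 1 := by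
        rw [div_le_one (by positivity)]
        nlinarith [(Nat.cast_nonneg n : (0 : ℝ) ≤ n)]
      refine le_trans (le_of_eq ?_) (mul_le_of_le_one_left (by positivity) h3)
      push_cast
      field_simp
  rw [KK, norm_mul, norm_pow]
  refine (mul_le_mul_of_nonneg_left h2 (sq_nonneg _)).trans (le_of_eq ?_)
  rw [Nat.cast_one]
  ring

end
end JopAux

open JopAux in
theorem jop (hH : HolStmt) (hG : GeoStmt) : JStmt where
  cont := cont hH hG
  hol := hol hH hG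
  congr := fun k _ _ _ h => intervalIntegral.integral_congr fun t ht => by
    rw [uIcc_of_le zero_le_one] at ht
    simp only [h t ht]
  lin := lin hH hG
  bd1 := bd1 hH hG
  bd2 := fun k _ => bd2 hH hG k
  ray_ode := ray_ode hH hG
  Dh_JJ := Dh_JJ hH hG
  left_inv := left_inv hH hG
  prim := prim hH hG
  KK_hol := fun n _ hF => hH.hol_mul (hol_pow hH (ee_hol hH hG) 2) (hol hH hG
    (hH.hol_mul (hol_pow hH (hH.hol_const n) 2) (hol hH hG (hol hH hG hF))))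
  KK_cont := fun n _ hF => ((ee_hol hH hG).2.1.pow 2).mul (cont hH hG
    (continuousOn_const.mul (cont hH hG (cont hH hG hF))))
  KK_congr := fun n _ _ h z hz => congrArg (ee z ^ 2 * ·) (congrOn hH 1
    (fun w hw => congrArg ((n : ℂ) ^ 2 * ·) (congrOn hH _ (congrOn hH _ h) hw)) hz)
  KK_lin := fun n f g a b z hf hg hz => by
    have h1 := cont hH hG (k := n + 2) hf
    have h2 := cont hH hG (k := n + 2) hg
    rw [KK, KK, KK, mul_left_comm a, mul_left_comm b, ← mul_add, ← lin hH hG 1 a b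
      (continuousOn_const.fun_mul (cont hH hG h1)) (continuousOn_const.fun_mul (cont hH hG h2)) hz]
    refine congrArg (ee z ^ 2 * ·) (congrOn hH 1 (fun w hw => ?_) hz)
    rw [congrOn hH _ (fun v hv => lin hH hG (n + 2) a b hf hg hv) hw, lin hH hG _ a b h1 h2 hw]
    ring
  KK_bd := KK_bd hH hG

end Vale.Agent.P264
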