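import Vale.Agent.P264.StmG

/-! Explicit solutions of the limit equation. -/

namespace Vale.Agent.P264

open scoped ContDiff ComplexConjugate
open Set MeasureTheory Filter Complex

namespace LimSol

/-- the integrand of `Ei` -/
noncomputable def gE (w : ℂ) : ℂ := Complex.exp (9 * w ^ 2 / 4)

theorem diff_gE : Differentiable ℂ gE := by
  unfold gE
  fun_prop

theorem ftc {G : ℂ → ℂ} (hG : ∀ w, HasDerivAt G (gE w) w) (b v : ℂ) (T : ℝ) :
    ∫ t in (0 : ℝ)..T, v * gE (b + t * v) = G (b + T * v) - G b := by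
  have h := intervalIntegral.integral_eq_sub_of_hasDerivAt (a := 0) (b := T)
    (f := fun t : ℝ => G (b + t * v)) (f' := fun t : ℝ => v * gE (b + t * v)) (fun t _ => ?_) ?_
  · simpa using h
  · have h1 : HasDerivAt (fun w : ℂ => G (b + w * v)) (gE (b + t * v) * (1 * v)) (t : ℂ) :=
      (hG (b + t * v)).comp (t : ℂ) (((hasDerivAt_id (t : ℂ)).mul_const v).const_add b)
    rw [one_mul, mul_comm] at h1
    exact h1.comp_ofReal
  · have := diff_gE.continuous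
    exact Continuous.intervalIntegrable (by fun_prop) _ _

theorem Ei_deriv (w : ℂ) : HasDerivAt Ei (gE w) w := by
  obtain ⟨G, hG⟩ := diff_gE.isExactOn_univ
  have hG' : ∀ w, HasDerivAt G (gE w) w := fun w => hG w (mem_univ w)
  have h : Ei = fun x => G x - G 0 := by
    funext x
    have := ftc hG' 0 x 1
    simp only [zero_add, ofReal_one, one_mul] at this
    rw [← this, Ei, ← intervalIntegral.integral_const_mul]
    refine intervalIntegral.integral_congr fun t _ => ?_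
    simp only [gE]
    congr 2
    ring
  rw [h]
  exact (hG' w).sub_const _

theorem Ei_zero : Ei 0 = 0 := by simp [Ei]

theorem Ei_analytic (w : ℂ) : AnalyticAt ℂ Ei w :=
  Differentiable.analyticAt (fun w => (Ei_deriv w).differentiableAt) w

theorem Ei_conj (w : ℂ) : Ei (conj w) = conj (Ei w) := by
  rw [Ei, Ei, map_mul, ← intervalIntegral.intervalIntegral_conj]
  congr 1
  refine intervalIntegral.integral_congr fun t _ => ?_
  simp only [← Complex.exp_conj, map_div₀, map_mul, map_pow, conj_ofReal, map_ofNat]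

theorem Ei_im (Y : ℝ) : Ei (Y * I) = (∫ t in (0 : ℝ)..Y, Real.exp (-(9 * t ^ 2 / 4)) : ℝ) * I := by
  have h := ftc Ei_deriv 0 I Y
  simp only [zero_add, Ei_zero, sub_zero] at h
  rw [← h, ← intervalIntegral.integral_ofReal, ← intervalIntegral.integral_mul_const]
  refine intervalIntegral.integral_congr fun t _ => ?_
  simp only [gE]
  rw [mul_comm, mul_pow, I_sq]
  push_cast
  congr 2
  ring

theorem int_bounds {Y : ℝ} (hY : 1 ≤ Y) :
    1 / 5 ≤ ∫ t in (0 : ℝ)..Y, Real.exp (-(9 * t ^ 2 / 4)) ∧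
      ∫ t in (0 : ℝ)..Y, Real.exp (-(9 * t ^ 2 / 4)) ≤ 2 := by
  have hc : Continuous fun t : ℝ => Real.exp (-(9 * t ^ 2 / 4)) := by fun_prop
  constructor
  · rw [← intervalIntegral.integral_add_adjacent_intervals (b := 1 / 2)
      (hc.intervalIntegrable _ _) (hc.intervalIntegrable _ _)]
    have h1 : ∫ _ in (0 : ℝ)..(1 / 2), (2 / 5 : ℝ) ≤
        ∫ t in (0 : ℝ)..(1 / 2), Real.exp (-(9 * t ^ 2 / 4)) := by
      refine intervalIntegral.integral_mono_on (by norm_num) (by simp) (hc.intervalIntegrable _ _)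
        fun t ht => ?_
      have := Real.add_one_le_exp (-(9 * t ^ 2 / 4))
      nlinarith [ht.1, ht.2]
    have h2 : 0 ≤ ∫ t in (1 / 2 : ℝ)..Y, Real.exp (-(9 * t ^ 2 / 4)) :=
      intervalIntegral.integral_nonneg (by linarith) fun t _ => (Real.exp_pos _).le
    simp only [intervalIntegral.integral_const, smul_eq_mul] at h1
    linarith
  · have h1 : ∫ t in (0 : ℝ)..Y, Real.exp (-(9 * t ^ 2 / 4)) ≤ ∫ t in (0 : ℝ)..Y, (1 + t ^ 2)⁻¹ := by
      refine intervalIntegral.integral_mono_on (by linarith) (hc.intervalIntegrable _ _)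
        (Continuous.intervalIntegrable (Continuous.inv₀ (by fun_prop) fun t => by positivity) _ _)
        fun t _ => ?_
      rw [Real.exp_neg]
      refine inv_anti₀ (by positivity) ?_
      have := Real.add_one_le_exp (9 * t ^ 2 / 4)
      nlinarith [sq_nonneg t]
    rw [integral_inv_one_add_sq, Real.arctan_zero] at h1
    have := Real.arctan_lt_pi_div_two Y
    have := Real.pi_le_four
    linarith

theorem Ei_near {X Y : ℝ} (hX : 0 ≤ X) (hY : 3 ≤ Y) (hXY : 2 * X ≤ Y) :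
    ‖Ei (Y * I + X) - Ei (Y * I)‖ ≤ 1 / 10 := by
  have h := ftc Ei_deriv (Y * I) 1 X
  simp only [mul_one, one_mul] at h
  rw [← h]
  have hu : 0 < 27 * Y ^ 2 / 16 := by positivity
  have h1 : ∀ t ∈ uIoc (0 : ℝ) X, ‖gE (Y * I + t)‖ ≤ (27 * Y ^ 2 / 16)⁻¹ := fun t ht => by
    rw [uIoc_of_le hX] at ht
    have h2 : (9 * (Y * I + t : ℂ) ^ 2 / 4).re = 9 * (t ^ 2 - Y ^ 2) / 4 := by
      simp [pow_two]
    rw [gE, Complex.norm_exp, h2]
    calc Real.exp (9 * (t ^ 2 - Y ^ 2) / 4) ≤ Real.exp (-(27 * Y ^ 2 / 16)) := by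
          apply Real.exp_le_exp.2
          nlinarith [ht.1, ht.2]
      _ ≤ _ := by
          rw [Real.exp_neg]
          refine inv_anti₀ hu ?_
          have := Real.add_one_le_exp (27 * Y ^ 2 / 16)
          linarith
  refine (intervalIntegral.norm_integral_le_of_norm_le_const h1).trans ?_
  rw [sub_zero, abs_of_nonneg hX, inv_mul_le_iff₀ hu]
  nlinarith

theorem Ei_bounds {X Y : ℝ} (hX : 0 ≤ X) (hY : 3 ≤ Y) (hXY : 2 * X ≤ Y) :
    1 / 10 ≤ (Ei (Y * I + X)).im ∧ ‖Ei (Y * I + X)‖ ≤ 3 := by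
  have h1 := Ei_near hX hY hXY
  obtain ⟨h2, h3⟩ := int_bounds (Y := Y) (by linarith)
  rw [Ei_im] at h1
  set J := ∫ t in (0 : ℝ)..Y, Real.exp (-(9 * t ^ 2 / 4))
  constructor
  · have h4 := (Complex.abs_im_le_norm (Ei (Y * I + X) - J * I)).trans h1
    simp only [sub_im, mul_im, ofReal_re, I_im, mul_one, ofReal_im, I_re, mul_zero,
      add_zero] at h4
    have := (abs_le.1 h4).1
    linarith
  · have h4 : ‖(J : ℂ) * I‖ = J := by
      rw [norm_mul, Complex.norm_I, mul_one, Complex.norm_real, Real.norm_of_nonneg (by linarith)]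
    have := norm_le_insert' (Ei (Y * I + X)) (J * I)
    linarith

theorem comb_lower {W : ℂ} (h1 : 1 / 10 ≤ W.im) (h2 : ‖W‖ ≤ 3) (a κ : ℝ) :
    |a| + |κ| ≤ 36 * ‖a + 2 * κ * W‖ := by
  have h3 := Complex.abs_im_le_norm (a + 2 * κ * W)
  have h4 : (a + 2 * κ * W : ℂ).im = κ * (2 * W.im) := by
    simp
    ring
  rw [h4, abs_mul, abs_of_nonneg (show 0 ≤ 2 * W.im by linarith)] at h3
  have h5 : ‖(a : ℂ)‖ ≤ ‖a + 2 * κ * W‖ + ‖2 * κ * W‖ := by
    have := norm_sub_le (a + 2 * κ * W) (2 * κ * W)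
    rwa [add_sub_cancel_right] at this
  rw [Complex.norm_real, Real.norm_eq_abs, norm_mul, norm_mul, Complex.norm_real, Real.norm_eq_abs,
    Complex.norm_ofNat] at h5
  nlinarith [abs_nonneg κ]

/-- `ua / ee` as a function of `xi` -/
noncomputable def pa (x : ℂ) : ℂ := 4 / 27 * Complex.exp (-(9 * x ^ 2 / 4)) / (x ^ 4 + 4 / 27)

/-- the rational part of `uk / ee` -/
noncomputable def pr (x : ℂ) : ℂ :=
  x * (2 / 9 * x ^ 4 - 16 / 81 * x ^ 2 + 8 / 243) / ((x ^ 4 + 4 / 27) * (x ^ 2 + 2 / 9))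

/-- `uk / ee` as a function of `xi` -/
noncomputable def pk (x : ℂ) : ℂ := pr x + 2 * Ei x * pa x

theorem ua_eq (z : ℂ) : ua z = ee z * pa (xi z) := by
  simp only [ua, pa, qq]
  ring

theorem uk_eq (z : ℂ) : uk z = ee z * pk (xi z) := by
  rw [uk, ua_eq]
  simp only [pk, pr, qq, vv]
  ring

theorem pa_deriv {x : ℂ} (hq : x ^ 4 + 4 / 27 ≠ 0) :
    HasDerivAt pa (-(9 * x * (x ^ 2 + 2 / 9) * (x ^ 2 + 2 / 3) / (2 * (x ^ 4 + 4 / 27))) * pa x)
      x := by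
  have h1 : HasDerivAt (fun x : ℂ => -(9 * x ^ 2 / 4)) (-(9 * (2 * x) / 4)) x := by
    have := (((hasDerivAt_pow 2 x).const_mul 9).div_const 4).fun_neg
    simpa using this
  have h2 : HasDerivAt (fun x : ℂ => x ^ 4 + 4 / 27) (4 * x ^ 3) x := by
    simpa using (hasDerivAt_pow 4 x).add_const (4 / 27)
  have h3 : HasDerivAt pa _ x := (h1.cexp.const_mul (4 / 27)).fun_div h2 hq
  refine h3.congr_deriv ?_
  simp only [pa]
  generalize hQ : x ^ 4 + 4 / 27 = Q at hq ⊢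
  have : x ^ 4 = Q - 4 / 27 := by rw [← hQ]; ring
  field_simp
  rw [← hQ]
  ring

theorem pr_deriv {x : ℂ} (hq : x ^ 4 + 4 / 27 ≠ 0) (hv : x ^ 2 + 2 / 9 ≠ 0) :
    HasDerivAt pr ((x ^ 4 + 4 / 27) / (x ^ 2 + 2 / 9) ^ 2 - 8 / 27 / (x ^ 4 + 4 / 27) -
      9 * x * (x ^ 2 + 2 / 9) * (x ^ 2 + 2 / 3) / (2 * (x ^ 4 + 4 / 27)) * pr x) x := by
  have h1 : HasDerivAt (fun x : ℂ => x * (2 / 9 * x ^ 4 - 16 / 81 * x ^ 2 + 8 / 243))
      (10 / 9 * x ^ 4 - 16 / 27 * x ^ 2 + 8 / 243) x := by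
    refine ((hasDerivAt_id' x).fun_mul (((((hasDerivAt_pow 4 x).const_mul (2 / 9)).fun_sub
      ((hasDerivAt_pow 2 x).const_mul (16 / 81)))).add_const (8 / 243))).congr_deriv ?_
    simp
    ring
  have h2 : HasDerivAt (fun x : ℂ => x ^ 4 + 4 / 27) (4 * x ^ 3) x := by
    simpa using (hasDerivAt_pow 4 x).add_const (4 / 27)
  have h3 : HasDerivAt (fun x : ℂ => x ^ 2 + 2 / 9) (2 * x) x := by
    simpa using (hasDerivAt_pow 2 x).add_const (2 / 9)
  have h4 : HasDerivAt pr _ x := h1.fun_div (h2.fun_mul h3) (mul_ne_zero hq hv)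
  refine h4.congr_deriv ?_
  simp only [pr]
  generalize hQ : x ^ 4 + 4 / 27 = Q at hq ⊢
  generalize hV : x ^ 2 + 2 / 9 = V at hv ⊢
  field_simp
  rw [← hQ, ← hV]
  ring

theorem pk_deriv {x : ℂ} (hq : x ^ 4 + 4 / 27 ≠ 0) (hv : x ^ 2 + 2 / 9 ≠ 0) :
    HasDerivAt pk ((x ^ 4 + 4 / 27) / (x ^ 2 + 2 / 9) ^ 2 -
      9 * x * (x ^ 2 + 2 / 9) * (x ^ 2 + 2 / 3) / (2 * (x ^ 4 + 4 / 27)) * pk x) x := by
  have h : HasDerivAt pk _ x :=
    (pr_deriv hq hv).fun_add (((Ei_deriv x).const_mul 2).fun_mul (pa_deriv hq))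
  have h1 : gE x * pa x = 4 / 27 / (x ^ 4 + 4 / 27) := by
    have : Complex.exp (9 * x ^ 2 / 4) * Complex.exp (-(9 * x ^ 2 / 4)) = 1 := by
      rw [← Complex.exp_add, add_neg_cancel, Complex.exp_zero]
    simp only [gE, pa]
    linear_combination (4 / 27 / (x ^ 4 + 4 / 27)) * this
  refine h.congr_deriv ?_
  simp only [pk]
  linear_combination 2 * h1

theorem pa_conj (x : ℂ) : pa (conj x) = conj (pa x) := by
  simp only [pa, ← Complex.exp_conj, map_div₀, map_mul, map_pow, map_ofNat, map_add, map_neg]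

theorem pk_conj (x : ℂ) : pk (conj x) = conj (pk x) := by
  simp only [pk, pr, pa_conj, Ei_conj, map_div₀, map_mul, map_pow, map_ofNat, map_add, map_sub]

theorem pa_an {x : ℂ} (hq : x ^ 4 + 4 / 27 ≠ 0) : AnalyticAt ℂ pa x := by
  unfold pa
  exact AnalyticAt.div (by fun_prop) (by fun_prop) hq

theorem pk_an {x : ℂ} (hq : x ^ 4 + 4 / 27 ≠ 0) (hv : x ^ 2 + 2 / 9 ≠ 0) : AnalyticAt ℂ pk x := by
  have h1 : AnalyticAt ℂ pr x := by
    unfold pr
    exact AnalyticAt.div (by fun_prop) (by fun_prop) (mul_ne_zero hq hv)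
  exact h1.add ((analyticAt_const.mul (Ei_analytic x)).mul (pa_an hq))

theorem ne_zero (hG : GeoStmt) {z : ℂ} (hz : z ∈ OmC) :
    1000 + z ≠ 0 ∧ qq z ≠ 0 ∧ vv z ≠ 0 ∧ ww z ≠ 0 := by
  obtain ⟨C, hC, h⟩ := hG.bd
  obtain ⟨h0, -, -, -, -, -, -, h1, h2, h3⟩ := h z hz
  have : 0 < C := by linarith
  refine ⟨h0, ?_, ?_, ?_⟩
  · exact norm_pos_iff.1 (lt_of_lt_of_le (by positivity) h1)
  · exact norm_pos_iff.1 (lt_of_lt_of_le (by positivity) h2)
  · exact norm_pos_iff.1 (lt_of_lt_of_le (by positivity) h3)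

theorem ee_eq (z : ℂ) : ee z = xi z * ww z / vv z := by
  simp only [ee, e1, xi]
  ring

theorem e1_mm {z : ℂ} (h0 : 1000 + z ≠ 0) (hv : vv z ≠ 0) (hw : ww z ≠ 0) :
    e1 z * mm z = qq z / vv z ^ 2 * ((1 + z / 1000) * (1 + 3 * z / 1000)) := by
  simp only [e1, mm]
  field_simp

theorem AA_ee {z : ℂ} (hq : qq z ≠ 0) (hv : vv z ≠ 0) :
    qq z / vv z ^ 2 * (AA z * ee z) = 9 * xi z * vv z * ww z / (2 * qq z) := by
  rw [ee_eq]
  simp only [AA, g0]
  field_simp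
  ring

theorem xi_ray (s : ℝ) : xi (ray s) =
    ((Real.exp s / 2 + √3 * Real.exp s ^ 2 / 1000 + Real.exp s ^ 3 / 10 ^ 6 : ℝ) : ℂ) * I +
      ((√3 / 2 * Real.exp s + Real.exp s ^ 2 / 1000 : ℝ) : ℂ) := by
  have h1 : ray s = (Real.exp s : ℂ) * ((√3 / 2 : ℝ) + (1 / 2 : ℝ) * I) := by
    rw [ray, Complex.exp_add, ← Real.cos_pi_div_six, ← Real.sin_pi_div_six, Complex.ofReal_cos,
      Complex.ofReal_sin, ← Complex.exp_mul_I]
    push_cast
    rfl
  have h3 : ((√3 : ℝ) : ℂ) ^ 2 = 3 := by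
    rw [← Complex.ofReal_pow, Real.sq_sqrt (by norm_num)]
    norm_num
  rw [h1, xi]
  generalize Real.exp s = ρ
  push_cast
  generalize ((√3 : ℝ) : ℂ) = r at h3 ⊢
  have hI : I ^ 2 = -1 := I_sq
  linear_combination (ρ ^ 2 / 2000 + ρ ^ 3 * r / (8 * 10 ^ 6) + 3 * ρ ^ 3 * I / (8 * 10 ^ 6)) * h3 +
    (ρ ^ 2 / 2000 + 3 * ρ ^ 3 * r / (8 * 10 ^ 6) + ρ ^ 3 * I / (8 * 10 ^ 6)) * hI

theorem an_pa (hG : GeoStmt) : An fun z => pa (xi z) :=
  ⟨fun z hz => (pa_an (ne_zero hG hz).2.1).comp (hG.an.1.1 z hz),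
    fun z => by simp only [hG.an.1.2, pa_conj]⟩

theorem an_pk (hG : GeoStmt) : An fun z => pk (xi z) :=
  ⟨fun z hz => (pk_an (ne_zero hG hz).2.1 (ne_zero hG hz).2.2.1).comp (hG.an.1.1 z hz),
    fun z => by simp only [hG.an.1.2, pk_conj]⟩

theorem an_mul {f g : ℂ → ℂ} (hf : An f) (hg : An g) : An fun z => f z * g z :=
  ⟨fun z hz => (hf.1 z hz).mul (hg.1 z hz), fun z => by simp only [hf.2, hg.2, map_mul]⟩

theorem norm_pa {X Y : ℝ} (hX : 0 ≤ X) (hY : 3 ≤ Y) (hXY : 2 * X ≤ Y) :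
    Y / 81 ≤ ‖pa (Y * I + X)‖ := by
  set x : ℂ := Y * I + X with hx
  have ht : ‖x‖ ^ 2 = X ^ 2 + Y ^ 2 := by
    rw [hx, add_comm, Complex.sq_norm, Complex.normSq_add_mul_I]
  have h2 : (-(9 * x ^ 2 / 4)).re = 9 * (Y ^ 2 - X ^ 2) / 4 := by
    simp [hx, pow_two]
    ring
  obtain ⟨t, htd⟩ : ∃ t, t = X ^ 2 + Y ^ 2 := ⟨_, rfl⟩
  have ht1 : Y ≤ t := by nlinarith
  have ht0 : 0 ≤ t := by linarith
  have h3 : ‖x ^ 4 + 4 / 27‖ ≤ 2 * t ^ 2 := by
    refine (norm_add_le _ _).trans ?_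
    rw [norm_pow, show (4 : ℕ) = 2 * 2 from rfl, pow_mul, ht, ← htd]
    have : ‖(4 / 27 : ℂ)‖ = 4 / 27 := by simp
    rw [this]
    nlinarith
  have h3' : t ^ 2 - 4 / 27 ≤ ‖x ^ 4 + 4 / 27‖ := by
    have h := norm_sub_norm_le (x ^ 4) (-(4 / 27))
    rw [sub_neg_eq_add, norm_pow, show (4 : ℕ) = 2 * 2 from rfl, pow_mul, ht, ← htd] at h
    have : ‖(-(4 / 27) : ℂ)‖ = 4 / 27 := by simp
    rw [this] at h
    exact h
  have h4 : t ^ 3 / 6 ≤ Real.exp (9 * (Y ^ 2 - X ^ 2) / 4) := by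
    have h5 := Real.pow_div_factorial_le_exp t (by linarith) 3
    refine le_trans (by simpa [Nat.factorial] using h5) (Real.exp_le_exp.2 ?_)
    nlinarith
  rw [pa, norm_div, norm_mul, Complex.norm_exp, h2, le_div_iff₀ (by nlinarith)]
  have : ‖(4 / 27 : ℂ)‖ = 4 / 27 := by simp
  rw [this]
  calc Y / 81 * ‖x ^ 4 + 4 / 27‖ ≤ t / 81 * (2 * t ^ 2) := by gcongr
    _ = 4 / 27 * (t ^ 3 / 6) := by ring
    _ ≤ _ := by gcongr

theorem norm_pr {C : ℝ} (hC : 1 ≤ C) {z : ℂ} (hq : C⁻¹ * (1 + ‖xi z‖ ^ 4) ≤ ‖qq z‖)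
    (hv : C⁻¹ * (1 + ‖xi z‖ ^ 2) ≤ ‖vv z‖) : ‖ee z * pr (xi z)‖ ≤ C ^ 3 := by
  have hC0 : 0 < C := by linarith
  have h1 : ee z * pr (xi z) = xi z ^ 2 * ww z *
      (2 / 9 * xi z ^ 4 - 16 / 81 * xi z ^ 2 + 8 / 243) / (qq z * vv z ^ 2) := by
    rw [ee_eq]
    simp only [pr, qq, vv]
    rw [div_mul_div_comm]
    congr 1 <;> ring
  have hw : ‖ww z‖ ≤ 1 + ‖xi z‖ ^ 2 := by
    refine (norm_add_le _ _).trans ?_
    have : ‖(2 / 3 : ℂ)‖ = 2 / 3 := by simp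
    rw [this, norm_pow]
    linarith
  have hr : ‖2 / 9 * xi z ^ 4 - 16 / 81 * xi z ^ 2 + 8 / 243‖ ≤ 1 + ‖xi z‖ ^ 4 := by
    refine (norm_add_le _ _).trans ?_
    have := norm_sub_le (2 / 9 * xi z ^ 4) (16 / 81 * xi z ^ 2)
    simp only [norm_mul, norm_div, norm_pow, Complex.norm_ofNat] at this ⊢
    nlinarith [sq_nonneg (‖xi z‖ ^ 2 - 1), sq_nonneg ‖xi z‖, sq_nonneg (‖xi z‖ ^ 2)]
  rw [h1, norm_div, norm_mul, norm_mul, norm_mul, norm_pow, norm_pow]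
  generalize ‖2 / 9 * xi z ^ 4 - 16 / 81 * xi z ^ 2 + 8 / 243‖ = r at hr
  have ht := norm_nonneg (xi z)
  generalize ‖xi z‖ = t at *
  rw [inv_mul_le_iff₀ hC0] at hq hv
  have hq0 : 0 < ‖qq z‖ := by
    by_contra h
    have : ‖qq z‖ = 0 := le_antisymm (not_lt.1 h) (norm_nonneg _)
    rw [this] at hq
    nlinarith [pow_nonneg ht 4]
  have hv0 : 0 < ‖vv z‖ := by
    by_contra h
    have : ‖vv z‖ = 0 := le_antisymm (not_lt.1 h) (norm_nonneg _)
    rw [this] at hv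
    nlinarith [pow_nonneg ht 2]
  rw [div_le_iff₀ (by positivity)]
  calc t ^ 2 * ‖ww z‖ * r ≤ (1 + t ^ 2) * (1 + t ^ 2) * (1 + t ^ 4) := by
        rcases le_or_gt r 0 with h | h
        · exact (mul_nonpos_of_nonneg_of_nonpos (by positivity) h).trans (by positivity)
        · gcongr
          linarith
    _ ≤ (C * ‖vv z‖) * (C * ‖vv z‖) * (C * ‖qq z‖) := by gcongr
    _ = _ := by ring

end LimSol

open LimSol

theorem limSol (hH : HolStmt) (hG : GeoStmt) (hJ : JStmt) : LimSolStmt where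
  an := ⟨by simpa only [← ua_eq] using an_mul hG.an.2.2.2.2.2.1 (an_pa hG),
    by simpa only [← uk_eq] using an_mul hG.an.2.2.2.2.2.1 (an_pk hG)⟩
  eq_a z hz := by
    have h := hJ.prim (f := fun w => -(AA w * ua w)) (an_pa hG) (fun w hw => ?_) z hz
    · have h0 : pa (xi 0) = 1 := by simp [pa, xi]
      rw [h0] at h
      rw [ua_eq]
      linear_combination (-ee z) * h
    · obtain ⟨h0, hq, hv, hw'⟩ := ne_zero hG hw
      have h1 : HasDerivAt (fun z => pa (xi z)) _ w := (pa_deriv hq).comp w (hG.xi_deriv w)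
      rw [h1.deriv, e1_mm h0 hv hw', ua_eq]
      have h2 := AA_ee hq hv
      simp only [qq, vv, ww] at h2 ⊢
      linear_combination (pa (xi w) * ((1 + w / 1000) * (1 + 3 * w / 1000))) * h2
  eq_k z hz := by
    have h := hJ.prim (f := fun w => -(AA w * uk w) + 1) (an_pk hG) (fun w hw => ?_) z hz
    · have h0 : pk (xi 0) = 0 := by simp [pk, pr, xi, Ei_zero]
      rw [h0] at h
      rw [uk_eq]
      linear_combination (-ee z) * h
    · obtain ⟨h0, hq, hv, hw'⟩ := ne_zero hG hw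
      have h1 : HasDerivAt (fun z => pk (xi z)) _ w := (pk_deriv hq hv).comp w (hG.xi_deriv w)
      rw [h1.deriv, e1_mm h0 hv hw', uk_eq]
      have h2 := AA_ee hq hv
      simp only [qq, vv, ww] at h2 ⊢
      linear_combination (pk (xi w) * ((1 + w / 1000) * (1 + 3 * w / 1000))) * h2
  large Λ s' := by
    obtain ⟨C, hC, hb⟩ := hG.bd
    have hC0 : 0 < C := by linarith
    obtain ⟨K, hK⟩ : ∃ K, K = 10 ^ 4 + 2 * (81 * 36 * C * (|Λ| + C ^ 3)) := ⟨_, rfl⟩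
    have hK0 : 0 ≤ 81 * 36 * C * (|Λ| + C ^ 3) := by positivity
    refine ⟨max s' K, le_max_left _ _, fun a κ => ?_⟩
    obtain ⟨-, he, -, -, -, -, -, hq, hv, -⟩ := hb _ (hH.ray_mem (max s' K))
    have hρ : K ≤ Real.exp (max s' K) := by
      have := Real.add_one_le_exp (max s' K)
      linarith [le_max_right s' K]
    have hpr := norm_pr hC hq hv
    have hee : C⁻¹ ≤ ‖ee (ray (max s' K))‖ := by
      rw [ee, norm_mul, hH.ray_norm]
      rw [hH.ray_norm] at he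
      have h1 : 0 < C⁻¹ := by positivity
      have h2 : C⁻¹ ≤ ‖e1 (ray (max s' K))‖ := by
        nlinarith [sq_nonneg (Real.exp (max s' K))]
      have h3 : 1 ≤ Real.exp (max s' K) := by linarith
      nlinarith
    have hx := xi_ray (max s' K)
    have hdec : a * ua (ray (max s' K)) + κ * uk (ray (max s' K)) =
        ee (ray (max s' K)) * pa (xi (ray (max s' K))) * (a + 2 * κ * Ei (xi (ray (max s' K)))) +
          κ * (ee (ray (max s' K)) * pr (xi (ray (max s' K)))) := by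
      rw [ua_eq, uk_eq, pk]
      ring
    rw [hdec]
    generalize ee (ray (max s' K)) * pr (xi (ray (max s' K))) = P at hpr ⊢
    generalize ee (ray (max s' K)) = e at hee ⊢
    rw [hx]
    generalize Real.exp (max s' K) = ρ at hρ ⊢
    have h3 : √3 ≤ 2 := Real.sqrt_le_iff.2 ⟨by norm_num, by norm_num⟩
    have h3' : 0 ≤ √3 := Real.sqrt_nonneg 3
    have hρ4 : 10 ^ 4 ≤ ρ := by linarith
    have hX : 0 ≤ √3 / 2 * ρ + ρ ^ 2 / 1000 := by positivity
    have hY : ρ / 2 ≤ ρ / 2 + √3 * ρ ^ 2 / 1000 + ρ ^ 3 / 10 ^ 6 := by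
      have : 0 ≤ √3 * ρ ^ 2 / 1000 + ρ ^ 3 / 10 ^ 6 := by positivity
      linarith
    have hXY : 2 * (√3 / 2 * ρ + ρ ^ 2 / 1000) ≤ ρ / 2 + √3 * ρ ^ 2 / 1000 + ρ ^ 3 / 10 ^ 6 := by
      have h1 : 0 ≤ √3 * ρ ^ 2 / 1000 := by positivity
      have h2 : 10 ^ 4 * ρ ^ 2 ≤ ρ ^ 3 := by nlinarith [sq_nonneg ρ]
      have h4 : 10 ^ 4 * ρ ≤ ρ ^ 2 := by nlinarith
      nlinarith
    generalize √3 / 2 * ρ + ρ ^ 2 / 1000 = X at hX hXY ⊢
    generalize ρ / 2 + √3 * ρ ^ 2 / 1000 + ρ ^ 3 / 10 ^ 6 = Y at hY hXY ⊢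
    have hY3 : 3 ≤ Y := by linarith
    obtain ⟨h5, h6⟩ := Ei_bounds hX hY3 hXY
    have h7 := comb_lower h5 h6 a κ
    have h8 := norm_pa hX hY3 hXY
    generalize (a : ℂ) + 2 * κ * Ei (Y * I + X) = W at h7 ⊢
    generalize pa (Y * I + X) = p at h8 ⊢
    have h9 : ‖e * p * W‖ - ‖κ * P‖ ≤ ‖e * p * W + κ * P‖ := by
      have := norm_sub_norm_le (e * p * W) (-(κ * P))
      rwa [sub_neg_eq_add, norm_neg] at this
    have h10 : ‖κ * P‖ ≤ C ^ 3 * (|a| + |κ|) := by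
      rw [norm_mul, Complex.norm_real, Real.norm_eq_abs, mul_comm]
      gcongr
      linarith [abs_nonneg a]
    have h11 : (|Λ| + C ^ 3) * (|a| + |κ|) ≤ ‖e * p * W‖ := by
      rw [norm_mul, norm_mul]
      calc (|Λ| + C ^ 3) * (|a| + |κ|)
          = C⁻¹ * (81 * 36 * C * (|Λ| + C ^ 3) / 81) * ((|a| + |κ|) / 36) := by
            field_simp
        _ ≤ ‖e‖ * ‖p‖ * ‖W‖ := by
            gcongr
            · linarith
            · linarith
    have h12 : Λ * (|a| + |κ|) ≤ |Λ| * (|a| + |κ|) := by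
      gcongr
      exact le_abs_self Λ
    linarith

end Vale.Agent.P264
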