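import Vale.Agent.P264.Near

/-! P264, part G: the linear theorem. -/

namespace Vale.Agent.P264

open scoped ContDiff ComplexConjugate Topology
open Set Filter

namespace Lin

/-- linearity on continuous functions -/
def Two (L : (ℂ → ℂ) → ℂ → ℂ) : Prop :=
  ∀ (f g : ℂ → ℂ) (a b z : ℂ), ContinuousOn f OmC → ContinuousOn g OmC → z ∈ OmC →
    L (fun w => a * f w + b * g w) z = a * L f z + b * L g z

theorem Two.three {L : (ℂ → ℂ) → ℂ → ℂ} (h : Two L) {f g k : ℂ → ℂ} (a b c : ℂ) {z : ℂ}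
    (hf : ContinuousOn f OmC) (hg : ContinuousOn g OmC) (hk : ContinuousOn k OmC) (hz : z ∈ OmC) :
    L (fun w => a * f w + b * g w + c * k w) z = a * L f z + b * L g z + c * L k z := by
  have c1 : ContinuousOn (fun w => a * f w + b * g w) OmC :=
    (continuousOn_const.mul hf).add (continuousOn_const.mul hg)
  have := h _ k 1 c z c1 hk hz
  simp only [one_mul] at this
  rw [this, h f g a b z hf hg hz]

theorem two_KK (hJ : JStmt) (n : ℕ) : Two (KK n) := fun _ _ a b _ hf hg hz =>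
  hJ.KK_lin n a b hf hg hz

theorem two_wv (hJ : JStmt) (n : ℕ) : Two (wv n) := fun f g a b z hf hg hz => by
  simp only [wv]
  rw [hJ.lin _ a b hf hg hz]
  ring

theorem two_pv (hH : HolStmt) (hJ : JStmt) (n : ℕ) : Two (pv n) := fun f g a b z hf hg hz => by
  simp only [pv]
  rw [hJ.congr (n + 1) (g := fun w => a * JJ (n + 2) f w + b * JJ (n + 2) g w)
    (fun t ht => hJ.lin _ a b hf hg (hH.star_C z hz t ht)),
    hJ.lin _ a b (hJ.cont hf) (hJ.cont hg) hz]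
  ring

/-- the unstable coordinate of a solution at the point `z` -/
noncomputable def ZZ (n : ℕ) (μ κ : ℝ) (F u : ℂ → ℂ) (z : ℂ) : ℂ :=
  Zf n μ (u z) (pv n (HH κ F u) z) (wv n (HH κ F u) z)

theorem comb (hH : HolStmt) (hG : GeoStmt) (hJ : JStmt) {n : ℕ} {F u₀ u₁ u₂ : ℂ → ℂ}
    (cF : ContinuousOn F OmC) (c0 : ContinuousOn u₀ OmC) (c1 : ContinuousOn u₁ OmC)
    (c2 : ContinuousOn u₂ OmC) (e0 : LinEq n 0 0 F u₀) (e1 : LinEq n 1 0 (fun _ => 0) u₁)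
    (e2 : LinEq n 0 1 (fun _ => 0) u₂) (θ a κ : ℝ) :
    LinEq n a κ (fun w => θ * F w) (fun w => θ * u₀ w + a * u₁ w + κ * u₂ w) ∧
      ∀ μ : ℝ, ∀ z ∈ OmC, ZZ n μ κ (fun w => θ * F w) (fun w => θ * u₀ w + a * u₁ w + κ * u₂ w) z
        = θ * ZZ n μ 0 F u₀ z + a * ZZ n μ 0 (fun _ => 0) u₁ z + κ * ZZ n μ 1 (fun _ => 0) u₂ z := by
  have cA := Near.an_cont hG.an.2.2.2.2.2.2.2.2.1
  have cH : ∀ (k : ℝ) {G u : ℂ → ℂ}, ContinuousOn G OmC → ContinuousOn u OmC →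
      ContinuousOn (HH k G u) OmC := fun k G u hG hu =>
    ((cA.mul hu).neg.add continuousOn_const).add hG
  have e : HH κ (fun w => θ * F w) (fun w => θ * u₀ w + a * u₁ w + κ * u₂ w)
      = fun w => θ * HH 0 F u₀ w + a * HH 0 (fun _ => 0) u₁ w + κ * HH 1 (fun _ => 0) u₂ w := by
    funext w
    simp only [HH, Complex.ofReal_zero, Complex.ofReal_one]
    ring
  have h0 := cH 0 cF c0
  have h1 := cH 0 (G := fun _ => 0) continuousOn_const c1
  have h2 := cH 1 (G := fun _ => 0) continuousOn_const c2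
  refine ⟨fun z hz => ?_, fun μ z hz => ?_⟩
  · rw [e, (two_KK hJ n).three _ _ _ h0 h1 h2 hz]
    have k0 := e0 z hz
    have k1 := e1 z hz
    have k2 := e2 z hz
    simp only [Complex.ofReal_zero, Complex.ofReal_one, zero_mul, one_mul, zero_add] at k0 k1 k2
    linear_combination θ * k0 + a * k1 + κ * k2
  · simp only [ZZ]
    rw [e, (two_pv hH hJ n).three _ _ _ h0 h1 h2 hz, (two_wv hJ n).three _ _ _ h0 h1 h2 hz]
    simp only [Zf]
    ring

theorem solve {Z₀ Z₁ Z₂ : ℂ} (h : ∀ a κ : ℝ, a * Z₁ + κ * Z₂ = 0 → a = 0 ∧ κ = 0) :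
    ∃ a κ : ℝ, Z₀ + a * Z₁ + κ * Z₂ = 0 := by
  have hd : Z₁.re * Z₂.im - Z₁.im * Z₂.re ≠ 0 := by
    intro h0
    have h1 := (h Z₂.re (-Z₁.re) (Complex.ext (by simp; ring) (by simp; linarith))).2
    have h2 := (h Z₂.im (-Z₁.im) (Complex.ext (by simp; linarith) (by simp; ring))).2
    have h3 : Z₁ = 0 := Complex.ext (neg_eq_zero.1 h1) (neg_eq_zero.1 h2)
    exact one_ne_zero (h 1 0 (by simp [h3])).1
  have hi := mul_inv_cancel₀ hd
  generalize (Z₁.re * Z₂.im - Z₁.im * Z₂.re)⁻¹ = d at hi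
  refine ⟨(Z₀.im * Z₂.re - Z₀.re * Z₂.im) * d, (Z₀.re * Z₁.im - Z₀.im * Z₁.re) * d,
    Complex.ext ?_ ?_⟩
  · simp only [Complex.add_re, Complex.re_ofReal_mul, Complex.zero_re]
    linear_combination (-Z₀.re) * hi
  · simp only [Complex.add_im, Complex.im_ofReal_mul, Complex.zero_im]
    linear_combination (-Z₀.im) * hi

theorem Zf_le {n : ℕ} (hn : 1 ≤ n) {μ : ℝ} (hμ : 1 < μ) (u p w : ℂ) :
    ‖Zf n μ u p w‖ ≤ ‖u‖ + ‖p‖ + ‖w‖ := by
  have hn' : (1 : ℝ) ≤ n := by exact_mod_cast hn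
  have e1 : (μ : ℂ) + n - 1 = ((μ + n - 1 : ℝ) : ℂ) := by push_cast; ring
  have e2 : (μ : ℂ) + n = ((μ + n : ℝ) : ℂ) := by push_cast; ring
  rw [Zf, e1, e2]
  refine (norm_add₃_le).trans (add_le_add (add_le_add le_rfl ?_) ?_)
  · rw [norm_div, Complex.norm_real, Real.norm_eq_abs, abs_of_pos (by linarith)]
    exact div_le_self (norm_nonneg _) (by linarith)
  · rw [norm_div, norm_mul, norm_mul, Complex.norm_real, Complex.norm_real, Real.norm_eq_abs,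
      Real.norm_eq_abs, abs_of_pos (by linarith), abs_of_pos (by linarith), Complex.norm_natCast,
      div_le_iff₀ (mul_pos (by linarith) (by linarith)), mul_comm]
    exact mul_le_mul_of_nonneg_left (by nlinarith) (norm_nonneg _)

/-- from the far part of the ray to the whole domain -/
theorem fromRay (hH : HolStmt) (hN : NearStmt) (s₁ : ℝ) : ∃ C : ℝ, 0 ≤ C ∧
    ∀ (n : ℕ) (a κ B B₁ : ℝ) (F u : ℂ → ℂ), 1 ≤ n → ContinuousOn F OmC → Hol u →
      (∃ K B', ∀ z ∈ OmC, ‖u z‖ ≤ B' * Real.exp (K * ‖z‖ ^ 2)) → (∀ z ∈ OmC, ‖F z‖ ≤ B) →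
      LinEq n a κ F u → |a| + |κ| ≤ B₁ → (∀ s, s₁ ≤ s → ‖u (ray s)‖ ≤ B₁) →
      ∀ z ∈ OmC, ‖u z‖ ≤ B₁ + C * (B + B₁) := by
  obtain ⟨C, hC, h⟩ := hN (Real.exp s₁ + 1)
  refine ⟨C, hC, fun n a κ B B₁ F u hn cF hu hg bF e h1 h2 z hz => ?_⟩
  have hB : 0 ≤ B := (norm_nonneg _).trans (bF z hz)
  have hB₁ : 0 ≤ B₁ := le_trans (by positivity) h1
  have h3 : ∀ w ∈ OmC, ‖w‖ ≤ Real.exp s₁ + 1 → ‖u w‖ ≤ B₁ + C * (B + B₁) := fun w hw hw' => by
    have h4 := (h n a κ B F u hn cF hu.2.1 bF e w hw hw').2.1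
    have h5 : C * (B + |a| + |κ|) ≤ C * (B + B₁) := mul_le_mul_of_nonneg_left (by linarith) hC
    linarith
  by_cases h4 : ‖z‖ ≤ 1
  · exact h3 z hz (by linarith [Real.exp_pos s₁])
  have h5 : √3 * |z.im| ≤ z.re := hz.resolve_right fun h => h4
    ((mem_closedBall_zero_iff.1 h).trans (by norm_num))
  refine hH.pl hu hg (fun s => ?_) z (fun h => h4 (by simp [h])) h5
  rcases le_total s₁ s with h6 | h6
  · have := mul_nonneg hC (add_nonneg hB hB₁)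
    linarith [h2 s h6]
  · exact h3 _ (hH.ray_mem s) (by rw [hH.ray_norm]; linarith [Real.exp_le_exp.2 h6])

/-- bounded solutions have a negligible unstable coordinate at infinity -/
theorem decay (hH : HolStmt) (hG : GeoStmt) (hJ : JStmt) {n : ℕ} (hn : 1 ≤ n) {μ : ℝ → ℝ}
    (hμ : ∀ s, 1 < μ s) {κ B B' : ℝ} {F u : ℂ → ℂ} (bF : ∀ z ∈ OmC, ‖F z‖ ≤ B)
    (bu : ∀ z ∈ OmC, ‖u z‖ ≤ B') (s : ℝ) :
    Tendsto (fun S => Real.exp (-(7 * (S - s))) * ‖ZZ n (μ S) κ F u (ray S)‖) atTop (𝓝 0) := by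
  obtain ⟨C, hC, bd⟩ := hG.bd
  obtain ⟨C1, hC1, -, h1⟩ := Near.two hH hJ
  obtain ⟨s', hs'⟩ := hG.ray_asym 1 one_pos
  have hB' : 0 ≤ B' := (norm_nonneg _).trans (bu _ (hH.ray_mem 0))
  obtain ⟨M, hM⟩ : ∃ M : ℝ, ∀ z ∈ OmC, ‖HH κ F u z‖ ≤ M := by
    refine ⟨C ^ 2 * B' + |κ| + B, fun z hz => (norm_add₃_le).trans
      (add_le_add (add_le_add ?_ (by simp)) (bF z hz))⟩
    have h2 := (bd z hz).2.2.2.2.2.1
    have h3 : 0 < C⁻¹ := by positivity
    have h4 : ‖AA z‖ ≤ C ^ 2 := by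
      rw [AA, norm_div, norm_one, norm_mul, norm_pow, Complex.norm_two,
        div_le_iff₀ (by have := h3.trans_le h2; positivity)]
      have h5 : 1 ≤ C * ‖g0 z‖ := by
        have := mul_le_mul_of_nonneg_left h2 (zero_le_one.trans hC)
        rwa [mul_inv_cancel₀ (by linarith)] at this
      nlinarith
    rw [norm_neg, norm_mul]
    exact mul_le_mul h4 (bu z hz) (norm_nonneg _) (by positivity)
  have hM0 : 0 ≤ M := (norm_nonneg _).trans (hM _ (hH.ray_mem 0))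
  have t1 : Tendsto (fun S : ℝ => Real.exp (-S)) atTop (𝓝 0) := Real.tendsto_exp_neg_atTop_nhds_zero
  have t2 := t1.const_mul (Real.exp (7 * s) * (B' + 9 / (2 * 1000 ^ 4) * (C1 ^ 2 * M + C1 * M)))
  rw [mul_zero] at t2
  refine squeeze_zero' (Eventually.of_forall fun S => by positivity) ?_ t2
  filter_upwards [eventually_ge_atTop s', eventually_ge_atTop 0] with S h2 h3
  obtain ⟨k1, k2⟩ := h1 n (HH κ F u) M _ (hH.ray_mem S) fun t ht =>
    hM _ (hH.star_C _ (hH.ray_mem S) t ht)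
  have k3 := (hs' S h2).2.2
  have k0 : 0 ≤ VV S := (sq_nonneg _).trans k3
  have k4 : ‖pv n (HH κ F u) (ray S)‖ ≤ VV S * (C1 ^ 2 * M) := by
    rw [pv, mul_assoc, norm_mul, norm_pow]
    exact mul_le_mul k3 k1 (norm_nonneg _) k0
  have k5 : ‖wv n (HH κ F u) (ray S)‖ ≤ VV S * (C1 * M) := by
    rw [wv, mul_assoc, norm_mul, norm_pow]
    exact mul_le_mul k3 k2 (norm_nonneg _) k0
  have k6 : B' ≤ B' * Real.exp (6 * S) := le_mul_of_one_le_right hB' (Real.one_le_exp (by linarith))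
  have k7 : ‖ZZ n (μ S) κ F u (ray S)‖
      ≤ (B' + 9 / (2 * 1000 ^ 4) * (C1 ^ 2 * M + C1 * M)) * Real.exp (6 * S) := by
    refine (Zf_le hn (hμ S) _ _ _).trans ?_
    have := bu _ (hH.ray_mem S)
    rw [VV] at k4 k5
    linarith
  refine (mul_le_mul_of_nonneg_left k7 (Real.exp_pos _).le).trans (le_of_eq ?_)
  have e : Real.exp (-(7 * (S - s))) * Real.exp (6 * S) = Real.exp (7 * s) * Real.exp (-S) := by
    rw [← Real.exp_add, ← Real.exp_add]
    congr 1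
    ring
  linear_combination (B' + 9 / (2 * 1000 ^ 4) * (C1 ^ 2 * M + C1 * M)) * e

theorem growth {u₀ u₁ u₂ : ℂ → ℂ} (a κ : ℝ)
    (h0 : ∃ K B', ∀ z ∈ OmC, ‖u₀ z‖ ≤ B' * Real.exp (K * ‖z‖ ^ 2))
    (h1 : ∃ K B', ∀ z ∈ OmC, ‖u₁ z‖ ≤ B' * Real.exp (K * ‖z‖ ^ 2))
    (h2 : ∃ K B', ∀ z ∈ OmC, ‖u₂ z‖ ≤ B' * Real.exp (K * ‖z‖ ^ 2)) :
    ∃ K B', ∀ z ∈ OmC, ‖u₀ z + a * u₁ z + κ * u₂ z‖ ≤ B' * Real.exp (K * ‖z‖ ^ 2) := by
  obtain ⟨K0, B0, h0⟩ := h0
  obtain ⟨K1, B1, h1⟩ := h1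
  obtain ⟨K2, B2, h2⟩ := h2
  have key : ∀ {x B K K' y : ℝ}, x ≤ B * Real.exp (K * y ^ 2) → K ≤ K' →
      x ≤ |B| * Real.exp (K' * y ^ 2) := fun h h' => h.trans (mul_le_mul (le_abs_self _)
    (Real.exp_le_exp.2 (mul_le_mul_of_nonneg_right h' (sq_nonneg _))) (Real.exp_pos _).le
      (abs_nonneg _))
  refine ⟨max K0 (max K1 K2), |B0| + |a| * |B1| + |κ| * |B2|, fun z hz => (norm_add₃_le).trans ?_⟩
  rw [norm_mul, norm_mul, Complex.norm_real, Complex.norm_real, Real.norm_eq_abs, Real.norm_eq_abs]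
  have k0 := key (h0 z hz) (le_max_left K0 (max K1 K2))
  have k1 := mul_le_mul_of_nonneg_left
    (key (h1 z hz) ((le_max_left K1 K2).trans (le_max_right K0 _))) (abs_nonneg a)
  have k2 := mul_le_mul_of_nonneg_left
    (key (h2 z hz) ((le_max_right K1 K2).trans (le_max_right K0 _))) (abs_nonneg κ)
  linarith

end Lin

open Lin in
theorem lin (hH : HolStmt) (hG : GeoStmt) (hJ : JStmt) (hV : VolStmt) (hN : NearStmt)
    (hRo : RootStmt) (hR : RayStmt) : LinStmt := by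
  obtain ⟨Cr, s₁, n₀, hCr, hn₀, hR⟩ := hR
  obtain ⟨C, hC, hF⟩ := fromRay hH hN s₁
  refine ⟨Cr + C * (1 + Cr), n₀, by positivity, fun n hn F B holF bF => ?_⟩
  have hn1 : 1 ≤ n := hn₀.trans hn
  obtain ⟨⟨μ, hμ⟩, -⟩ := hRo n (9 / (2 * 1000 ^ 4)) hn1 (by positivity)
  have hB : 0 ≤ B := (norm_nonneg _).trans (bF _ (hH.ray_mem 0))
  have cF := holF.2.1
  refine ⟨?_, fun a κ u hu ⟨B', bu⟩ e => ?_⟩
  · have hz : Hol fun _ => (0 : ℂ) := hH.hol_const 0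
    obtain ⟨u₀, h0, e0, g0⟩ := hV n 0 0 F holF ⟨B, bF⟩
    obtain ⟨u₁, h1, e1, g1⟩ := hV n 1 0 _ hz ⟨0, fun _ _ => by simp⟩
    obtain ⟨u₂, h2, e2, g2⟩ := hV n 0 1 _ hz ⟨0, fun _ _ => by simp⟩
    have hc := comb hH hG hJ cF h0.2.1 h1.2.1 h2.2.1 e0 e1 e2
    have cu : ∀ θ a κ : ℝ, ContinuousOn (fun w => θ * u₀ w + a * u₁ w + κ * u₂ w) OmC :=
      fun θ a κ => ((continuousOn_const.mul h0.2.1).add (continuousOn_const.mul h1.2.1)).add
        (continuousOn_const.mul h2.2.1)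
    have cF' : ∀ θ : ℝ, ContinuousOn (fun w => θ * F w) OmC := fun θ => continuousOn_const.mul cF
    have key : ∀ j : ℕ, ∃ q : ℝ × ℝ, |q.1| + |q.2| ≤ Cr * B ∧ ∀ s ∈ Icc s₁ (s₁ + j),
        ‖u₀ (ray s) + q.1 * u₁ (ray s) + q.2 * u₂ (ray s)‖ ≤ Cr * B := by
      intro j
      have hS : s₁ ≤ s₁ + j := le_add_of_nonneg_right (Nat.cast_nonneg j)
      obtain ⟨a, κ, hZ⟩ := solve (Z₀ := ZZ n (μ (s₁ + j)) 0 F u₀ (ray (s₁ + j)))
        (Z₁ := ZZ n (μ (s₁ + j)) 0 (fun _ => 0) u₁ (ray (s₁ + j)))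
        (Z₂ := ZZ n (μ (s₁ + j)) 1 (fun _ => 0) u₂ (ray (s₁ + j))) fun a κ hZ => by
          have k1 := (hR n a κ 0 _ μ _ _ hn hμ (cF' 0) (cu 0 a κ)
            (fun z _ => by simp) (hc 0 a κ).1 hS).1
          have k2 := (hc 0 a κ).2 (μ (s₁ + j)) _ (hH.ray_mem (s₁ + j))
          rw [Complex.ofReal_zero, zero_mul, zero_add, hZ, ZZ] at k2
          rw [Complex.ofReal_zero, k2] at k1
          simp only [norm_zero, mul_zero, add_zero] at k1
          exact ⟨abs_nonpos_iff.1 (by linarith [abs_nonneg κ]),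
            abs_nonpos_iff.1 (by linarith [abs_nonneg a])⟩
      have k1 := hR n a κ B _ μ _ _ hn hμ (cF' 1) (cu 1 a κ)
        (fun z hz => by simpa using bF z hz) (hc 1 a κ).1 hS
      have k2 := (hc 1 a κ).2 (μ (s₁ + j)) _ (hH.ray_mem (s₁ + j))
      rw [Complex.ofReal_one, one_mul, hZ, ZZ] at k2
      rw [Complex.ofReal_one, k2] at k1
      simp only [norm_zero, mul_zero, add_zero, one_mul] at k1
      exact ⟨(a, κ), k1⟩
    choose q hq hu using key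
    obtain ⟨⟨a, κ⟩, -, φ, hφ, t⟩ := (isCompact_closedBall (0 : ℝ × ℝ) (Cr * B)).tendsto_subseq
      (x := q) fun j => by
        rw [mem_closedBall_zero_iff, Prod.norm_def]
        exact max_le (by linarith [hq j, abs_nonneg (q j).2, Real.norm_eq_abs (q j).1])
          (by linarith [hq j, abs_nonneg (q j).1, Real.norm_eq_abs (q j).2])
    have ta : Tendsto (fun j => (q (φ j)).1) atTop (𝓝 a) := (continuous_fst.tendsto _).comp t
    have tk : Tendsto (fun j => (q (φ j)).2) atTop (𝓝 κ) := (continuous_snd.tendsto _).comp t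
    have e := (hc 1 a κ).1
    simp only [Complex.ofReal_one, one_mul] at e
    have hol : Hol fun w => u₀ w + a * u₁ w + κ * u₂ w :=
      hH.hol_add (hH.hol_add h0 (hH.hol_mul (hH.hol_const a) h1)) (hH.hol_mul (hH.hol_const κ) h2)
    refine ⟨a, κ, _, hol, ⟨_, hF n a κ B (Cr * B) F _ hn1 cF hol (growth a κ g0 g1 g2) bF e
      (le_of_tendsto' (ta.abs.add tk.abs) fun j => hq _) fun s hs => ?_⟩, e⟩
    have t1 := (((Complex.continuous_ofReal.tendsto a).comp ta).mul_const (u₁ (ray s))).const_add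
      (u₀ (ray s))
    have t2 := (t1.add (((Complex.continuous_ofReal.tendsto κ).comp tk).mul_const (u₂ (ray s)))).norm
    refine le_of_tendsto t2 ?_
    have t3 : Tendsto (fun j => s₁ + (φ j : ℝ)) atTop atTop :=
      tendsto_atTop_add_const_left _ _ (tendsto_natCast_atTop_atTop.comp hφ.tendsto_atTop)
    filter_upwards [t3.eventually_ge_atTop s] with j hj
    exact hu (φ j) s ⟨hs, hj⟩
  · have hd := fun s => ((decay hH hG hJ hn1 (fun s => (hμ s).1) (κ := κ) bF bu s).const_add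
      B).const_mul Cr
    simp only [add_zero] at hd
    have k1 : |a| + |κ| ≤ Cr * B := ge_of_tendsto (hd s₁) (by
      filter_upwards [eventually_ge_atTop s₁] with S hS
      exact (hR n a κ B S μ F u hn hμ cF hu.2.1 bF e hS).1)
    have k2 : ∀ s, s₁ ≤ s → ‖u (ray s)‖ ≤ Cr * B := fun s hs => ge_of_tendsto (hd s) (by
      filter_upwards [eventually_ge_atTop s] with S hS
      exact (hR n a κ B S μ F u hn hμ cF hu.2.1 bF e (hs.trans hS)).2 s ⟨hs, hS⟩)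
    have k3 : 0 ≤ C * (1 + Cr) * B := by positivity
    refine ⟨by linarith [abs_nonneg κ], by linarith [abs_nonneg a], fun z hz => ?_⟩
    refine (hF n a κ B (Cr * B) F u hn1 cF hu ⟨0, B', fun z hz => by simpa using bu z hz⟩ bF e
      k1 k2 z hz).trans (le_of_eq (by ring))

end Vale.Agent.P264
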