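import Vale.Agent.P264.StmG

/-! P264, part G: near field comparison with the limit equation. -/

namespace Vale.Agent.P264

open scoped ContDiff ComplexConjugate Topology
open Set Filter

namespace Near

theorem an_cont {f : ℂ → ℂ} (h : An f) : ContinuousOn f OmC :=
  fun z hz => (h.1 z hz).continuousAt.continuousWithinAt

theorem an_H {f : ℂ → ℂ} (hA : An AA) (h : An f) (c : ℝ) : An fun w => -(AA w * f w) + c :=
  ⟨fun z hz => ((hA.1 z hz).mul (h.1 z hz)).neg.add analyticAt_const, fun z => by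
    simp only [hA.2 z, h.2 z, map_add, map_neg, map_mul, Complex.conj_ofReal]⟩

theorem norm_star {z : ℂ} {t : ℝ} (ht : t ∈ Icc (0 : ℝ) 1) : ‖(t : ℂ) * z‖ = t * ‖z‖ := by
  rw [norm_mul, Complex.norm_real, Real.norm_eq_abs, abs_of_nonneg ht.1]

theorem norm_star_le {z : ℂ} {t : ℝ} (ht : t ∈ Icc (0 : ℝ) 1) : ‖(t : ℂ) * z‖ ≤ ‖z‖ := by
  rw [norm_star ht]
  exact mul_le_of_le_one_left (norm_nonneg z) ht.2

theorem bdd (hH : HolStmt) (R : ℝ) {f : ℂ → ℂ} (hf : ContinuousOn f OmC) :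
    ∃ M : ℝ, 0 ≤ M ∧ ∀ z ∈ OmC, ‖z‖ ≤ R → ‖f z‖ ≤ M := by
  obtain ⟨M, hM⟩ := ((isCompact_closedBall (0 : ℂ) R).inter_left hH.closed_C).exists_bound_of_continuousOn
    (hf.mono inter_subset_left)
  exact ⟨|M|, abs_nonneg M, fun z hz h => (hM z ⟨hz, mem_closedBall_zero_iff.2 h⟩).trans (le_abs_self M)⟩

/-- the two inner averaging operators -/
theorem two (hH : HolStmt) (hJ : JStmt) : ∃ C : ℝ, 0 ≤ C ∧
    (∀ (k : ℕ) (f : ℂ → ℂ) (B : ℝ), 1 ≤ k → ∀ z ∈ OmC,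
      (∀ t ∈ Icc (0 : ℝ) 1, ‖f (t * z)‖ ≤ B) → ‖JJ k f z‖ ≤ C / k * B) ∧
    ∀ (n : ℕ) (f : ℂ → ℂ) (B : ℝ), ∀ z ∈ OmC, (∀ t ∈ Icc (0 : ℝ) 1, ‖f (t * z)‖ ≤ B) →
      ‖(n : ℂ) ^ 2 * JJ (n + 1) (JJ (n + 2) f) z‖ ≤ C ^ 2 * B ∧
        ‖(n : ℂ) * JJ (n + 2) f z‖ ≤ C * B := by
  obtain ⟨C, hC, h⟩ := hJ.bd1
  refine ⟨C, hC, h, fun n f B z hz hf => ?_⟩
  have hB : 0 ≤ B := (norm_nonneg _).trans (hf 0 ⟨le_rfl, zero_le_one⟩)
  have hn : (0 : ℝ) ≤ n := Nat.cast_nonneg n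
  have h1 := h (n + 1) (JJ (n + 2) f) (C / (n + 2 : ℕ) * B) (by omega) z hz fun s hs =>
    h (n + 2) f B (by omega) _ (hH.star_C z hz s hs) fun t ht => by
      have := hf (t * s) ⟨mul_nonneg ht.1 hs.1, mul_le_one₀ ht.2 hs.1 hs.2⟩
      rwa [Complex.ofReal_mul, mul_assoc] at this
  have h2 := h (n + 2) f B (by omega) z hz hf
  push_cast at h1 h2
  constructor
  · rw [norm_mul, norm_pow, Complex.norm_natCast]
    refine (mul_le_mul_of_nonneg_left h1 (by positivity)).trans ?_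
    have e : (n : ℝ) ^ 2 * (C / (n + 1) * (C / (n + 2) * B))
        = n ^ 2 / ((n + 1) * (n + 2)) * (C ^ 2 * B) := by
      field_simp
    rw [e]
    refine mul_le_of_le_one_left (by positivity) ?_
    rw [div_le_one (by positivity)]
    nlinarith
  · rw [norm_mul, Complex.norm_natCast]
    refine (mul_le_mul_of_nonneg_left h2 hn).trans ?_
    have e : (n : ℝ) * (C / (n + 2) * B) = n / (n + 2) * (C * B) := by
      field_simp
    rw [e]
    refine mul_le_of_le_one_left (by positivity) ?_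
    rw [div_le_one (by positivity)]
    linarith

/-- the Volterra estimate on a bounded part of the domain -/
theorem volterra (hH : HolStmt) (hG : GeoStmt) (hJ : JStmt) (R : ℝ) : ∃ C : ℝ, 0 ≤ C ∧
    ∀ (n : ℕ) (r : ℂ → ℂ) (β : ℝ), ContinuousOn r OmC →
      (∀ z ∈ OmC, ‖z‖ ≤ R → ‖r z - KK n (fun w => -(AA w * r w)) z‖ ≤ β) →
      ∀ z ∈ OmC, ‖z‖ ≤ R → ‖r z‖ ≤ C * β := by
  obtain ⟨C1, hC1, -, h1⟩ := two hH hJ
  obtain ⟨C2, hC2, h2⟩ := hJ.bd2 1 le_rfl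
  obtain ⟨MA, hMA, hA⟩ := bdd hH R (an_cont hG.an.2.2.2.2.2.2.2.2.1)
  obtain ⟨Me, hMe, he⟩ := bdd hH R (an_cont hG.an.2.2.2.2.1)
  obtain ⟨K, hK⟩ : ∃ K : ℝ, K = 2 * (Me ^ 2 * C2 * C1 ^ 2 * MA) + 1 := ⟨_, rfl⟩
  have hK0 : 0 < K := by rw [hK]; positivity
  refine ⟨2 * Real.exp (K * R ^ 2), by positivity, fun n r β hr hβ z hz hzR => ?_⟩
  have hc : ContinuousOn (fun w => ‖r w‖ * Real.exp (-(K * ‖w‖ ^ 2)))
      (OmC ∩ Metric.closedBall 0 R) :=
    (hr.mono inter_subset_left).norm.mul (by fun_prop)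
  obtain ⟨y, ⟨hy, hyR⟩, hm⟩ := ((isCompact_closedBall (0 : ℂ) R).inter_left
    hH.closed_C).exists_isMaxOn ⟨z, hz, mem_closedBall_zero_iff.2 hzR⟩ hc
  rw [mem_closedBall_zero_iff] at hyR
  obtain ⟨N, hN⟩ : ∃ N : ℝ, N = ‖r y‖ * Real.exp (-(K * ‖y‖ ^ 2)) := ⟨_, rfl⟩
  have hN0 : 0 ≤ N := by rw [hN]; positivity
  have hw : ∀ w ∈ OmC, ‖w‖ ≤ R → ‖r w‖ ≤ N * Real.exp (K * ‖w‖ ^ 2) := fun w h h' => by
    have h3 : ‖r w‖ * Real.exp (-(K * ‖w‖ ^ 2)) ≤ N := by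
      rw [hN]
      exact hm ⟨h, mem_closedBall_zero_iff.2 h'⟩
    rwa [Real.exp_neg, ← div_eq_mul_inv, div_le_iff₀ (Real.exp_pos _)] at h3
  have hT : ‖KK n (fun w => -(AA w * r w)) y‖ ≤ N / 2 * Real.exp (K * ‖y‖ ^ 2) := by
    rcases eq_or_ne y 0 with h0 | h0
    · have : KK n (fun w => -(AA w * r w)) y = 0 := by simp [KK, ee, h0]
      rw [this, norm_zero]
      positivity
    have hy0 : 0 < ‖y‖ := norm_pos_iff.2 h0
    have h3 := h2 (fun w => (n : ℂ) ^ 2 * JJ (n + 1) (JJ (n + 2) fun w => -(AA w * r w)) w)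
      (C1 ^ 2 * (MA * N)) (K * ‖y‖ ^ 2) (by positivity) y hy fun s hs => by
        have hs' := hH.star_C y hy s hs
        refine (h1 n _ (MA * N * Real.exp (K * ‖y‖ ^ 2 * s ^ 2)) _ hs' fun t ht => ?_).1.trans
          (le_of_eq (by ring))
        have ht' := hH.star_C _ hs' t ht
        have l1 := norm_star_le (z := s * y) ht
        have l2 := l1.trans ((norm_star_le hs).trans hyR)
        rw [norm_neg, norm_mul, mul_assoc]
        refine mul_le_mul (hA _ ht' l2) ((hw _ ht' l2).trans ?_) (norm_nonneg _) hMA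
        refine mul_le_mul_of_nonneg_left (Real.exp_le_exp.2 ?_) hN0
        rw [norm_star hs] at l1
        rw [mul_assoc, ← mul_pow, mul_comm ‖y‖ s]
        exact mul_le_mul_of_nonneg_left (pow_le_pow_left₀ (norm_nonneg _) l1 2) hK0.le
    have h4 : ‖ee y‖ ^ 2 ≤ ‖y‖ ^ 2 * Me ^ 2 := by
      rw [ee, norm_mul, mul_pow]
      exact mul_le_mul_of_nonneg_left (pow_le_pow_left₀ (norm_nonneg _) (he y hy hyR) 2)
        (by positivity)
    rw [KK, norm_mul, norm_pow]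
    refine (mul_le_mul h4 (h3.trans (mul_le_mul_of_nonneg_left (min_le_right _ _)
      (by positivity))) (norm_nonneg _) (by positivity)).trans ?_
    have e : ‖y‖ ^ 2 * Me ^ 2 * (C2 * (C1 ^ 2 * (MA * N)) * Real.exp (K * ‖y‖ ^ 2) * (K * ‖y‖ ^ 2)⁻¹)
        = (2 * (Me ^ 2 * C2 * C1 ^ 2 * MA)) / K * (N / 2 * Real.exp (K * ‖y‖ ^ 2)) := by
      field_simp
    rw [e]
    refine mul_le_of_le_one_left (by positivity) ?_
    rw [div_le_one hK0]
    linarith
  have h5 : N * Real.exp (K * ‖y‖ ^ 2) = ‖r y‖ := by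
    rw [hN, mul_assoc, ← Real.exp_add, neg_add_cancel, Real.exp_zero, mul_one]
  have h6 := (norm_sub_norm_le _ _).trans (hβ y hy hyR)
  have h7 : 1 ≤ Real.exp (K * ‖y‖ ^ 2) := Real.one_le_exp (by positivity)
  have h8 : N ≤ 2 * β := by nlinarith
  have h9 : Real.exp (K * ‖z‖ ^ 2) ≤ Real.exp (K * R ^ 2) := Real.exp_le_exp.2
    (mul_le_mul_of_nonneg_left (pow_le_pow_left₀ (norm_nonneg _) hzR 2) hK0.le)
  calc ‖r z‖ ≤ N * Real.exp (K * ‖z‖ ^ 2) := hw z hz hzR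
    _ ≤ 2 * β * Real.exp (K * R ^ 2) := mul_le_mul h8 h9 (Real.exp_pos _).le (hN0.trans h8)
    _ = 2 * Real.exp (K * R ^ 2) * β := by ring

/-- the inner operators are close to the identity -/
theorem approx (hH : HolStmt) (hG : GeoStmt) (hJ : JStmt) (R : ℝ) {H : ℂ → ℂ} (hA : An H) :
    ∃ C : ℝ, 0 ≤ C ∧ ∀ n : ℕ, 1 ≤ n → ∀ z ∈ OmC, ‖z‖ ≤ R →
      ‖KK n H z - ee z ^ 2 * JJ 1 H z‖ ≤ C / n := by
  obtain ⟨C1, hC1, h1, -⟩ := two hH hJ
  have cH := an_cont hA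
  have cD := an_cont (hG.an_Dh hA)
  obtain ⟨M, hM, bH⟩ := bdd hH R cH
  obtain ⟨M', hM', bD⟩ := bdd hH R cD
  obtain ⟨Me, hMe, he⟩ := bdd hH R (an_cont hG.an.2.2.2.2.2.1)
  have step : ∀ k : ℕ, 1 ≤ k → ∀ w ∈ OmC, ‖w‖ ≤ R →
      ‖(k : ℂ) * JJ k H w + (-1) * H w‖ ≤ C1 / k * M' := fun k hk w hw hwR => by
    have e1 := hJ.left_inv hk hA w hw
    have e2 := hJ.lin k 1 k cD cH hw
    simp only [one_mul] at e2
    have e3 : (k : ℂ) * JJ k H w + (-1) * H w = -JJ k (Dh H) w := by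
      linear_combination e1 - e2
    rw [e3, norm_neg]
    exact h1 k _ _ hk w hw fun t ht => bD _ (hH.star_C w hw t ht) ((norm_star_le ht).trans hwR)
  refine ⟨Me ^ 2 * (C1 * (C1 ^ 2 * M' + C1 * M' + 3 * M)), by positivity, fun n hn z hz hzR => ?_⟩
  have hn' : (1 : ℝ) ≤ n := by exact_mod_cast hn
  have c2 : ContinuousOn (JJ (n + 2) H) OmC := hJ.cont cH
  have key : ∀ w ∈ OmC, ‖w‖ ≤ R → ‖(n : ℂ) ^ 2 * JJ (n + 1) (JJ (n + 2) H) w + (-1) * H w‖
      ≤ (C1 ^ 2 * M' + C1 * M' + 3 * M) / n := fun w hw hwR => by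
    have e1 := hJ.lin (n + 1) ((n + 2 : ℕ) : ℂ) (-1) c2 cH hw
    have b1 := h1 (n + 1) (fun w => ((n + 2 : ℕ) : ℂ) * JJ (n + 2) H w + (-1) * H w)
      (C1 / (n + 2 : ℕ) * M') (by omega) w hw fun t ht =>
        step (n + 2) (by omega) _ (hH.star_C w hw t ht) ((norm_star_le ht).trans hwR)
    have b2 := step (n + 1) (by omega) w hw hwR
    have b3 := bH w hw hwR
    rw [e1] at b1
    push_cast at b1 b2
    have p1 : (n : ℂ) + 1 ≠ 0 := by exact_mod_cast Nat.succ_ne_zero n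
    have p2 : (n : ℂ) + 2 ≠ 0 := by exact_mod_cast Nat.succ_ne_zero (n + 1)
    have e2 : (n : ℂ) ^ 2 * JJ (n + 1) (JJ (n + 2) H) w + (-1) * H w
        = ((n ^ 2 / (n + 2) : ℝ) : ℂ) * ((n + 2) * JJ (n + 1) (JJ (n + 2) H) w
            + (-1) * JJ (n + 1) H w)
          + ((n ^ 2 / ((n + 1) * (n + 2)) : ℝ) : ℂ) * ((n + 1) * JJ (n + 1) H w + (-1) * H w)
          + ((-(3 * n + 2) / ((n + 1) * (n + 2)) : ℝ) : ℂ) * H w := by
      push_cast
      field_simp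
      ring
    rw [e2]
    refine (norm_add₃_le).trans ?_
    rw [norm_mul, norm_mul, norm_mul, Complex.norm_real, Complex.norm_real, Complex.norm_real,
      Real.norm_eq_abs, Real.norm_eq_abs, Real.norm_eq_abs, abs_of_nonneg (by positivity),
      abs_of_nonneg (by positivity), neg_div, abs_neg, abs_of_nonneg (by positivity),
      add_div (C1 ^ 2 * M' + C1 * M'), add_div (C1 ^ 2 * M')]
    refine add_le_add (add_le_add ?_ ?_) ?_
    · refine (mul_le_mul_of_nonneg_left b1 (by positivity)).trans ?_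
      have e : (n : ℝ) ^ 2 / (n + 2) * (C1 / (n + 1) * (C1 / (n + 2) * M'))
          = n ^ 3 / ((n + 1) * (n + 2) ^ 2) * (C1 ^ 2 * M' / n) := by
        field_simp
      rw [e]
      refine mul_le_of_le_one_left (by positivity) ?_
      rw [div_le_one (by positivity)]
      nlinarith [pow_nonneg (zero_le_one.trans hn') 2]
    · refine (mul_le_mul_of_nonneg_left b2 (by positivity)).trans ?_
      have e : (n : ℝ) ^ 2 / ((n + 1) * (n + 2)) * (C1 / (n + 1) * M')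
          = n ^ 3 / ((n + 1) ^ 2 * (n + 2)) * (C1 * M' / n) := by
        field_simp
      rw [e]
      refine mul_le_of_le_one_left (by positivity) ?_
      rw [div_le_one (by positivity)]
      nlinarith [pow_nonneg (zero_le_one.trans hn') 2]
    · refine (mul_le_mul_of_nonneg_left b3 (by positivity)).trans ?_
      have e : (3 * (n : ℝ) + 2) / ((n + 1) * (n + 2)) * M
          = (3 * n + 2) * n / (3 * ((n + 1) * (n + 2))) * (3 * M / n) := by
        field_simp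
      rw [e]
      refine mul_le_of_le_one_left (by positivity) ?_
      rw [div_le_one (by positivity)]
      nlinarith
  have c3 : ContinuousOn (fun w => (n : ℂ) ^ 2 * JJ (n + 1) (JJ (n + 2) H) w) OmC :=
    continuousOn_const.mul (hJ.cont c2)
  have e4 := hJ.lin 1 1 (-1) c3 cH hz
  simp only [one_mul] at e4
  have b4 := h1 1 (fun w => (n : ℂ) ^ 2 * JJ (n + 1) (JJ (n + 2) H) w + (-1) * H w) _ le_rfl z hz
    fun t ht => key _ (hH.star_C z hz t ht) ((norm_star_le ht).trans hzR)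
  rw [e4] at b4
  have e5 : KK n H z - ee z ^ 2 * JJ 1 H z = ee z ^ 2 *
      (JJ 1 (fun w => (n : ℂ) ^ 2 * JJ (n + 1) (JJ (n + 2) H) w) z + -1 * JJ 1 H z) := by
    rw [KK]
    ring
  rw [e5, norm_mul, norm_pow]
  refine (mul_le_mul (pow_le_pow_left₀ (norm_nonneg _) (he z hz hzR) 2) b4 (norm_nonneg _)
    (by positivity)).trans (le_of_eq ?_)
  rw [Nat.cast_one, div_one]
  ring

end Near

open Near in
theorem near (hH : HolStmt) (hG : GeoStmt) (hJ : JStmt) (hL : LimSolStmt) : NearStmt := by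
  intro R
  have aA := hG.an.2.2.2.2.2.2.2.2.1
  have cA := an_cont aA
  have ca := an_cont hL.an.1
  have ck := an_cont hL.an.2
  have aHa := an_H aA hL.an.1 0
  have aHk := an_H aA hL.an.2 1
  simp only [Complex.ofReal_zero, add_zero] at aHa
  simp only [Complex.ofReal_one] at aHk
  obtain ⟨C1, hC1, -, h1⟩ := two hH hJ
  obtain ⟨CV, hCV, hV⟩ := volterra hH hG hJ R
  obtain ⟨Ca, hCa, ha⟩ := approx hH hG hJ R aHa
  obtain ⟨Ck, hCk, hk⟩ := approx hH hG hJ R aHk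
  obtain ⟨CK, hCK, hK⟩ := hJ.KK_bd
  obtain ⟨MA, hMA, bA⟩ := bdd hH R cA
  obtain ⟨Me, hMe, be⟩ := bdd hH R (an_cont hG.an.2.2.2.2.2.1)
  obtain ⟨Ma, hMa, ba⟩ := bdd hH R ca
  obtain ⟨Mk, hMk, bk⟩ := bdd hH R ck
  obtain ⟨D1, hD1⟩ : ∃ D : ℝ, D = CV * (CK * Me ^ 2 + Ca + Ck) := ⟨_, rfl⟩
  have pD1 : 0 ≤ D1 := by rw [hD1]; positivity
  obtain ⟨D2, hD2⟩ : ∃ D : ℝ, D = D1 + Ma + Mk := ⟨_, rfl⟩
  have pD2 : 0 ≤ D2 := by rw [hD2]; positivity
  obtain ⟨D3, hD3⟩ : ∃ D : ℝ, D = Me ^ 2 * (C1 ^ 2 * (MA * D2 + 1)) := ⟨_, rfl⟩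
  have pD3 : 0 ≤ D3 := by rw [hD3]; positivity
  obtain ⟨D4, hD4⟩ : ∃ D : ℝ, D = Me ^ 2 * (C1 * (MA * D2 + 1)) := ⟨_, rfl⟩
  have pD4 : 0 ≤ D4 := by rw [hD4]; positivity
  refine ⟨D2 + D3 + D4, by positivity, fun n a κ B F u hn cF cu bF hu => ?_⟩
  have hn' : (1 : ℝ) ≤ n := by exact_mod_cast hn
  have cr : ContinuousOn (fun w => u w - (a * ua w + κ * uk w)) OmC :=
    cu.sub ((continuousOn_const.mul ca).add (continuousOn_const.mul ck))
  have k1 : ∀ z ∈ OmC, ‖z‖ ≤ R →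
      ‖u z - (a * ua z + κ * uk z)‖ ≤ D1 * (B + (|a| + |κ|) / n) := fun z hz hzR => by
    have hB : 0 ≤ B := (norm_nonneg _).trans (bF z hz)
    rw [hD1, mul_assoc]
    refine hV n _ _ cr (fun z hz hzR => ?_) z hz hzR
    have cG : ContinuousOn (fun w => -(AA w * (u w - (a * ua w + κ * uk w)))) OmC := (cA.mul cr).neg
    have e0 : HH κ F u = fun w => 1 * (1 * -(AA w * (u w - (a * ua w + κ * uk w))) + 1 * F w)
        + 1 * (a * -(AA w * ua w) + κ * (-(AA w * uk w) + 1)) := by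
      funext w
      simp only [HH]
      ring
    have e1 := hu z hz
    have c1 : ContinuousOn (fun w => 1 * -(AA w * (u w - (a * ua w + κ * uk w))) + 1 * F w) OmC :=
      (continuousOn_const.mul cG).add (continuousOn_const.mul cF)
    have c2 : ContinuousOn (fun w => a * -(AA w * ua w) + κ * (-(AA w * uk w) + 1)) OmC :=
      (continuousOn_const.mul (an_cont aHa)).add (continuousOn_const.mul (an_cont aHk))
    rw [e0, hJ.KK_lin n 1 1 c1 c2 hz,
      hJ.KK_lin n 1 1 cG cF hz, hJ.KK_lin n a κ (an_cont aHa) (an_cont aHk) hz] at e1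
    have e2 : u z - (a * ua z + κ * uk z)
        - KK n (fun w => -(AA w * (u w - (a * ua w + κ * uk w)))) z
        = KK n F z + a * (KK n (fun w => -(AA w * ua w)) z
            - ee z ^ 2 * JJ 1 (fun w => -(AA w * ua w)) z)
          + κ * (KK n (fun w => -(AA w * uk w) + 1) z
            - ee z ^ 2 * JJ 1 (fun w => -(AA w * uk w) + 1) z) := by
      linear_combination e1 - a * hL.eq_a z hz - κ * hL.eq_k z hz
    rw [e2]
    refine (norm_add₃_le).trans ?_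
    rw [norm_mul, norm_mul, Complex.norm_real, Complex.norm_real, Real.norm_eq_abs,
      Real.norm_eq_abs]
    have b1 : ‖KK n F z‖ ≤ CK * Me ^ 2 * B :=
      (hK n F B z hz fun t ht => bF _ (hH.star_C z hz t ht)).trans (mul_le_mul_of_nonneg_right
        (mul_le_mul_of_nonneg_left (pow_le_pow_left₀ (norm_nonneg _) (be z hz hzR) 2) hCK) hB)
    have b2 := mul_le_mul_of_nonneg_left (ha n hn z hz hzR) (abs_nonneg a)
    have b3 := mul_le_mul_of_nonneg_left (hk n hn z hz hzR) (abs_nonneg κ)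
    have p1 : 0 ≤ |a| / n := by positivity
    have p2 : 0 ≤ |κ| / n := by positivity
    have p3 : 0 ≤ CK * Me ^ 2 := by positivity
    have e3 : |a| * (Ca / n) = Ca * (|a| / n) := by ring
    have e4 : |κ| * (Ck / n) = Ck * (|κ| / n) := by ring
    rw [add_div]
    nlinarith [mul_nonneg p3 p1, mul_nonneg p3 p2, mul_nonneg hCa hB, mul_nonneg hCk hB,
      mul_nonneg hCa p2, mul_nonneg hCk p1]
  have k2 : ∀ z ∈ OmC, ‖z‖ ≤ R → ‖u z‖ ≤ D2 * (B + |a| + |κ|) := fun z hz hzR => by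
    have hB : 0 ≤ B := (norm_nonneg _).trans (bF z hz)
    have b1 := k1 z hz hzR
    have b2 : (|a| + |κ|) / n ≤ |a| + |κ| := div_le_self (by positivity) hn'
    have b3 : ‖(a : ℂ) * ua z + κ * uk z‖ ≤ |a| * Ma + |κ| * Mk := by
      refine (norm_add_le _ _).trans ?_
      rw [norm_mul, norm_mul, Complex.norm_real, Complex.norm_real, Real.norm_eq_abs,
        Real.norm_eq_abs]
      exact add_le_add (mul_le_mul_of_nonneg_left (ba z hz hzR) (abs_nonneg a))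
        (mul_le_mul_of_nonneg_left (bk z hz hzR) (abs_nonneg κ))
    have b4 := norm_sub_norm_le (u z) (a * ua z + κ * uk z)
    have b5 := mul_le_mul_of_nonneg_left (add_le_add_right b2 B) pD1
    rw [hD2]
    nlinarith [mul_nonneg hMa hB, mul_nonneg hMk hB, mul_nonneg hMa (abs_nonneg κ),
      mul_nonneg hMk (abs_nonneg a)]
  intro z hz hzR
  have hB : 0 ≤ B := (norm_nonneg _).trans (bF z hz)
  have hS : 0 ≤ B + |a| + |κ| := by positivity
  obtain ⟨k3, k4⟩ := h1 n (HH κ F u) ((MA * D2 + 1) * (B + |a| + |κ|)) z hz fun t ht => by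
    have h2 := hH.star_C z hz t ht
    have h3 := (norm_star_le ht).trans hzR
    refine (norm_add₃_le).trans ?_
    rw [norm_neg, norm_mul, Complex.norm_real, Real.norm_eq_abs]
    have h4 := mul_le_mul (bA _ h2 h3) (k2 _ h2 h3) (norm_nonneg _) hMA
    have h5 := bF _ h2
    nlinarith [abs_nonneg a]
  have he := pow_le_pow_left₀ (norm_nonneg _) (be z hz hzR) 2
  refine ⟨(k1 z hz hzR).trans (mul_le_mul_of_nonneg_right (by linarith) (by positivity)),
    (k2 z hz hzR).trans (mul_le_mul_of_nonneg_right (by linarith) hS), ?_, ?_⟩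
  · rw [pv, mul_assoc, norm_mul, norm_pow]
    refine (mul_le_mul he k3 (norm_nonneg _) (by positivity)).trans ?_
    refine le_trans (le_of_eq ?_) (mul_le_mul_of_nonneg_right (show D3 ≤ _ by linarith) hS)
    rw [hD3]
    ring
  · rw [wv, mul_assoc, norm_mul, norm_pow]
    refine (mul_le_mul he k4 (norm_nonneg _) (by positivity)).trans ?_
    refine le_trans (le_of_eq ?_) (mul_le_mul_of_nonneg_right (show D4 ≤ _ by linarith) hS)
    rw [hD4]
    ring

end Vale.Agent.P264
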