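import Vale.Agent.P264.StmG

/-! The key estimate along the boundary ray. -/

namespace Vale.Agent.P264

open Set Filter

namespace Ray

theorem ee_ray (hH : HolStmt) (hG : GeoStmt) (s : ℝ) :
    HasDerivAt (fun s => ee (ray s)) (mm (ray s) * ee (ray s)) s := by
  have h := (hG.ee_deriv _ (hH.ray_mem s)).comp s (hH.ray_deriv s)
  refine h.congr_deriv ?_
  unfold ee
  ring

theorem cont_HH (hH : HolStmt) (hG : GeoStmt) (κ : ℝ) {F u : ℂ → ℂ} (hF : ContinuousOn F OmC)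
    (hu : ContinuousOn u OmC) : ContinuousOn (HH κ F u) OmC :=
  (((hH.an_hol hG.an.2.2.2.2.2.2.2.2.1).2.1.mul hu).neg.add continuousOn_const).add hF

theorem u_ray (hH : HolStmt) (hG : GeoStmt) (hJ : JStmt) {n : ℕ} {a κ : ℝ} {F u : ℂ → ℂ}
    (hc : ContinuousOn (HH κ F u) OmC) (hE : LinEq n a κ F u) (s : ℝ) :
    HasDerivAt (fun s => u (ray s)) (mm (ray s) * (u (ray s) + pv n (HH κ F u) (ray s))) s := by
  have he := ee_ray hH hG s
  have h0 := hJ.ray_ode (k := 1) (f := fun w => (n : ℂ) ^ 2 * JJ (n + 1) (JJ (n + 2) (HH κ F u)) w)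
    le_rfl (continuousOn_const.mul (hJ.cont (hJ.cont hc))) s
  have h1 := (he.const_mul (a : ℂ)).add ((he.pow 2).mul h0)
  have e : ∀ s, u (ray s) = a * ee (ray s) + KK n (HH κ F u) (ray s) := fun s =>
    hE _ (hH.ray_mem s)
  simp only [e]
  refine h1.congr_deriv ?_
  simp only [KK, pv, Pi.pow_apply]
  push_cast
  ring

theorem p_ray (hH : HolStmt) (hG : GeoStmt) (hJ : JStmt) (n : ℕ) {H : ℂ → ℂ}
    (hc : ContinuousOn H OmC) (s : ℝ) :
    HasDerivAt (fun s => pv n H (ray s))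
      (mm (ray s) * (-((n - 1) * pv n H (ray s)) + n * wv n H (ray s))) s := by
  have he := ee_ray hH hG s
  have h0 := hJ.ray_ode (k := n + 1) (f := JJ (n + 2) H) (by omega) (hJ.cont hc) s
  have h1 := ((he.pow 2).mul_const ((n : ℂ) ^ 2)).mul h0
  refine h1.congr_deriv ?_
  simp only [pv, wv, Pi.pow_apply]
  push_cast
  ring

theorem w_ray (hH : HolStmt) (hG : GeoStmt) (hJ : JStmt) (n : ℕ) {H : ℂ → ℂ}
    (hc : ContinuousOn H OmC) (s : ℝ) :
    HasDerivAt (fun s => wv n H (ray s))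
      (mm (ray s) * (-(n * wv n H (ray s)) + n * (ee (ray s) ^ 2 * H (ray s)))) s := by
  have he := ee_ray hH hG s
  have h0 := hJ.ray_ode (k := n + 2) (f := H) (by omega) hc s
  have h1 := ((he.pow 2).mul_const (n : ℂ)).mul h0
  refine h1.congr_deriv ?_
  simp only [wv, Pi.pow_apply]
  push_cast
  ring

theorem VV_pos (s : ℝ) : 0 < VV s := by
  unfold VV
  positivity

theorem norm_le_Zf {n : ℕ} (hn : 1 ≤ n) {μ : ℝ} (hμ : 1 < μ) (u p w : ℂ) :
    ‖u‖ ≤ ‖Zf n μ u p w‖ + ‖p‖ / n + ‖w‖ / n := by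
  have hn' : (1 : ℝ) ≤ n := by exact_mod_cast hn
  have e1 : ((μ : ℂ) + n - 1) = ((μ + n - 1 : ℝ) : ℂ) := by push_cast; rfl
  have e2 : ((μ : ℂ) + n) = ((μ + n : ℝ) : ℂ) := by push_cast; rfl
  have h1 : ‖p / (μ + n - 1)‖ ≤ ‖p‖ / n := by
    rw [norm_div, e1, Complex.norm_real, Real.norm_of_nonneg (by linarith)]
    exact div_le_div_of_nonneg_left (norm_nonneg _) (by linarith) (by linarith)
  have h2 : ‖n * w / ((μ + n - 1) * (μ + n))‖ ≤ ‖w‖ / n := by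
    rw [norm_div, norm_mul, norm_mul, e1, e2, Complex.norm_real, Complex.norm_real,
      Complex.norm_natCast, Real.norm_of_nonneg (by linarith), Real.norm_of_nonneg (by linarith),
      div_le_div_iff₀ (mul_pos (by linarith) (by linarith)) (by linarith)]
    have h3 : (n : ℝ) * n ≤ (μ + n - 1) * (μ + n) :=
      mul_le_mul (by linarith) (by linarith) (by linarith) (by linarith)
    have := mul_le_mul_of_nonneg_left h3 (norm_nonneg w)
    linarith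
  have e : u = Zf n μ u p w - p / (μ + n - 1) - n * w / ((μ + n - 1) * (μ + n)) := by
    unfold Zf
    ring
  have h4 := norm_sub_le (Zf n μ u p w - p / (μ + n - 1)) (n * w / ((μ + n - 1) * (μ + n)))
  have h5 := norm_sub_le (Zf n μ u p w) (p / (μ + n - 1))
  rw [← e] at h4
  linarith

theorem arith1 {A K B X Cf Cn U Z Pn Wn Pm D M q : ℝ} (hA : 0 ≤ A) (hK : 0 ≤ K) (hB : 0 ≤ B)
    (hX : 0 ≤ X) (hCf : 0 ≤ Cf) (hCn : 0 ≤ Cn) (b1 : (2 * Cf + 2) * (A + K) ≤ M) (t6 : M ≤ U + D)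
    (n1 : D ≤ Cn * (B + q)) (z1 : U ≤ Z + Pn + Wn) (f1 : Z ≤ Cf * (B + K + X) + (U + Pm) / 4)
    (t1 : Pm ≤ Pn) (t3 : Pn ≤ (B + A + K) / 4) (t4 : Wn ≤ (B + A + K) / 4)
    (t5 : Cn * q ≤ (A + K) / 4) : A + K ≤ (2 * Cf + 1 + Cn) * (B + X) := by
  have p1 := mul_nonneg hCf hA
  have p2 := mul_nonneg hCf hK
  have p3 := mul_nonneg hCf hB
  have p4 := mul_nonneg hCf hX
  have p5 := mul_nonneg hCn hX
  linarith

theorem arith2 {A K B X X' Cf Cn C₁ U Pm P V : ℝ} (hA : 0 ≤ A) (_hK : 0 ≤ K) (hB : 0 ≤ B)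
    (hX : 0 ≤ X) (hXX : X ≤ X') (hCf : 0 ≤ Cf) (hCn : 0 ≤ Cn) (hC₁ : 0 ≤ C₁)
    (h : A + K ≤ C₁ * (B + X)) (n2 : U ≤ Cn * (B + A + K)) (t7 : Pm ≤ P)
    (n3 : P ≤ Cn * (B + A + K)) (g1 : V ≤ Cf * (U + Pm + (B + K) + X')) :
    V ≤ (C₁ + Cf * ((2 * Cn + 1) * (1 + C₁) + 1)) * (B + X') := by
  have t8 : B + A + K ≤ (1 + C₁) * (B + X') := by
    have := mul_le_mul_of_nonneg_left hXX hC₁
    linarith
  have t9 := mul_le_mul_of_nonneg_left t8 (by linarith : 0 ≤ 2 * Cn + 1)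
  have t10 : U + Pm + (B + K) + X' ≤ ((2 * Cn + 1) * (1 + C₁) + 1) * (B + X') := by linarith
  have t11 := mul_le_mul_of_nonneg_left t10 hCf
  have t12 : 0 ≤ C₁ * (B + X') := mul_nonneg hC₁ (by linarith)
  linarith

end Ray

open Ray in
theorem rayS (hH : HolStmt) (hG : GeoStmt) (hJ : JStmt) (hL : LimSolStmt) (hN : NearStmt)
    (hF : FarStmt) : RayStmt := by
  obtain ⟨ε₀, V₀, Cf, hε₀, hCf, far⟩ := hF
  obtain ⟨sa, hsa⟩ := hG.ray_asym ε₀ hε₀
  obtain ⟨s₁, hs₁, big⟩ := hL.large (2 * Cf + 2) (max sa (max 0 (V₀ / (9 / (2 * 1000 ^ 4)))))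
  obtain ⟨Cn, hCn, near⟩ := hN (Real.exp s₁)
  have hc : (0 : ℝ) < 9 / (2 * 1000 ^ 4) := by norm_num
  have hV : V₀ ≤ 9 / (2 * 1000 ^ 4) * Real.exp (6 * s₁) := by
    have h1 : 0 ≤ s₁ := ((le_max_left _ _).trans (le_max_right _ _)).trans hs₁
    have h2 : V₀ / (9 / (2 * 1000 ^ 4)) ≤ s₁ :=
      ((le_max_right _ _).trans (le_max_right _ _)).trans hs₁
    have h3 := Real.add_one_le_exp (6 * s₁)
    rw [div_le_iff₀ hc] at h2
    linarith
  set C₁ := 2 * Cf + 1 + Cn with hC₁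
  have hC₁0 : 0 ≤ C₁ := by linarith
  set C₂ := Cf * ((2 * Cn + 1) * (1 + C₁) + 1) with hC₂
  have hC₂0 : 0 ≤ C₂ := by positivity
  refine ⟨C₁ + C₂, s₁, max 1 ⌈4 * Cn⌉₊, by linarith, le_max_left _ _, ?_⟩
  intro n a κ B S μ F u hn hμ cF cu hB hE hS
  have hn1 : 1 ≤ n := (le_max_left _ _).trans hn
  have hn1' : (1 : ℝ) ≤ n := by exact_mod_cast hn1
  have hn2 : 4 * Cn ≤ n := Nat.ceil_le.1 ((le_max_right _ _).trans hn)
  have hB0 : 0 ≤ B := (norm_nonneg _).trans (hB _ (hH.ray_mem 0))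
  have cH := cont_HH hH hG κ cF cu
  obtain ⟨f1, f2⟩ := far n _ s₁ S (B + |κ|) μ (fun s => mm (ray s))
    (fun s => -(ee (ray s) ^ 2 * AA (ray s)) / VV s - 1)
    (fun s => ee (ray s) ^ 2 * (κ + F (ray s)) / VV s) (fun s => u (ray s))
    (fun s => pv n (HH κ F u) (ray s)) (fun s => wv n (HH κ F u) (ray s)) hn1 hc hS hV hμ (by
      intro s hs
      obtain ⟨a1, a2, a3⟩ := hsa s (((le_max_left _ _).trans hs₁).trans hs.1)
      have hv := VV_pos s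
      refine ⟨a1, a2, ?_, u_ray hH hG hJ cH hE s, p_ray hH hG hJ n cH s,
        (w_ray hH hG hJ n cH s).congr_deriv ?_⟩
      · rw [norm_div, norm_mul, norm_pow, Complex.norm_real, Real.norm_of_nonneg hv.le,
          div_le_iff₀ hv, mul_comm]
        refine mul_le_mul ?_ a3 (sq_nonneg _) (by positivity)
        have h1 := norm_add_le (κ : ℂ) (F (ray s))
        have h2 := hB _ (hH.ray_mem s)
        rw [Complex.norm_real, Real.norm_eq_abs] at h1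
        linarith
      · have hv' : (VV s : ℂ) ≠ 0 := by exact_mod_cast hv.ne'
        change _ = mm (ray s) * (_ + n * (VV s : ℂ) * _)
        unfold HH
        field_simp
        ring)
  obtain ⟨n1, n2, n3, n4⟩ := near n a κ B F u hn1 cF cu hB hE (ray s₁) (hH.ray_mem s₁)
    (hH.ray_norm s₁).le
  have b1 := big a κ
  have z1 := norm_le_Zf hn1 (hμ s₁).1 (u (ray s₁)) (pv n (HH κ F u) (ray s₁))
    (wv n (HH κ F u) (ray s₁))
  have hμ1 := (hμ s₁).1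
  set Z := ‖Zf n (μ S) (u (ray S)) (pv n (HH κ F u) (ray S)) (wv n (HH κ F u) (ray S))‖
  have hZ : 0 ≤ Z := norm_nonneg _
  set X := Real.exp (-(7 * (S - s₁))) * Z with hX
  have hX0 : 0 ≤ X := by positivity
  have ha0 := abs_nonneg a
  have hκ0 := abs_nonneg κ
  set P := ‖pv n (HH κ F u) (ray s₁)‖
  have hP : 0 ≤ P := norm_nonneg _
  have t1 : P / (μ s₁ + n) ≤ P / n := div_le_div_of_nonneg_left hP (by linarith) (by linarith)
  have t2 : ∀ y : ℝ, y ≤ Cn * (B + |a| + |κ|) → y / n ≤ (B + |a| + |κ|) / 4 := by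
    intro y hy
    rw [div_le_div_iff₀ (by linarith) (by norm_num)]
    have := mul_le_mul_of_nonneg_left hn2 (by linarith : 0 ≤ B + |a| + |κ|)
    linarith
  have t3 := t2 _ n3
  have t4 := t2 _ n4
  have t5 : Cn * ((|a| + |κ|) / n) ≤ (|a| + |κ|) / 4 := by
    rw [← mul_div_assoc, div_le_div_iff₀ (by linarith) (by norm_num)]
    have := mul_le_mul_of_nonneg_left hn2 (by linarith : 0 ≤ |a| + |κ|)
    linarith
  have t6 : ‖a * ua (ray s₁) + κ * uk (ray s₁)‖ ≤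
      ‖u (ray s₁)‖ + ‖u (ray s₁) - (a * ua (ray s₁) + κ * uk (ray s₁))‖ := by
    have := norm_sub_le (u (ray s₁)) (u (ray s₁) - (a * ua (ray s₁) + κ * uk (ray s₁)))
    rwa [sub_sub_cancel] at this
  have hA : |a| + |κ| ≤ C₁ * (B + X) :=
    arith1 ha0 hκ0 hB0 hX0 hCf hCn b1 t6 n1 z1 f1 t1 t3 t4 t5
  refine ⟨hA.trans (mul_le_mul_of_nonneg_right (by linarith) (by linarith)), fun s hs => ?_⟩
  have hXX : X ≤ Real.exp (-(7 * (S - s))) * Z :=
    mul_le_mul_of_nonneg_right (Real.exp_le_exp.2 (by linarith [hs.1])) hZ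
  exact arith2 ha0 hκ0 hB0 hX0 hXX hCf hCn hC₁0 hA n2 (div_le_self hP (by linarith)) n3 (f2 s hs)

end Vale.Agent.P264
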