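import Vale.Agent.P264.StmG

/-!
From the holomorphic solution of the profile equation to the real shrinker.
-/

namespace Vale.Agent.P264

open scoped ContDiff ComplexConjugate
open Set MeasureTheory Filter Topology

private theorem sy_dil (hA : BaseA) (hD : DelStmt) {f : ℝ → ℝ} {τ : ℝ} (h0 : 0 < τ) (h1 : τ ≤ 1)
    (hf : SyA 1 0 (-1) f) : SyA 1 0 (-1) fun y => f (τ * y) := by
  intro h
  obtain ⟨M, hs, hb⟩ := hf h
  have hm : ∀ x ∈ dom 0, τ * x ∈ dom 0 := by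
    intro x hx
    rw [hA.dom_zero] at hx ⊢
    exact mul_pos h0 hx
  refine ⟨|M| / τ, hs.comp (by fun_prop) hm, fun i hi x hx => ?_⟩
  have hv : 0 < vp 1 x := hA.vp_pos x one_pos
  have hv' : 0 < vp 1 (τ * x) := hA.vp_pos _ one_pos
  have hle : τ * vp 1 x ≤ vp 1 (τ * x) := by
    refine abs_le_of_sq_le_sq' ?_ hv'.le |>.2
    rw [mul_pow, hA.vp_sq, hA.vp_sq]
    nlinarith
  have he : (-1 - (i : ℤ)) = -((i + 1 : ℕ) : ℤ) := by push_cast; ring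
  have h2 := hb i hi _ (hm x hx)
  rw [he, zpow_neg, zpow_natCast] at h2 ⊢
  rw [hD.iter_dil i f x h0.ne', abs_mul, abs_of_pos (pow_pos h0 i)]
  have h3 : (vp 1 (τ * x) ^ (i + 1))⁻¹ ≤ ((τ * vp 1 x) ^ (i + 1))⁻¹ :=
    inv_anti₀ (by positivity) (pow_le_pow_left₀ (by positivity) hle _)
  have h4 : M * (vp 1 (τ * x) ^ (i + 1))⁻¹ ≤ |M| * ((τ * vp 1 x) ^ (i + 1))⁻¹ :=
    mul_le_mul (le_abs_self M) h3 (by positivity) (abs_nonneg M)
  refine (mul_le_mul_of_nonneg_left (h2.trans h4) (pow_pos h0 i).le).trans (le_of_eq ?_)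
  field_simp
  ring

private theorem eqn_of (n : ℕ) (c : ℝ) {Γ P Q : ℝ → ℝ}
    (hΓ : ∀ y, 0 < y → HasDerivAt Γ (-P y) y)
    (hP : ∀ y, 0 < y → HasDerivAt P ((Q y - (n + 1) * P y) / y) y)
    (hQ : ∀ y, 0 < y → HasDerivAt Q ((c - 1 / (2 * (1 + y * Γ y)) - (n + 2) * Q y) / y) y)
    (hg : ∀ y, 0 < y → 1 + y * Γ y ≠ 0) (y : ℝ) (hy : 0 < y) :
    (Γ y + y * deriv Γ y) / 2 + (1 + y * Γ y) ^ 2 * LL n 0 Γ y = 0 := by
  have h1 : ∀ y, 0 < y → dl n 0 1 Γ y = -(y * P y) + (n + 1) * Γ y := by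
    intro y hy
    simp only [dl, om, ell, (hΓ y hy).deriv]
    push_cast
    ring
  have h1' : ∀ y, 0 < y → HasDerivAt (dl n 0 1 Γ) (-P y - Q y) y := by
    intro y hy
    have := (((hasDerivAt_id' y).fun_mul (hP y hy)).fun_neg).fun_add
      ((hΓ y hy).const_mul ((n : ℝ) + 1))
    refine (this.congr_deriv ?_).congr_of_eventuallyEq ?_
    · field_simp
      ring
    · filter_upwards [Ioi_mem_nhds hy] with x hx using h1 x hx
  have h2 : ∀ y, 0 < y →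
      dl n 0 0 (dl n 0 1 Γ) y = y * (-P y - Q y) + n * dl n 0 1 Γ y := by
    intro y hy
    rw [dl, (h1' y hy).deriv]
    simp only [om, ell]
    push_cast
    ring
  have h2' : ∀ y, 0 < y →
      HasDerivAt (dl n 0 0 (dl n 0 1 Γ)) (-c + 1 / (2 * (1 + y * Γ y))) y := by
    intro y hy
    have := ((hasDerivAt_id' y).fun_mul ((hP y hy).fun_neg.fun_sub (hQ y hy))).fun_add
      ((h1' y hy).const_mul (n : ℝ))
    refine (this.congr_deriv ?_).congr_of_eventuallyEq ?_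
    · generalize 1 / (2 * (1 + y * Γ y)) = u
      field_simp
      ring
    · filter_upwards [Ioi_mem_nhds hy] with x hx using h2 x hx
  have h3 : HasDerivAt (deriv (dl n 0 0 (dl n 0 1 Γ)))
      (-(Γ y - y * P y) / (2 * (1 + y * Γ y) ^ 2)) y := by
    have h4 := ((((hasDerivAt_id' y).fun_mul (hΓ y hy)).const_add 1).const_mul 2).fun_inv
      (mul_ne_zero two_ne_zero (hg y hy))
    refine ((h4.const_add (-c)).congr_deriv ?_).congr_of_eventuallyEq ?_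
    · have := hg y hy
      field_simp
      ring
    · filter_upwards [Ioi_mem_nhds hy] with x hx
      rw [(h2' x hx).deriv, one_div]
  rw [LL, h3.deriv, (hΓ y hy).deriv]
  have := hg y hy
  generalize 1 + y * Γ y = g at this ⊢
  field_simp
  ring

private theorem e1_real (r : ℝ) (hr : 0 ≤ r) : ∃ e : ℝ, 0 < e ∧ e1 r = e := by
  refine ⟨(1 + r / 1000) ^ 2 * ((r * (1 + r / 1000) ^ 2) ^ 2 + 2 / 3)
    / ((r * (1 + r / 1000) ^ 2) ^ 2 + 2 / 9), by positivity, ?_⟩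
  simp only [e1, ww, vv, xi]
  push_cast
  ring

private theorem eq_re {z : ℂ} (h : z.im = 0) : z = (z.re : ℂ) :=
  Complex.ext (by simp) (by simp [h])

/-- decay of the quotient `h / ee` -/
private theorem psi_bd (hH : HolStmt) {ψ h : ℂ → ℂ} {C B : ℝ} (hC : 0 < C) (hψ : Hol ψ)
    (he : ∀ z ∈ OmC, C⁻¹ * (1 + ‖z‖ ^ 2) ≤ ‖e1 z‖) (hh : ∀ z ∈ OmC, h z = ee z * ψ z)
    (hB : ∀ z ∈ OmC, ‖h z‖ ≤ B) :
    ∃ K, ∀ z ∈ OmO, ‖ψ z‖ ≤ K * (1 + ‖z‖) ^ (-3 : ℤ) := by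
  obtain ⟨B', hB'⟩ := ((isCompact_closedBall (0 : ℂ) 1).inter_left
    hH.closed_C).exists_bound_of_continuousOn (hψ.2.1.mono inter_subset_left)
  refine ⟨max (8 * B') (4 * C * B), fun z hz => ?_⟩
  have hz' := hH.sub hz
  have ht : 0 ≤ ‖z‖ := norm_nonneg z
  have hp : 0 ≤ ‖ψ z‖ := norm_nonneg _
  rw [zpow_neg, ← div_eq_mul_inv, le_div_iff₀ (by positivity), zpow_ofNat]
  by_cases h1 : ‖z‖ ≤ 1
  · refine le_trans ?_ (le_max_left _ _)
    have h2 := hB' z ⟨hz', by simpa using h1⟩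
    have h3 : (1 + ‖z‖) ^ 3 ≤ 2 ^ 3 := pow_le_pow_left₀ (by positivity) (by linarith) 3
    nlinarith
  · refine le_trans ?_ (le_max_right _ _)
    push Not at h1
    have h2 := hB z hz'
    rw [hh z hz', ee, norm_mul, norm_mul] at h2
    have h3 := he z hz'
    rw [inv_mul_le_iff₀ hC] at h3
    have h4 : (1 + ‖z‖) ^ 3 ≤ 4 * (‖z‖ * (1 + ‖z‖ ^ 2)) := by
      have a1 : 1 + ‖z‖ ≤ 2 * ‖z‖ := by linarith
      have a2 : (1 + ‖z‖) ^ 2 ≤ 2 * (1 + ‖z‖ ^ 2) := by nlinarith [sq_nonneg (‖z‖ - 1)]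
      calc (1 + ‖z‖) ^ 3 = (1 + ‖z‖) * (1 + ‖z‖) ^ 2 := by ring
        _ ≤ 2 * ‖z‖ * (2 * (1 + ‖z‖ ^ 2)) := mul_le_mul a1 a2 (by positivity) (by positivity)
        _ = _ := by ring
    calc ‖ψ z‖ * (1 + ‖z‖) ^ 3 ≤ ‖ψ z‖ * (4 * (‖z‖ * (C * ‖e1 z‖))) := by
          refine mul_le_mul_of_nonneg_left (h4.trans ?_) hp
          gcongr
      _ = 4 * C * (‖z‖ * ‖e1 z‖ * ‖ψ z‖) := by ring
      _ ≤ 4 * C * B := by gcongr

theorem realS (hA : BaseA) (hB : BaseB) (hD : DelStmt) (hH : HolStmt) (hG : GeoStmt)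
    (hJ : JStmt) (hS : HolSolStmt) (hC : CauchyStmt) (hP : CompStmt) : ShrinkStmt := by
  obtain ⟨C, hC1, hbd⟩ := hG.bd
  have hC0 : 0 < C := by linarith
  have hCi : 0 < C⁻¹ := inv_pos.2 hC0
  obtain ⟨-, -, -, -, ane1, anee, anmm, -, -, -⟩ := hG.an
  obtain ⟨n, a, κ, h, hn, hh, hρ, heq⟩ := hS (min (1 / 8) (C⁻¹ / 2)) (by positivity)
  have hn0 : (0 : ℝ) < n := by exact_mod_cast (by omega : 0 < n)
  have hn1 : (1 : ℝ) ≤ n := by exact_mod_cast (by omega : 1 ≤ n)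
  have hρ1 : ∀ z ∈ OmC, ‖h z - (1 - g0 z)‖ ≤ 1 / 8 := fun z hz => (hρ z hz).trans (min_le_left _ _)
  have hne : ∀ z ∈ OmC, 2 * (1 - h z) ≠ 0 := by
    intro z hz h0
    have h1 : h z = 1 := by linear_combination (-1 / 2 : ℂ) * h0
    have h2 := (hρ z hz).trans (min_le_right _ _)
    rw [h1, sub_sub_cancel] at h2
    have h3 := (hbd z hz).2.2.2.2.2.1
    linarith
  -- the holomorphic functions
  obtain ⟨G, hGdef⟩ : ∃ G : ℂ → ℂ, G = fun w => 3 / 2 + κ - 1 / (2 * (1 - h w)) := ⟨_, rfl⟩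
  rw [← hGdef] at heq
  have hGhol : Hol G := by
    have h1 := hH.hol_sub (hH.hol_const (3 / 2 + κ)) (hH.hol_div (hH.hol_const 1)
      (hH.hol_mul (hH.hol_const 2) (hH.hol_sub (hH.hol_const 1) hh))
      (fun z hz => by simpa using hne z hz))
    refine hH.hol_congr (fun z _ => ?_) h1
    simp [hGdef]
  have hQhol : Hol (JJ (n + 2) G) := hJ.hol hGhol
  have hPhol : Hol (JJ (n + 1) (JJ (n + 2) G)) := hJ.hol hQhol
  obtain ⟨χ, hχdef⟩ : ∃ χ : ℂ → ℂ, χ = fun w => (n : ℂ) ^ 2 * JJ (n + 1) (JJ (n + 2) G) w :=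
    ⟨_, rfl⟩
  have hχhol : Hol χ := by
    refine hH.hol_congr (fun z _ => ?_) (hH.hol_mul (hH.hol_const ((n : ℝ) ^ 2)) hPhol)
    simp [hχdef]
  have hJhol : Hol (JJ 1 χ) := hJ.hol hχhol
  obtain ⟨ψ, hψdef⟩ : ∃ ψ : ℂ → ℂ, ψ = fun z => (a : ℂ) + ee z * JJ 1 χ z := ⟨_, rfl⟩
  have hψhol : Hol ψ := by
    rw [hψdef]
    exact hH.hol_add (hH.hol_const a) (hH.hol_mul (hH.an_hol anee) hJhol)
  have hhψ : ∀ z ∈ OmC, h z = ee z * ψ z := by
    intro z hz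
    rw [heq z hz, KK, ← hχdef, hψdef]
    ring
  have hmem : ∀ r : ℝ, 0 ≤ r → (r : ℂ) ∈ OmC := fun r hr => hH.sub (hH.real_mem r hr)
  have hdiff : ∀ {f : ℂ → ℂ}, Hol f → ∀ r : ℝ, 0 ≤ r → HasDerivAt f (deriv f r) r :=
    fun hf r hr => (hf.1.differentiableAt (hH.open_O.mem_nhds (hH.real_mem r hr))).hasDerivAt
  have hreal : ∀ r : ℝ, 0 ≤ r → ∃ e m : ℝ, 0 < e ∧ 0 < m ∧ e1 r = e ∧ mm r = m := by
    intro r hr
    obtain ⟨e, he, he'⟩ := e1_real r hr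
    exact ⟨e, (mm r).re, he, hCi.trans_le (hbd r (hmem r hr)).2.2.2.2.1, he',
      eq_re (hH.hol_real (hH.an_hol anmm) r hr)⟩
  have hmmne : ∀ z ∈ OmC, e1 z * mm z ≠ 0 := by
    intro z hz
    obtain ⟨-, h1, -, -, h2, -⟩ := hbd z hz
    refine mul_ne_zero ?_ ?_
    · intro h0
      rw [h0, norm_zero] at h1
      have : 0 < C⁻¹ * (1 + ‖z‖ ^ 2) := by positivity
      linarith
    · intro h0
      rw [h0, Complex.zero_re] at h2
      linarith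
  have hbhol : Hol fun z => ((1 : ℝ) : ℂ) / (e1 z * mm z) :=
    hH.hol_div (hH.hol_const 1) (hH.hol_mul (hH.an_hol ane1) (hH.an_hol anmm)) hmmne
  have hbS := hC _ (-2) hbhol.1 ⟨2 * C ^ 2, fun z hz => by
    obtain ⟨-, h1, -, -, h2, -⟩ := hbd z (hH.sub hz)
    have h3 : C⁻¹ ≤ ‖mm z‖ := h2.trans (Complex.re_le_norm _)
    have ht : 0 ≤ ‖z‖ := norm_nonneg z
    have h4 : C⁻¹ * (1 + ‖z‖ ^ 2) * C⁻¹ ≤ ‖e1 z‖ * ‖mm z‖ :=
      mul_le_mul h1 h3 hCi.le (norm_nonneg _)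
    have h5 : 0 < C⁻¹ * (1 + ‖z‖ ^ 2) * C⁻¹ := by positivity
    rw [norm_div, norm_mul, Complex.ofReal_one, norm_one, zpow_neg, zpow_ofNat]
    refine (one_div_le_one_div_of_le h5 h4).trans ?_
    rw [← div_eq_mul_inv (2 * C ^ 2), div_le_div_iff₀ h5 (by positivity)]
    have h6 : 2 * C ^ 2 * (C⁻¹ * (1 + ‖z‖ ^ 2) * C⁻¹) = 2 * (1 + ‖z‖ ^ 2) := by field_simp
    rw [h6]
    nlinarith [sq_nonneg (‖z‖ - 1)]⟩
  have hψS := hC ψ (-3) hψhol.1 (psi_bd hH (B := 1 / 8 + (1 + C)) hC0 hψhol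
    (fun z hz => (hbd z hz).2.1) hhψ fun z hz => by
      have h1 := hρ1 z hz
      have h2 := (hbd z hz).2.2.2.2.2.2.1
      have h3 : ‖1 - g0 z‖ ≤ 1 + ‖g0 z‖ := by simpa using norm_sub_le 1 (g0 z)
      have h4 := norm_add_le (h z - (1 - g0 z)) (1 - g0 z)
      rw [sub_add_cancel] at h4
      linarith)
  have hE : ∀ r : ℝ, 0 ≤ r → (ee r).re = r * ‖e1 r‖ := by
    intro r hr
    obtain ⟨e, he, he'⟩ := e1_real r hr
    rw [ee, he', Complex.norm_real, Real.norm_eq_abs, abs_of_pos he]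
    simp
  obtain ⟨ζ, hζ, hζE, hsy⟩ := hP (fun r => (ee r).re)
    (fun r => (((1 : ℝ) : ℂ) / (e1 r * mm r)).re) (fun r => (ψ r).re) (by simp [ee])
    (fun r hr => ((hG.ee_deriv r (hmem r hr)).real_of_complex).continuousAt.continuousWithinAt)
    (fun r hr => by
      obtain ⟨e, m, he, hm, he', hm'⟩ := hreal r hr.le
      have h1 := (hG.ee_deriv r (hmem r hr.le)).real_of_complex
      rw [he', hm', ← Complex.ofReal_mul, Complex.ofReal_re] at h1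
      simp only [he', hm', ← Complex.ofReal_mul, ← Complex.ofReal_div, Complex.ofReal_re]
      exact ⟨by positivity, h1.congr_deriv (by simp)⟩)
    hbS hψS
    ⟨C, fun r hr => by
      have h1 := (hbd r (hmem r hr)).2.2.1
      rw [Complex.norm_real, Real.norm_eq_abs, abs_of_nonneg hr] at h1
      rw [hE r hr]
      calc r * ‖e1 r‖ ≤ r * (C * (1 + r ^ 2)) := by gcongr
        _ = C * (r * (1 + r ^ 2)) := by ring
        _ ≤ C * (1 + r) ^ 3 := by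
          refine mul_le_mul_of_nonneg_left ?_ hC0.le
          nlinarith [sq_nonneg r]⟩
    (by
      refine tendsto_atTop_mono' atTop ?_ (tendsto_id.const_mul_atTop hCi)
      filter_upwards [eventually_ge_atTop 0] with r hr
      have h1 := (hbd r (hmem r hr)).2.1
      have h2 : C⁻¹ ≤ C⁻¹ * (1 + ‖(r : ℂ)‖ ^ 2) := le_mul_of_one_le_right hCi.le (by
        linarith [sq_nonneg ‖(r : ℂ)‖])
      rw [hE r hr, id, mul_comm]
      exact mul_le_mul_of_nonneg_left (h2.trans h1) hr)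
  -- the Euler derivative in the real variable
  have hτ : (0 : ℝ) < (n : ℝ)⁻¹ := inv_pos.2 hn0
  have key : ∀ {f : ℂ → ℂ}, Hol f → ∀ y : ℝ, 0 < y →
      HasDerivAt (fun y : ℝ => (f (ζ ((n : ℝ)⁻¹ * y))).re)
        ((Dh f (ζ ((n : ℝ)⁻¹ * y))).re / y) y := by
    intro f hf y hy
    obtain ⟨h1, h2, h3⟩ := hζ _ (mul_pos hτ hy)
    have h4 := (hdiff hf _ h1.le).real_of_complex
    have h5 := h3.comp y ((hasDerivAt_id' y).const_mul (n : ℝ)⁻¹)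
    refine (h4.comp y h5).congr_deriv ?_
    obtain ⟨e, m, he, hm, he', hm'⟩ := hreal _ h1.le
    generalize ζ ((n : ℝ)⁻¹ * y) = r at h1 h2 he' hm' ⊢
    have h6 : y = n * (r * e) := by
      simp only [ee, he', ← Complex.ofReal_mul, Complex.ofReal_re] at h2
      rw [h2]
      field_simp
    have h7 : Dh f r = ((r / m : ℝ) : ℂ) * deriv f r := by
      rw [Dh, hm']
      push_cast
      ring
    rw [h7, Complex.re_ofReal_mul, he', hm', ← Complex.ofReal_mul, ← Complex.ofReal_div,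
      Complex.ofReal_re, h6]
    field_simp
  have hDψ : ∀ r : ℝ, 0 < r → Dh ψ r = ee r * χ r := by
    intro r hr
    have h1 := ((hG.ee_deriv r (hmem r hr.le)).fun_mul (hdiff hJhol r hr.le)).const_add (a : ℂ)
    have h2 := hJ.Dh_JJ le_rfl hχhol r hr
    have h3 : mm r ≠ 0 := right_ne_zero_of_mul (hmmne r (hmem r hr.le))
    rw [Dh] at h2
    rw [Dh, hψdef, h1.deriv]
    have h4 : χ r = r * deriv (JJ 1 χ) r / mm r + JJ 1 χ r := by
      rw [h2]; push_cast; ring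
    rw [h4, ee]
    field_simp
    ring
  have hee : ∀ y : ℝ, 0 < y → ee (ζ ((n : ℝ)⁻¹ * y)) = (((n : ℝ)⁻¹ * y : ℝ) : ℂ) := by
    intro y hy
    obtain ⟨h1, h2, -⟩ := hζ _ (mul_pos hτ hy)
    rw [← h2]
    simp only [h2]
    rw [eq_re (hH.hol_real (hH.an_hol anee) _ h1.le), h2]
  obtain ⟨Γ, hΓ⟩ : ∃ Γ : ℝ → ℝ, Γ = fun y => -(n : ℝ)⁻¹ * (ψ (ζ ((n : ℝ)⁻¹ * y))).re := ⟨_, rfl⟩
  have hg : ∀ y : ℝ, 0 < y → 1 + y * Γ y = 1 - (h (ζ ((n : ℝ)⁻¹ * y))).re := by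
    intro y hy
    obtain ⟨h1, -, -⟩ := hζ _ (mul_pos hτ hy)
    rw [hhψ _ (hmem _ h1.le), hee y hy, Complex.re_ofReal_mul, hΓ]
    ring
  have hre : ∀ r : ℝ, 0 ≤ r → |(h r).re - (1 - (g0 r).re)| ≤ 1 / 8 := by
    intro r hr
    have := (Complex.abs_re_le_norm _).trans (hρ1 r (hmem r hr))
    simpa using this
  have hpos : ∀ y : ℝ, 0 < y → 1 / 8 ≤ 1 + y * Γ y := by
    intro y hy
    obtain ⟨h1, -, -⟩ := hζ _ (mul_pos hτ hy)
    have h2 := (abs_le.1 (hre _ h1.le)).2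
    have h3 := hG.real_g0 (ζ ((n : ℝ)⁻¹ * y))
    rw [hg y hy]
    linarith
  refine ⟨n, hn, Γ, ?_, ⟨1 / 8, by norm_num, hpos⟩, ?_, ?_⟩
  · intro k
    obtain ⟨M, hM⟩ := sy_dil hA hD hτ (inv_le_one_of_one_le₀ hn1) hsy k
    rw [hΓ]
    exact ⟨_, hB.smul (-(n : ℝ)⁻¹) hM⟩
  · refine eqn_of n (3 / 2 + κ)
      (P := fun y => (JJ (n + 1) (JJ (n + 2) G) (ζ ((n : ℝ)⁻¹ * y))).re)
      (Q := fun y => (JJ (n + 2) G (ζ ((n : ℝ)⁻¹ * y))).re) (fun y hy => ?_) (fun y hy => ?_)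
      (fun y hy => ?_) fun y hy => by linarith [hpos y hy]
    · obtain ⟨h1, -, -⟩ := hζ _ (mul_pos hτ hy)
      rw [hΓ]
      refine ((key hψhol y hy).const_mul (-(n : ℝ)⁻¹)).congr_deriv ?_
      have h2 : χ (ζ ((n : ℝ)⁻¹ * y)) = (((n : ℝ) ^ 2 : ℝ) : ℂ) *
          JJ (n + 1) (JJ (n + 2) G) (ζ ((n : ℝ)⁻¹ * y)) := by
        rw [hχdef]; push_cast; ring
      rw [hDψ _ h1, hee y hy, h2, Complex.re_ofReal_mul, Complex.re_ofReal_mul]
      field_simp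
    · obtain ⟨h1, -, -⟩ := hζ _ (mul_pos hτ hy)
      refine (key hPhol y hy).congr_deriv ?_
      rw [hJ.Dh_JJ (by omega) hQhol _ h1]
      simp
    · obtain ⟨h1, -, -⟩ := hζ _ (mul_pos hτ hy)
      refine (key hQhol y hy).congr_deriv ?_
      have h2 : G (ζ ((n : ℝ)⁻¹ * y)) =
          ((3 / 2 + κ - 1 / (2 * (1 + y * Γ y)) : ℝ) : ℂ) := by
        rw [hg y hy, hGdef]
        simp only
        rw [eq_re (hH.hol_real hh _ h1.le)]
        push_cast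
        simp
      rw [hJ.Dh_JJ (by omega) hGhol _ h1, h2, Complex.sub_re, Complex.ofReal_re]
      simp
  · obtain ⟨h1, h2⟩ := hζE 1 one_pos
    refine ⟨n * (ee (1 : ℝ)).re, mul_pos hn0 h1, fun h0 => ?_⟩
    have h3 := hg _ (mul_pos hn0 h1)
    rw [h0, ← mul_assoc, inv_mul_cancel₀ hn0.ne', one_mul, h2] at h3
    have h4 := (abs_le.1 (hre 1 zero_le_one)).1
    have h5 := hG.real_g0'
    rw [Complex.ofReal_one] at h3 h4
    linarith

end Vale.Agent.P264
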