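import Vale.Agent.P264.StmG

/-! The Volterra equation. -/

namespace Vale.Agent.P264

open Set MeasureTheory Filter Topology

namespace Vol

theorem quasi {s A : ℝ} (h0 : 0 ≤ s) (h : s ≤ A) {j : ℕ} (hj : j ≤ 2) :
    Real.exp (s / 2) / (1 + s) ^ j ≤ 16 * Real.exp (A / 2) / (1 + A) ^ j := by
  have h1 : 1 + A ≤ 4 * Real.exp ((A - s) / 4) * (1 + s) := by
    nlinarith [mul_le_mul_of_nonneg_right (Real.add_one_le_exp ((A - s) / 4))
      (show 0 ≤ 1 + s by linarith), mul_nonneg h0 (sub_nonneg.2 h)]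
  have h2 : (4 * Real.exp ((A - s) / 4)) ^ j ≤ (4 * Real.exp ((A - s) / 4)) ^ 2 :=
    pow_le_pow_right₀ (by linarith [Real.add_one_le_exp ((A - s) / 4)]) hj
  have h3 : Real.exp (A / 2) = Real.exp (s / 2) * Real.exp ((A - s) / 4) ^ 2 := by
    rw [← Real.exp_nat_mul, ← Real.exp_add]
    congr 1
    ring
  rw [div_le_div_iff₀ (by positivity) (pow_pos (by linarith) _)]
  calc _ ≤ Real.exp (s / 2) * ((4 * Real.exp ((A - s) / 4)) ^ 2 * (1 + s) ^ j) := by
        refine mul_le_mul_of_nonneg_left ((pow_le_pow_left₀ (by linarith) h1 j).trans ?_)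
          (by positivity)
        rw [mul_pow _ (1 + s)]
        exact mul_le_mul_of_nonneg_right h2 (by positivity)
    _ = _ := by rw [h3]; ring

theorem step (hH : HolStmt) (hJ : JStmt) {k : ℕ} (hk : 1 ≤ k) : ∃ C : ℝ, 0 ≤ C ∧
    ∀ (K B : ℝ) (j : ℕ) (f : ℂ → ℂ), 0 ≤ K → 0 ≤ B → j ≤ 2 →
      (∀ w ∈ OmC, ‖f w‖ ≤ B * (Real.exp (K * ‖w‖ ^ 2) / (1 + K * ‖w‖ ^ 2) ^ j)) → ∀ z ∈ OmC,
        ‖JJ k f z‖ ≤ C * B * (Real.exp (K * ‖z‖ ^ 2) / (1 + K * ‖z‖ ^ 2) ^ (j + 1)) := by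
  obtain ⟨C, C0, hC⟩ := hJ.bd2 k hk
  refine ⟨32 * Real.exp (1 / 2) * C, by positivity, fun K B j f K0 B0 hj hf z hz => ?_⟩
  obtain ⟨A, hA⟩ : ∃ A, A = K * ‖z‖ ^ 2 := ⟨_, rfl⟩
  have A0 : 0 ≤ A := by rw [hA]; positivity
  rw [← hA]
  refine (hC f (B * (16 * Real.exp (A / 2) / (1 + A) ^ j)) ((1 + A) / 2) (by positivity) z hz
    fun t ht => (hf _ (hH.star_C z hz t ht)).trans ?_).trans ?_
  · have e : K * ‖(t : ℂ) * z‖ ^ 2 = A * t ^ 2 := by
      rw [norm_mul, Complex.norm_real, Real.norm_of_nonneg ht.1, hA]; ring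
    have t1 : t ^ 2 ≤ 1 := pow_le_one₀ ht.1 ht.2
    have t0 : 0 ≤ t ^ 2 := sq_nonneg t
    rw [e, mul_assoc]
    refine mul_le_mul_of_nonneg_left (le_trans ?_ (mul_le_mul_of_nonneg_right
      (quasi (s := A * t ^ 2) (by positivity) (mul_le_of_le_one_right A0 t1) hj)
      (Real.exp_pos _).le)) B0
    rw [div_mul_eq_mul_div, ← Real.exp_add]
    gcongr
    linarith
  · refine (mul_le_mul_of_nonneg_left (min_le_right _ _) (by positivity)).trans (le_of_eq ?_)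
    have e : Real.exp A = Real.exp (A / 2) * Real.exp (A / 2) := by
      rw [← Real.exp_add, add_halves]
    rw [add_div, Real.exp_add, e]
    field_simp
    ring

theorem ee_le {C : ℝ} {z : ℂ} (h : ‖e1 z‖ ≤ C * (1 + ‖z‖ ^ 2)) :
    ‖ee z‖ ≤ C * (‖z‖ * (1 + ‖z‖ ^ 2)) := by
  rw [ee, norm_mul, mul_left_comm]
  exact mul_le_mul_of_nonneg_left h (norm_nonneg _)

theorem kk_bd (hH : HolStmt) (hG : GeoStmt) (hJ : JStmt) (n : ℕ) : ∃ D : ℝ, 0 ≤ D ∧
    ∀ (K B : ℝ) (f : ℂ → ℂ), 1 ≤ K → 0 ≤ B →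
      (∀ w ∈ OmC, ‖f w‖ ≤ B * Real.exp (K * ‖w‖ ^ 2)) → ∀ z ∈ OmC,
        ‖KK n f z‖ ≤ D / K * B * Real.exp (K * ‖z‖ ^ 2) := by
  obtain ⟨C, C1, hC⟩ := hG.bd
  obtain ⟨a, a0, ha⟩ := step hH hJ (k := n + 2) (by omega)
  obtain ⟨b, b0, hb⟩ := step hH hJ (k := n + 1) (by omega)
  obtain ⟨c, c0, hc⟩ := step hH hJ le_rfl
  refine ⟨C ^ 2 * c * n ^ 2 * b * a, by positivity, fun K B f K1 B0 hf z hz => ?_⟩
  have K0 : 0 < K := by linarith
  have h1 := ha K B 0 f K0.le B0 (by omega) (by simpa using hf)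
  have h2 := hb K _ 1 _ K0.le (by positivity) (by omega) h1
  have h3 := hc K (n ^ 2 * (b * (a * B))) 2 (fun w => (n : ℂ) ^ 2 * JJ (n + 1) (JJ (n + 2) f) w)
    K0.le (by positivity) le_rfl (fun w hw => by
      rw [norm_mul, norm_pow, Complex.norm_natCast, mul_assoc]
      exact mul_le_mul_of_nonneg_left (h2 w hw) (by positivity)) z hz
  have h4 := pow_le_pow_left₀ (norm_nonneg _) (ee_le (hC z hz).2.2.1) 2
  rw [mul_pow, mul_pow] at h4
  rw [KK, norm_mul, norm_pow]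
  refine (mul_le_mul h4 h3 (norm_nonneg _) (by positivity)).trans ?_
  have x0 := sq_nonneg ‖z‖
  generalize ‖z‖ ^ 2 = x at *
  have h5 : x * (1 + x) ^ 2 / (1 + K * x) ^ 3 ≤ 1 / K := by
    rw [div_le_div_iff₀ (by positivity) K0, one_mul, pow_succ' _ 2, mul_right_comm]
    gcongr
    · linarith
    · exact le_mul_of_one_le_left x0 K1
  refine le_trans (le_of_eq ?_) ((mul_le_mul_of_nonneg_left h5 (show 0 ≤
    C ^ 2 * c * n ^ 2 * b * a * B * Real.exp (K * x) by positivity)).trans (le_of_eq ?_)) <;> ring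

theorem hol_HH (hH : HolStmt) (hG : GeoStmt) (κ : ℝ) {F u : ℂ → ℂ} (hF : Hol F) (hu : Hol u) :
    Hol (HH κ F u) :=
  hH.hol_congr (fun w _ => by unfold HH; ring) (hH.hol_add (hH.hol_sub (hH.hol_const κ)
    (hH.hol_mul (hH.an_hol hG.an.2.2.2.2.2.2.2.2.1) hu)) hF)

end Vol

open Vol in
theorem vol (hH : HolStmt) (hG : GeoStmt) (hJ : JStmt) : VolStmt := by
  rintro n a κ F hF ⟨B, hB⟩
  obtain ⟨C, C1, hC⟩ := hG.bd
  obtain ⟨D, D0, hD⟩ := kk_bd hH hG hJ n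
  obtain ⟨K, K2, KD⟩ : ∃ K : ℝ, 2 ≤ K ∧ D * C ^ 2 ≤ K := ⟨_, le_max_left _ _, le_max_right _ _⟩
  have B0 : 0 ≤ B := (norm_nonneg _).trans (hB _ (hH.ray_mem 0))
  have hA : ∀ w ∈ OmC, ‖AA w‖ ≤ C ^ 2 / 2 := fun w hw => by
    have h := (inv_le_comm₀ (by linarith) (lt_of_lt_of_le (by positivity)
      (hC w hw).2.2.2.2.2.1)).1 (hC w hw).2.2.2.2.2.1
    rw [AA, norm_div, norm_mul, norm_pow, norm_one, Complex.norm_two, one_div, mul_inv, ← inv_pow,
      mul_comm, ← div_eq_mul_inv]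
    gcongr
  have contr : ∀ (u v : ℂ → ℂ) (E : ℝ), Hol u → Hol v → 0 ≤ E →
      (∀ w ∈ OmC, ‖u w - v w‖ ≤ E * Real.exp (K * ‖w‖ ^ 2)) → ∀ z ∈ OmC,
        ‖a * ee z + KK n (HH κ F u) z - (a * ee z + KK n (HH κ F v) z)‖ ≤
          E / 2 * Real.exp (K * ‖z‖ ^ 2) := fun u v E hu hv E0 h z hz => by
    have h1 := hD K (C ^ 2 / 2 * E) (fun w => 1 * HH κ F u w + -1 * HH κ F v w) (by linarith)
      (by positivity) (fun w hw => by
        rw [show 1 * HH κ F u w + -1 * HH κ F v w = -(AA w * (u w - v w)) by unfold HH; ring,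
          norm_neg, norm_mul, mul_assoc]
        exact mul_le_mul (hA w hw) (h w hw) (norm_nonneg _) (by positivity)) z hz
    rw [hJ.KK_lin n 1 (-1) (hol_HH hH hG κ hF hu).2.1 (hol_HH hH hG κ hF hv).2.1 hz, one_mul,
      neg_one_mul, ← sub_eq_add_neg] at h1
    rw [add_sub_add_left_eq_sub]
    refine h1.trans (mul_le_mul_of_nonneg_right ?_ (Real.exp_pos _).le)
    rw [div_mul_eq_mul_div, div_le_iff₀ (by linarith)]
    nlinarith
  obtain ⟨u, u0, uS⟩ : ∃ u : ℕ → ℂ → ℂ, u 0 = (fun _ => ((0 : ℝ) : ℂ)) ∧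
      ∀ j, u (j + 1) = fun z => a * ee z + KK n (HH κ F (u j)) z :=
    ⟨fun j => (fun v z => a * ee z + KK n (HH κ F v) z)^[j] _, rfl,
      fun j => Function.iterate_succ_apply' _ _ _⟩
  have hu : ∀ j, Hol (u j) := fun j => by
    induction j with
    | zero => exact u0 ▸ hH.hol_const 0
    | succ j ih =>
      exact uS j ▸ hH.hol_add (hH.hol_mul (hH.hol_const a) (hH.an_hol hG.an.2.2.2.2.2.1))
        (hJ.KK_hol n (hol_HH hH hG κ hF ih))
  obtain ⟨E, hE⟩ : ∃ E, E = |a| * C + D / K * (|κ| + B) := ⟨_, rfl⟩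
  have E0 : 0 ≤ E := by rw [hE]; positivity
  have hd : ∀ j, ∀ z ∈ OmC, ‖u (j + 1) z - u j z‖ ≤ E / 2 ^ j * Real.exp (K * ‖z‖ ^ 2) :=
    fun j => by
    induction j with
    | zero =>
      intro z hz
      have h1 := hD K (|κ| + B) (HH κ F (u 0)) (by linarith) (by positivity) (fun w hw => by
        rw [u0, HH]
        simp only [Complex.ofReal_zero, mul_zero, neg_zero, zero_add]
        refine ((norm_add_le _ _).trans (add_le_add (Complex.norm_real κ).le (hB w hw))).trans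
          (le_mul_of_one_le_right (by positivity) (Real.one_le_exp (by positivity)))) z hz
      have h2 : ‖z‖ * (1 + ‖z‖ ^ 2) ≤ Real.exp (K * ‖z‖ ^ 2) := by
        have h3 := Real.add_one_le_exp (‖z‖ ^ 2)
        refine le_trans ?_ (Real.exp_le_exp.2 (mul_le_mul_of_nonneg_right K2 (sq_nonneg _)))
        rw [two_mul, Real.exp_add]
        exact mul_le_mul (by nlinarith [sq_nonneg (‖z‖ - 1)]) (by linarith) (by positivity)
          (by positivity)
      rw [uS, pow_zero, div_one, hE, add_mul, show u 0 z = 0 by rw [u0]; rfl, sub_zero]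
      refine (norm_add_le _ _).trans (add_le_add ?_ h1)
      rw [norm_mul, Complex.norm_real, mul_assoc]
      exact mul_le_mul_of_nonneg_left ((ee_le (hC z hz).2.2.1).trans
        (mul_le_mul_of_nonneg_left h2 (by linarith))) (abs_nonneg a)
    | succ j ih =>
      intro z hz
      have := contr _ _ _ (hu _) (hu _) (by positivity) ih z hz
      rw [div_div, ← pow_succ] at this
      rw [uS (j + 1)]
      conv_lhs => rw [congrFun (uS j) z]
      exact this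
  have hd' : ∀ z ∈ OmC, ∀ j, dist (u j z) (u (j + 1) z) ≤
      2 * E * Real.exp (K * ‖z‖ ^ 2) / 2 / 2 ^ j := fun z hz j => by
    rw [dist_comm, dist_eq_norm]
    exact (hd j z hz).trans (le_of_eq (by ring))
  obtain ⟨v, hv⟩ : ∃ v : ℂ → ℂ, ∀ z ∈ OmC, Tendsto (fun j => u j z) atTop (𝓝 (v z)) :=
    ⟨fun z => limUnder atTop fun j => u j z, fun z hz =>
      (cauchySeq_of_le_geometric_two (hd' z hz)).tendsto_limUnder⟩
  have he : ∀ j, ∀ z ∈ OmC, ‖u j z - v z‖ ≤ 2 * E / 2 ^ j * Real.exp (K * ‖z‖ ^ 2) :=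
    fun j z hz => by
    rw [← dist_eq_norm]
    exact (dist_le_of_le_geometric_two_of_tendsto (hd' z hz) (hv z hz) j).trans
      (le_of_eq (by ring))
  have lim : ∀ c : ℝ, Tendsto (fun j : ℕ => 2 * E / 2 ^ j * c) atTop (𝓝 0) := fun c => by
    simpa using (tendsto_const_nhds.div_atTop
      (tendsto_pow_atTop_atTop_of_one_lt (one_lt_two (α := ℝ)))).mul_const c
  have hol : Hol v := hH.hol_lim hu fun R => Metric.tendstoUniformlyOn_iff.2 fun ε hε => by
    filter_upwards [(lim (Real.exp (K * R ^ 2))).eventually (gt_mem_nhds hε)] with j hj z hz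
    rw [dist_comm, dist_eq_norm]
    refine ((he j z hz.1).trans ?_).trans_lt hj
    have := mem_closedBall_zero_iff.1 hz.2
    gcongr
  refine ⟨v, hol, fun z hz => tendsto_nhds_unique ((hv z hz).comp (tendsto_add_atTop_nat 1))
    (tendsto_iff_norm_sub_tendsto_zero.2 (squeeze_zero (fun _ => norm_nonneg _) (fun j => ?_)
      (lim (Real.exp (K * ‖z‖ ^ 2) / 2)))), K, 2 * E, fun z hz => ?_⟩
  · rw [Function.comp_apply, uS]
    exact (contr _ _ _ (hu j) hol (by positivity) (he j) z hz).trans (le_of_eq (by ring))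
  · simpa [u0] using he 0 z hz

end Vale.Agent.P264
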