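import Vale.Agent.P264.AllS
import Vale.Agent.P264.Hol
import Vale.Agent.P264.Geo
import Vale.Agent.P264.Jop
import Vale.Agent.P264.Vol
import Vale.Agent.P264.LimSol
import Vale.Agent.P264.Near
import Vale.Agent.P264.Far
import Vale.Agent.P264.Ray
import Vale.Agent.P264.Lin
import Vale.Agent.P264.F0
import Vale.Agent.P264.Fix
import Vale.Agent.P264.Comp
import Vale.Agent.P264.Real

/-!
Assembly of part G: the shrinker exists.
-/

namespace Vale.Agent.P264

theorem shrinkAll : ShrinkStmt :=
  have hH := holS
  have hG := geo hH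
  have hJ := jop hH hG
  have hL := limSol hH hG hJ
  have hN := near hH hG hJ hL
  have hLin := lin hH hG hJ (vol hH hG hJ) hN root (rayS hH hG hJ hL hN (far root))
  realS baseA sB sD hH hG hJ (fixS hH hG hJ hLin (f0 hH hG hJ)) (cauchy hH) (comp baseA)

end Vale.Agent.P264
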