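import Vale.Agent.P264.StmB

/-! Ancient solutions of the flat linear equation. -/

namespace Vale.Agent.P264

open scoped ContDiff Topology
open Set MeasureTheory Filter

namespace AncAux

theorem lam_pos (σ : ℝ) : 0 < lam σ := Real.exp_pos _

theorem lam_add (s t : ℝ) : lam (s + t) = lam s * lam t := by
  unfold lam
  rw [← Real.exp_add]
  congr 1
  ring

theorem lam_zero : lam 0 = 1 := by simp [lam]

theorem par_zero (σ : ℝ) : Par (lam σ) 0 := ⟨lam_pos σ, le_rfl, by simp⟩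

theorem mem_dom {y : ℝ} : y ∈ dom 0 ↔ 0 < y := by simp [dom]

theorem intQ_congr (hA : BaseA) {n h : ℕ} {l ε : ℝ} {r : ℤ} {f g : ℝ → ℝ} (he : EqOn f g (dom ε))
    (hf : IntQ n l ε h r f) : IntQ n l ε h r g := fun i hi =>
  (hf i hi).congr_fun (fun x hx => by simp only [hA.iter_congr i he hx])
    (hA.dom_open ε).measurableSet

theorem intQ_lin (hA : BaseA) {n h : ℕ} {l ε : ℝ} {r : ℤ} {f g : ℝ → ℝ} (c d : ℝ) (hl : 0 < l)
    (hf : ContDiffOn ℝ ∞ f (dom ε)) (hg : ContDiffOn ℝ ∞ g (dom ε)) (hf' : IntQ n l ε h r f)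
    (hg' : IntQ n l ε h r g) : IntQ n l ε h r fun x => c * f x + d * g x := by
  intro i hi
  have hms := (hA.dom_open ε).measurableSet
  have hs : ContDiffOn ℝ ∞ (fun x => c * f x + d * g x) (dom ε) :=
    (contDiffOn_const.mul hf).add (contDiffOn_const.mul hg)
  refine Integrable.mono' (((hf' i hi).const_mul (2 * c ^ 2)).add ((hg' i hi).const_mul (2 * d ^ 2)))
    ((((hA.iter_cont i hs).continuousOn.pow 2).mul
      (hA.wt_cont n ε i _ r hl).continuousOn).aestronglyMeasurable hms)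
    ((ae_restrict_iff' hms).2 (Eventually.of_forall fun x hx => ?_))
  have hw := hA.wt_nonneg n (lam := l) i (i + 2) r hx
  rw [Real.norm_of_nonneg (mul_nonneg (sq_nonneg _) hw), hA.iter_lin c d i hf hg hx]
  have := mul_nonneg (sq_nonneg (c * iteratedDeriv i f x - d * iteratedDeriv i g x)) hw
  simp only [Pi.add_apply]
  nlinarith

theorem lin (hA : BaseA) (hB : BaseB) (hP : PSolStmt) {n : ℕ} {Γ : ℝ → ℝ} {δ : ℝ}
    {X Y : ℝ → ℝ → ℝ} (c d : ℝ) (hX : Anc n Γ δ X) (hY : Anc n Γ δ Y) :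
    Anc n Γ δ fun σ y => c * X σ y + d * Y σ y where
  sol a ha := hP.lin c d (hX.sol a ha) (hY.sol a ha)
  sy h := by
    obtain ⟨M, hM⟩ := hX.sy h
    obtain ⟨M', hM'⟩ := hY.sy h
    exact ⟨_, fun s hs => hB.add (hB.smul c (hM s hs)) (hB.smul d (hM' s hs))⟩
  int σ hσ k := by
    obtain ⟨M, hM⟩ := hX.sy 0
    obtain ⟨M', hM'⟩ := hY.sy 0
    exact intQ_lin hA c d (lam_pos σ) (hM σ hσ).1 (hM' σ hσ).1 (hX.int σ hσ k) (hY.int σ hσ k)
  zero σ y h := by simp only [hX.zero σ y h, hY.zero σ y h, mul_zero, add_zero]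

theorem shA_eq (τ : ℝ) (Z : ℝ → ℝ → ℝ) {σ : ℝ} (hσ : σ ≤ 0) :
    EqOn (fun y => Z (-τ + σ) (lam (-τ) * y)) (shA τ Z σ) (dom 0) := fun _ hy =>
  (if_pos ⟨hσ, mem_dom.1 hy⟩).symm

theorem shift' (hA : BaseA) (hB : BaseB) (hDil : DilStmt) (hP : PSolStmt) {n : ℕ} {Γ : ℝ → ℝ}
    {δ : ℝ} {Z : ℝ → ℝ → ℝ} (τ : ℝ) (hC : Coef n Γ) (h1 : ∀ a, a ≤ -τ → PSol n Γ δ 0 0 a (-τ) Z)
    (h2 : SyU (Iic (-τ)) lam 0 0 Z) (h3 : ∀ σ, σ ≤ -τ → ∀ k, IntQ n (lam σ) 0 k 0 (Z σ)) :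
    Anc n Γ δ (shA τ Z) where
  sol a ha := by
    have h := hP.shift (-τ) hC (h1 (a + -τ) (by linarith))
    rw [mul_zero, zero_mul, add_sub_cancel_right, sub_self] at h
    exact hP.congr (fun σ hσ => shA_eq τ Z hσ.2) h
  sy h := by
    obtain ⟨M, hM⟩ := h2 h
    refine ⟨M, fun σ hσ => ?_⟩
    have h4 := hM (-τ + σ) (show -τ + σ ≤ -τ by linarith [mem_Iic.1 hσ])
    rw [lam_add] at h4
    have h5 := hDil.Sy_dil (lam_pos _) (lam_pos _) h4
    rw [mul_zero, zpow_zero, mul_one] at h5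
    exact hB.congr (shA_eq τ Z hσ) h5
  int σ hσ k := by
    have h4 := h3 (-τ + σ) (by linarith) k
    rw [lam_add] at h4
    have h5 := hDil.IntQ_dil n 0 k 0 _ (lam_pos _) (lam_pos _) h4
    rw [mul_zero] at h5
    exact intQ_congr hA (shA_eq τ Z hσ) h5
  zero σ y h := if_neg h

theorem eq_zero_of_QQ (hA : BaseA) {n h : ℕ} {l ε : ℝ} {r : ℤ} {f : ℝ → ℝ} (hp : Par l ε)
    (hf : Adm l ε r f) (hQ : QQ n l ε h r f ≤ 0) : ∀ y ∈ dom ε, f y = 0 := by
  have hms := (hA.dom_open ε).measurableSet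
  have hT : TT n l ε 0 ((0 : ℕ) + 2) r f = 0 :=
    le_antisymm ((hA.TT_le_QQ n l ε r f (Nat.zero_le h)).trans hQ) (hA.TT_nonneg _ _ _ _ _ _ _)
  have h1 := (setIntegral_eq_zero_iff_of_nonneg_ae
    ((ae_restrict_iff' hms).2 (Eventually.of_forall fun x hx =>
      mul_nonneg (sq_nonneg _) (hA.wt_nonneg n 0 _ r hx))) (hA.intT n 0 _ hp hf)).1 hT
  have h2 := Measure.eqOn_open_of_ae_eq h1 (hA.dom_open ε)
    (((hA.iter_cont 0 hf.1).continuousOn.pow 2).mul (hA.wt_cont n ε 0 _ r hp.1).continuousOn)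
    continuousOn_const
  intro y hy
  have hv := hA.vp_pos y hp.1
  have hw : 0 < wt n l ε 0 ((0 : ℕ) + 2) r y :=
    mul_pos (zpow_pos hv _) (mul_pos (pow_pos (div_pos hy.1 hv) _) (pow_pos (sub_pos.2 hy.2) _))
  have h3 : f y ^ 2 * wt n l ε 0 ((0 : ℕ) + 2) r y = 0 := h2 hy
  exact pow_eq_zero_iff two_ne_zero |>.1 ((mul_eq_zero.1 h3).resolve_right hw.ne')

theorem eq_zero_of_EE (hA : BaseA) (hB : BaseB) {n k : ℕ} {Γ : ℝ → ℝ} (hC : Coef n Γ) {σ : ℝ}
    {f : ℝ → ℝ} (hf : SyA (lam σ) 0 0 f) (hE : EE n (lam σ) 0 k (-1) (GG Γ 0 σ) f ≤ 0) :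
    ∀ y, 0 < y → f y = 0 := by
  obtain ⟨M, hM1, hM⟩ := hC.sy 0
  obtain ⟨c, hc, hlow⟩ := hC.low
  have hG := (hM 0 σ (par_zero σ)).2.2.1
  have hadm : Adm (lam σ) 0 (-1) f := hB.adm_of_syA (-1) (lam_pos σ) (Or.inr (by norm_num)) hf
  have hci : 0 < c⁻¹ := inv_pos.2 hc
  have hM0 : 0 < M + c⁻¹ := by linarith
  have h1 := (hA.EE_QQ n k (-1) (par_zero σ) hM0 hadm hG.1.continuousOn fun x hx => ⟨?_, ?_⟩).1
  · intro y hy
    exact eq_zero_of_QQ hA (par_zero σ) hadm (h1.trans (mul_nonpos_of_nonneg_of_nonpos hM0.le hE))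
      y (mem_dom.2 hy)
  · refine le_trans ?_ (hlow 0 σ le_rfl x hx).2
    calc (M + c⁻¹)⁻¹ ≤ c⁻¹⁻¹ := inv_anti₀ hci (by linarith)
      _ = c := inv_inv c
  · have h2 := hG.2 0 le_rfl x hx
    simp only [iteratedDeriv_zero, Nat.cast_zero, sub_zero, zpow_zero, mul_one] at h2
    linarith [le_abs_self (GG Γ 0 σ x)]

end AncAux

open _root_.Vale.Agent.P264.AncAux in
theorem anc (hA : BaseA) (hB : BaseB) (hD : DelStmt) (hDil : DilStmt) (hP : PSolStmt)
    (hE : EnStmt) (hF : DecFStmt) : AncStmt where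
  zero n Γ δ :=
    { sol := fun a _ => hP.zero n Γ δ a 0
      sy := fun h => ⟨_, fun s _ => hB.const 0 h 0 (lam_pos s)⟩
      int := fun σ _ k i _ => by simp
      zero := fun _ _ _ => rfl }
  add {n Γ δ X Y} hX hY := by
    have h := lin hA hB hP 1 1 hX hY
    simp only [one_mul] at h
    exact h
  smul {n Γ δ X} c hX := by
    have h := lin hA hB hP c 0 hX hX
    simp only [zero_mul, add_zero] at h
    exact h
  expo {n Γ δ δ' X} hδ hX :=
    { sol := fun a ha => hP.expo δ' (hX.sol a ha)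
      sy := fun h => by
        obtain ⟨M, hM⟩ := hX.sy h
        refine ⟨|M|, fun s hs => hB.mono (lam_pos s) le_rfl ?_ (hB.smul _ (hM s hs))⟩
        have h1 : Real.exp ((δ - δ') * s) ≤ 1 :=
          Real.exp_le_one_iff.2 (mul_nonpos_of_nonneg_of_nonpos (sub_nonneg.2 hδ) hs)
        rw [abs_of_pos (Real.exp_pos _)]
        calc Real.exp ((δ - δ') * s) * M ≤ Real.exp ((δ - δ') * s) * |M| :=
              mul_le_mul_of_nonneg_left (le_abs_self M) (Real.exp_pos _).le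
          _ ≤ 1 * |M| := mul_le_mul_of_nonneg_right h1 (abs_nonneg M)
          _ = |M| := one_mul _
      int := fun σ hσ k => by
        have h := (lin hA hB hP (Real.exp ((δ - δ') * σ)) 0 hX hX).int σ hσ k
        simp only [zero_mul, add_zero] at h
        exact h
      zero := fun σ y h => by simp only [hX.zero σ y h, mul_zero] }
  shift' {n Γ δ Z} b hC h1 h2 h3 :=
    shift' hA hB hDil hP (-b) hC (by rwa [neg_neg]) (by rwa [neg_neg]) (by rwa [neg_neg])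
  shift {n Γ δ τ Z} hC hτ hZ :=
    shift' hA hB hDil hP τ hC
      (fun a ha => hP.mono le_rfl (by linarith) (hZ.sol a (by linarith)))
      (fun h => (hZ.sy h).imp fun M hM s hs => hM s (show s ≤ 0 by linarith [mem_Iic.1 hs]))
      fun σ hσ k => hZ.int σ (by linarith) k
  shA_shA {τ₁} τ₂ Z hτ := by
    funext σ y
    unfold shA
    by_cases h : σ ≤ 0 ∧ 0 < y
    · rw [if_pos h, if_pos h, if_pos ⟨by linarith [h.1], mul_pos (lam_pos _) h.2⟩, ← mul_assoc,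
        ← lam_add]
      congr 1
      · ring
      · congr 2
        ring
    · rw [if_neg h, if_neg h]
  shA_zero {n Γ δ Z} hZ := by
    funext σ y
    unfold shA
    split_ifs with h
    · rw [neg_zero, zero_add, lam_zero, one_mul]
    · exact (hZ.zero σ y h).symm
  en_shift {n Γ} k τ Z hC := by
    have h1 := hDil.EE_dil n 0 k (-1) (GG Γ 0 (-τ)) (Z (-τ)) (lam_pos (-τ)) (lam_pos 0)
    rw [mul_zero, ← lam_add, add_zero, neg_neg, zpow_one] at h1
    unfold En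
    rw [← h1]
    refine hA.EE_congr n _ k _ (fun y hy => ?_) fun y _ => ?_
    · rw [← shA_eq τ Z le_rfl hy, add_zero]
    · have h2 := (hC.shift 0 (-τ) 0 y).2.2.1
      rwa [mul_zero, add_zero] at h2
  uniq {n Γ δ a b X} hn hC hδ hX h0 σ hσ := by
    obtain ⟨R, C, -, -, hdec⟩ := hF n (n + 5) Γ δ hn le_rfl hC hδ
    have h1 := (hdec a b X hX a σ le_rfl hσ.1 hσ.2).1
    have h2 : En n Γ 0 (n + 5) (-1) X a = 0 := by
      unfold En
      rw [hA.EE_congr n _ (n + 5) _ (g := fun _ => 0) (fun y hy => h0 y (mem_dom.1 hy))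
        (Set.eqOn_refl _ _)]
      simp [EE]
    rw [h2, mul_zero, mul_zero] at h1
    exact eq_zero_of_EE hA hB hC (fun h => (hX.sy h).imp fun M hM => hM σ hσ)
      (nonpos_of_mul_nonpos_right h1 (lam_pos σ))
  en_zero {n Γ δ Z} k hC hZ σ hσ h0 y := by
    by_cases hy : 0 < y
    · exact eq_zero_of_EE hA hB hC (fun h => (hZ.sy h).imp fun M hM => hM σ hσ) h0.le y hy
    · exact hZ.zero σ y fun h => hy h.2

end Vale.Agent.P264
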