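import Vale.Agent.P264.StmB

/-! P264: the coefficients of the approximate solution. -/

namespace Vale.Agent.P264

open scoped ContDiff Topology
open Set MeasureTheory Filter

namespace CoefAux

theorem lam_pos (σ : ℝ) : 0 < lam σ := Real.exp_pos _

theorem lam_add (s t : ℝ) : lam (s + t) = lam s * lam t := by
  rw [lam, lam, lam, ← Real.exp_add]; congr 1; ring

theorem lam_deriv (σ : ℝ) : HasDerivAt lam (-(lam σ) / 2) σ :=
  (((hasDerivAt_id σ).neg.div_const 2).exp).congr_deriv (by simp [lam]; ring)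

theorem lam_smooth : ContDiff ℝ ∞ lam := by
  unfold lam; fun_prop

theorem ze_smooth : ContDiff ℝ ∞ ze :=
  Real.smoothTransition.contDiff.comp (by fun_prop)

theorem ze_one {u : ℝ} (h : u ≤ 1 / 4) : ze u = 1 :=
  Real.smoothTransition.one_of_one_le (by linarith)

theorem ze_zero {u : ℝ} (h : 1 / 2 ≤ u) : ze u = 0 :=
  Real.smoothTransition.zero_of_nonpos (by linarith)

theorem zt_zero {u : ℝ} (h : 1 / 2 ≤ u) : zt u = 0 := by rw [zt, ze_zero h, zero_div]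

theorem zt_smooth : ContDiff ℝ ∞ zt := by
  refine contDiff_iff_contDiffAt.2 fun u => ?_
  by_cases h : u < 1
  · exact ze_smooth.contDiffAt.div (by fun_prop) (pow_ne_zero _ (by linarith))
  · refine (contDiffAt_const (c := (0 : ℝ))).congr_of_eventuallyEq ?_
    filter_upwards [Ici_mem_nhds (show (1 : ℝ) / 2 < u by linarith)] with v hv
    exact zt_zero hv

theorem zt0 : zt 0 = 1 := by rw [zt, ze_one (by norm_num)]; norm_num

theorem dom_sub (ε : ℝ) : dom ε ⊆ dom 0 := fun _ hx => ⟨hx.1, by simp⟩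

/-- symbols uniformly in the parameters -/
def US (q : ℤ) (f : ℝ → ℝ → ℝ → ℝ) : Prop :=
  ∀ h : ℕ, ∃ M, 0 ≤ M ∧ ∀ ε σ, Par (lam σ) ε → Sy (lam σ) ε h q M (f ε σ)

section US
variable (hB : BaseB) {q q' : ℤ} {f g : ℝ → ℝ → ℝ → ℝ}
include hB

theorem US.add (h1 : US q f) (h2 : US q g) : US q fun ε σ x => f ε σ x + g ε σ x := fun h => by
  obtain ⟨M, m0, H⟩ := h1 h
  obtain ⟨M', m1, H'⟩ := h2 h
  exact ⟨M + M', by positivity, fun ε σ hp => hB.add (H ε σ hp) (H' ε σ hp)⟩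

theorem US.smul (h1 : US q f) (c : ℝ) : US q fun ε σ x => c * f ε σ x := fun h => by
  obtain ⟨M, m0, H⟩ := h1 h
  exact ⟨|c| * M, by positivity, fun ε σ hp => hB.smul c (H ε σ hp)⟩

theorem US.mul (h1 : US q f) (h2 : US q' g) : US (q + q') fun ε σ x => f ε σ x * g ε σ x :=
  fun h => by
    obtain ⟨M, m0, H⟩ := h1 h
    obtain ⟨M', m1, H'⟩ := h2 h
    exact ⟨2 ^ h * M * M', by positivity, fun ε σ hp => hB.mul hp.1 m0 m1 (H ε σ hp) (H' ε σ hp)⟩

theorem US.congr (h1 : US q f) (he : ∀ ε σ x, f ε σ x = g ε σ x) : US q g := fun h => by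
  obtain ⟨M, m0, H⟩ := h1 h
  exact ⟨M, m0, fun ε σ hp => hB.congr (fun x _ => he ε σ x) (H ε σ hp)⟩

theorem US.LL (n : ℕ) (h1 : US q f) : US (q - 2) fun ε σ => LL n ε (f ε σ) := fun h => by
  obtain ⟨M, m0, H⟩ := h1 (h + 4)
  obtain ⟨K, k0, HK⟩ := hB.LL_sy n h
  exact ⟨K * M, by positivity, fun ε σ hp => HK hp m0 (H ε σ hp)⟩

theorem us_om : US 1 fun ε _ => om ε := fun h => ⟨4, by norm_num, fun _ _ hp => hB.om_sy h hp⟩

theorem us_one : US 0 fun _ _ _ => 1 := fun h =>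
  ⟨|1|, abs_nonneg _, fun ε _ hp => hB.const ε h 1 hp.1⟩

theorem us_zt : US 0 (fun ε _ x => zt (ε * x)) ∧ US (-1) fun ε _ x => ε * zt (ε * x) := by
  constructor <;> intro h <;>
    obtain ⟨M, m0, H⟩ := hB.cut_sy zt zt_smooth (fun u hu => zt_zero (by linarith)) h
  · exact ⟨M, m0, fun ε σ hp => (H ε hp.1 hp.2.1 hp.2.2).1⟩
  · exact ⟨M, m0, fun ε σ hp => (H ε hp.1 hp.2.1 hp.2.2).2⟩

theorem us_dil (hDil : DilStmt) (k : ℕ) {a : ℝ → ℝ} (ha : SyA 1 0 (-k) a) :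
    US (-k) fun _ σ x => (lam σ)⁻¹ ^ k * a ((lam σ)⁻¹ * x) := fun h => by
  obtain ⟨M, H⟩ := ha h
  refine ⟨|M|, abs_nonneg _, fun ε σ hp => ?_⟩
  have l0 := inv_pos.2 hp.1
  have h1 : Sy ((lam σ)⁻¹ * lam σ) 0 h (-k) |M| a := by
    rw [inv_mul_cancel₀ hp.1.ne']
    exact hB.mono one_pos le_rfl (le_abs_self M) H
  have h2 := hB.smul ((lam σ)⁻¹ ^ k) (hDil.Sy_dil l0 hp.1 h1)
  rw [mul_zero, abs_of_pos (pow_pos l0 k), zpow_neg, zpow_natCast, mul_left_comm,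
    mul_inv_cancel₀ (pow_pos l0 k).ne', mul_one] at h2
  exact ⟨h2.1.mono (dom_sub ε), fun i hi x hx => h2.2 i hi x (dom_sub ε hx)⟩
end US

theorem syA_H (hB : BaseB) {n : ℕ} {Γ : ℝ → ℝ} (hS : Shrinker n Γ) :
    SyA 1 0 (-(3 : ℕ)) fun y => (Γ y + y * deriv Γ y) / 2 := fun h => by
  obtain ⟨M, H⟩ := hS.sy (h + 4)
  obtain ⟨K, k0, HK⟩ := hB.LL_sy n h
  have hp : Par 1 0 := ⟨one_pos, le_rfl, by simp⟩
  have H' := hB.mono one_pos le_rfl (le_abs_self M) H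
  have h1 := hB.add (hB.const 0 h 1 one_pos) (hB.mul one_pos (by norm_num) (abs_nonneg M)
    (hB.om_sy h hp) (hB.mono one_pos (Nat.le_add_right h 4) le_rfl H'))
  have h2 := hB.smul (-1) (hB.mul one_pos (by positivity) (by positivity)
    (hB.mul one_pos (by positivity) (by positivity) h1 h1) (HK hp (abs_nonneg M) H'))
  refine ⟨_, hB.congr (fun y hy => ?_) h2⟩
  have := hS.eqn y hy.1
  simp only [om, zero_mul, sub_zero, mul_one]
  linarith

theorem dl_div1 (n : ℕ) {ε x : ℝ} {u : ℝ → ℝ} (hu : DifferentiableAt ℝ u x) (hx : ε * x < 1) :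
    dl n ε 1 (fun y => u y / (1 - ε * y) ^ 2) x = dl n 0 1 u x / (1 - ε * x) := by
  have h0 : 1 - ε * x ≠ 0 := by linarith
  have h0' : 1 - x * ε ≠ 0 := by linarith
  have h1 : HasDerivAt (fun y => u y / (1 - ε * y) ^ 2) _ x := hu.hasDerivAt.div
    ((((hasDerivAt_id x).const_mul ε).const_sub 1).pow 2) (pow_ne_zero _ h0)
  simp only [dl, h1.deriv, om, ell, id]
  field_simp
  push_cast
  ring

theorem dl_div0 (n : ℕ) {ε x : ℝ} {u : ℝ → ℝ} (hu : DifferentiableAt ℝ u x) (hx : ε * x < 1) :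
    dl n ε 0 (fun y => u y / (1 - ε * y)) x = dl n 0 0 u x := by
  have h0 : 1 - ε * x ≠ 0 := by linarith
  have h0' : 1 - x * ε ≠ 0 := by linarith
  have h1 : HasDerivAt (fun y => u y / (1 - ε * y)) _ x := hu.hasDerivAt.div
    (((hasDerivAt_id x).const_mul ε).const_sub 1) h0
  simp only [dl, h1.deriv, om, ell]
  field_simp
  push_cast
  ring

theorem LL_div (hA : BaseA) (hD : DelStmt) (n : ℕ) {ε x : ℝ} {u : ℝ → ℝ}
    (hu : ContDiffOn ℝ ∞ u (dom 0)) (hx : x ∈ dom ε) :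
    LL n ε (fun y => u y / (1 - ε * y) ^ 2) x = LL n 0 u x := by
  have d : ∀ {w : ℝ → ℝ}, ContDiffOn ℝ ∞ w (dom 0) → ∀ y ∈ dom ε, DifferentiableAt ℝ w y :=
    fun hw y hy => (hw.contDiffAt ((hA.dom_open 0).mem_nhds (dom_sub ε hy))).differentiableAt
      (by simp)
  have e : dl n ε 0 (dl n ε 1 fun y => u y / (1 - ε * y) ^ 2) =ᶠ[𝓝 x] dl n 0 0 (dl n 0 1 u) := by
    filter_upwards [(hA.dom_open ε).mem_nhds hx] with y hy
    have e1 : dl n ε 1 (fun y => u y / (1 - ε * y) ^ 2) =ᶠ[𝓝 y]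
        fun z => dl n 0 1 u z / (1 - ε * z) := by
      filter_upwards [(hA.dom_open ε).mem_nhds hy] with z hz
      exact dl_div1 n (d hu z hz) hz.2
    rw [← dl_div0 n (d (hD.dl_smooth n 1 hu) y hy) hy.2]
    change om ε y * deriv _ y + ell n ε 0 y * dl n ε 1 _ y = om ε y * deriv _ y + ell n ε 0 y * _
    rw [e1.deriv_eq, e1.eq_of_nhds]
  exact e.deriv.deriv.eq_of_nhds

theorem LL_one (n : ℕ) (x : ℝ) : LL n 0 (fun _ => 1) x = 0 := by
  have e1 : dl n 0 1 (fun _ => 1) = fun _ => (n : ℝ) + 1 := by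
    funext y; simp [dl, ell]
  have e2 : dl n 0 0 (fun _ => (n : ℝ) + 1) = fun _ => n * ((n : ℝ) + 1) := by
    funext y; simp [dl, ell]
  simp [LL, e1, e2]

theorem dil_smooth {Γ : ℝ → ℝ} (hΓ : ContDiffOn ℝ ∞ Γ (dom 0)) {τ : ℝ} (hτ : 0 < τ) :
    ContDiffOn ℝ ∞ (fun y => τ * Γ (τ * y)) (dom 0) :=
  contDiffOn_const.mul (hΓ.comp (by fun_prop) fun y hy => ⟨mul_pos hτ hy.1, by simp⟩)

theorem LL_gv (hA : BaseA) (hD : DelStmt) (n : ℕ) {Γ : ℝ → ℝ} (hΓ : ContDiffOn ℝ ∞ Γ (dom 0))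
    {ε x : ℝ} (σ : ℝ) (hx : 0 < x) (h : ε * x < 1 / 4) :
    LL n ε (gv Γ ε σ) x = (lam σ)⁻¹ ^ 3 * LL n 0 Γ ((lam σ)⁻¹ * x) := by
  have l0 := inv_pos.2 (lam_pos σ)
  have hx' : x ∈ dom ε := ⟨hx, by linarith⟩
  have s1 := dil_smooth hΓ l0
  have e : gv Γ ε σ =ᶠ[𝓝 x] fun y => (1 * ((lam σ)⁻¹ * Γ ((lam σ)⁻¹ * y)) + ε * 1) /
      (1 - ε * y) ^ 2 := by
    filter_upwards [(by fun_prop : ContinuousAt (fun y => ε * y) x).eventually_lt
      continuousAt_const h] with y hy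
    rw [gv, zt, ze_one hy.le]; ring
  have e2 := hD.LL_dil n 0 Γ x l0.ne'
  rw [mul_zero] at e2
  rw [(hD.LL_congr n ε e).eq_of_nhds, LL_div hA hD n ((contDiffOn_const.mul s1).add
    (contDiffOn_const.mul contDiffOn_const)) hx', hD.LL_lin n 1 ε s1 contDiffOn_const
      (dom_sub ε hx'), LL_one, hD.LL_const_mul, e2]
  ring

theorem gg_eq (Γ : ℝ → ℝ) {ε x : ℝ} (σ : ℝ) (h : ε * x < 1) : gg Γ ε σ x = (1 - ze (ε * x)) +
    ze (ε * x) * ((1 + (lam σ)⁻¹ * x * Γ ((lam σ)⁻¹ * x)) / (1 - ε * x)) := by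
  have h0 : 1 - ε * x ≠ 0 := by linarith
  have h0' : 1 - x * ε ≠ 0 := by linarith
  simp only [gg, gv, zt, om]
  field_simp
  ring

theorem gv_shift (Γ : ℝ → ℝ) (ε s σ y : ℝ) :
    gv Γ (lam s * ε) σ y = lam s * gv Γ ε (s + σ) (lam s * y) := by
  have h1 := (lam_pos s).ne'
  have h2 := (lam_pos σ).ne'
  have e1 : (lam (s + σ))⁻¹ * (lam s * y) = (lam σ)⁻¹ * y := by rw [lam_add]; field_simp
  have e2 : ε * (lam s * y) = lam s * ε * y := by ring
  rw [gv, gv, e1, e2, lam_add]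
  field_simp

theorem gvt_shift (Γ : ℝ → ℝ) (ε s σ y : ℝ) :
    gvt Γ (lam s * ε) σ y = lam s ^ 3 * gvt Γ ε (s + σ) (lam s * y) := by
  have h1 := (lam_pos s).ne'
  have h2 := (lam_pos σ).ne'
  have e1 : (lam (s + σ))⁻¹ * (lam s * y) = (lam σ)⁻¹ * y := by rw [lam_add]; field_simp
  have e2 : ε * (lam s * y) = lam s * ε * y := by ring
  rw [gvt, gvt, e1, e2, lam_add]
  field_simp

theorem gg_shift (Γ : ℝ → ℝ) (ε s σ y : ℝ) :
    gg Γ (lam s * ε) σ y = gg Γ ε (s + σ) (lam s * y) := by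
  simp only [gg, gv_shift, om]; ring

theorem LL_shift (hD : DelStmt) (n : ℕ) (Γ : ℝ → ℝ) (ε s σ y : ℝ) :
    LL n (lam s * ε) (gv Γ (lam s * ε) σ) y =
      lam s ^ 3 * LL n ε (gv Γ ε (s + σ)) (lam s * y) := by
  rw [show gv Γ (lam s * ε) σ = fun y => lam s * gv Γ ε (s + σ) (lam s * y) from
    funext (gv_shift Γ ε s σ), hD.LL_const_mul, hD.LL_dil n ε _ y (lam_pos s).ne']
  ring

theorem gv_dt (hA : BaseA) {Γ : ℝ → ℝ} (hΓ : ContDiffOn ℝ ∞ Γ (dom 0)) (ε σ : ℝ) {x : ℝ}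
    (hx : 0 < x) : HasDerivAt (fun s => gv Γ ε s x) (lam σ ^ 2 * gvt Γ ε σ x) σ := by
  have l0 := lam_pos σ
  have h1 := (lam_deriv σ).inv l0.ne'
  have h2 : HasDerivAt Γ (deriv Γ ((lam σ)⁻¹ * x)) ((lam σ)⁻¹ * x) :=
    ((hΓ.contDiffAt ((hA.dom_open 0).mem_nhds ⟨by positivity, by simp⟩)).differentiableAt
      (by simp)).hasDerivAt
  have h3 := HasDerivAt.comp (h₂ := Γ) (h := fun s => (lam s)⁻¹ * x) σ h2 (h1.mul_const x)
  refine (((h1.mul h3).add_const ε).const_mul (zt (ε * x))).congr_deriv ?_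
  simp only [gvt, Pi.inv_apply, Function.comp]
  field_simp

end CoefAux

open CoefAux in
theorem coef (hA : BaseA) (hB : BaseB) (hD : DelStmt) (hC : CJStmt) (hDil : DilStmt) :
    CoefStmt := by
  intro n Γ _ hS
  have hΓ : ContDiffOn ℝ ∞ Γ (dom 0) := (hS.sy 0).choose_spec.1
  have u1 : US (-1) (gv Γ) := ((((us_zt hB).1.mul hB (us_dil hB hDil 1 hS.sy))).add hB
    (us_zt hB).2).congr hB fun ε σ x => by simp only [gv]; ring
  have u2 : US 0 (gg Γ) := (us_one hB).add hB ((us_om hB).mul hB u1)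
  have u3 : US 0 (GG Γ) := (u2.mul hB u2).congr hB fun ε σ x => by simp only [GG]; ring
  have u4 : US (-2) (V1 n Γ) := (((us_om hB).mul hB (u1.LL hB n)).smul hB (-1)).congr hB
    fun ε σ x => by simp only [V1]; ring
  have u5 : US (-2) fun ε σ x => 2 * gg Γ ε σ x * V1 n Γ ε σ x := (u2.smul hB 2).mul hB u4
  have u7 : US (-3) (gvt Γ) := (us_zt hB).1.mul hB (us_dil hB hDil 3 (syA_H hB hS))
  have u6 : US (-3) (err n Γ) := (((u3.mul hB (u1.LL hB n)).add hB u7).smul hB (-1)).congr hB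
    fun ε σ x => by simp only [err]; ring
  have u8 : US (-2) fun ε σ x => 2 * gg Γ ε σ x * om ε x * gvt Γ ε σ x :=
    ((u2.smul hB 2).mul hB (us_om hB)).mul hB u7
  have ez : ∀ ε σ x, 0 < x → ε * x < 1 / 4 → err n Γ ε σ x = 0 := fun ε σ x hx h => by
    have l0 := inv_pos.2 (lam_pos σ)
    have e1 := hS.eqn _ (mul_pos l0 hx)
    have h0 : 1 - ε * x ≠ 0 := by linarith
    have h0' : 1 - x * ε ≠ 0 := by linarith
    rw [err, GG, gg_eq Γ σ (by linarith), LL_gv hA hD n hΓ σ hx h, gvt, zt, ze_one h.le,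
      eq_neg_of_add_eq_zero_left e1]
    field_simp
    ring
  refine ⟨lam_pos, by simp [lam], lam_add, fun s t h => Real.exp_le_exp.2 (by linarith), lam_deriv,
    ⟨ze_smooth, zt_smooth⟩, fun _ => ze_one, fun _ => ze_zero,
    fun u => ⟨Real.smoothTransition.nonneg _, Real.smoothTransition.le_one _⟩, fun h => ?_, ?_,
    fun ε σ x _ => ez ε σ x, fun ε σ x _ hx h => ⟨?_, ?_⟩, fun ε J => ?_,
    fun ε σ x hx => ⟨gv_dt hA hΓ ε σ hx, ?_⟩,
    fun ε s σ y => ⟨gv_shift Γ ε s σ y, gg_shift Γ ε s σ y, by rw [GG, GG, gg_shift], ?_, ?_⟩,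
    fun k p hp => ?_, fun σ Y => ?_⟩
  · obtain ⟨M1, a1, b1⟩ := u1 h
    obtain ⟨M2, a2, b2⟩ := u2 h
    obtain ⟨M3, a3, b3⟩ := u3 h
    obtain ⟨M4, a4, b4⟩ := u4 h
    obtain ⟨M5, a5, b5⟩ := u5 h
    obtain ⟨M6, a6, b6⟩ := u6 h
    obtain ⟨M7, a7, b7⟩ := u7 h
    obtain ⟨M8, a8, b8⟩ := u8 h
    exact ⟨1 + M1 + M2 + M3 + M4 + M5 + M6 + M7 + M8, by linarith, fun ε σ hp =>
      ⟨hB.mono hp.1 le_rfl (by linarith) (b1 ε σ hp), hB.mono hp.1 le_rfl (by linarith) (b2 ε σ hp),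
       hB.mono hp.1 le_rfl (by linarith) (b3 ε σ hp), hB.mono hp.1 le_rfl (by linarith) (b4 ε σ hp),
       hB.mono hp.1 le_rfl (by linarith) (b5 ε σ hp), hB.mono hp.1 le_rfl (by linarith) (b6 ε σ hp),
       hB.mono hp.1 le_rfl (by linarith) (b7 ε σ hp),
       hB.mono hp.1 le_rfl (by linarith) (b8 ε σ hp)⟩⟩
  · obtain ⟨c, c0, hc⟩ := hS.pos
    have m0 : 0 < min 1 c := lt_min one_pos c0
    have m1 := min_le_left 1 c
    have m2 := min_le_right 1 c
    refine ⟨min 1 c ^ 2, by positivity, fun ε σ hε x hx => ?_⟩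
    have g1 : min 1 c ≤ gg Γ ε σ x := by
      have a1 := hc _ (mul_pos (inv_pos.2 (lam_pos σ)) hx.1)
      have a2 : 0 ≤ ze (ε * x) := Real.smoothTransition.nonneg _
      have a3 : ze (ε * x) ≤ 1 := Real.smoothTransition.le_one _
      have a4 : 0 ≤ ε * x := mul_nonneg hε hx.1.le
      have a5 : c ≤ (1 + (lam σ)⁻¹ * x * Γ ((lam σ)⁻¹ * x)) / (1 - ε * x) := by
        rw [le_div_iff₀ (by linarith [hx.2])]
        nlinarith
      rw [gg_eq Γ σ hx.2]
      nlinarith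
    exact ⟨by nlinarith, pow_le_pow_left₀ m0.le g1 2⟩
  · rw [gg_eq Γ σ (by linarith), gg_eq Γ σ (by simp), ze_one h.le, zero_mul, ze_one (by norm_num)]
    simp
  · rw [V1, V1, LL_gv hA hD n hΓ σ hx h, LL_gv hA hD n hΓ σ hx (by simp)]
    simp only [om]
    ring
  · have o := hA.dom_open ε
    have s0 : ContDiffOn ℝ ∞ (fun p : ℝ × ℝ => (lam p.1)⁻¹) (univ ×ˢ dom ε) :=
      ((lam_smooth.comp contDiff_fst).inv fun p => (lam_pos p.1).ne').contDiffOn
    have s1 : ∀ {w : ℝ → ℝ}, ContDiffOn ℝ ∞ w (dom 0) →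
        ContDiffOn ℝ ∞ (fun p : ℝ × ℝ => w ((lam p.1)⁻¹ * p.2)) (univ ×ˢ dom ε) := fun hw =>
      hw.comp (s0.mul contDiffOn_snd) fun p hp =>
        ⟨mul_pos (inv_pos.2 (lam_pos _)) hp.2.1, by simp⟩
    have s2 : ContDiffOn ℝ ∞ (fun p : ℝ × ℝ => zt (ε * p.2)) (univ ×ˢ dom ε) :=
      (zt_smooth.comp (by fun_prop)).contDiffOn
    have c1 : CJ J (dom ε) (gv Γ ε) :=
      hC.of_smooth J o (s2.mul ((s0.mul (s1 hΓ)).add contDiffOn_const))
    have c6 : CJ J (dom ε) (gvt Γ ε) := hC.of_smooth J o (s2.mul ((s0.pow 3).mul (((s1 hΓ).add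
      ((s0.mul contDiffOn_snd).mul (s1 (hΓ.deriv_of_isOpen (hA.dom_open 0) le_rfl)))).div_const 2)))
    have k : ∀ c : ℝ, CJ J (dom ε) fun _ _ => c := fun c => hC.space J o contDiffOn_const
    have c0 : CJ J (dom ε) fun _ => om ε := hC.space J o (by unfold om; fun_prop)
    have c2 : CJ J (dom ε) (gg Γ ε) := hC.add o (k 1) (hC.mul o c0 c1)
    have c3 : CJ J (dom ε) (GG Γ ε) :=
      hC.congr o (fun s _ x _ => by simp only [GG]; ring) (hC.mul o c2 c2)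
    exact ⟨c1, c2, c3, hC.congr o (fun s _ x _ => by simp only [V1]; ring)
      (hC.mul o (k (-1)) (hC.mul o c0 (hC.LL n ε o c1))),
      hC.congr o (fun s _ x _ => by simp only [err]; ring)
        (hC.mul o (k (-1)) (hC.add o (hC.mul o c3 (hC.LL n ε o c1)) c6)), c6⟩
  · refine (((((gv_dt hA hΓ ε σ hx).const_mul (om ε x)).const_add 1).pow 2)).congr_deriv ?_
    simp only [gg]
    push_cast
    ring
  · rw [V1, V1, LL_shift hD]
    simp only [om]
    ring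
  · rw [err, err, LL_shift hD, gvt_shift, GG, GG, gg_shift]
    ring
  · obtain ⟨M, m0, H⟩ := u6 k
    refine ⟨(k + 1) * (M ^ 2 * 4 ^ (7 - p)), by positivity, fun ε σ hP hε => ?_⟩
    have key : ∀ i ∈ Finset.range (k + 1), TT n (lam σ) ε i (i + 2) p (err n Γ ε σ) ≤
        M ^ 2 * 4 ^ (7 - p) * ε ^ (6 - p) := fun i hi => by
      have b : ∀ x ∈ dom ε, ‖iteratedDeriv i (err n Γ ε σ) x ^ 2 * wt n (lam σ) ε i (i + 2) p x‖ ≤
          M ^ 2 * (4 * ε) ^ (7 - p) := fun x hx => by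
        by_cases h : ε * x < 1 / 4
        · have e : err n Γ ε σ =ᶠ[𝓝 x] fun _ => 0 := by
            filter_upwards [(by fun_prop : ContinuousAt (fun y => ε * y) x).eventually_lt
              continuousAt_const h, Ioi_mem_nhds hx.1] with y h1 h2
            exact ez ε σ y h2 h1
          rw [e.iteratedDeriv_eq i, iteratedDeriv_fun_const_zero]
          simp only [ne_eq, OfNat.ofNat_ne_zero, not_false_eq_true, zero_pow, zero_mul, norm_zero]
          positivity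
        · have v0 := hA.vp_pos x hP.1
          have a1 := (H ε σ hP).2 i (Finset.mem_range_succ_iff.1 hi) x hx
          have a2 := hA.Th_le_one n ((i : ℤ) + 2) hP hx
          have a3 := hA.Th_nonneg n (lam := lam σ) ((i : ℤ) + 2) hx
          have a4 : (vp (lam σ) x)⁻¹ ≤ 4 * ε := by
            have := mul_le_mul_of_nonneg_left (hA.x_le (lam σ) x) hε.le
            rw [inv_le_iff_one_le_mul₀ v0]
            linarith
          rw [norm_mul, norm_pow, Real.norm_eq_abs, Real.norm_eq_abs,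
            abs_of_nonneg (hA.wt_nonneg n i _ p hx), wt]
          calc _ ≤ (M * vp (lam σ) x ^ (-3 - (i : ℤ))) ^ 2 *
                (vp (lam σ) x ^ (2 * (i : ℤ) - 1 + p) * 1) := by gcongr
            _ = M ^ 2 * (vp (lam σ) x)⁻¹ ^ (7 - p) := by
                rw [mul_one, mul_pow, ← zpow_natCast (_ ^ _) 2, ← zpow_mul, mul_assoc,
                  ← zpow_add₀ v0.ne', inv_zpow']
                congr 2
                push_cast
                ring
            _ ≤ _ := mul_le_mul_of_nonneg_left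
                (zpow_le_zpow_left₀ (by omega) (inv_pos.2 v0).le a4) (sq_nonneg M)
      have := (le_abs_self _).trans (norm_setIntegral_le_of_norm_le_const (μ := volume)
        (by rw [hA.dom_pos hε]; exact measure_Ioo_lt_top) b)
      refine this.trans (le_of_eq ?_)
      rw [hA.dom_pos hε, Real.volume_real_Ioo, sub_zero, max_eq_left (inv_pos.2 hε).le, mul_zpow,
        show 6 - p = 7 - p - 1 by ring, zpow_sub_one₀ hε.ne']
      ring
    refine (Finset.sum_le_sum key).trans (le_of_eq ?_)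
    rw [Finset.sum_const, Finset.card_range, nsmul_eq_mul]
    push_cast
    ring
  · have := (lam_pos σ).ne'
    simp only [gg, gv, om, zero_mul, zt0, inv_mul_cancel_left₀ this]
    field_simp
    ring

end Vale.Agent.P264
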