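import Vale.Agent.P264.StmB

/-! The initial data of the family of solutions. -/

namespace Vale.Agent.P264

open scoped ContDiff
open Set

namespace Data

variable {n : ℕ} {Γ : ℝ → ℝ} {δ : ℝ} {d : ℕ} {y : Fin d → ℝ}
  {z : (Fin d → ℝ) →ₗ[ℝ] (ℝ → ℝ → ℝ)}

theorem dom_sub (ε : ℝ) : dom ε ⊆ dom 0 := fun _ hx => ⟨hx.1, by simp⟩

theorem sy_flat {lam ε M : ℝ} {h : ℕ} {q : ℤ} {a : ℝ → ℝ} (H : Sy lam 0 h q M a) :
    Sy lam ε h q M a :=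
  ⟨H.1.mono (dom_sub ε), fun i hi x hx => H.2 i hi x (dom_sub ε hx)⟩

theorem cut (hB : BaseB) (hC : Coef n Γ) (h : ℕ) : ∃ M, 0 ≤ M ∧ ∀ ε, ε ≤ 1 →
    Sy 1 ε h 0 M (fun x => ze (√ε * x)) ∧ Sy 1 ε h (-1) M fun x => √ε * ze (√ε * x) := by
  obtain ⟨M, hM, H⟩ := hB.cut_sy ze hC.ze_smooth.1 (fun u hu => hC.ze_zero u (by linarith)) h
  exact ⟨M, hM, fun ε hε => H ε one_pos (Real.sqrt_nonneg _)
    (by rw [mul_one]; exact Real.sqrt_le_one.2 hε)⟩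

theorem cutz_sy (hB : BaseB) (hC : Coef n Γ) (hS : Spec n Γ δ d y z) (h : ℕ) {ε : ℝ} (hε : ε ≤ 1)
    (a : Fin d → ℝ) : ∃ M, 0 ≤ M ∧ Sy 1 ε h 0 M (cutz z ε a) := by
  obtain ⟨M, hM, H⟩ := cut hB hC h
  obtain ⟨M', hM', H'⟩ := hS.bdS h
  have := hB.mul one_pos hM (mul_nonneg hM' (norm_nonneg a)) (H ε hε).1 (sy_flat (H' a))
  rw [add_zero] at this
  exact ⟨_, by positivity, this⟩

theorem sy_dil (hDil : DilStmt) {ε M : ℝ} {h : ℕ} {q : ℤ} {f : ℝ → ℝ} (hε : 0 < ε)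
    (H : Sy 1 ε h q M f) : Sy ε 1 h q (M * ε⁻¹ ^ q) fun x => f (ε⁻¹ * x) := by
  have e : ε⁻¹ * ε = 1 := inv_mul_cancel₀ hε.ne'
  have := hDil.Sy_dil (τ := ε⁻¹) (lam := ε) (ε := ε) (M := M) (h := h) (q := q) (a := f)
    (inv_pos.2 hε) hε (by rwa [e])
  rwa [e] at this

theorem part1 (hA : BaseA) (hB : BaseB) (hDil : DilStmt) (hM : MulStmt) (hC : Coef n Γ)
    (hS : Spec n Γ δ d y z) (k : ℕ) : ∃ B, 0 ≤ B ∧ ∀ ε, 0 < ε → ε ≤ 1 → ∀ a,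
      QQ n 1 ε k 0 (cutz z ε a) ≤ B * ‖a‖ ^ 2 ∧ ε * QQ n 1 ε k 2 (cutz z ε a) ≤ B * ‖a‖ ^ 2 := by
  obtain ⟨M, -, H⟩ := cut hB hC k
  obtain ⟨C, hC0, mul⟩ := hM n k
  obtain ⟨C', hC', bd⟩ := hS.bdQ k
  obtain ⟨M', -, H'⟩ := hS.bdS 0
  refine ⟨C * M ^ 2 * C', by positivity, fun ε h0 h1 a => ?_⟩
  have hP : Par 1 ε := ⟨one_pos, h0.le, by linarith⟩
  have hI := (hS.anc a).int 0 le_rfl k
  rw [hC.lam_zero] at hI
  obtain ⟨i1, i2⟩ := hDil.QQ_flat n k 0 one_pos h0.le hI (H' a).1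
  have sm : ContDiffOn ℝ ∞ (z a 0) (dom ε) := (H' a).1.mono (dom_sub ε)
  have key : C * M ^ 2 * QQ n 1 ε k 0 (z a 0) ≤ C * M ^ 2 * C' * ‖a‖ ^ 2 := by
    rw [mul_assoc (C * M ^ 2)]
    exact mul_le_mul_of_nonneg_left (i2.trans (bd a)) (by positivity)
  constructor
  · exact (mul 1 ε M 0 0 _ _ hP (H ε h1).1 sm i1).2.trans key
  · have h2 := (mul 1 ε M 2 (-1) _ _ hP (H ε h1).2 sm i1).2.trans key
    have h3 := hA.QQ_smul n 1 ε k 2 (√ε) (cutz z ε a)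
    rw [Real.sq_sqrt h0.le] at h3
    rw [← h3]
    simpa only [cutz, mul_assoc] using h2

theorem part2 (hA : BaseA) (hB : BaseB) (hDil : DilStmt) (hM : MulStmt) (hC : Coef n Γ)
    (hS : Spec n Γ δ d y z) (k : ℕ) (ε : ℝ) (h0 : 0 < ε) (h1 : ε ≤ 1) : ∃ C, ∀ a a',
      QQ n 1 1 k 0 (fun x => g0a Γ z ε a' x - g0a Γ z ε a x) ≤ C * ‖a' - a‖ ^ 2 := by
  obtain ⟨B, -, H⟩ := part1 hA hB hDil hM hC hS k
  obtain ⟨C, hC0, lam⟩ := hDil.QQ_lam n k 0 ε h0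
  refine ⟨C * B, fun a a' => ?_⟩
  have e : (fun x => g0a Γ z ε a' x - g0a Γ z ε a x) = fun x => cutz z ε (a' - a) (ε⁻¹ * x) := by
    funext x
    simp only [g0a, cutz, map_sub, Pi.sub_apply]
    field_simp
    ring
  have adm : Adm ε 1 0 fun x => cutz z ε (a' - a) (ε⁻¹ * x) := by
    refine hB.adm_of_syA (q := 0) 0 h0 (Or.inl one_pos) fun h => ?_
    obtain ⟨M, -, HM⟩ := cutz_sy hB hC hS h h1 (a' - a)
    exact ⟨_, sy_dil hDil h0 HM⟩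
  have dil := hDil.QQ_dil n (τ := ε) (lam := 1) 1 k 0 (fun x => cutz z ε (a' - a) (ε⁻¹ * x)) h0
    one_pos
  simp only [mul_one, neg_zero, zpow_zero, one_mul, inv_mul_cancel_left₀ h0.ne'] at dil
  rw [e, mul_assoc]
  refine (lam 1 ε _ ⟨h1, le_rfl⟩ ⟨le_rfl, h1⟩ adm).trans (mul_le_mul_of_nonneg_left ?_ hC0)
  rw [← dil]
  exact (H ε h0 h1 (a' - a)).1

theorem g0a_sy (hB : BaseB) (hDil : DilStmt) (hC : Coef n Γ) (hS : Spec n Γ δ d y z) (h : ℕ)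
    {ε : ℝ} (h0 : 0 < ε) (h1 : ε ≤ 1) (a : Fin d → ℝ) :
    ∃ M, Sy ε 1 h (-1) M (g0a Γ z ε a) := by
  have hP : Par 1 ε := ⟨one_pos, h0.le, by linarith⟩
  obtain ⟨M, -, H⟩ := hC.sy h
  have H1 := (H ε 0 (by rwa [hC.lam_zero])).1
  rw [hC.lam_zero] at H1
  obtain ⟨M', hM', H2⟩ := cutz_sy hB hC hS h h1 a
  have H3 := hB.eps_mul hP hM' H2
  rw [zero_sub] at H3
  exact ⟨_, hB.smul ε⁻¹ (sy_dil hDil h0 (hB.add H1 H3))⟩

theorem part3 (hA : BaseA) (hB : BaseB) (hDil : DilStmt) (hX : ExtStmt) (hC : Coef n Γ)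
    (hS : Spec n Γ δ d y z) : ∃ ε₂, 0 < ε₂ ∧ ∀ ε, 0 < ε → ε ≤ ε₂ → ∀ a, ‖a‖ ≤ 1 → ∃ γ₀ : ℝ → ℝ,
      ContDiffOn ℝ ∞ γ₀ (Icc 0 1) ∧ (∀ x ∈ Icc (0 : ℝ) 1, 0 < 1 + om 1 x * γ₀ x) ∧
      EqOn γ₀ (g0a Γ z ε a) (Ioo 0 1) := by
  obtain ⟨c, hc, low⟩ := hC.low
  obtain ⟨M, hM, bd⟩ := hS.bdS 0
  refine ⟨min 1 ((c / (M + 1)) ^ 2), by positivity, fun ε h0 h2 a ha => ?_⟩
  have h1 : ε ≤ 1 := h2.trans (min_le_left _ _)
  have h3 : √ε ≤ c / (M + 1) :=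
    (Real.sqrt_le_left (by positivity)).2 (h2.trans (min_le_right _ _))
  rw [le_div_iff₀ (by positivity)] at h3
  obtain ⟨γ₀, g1, g2⟩ := hX (g0a Γ z ε a) (by
      obtain ⟨_, H⟩ := g0a_sy hB hDil hC hS 0 h0 h1 a
      rw [← hA.dom_one]
      exact H.1) (by
      intro i
      obtain ⟨K, H⟩ := g0a_sy hB hDil hC hS i h0 h1 a
      refine ⟨|K| * (ε ^ (i + 1))⁻¹, fun x hx => ?_⟩
      rw [← hA.dom_one] at hx
      refine (H.2 i le_rfl x hx).trans ?_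
      have e : (-1 - (i : ℤ)) = -((i + 1 : ℕ) : ℤ) := by
        push_cast
        ring
      rw [e, zpow_neg, zpow_natCast]
      have hv := hA.vp_pos x h0
      refine mul_le_mul (le_abs_self K) ?_ (by positivity) (abs_nonneg K)
      exact inv_anti₀ (by positivity) (pow_le_pow_left₀ h0.le (hA.lam_le ε x) _))
  refine ⟨γ₀, g1, fun x hx => ?_, g2⟩
  rcases hx.1.eq_or_lt with rfl | x0
  · simp [om]
  rcases hx.2.eq_or_lt with rfl | x1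
  · simp [om]
  rw [g2 ⟨x0, x1⟩]
  obtain ⟨w, rfl⟩ : ∃ w, x = ε * w := ⟨ε⁻¹ * x, by rw [mul_inv_cancel_left₀ h0.ne']⟩
  have w0 : 0 < w := (mul_pos_iff_of_pos_left h0).1 x0
  have hw : w ∈ dom ε := ⟨w0, x1⟩
  have e : 1 + om 1 (ε * w) * g0a Γ z ε a (ε * w)
      = gg Γ ε 0 w + (ε * w * (1 - ε * w) * ze (√ε * w)) * z a 0 w := by
    simp only [g0a, gg, om, cutz, inv_mul_cancel_left₀ h0.ne']
    field_simp
    ring
  have b1 : |z a 0 w| ≤ M := by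
    have := (bd a).2 0 le_rfl w (dom_sub ε hw)
    simp only [iteratedDeriv_zero, Nat.cast_zero, sub_self, zpow_zero, mul_one] at this
    exact this.trans (mul_le_of_le_one_right hM ha)
  have z1 := hC.ze_mem (√ε * w)
  have hs : 0 < √ε := Real.sqrt_pos.2 h0
  have b2 : ε * w * (1 - ε * w) * ze (√ε * w) ≤ √ε := by
    rcases le_total (1 / 2) (√ε * w) with h | h
    · rw [hC.ze_zero _ h, mul_zero]
      exact hs.le
    · have e2 : ε * w = √ε * (√ε * w) := by rw [← mul_assoc, Real.mul_self_sqrt h0.le]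
      have h4 : ε * w ≤ √ε := by
        rw [e2]
        exact mul_le_of_le_one_right hs.le (by linarith)
      refine le_trans ?_ h4
      rw [mul_assoc]
      exact mul_le_of_le_one_right x0.le (mul_le_one₀ (by linarith) z1.1 z1.2)
  have b3 : 0 ≤ ε * w * (1 - ε * w) * ze (√ε * w) :=
    mul_nonneg (mul_nonneg x0.le (by linarith)) z1.1
  have b4 : |ε * w * (1 - ε * w) * ze (√ε * w) * z a 0 w| ≤ √ε * M := by
    rw [abs_mul, abs_of_nonneg b3]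
    exact mul_le_mul b2 b1 (abs_nonneg _) hs.le
  have b5 := (low ε 0 h0.le w hw).1
  have b6 := (abs_le.1 b4).1
  rw [e]
  linarith

end Data

open Data in
theorem data (hA : BaseA) (hB : BaseB) (hD : DelStmt) (hDil : DilStmt) (hM : MulStmt)
    (hX : ExtStmt) : DataStmt := by
  have _ := hD
  intro n Γ δ d y z _ hC hS
  exact ⟨part1 hA hB hDil hM hC hS, part2 hA hB hDil hM hC hS, part3 hA hB hDil hX hC hS⟩

end Vale.Agent.P264
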