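import Vale.Agent.P264.StmB

namespace Vale.Agent.P264

open scoped ContDiff Topology
open Set MeasureTheory Filter

namespace Dec

theorem gron {E : ℝ → ℝ} {s₁ s₂ c A : ℝ} (h12 : s₁ ≤ s₂) (hc : ContinuousOn E (Icc s₁ s₂))
    (hd : ∀ σ ∈ Ioo s₁ s₂, ∃ E', HasDerivAt E E' σ ∧ E' ≤ c * (E σ - A)) :
    E s₂ - A ≤ Real.exp (c * (s₂ - s₁)) * (E s₁ - A) := by
  have hder : ∀ σ ∈ Ioo s₁ s₂, ∃ D, HasDerivAt (fun σ => Real.exp (-(c * σ)) * (E σ - A)) D σ ∧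
      D ≤ 0 := by
    intro σ hσ
    obtain ⟨E', h1, h2⟩ := hd σ hσ
    have h3 : HasDerivAt (fun σ => Real.exp (-(c * σ))) (Real.exp (-(c * σ)) * (-(c * 1))) σ :=
      ((hasDerivAt_id σ).const_mul c).neg.exp
    refine ⟨_, h3.mul (h1.sub_const A), ?_⟩
    have h4 := Real.exp_pos (-(c * σ))
    nlinarith [mul_le_mul_of_nonneg_left h2 h4.le]
  have hanti : AntitoneOn (fun σ => Real.exp (-(c * σ)) * (E σ - A)) (Icc s₁ s₂) := by
    refine antitoneOn_of_deriv_nonpos (convex_Icc _ _) ?_ ?_ ?_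
    · exact (Continuous.continuousOn (by fun_prop)).mul (hc.sub continuousOn_const)
    · rw [interior_Icc]
      intro σ hσ
      obtain ⟨D, h1, -⟩ := hder σ hσ
      exact h1.differentiableAt.differentiableWithinAt
    · rw [interior_Icc]
      intro σ hσ
      obtain ⟨D, h1, h2⟩ := hder σ hσ
      rw [h1.deriv]
      exact h2
  have h := hanti ⟨le_rfl, h12⟩ ⟨h12, le_rfl⟩ h12
  have h5 : Real.exp (c * (s₂ - s₁)) = Real.exp (c * s₂) * Real.exp (-(c * s₁)) := by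
    rw [← Real.exp_add]
    congr 1
    ring
  have h6 : Real.exp (c * s₂) * Real.exp (-(c * s₂)) = 1 := by
    rw [← Real.exp_add, add_neg_cancel, Real.exp_zero]
  have h7 := mul_le_mul_of_nonneg_left h (Real.exp_pos (c * s₂)).le
  simp only at h7
  rw [← mul_assoc, h6, one_mul, ← mul_assoc, ← h5] at h7
  exact h7

theorem decay {E : ℝ → ℝ} {s₁ s₂ δ K : ℝ} (hδ : 0 < δ) (hK : 0 ≤ K) (h12 : s₁ ≤ s₂)
    (hc : ContinuousOn E (Icc s₁ s₂))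
    (hd : ∀ σ ∈ Ioo s₁ s₂, ∃ E', HasDerivAt E E' σ ∧ E' ≤ -δ * E σ + K) :
    E s₂ ≤ Real.exp (-(δ * (s₂ - s₁))) * E s₁ + K / δ := by
  have h := gron (c := -δ) (A := K / δ) h12 hc fun σ hσ => by
    obtain ⟨E', h1, h2⟩ := hd σ hσ
    refine ⟨E', h1, h2.trans (le_of_eq ?_)⟩
    field_simp
    ring
  rw [neg_mul] at h
  have h1 : 0 ≤ Real.exp (-(δ * (s₂ - s₁))) * (K / δ) := by positivity
  nlinarith

theorem lam_TT (hA : BaseA) (hB : BaseB) (n : ℕ) {l ε : ℝ} {p : ℤ} {f : ℝ → ℝ} (hP : Par l ε)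
    (hf : Adm l ε p f) : l ^ 2 * TT n l ε 0 2 (p - 2) f ≤ TT n l ε 0 2 p f := by
  have h1 := hA.intT n 0 2 hP hf
  have h2 := hA.intT n 0 2 hP (hB.adm_mono (r' := p - 2) hP.1 (by omega) hf)
  unfold TT
  rw [← integral_const_mul]
  refine setIntegral_mono_on (h2.const_mul _) h1 (hA.dom_open ε).measurableSet fun x hx => ?_
  have hv := hA.vp_pos x hP.1
  have hl : l ^ 2 ≤ vp l x ^ 2 := pow_le_pow_left₀ hP.1.le (hA.lam_le l x) 2
  have hw : wt n l ε 0 2 p x = vp l x ^ 2 * wt n l ε 0 2 (p - 2) x := by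
    unfold wt
    rw [← mul_assoc, ← zpow_natCast, ← zpow_add₀ hv.ne']
    congr 2
    push_cast
    ring
  have h3 := hA.wt_nonneg n (lam := l) 0 2 (p - 2) hx
  rw [hw]
  have h4 : 0 ≤ iteratedDeriv 0 f x ^ 2 * wt n l ε 0 2 (p - 2) x := mul_nonneg (sq_nonneg _) h3
  nlinarith [mul_le_mul_of_nonneg_right hl h4]

theorem TT_QQ (hA : BaseA) (n k : ℕ) (l ε : ℝ) (p : ℤ) (f : ℝ → ℝ) :
    TT n l ε 0 2 p f ≤ QQ n l ε k p f := by
  simpa using hA.TT_le_QQ n l ε (i := 0) (h := k) p f (Nat.zero_le k)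

theorem err_le {ε δ σ l : ℝ} (hε : 0 < ε) (hδ : 0 < δ) (hσ : 0 ≤ σ) (hl : l ^ 2 ≤ 1) {s : ℝ}
    (hs : 0 ≤ s) :
    l ^ 2 * (ε⁻¹ * Real.exp (-(δ * σ)) * √(ε ^ ((6 : ℤ) - 0)) * s) ≤ ε ^ 2 * s := by
  have h1 : √(ε ^ ((6 : ℤ) - 0)) = ε ^ 3 := by
    have : ε ^ ((6 : ℤ) - 0) = (ε ^ 3) ^ 2 := by
      rw [sub_zero, ← pow_mul]
      exact zpow_natCast ε 6
    rw [this, Real.sqrt_sq (by positivity)]
  have h2 : Real.exp (-(δ * σ)) ≤ 1 := Real.exp_le_one_iff.2 (by nlinarith)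
  have h3 : ε⁻¹ * Real.exp (-(δ * σ)) * ε ^ 3 * s = Real.exp (-(δ * σ)) * (ε ^ 2 * s) := by
    field_simp
  rw [h1, h3]
  have h4 : 0 ≤ ε ^ 2 * s := by positivity
  have h5 : Real.exp (-(δ * σ)) * (ε ^ 2 * s) ≤ ε ^ 2 * s := mul_le_of_le_one_left h4 h2
  have h6 : 0 ≤ Real.exp (-(δ * σ)) * (ε ^ 2 * s) := by positivity
  nlinarith

end Dec

theorem decC (hA : BaseA) (hB : BaseB) (hD : DelStmt) (hE : EnStmt) (hL : LocStmt) :
    DecCStmt := by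
  have _hD := hD
  intro n k Γ δ hn hk hC hδ
  obtain ⟨ε₀, C, hε₀, hC1, hEn⟩ := hE n k 0 Γ hn hk (by norm_num) hC
  have hC0 : 0 < C := lt_of_lt_of_le one_pos hC1
  obtain ⟨R, CL, hR, hCL, hLoc⟩ := hL n 0 (δ / (2 * C ^ 2)) le_rfl (by positivity)
  refine ⟨ε₀, R, C ^ 2 + C + C * CL / δ + C ^ 2 / (2 * δ) / δ, hε₀, hR, ?_, ?_⟩
  · have h1 : 0 ≤ C * CL / δ := by positivity
    have h2 : 0 ≤ C ^ 2 / (2 * δ) / δ := by positivity
    nlinarith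
  intro ε b X hε hε1 hX hN s₁ s₂ h1 h12 h2
  have hPar : Par (lam 0) ε := by
    rw [hC.lam_zero]
    exact ⟨one_pos, hε.le, by simpa using hε1⟩
  obtain ⟨hcont, hpt, hder⟩ := hEn δ ε ε 0 b X hε.le hPar (Or.inl hε) hX
  have hsub : Icc s₁ s₂ ⊆ Icc 0 b := Icc_subset_Icc h1 h2
  have hsub' : Ioo s₁ s₂ ⊆ Ioo 0 b := Ioo_subset_Ioo h1 h2
  have hE0 : ∀ σ ∈ Icc 0 b, 0 ≤ En n Γ ε k 0 X σ := fun σ hσ =>
    nonneg_of_mul_nonneg_right ((hA.QQ_nonneg _ _ _ _ _ _).trans (hpt σ hσ).2.2.1) hC0 |> id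
  have key : ∀ σ ∈ Ioo 0 b, ∃ E', HasDerivAt (En n Γ ε k 0 X) E' σ ∧
      E' ≤ -2 * δ * En n Γ ε k 0 X σ + C * (lam σ ^ 2 * TT n (lam σ) ε 0 2 (0 - 2) (X σ))
        + C * (ε ^ 2 * √(En n Γ ε k 0 X σ)) := by
    intro σ hσ
    obtain ⟨E', hE1, hE2⟩ := hder σ hσ
    refine ⟨E', hE1, (hE2 (hN σ (Ioo_subset_Icc_self hσ))).trans ?_⟩
    have hl : lam σ ^ 2 ≤ 1 := by
      have h3 : lam σ ≤ 1 := hC.lam_zero ▸ hC.lam_anti hσ.1.le
      exact pow_le_one₀ (hC.lam_pos σ).le h3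
    have h4 := mul_le_mul_of_nonneg_left
      (Dec.err_le hε hδ hσ.1.le hl (Real.sqrt_nonneg (En n Γ ε k 0 X σ))) hC0.le
    nlinarith
  refine ⟨?_, fun ρ hρ => ?_⟩
  · have h := Dec.gron (c := C ^ 2 + C) (A := -ε ^ 4) h12 (hcont.mono hsub) fun σ hσ => by
      obtain ⟨E', hE1, hE2⟩ := key σ (hsub' hσ)
      have hσ' := Ioo_subset_Icc_self (hsub' hσ)
      refine ⟨E', hE1, hE2.trans ?_⟩
      obtain ⟨p1, p2, p3, -⟩ := hpt σ hσ'
      have h3 := ((Dec.lam_TT hA hB n p1 p2).trans (Dec.TT_QQ hA n k _ _ _ _)).trans p3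
      have h4 := hE0 σ hσ'
      have h5 := Real.sq_sqrt h4
      have h6 : ε ^ 2 * √(En n Γ ε k 0 X σ) ≤ En n Γ ε k 0 X σ + ε ^ 4 := by
        nlinarith [sq_nonneg (ε ^ 2 - √(En n Γ ε k 0 X σ)), sq_nonneg (ε ^ 2)]
      have h7 := mul_le_mul_of_nonneg_left h3 hC0.le
      have h8 := mul_le_mul_of_nonneg_left h6 hC0.le
      have h9 : 0 ≤ δ * En n Γ ε k 0 X σ := mul_nonneg hδ.le h4
      have h10 : 0 ≤ C ^ 2 * ε ^ 4 := by positivity
      nlinarith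
    have h3 : Real.exp ((C ^ 2 + C) * (s₂ - s₁)) ≤
        Real.exp ((C ^ 2 + C + C * CL / δ + C ^ 2 / (2 * δ) / δ) * (s₂ - s₁)) := by
      refine Real.exp_le_exp.2 (mul_le_mul_of_nonneg_right ?_ (sub_nonneg.2 h12))
      have h1 : 0 ≤ C * CL / δ := by positivity
      have h2 : 0 ≤ C ^ 2 / (2 * δ) / δ := by positivity
      linarith
    have h4 : 0 ≤ En n Γ ε k 0 X s₁ + ε ^ 4 :=
      add_nonneg (hE0 s₁ (hsub ⟨le_rfl, h12⟩)) (by positivity)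
    have h5 := mul_le_mul_of_nonneg_right h3 h4
    have h6 : 0 ≤ ε ^ 4 := by positivity
    rw [sub_neg_eq_add, sub_neg_eq_add] at h
    linarith
  · have h := Dec.decay (K := C * CL * ρ ^ 2 + C ^ 2 / (2 * δ) * ε ^ 4) hδ (by positivity) h12
      (hcont.mono hsub) fun σ hσ => by
      obtain ⟨E', hE1, hE2⟩ := key σ (hsub' hσ)
      have hσ' := Ioo_subset_Icc_self (hsub' hσ)
      refine ⟨E', hE1, hE2.trans ?_⟩
      obtain ⟨p1, p2, p3, -⟩ := hpt σ hσ'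
      have h3 := (Dec.TT_QQ hA n k _ _ _ _).trans p3
      have h4 := hE0 σ hσ'
      have h5 := Real.sq_sqrt h4
      have h6 := hLoc (lam σ) ε ρ (X σ) p1 p2 (hρ σ (Ioo_subset_Icc_self hσ))
      rw [sub_zero, neg_zero, zpow_zero, one_mul, zpow_ofNat] at h6
      have h7 : C * (δ / (2 * C ^ 2) * TT n (lam σ) ε 0 2 0 (X σ)) ≤
          δ / 2 * En n Γ ε k 0 X σ := by
        have h8 : C * (δ / (2 * C ^ 2) * (C * En n Γ ε k 0 X σ)) = δ / 2 * En n Γ ε k 0 X σ := by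
          field_simp
        rw [← h8]
        gcongr
      have h8 : C * (ε ^ 2 * √(En n Γ ε k 0 X σ)) ≤
          δ / 2 * En n Γ ε k 0 X σ + C ^ 2 / (2 * δ) * ε ^ 4 := by
        have h9 : δ / 2 * √(En n Γ ε k 0 X σ) ^ 2 + C ^ 2 / (2 * δ) * ε ^ 4
            - C * (ε ^ 2 * √(En n Γ ε k 0 X σ))
            = (δ * √(En n Γ ε k 0 X σ) - C * ε ^ 2) ^ 2 / (2 * δ) := by
          field_simp
          ring
        have h10 : 0 ≤ (δ * √(En n Γ ε k 0 X σ) - C * ε ^ 2) ^ 2 / (2 * δ) := by positivity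
        rw [h5] at h9
        linarith
      have h9 := mul_le_mul_of_nonneg_left h6 hC0.le
      nlinarith
    refine h.trans (add_le_add le_rfl ?_)
    have h3 : (C * CL * ρ ^ 2 + C ^ 2 / (2 * δ) * ε ^ 4) / δ
        = C * CL / δ * ρ ^ 2 + C ^ 2 / (2 * δ) / δ * ε ^ 4 := by ring
    rw [h3]
    have h4 : 0 ≤ C * CL / δ := by positivity
    have h5 : 0 ≤ C ^ 2 / (2 * δ) / δ := by positivity
    have h6 : 0 ≤ ε ^ 4 := by positivity
    have h7 : 0 ≤ ρ ^ 2 := sq_nonneg ρ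
    have h8 : 0 ≤ C ^ 2 + C := by positivity
    nlinarith [mul_nonneg h4 h6, mul_nonneg h5 h7, mul_nonneg h8 h6, mul_nonneg h8 h7]

theorem decF (hA : BaseA) (hB : BaseB) (hD : DelStmt) (hE : EnStmt) (hL : LocStmt) :
    DecFStmt := by
  have _hD := hD
  intro n k Γ δ hn hk hC hδ
  obtain ⟨ε₀, C, hε₀, hC1, hEn⟩ := hE n k (-1) Γ hn hk (by norm_num) hC
  have hC0 : 0 < C := lt_of_lt_of_le one_pos hC1
  obtain ⟨R, CL, hR, hCL, hLoc⟩ := hL n (-1) (δ / C ^ 2) (by norm_num) (by positivity)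
  refine ⟨R, C ^ 2 + C * CL / δ, hR, ?_, ?_⟩
  · have h1 : 0 ≤ C * CL / δ := by positivity
    nlinarith
  intro a b X hX s₁ s₂ h1 h12 h2
  have hPar : Par (lam a) 0 := ⟨hC.lam_pos a, le_rfl, by simp⟩
  obtain ⟨hcont, hpt, hder⟩ := hEn δ 0 0 a b X le_rfl hPar (Or.inr ⟨rfl, le_rfl⟩) hX
  have hsub : Icc s₁ s₂ ⊆ Icc a b := Icc_subset_Icc h1 h2
  have hsub' : Ioo s₁ s₂ ⊆ Ioo a b := Ioo_subset_Ioo h1 h2
  have hE0 : ∀ σ ∈ Icc a b, 0 ≤ En n Γ 0 k (-1) X σ := fun σ hσ =>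
    nonneg_of_mul_nonneg_right ((hA.QQ_nonneg _ _ _ _ _ _).trans (hpt σ hσ).2.2.1) hC0 |> id
  have hlc : Continuous lam := continuous_iff_continuousAt.2 fun σ => (hC.lam_deriv σ).continuousAt
  have hcont' : ContinuousOn (fun σ => lam σ * En n Γ 0 k (-1) X σ) (Icc s₁ s₂) :=
    hlc.continuousOn.mul (hcont.mono hsub)
  have key : ∀ σ ∈ Ioo a b, ∃ E', HasDerivAt (fun σ => lam σ * En n Γ 0 k (-1) X σ) E' σ ∧
      E' ≤ -2 * δ * (lam σ * En n Γ 0 k (-1) X σ)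
        + C * (lam σ * (lam σ ^ 2 * TT n (lam σ) 0 0 2 (-1 - 2) (X σ))) := by
    intro σ hσ
    obtain ⟨E', hE1, hE2⟩ := hder σ hσ
    have h3 := hE2 (by simpa [N1] using hε₀.le)
    rw [inv_zero, zero_mul, zero_mul, zero_mul, add_zero] at h3
    refine ⟨_, (hC.lam_deriv σ).mul hE1, ?_⟩
    have h4 := mul_le_mul_of_nonneg_left h3 (hC.lam_pos σ).le
    have h5 := mul_nonneg (hC.lam_pos σ).le (hE0 σ (Ioo_subset_Icc_self hσ))
    generalize TT n (lam σ) 0 0 2 (-1 - 2) (X σ) = T at h4 ⊢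
    generalize En n Γ 0 k (-1) X σ = E at h4 h5 ⊢
    linarith
  refine ⟨?_, fun ρ hρ => ?_⟩
  · have h := Dec.gron (c := C ^ 2) (A := 0) h12 hcont' fun σ hσ => by
      obtain ⟨E', hE1, hE2⟩ := key σ (hsub' hσ)
      have hσ' := Ioo_subset_Icc_self (hsub' hσ)
      refine ⟨E', hE1, hE2.trans ?_⟩
      obtain ⟨p1, p2, p3, -⟩ := hpt σ hσ'
      have h3 := ((Dec.lam_TT hA hB n p1 p2).trans (Dec.TT_QQ hA n k _ _ _ _)).trans p3
      have h5 := mul_nonneg (hC.lam_pos σ).le (hE0 σ hσ')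
      have h7 := mul_le_mul_of_nonneg_left
        (mul_le_mul_of_nonneg_left h3 (hC.lam_pos σ).le) hC0.le
      have h9 := mul_nonneg hδ.le h5
      nlinarith
    have h3 : Real.exp (C ^ 2 * (s₂ - s₁)) ≤ Real.exp ((C ^ 2 + C * CL / δ) * (s₂ - s₁)) := by
      refine Real.exp_le_exp.2 (mul_le_mul_of_nonneg_right ?_ (sub_nonneg.2 h12))
      have h1 : 0 ≤ C * CL / δ := by positivity
      linarith
    have h4 := mul_nonneg (hC.lam_pos s₁).le (hE0 s₁ (hsub ⟨le_rfl, h12⟩))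
    have h5 := mul_le_mul_of_nonneg_right h3 h4
    rw [sub_zero, sub_zero] at h
    exact h.trans h5
  · have h := Dec.decay (K := C * CL * ρ ^ 2) hδ (by positivity) h12 hcont' fun σ hσ => by
      obtain ⟨E', hE1, hE2⟩ := key σ (hsub' hσ)
      have hσ' := Ioo_subset_Icc_self (hsub' hσ)
      refine ⟨E', hE1, hE2.trans ?_⟩
      obtain ⟨p1, p2, p3, -⟩ := hpt σ hσ'
      have h3 := (Dec.TT_QQ hA n k _ _ _ _).trans p3
      have hl := hC.lam_pos σ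
      have h6 := hLoc (lam σ) 0 ρ (X σ) p1 p2
        fun x hx => hρ σ (Ioo_subset_Icc_self hσ) x hx.1
      have e1 : lam σ ^ ((2 : ℤ) - -1) = lam σ * lam σ ^ 2 := by
        rw [show (2 : ℤ) - -1 = ((3 : ℕ) : ℤ) by norm_num, zpow_natCast]
        ring
      rw [e1, neg_neg, zpow_one, mul_assoc] at h6
      have h7 : C * (δ / C ^ 2 * (lam σ * TT n (lam σ) 0 0 2 (-1) (X σ))) ≤
          δ * (lam σ * En n Γ 0 k (-1) X σ) := by
        have h8 : C * (δ / C ^ 2 * (lam σ * (C * En n Γ 0 k (-1) X σ)))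
            = δ * (lam σ * En n Γ 0 k (-1) X σ) := by
          field_simp
        rw [← h8]
        gcongr
      have h9 := mul_le_mul_of_nonneg_left h6 hC0.le
      rw [mul_add, ← mul_assoc C CL] at h9
      generalize C * (lam σ * (lam σ ^ 2 * TT n (lam σ) 0 0 2 (-1 - 2) (X σ))) = T at h9 ⊢
      generalize C * (δ / C ^ 2 * (lam σ * TT n (lam σ) 0 0 2 (-1) (X σ))) = T' at h7 h9
      generalize lam σ * En n Γ 0 k (-1) X σ = E at h7 ⊢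
      linarith
    refine h.trans (add_le_add le_rfl ?_)
    have h3 : C * CL * ρ ^ 2 / δ = C * CL / δ * ρ ^ 2 := by ring
    rw [h3]
    nlinarith [mul_nonneg (sq_nonneg C) (sq_nonneg ρ)]

end Vale.Agent.P264
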