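import Vale.Agent.P264.StmB

namespace Vale.Agent.P264

open scoped ContDiff Topology
open Set MeasureTheory Filter

namespace En

variable {l ε : ℝ}

theorem syA_change (hB : BaseB) (hl : 0 < l) (hε : 0 < ε) {q : ℤ} (q' : ℤ) {a : ℝ → ℝ}
    (h : SyA l ε q a) : SyA l ε q' a := fun m => by
  obtain ⟨M, hM⟩ := hB.syU_change (J := univ) (lam := fun _ => l) (a := fun _ => a) q' hl
    (fun _ _ => ⟨le_rfl, le_rfl⟩) (Or.inl hε)
    (fun m => (h m).imp fun _ hM _ _ => hM) m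
  exact ⟨M, hM 0 trivial⟩

theorem syA_pos (hB : BaseB) (hl : 0 < l) {q : ℤ} {a : ℝ → ℝ} (h : SyA l ε q a) (m : ℕ) :
    ∃ M, 0 ≤ M ∧ Sy l ε m q M a := by
  obtain ⟨M, hM⟩ := h m
  exact ⟨max M 0, le_max_right _ _, hB.mono hl le_rfl (le_max_left _ _) hM⟩

theorem syA_add (hB : BaseB) {q : ℤ} {a b : ℝ → ℝ} (h : SyA l ε q a) (h' : SyA l ε q b) :
    SyA l ε q fun x => a x + b x := fun m => by
  obtain ⟨M, hM⟩ := h m
  obtain ⟨M', hM'⟩ := h' m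
  exact ⟨_, hB.add hM hM'⟩

theorem syA_smul (hB : BaseB) {q : ℤ} {a : ℝ → ℝ} (c : ℝ) (h : SyA l ε q a) :
    SyA l ε q fun x => c * a x := fun m => by
  obtain ⟨M, hM⟩ := h m
  exact ⟨_, hB.smul c hM⟩

theorem syA_mul (hB : BaseB) (hl : 0 < l) {a b : ℝ → ℝ} (h : SyA l ε 0 a) (h' : SyA l ε 0 b) :
    SyA l ε 0 fun x => a x * b x := fun m => by
  obtain ⟨M, h0, hM⟩ := syA_pos hB hl h m
  obtain ⟨M', h0', hM'⟩ := syA_pos hB hl h' m
  exact ⟨_, hB.mul hl h0 h0' hM hM'⟩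

theorem syA_FF (hB : BaseB) (n : ℕ) (hp : Par l ε) (hε : 0 < ε) {g V χ f : ℝ → ℝ}
    (hg : SyA l ε 0 g) (hV : SyA l ε (-2) V) (hχ : SyA l ε 0 χ) (hf : SyA l ε 0 f) :
    SyA l ε 0 (FF n ε g V χ f) := by
  have h1 : SyA l ε 0 fun x => om ε x * χ x :=
    syA_mul hB hp.1 (syA_change hB hp.1 hε 0 fun m => ⟨_, hB.om_sy m hp⟩) hχ
  have h2 : SyA l ε 0 (LL n ε f) := syA_change hB hp.1 hε 0 (q := 0 - 2) fun m => by
    obtain ⟨K, -, hK⟩ := hB.LL_sy n m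
    obtain ⟨M, h0, hM⟩ := syA_pos hB hp.1 hf (m + 4)
    exact ⟨_, hK hp h0 hM⟩
  have h3 := syA_add hB (syA_mul hB hp.1 (syA_smul hB (-1)
    (syA_mul hB hp.1 (syA_add hB (syA_smul hB 2 hg) h1) h1)) h2)
    (syA_mul hB hp.1 (syA_mul hB hp.1 h1 (syA_change hB hp.1 hε 0 hV)) hf)
  unfold FF
  simpa only [neg_mul, one_mul] using h3

theorem adm_zero (r : ℤ) : Adm l ε r fun _ => 0 :=
  ⟨contDiffOn_const, fun i => ⟨0, fun x _ => by simp⟩⟩

theorem QQ_zero (n h : ℕ) (r : ℤ) : QQ n l ε h r (fun _ => 0) = 0 := by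
  simp [QQ, TT]

theorem sy_abs {h : ℕ} {q : ℤ} {M : ℝ} {a : ℝ → ℝ} (ha : Sy l ε h q M a) {x : ℝ}
    (hx : x ∈ dom ε) : |a x| ≤ M * vp l x ^ q := by
  simpa using ha.2 0 (Nat.zero_le _) x hx

theorem final {CB Ce M μ T u z E A B : ℝ} (hCB : 0 ≤ CB) (hM : 0 ≤ M) (hμ : 0 ≤ μ) (hT : 0 ≤ T)
    (hu : 0 ≤ u) (hCe : 0 ≤ Ce) (hA : A ≤ u ^ 2 * (Ce * z)) (hB : B ≤ M * E) :
    μ * CB * (T + √A * √B) ≤ μ * (M + CB + CB * √Ce * √M) * (T + u * √z * √E) := by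
  have h1 : √A ≤ u * (√Ce * √z) := by
    rw [← Real.sqrt_mul hCe, ← Real.sqrt_sq hu, ← Real.sqrt_mul (sq_nonneg _)]
    exact Real.sqrt_le_sqrt hA
  have h2 : √B ≤ √M * √E := by
    rw [← Real.sqrt_mul hM]
    exact Real.sqrt_le_sqrt hB
  have h3 : √A * √B ≤ u * (√Ce * √z) * (√M * √E) := by gcongr
  have h4 : 0 ≤ u * √z * √E := by positivity
  have h5 : 0 ≤ CB * √Ce * √M := by positivity
  rw [mul_assoc μ, mul_assoc μ]
  refine mul_le_mul_of_nonneg_left ?_ hμ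
  have h6 := mul_le_mul_of_nonneg_left h3 hCB
  nlinarith [mul_nonneg hM hT, mul_nonneg hM h4, mul_nonneg hCB h4, mul_nonneg h5 hT]

end En

open En in
theorem en (hA : BaseA) (hB : BaseB) (hD : DelStmt) (hBd : BoundStmt) (hDer : DerStmt)
    (hNL : NLStmt) (hP : PSolStmt) : EnStmt := by
  intro n k p Γ hn hk hp hC
  obtain ⟨M₀, hM₀, hsy⟩ := hC.sy k
  obtain ⟨c, hc, hlow⟩ := hC.low
  obtain ⟨M, hM0, hMc⟩ : ∃ M, M₀ ≤ M ∧ M⁻¹ ≤ c :=
    ⟨max M₀ c⁻¹, le_max_left _ _, inv_le_of_inv_le₀ hc (le_max_right _ _)⟩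
  have hM : 1 ≤ M := hM₀.trans hM0
  obtain ⟨ε₁, CB, hε₁, hCB, hbd⟩ := hBd n k p M hn (by omega) hM
  obtain ⟨CN, hCN, hnl⟩ := hNL n k p M₀ hn hk
  obtain ⟨Ce, hCe, herr⟩ := hC.errQ k p hp
  have hMC : M ≤ M + CB + CB * √Ce * √M := by
    have : 0 ≤ CB * √Ce * √M := by positivity
    linarith
  refine ⟨min 1 (ε₁ / (CN + 1)), M + CB + CB * √Ce * √M, by positivity, hM.trans hMC,
    fun δ ε η a b X hη hpa hcase hX => ?_⟩
  have hpar : ∀ s ∈ Icc a b, Par (lam s) ε := fun s hs => ⟨hC.lam_pos s, hpa.2.1,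
    (mul_le_mul_of_nonneg_left (hC.lam_anti hs.1) hpa.2.1).trans hpa.2.2⟩
  have hll : ∀ s ∈ Icc a b, lam b ≤ lam s ∧ lam s ≤ lam a := fun s hs =>
    ⟨hC.lam_anti hs.2, hC.lam_anti hs.1⟩
  have hc' : 0 < ε ∨ p + 2 * 0 ≤ -1 := hcase.imp_right fun h => by omega
  have hXU := hB.admU_of_syU p (hC.lam_pos b) hll hc' hX.sy
  have hRU := hB.admU_of_syU p (hC.lam_pos b) hll hc'
    (hP.rr_syU hC hpa (hcase.imp_right And.left) hX)
  have hadm : ∀ s ∈ Icc a b, Adm (lam s) ε p (X s) := fun s hs =>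
    ⟨hXU.1 s hs, fun i => (hXU.2 i).imp fun _ h => h s hs⟩
  have hGt : ∀ s ∈ Icc a b, ∀ x ∈ dom ε,
      |lam s ^ 2 * (2 * gg Γ ε s x * om ε x * gvt Γ ε s x)|
        ≤ M * lam s ^ 2 * vp (lam s) x ^ (-2 : ℤ) := fun s hs x hx => by
    have h1 := sy_abs (hsy ε s (hpar s hs)).2.2.2.2.2.2.2 hx
    have h2 := zpow_pos (hA.vp_pos x (hC.lam_pos s)) (-2)
    rw [abs_mul, abs_of_nonneg (sq_nonneg _), mul_comm M, mul_assoc (lam s ^ 2)]
    exact mul_le_mul_of_nonneg_left (h1.trans (mul_le_mul_of_nonneg_right hM0 h2.le)) (sq_nonneg _)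
  have hEQ := fun s (hs : s ∈ Icc a b) => hA.EE_QQ n k p (hpar s hs) (one_pos.trans_le hM)
    (hadm s hs) (hsy ε s (hpar s hs)).2.2.1.1.continuousOn fun x hx =>
      ⟨hMc.trans (hlow ε s hpa.2.1 x hx).2, by
        have := sy_abs (hsy ε s (hpar s hs)).2.2.1 hx
        rw [zpow_zero, mul_one] at this
        exact (le_abs_self _).trans (this.trans hM0)⟩
  obtain ⟨hcont, hder⟩ := hDer n k p a b ε lam (fun s => -(lam s) / 2) (GG Γ ε)
    (fun s x => lam s ^ 2 * (2 * gg Γ ε s x * om ε x * gvt Γ ε s x)) X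
    (fun s => RR n Γ δ ε η s (X s)) hn hpar
    (fun s _ => (hC.lam_deriv s).continuousAt.continuousWithinAt) (fun s _ => hC.lam_deriv s)
    ⟨lam a, fun s hs => by
      have := hC.lam_pos s
      have := hC.lam_anti hs.1.le
      rw [abs_le]
      constructor <;> linarith⟩
    ⟨c, hc, fun s _ x hx => (hlow ε s hpa.2.1 x hx).2⟩
    (fun s hs => (hsy ε s (hpar s hs)).2.2.1.1.continuousOn)
    (fun x hx s _ => (hC.dt ε s x hx.1).2.continuousAt.continuousWithinAt)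
    (fun s hs => ⟨continuousOn_const.mul
      (hsy ε s (hpar s (Ioo_subset_Icc_self hs))).2.2.2.2.2.2.2.1.continuousOn,
      fun x hx => (hC.dt ε s x hx.1).2⟩)
    ⟨M, fun s hs x hx => (hGt s (Ioo_subset_Icc_self hs) x hx).trans (by
      have h1 := hA.vp_pos x (hC.lam_pos s)
      have h2 := hA.lam_le (lam s) x
      have h3 := hC.lam_pos s
      rw [mul_assoc, zpow_neg, zpow_ofNat, ← div_eq_mul_inv]
      exact mul_le_of_le_one_right (by linarith) ((div_le_one (by positivity)).2 (by gcongr)))⟩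
    hXU ⟨fun s hs => hRU.1 s (Ioo_subset_Icc_self hs),
      fun i => (hRU.2 i).imp fun _ h s hs => h s (Ioo_subset_Icc_self hs)⟩
    (fun j x hx => (hX.cj.2 j).comp (f := fun s => (s, x)) (by fun_prop) fun s hs => ⟨hs, hx⟩)
    (hP.jet_t hC hX)
  refine ⟨hcont, fun s hs => ⟨hpar s hs, hadm s hs, (hEQ s hs).1.trans ?_,
    (hEQ s hs).2.trans (mul_le_mul_of_nonneg_right hMC (hA.QQ_nonneg _ _ _ _ _ _))⟩,
    fun s hs => ⟨_, hder s hs, fun hN => ?_⟩⟩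
  · refine mul_le_mul_of_nonneg_right hMC ?_
    exact nonneg_of_mul_nonneg_right ((hA.QQ_nonneg _ _ _ _ _ _).trans (hEQ s hs).1)
      (one_pos.trans_le hM)
  have hs' := Ioo_subset_Icc_self hs
  have hps := hpar s hs'
  have sA := fun h => (hC.sy h).imp fun _ hM => hM.2 ε s hps
  obtain ⟨F, e, h1, h2, h3, h4, h5⟩ : ∃ F e : ℝ → ℝ, Adm (lam s) ε (p + 2) F ∧ Adm (lam s) ε p e ∧
      (∀ x, RR n Γ δ ε η s (X s) x = -δ * X s x + lam s ^ 2 * (-(GG Γ ε s x * LL n ε (X s) x)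
        + 2 * gg Γ ε s x * V1 n Γ ε s x * X s x + F x + e x)) ∧
      QQ n (lam s) ε (k - 2) (p + 2) F ≤ ε₁ * QQ n (lam s) ε (k + 2) (p - 2) (X s) ∧
      QQ n (lam s) ε k p e ≤ (η⁻¹ * Real.exp (-(δ * s))) ^ 2 * (Ce * ε ^ (6 - p)) := by
    by_cases h0 : η = 0
    · refine ⟨fun _ => 0, fun _ => 0, adm_zero _, adm_zero _, fun x => by simp [RR, FF, h0], ?_, ?_⟩
      · rw [QQ_zero]
        exact mul_nonneg hε₁.le (hA.QQ_nonneg _ _ _ _ _ _)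
      · simp [QQ_zero, h0]
    have hε : 0 < ε := hcase.resolve_right fun h => h0 h.1
    have a1 : SyA (lam s) ε 0 (gg Γ ε s) := fun h => (sA h).imp fun _ hM => hM.2.1
    have a2 : SyA (lam s) ε (-2) (V1 n Γ ε s) := fun h => (sA h).imp fun _ hM => hM.2.2.2.1
    have a3 : SyA (lam s) ε 0 (X s) := fun h => (hX.sy h).imp fun _ hM => hM s hs'
    have a4 := syA_smul hB (η * Real.exp (δ * s)) a3
    have a5 : SyA (lam s) ε (-3) (err n Γ ε s) := fun h => (sA h).imp fun _ hM => hM.2.2.2.2.2.1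
    refine ⟨FF n ε (gg Γ ε s) (V1 n Γ ε s) (fun y => η * Real.exp (δ * s) * X s y) (X s),
      fun x => η⁻¹ * Real.exp (-(δ * s)) * err n Γ ε s x,
      hB.adm_of_syA _ hps.1 (Or.inl hε) (syA_FF hB n hps hε a1 a2 a4 a3),
      hB.adm_of_syA _ hps.1 (Or.inl hε) (syA_smul hB _ a5), fun x => rfl, ?_, ?_⟩
    · have e1 : QQ n (lam s) ε k 2 (fun y => η * Real.exp (δ * s) * X s y) = N1 n δ ε η k X s :=
        hA.QQ_smul _ _ _ _ _ _ _
      refine (hnl _ _ _ _ _ _ hps hε (hsy ε s hps).2.1 (hsy ε s hps).2.2.2.1 a1 a2 a4 a3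
        (e1.trans_le (hN.trans (min_le_left _ _)))).trans
        (mul_le_mul_of_nonneg_right ?_ (hA.QQ_nonneg _ _ _ _ _ _))
      have e2 := (le_div_iff₀ (by positivity)).1 (hN.trans (min_le_right _ _))
      have e3 := hA.QQ_nonneg n (lam s) ε k 2 fun y => η * Real.exp (δ * s) * X s y
      rw [e1] at e3 ⊢
      linarith
    · rw [hA.QQ_smul]
      exact mul_le_mul_of_nonneg_left (herr ε s hps hε) (sq_nonneg _)
  refine (hbd (lam s) ε δ (lam s ^ 2) _ (GG Γ ε s) _ (fun x => 2 * gg Γ ε s x * V1 n Γ ε s x)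
    (X s) F e _ hps (fun h => (sA h).imp fun _ hM => hM.2.2.1)
    (fun h => (sA h).imp fun _ hM => hM.2.2.2.2.1)
    (hB.mono hps.1 le_rfl hM0 (hsy ε s hps).2.2.1)
    (hB.mono hps.1 le_rfl hM0 (hsy ε s hps).2.2.2.2.1)
    (fun x hx => hMc.trans (hlow ε s hpa.2.1 x hx).2) (sq_nonneg _) ?_
    (continuousOn_const.mul (hsy ε s hps).2.2.2.2.2.2.2.1.continuousOn) (hGt s hs') (hadm s hs')
    h1 h2 (fun x _ => h3 x) h4).trans (add_le_add le_rfl ?_)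
  · have := sq_nonneg (lam s)
    rw [abs_le]
    constructor <;> nlinarith
  · exact final hCB (zero_le_one.trans hM) (sq_nonneg _) (hA.TT_nonneg _ _ _ _ _ _ _)
      (by positivity) hCe h5 (hEQ s hs').1

end Vale.Agent.P264
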