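import Vale.Agent.P264.StmB

/-! Small mass keeps the solution in the tube; uniform control. -/

namespace Vale.Agent.P264

open Set MeasureTheory

namespace Exit

theorem first_hit {E : ℝ → ℝ} {b K σ : ℝ} (hE : ContinuousOn E (Icc 0 b)) (h0 : E 0 ≤ K)
    (hσ : σ ∈ Icc 0 b) (hK : K ≤ E σ) : ∃ s ∈ Icc 0 b, E s = K ∧ ∀ t ∈ Icc 0 s, E t ≤ K := by
  have h1 : ∀ t ∈ Icc 0 b, K ≤ E t → ∃ s ∈ Icc 0 t, E s = K := fun t ht h =>
    intermediate_value_Icc ht.1 (hE.mono (Icc_subset_Icc_right ht.2)) ⟨h0, h⟩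
  have h2 : IsCompact (Icc 0 b ∩ E ⁻¹' {K}) :=
    isCompact_Icc.of_isClosed_subset
      (hE.preimage_isClosed_of_isClosed isClosed_Icc isClosed_singleton) inter_subset_left
  obtain ⟨s₀, hs₀, hs₀'⟩ := h1 σ hσ hK
  obtain ⟨s, hs, hm⟩ := h2.exists_isLeast ⟨s₀, ⟨hs₀.1, hs₀.2.trans hσ.2⟩, hs₀'⟩
  refine ⟨s, hs.1, hs.2, fun t ht => ?_⟩
  by_contra h
  have ht' : t ∈ Icc 0 b := ⟨ht.1, ht.2.trans hs.1.2⟩
  obtain ⟨u, hu, hu'⟩ := h1 t ht' (not_le.1 h).le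
  have h3 : s ≤ u := hm ⟨⟨hu.1, hu.2.trans ht'.2⟩, hu'⟩
  rw [le_antisymm ht.2 (h3.trans hu.2)] at h
  exact h (le_of_eq hs.2)

theorem last_hit {E : ℝ → ℝ} {s K : ℝ} (hE : ContinuousOn E (Icc 0 s)) (h0 : E 0 ≤ K)
    (hs : 0 ≤ s) : ∃ s' ∈ Icc 0 s, E s' ≤ K ∧ ∀ t ∈ Ioc s' s, K < E t := by
  have h2 : IsCompact (Icc 0 s ∩ E ⁻¹' Iic K) :=
    isCompact_Icc.of_isClosed_subset
      (hE.preimage_isClosed_of_isClosed isClosed_Icc isClosed_Iic) inter_subset_left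
  obtain ⟨s', hs', hm⟩ := h2.exists_isGreatest ⟨0, left_mem_Icc.2 hs, h0⟩
  refine ⟨s', hs'.1, hs'.2, fun t ht => ?_⟩
  by_contra h
  exact absurd (hm ⟨⟨hs'.1.1.trans ht.1.le, ht.2⟩, not_lt.1 h⟩) (not_le.2 ht.1)

theorem mass_ge {E : ℝ → ℝ} {b θ₀ s' s : ℝ} (hE : ContinuousOn E (Icc 0 b)) (h0 : 0 ≤ s')
    (h1 : s' ≤ s) (h2 : s ≤ b) (h : ∀ t ∈ Ioc s' s, θ₀ + 2 ≤ E t) :
    (s - s') * 2 ≤ mass E θ₀ b := by
  have hb : 0 ≤ b := h0.trans (h1.trans h2)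
  have hc : ContinuousOn (fun σ => max (E σ - θ₀) 0) (Icc 0 b) :=
    (hE.sub continuousOn_const).sup continuousOn_const
  have hi : IntervalIntegrable (fun σ => max (E σ - θ₀) 0) volume 0 b :=
    hc.intervalIntegrable_of_Icc hb
  have hi' : IntervalIntegrable (fun σ => max (E σ - θ₀) 0) volume s' s :=
    (hc.mono (Icc_subset_Icc h0 h2)).intervalIntegrable_of_Icc h1
  refine le_trans ?_ (intervalIntegral.integral_mono_interval h0 h1 h2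
    (Filter.Eventually.of_forall fun σ => le_max_right _ _) hi)
  have h3 := intervalIntegral.integral_mono_on_of_le_Ioo h1
    (intervalIntegrable_const (c := (2 : ℝ))) hi' fun t ht =>
      le_max_of_le_left (by linarith [h t ⟨ht.1, ht.2.le⟩])
  rwa [intervalIntegral.integral_const, smul_eq_mul] at h3

end Exit

theorem exitS (hA : BaseA) (hB : BaseB) (hD : DelStmt) (hE : EnStmt) (hDec : DecCStmt)
    (hT : TubeStmt) (hP : PSolStmt) : ExitStmt := by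
  intro n Γ δ B θ₀ hn hC hδ hδ'
  obtain ⟨εE, CE, -, hCE, hE⟩ := hE n (n + 11) 0 Γ hn (by omega) (by norm_num) hC
  obtain ⟨ε₀, R, C, hε₀, -, hC1, hDec⟩ := hDec n (n + 11) Γ δ hn (by omega) hC hδ
  set K₁ := |CE * B| + |θ₀| + 2 with hK₁
  have hK0 : 0 ≤ K₁ + 1 := by positivity
  obtain ⟨ε₁, CT, hε₁, hε₁', hT⟩ := hT n (n + 11) Γ δ (Real.exp C * (K₁ + 1) + 1) B ε₀ hn le_rfl hC
    hδ hδ' hε₀
  refine ⟨Real.exp C * (K₁ + 1) + 1, ε₁, hε₁, hε₁', fun ε b X hε hε' hb hX h1 h2 hm σ hσ => ?_⟩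
  have hε1 : ε ≤ 1 := hε'.trans hε₁'
  obtain ⟨hc, h3, -⟩ := hE δ ε ε 0 b X hε.le
    ⟨hC.lam_pos 0, hε.le, by rwa [hC.lam_zero, mul_one]⟩ (Or.inl hε) hX
  have h4 : En n Γ ε (n + 11) 0 X 0 ≤ K₁ := by
    have h5 := (h3 0 (left_mem_Icc.2 hb)).2.2.2
    rw [hC.lam_zero] at h5
    have h6 := mul_le_mul_of_nonneg_left h1 (zero_le_one.trans hCE)
    linarith [le_abs_self (CE * B), abs_nonneg θ₀]
  have h5 : K₁ + 1 ≤ Real.exp C * (K₁ + 1) :=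
    le_mul_of_one_le_left hK0 (Real.one_le_exp (by linarith))
  by_contra h
  obtain ⟨s, hs, h6, h7⟩ := Exit.first_hit hc (by linarith) hσ (not_le.1 h).le
  obtain ⟨s', hs', h8, h9⟩ := Exit.last_hit (hc.mono (Icc_subset_Icc_right hs.2)) h4 hs.1
  have hXs := hP.mono le_rfl hs.2 hX
  have h10 := (hDec ε s X hε hε1 hXs (fun t ht => (hT ε s X hε hε' hXs h1 h2 h7 t ht).1) s' s
    hs'.1 hs'.2 le_rfl).1
  have h11 := (Exit.mass_ge hc hs'.1 hs'.2 hs.2 fun t ht => by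
    linarith [h9 t ht, abs_nonneg (CE * B), le_abs_self θ₀]).trans hm
  have h12 : Real.exp (C * (s - s')) ≤ Real.exp C :=
    Real.exp_le_exp.2 (mul_le_of_le_one_right (by linarith) (by linarith))
  have h13 : En n Γ ε (n + 11) 0 X s' + ε ^ 4 ≤ K₁ + 1 :=
    add_le_add h8 (pow_le_one₀ hε.le hε1)
  have h14 := (mul_le_mul_of_nonneg_left h13 (Real.exp_pos (C * (s - s'))).le).trans
    (mul_le_mul_of_nonneg_right h12 hK0)
  linarith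

theorem ctl (hA : BaseA) (hB : BaseB) (hD : DelStmt) (hE : EnStmt) (hX : ExitStmt)
    (hT : TubeStmt) (hS : SymbStmt) (hDa : DataStmt) : CtlStmt := by
  intro n Γ δ θ₀ d y z hn hC hδ hδ' hz h θ hθ
  obtain ⟨hD1, -⟩ := hDa n Γ δ d y z hn hC hz
  obtain ⟨B₀, hB₀, hD0⟩ := hD1 (n + 11)
  obtain ⟨B₁, hB₁, hD1⟩ := hD1 (2 * h + n + 11)
  obtain ⟨K, εX, hεX, hεX', hX⟩ := hX n Γ δ B₀ θ₀ hn hC hδ hδ'
  obtain ⟨C₀, hC₀, hS0⟩ := hS n h 0 hn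
  obtain ⟨C₁, hC₁, hS1⟩ := hS n h (-1) hn
  obtain ⟨εT, CT, hεT, -, hT⟩ := hT n (2 * h + n + 11) Γ δ K B₁ (min θ ((C₁ + 1)⁻¹ ^ 2)) hn
    (by omega) hC hδ hδ' (lt_min hθ (by positivity))
  refine ⟨min εX εT, C₀ * √CT + |CT| + |K|, lt_min hεX hεT, by positivity,
    fun ε r a X hε hε' hF ha hr hm σ hσ => ?_⟩
  have e1 : ε ≤ εX := hε'.trans (min_le_left _ _)
  have e2 : ε ≤ εT := hε'.trans (min_le_right _ _)
  have e3 : ε ≤ 1 := e1.trans hεX'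
  have ha2 : ∀ {B : ℝ}, 0 ≤ B → B * ‖a‖ ^ 2 ≤ B := fun hB =>
    mul_le_of_le_one_right hB (pow_le_one₀ (norm_nonneg _) ha)
  have hq : ∀ k p, QQ n 1 ε k p (X a 0) = QQ n 1 ε k p (cutz z ε a) := fun k p =>
    hA.QQ_congr n 1 k p (hF.init a ha)
  have hsol := hF.sol a ha r
  have h1 := hX ε r (X a) hε e1 hr hsol (by rw [hq]; exact (hD0 ε hε e3 a).1.trans (ha2 hB₀))
    (by rw [hq]; exact (hD0 ε hε e3 a).2.trans (ha2 hB₀)) hm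
  obtain ⟨h2, h3⟩ := hT ε r (X a) hε e2 hsol
    (by rw [hq]; exact (hD1 ε hε e3 a).1.trans (ha2 hB₁))
    (by rw [hq]; exact (hD1 ε hε e3 a).2.trans (ha2 hB₁)) h1 σ hσ
  have hl := hC.lam_pos σ
  have hp : Par (lam σ) ε := ⟨hl, hε.le, mul_le_one₀ e3 hl.le (hC.lam_zero ▸ hC.lam_anti hσ.1)⟩
  have hy : SyA (lam σ) ε 0 (X a σ) := fun j => (hsol.sy j).imp fun M hM => hM σ hσ
  have hy' : SyA (lam σ) ε 0 fun x => ε * Real.exp (δ * σ) * X a σ x := fun j =>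
    (hy j).elim fun M hM => ⟨_, hB.smul _ hM⟩
  have hN : ∀ k ≤ 2 * h + n + 11, N1 n δ ε ε k (X a) σ ≤ min θ ((C₁ + 1)⁻¹ ^ 2) := fun k hk =>
    (mul_le_mul_of_nonneg_left (hA.QQ_mono n _ _ _ _ hk) (sq_nonneg _)).trans h2
  have p0 : 0 ≤ C₀ * √CT := by positivity
  refine ⟨hB.mono hl le_rfl ?_ (hS0 _ _ _ hp (hB.adm_of_syA _ hl (Or.inl hε) hy)),
    hB.mono hl le_rfl ?_ (hS1 _ _ _ hp (hB.adm_of_syA _ hl (Or.inl hε) hy')), ?_, ?_,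
    (hN _ (by omega)).trans (min_le_left _ _)⟩
  · have h4 : QQ n (lam σ) ε (2 * h + n + 3) (-2 * 0) (X a σ) ≤ CT :=
      (hA.QQ_mono n _ _ _ _ (by omega)).trans h3
    have h5 := mul_le_mul_of_nonneg_left (Real.sqrt_le_sqrt h4) hC₀
    linarith [abs_nonneg CT, abs_nonneg K]
  · have h4 : QQ n (lam σ) ε (2 * h + n + 3) (-2 * -1)
        (fun x => ε * Real.exp (δ * σ) * X a σ x) ≤ (C₁ + 1)⁻¹ ^ 2 := by
      rw [hA.QQ_smul]
      exact (hN _ (by omega)).trans (min_le_right _ _)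
    refine (mul_le_mul_of_nonneg_left (Real.sqrt_le_sqrt h4) hC₁).trans ?_
    rw [Real.sqrt_sq (by positivity), mul_inv_le_iff₀ (by positivity)]
    linarith
  · have h4 : QQ n (lam σ) ε h 0 (X a σ) ≤ CT := (hA.QQ_mono n _ _ _ _ (by omega)).trans h3
    linarith [le_abs_self CT, abs_nonneg K]
  · linarith [h1 σ hσ, le_abs_self K, abs_nonneg CT]

end Vale.Agent.P264
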