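import Vale.Agent.P264.StmB

/-!
An abstract volume contraction argument (PLAN Part B / FD).
-/

namespace Vale.Agent.P264

open Matrix

namespace FD

variable {D : ℕ}

/-- orthogonal diagonalization -/
lemma diag (H : Matrix (Fin D) (Fin D) ℝ) (hH : H.IsHermitian) :
    ∃ U : Matrix (Fin D) (Fin D) ℝ, Uᵀ * U = 1 ∧ Uᵀ * H * U = diagonal hH.eigenvalues := by
  refine ⟨(hH.eigenvectorUnitary : Matrix (Fin D) (Fin D) ℝ), ?_, ?_⟩
  · have := Unitary.coe_star_mul_self hH.eigenvectorUnitary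
    simpa [star_eq_conjTranspose, conjTranspose_eq_transpose_of_trivial] using this
  · have := hH.conjStarAlgAut_star_eigenvectorUnitary
    rw [Unitary.conjStarAlgAut_star_apply] at this
    simpa [star_eq_conjTranspose, conjTranspose_eq_transpose_of_trivial, Function.comp_def]
      using this

/-- simultaneous diagonalization -/
lemma simul (G H : Matrix (Fin D) (Fin D) ℝ) (hG : G.PosDef) (hH : H.IsHermitian) :
    ∃ (P : Matrix (Fin D) (Fin D) ℝ) (l : Fin D → ℝ), Pᵀ * G * P = 1 ∧ Pᵀ * H * P = diagonal l := by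
  obtain ⟨U, -, hU⟩ := diag G hG.1
  set μ := hG.1.eigenvalues with hμ
  have hpos : ∀ i, 0 < μ i := fun i => hG.eigenvalues_pos i
  set S : Matrix (Fin D) (Fin D) ℝ := diagonal fun i => (Real.sqrt (μ i))⁻¹ with hS
  have hL : (U * S)ᵀ * G * (U * S) = 1 := by
    have : (U * S)ᵀ * G * (U * S) = Sᵀ * (Uᵀ * G * U) * S := by
      simp only [transpose_mul, Matrix.mul_assoc]
    rw [this, hU, hS, diagonal_transpose, diagonal_mul_diagonal, diagonal_mul_diagonal,
      ← diagonal_one]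
    congr 1
    funext i
    have h1 : 0 < Real.sqrt (μ i) := Real.sqrt_pos.2 (hpos i)
    have h2 : Real.sqrt (μ i) * Real.sqrt (μ i) = μ i := Real.mul_self_sqrt (hpos i).le
    field_simp
    nlinarith
  have hC : ((U * S)ᵀ * H * (U * S)).IsHermitian := by
    have := isHermitian_conjTranspose_mul_mul (U * S) hH
    rwa [conjTranspose_eq_transpose_of_trivial] at this
  obtain ⟨W, hW1, hW⟩ := diag _ hC
  refine ⟨U * S * W, hC.eigenvalues, ?_, ?_⟩
  · have : (U * S * W)ᵀ * G * (U * S * W) = Wᵀ * ((U * S)ᵀ * G * (U * S)) * W := by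
      simp only [transpose_mul, Matrix.mul_assoc]
    rw [this, hL, Matrix.mul_one, hW1]
  · have : (U * S * W)ᵀ * H * (U * S * W) = Wᵀ * ((U * S)ᵀ * H * (U * S)) * W := by
      simp only [transpose_mul, Matrix.mul_assoc]
    rw [this, hW]

lemma quad_conj (H P : Matrix (Fin D) (Fin D) ℝ) (c : Fin D → ℝ) :
    (P *ᵥ c) ⬝ᵥ (H *ᵥ (P *ᵥ c)) = c ⬝ᵥ ((Pᵀ * H * P) *ᵥ c) := by
  rw [← mulVec_mulVec, ← mulVec_mulVec, dotProduct_mulVec c Pᵀ, vecMul_transpose]

lemma quad_diag (l c : Fin D → ℝ) : c ⬝ᵥ (diagonal l *ᵥ c) = ∑ i, l i * c i ^ 2 := by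
  simp only [dotProduct, mulVec_diagonal]
  exact Finset.sum_congr rfl fun i _ => by ring

/-- the one step determinant inequality -/
lemma step {d : ℕ} (G H : Matrix (Fin D) (Fin D) ℝ) (hG : G.PosDef) (hH : H.PosSemidef)
    (ψ : Fin d → (Fin D → ℝ) →ₗ[ℝ] ℝ) (M : ℝ) (hM : 1 ≤ M)
    (h1 : ∀ c, c ⬝ᵥ (H *ᵥ c) ≤ M * (c ⬝ᵥ (G *ᵥ c)))
    (h2 : ∀ c, (∀ i, ψ i c = 0) → c ⬝ᵥ (H *ᵥ c) ≤ c ⬝ᵥ (G *ᵥ c) / 4) :
    H.det ≤ M ^ d * (1 / 4) ^ (D - d) * G.det := by
  classical
  obtain ⟨P, l, hP, hl⟩ := simul G H hG hH.1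
  have qG : ∀ c, (P *ᵥ c) ⬝ᵥ (G *ᵥ (P *ᵥ c)) = ∑ i, c i ^ 2 := fun c => by
    rw [quad_conj, hP, ← diagonal_one, quad_diag]
    simp
  have qH : ∀ c, (P *ᵥ c) ⬝ᵥ (H *ᵥ (P *ᵥ c)) = ∑ i, l i * c i ^ 2 := fun c => by
    rw [quad_conj, hl, quad_diag]
  have sing : ∀ (f : Fin D → ℝ) (i : Fin D),
      ∑ j, f j * (Pi.single i (1 : ℝ) : Fin D → ℝ) j ^ 2 = f i := fun f i => by
    rw [Finset.sum_eq_single i]
    · simp
    · intro j _ hj
      simp [Pi.single_eq_of_ne hj]
    · simp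
  have l0 : ∀ i, 0 ≤ l i := fun i => by
    have := hH.dotProduct_mulVec_nonneg (P *ᵥ Pi.single i 1)
    rwa [star_trivial, qH, sing] at this
  have lM : ∀ i, l i ≤ M := fun i => by
    have := h1 (P *ᵥ Pi.single i 1)
    have e := sing (fun _ => 1) i
    simp only [one_mul] at e
    rwa [qH, qG, sing, e, mul_one] at this
  set I : Finset (Fin D) := Finset.univ.filter fun i => 1 / 4 < l i with hI
  have hcard : I.card ≤ d := by
    by_contra hc
    push Not at hc
    let ext : (I → ℝ) →ₗ[ℝ] (Fin D → ℝ) :=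
      LinearMap.pi fun j => if h : j ∈ I then LinearMap.proj (⟨j, h⟩ : I) else 0
    have hext : ∀ (c : I → ℝ) (j : Fin D), ext c j = if h : j ∈ I then c ⟨j, h⟩ else 0 := by
      intro c j
      simp only [ext, LinearMap.pi_apply]
      split_ifs <;> simp
    let F : (I → ℝ) →ₗ[ℝ] (Fin d → ℝ) := LinearMap.pi fun i => ψ i ∘ₗ P.mulVecLin ∘ₗ ext
    have hk : LinearMap.ker F ≠ ⊥ := by
      apply LinearMap.ker_ne_bot_of_finrank_lt
      simpa using hc
    obtain ⟨c, hc0, hcne⟩ := Submodule.exists_mem_ne_zero_of_ne_bot hk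
    have hψ : ∀ i, ψ i (P *ᵥ ext c) = 0 := fun i => by
      have := congrFun (LinearMap.mem_ker.1 hc0) i
      simpa [F] using this
    have h3 := h2 _ hψ
    rw [qH, qG] at h3
    obtain ⟨j, hj⟩ := Function.ne_iff.1 hcne
    have hlt : ∑ i, (1 / 4) * ext c i ^ 2 < ∑ i, l i * ext c i ^ 2 := by
      apply Finset.sum_lt_sum
      · intro i _
        by_cases hi : i ∈ I
        · have : 1 / 4 < l i := (Finset.mem_filter.1 hi).2
          nlinarith [sq_nonneg (ext c i)]
        · rw [hext, dif_neg hi]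
          simp
      · refine ⟨j, Finset.mem_univ _, ?_⟩
        have h4 : 1 / 4 < l j := (Finset.mem_filter.1 j.2).2
        have h5 : ext c j = c j := by rw [hext, dif_pos j.2]
        have h6 : 0 < c j ^ 2 := by
          have : c j ≠ 0 := hj
          positivity
        rw [h5]
        nlinarith
    rw [← Finset.mul_sum] at hlt
    linarith
  have hprod : ∏ i, l i ≤ M ^ d * (1 / 4) ^ (D - d) := by
    rw [← Finset.prod_filter_mul_prod_filter_not Finset.univ (fun i => 1 / 4 < l i)]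
    have a1 : ∏ i ∈ I, l i ≤ M ^ d :=
      calc ∏ i ∈ I, l i ≤ ∏ _i ∈ I, M := Finset.prod_le_prod (fun i _ => l0 i) fun i _ => lM i
        _ = M ^ I.card := Finset.prod_const M
        _ ≤ M ^ d := pow_le_pow_right₀ hM hcard
    set J : Finset (Fin D) := Finset.univ.filter fun i => ¬ (1 / 4 < l i) with hJ
    have hIJ : I.card + J.card = D := by
      rw [hI, hJ, Finset.card_filter_add_card_filter_not]
      simp
    have a2 : ∏ i ∈ J, l i ≤ (1 / 4) ^ (D - d) :=
      calc ∏ i ∈ J, l i ≤ ∏ _i ∈ J, (1 / 4 : ℝ) :=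
            Finset.prod_le_prod (fun i _ => l0 i) fun i hi =>
              not_lt.1 (Finset.mem_filter.1 hi).2
        _ = (1 / 4) ^ J.card := Finset.prod_const _
        _ ≤ (1 / 4) ^ (D - d) := pow_le_pow_of_le_one (by norm_num) (by norm_num) (by omega)
    exact mul_le_mul a1 a2 (Finset.prod_nonneg fun i _ => l0 i) (by positivity)
  have dG : P.det ^ 2 * G.det = 1 := by
    have := congrArg det hP
    rw [det_mul, det_mul, det_transpose, det_one] at this
    linarith
  have dH : P.det ^ 2 * H.det = ∏ i, l i := by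
    have := congrArg det hl
    rw [det_mul, det_mul, det_transpose, det_diagonal] at this
    linarith
  have : H.det = (∏ i, l i) * G.det := by
    rw [← dH]
    linear_combination (-H.det) * dG
  rw [this]
  exact mul_le_mul_of_nonneg_right hprod hG.det_pos.le

section Gram

variable {A : Type} [AddCommGroup A] [Module ℝ A]

/-- Gram matrix -/
def gram (B : A →ₗ[ℝ] A →ₗ[ℝ] ℝ) (v : Fin D → A) : Matrix (Fin D) (Fin D) ℝ :=
  Matrix.of fun i j => B (v i) (v j)

lemma gram_quad (B : A →ₗ[ℝ] A →ₗ[ℝ] ℝ) (v : Fin D → A) (c : Fin D → ℝ) :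
    c ⬝ᵥ (gram B v *ᵥ c) = B (∑ i, c i • v i) (∑ i, c i • v i) := by
  simp only [dotProduct, mulVec, gram, of_apply, map_sum, map_smul, LinearMap.sum_apply,
    LinearMap.smul_apply, smul_eq_mul, Finset.mul_sum]
  rw [Finset.sum_comm]
  exact Finset.sum_congr rfl fun i _ => Finset.sum_congr rfl fun j _ => by ring

lemma gram_herm {B : A →ₗ[ℝ] A →ₗ[ℝ] ℝ} (hs : ∀ x y, B x y = B y x) (v : Fin D → A) :
    (gram B v).IsHermitian := by
  ext i j
  simp [gram, hs (v j) (v i)]

lemma gram_psd {B : A →ₗ[ℝ] A →ₗ[ℝ] ℝ} (hs : ∀ x y, B x y = B y x) (hp : ∀ x, 0 ≤ B x x)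
    (v : Fin D → A) : (gram B v).PosSemidef :=
  posSemidef_iff_dotProduct_mulVec.2 ⟨gram_herm hs v, fun c => by
    rw [star_trivial, gram_quad]
    exact hp _⟩

lemma abs_le_half {B : A →ₗ[ℝ] A →ₗ[ℝ] ℝ} (hs : ∀ x y, B x y = B y x) (hp : ∀ x, 0 ≤ B x x)
    (x y : A) : |B x y| ≤ (B x x + B y y) / 2 := by
  have h1 := hp (x + y)
  have h2 := hp (x - y)
  simp only [map_add, map_sub, LinearMap.add_apply, LinearMap.sub_apply] at h1 h2
  rw [hs y x] at h1 h2
  rw [abs_le]
  constructor <;> linarith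

end Gram

end FD

open FD in
theorem fd : FDStmt := by
  intro A _ _ B T d φ M hs hp hM hφ hb hz
  by_contra hfin
  set M' : ℝ := max M 1 with hM'
  have hM1 : 1 ≤ M' := le_max_right _ _
  have hM2 : ∀ x, B x x ≤ M' * B (T x) (T x) := fun x =>
    (hM x).trans (mul_le_mul_of_nonneg_right (le_max_left _ _) (hp _))
  obtain ⟨k, hk⟩ := exists_pow_lt_of_lt_one (show 0 < 1 / (2 * M' ^ d) by positivity)
    (show (1 / 4 : ℝ) < 1 by norm_num)
  have hhalf : M' ^ d * (1 / 4) ^ (d + k - d) ≤ 1 / 2 := by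
    rw [Nat.add_sub_cancel_left]
    have h0 : 0 < M' ^ d := by positivity
    rw [lt_div_iff₀ (by positivity)] at hk
    nlinarith
  have hrank : ((d + k : ℕ) : Cardinal) ≤ Module.rank ℝ A := by
    have : Cardinal.aleph0 ≤ Module.rank ℝ A := by
      by_contra h
      exact hfin (Module.rank_lt_aleph0_iff.1 (not_le.1 h))
    exact (Cardinal.natCast_lt_aleph0).le.trans this
  obtain ⟨v, hv⟩ := exists_linearIndependent_of_le_rank hrank
  set G : ℕ → Matrix (Fin (d + k)) (Fin (d + k)) ℝ := fun m => gram B fun i => (T ^ m) (v i)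
    with hG
  have hq : ∀ m c, c ⬝ᵥ (G m *ᵥ c) =
      B ((T ^ m) (∑ i, c i • v i)) ((T ^ m) (∑ i, c i • v i)) := fun m c => by
    rw [hG, gram_quad]
    simp only [map_sum, map_smul]
  have hT : ∀ (m : ℕ) (x : A), T ((T ^ m) x) = (T ^ (m + 1)) x := fun m x => by
    rw [pow_succ', Module.End.mul_apply]
  have hpsd : ∀ m, (G m).PosSemidef := fun m => gram_psd hs hp _
  have h1 : ∀ m c, c ⬝ᵥ (G m *ᵥ c) ≤ M' * (c ⬝ᵥ (G (m + 1) *ᵥ c)) := fun m c => by
    rw [hq, hq, ← hT]
    exact hM2 _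
  have hker : ∀ m c, c ∈ LinearMap.ker (G m).mulVecLin ↔ c ⬝ᵥ (G m *ᵥ c) = 0 := fun m c => by
    have := (hpsd m).dotProduct_mulVec_zero_iff c
    rw [star_trivial] at this
    rw [this, LinearMap.mem_ker, mulVecLin_apply]
  have hanti : Antitone fun m => LinearMap.ker (G m).mulVecLin := by
    apply antitone_nat_of_succ_le
    intro m c hc
    rw [hker] at hc ⊢
    have a := h1 m c
    have b := (hpsd m).dotProduct_mulVec_nonneg c
    rw [star_trivial] at b
    rw [hc, mul_zero] at a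
    exact le_antisymm a b
  obtain ⟨m0, hm0⟩ := IsArtinian.monotone_stabilizes (R := ℝ) (M := Fin (d + k) → ℝ)
    ⟨fun m => OrderDual.toDual (LinearMap.ker (G m).mulVecLin), fun a b hab => hanti hab⟩
  have hzero : ∀ m, m0 ≤ m → ∀ c, c ⬝ᵥ (G m *ᵥ c) = 0 → c = 0 := by
    intro m hm c hc
    have hc0 : c ∈ LinearMap.ker (G m0).mulVecLin := hanti hm ((hker m c).2 hc)
    have hall : ∀ j, c ∈ LinearMap.ker (G j).mulVecLin := fun j => by
      rcases le_total m0 j with h | h
      · have e : LinearMap.ker (G m0).mulVecLin = LinearMap.ker (G j).mulVecLin := hm0 j h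
        rwa [← e]
      · exact hanti h hc0
    have hx : ∑ i, c i • v i = 0 := hz _ fun j => by
      rw [← hq]
      exact (hker j c).1 (hall j)
    funext i
    exact Fintype.linearIndependent_iff.1 hv c hx i
  have hpd : ∀ m, m0 ≤ m → (G m).PosDef := fun m hm =>
    posDef_iff_dotProduct_mulVec.2 ⟨(hpsd m).1, fun c hc => by
      have b := (hpsd m).dotProduct_mulVec_nonneg c
      rw [star_trivial] at b ⊢
      exact lt_of_le_of_ne b fun h => hc (hzero m hm c h.symm)⟩
  have hstep : ∀ m, m0 ≤ m → 2 * (G m).det ≤ (G (m + 1)).det := fun m hm => by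
    have hp1 := hpd (m + 1) (by omega)
    have := step (G (m + 1)) (G m) hp1 (hpsd m)
      (fun i => φ i ∘ₗ (T ^ m) ∘ₗ Fintype.linearCombination ℝ v) M' hM1 (h1 m) (fun c hc => by
        rw [hq, hq, ← hT]
        apply hφ
        intro i
        have := hc i
        simpa [Fintype.linearCombination_apply] using this)
    have h0 := hp1.det_pos
    nlinarith
  have hgrow : ∀ j : ℕ, 2 ^ j * (G m0).det ≤ (G (m0 + j)).det := by
    intro j
    induction j with
    | zero => simp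
    | succ j ih =>
      have := hstep (m0 + j) (by omega)
      rw [pow_succ, ← add_assoc]
      linarith
  choose C hC using hb
  have hC0 : ∀ x, 0 ≤ C x := fun x => (hp _).trans (hC x 0)
  set K : ℝ := ∑ i, C (v i) with hK
  have hle : ∀ i, C (v i) ≤ K := fun i =>
    Finset.single_le_sum (f := fun i => C (v i)) (fun i _ => hC0 _) (Finset.mem_univ i)
  have hbd : ∀ m, (G m).det ≤ ((d + k).factorial : ℝ) * K ^ (d + k) := fun m => by
    have := det_le (A := G m) (abv := AbsoluteValue.abs) (x := K) fun i j => by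
      have a := abs_le_half hs hp ((T ^ m) (v i)) ((T ^ m) (v j))
      have b := hC (v i) m
      have c := hC (v j) m
      have e := hle i
      have f := hle j
      have g : G m i j = B ((T ^ m) (v i)) ((T ^ m) (v j)) := rfl
      rw [AbsoluteValue.abs_apply, g]
      linarith
    rw [AbsoluteValue.abs_apply, Fintype.card_fin, nsmul_eq_mul] at this
    exact (le_abs_self _).trans this
  have h0 := (hpd m0 le_rfl).det_pos
  obtain ⟨j, hj⟩ := pow_unbounded_of_one_lt
    ((((d + k).factorial : ℝ) * K ^ (d + k)) / (G m0).det) (show (1 : ℝ) < 2 by norm_num)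
  rw [div_lt_iff₀ h0] at hj
  have a := hgrow j
  have b := hbd (m0 + j)
  linarith

end Vale.Agent.P264
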