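import Vale.Agent.P264.StmB

/-!
The space of ancient solutions has finite dimension.
-/

namespace Vale.Agent.P264

open scoped ContDiff Topology
open Set MeasureTheory Filter

namespace FinDim

/-- the space of ancient solutions -/
def Sp (hAn : AncStmt) (n : ℕ) (Γ : ℝ → ℝ) (δ : ℝ) : Submodule ℝ (ℝ → ℝ → ℝ) where
  carrier := {Z | Anc n Γ δ Z}
  add_mem' := hAn.add
  zero_mem' := hAn.zero n Γ δ
  smul_mem' c _ h := hAn.smul c h

/-- the polarised energy -/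
noncomputable def bf (n : ℕ) (Γ : ℝ → ℝ) (k : ℕ) (f g : ℝ → ℝ) : ℝ :=
  ∑ j ∈ Finset.range (k + 1), ∫ x in dom 0,
    iteratedDeriv j f x * iteratedDeriv j g x * wt n (lam 0) 0 j (j + 2) (-1) x / GG Γ 0 0 x

theorem bf_comm (n : ℕ) (Γ : ℝ → ℝ) (k : ℕ) (f g : ℝ → ℝ) : bf n Γ k f g = bf n Γ k g f := by
  simp only [bf, mul_comm (iteratedDeriv _ f _)]

theorem bf_self (n : ℕ) (Γ : ℝ → ℝ) (k : ℕ) (Z : ℝ → ℝ → ℝ) :
    bf n Γ k (Z 0) (Z 0) = En n Γ 0 k (-1) Z 0 := by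
  simp only [bf, En, EE, sq]

theorem bf_smul (n : ℕ) (Γ : ℝ → ℝ) (k : ℕ) (c : ℝ) (f g : ℝ → ℝ) :
    bf n Γ k (fun x => c * f x) g = c * bf n Γ k f g := by
  simp only [bf, iteratedDeriv_const_mul_field, Finset.mul_sum, ← integral_const_mul]
  refine Finset.sum_congr rfl fun j _ => congrArg _ (funext fun x => ?_)
  ring

theorem par0 {n : ℕ} {Γ : ℝ → ℝ} (hC : Coef n Γ) : Par (lam 0) 0 :=
  ⟨hC.lam_pos 0, le_rfl, by simp⟩

theorem adm0 (hB : BaseB) {n : ℕ} {Γ : ℝ → ℝ} {δ : ℝ} (hC : Coef n Γ) {Z : ℝ → ℝ → ℝ}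
    (h : Anc n Γ δ Z) : Adm (lam 0) 0 (-1) (Z 0) :=
  hB.adm_of_syA (q := 0) (-1) (hC.lam_pos 0) (Or.inr (by norm_num)) fun i => by
    obtain ⟨M, hM⟩ := h.sy i
    exact ⟨M, hM 0 (mem_Iic.2 le_rfl)⟩

theorem int_bf (hA : BaseA) {n : ℕ} {Γ : ℝ → ℝ} (hC : Coef n Γ) {f g : ℝ → ℝ}
    (hf : Adm (lam 0) 0 (-1) f) (hg : Adm (lam 0) 0 (-1) g) (j : ℕ) :
    IntegrableOn (fun x => iteratedDeriv j f x * iteratedDeriv j g x *
      wt n (lam 0) 0 j (j + 2) (-1) x / GG Γ 0 0 x) (dom 0) := by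
  obtain ⟨c, hc, hl⟩ := hC.low
  obtain ⟨M, -, hM⟩ := hC.sy 0
  have hG : ContinuousOn (GG Γ 0 0) (dom 0) := (hM 0 0 (par0 hC)).2.2.1.1.continuousOn
  have hm := (hA.dom_open 0).measurableSet
  refine Integrable.mono' (((hA.intT n j (j + 2) (par0 hC) hf).add
    (hA.intT n j (j + 2) (par0 hC) hg)).const_mul c⁻¹) ?_ ((ae_restrict_iff' hm).2
      (Eventually.of_forall fun x hx => ?_))
  · refine ContinuousOn.aestronglyMeasurable (ContinuousOn.div (ContinuousOn.mul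
      ((hA.iter_cont j hf.1).continuousOn.mul (hA.iter_cont j hg.1).continuousOn)
      (hA.wt_cont n 0 j _ _ (hC.lam_pos 0)).continuousOn) hG
      fun x hx => (hc.trans_le (hl 0 0 le_rfl x hx).2).ne') hm
  · have hw : 0 ≤ wt n (lam 0) 0 j (j + 2) (-1) x := hA.wt_nonneg n j _ _ hx
    have hx' := (hl 0 0 le_rfl x hx).2
    have hp := hc.trans_le hx'
    have h1 : |iteratedDeriv j f x * iteratedDeriv j g x| ≤
        iteratedDeriv j f x ^ 2 + iteratedDeriv j g x ^ 2 :=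
      abs_le.2 ⟨by nlinarith [sq_nonneg (iteratedDeriv j f x + iteratedDeriv j g x)],
        by nlinarith [sq_nonneg (iteratedDeriv j f x - iteratedDeriv j g x)]⟩
    rw [Real.norm_eq_abs, abs_div, abs_mul, abs_of_nonneg hw, abs_of_pos hp, Pi.add_apply,
      ← add_mul, div_eq_inv_mul]
    exact mul_le_mul (inv_anti₀ hc hx') (mul_le_mul_of_nonneg_right h1 hw)
      (mul_nonneg (abs_nonneg _) hw) (inv_pos.2 hc).le

theorem bf_add (hA : BaseA) {n : ℕ} {Γ : ℝ → ℝ} (hC : Coef n Γ) (k : ℕ) {f f' g : ℝ → ℝ}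
    (hf : Adm (lam 0) 0 (-1) f) (hf' : Adm (lam 0) 0 (-1) f') (hg : Adm (lam 0) 0 (-1) g) :
    bf n Γ k (fun x => f x + f' x) g = bf n Γ k f g + bf n Γ k f' g := by
  simp only [bf, ← Finset.sum_add_distrib]
  refine Finset.sum_congr rfl fun j _ => ?_
  rw [← integral_add (int_bf hA hC hf hg j) (int_bf hA hC hf' hg j)]
  refine setIntegral_congr_fun (hA.dom_open 0).measurableSet fun x hx => ?_
  have := hA.iter_lin 1 1 j hf.1 hf'.1 hx
  simp only [one_mul] at this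
  simp only [this]
  ring

theorem bf_nonneg (hA : BaseA) {n : ℕ} {Γ : ℝ → ℝ} (k : ℕ) (f : ℝ → ℝ) : 0 ≤ bf n Γ k f f :=
  Finset.sum_nonneg fun j _ => setIntegral_nonneg (hA.dom_open 0).measurableSet fun _ hx =>
    div_nonneg (mul_nonneg (mul_self_nonneg _) (hA.wt_nonneg n j _ _ hx)) (sq_nonneg _)

theorem shA_add (τ : ℝ) (X Y : ℝ → ℝ → ℝ) : shA τ (X + Y) = shA τ X + shA τ Y := by
  funext σ y
  simp only [shA, Pi.add_apply]
  split_ifs <;> simp

theorem shA_smul (τ c : ℝ) (X : ℝ → ℝ → ℝ) : shA τ (c • X) = c • shA τ X := by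
  funext σ y
  simp only [shA, Pi.smul_apply]
  split_ifs <;> simp

end FinDim

open FinDim in
theorem finDim (hA : BaseA) (hB : BaseB) (hD : DelStmt) (hAn : AncStmt) (hFD : FDStmt)
    (hG : GridStmt) : FinDimStmt := by
  intro n Γ δ hn hC hδ
  obtain ⟨τ, M, d, P, hτ, hZ⟩ := hG n Γ δ hn hC hδ
  let B : Sp hAn n Γ δ →ₗ[ℝ] Sp hAn n Γ δ →ₗ[ℝ] ℝ :=
    LinearMap.mk₂ ℝ (fun x y => bf n Γ (n + 11) (x.1 0) (y.1 0))
      (fun x x' y => bf_add hA hC _ (adm0 hB hC x.2) (adm0 hB hC x'.2) (adm0 hB hC y.2))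
      (fun c x y => bf_smul n Γ _ c _ _)
      (fun x y y' => by
        rw [bf_comm, bf_comm n Γ _ (x.1 0), bf_comm n Γ _ (x.1 0)]
        exact bf_add hA hC _ (adm0 hB hC y.2) (adm0 hB hC y'.2) (adm0 hB hC x.2))
      (fun c x y => by
        rw [bf_comm, bf_comm n Γ _ (x.1 0)]
        exact bf_smul n Γ _ c _ _)
  let T : Sp hAn n Γ δ →ₗ[ℝ] Sp hAn n Γ δ :=
    { toFun := fun x => ⟨shA τ x.1, hAn.shift hC hτ.le x.2⟩
      map_add' := fun x y => Subtype.ext (shA_add τ x.1 y.1)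
      map_smul' := fun c x => Subtype.ext (shA_smul τ c x.1) }
  let φ : Fin d → Sp hAn n Γ δ →ₗ[ℝ] ℝ := fun i =>
    { toFun := fun x => x.1 (P i).1 (P i).2
      map_add' := fun _ _ => rfl
      map_smul' := fun _ _ => rfl }
  have hBB : ∀ x, B x x = En n Γ 0 (n + 11) (-1) x.1 0 := fun x => bf_self n Γ _ x.1
  have hT : ∀ (m : ℕ) x, ((T ^ m) x).1 = shA (m * τ) x.1 := by
    intro m x
    induction m with
    | zero => simpa using (hAn.shA_zero x.2).symm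
    | succ m ih =>
      rw [pow_succ']
      change shA τ ((T ^ m) x).1 = _
      rw [ih, hAn.shA_shA _ _ hτ.le]
      congr 1
      push_cast; ring
  have hfin : FiniteDimensional ℝ (Sp hAn n Γ δ) := by
    refine hFD _ B T d φ M (fun x y => bf_comm n Γ _ _ _) (fun x => bf_nonneg hA _ _)
      (fun x => ?_) (fun x hx => ?_) (fun x => ?_) fun x hx => ?_
    · rw [hBB, hBB]; exact (hZ x.1 x.2).1
    · rw [hBB, hBB]; exact (hZ x.1 x.2).2.1 hx
    · obtain ⟨C, hC'⟩ := (hZ x.1 x.2).2.2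
      exact ⟨C, fun m => by rw [hBB, hT]; exact hC' _ (by positivity)⟩
    · refine Subtype.ext (funext fun σ => funext fun y => ?_)
      by_cases h : σ ≤ 0 ∧ 0 < y
      · obtain ⟨m, hm⟩ := exists_nat_ge (-σ / τ)
        have hm' : -(m * τ) ≤ σ := by
          have := (div_le_iff₀ hτ).1 hm
          linarith
        have h0 : -(m * τ) ≤ (0 : ℝ) := hm'.trans h.1
        have h1 := hx m
        rw [hBB, hT, hAn.en_shift _ _ _ hC] at h1
        have h2 := hAn.en_zero _ hC x.2 _ h0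
          ((mul_eq_zero.1 h1).resolve_left (hC.lam_pos _).ne')
        exact hAn.uniq hn hC hδ (x.2.sol _ h0) (fun y _ => h2 y) σ ⟨hm', h.1⟩ y h.2
      · exact x.2.zero σ y h
  obtain ⟨s, hs⟩ := (Submodule.fg_iff_finiteDimensional _).2 hfin
  exact ⟨s, fun Z h => by rw [hs]; exact h⟩

end Vale.Agent.P264
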