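import Vale.Agent.P264.StmB

/-!
Contraction of the energy on a subspace of finite codimension. See PLAN.md, part B.
-/

namespace Vale.Agent.P264

open scoped ContDiff Topology
open Set MeasureTheory Filter

namespace Grid

theorem mvt {f f' : ℝ → ℝ} {a b L : ℝ} (hc : ContinuousOn f (Icc a b))
    (hd : ∀ s ∈ Ioo a b, HasDerivAt f (f' s) s) (hb : ∀ s ∈ Ioo a b, |f' s| ≤ L) :
    ∀ s ∈ Icc a b, ∀ t ∈ Icc a b, |f s - f t| ≤ L * |s - t| := by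
  have key : ∀ s ∈ Icc a b, ∀ t ∈ Icc a b, t < s → |f s - f t| ≤ L * |s - t| := by
    intro s hs t ht hts
    have hsub : Ioo t s ⊆ Ioo a b := Ioo_subset_Ioo ht.1 hs.2
    obtain ⟨c, hc', he⟩ := exists_hasDerivAt_eq_slope f f' hts
      (hc.mono (Icc_subset_Icc ht.1 hs.2)) fun x hx => hd x (hsub hx)
    have h1 : f s - f t = f' c * (s - t) := by
      rw [he, div_mul_cancel₀ _ (sub_pos.2 hts).ne']
    rw [h1, abs_mul]
    exact mul_le_mul_of_nonneg_right (hb c (hsub hc')) (abs_nonneg _)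
  intro s hs t ht
  rcases lt_trichotomy t s with h | h | h
  · exact key s hs t ht h
  · subst h; simp
  · rw [abs_sub_comm, abs_sub_comm s]; exact key t ht s hs h

theorem mem_dom {x : ℝ} (hx : 0 < x) : x ∈ dom 0 := ⟨hx, by simp⟩

theorem par_zero {l : ℝ} (hl : 0 < l) : Par l 0 := ⟨hl, le_rfl, by simp⟩

/-- pointwise bounds for the low jets -/
theorem sy_of_QQ (hA : BaseA) (hPt : PtStmt) {n : ℕ} (hn : 1 ≤ n) : ∃ C, 0 ≤ C ∧
    ∀ (l B : ℝ) (f : ℝ → ℝ), 1 ≤ l → Adm l 0 (-1) f → QQ n l 0 (n + 11) (-1) f ≤ B →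
      Sy l 0 4 1 (√(C * B)) f := by
  obtain ⟨C, hC, h⟩ := hPt n (n + 11) (-1) hn
  refine ⟨C, hC, fun l B f hl hf hB => ⟨hf.1, fun i hi x hx => ?_⟩⟩
  have hl0 : 0 < l := by linarith
  have h1 := h l 0 f (par_zero hl0) hf i (by omega) x hx
  rw [hA.Th_one hn (by push_cast; omega), mul_one] at h1
  have hv : 1 ≤ vp l x := hl.trans (hA.lam_le l x)
  have hv0 : 0 < vp l x := by linarith
  have hQ := hA.QQ_nonneg n l 0 (n + 11) (-1) f
  have hCB : C * QQ n l 0 (n + 11) (-1) f ≤ C * B := mul_le_mul_of_nonneg_left hB hC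
  have hCB0 : 0 ≤ C * B := (mul_nonneg hC hQ).trans hCB
  refine abs_le_of_sq_le_sq ?_ (by positivity)
  rw [mul_pow, Real.sq_sqrt hCB0]
  have h2 : vp l x ^ (2 * (i : ℤ) + -1) * (vp l x ^ (1 - (i : ℤ))) ^ 2 = vp l x := by
    rw [← zpow_natCast, ← zpow_mul, ← zpow_add₀ hv0.ne']
    have : 2 * (i : ℤ) + -1 + (1 - (i : ℤ)) * ((2 : ℕ) : ℤ) = 1 := by push_cast; ring
    rw [this, zpow_one]
  calc iteratedDeriv i f x ^ 2 ≤ iteratedDeriv i f x ^ 2 * vp l x :=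
        le_mul_of_one_le_right (sq_nonneg _) hv
    _ = iteratedDeriv i f x ^ 2 * vp l x ^ (2 * (i : ℤ) + -1) * (vp l x ^ (1 - (i : ℤ))) ^ 2 := by
        rw [mul_assoc, h2]
    _ ≤ C * B * (vp l x ^ (1 - (i : ℤ))) ^ 2 :=
        mul_le_mul_of_nonneg_right (h1.trans hCB) (sq_nonneg _)

theorem sy_neg (hA : BaseA) {l M : ℝ} {h : ℕ} {q : ℤ} {a : ℝ → ℝ} (hl : 1 ≤ l) (hM : 0 ≤ M)
    (hq : q ≤ 0) (ha : Sy l 0 h q M a) {x : ℝ} (hx : 0 < x) : |a x| ≤ M := by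
  have h1 := ha.2 0 (Nat.zero_le _) x (mem_dom hx)
  have hv : 1 ≤ vp l x := hl.trans (hA.lam_le l x)
  rw [iteratedDeriv_zero, Nat.cast_zero, sub_zero] at h1
  exact h1.trans (mul_le_of_le_one_right hM (zpow_le_one_of_nonpos₀ hv hq))

/-- bound for the time derivative -/
theorem rr_bound (hA : BaseA) (hB : BaseB) (hP : PSolStmt) {n : ℕ} {Γ : ℝ → ℝ} (hC : Coef n Γ)
    {δ l₀ X₀ : ℝ} (hδ : 0 ≤ δ) (hX : 0 ≤ X₀) (hl₀ : 0 ≤ l₀) : ∃ K, 0 ≤ K ∧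
    ∀ (σ M : ℝ) (f : ℝ → ℝ), 1 ≤ lam σ → lam σ ≤ l₀ → 0 ≤ M → Sy (lam σ) 0 4 1 M f →
      ∀ x ∈ Ioc 0 X₀, |RR n Γ δ 0 0 σ f x| ≤ K * M := by
  obtain ⟨M', hM', hsy⟩ := hC.sy 0
  obtain ⟨K, hK, hL⟩ := hB.LL_sy n 0
  have hM0 : 0 ≤ M' := by linarith
  refine ⟨δ * (l₀ + X₀) + l₀ ^ 2 * (M' * K + M' * (l₀ + X₀)), by positivity,
    fun σ M f h1 h2 hM hf x hx => ?_⟩
  have hl0 : 0 < lam σ := by linarith
  obtain ⟨-, -, hG, -, hV, -⟩ := hsy 0 σ (par_zero hl0)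
  have hG' := sy_neg hA h1 hM0 le_rfl hG hx.1
  have hV' := sy_neg hA h1 hM0 (by norm_num) hV hx.1
  have hL' := sy_neg hA h1 (mul_nonneg hK hM) (by norm_num) (hL (par_zero hl0) hM hf) hx.1
  have hf' : |f x| ≤ M * (l₀ + X₀) := by
    have h3 := hf.2 0 (Nat.zero_le _) x (mem_dom hx.1)
    rw [iteratedDeriv_zero, Nat.cast_zero, sub_zero, zpow_one] at h3
    refine h3.trans (mul_le_mul_of_nonneg_left ?_ hM)
    exact (hA.vp_le hl0.le hx.1.le).trans (add_le_add h2 hx.2)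
  rw [hP.flat]
  have e1 : |-δ * f x| ≤ δ * (M * (l₀ + X₀)) := by
    rw [abs_mul, abs_neg, abs_of_nonneg hδ]
    exact mul_le_mul_of_nonneg_left hf' hδ
  have e2 : |-(GG Γ 0 σ x * LL n 0 f x)| ≤ M' * (K * M) := by
    rw [abs_neg, abs_mul]
    exact mul_le_mul hG' hL' (abs_nonneg _) hM0
  have e3 : |2 * gg Γ 0 σ x * V1 n Γ 0 σ x * f x| ≤ M' * (M * (l₀ + X₀)) := by
    rw [abs_mul]
    exact mul_le_mul hV' hf' (abs_nonneg _) hM0
  have e4 : |lam σ ^ 2 * (-(GG Γ 0 σ x * LL n 0 f x) + 2 * gg Γ 0 σ x * V1 n Γ 0 σ x * f x)|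
      ≤ l₀ ^ 2 * (M' * (K * M) + M' * (M * (l₀ + X₀))) := by
    rw [abs_mul, abs_of_nonneg (sq_nonneg _)]
    exact mul_le_mul (pow_le_pow_left₀ hl0.le h2 2) ((abs_add_le _ _).trans (add_le_add e2 e3))
      (abs_nonneg _) (sq_nonneg _)
  refine (abs_add_le _ _).trans ((add_le_add e1 e4).trans (le_of_eq ?_))
  ring

/-- Lipschitz bound in space -/
theorem lip_x (hA : BaseA) {l M : ℝ} {f : ℝ → ℝ} (hf : Sy l 0 4 1 M f) {x y : ℝ} (hx : 0 < x)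
    (hy : 0 < y) : |f x - f y| ≤ M * |x - y| := by
  have hm : 0 < min x y := lt_min hx hy
  have hd : ∀ s, 0 < s → HasDerivAt f (iteratedDeriv 1 f s) s := fun s hs => by
    simpa only [iteratedDeriv_zero] using hA.iter_deriv 0 hf.1 (mem_dom hs)
  refine mvt (a := min x y) (b := max x y) (f' := iteratedDeriv 1 f)
    (fun s hs => (hd s (hm.trans_le hs.1)).continuousAt.continuousWithinAt)
    (fun s hs => hd s (hm.trans hs.1)) (fun s hs => ?_) x ⟨min_le_left _ _, le_max_left _ _⟩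
    y ⟨min_le_right _ _, le_max_right _ _⟩
  simpa using hf.2 1 (by norm_num) s (mem_dom (hm.trans hs.1))

/-- a finite net -/
theorem exists_net (τ X₀ : ℝ) {η : ℝ} (hη : 0 < η) : ∃ (d : ℕ) (P : Fin d → ℝ × ℝ),
    (∀ i, (P i).1 ∈ Icc (-τ) 0 ∧ (P i).2 ∈ Ioc 0 X₀) ∧
    ∀ σ ∈ Icc (-τ) 0, ∀ x ∈ Ioc 0 X₀, ∃ i, |σ - (P i).1| ≤ η ∧ |x - (P i).2| ≤ η := by
  have h1 : TotallyBounded (Icc (-τ) 0 ×ˢ Ioc 0 X₀ : Set (ℝ × ℝ)) :=
    (isCompact_Icc.prod isCompact_Icc).totallyBounded.subset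
      (prod_mono_right Ioc_subset_Icc_self)
  obtain ⟨t, hts, htf, hcov⟩ := Metric.finite_approx_of_totallyBounded h1 η hη
  obtain ⟨d, P, -, hP⟩ := htf.fin_param
  refine ⟨d, P, fun i => hts (hP ▸ mem_range_self i), fun σ hσ x hx => ?_⟩
  have := hcov (mk_mem_prod hσ hx)
  rw [mem_iUnion₂] at this
  obtain ⟨p, hp, hd⟩ := this
  rw [← hP] at hp
  obtain ⟨i, rfl⟩ := hp
  rw [Metric.mem_ball, Prod.dist_eq, max_lt_iff, Real.dist_eq, Real.dist_eq] at hd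
  exact ⟨i, hd.1.le, hd.2.le⟩

/-- scale invariant bound of the norm of a symbol of order zero -/
theorem QQ_bound (hA : BaseA) (hDil : DilStmt) (n h : ℕ) (M : ℝ) : ∃ C,
    ∀ (l : ℝ) (f : ℝ → ℝ), 0 < l → Sy l 0 h 0 M f → l * QQ n l 0 h (-1) f ≤ C := by
  have hint : IntegrableOn (fun x => M ^ 2 * vp 1 x ^ (-2 : ℤ)) (dom 0) := by
    refine hA.int_of_bound (C := M ^ 2) one_pos ?_ fun x _ => ?_
    · exact fun x _ => (continuousAt_const.mul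
        (hA.vp_deriv (-2) x one_pos).continuousAt).continuousWithinAt
    · have := hA.vp_pos x one_pos
      rw [abs_of_nonneg (by positivity)]
  refine ⟨∑ _i ∈ Finset.range (h + 1), ∫ x in dom 0, M ^ 2 * vp 1 x ^ (-2 : ℤ),
    fun l f hl hf => ?_⟩
  have h1 := hDil.QQ_dil n 0 h (-1) f hl one_pos
  have h2 := hDil.Sy_dil (lam := 1) hl one_pos (by rw [mul_one]; exact hf)
  rw [mul_zero, mul_one, neg_neg, zpow_one] at h1
  rw [mul_zero, zpow_zero, mul_one] at h2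
  rw [← h1, QQ]
  refine Finset.sum_le_sum fun i hi => ?_
  have hi' : i ≤ h := Nat.lt_succ_iff.1 (Finset.mem_range.1 hi)
  have hmeas : MeasurableSet (dom 0) := (hA.dom_open 0).measurableSet
  refine integral_mono_of_nonneg ?_ hint ?_
  · exact (ae_restrict_iff' hmeas).2 (Eventually.of_forall fun x hx =>
      mul_nonneg (sq_nonneg _) (hA.wt_nonneg n i _ _ hx))
  · refine (ae_restrict_iff' hmeas).2 (Eventually.of_forall fun x hx => ?_)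
    have hv := hA.vp_pos x one_pos
    have h3 := h2.2 i hi' x hx
    have h4 : iteratedDeriv i (fun y => f (l * y)) x ^ 2 ≤ (M * vp 1 x ^ ((0 : ℤ) - i)) ^ 2 :=
      sq_le_sq' (by linarith [neg_abs_le (iteratedDeriv i (fun y => f (l * y)) x)])
        ((le_abs_self _).trans h3)
    have h5 : wt n 1 0 i (i + 2) (-1) x ≤ vp 1 x ^ (2 * (i : ℤ) - 1 + -1) :=
      mul_le_of_le_one_right (by positivity) (hA.Th_le_one n _ (par_zero one_pos) hx)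
    have h6 : (vp 1 x ^ ((0 : ℤ) - i)) ^ 2 * vp 1 x ^ (2 * (i : ℤ) - 1 + -1)
        = vp 1 x ^ (-2 : ℤ) := by
      rw [← zpow_natCast, ← zpow_mul, ← zpow_add₀ hv.ne']
      congr 1
      push_cast
      ring
    calc iteratedDeriv i (fun y => f (l * y)) x ^ 2 * wt n 1 0 i (i + 2) (-1) x
        ≤ (M * vp 1 x ^ ((0 : ℤ) - i)) ^ 2 * vp 1 x ^ (2 * (i : ℤ) - 1 + -1) :=
          mul_le_mul h4 h5 (hA.wt_nonneg n i _ _ hx) (sq_nonneg _)
      _ = M ^ 2 * vp 1 x ^ (-2 : ℤ) := by rw [mul_pow, mul_assoc, h6]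

theorem exists_eta {A : ℝ} (hA : 0 ≤ A) : ∃ η, 0 < η ∧ A * η ^ 2 ≤ 1 / 8 := by
  refine ⟨(8 * A + 1)⁻¹, by positivity, ?_⟩
  rw [inv_pow, ← div_eq_mul_inv, div_le_div_iff₀ (by positivity) (by norm_num)]
  nlinarith

end Grid

open Grid in
theorem grid (hA : BaseA) (hB : BaseB) (hD : DelStmt) (hDil : DilStmt) (hPt : PtStmt)
    (hP : PSolStmt) (hE : EnStmt) (hF : DecFStmt) (hAn : AncStmt) : GridStmt := by
  intro n Γ δ hn hC hδ
  obtain ⟨R, CF, hR, hCF, hdec⟩ := hF n (n + 11) Γ δ hn (by omega) hC hδ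
  obtain ⟨ε₀, CE, -, hCE, hen⟩ := hE n (n + 11) (-1) Γ hn (by omega) (by norm_num) hC
  obtain ⟨CP, hCP, hpt⟩ := sy_of_QQ hA hPt hn
  set τ : ℝ := 7 / δ with hτ
  have hτ0 : 0 < τ := by positivity
  have hexp : Real.exp (-(δ * (0 - -τ))) ≤ 1 / 8 := by
    have h1 : δ * (0 - -τ) = 7 := by rw [hτ]; field_simp; ring
    have h2 := Real.add_one_le_exp 7
    rw [h1, Real.exp_neg, one_div]
    exact inv_anti₀ (by norm_num) (by linarith)
  have hl₀ := hC.lam_pos (-τ)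
  have hlam : ∀ σ, σ ≤ 0 → 1 ≤ lam σ := fun σ hσ => hC.lam_zero ▸ hC.lam_anti hσ
  obtain ⟨K, hK, hrr⟩ := rr_bound hA hB hP hC hδ.le (mul_pos hR hl₀).le hl₀.le
  obtain ⟨η, hη, hηA⟩ := exists_eta
    (A := CF * (1 + K) ^ 2 * (CP * (CE * Real.exp (CF * τ)))) (by positivity)
  obtain ⟨d, P, hPmem, hnet⟩ := exists_net τ (R * lam (-τ)) hη
  refine ⟨τ, Real.exp (CF * τ), d, P, hτ0, fun Z hZ => ?_⟩
  have hsol := hZ.sol (-τ) (by linarith)
  have hQE : ∀ σ, σ ≤ 0 → Adm (lam σ) 0 (-1) (Z σ) ∧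
      QQ n (lam σ) 0 (n + 11) (-1) (Z σ) ≤ CE * En n Γ 0 (n + 11) (-1) Z σ ∧
      En n Γ 0 (n + 11) (-1) Z σ ≤ CE * QQ n (lam σ) 0 (n + 11) (-1) (Z σ) := fun σ hσ =>
    ((hen δ 0 0 σ 0 Z le_rfl (par_zero (hC.lam_pos σ)) (Or.inr ⟨rfl, le_rfl⟩)
      (hZ.sol σ hσ)).2.1 σ ⟨le_rfl, hσ⟩).2
  have hE0 : ∀ σ, σ ≤ 0 → 0 ≤ En n Γ 0 (n + 11) (-1) Z σ := fun σ hσ =>
    nonneg_of_mul_nonneg_right (b := En n Γ 0 (n + 11) (-1) Z σ)
      ((hA.QQ_nonneg _ _ _ _ _ _).trans (hQE σ hσ).2.1) (by linarith)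
  rw [hAn.en_shift _ τ Z hC]
  set q := lam (-τ) * En n Γ 0 (n + 11) (-1) Z (-τ) with hq
  have hq0 : 0 ≤ q := mul_nonneg hl₀.le (hE0 _ (by linarith))
  have h0 := hdec (-τ) 0 Z hsol (-τ) 0 le_rfl (by linarith) le_rfl
  rw [hC.lam_zero, one_mul, ← hq] at h0
  refine ⟨by simpa using h0.1, fun hz => ?_, ?_⟩
  · set M := √(CP * (CE * (Real.exp (CF * τ) * q))) with hM
    have hM0 : 0 ≤ M := Real.sqrt_nonneg _
    have hsy : ∀ σ ∈ Icc (-τ) 0, Sy (lam σ) 0 4 1 M (Z σ) := by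
      intro σ hσ
      refine hpt _ _ _ (hlam σ hσ.2) (hQE σ hσ.2).1 ((hQE σ hσ.2).2.1.trans ?_)
      refine mul_le_mul_of_nonneg_left ?_ (by linarith)
      have h1 := (hdec (-τ) 0 Z hsol (-τ) σ le_rfl hσ.1 hσ.2).1
      rw [← hq] at h1
      refine (le_mul_of_one_le_left (hE0 σ hσ.2) (hlam σ hσ.2)).trans (h1.trans ?_)
      refine mul_le_mul_of_nonneg_right (Real.exp_le_exp.2 ?_) hq0
      exact mul_le_mul_of_nonneg_left (by linarith [hσ.2]) (by linarith)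
    have htl : ∀ x ∈ Ioc 0 (R * lam (-τ)), ∀ s ∈ Icc (-τ) 0, ∀ t ∈ Icc (-τ) 0,
        |Z s x - Z t x| ≤ K * M * |s - t| := by
      intro x hx
      refine mvt (f := fun s => Z s x) (f' := fun s => RR n Γ δ 0 0 s (Z s) x) ?_
        (fun s hs => hsol.eqn s hs x (mem_dom hx.1)) fun s hs => ?_
      · have h1 := (hsol.cj.2 0).comp (f := fun s : ℝ => (s, x)) (s := Icc (-τ) 0)
          (by fun_prop) fun s hs => mk_mem_prod hs (mem_dom hx.1)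
        simpa only [iteratedDeriv_zero, Function.comp_def] using h1
      · exact hrr s M (Z s) (hlam s hs.2.le) (hC.lam_anti hs.1.le) hM0
          (hsy s (Ioo_subset_Icc_self hs)) x hx
    have hρ : ∀ σ ∈ Icc (-τ) 0, ∀ x, 0 < x → x ≤ R * lam σ → |Z σ x| ≤ (1 + K) * M * η := by
      intro σ hσ x hx hxR
      have hx' : x ∈ Ioc 0 (R * lam (-τ)) :=
        ⟨hx, hxR.trans (mul_le_mul_of_nonneg_left (hC.lam_anti hσ.1) hR.le)⟩
      obtain ⟨i, h1, h2⟩ := hnet σ hσ x hx'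
      have h3 := lip_x hA (hsy σ hσ) hx (hPmem i).2.1
      have h4 := htl _ (hPmem i).2 σ hσ _ (hPmem i).1
      rw [hz i, sub_zero] at h4
      have h5 : M * |x - (P i).2| ≤ M * η := mul_le_mul_of_nonneg_left h2 hM0
      have h6 : K * M * |σ - (P i).1| ≤ K * M * η :=
        mul_le_mul_of_nonneg_left h1 (mul_nonneg hK hM0)
      have h7 := abs_add_le (Z σ x - Z σ (P i).2) (Z σ (P i).2)
      rw [sub_add_cancel] at h7
      linarith
    have h1 := h0.2 _ hρ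
    have h2 : CF * ((1 + K) * M * η) ^ 2
        = CF * (1 + K) ^ 2 * (CP * (CE * Real.exp (CF * τ))) * η ^ 2 * q := by
      rw [mul_pow, mul_pow, hM, Real.sq_sqrt (by positivity)]
      ring
    have h3 := mul_le_mul_of_nonneg_right hηA hq0
    have h4 := mul_le_mul_of_nonneg_right hexp hq0
    linarith
  · obtain ⟨M, hM⟩ := hZ.sy (n + 11)
    obtain ⟨C, hC'⟩ := QQ_bound hA hDil n (n + 11) M
    refine ⟨CE * C, fun τ' hτ' => ?_⟩
    have hσ : -τ' ≤ 0 := by linarith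
    have h1 := hC' _ _ (hC.lam_pos (-τ')) (hM (-τ') hσ)
    rw [hAn.en_shift _ τ' Z hC]
    calc lam (-τ') * En n Γ 0 (n + 11) (-1) Z (-τ')
        ≤ lam (-τ') * (CE * QQ n (lam (-τ')) 0 (n + 11) (-1) (Z (-τ'))) :=
          mul_le_mul_of_nonneg_left (hQE _ hσ).2.2 (hC.lam_pos _).le
      _ = CE * (lam (-τ') * QQ n (lam (-τ')) 0 (n + 11) (-1) (Z (-τ'))) := by ring
      _ ≤ CE * C := mul_le_mul_of_nonneg_left h1 (by linarith)

end Vale.Agent.P264
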