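import Vale.Agent.P264.StmB

/-!
Ultrafilter limits of jets.
-/

namespace Vale.Agent.P264

open scoped ContDiff Topology
open Set Filter

namespace JetLim

theorem lip {f f' : ℝ → ℝ} {L C : ℝ} (hd : ∀ y ∈ Ioc 0 L, HasDerivAt f (f' y) y)
    (hb : ∀ y ∈ Ioc 0 L, |f' y| ≤ C) {y y' : ℝ} (hy : y ∈ Ioc 0 L) (hy' : y' ∈ Ioc 0 L) :
    |f y - f y'| ≤ C * |y - y'| :=
  (convex_Ioc 0 L).norm_image_sub_le_of_norm_hasDerivWithin_le
    (fun t ht => (hd t ht).hasDerivWithinAt) hb hy' hy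

theorem tay {f f' : ℝ → ℝ} {L C : ℝ} (hC : 0 ≤ C) (hd : ∀ y ∈ Ioc 0 L, HasDerivAt f (f' y) y)
    {y y' : ℝ} (hb : ∀ t ∈ Ioc 0 L, |f' t - f' y| ≤ C * |t - y|) (hy : y ∈ Ioc 0 L)
    (hy' : y' ∈ Ioc 0 L) : |f y' - f y - (y' - y) * f' y| ≤ C * ‖y' - y‖ ^ 2 := by
  have hs : uIcc y y' ⊆ Ioc 0 L := ordConnected_Ioc.uIcc_subset hy hy'
  have h := (convex_uIcc y y').norm_image_sub_le_of_norm_hasDerivWithin_le
    (f := fun t => f t - t * f' y) (f' := fun t => f' t - 1 * f' y) (C := C * |y' - y|)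
    (fun t ht => ((hd t (hs ht)).sub ((hasDerivAt_id' t).mul_const _)).hasDerivWithinAt)
    (fun t ht => by
      rw [one_mul]
      exact (hb t (hs ht)).trans (mul_le_mul_of_nonneg_left (abs_sub_left_of_mem_uIcc ht) hC))
    left_mem_uIcc right_mem_uIcc
  have e : f y' - y' * f' y - (f y - y * f' y) = f y' - f y - (y' - y) * f' y := by ring
  rw [e] at h
  exact h.trans_eq (by rw [mul_assoc, sq, Real.norm_eq_abs])

/-- uniform estimates on a box -/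
def Good (J : ℕ → ℝ → ℝ → ℝ) (I : Set ℝ) (i : ℕ) (L C : ℝ) : Prop :=
  ∀ σ ∈ I, |σ| ≤ L → ∀ y ∈ Ioc 0 L, |J i σ y| ≤ C ∧ ∀ y' ∈ Ioc 0 L,
    |J i σ y' - J i σ y - (y' - y) * J (i + 1) σ y| ≤ C * ‖y' - y‖ ^ 2 ∧
      ∀ σ' ∈ I, |σ'| ≤ L → |J i σ y - J i σ' y'| ≤ C * (|σ - σ'| + |y - y'|)

theorem good {J : ℕ → ℝ → ℝ → ℝ} {I : Set ℝ} {i : ℕ} {L C0 C1 C2 : ℝ}
    (hd : ∀ j, ∀ σ ∈ I, ∀ y ∈ Ioc 0 L, HasDerivAt (J j σ) (J (j + 1) σ y) y)
    (h0 : ∀ σ ∈ I, |σ| ≤ L → ∀ y ∈ Ioc 0 L, |J i σ y| ≤ C0 ∧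
      ∀ σ' ∈ I, |σ'| ≤ L → |J i σ y - J i σ' y| ≤ C0 * |σ - σ'|)
    (h1 : ∀ σ ∈ I, |σ| ≤ L → ∀ y ∈ Ioc 0 L, |J (i + 1) σ y| ≤ C1)
    (h2 : ∀ σ ∈ I, |σ| ≤ L → ∀ y ∈ Ioc 0 L, |J (i + 1 + 1) σ y| ≤ C2) :
    Good J I i L (|C0| + |C1| + |C2|) := by
  have a0 := le_abs_self C0
  have a1 := le_abs_self C1
  have a2 := le_abs_self C2
  have b0 := abs_nonneg C0
  have b1 := abs_nonneg C1
  have b2 := abs_nonneg C2
  refine fun σ hσ hL y hy => ⟨(h0 σ hσ hL y hy).1.trans (by linarith), fun y' hy' => ⟨?_, ?_⟩⟩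
  · exact tay (by linarith) (hd i σ hσ) (fun t ht => lip (hd _ σ hσ)
      (fun u hu => (h2 σ hσ hL u hu).trans (by linarith)) ht hy) hy hy'
  · intro σ' hσ' hL'
    have c1 := (h0 σ hσ hL y hy).2 σ' hσ' hL'
    have c2 := lip (hd i σ' hσ') (h1 σ' hσ' hL') hy hy'
    have c3 := abs_sub_le (J i σ y) (J i σ' y) (J i σ' y')
    have c4 := mul_le_mul_of_nonneg_right (show C0 ≤ |C0| + |C1| + |C2| by linarith)
      (abs_nonneg (σ - σ'))
    have c5 := mul_le_mul_of_nonneg_right (show C1 ≤ |C0| + |C1| + |C2| by linarith)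
      (abs_nonneg (y - y'))
    linarith

variable {U : Ultrafilter ℕ} {a b : ℕ → ℝ}

theorem clamp (hab : ∀ m, a m ≤ b m) {σ : ℝ} (hσ : σ ∈ limJ U a b) :
    Tendsto (fun m => (projIcc (a m) (b m) (hab m) σ : ℝ)) U (𝓝 σ) := by
  refine Metric.tendsto_nhds.2 fun θ hθ => (hσ (θ / 2) (half_pos hθ)).mono fun m hm => ?_
  rw [Real.dist_eq, coe_projIcc, abs_lt, max_def, min_def]
  split_ifs <;> constructor <;> linarith [hm.1, hm.2]

theorem mem_limJ {s : ℕ → ℝ} {σ : ℝ} (h : ∀ᶠ m in U, s m ∈ Icc (a m) (b m))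
    (hs : Tendsto s U (𝓝 σ)) : σ ∈ limJ U a b := fun θ hθ => by
  filter_upwards [h, Metric.tendsto_nhds.1 hs θ hθ] with m h1 h2
  rw [Real.dist_eq, abs_lt] at h2
  exact ⟨by linarith [h1.1, h2.2], by linarith [h1.2, h2.1]⟩

theorem abs_ev {s : ℕ → ℝ} {σ L : ℝ} (hs : Tendsto s U (𝓝 σ)) (h : |σ| < L) :
    ∀ᶠ m in U, |s m| ≤ L := (hs.abs.eventually (gt_mem_nhds h)).mono fun _ => le_of_lt

variable {J : ℕ → ℕ → ℝ → ℝ → ℝ}

theorem exists_lim (hab : ∀ m, a m ≤ b m)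
    (hg : ∀ i L, ∃ C, ∀ᶠ m in U, Good (J m) (Icc (a m) (b m)) i L C) :
    ∃ W : ℕ → ℝ → ℝ → ℝ, ∀ (i : ℕ) (s y : ℕ → ℝ) (σ x : ℝ), 0 < x →
      (∀ᶠ m in U, s m ∈ Icc (a m) (b m)) → Tendsto s U (𝓝 σ) → Tendsto y U (𝓝 x) →
      Tendsto (fun m => J m i (s m) (y m)) U (𝓝 (W i σ x)) := by
  refine ⟨fun i σ x => limUnder U fun m => J m i (projIcc (a m) (b m) (hab m) σ) x,
    fun i s y σ x hx h1 h2 h3 => ?_⟩
  obtain ⟨C, hC⟩ := hg i (|σ| + x + 1)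
  have h4 := clamp hab (mem_limJ h1 h2)
  have l1 : |σ| < |σ| + x + 1 := by linarith
  have l2 : x < |σ| + x + 1 := by linarith [abs_nonneg σ]
  have h5 : ∃ c, Tendsto (fun m => J m i (projIcc (a m) (b m) (hab m) σ) x) U (𝓝 c) := by
    obtain ⟨c, -, hc⟩ := (isCompact_Icc (a := -C) (b := C)).ultrafilter_le_nhds
      (U.map fun m => J m i (projIcc (a m) (b m) (hab m) σ) x) (le_principal_iff.2 (by
        rw [Ultrafilter.coe_map, mem_map]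
        filter_upwards [hC, abs_ev h4 l1] with m g1 g2
        exact abs_le.1 (g1 _ (projIcc _ _ _ _).2 g2 x ⟨hx, l2.le⟩).1))
    exact ⟨c, hc⟩
  refine (tendsto_nhds_limUnder h5).congr_dist (squeeze_zero' (.of_forall fun _ => dist_nonneg)
    (g := fun m => C * (|(projIcc (a m) (b m) (hab m) σ : ℝ) - s m| + |x - y m|)) ?_ ?_)
  · filter_upwards [hC, abs_ev h4 l1, abs_ev h2 l1, h1, h3.eventually (Ioc_mem_nhds hx l2)]
      with m g1 g2 g3 g4 g5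
    exact ((g1 _ (projIcc _ _ _ _).2 g2 x ⟨hx, l2.le⟩).2 _ g5).2 _ g4 g3
  · simpa using ((h4.sub h2).abs.add ((h3.const_sub x).abs)).const_mul C

theorem lim_est (hab : ∀ m, a m ≤ b m)
    (hg : ∀ i L, ∃ C, ∀ᶠ m in U, Good (J m) (Icc (a m) (b m)) i L C) {W : ℕ → ℝ → ℝ → ℝ}
    (hW : ∀ (i : ℕ) (s y : ℕ → ℝ) (σ x : ℝ), 0 < x →
      (∀ᶠ m in U, s m ∈ Icc (a m) (b m)) → Tendsto s U (𝓝 σ) → Tendsto y U (𝓝 x) →
      Tendsto (fun m => J m i (s m) (y m)) U (𝓝 (W i σ x))) (i : ℕ) (L : ℝ) :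
    ∃ C, ∀ σ ∈ limJ U a b, |σ| < L → ∀ y ∈ Ioc 0 L, ∀ y' ∈ Ioc 0 L,
      |W i σ y' - W i σ y - (y' - y) * W (i + 1) σ y| ≤ C * ‖y' - y‖ ^ 2 ∧
        ∀ σ' ∈ limJ U a b, |σ'| < L → |W i σ y - W i σ' y'| ≤ C * (|σ - σ'| + |y - y'|) := by
  obtain ⟨C, hC⟩ := hg i L
  have t : ∀ j, ∀ σ ∈ limJ U a b, ∀ y ∈ Ioc 0 L,
      Tendsto (fun m => J m j (projIcc (a m) (b m) (hab m) σ) y) U (𝓝 (W j σ y)) :=
    fun j σ hσ y hy => hW j _ _ σ y hy.1 (.of_forall fun m => (projIcc _ _ _ _).2) (clamp hab hσ)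
      tendsto_const_nhds
  refine ⟨C, fun σ hσ hL y hy y' hy' => ⟨?_, fun σ' hσ' hL' => ?_⟩⟩
  · refine le_of_tendsto (((t i σ hσ y' hy').sub (t i σ hσ y hy)).sub
      ((t (i + 1) σ hσ y hy).const_mul (y' - y))).abs ?_
    filter_upwards [hC, abs_ev (clamp hab hσ) hL] with m g1 g2
    exact ((g1 _ (projIcc _ _ _ _).2 g2 y hy).2 y' hy').1
  · refine le_of_tendsto_of_tendsto ((t i σ hσ y hy).sub (t i σ' hσ' y' hy')).abs
      ((((clamp hab hσ).sub (clamp hab hσ')).abs.add_const |y - y'|).const_mul C) ?_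
    filter_upwards [hC, abs_ev (clamp hab hσ) hL, abs_ev (clamp hab hσ') hL'] with m g1 g2 g3
    exact ((g1 _ (projIcc _ _ _ _).2 g2 y hy).2 y' hy').2 _ (projIcc _ _ _ _).2 g3

theorem jets {W : ℕ → ℝ → ℝ} (h : ∀ i, ∀ x ∈ Ioi (0 : ℝ), HasDerivAt (W i) (W (i + 1) x) x) :
    ContDiffOn ℝ ∞ (W 0) (Ioi 0) ∧ ∀ i, EqOn (iteratedDeriv i (W 0)) (W i) (Ioi 0) := by
  refine ⟨contDiffOn_infty.2 fun n => ?_, fun i => ?_⟩
  · generalize 0 = i at *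
    induction n generalizing i with
    | zero => exact contDiffOn_zero.2 fun x hx => (h i x hx).continuousAt.continuousWithinAt
    | succ n ih =>
      rw [Nat.cast_succ, contDiffOn_succ_iff_deriv_of_isOpen isOpen_Ioi]
      exact ⟨fun x hx => (h i x hx).differentiableAt.differentiableWithinAt, by simp,
        (ih (i + 1)).congr fun x hx => (h i x hx).deriv⟩
  · induction i with
    | zero => exact fun _ _ => rfl
    | succ i ih =>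
      intro x hx
      rw [iteratedDeriv_succ, (ih.eventuallyEq_of_mem (isOpen_Ioi.mem_nhds hx)).deriv_eq,
        (h i x hx).deriv]

end JetLim

open JetLim in
theorem jetLim (hA : BaseA) : JetLimStmt := by
  intro U ε a b X hab hε hε0 hX hb
  have hg : ∀ i L, ∃ C, ∀ᶠ m in U,
      Good (fun j σ => iteratedDeriv j (X m σ)) (Icc (a m) (b m)) i L C := fun i L => by
    obtain ⟨C0, h0⟩ := hb i L
    obtain ⟨C1, h1⟩ := hb (i + 1) L
    obtain ⟨C2, h2⟩ := hb (i + 1 + 1) L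
    refine ⟨|C0| + |C1| + |C2|, ?_⟩
    have h3 : ∀ᶠ m in U, ε m * L < 1 :=
      (hε0.mul_const L).eventually (gt_mem_nhds (by rw [zero_mul]; exact one_pos))
    filter_upwards [h0, h1, h2, h3] with m g0 g1 g2 g3
    exact good (fun j σ hσ y hy => hA.iter_deriv j (hX m σ hσ)
      ⟨hy.1, (mul_le_mul_of_nonneg_left hy.2 (hε m)).trans_lt g3⟩) g0
      (fun σ hσ hL y hy => (g1 σ hσ hL y hy).1) fun σ hσ hL y hy => (g2 σ hσ hL y hy).1
  obtain ⟨W, hW⟩ := exists_lim hab hg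
  have he := lim_est hab hg hW
  have hj := fun σ (hσ : σ ∈ limJ U a b) => jets (W := fun i => W i σ) fun i x hx => by
    obtain ⟨C, hC⟩ := he i (|σ| + x + 1)
    have hx0 : 0 < x := hx
    have l2 : x < |σ| + x + 1 := by linarith [abs_nonneg σ]
    refine hasDerivAt_iff_isLittleO.2 (Asymptotics.IsBigO.trans_isLittleO
      (Asymptotics.IsBigO.of_bound C ?_) (Asymptotics.isLittleO_pow_sub_sub x one_lt_two))
    filter_upwards [Ioc_mem_nhds hx0 l2] with y hy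
    rw [norm_pow, norm_norm]
    exact (hC σ hσ (by linarith) x ⟨hx0, l2.le⟩ y hy).1
  refine ⟨W 0, ⟨fun σ hσ => (hj σ hσ).1, fun i => ?_⟩, fun i s y σ x hx h1 h2 h3 => ?_⟩
  · refine ContinuousOn.congr (f := fun p : ℝ × ℝ => W i p.1 p.2) (fun p hp => ?_)
      fun p hp => (hj p.1 hp.1).2 i hp.2
    obtain ⟨C, hC⟩ := he i (|p.1| + p.2 + 1)
    have hx0 : 0 < p.2 := hp.2
    have l1 : |p.1| < |p.1| + p.2 + 1 := by linarith
    have l2 : p.2 < |p.1| + p.2 + 1 := by linarith [abs_nonneg p.1]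
    have t1 : Tendsto Prod.fst (𝓝[limJ U a b ×ˢ Ioi 0] p) (𝓝 p.1) :=
      continuous_fst.continuousWithinAt
    have t2 : Tendsto Prod.snd (𝓝[limJ U a b ×ˢ Ioi 0] p) (𝓝 p.2) :=
      continuous_snd.continuousWithinAt
    refine tendsto_iff_dist_tendsto_zero.2 (squeeze_zero' (.of_forall fun _ => dist_nonneg)
      (g := fun q : ℝ × ℝ => C * (|q.1 - p.1| + |q.2 - p.2|)) ?_ ?_)
    · filter_upwards [self_mem_nhdsWithin, t1.abs.eventually (gt_mem_nhds l1),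
        t2.eventually (Ioc_mem_nhds hx0 l2)] with q g1 g2 g3
      exact (hC _ g1.1 g2 _ g3 _ ⟨hx0, l2.le⟩).2 _ hp.1 l1
    · simpa using ((t1.sub_const p.1).abs.add (t2.sub_const p.2).abs).const_mul C
  · rw [(hj σ (mem_limJ h1 h2)).2 i hx]
    exact hW i s y σ x hx h1 h2 h3

end Vale.Agent.P264
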