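import Vale.Agent.P264.StmB

/-!
The limit of the shifted solutions.
-/

namespace Vale.Agent.P264

open scoped ContDiff Topology
open Set MeasureTheory Filter

namespace Key

theorem dich (U : Ultrafilter ℕ) (f : ℕ → ℝ) :
    (∃ L, ∀ᶠ m in U, f m ≤ L) ∨ Tendsto f U atTop := by
  by_cases h : ∃ L, ∀ᶠ m in U, f m ≤ L
  · exact Or.inl h
  · refine Or.inr (tendsto_atTop.2 fun b => ?_)
    have h1 : ¬ ∀ᶠ m in U, f m ≤ b := fun hb => h ⟨b, hb⟩
    exact (Ultrafilter.eventually_not.2 h1).mono fun m hm => (not_le.1 hm).le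

theorem exists_lim {E : Type} [TopologicalSpace E] (U : Ultrafilter ℕ) {f : ℕ → E} {K : Set E}
    (hK : IsCompact K) (h : ∀ᶠ m in U, f m ∈ K) : ∃ x ∈ K, Tendsto f U (𝓝 x) :=
  hK.ultrafilter_le_nhds (U.map f) (le_principal_iff.2 h)

theorem mass_mono {E : ℝ → ℝ} {θ₀ r s : ℝ} (hE : ContinuousOn E (Ici 0)) (hr : 0 ≤ r)
    (hrs : r ≤ s) : mass E θ₀ r ≤ mass E θ₀ s := by
  have hc : ContinuousOn (fun σ => max (E σ - θ₀) 0) (Ici 0) :=
    ContinuousOn.sup (hE.sub continuousOn_const) continuousOn_const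
  have h1 : IntervalIntegrable (fun σ => max (E σ - θ₀) 0) volume 0 r :=
    (hc.mono (by rw [uIcc_of_le hr]; exact Icc_subset_Ici_self)).intervalIntegrable
  have h2 : IntervalIntegrable (fun σ => max (E σ - θ₀) 0) volume r s :=
    (hc.mono (by rw [uIcc_of_le hrs]; exact fun x hx => hr.trans hx.1)).intervalIntegrable
  unfold mass
  rw [← intervalIntegral.integral_add_adjacent_intervals h1 h2]
  have : 0 ≤ ∫ σ in r..s, max (E σ - θ₀) 0 :=
    intervalIntegral.integral_nonneg hrs fun σ _ => le_max_right _ _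
  linarith

theorem lam_cont : Continuous lam := by unfold lam; fun_prop

theorem lam_neg_mul (s : ℝ) : lam (-s) * lam s = 1 := by
  unfold lam; rw [← Real.exp_add]; simp [neg_div]

theorem lam_mul_neg (s : ℝ) : lam s * lam (-s) = 1 := by rw [mul_comm, lam_neg_mul]

theorem mem_limJ {U : Filter ℕ} {A B t : ℕ → ℝ} {σ : ℝ} (ht : ∀ᶠ m in U, t m ∈ Icc (A m) (B m))
    (h : Tendsto t U (𝓝 σ)) : σ ∈ limJ U A B := by
  intro θ hθ
  have h1 := h.eventually (Icc_mem_nhds (sub_lt_self σ hθ) (lt_add_of_pos_right σ hθ))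
  filter_upwards [ht, h1] with m hm hm1
  exact ⟨hm.1.trans hm1.2, hm1.1.trans hm.2⟩

end Key

open Key in
theorem key (hA : BaseA) (hB : BaseB) (hD : DelStmt) (hDil : DilStmt) (hP : PSolStmt)
    (hAn : AncStmt) (hL : LimStmt) (hCt : CtlStmt) (hN : NonzStmt) (hE : EnStmt) : KeyStmt := by
  intro n Γ δ θ₀ d y z U ε s r a X hn hC hδ hδ' hθ hz h hε
  have hε0 : ∀ m, 0 < ε m := fun m => (h m).1
  have hε1 : ∀ m, ε m ≤ 1 := fun m => (h m).2.1
  have hF : ∀ m, Fam n Γ δ y z (ε m) (X m) := fun m => (h m).2.2.1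
  have ha : ∀ m, ‖a m‖ ≤ 1 := fun m => (h m).2.2.2.1
  have hs : ∀ m, 0 ≤ s m := fun m => (h m).2.2.2.2.1
  have hsr : ∀ m, s m ≤ r m := fun m => (h m).2.2.2.2.2.1
  have hmass : ∀ m, mass (En n Γ (ε m) (n + 11) 0 (X m (a m))) θ₀ (r m) ≤ 1 :=
    fun m => (h m).2.2.2.2.2.2.2
  have hl1 : ∀ m, lam (s m) ≤ 1 := fun m => by rw [← hC.lam_zero]; exact hC.lam_anti (hs m)
  -- nonvanishing
  obtain ⟨hN1, hN2⟩ := hN n Γ δ θ₀ d y z U ε s a X hn hC hδ hδ' hθ hz (fun m =>
    ⟨hε0 m, hε1 m, hF m, ha m, hs m, (h m).2.2.2.2.2.2.1, by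
      refine le_trans (mass_mono ?_ (hs m) (hsr m)) (hmass m)
      exact (hF m).contE.comp (f := fun σ : ℝ => (a m, σ)) (by fun_prop)
        fun σ hσ => ⟨by simpa using ha m, hσ⟩⟩) hε
  -- the limit
  set A : ℕ → ℝ := fun m => 0 - s m with hAdef
  set B : ℕ → ℝ := fun m => r m - s m with hBdef
  set Xt : ℕ → ℝ → ℝ → ℝ := fun m σ x => X m (a m) (s m + σ) (lam (s m) * x) with hXt
  obtain ⟨Z, hconv, hsy, hint, hps⟩ := hL n Γ δ U (fun m => lam (s m) * ε m)
    (fun m => ε m * Real.exp ((δ - 1 / 2) * s m)) A B Xt hn hC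
    (fun m => ⟨by simp only [hAdef, hBdef]; linarith [hs m, hsr m],
      ⟨hC.lam_pos _, mul_nonneg (hC.lam_pos _).le (hε0 m).le, by
        have := lam_mul_neg (s m)
        simp only [hAdef, zero_sub]
        calc lam (s m) * ε m * lam (-s m) = ε m * (lam (s m) * lam (-s m)) := by ring
          _ ≤ 1 := by rw [this, mul_one]; exact hε1 m⟩,
      mul_pos (hC.lam_pos _) (hε0 m), hP.shift (s m) hC ((hF m).sol (a m) (ha m) (r m))⟩)
    (tendsto_of_tendsto_of_tendsto_of_le_of_le tendsto_const_nhds hε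
      (fun m => mul_nonneg (hC.lam_pos _).le (hε0 m).le)
      (fun m => mul_le_of_le_one_left (hε0 m).le (hl1 m)))
    (tendsto_of_tendsto_of_tendsto_of_le_of_le tendsto_const_nhds hε
      (fun m => mul_nonneg (hε0 m).le (Real.exp_pos _).le)
      (fun m => mul_le_of_le_one_right (hε0 m).le (Real.exp_le_one_iff.2
        (mul_nonpos_of_nonpos_of_nonneg (by linarith) (hs m)))))
    (by
      intro k
      obtain ⟨ε₁, M, hε₁, hM, hc⟩ := hCt n Γ δ θ₀ d y z hn hC hδ hδ' hz k 1 one_pos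
      refine ⟨M, ?_⟩
      filter_upwards [hε.eventually (Iic_mem_nhds hε₁)] with m hm σ hσ
      have hσ' : s m + σ ∈ Icc 0 (r m) := by
        simp only [hAdef, hBdef, mem_Icc] at hσ
        exact ⟨by linarith [hσ.1], by linarith [hσ.2]⟩
      obtain ⟨h1, h2, h3, -, -⟩ := hc (ε m) (r m) (a m) (X m) (hε0 m) hm (hF m) (ha m)
        ((hs m).trans (hsr m)) (hmass m) _ hσ'
      rw [hC.lam_add] at h1 h2 h3
      have hτ := hC.lam_pos (s m)
      refine ⟨?_, ?_, ?_⟩
      · simpa using hDil.Sy_dil hτ (hC.lam_pos σ) h1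
      · have h4 := hB.smul (lam (s m)) (hDil.Sy_dil hτ (hC.lam_pos σ) h2)
        rw [abs_of_pos hτ, one_mul, zpow_neg_one, mul_inv_cancel₀ hτ.ne'] at h4
        refine hB.congr (fun x _ => ?_) h4
        have e1 : lam (s m) * Real.exp (δ * (s m + σ))
            = Real.exp ((δ - 1 / 2) * s m) * Real.exp (δ * σ) := by
          unfold lam; rw [← Real.exp_add, ← Real.exp_add]; congr 1; ring
        simp only [hXt]
        calc lam (s m) * (ε m * Real.exp (δ * (s m + σ)) * X m (a m) (s m + σ) (lam (s m) * x))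
            = ε m * (lam (s m) * Real.exp (δ * (s m + σ))) * X m (a m) (s m + σ) (lam (s m) * x) := by
              ring
          _ = _ := by rw [e1]; ring
      · have h4 := hDil.QQ_dil n (ε m) k 0 (X m (a m) (s m + σ)) hτ (hC.lam_pos σ)
        simp only [neg_zero, zpow_zero, one_mul] at h4
        simp only [hXt]
        rw [h4]; exact h3)
  have hconv0 : ∀ (t x : ℕ → ℝ) (τ ξ : ℝ), 0 < ξ → (∀ᶠ m in U, t m ∈ Icc (A m) (B m)) →
      Tendsto t U (𝓝 τ) → Tendsto x U (𝓝 ξ) →
      Tendsto (fun m => X m (a m) (s m + t m) (lam (s m) * x m)) U (𝓝 (Z τ ξ)) := by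
    intro t x τ ξ hξ ht h1 h2
    simpa using hconv 0 t x τ ξ hξ ht h1 h2
  have h0A : ∀ m, (0 : ℝ) ∈ Icc (A m) (B m) := fun m =>
    ⟨by simp only [hAdef]; linarith [hs m], by simp only [hBdef]; linarith [hsr m]⟩
  set p₀ : Fin d → ℝ := fun i => Z 0 (y i) with hp₀
  have hR0 : ∀ τ, Rm z y τ 0 = 0 := fun τ => by funext i; simp [Rm]
  -- the key claim
  have hK : (∀ b, 0 ≤ b → b ∈ limJ U A B → p₀ = Rm z y b fun i => Z b (lam b * y i)) ∧ p₀ ≠ 0 := by
    rcases dich U s with ⟨L, hLs⟩ | hst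
    · obtain ⟨l, hl, hsl⟩ := exists_lim U (isCompact_Icc (a := 0) (b := L))
        (hLs.mono fun m hm => ⟨hs m, hm⟩)
      obtain ⟨a₀, -, ha₀⟩ := exists_lim U (isCompact_closedBall (0 : Fin d → ℝ) 1)
        (Eventually.of_forall fun m => by simpa using ha m)
      have hneg : Tendsto (fun m => -s m) U (𝓝 (-l)) := hsl.neg
      have hAm : ∀ m, -s m ∈ Icc (A m) (B m) := fun m =>
        ⟨by simp [hAdef], by simp only [hBdef]; linarith [hs m, hsr m]⟩
      have hlJ : -l ∈ limJ U A B := mem_limJ (Eventually.of_forall hAm) hneg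
      have hini : ∀ x, 0 < x → Z (-l) x = z a₀ 0 (lam l * x) := by
        intro x hx
        have hy0 : 0 < lam l * x := mul_pos (hC.lam_pos l) hx
        have h1 := hconv0 (fun m => -s m) (fun m => lam (-s m) * (lam l * x)) (-l) x hx
          (Eventually.of_forall hAm) hneg (by
            have := ((lam_cont.tendsto _).comp hneg).mul_const (lam l * x)
            rwa [← mul_assoc, lam_neg_mul, one_mul] at this)
        have hc : Continuous fun a : Fin d → ℝ => z a 0 (lam l * x) :=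
          ((LinearMap.proj (lam l * x) : (ℝ → ℝ) →ₗ[ℝ] ℝ) ∘ₗ
            (LinearMap.proj 0 : (ℝ → ℝ → ℝ) →ₗ[ℝ] (ℝ → ℝ)) ∘ₗ z).continuous_of_finiteDimensional
        have h2 : Tendsto (fun m => z (a m) 0 (lam l * x)) U (𝓝 (z a₀ 0 (lam l * x))) :=
          (hc.tendsto _).comp ha₀
        refine tendsto_nhds_unique h1 (h2.congr' ?_)
        have h3 : Tendsto (fun m => √(ε m) * (lam l * x)) U (𝓝 0) := by
          simpa using (hε.sqrt).mul_const (lam l * x)
        have h4 : Tendsto (fun m => ε m * (lam l * x)) U (𝓝 0) := by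
          simpa using hε.mul_const (lam l * x)
        filter_upwards [h3.eventually (Iic_mem_nhds (show (0 : ℝ) < 1 / 4 by norm_num)),
          h4.eventually (Iio_mem_nhds one_pos)] with m hm1 hm2
        rw [add_neg_cancel, ← mul_assoc, lam_mul_neg, one_mul,
          (hF m).init (a m) (ha m) ⟨hy0, hm2⟩, cutz, hC.ze_one _ hm1, one_mul]
      have hmain : ∀ b, 0 ≤ b → b ∈ limJ U A B → ∃ w, Rm z y (l + b) w = a₀ ∧
          (fun i => Z b (lam b * y i)) = w ∧ p₀ = Rm z y b w := by
        intro b hb hbJ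
        have hlb : 0 ≤ l + b := add_nonneg hl.1 hb
        obtain ⟨w, hw⟩ := hz.surj (l + b) hlb a₀
        have h1 := hP.shift (-b) hC ((hz.anc w).sol (-(l + b)) (by linarith))
        rw [mul_zero, zero_mul, show -(l + b) - -b = -l by ring, show 0 - -b = b by ring] at h1
        have h2 := hP.lin 1 (-1) (hps (-l) hlJ b hbJ) h1
        have h3 := hAn.uniq hn hC hδ h2 (by
          intro x hx
          have h4 := congrFun (congrFun (hz.shift (l + b) hlb w) 0) (lam l * x)
          rw [hw, shA, if_pos ⟨le_rfl, mul_pos (hC.lam_pos l) hx⟩] at h4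
          rw [hini x hx, ← h4, ← mul_assoc, ← hC.lam_add, show -(l + b) + l = -b by ring,
            show -(l + b) + 0 = -b + -l by ring]
          ring)
        refine ⟨w, hw, ?_, ?_⟩
        · funext i
          have h5 := h3 b ⟨by linarith [hl.1], le_rfl⟩ (lam b * y i)
            (mul_pos (hC.lam_pos b) (hz.ypos i))
          rw [neg_add_cancel, ← mul_assoc, lam_neg_mul, one_mul, one_mul, hz.eval] at h5
          linarith
        · funext i
          have h5 := h3 0 ⟨by linarith [hl.1], hb⟩ (y i) (hz.ypos i)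
          rw [add_zero] at h5
          simp only [hp₀, Rm]
          linarith
      refine ⟨fun b hb hbJ => ?_, fun h0 => ?_⟩
      · obtain ⟨w, -, h1, h2⟩ := hmain b hb hbJ
        rw [h1]; exact h2
      · obtain ⟨w, h1, -, h2⟩ := hmain 0 le_rfl
          (mem_limJ (t := fun _ => 0) (Eventually.of_forall h0A) tendsto_const_nhds)
        have hw : w = 0 := hz.inj 0 le_rfl w (h2 ▸ h0)
        rw [hw, hR0] at h1
        exact hN1 L hLs (h1 ▸ ha₀)
    · have hJ : ∀ b ∈ limJ U A B, ∀ σ, σ ≤ b → σ ∈ limJ U A B := by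
        intro b hb σ hσ θ hθ'
        filter_upwards [hb θ hθ', hst.eventually (eventually_ge_atTop (-σ))] with m h1 h2
        exact ⟨by simp only [hAdef]; linarith, by linarith [h1.2]⟩
      have hanc : ∀ b ∈ limJ U A B, Anc n Γ δ (shA (-b) Z) := fun b hb =>
        hAn.shift' b hC (fun α hα => hps α (hJ b hb α hα) b hb)
          (fun k => (hsy k).imp fun M hM σ hσ => hM σ (hJ b hb σ hσ))
          (fun σ hσ => hint σ (hJ b hb σ hσ))
      have hval : ∀ b, (fun i => shA (-b) Z 0 (y i)) = fun i => Z b (lam b * y i) := by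
        intro b
        funext i
        rw [shA, if_pos ⟨le_rfl, hz.ypos i⟩, neg_neg, add_zero]
      refine ⟨fun b hb hbJ => ?_, fun h0 => ?_⟩
      · funext i
        have h1 := hz.uniq _ (hanc b hbJ)
        rw [hval] at h1
        simp only [hp₀, Rm]
        rw [← h1, shA, if_pos ⟨by linarith, mul_pos (hC.lam_pos _) (hz.ypos i)⟩, neg_neg,
          add_neg_cancel, ← mul_assoc, lam_mul_neg, one_mul]
      · have h0J : (0 : ℝ) ∈ limJ U A B :=
          mem_limJ (t := fun _ => 0) (Eventually.of_forall h0A) tendsto_const_nhds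
        have h1 := hz.uniq _ (hanc 0 h0J)
        rw [hval, hC.lam_zero] at h1
        simp only [one_mul] at h1
        rw [show (fun i => Z 0 (y i)) = 0 from h0, map_zero] at h1
        refine hN2 hst fun t x τ ξ hτ hξ ht h2 h3 => ?_
        have h4 := congrFun (congrFun h1 τ) ξ
        rw [shA, if_pos ⟨hτ, hξ⟩, neg_neg, zero_add, hC.lam_zero, one_mul] at h4
        have h5 := hconv0 t x τ ξ hξ (ht.mono fun m hm =>
          ⟨by simp only [hAdef]; linarith [hm.1], hm.2.trans (h0A m).2⟩) h2 h3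
        rw [h4] at h5
        exact h5
  refine ⟨p₀, hK.2, ?_, ?_⟩
  · refine tendsto_pi_nhds.2 fun i => ?_
    simpa using hconv0 (fun _ => 0) (fun _ => y i) 0 (y i) (hz.ypos i) (Eventually.of_forall h0A)
      tendsto_const_nhds tendsto_const_nhds
  · have hBm : ∀ m, B m ∈ Icc (A m) (B m) := fun m => ⟨(h0A m).1.trans (h0A m).2, le_rfl⟩
    rcases dich U B with ⟨L, hLs⟩ | hst
    · obtain ⟨b, hb, hBb⟩ := exists_lim U (isCompact_Icc (a := 0) (b := L))
        (hLs.mono fun m hm => ⟨(h0A m).2, hm⟩)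
      rw [hK.1 b hb.1 (mem_limJ (Eventually.of_forall hBm) hBb)]
      have h1 : Tendsto (fun m i => X m (a m) (r m) (lam (r m) * y i)) U
          (𝓝 fun i => Z b (lam b * y i)) := by
        refine tendsto_pi_nhds.2 fun i => ?_
        have h2 := hconv0 B (fun m => lam (B m) * y i) b (lam b * y i)
          (mul_pos (hC.lam_pos b) (hz.ypos i)) (Eventually.of_forall hBm) hBb
          (((lam_cont.tendsto _).comp hBb).mul_const (y i))
        refine h2.congr fun m => ?_
        rw [← mul_assoc, ← hC.lam_add]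
        simp only [hBdef, add_sub_cancel]
      have h3 := (hz.cont (b, fun i => Z b (lam b * y i)) ⟨hb.1, mem_univ _⟩).tendsto.comp
        (tendsto_nhdsWithin_iff.2 ⟨hBb.prodMk_nhds h1,
          Eventually.of_forall fun m => ⟨(h0A m).2, mem_univ _⟩⟩)
      exact h3
    · exfalso
      obtain ⟨M, hM⟩ := hsy 0
      obtain ⟨C, c, hc, hdec⟩ := hz.decay
      have hbJ : ∀ b, 0 ≤ b → b ∈ limJ U A B := by
        intro b hb θ hθ'
        filter_upwards [hst.eventually (eventually_ge_atTop b)] with m h2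
        exact ⟨by linarith [(h0A m).1], by linarith⟩
      have hbd : ∀ b, 0 ≤ b → ‖p₀‖ ≤ |C| * Real.exp (-(c * b)) * |M| := by
        intro b hb
        have h1 : ‖fun i => Z b (lam b * y i)‖ ≤ |M| := by
          refine (pi_norm_le_iff_of_nonneg (abs_nonneg M)).2 fun i => ?_
          have h2 := (hM b (hbJ b hb)).2 0 le_rfl (lam b * y i)
            ⟨mul_pos (hC.lam_pos b) (hz.ypos i), by simp⟩
          simp only [iteratedDeriv_zero, Nat.cast_zero, sub_zero, zpow_zero, mul_one] at h2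
          exact h2.trans (le_abs_self M)
        rw [hK.1 b hb (hbJ b hb)]
        refine (hdec b hb _).trans ?_
        have h3 := Real.exp_pos (-(c * b))
        calc C * Real.exp (-(c * b)) * ‖fun i => Z b (lam b * y i)‖
            ≤ |C| * Real.exp (-(c * b)) * ‖fun i => Z b (lam b * y i)‖ := by
              gcongr; exact le_abs_self C
          _ ≤ _ := by gcongr
      have hlim : Tendsto (fun b : ℝ => |C| * Real.exp (-(c * b)) * |M|) atTop (𝓝 0) := by
        have h1 : Tendsto (fun b : ℝ => Real.exp (-(c * b))) atTop (𝓝 0) :=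
          Real.tendsto_exp_neg_atTop_nhds_zero.comp (tendsto_id.const_mul_atTop hc)
        simpa using (h1.const_mul |C|).mul_const |M|
      have := ge_of_tendsto hlim ((eventually_ge_atTop 0).mono hbd)
      exact hK.2 (norm_le_zero_iff.1 this)

end Vale.Agent.P264
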