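import Vale.Agent.P264.StmB

/-! P264: passing to the limit in the equation. -/

namespace Vale.Agent.P264

open scoped ContDiff Topology
open Set MeasureTheory Filter

namespace LimAux

theorem unif (U : Ultrafilter ℕ) {K : Set ℝ} (hK : IsCompact K) {f : ℕ → ℝ → ℝ} {g : ℝ → ℝ}
    (hg : ContinuousOn g K) (h : ∀ (y : ℕ → ℝ), ∀ x ∈ K, Tendsto y U (𝓝 x) →
      Tendsto (fun m => f m (y m)) U (𝓝 (g x))) {θ : ℝ} (hθ : 0 < θ) :
    ∀ᶠ m in U, ∀ y ∈ K, |f m y - g y| ≤ θ := by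
  by_contra hn
  have h1 : ∀ᶠ m in U, ∃ y, y ∈ K ∧ θ < |f m y - g y| := by
    filter_upwards [Ultrafilter.eventually_not.2 hn] with m hm
    simpa using hm
  obtain ⟨y, hy⟩ := h1.choice
  have hyK : ∀ᶠ m in U, y m ∈ K := hy.mono fun m hm => hm.1
  obtain ⟨x, hx, hle⟩ := hK.ultrafilter_le_nhds (U.map y) (le_principal_iff.2 hyK)
  have t1 : Tendsto y U (𝓝 x) := hle
  have t2 := ((h y x hx t1).sub
    ((hg x hx).tendsto.comp (tendsto_nhdsWithin_iff.2 ⟨t1, hyK⟩))).abs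
  rw [sub_self, abs_zero] at t2
  exact absurd (ge_of_tendsto t2 (hy.mono fun m hm => hm.2.le)) (not_le.2 hθ)

theorem deriv_of_mvt {φ R : ℝ → ℝ} {α β σ : ℝ} (hσ : σ ∈ Ioo α β) (hR : ContinuousAt R σ)
    (h : ∀ s s', α < s → s < s' → s' < β → ∃ t ∈ Icc s s', φ s' - φ s = R t * (s' - s)) :
    HasDerivAt φ (R σ) σ := by
  refine hasDerivAt_iff_isLittleO.2 (Asymptotics.isLittleO_iff.2 fun c hc => ?_)
  obtain ⟨r, hr, H⟩ := Metric.continuousAt_iff.1 hR c hc
  filter_upwards [Ioo_mem_nhds hσ.1 hσ.2, Metric.ball_mem_nhds σ hr] with s hs hb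
  have key : ∃ t, dist t σ < r ∧ φ s - φ σ = R t * (s - σ) := by
    rw [Metric.mem_ball, Real.dist_eq, abs_lt] at hb
    rcases lt_trichotomy s σ with h1 | rfl | h1
    · obtain ⟨t, ht, e⟩ := h s σ hs.1 h1 hσ.2
      exact ⟨t, by rw [Real.dist_eq, abs_lt]; constructor <;> linarith [ht.1, ht.2], by linarith⟩
    · exact ⟨s, by simpa using hr, by simp⟩
    · obtain ⟨t, ht, e⟩ := h σ s hσ.1 h1 hs.2
      exact ⟨t, by rw [Real.dist_eq, abs_lt]; constructor <;> linarith [ht.1, ht.2], e⟩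
  obtain ⟨t, h1, h2⟩ := key
  have h3 := H h1
  rw [h2, smul_eq_mul, mul_comm (s - σ), ← sub_mul, norm_mul]
  exact mul_le_mul_of_nonneg_right h3.le (norm_nonneg _)

theorem lam_cont : Continuous lam := by unfold lam; fun_prop

theorem cj_zero {J I : Set ℝ} {f : ℝ → ℝ → ℝ} (h : CJ J I f) (i : ℕ) {x : ℝ} (hx : x ∈ I) :
    ContinuousOn (fun s => iteratedDeriv i (f s) x) J :=
  (h.2 i).comp (f := fun s => (s, x)) (by fun_prop) fun _ hs => ⟨hs, hx⟩

theorem rr_lim (hD : DelStmt) (hP : PSolStmt) {n : ℕ} {Γ : ℝ → ℝ} (δ : ℝ) (hc : Coef n Γ)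
    {ι : Type} {U : Filter ι} {ε η t : ι → ℝ} {f : ι → ℝ → ℝ} {F : ℝ → ℝ} {τ x : ℝ} (hx : 0 < x)
    (hε0 : ∀ m, 0 ≤ ε m) (hε : Tendsto ε U (𝓝 0)) (hη : Tendsto η U (𝓝 0))
    (ht : Tendsto t U (𝓝 τ)) (hf : ∀ᶠ m in U, ContDiffAt ℝ ∞ (f m) x) (hF : ContDiffAt ℝ ∞ F x)
    (hj : ∀ i, Tendsto (fun m => iteratedDeriv i (f m) x) U (𝓝 (iteratedDeriv i F x))) :
    Tendsto (fun m => RR n Γ δ (ε m) (η m) (t m) (f m) x) U (𝓝 (RR n Γ δ 0 0 τ F x)) := by
  have hx0 : x ∈ dom 0 := ⟨hx, by simp⟩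
  have t1 : Tendsto (fun m => 1 - ε m * x) U (𝓝 1) := by
    simpa using (hε.mul_const x).const_sub 1
  have ev : ∀ᶠ m in U, ε m * x < 1 / 4 :=
    (hε.mul_const x).eventually_lt_const (by norm_num)
  obtain ⟨-, c2, -, c4, -⟩ := hc.cj 0 univ
  have tg : Tendsto (fun m => gg Γ (ε m) (t m) x) U (𝓝 (gg Γ 0 τ x)) := by
    have := (((continuousOn_univ.1 (cj_zero c2 0 hx0)).tendsto τ).comp ht).div t1 one_ne_zero
    rw [div_one] at this
    exact this.congr' (ev.mono fun m hm => (hc.near _ _ _ (hε0 m) hx hm).1.symm)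
  have tV : Tendsto (fun m => V1 n Γ (ε m) (t m) x) U (𝓝 (V1 n Γ 0 τ x)) := by
    have := t1.mul (((continuousOn_univ.1 (cj_zero c4 0 hx0)).tendsto τ).comp ht)
    rw [one_mul] at this
    exact this.congr' (ev.mono fun m hm => (hc.near _ _ _ (hε0 m) hx hm).2.symm)
  have tf : Tendsto (fun m => f m x) U (𝓝 (F x)) := hj 0
  have tχ : Tendsto (fun m => om (ε m) x * (η m * Real.exp (δ * t m) * f m x)) U (𝓝 0) := by
    simpa [om] using (t1.const_mul x).mul ((hη.mul (ht.const_mul δ).rexp).mul tf)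
  obtain ⟨c, hcs, hL⟩ := hD.jets n
  have tL : Tendsto (fun m => LL n (ε m) (f m) x) U (𝓝 (LL n 0 F x)) := by
    rw [hL hF]
    exact (tendsto_finsetSum _ fun i _ => ((((hcs i).continuous.tendsto (0, x)).comp
      (hε.prodMk_nhds tendsto_const_nhds)).mul (hj i))).congr' (hf.mono fun m hm => (hL hm).symm)
  have tl := ((lam_cont.tendsto τ).comp ht).pow 2
  have := (tf.const_mul (-δ)).add (tl.mul (((((tg.pow 2).mul tL).neg.add
    (((tg.const_mul 2).mul tV).mul tf)).add (((((tg.const_mul 2).add tχ).mul tχ).neg.mul tL).add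
      ((tχ.mul tV).mul tf)))))
  rw [hP.flat]
  simp only [mul_zero, neg_zero, zero_mul, add_zero] at this
  refine this.congr' (ev.mono fun m hm => ?_)
  simp only [RR, FF, GG, hc.err_zero _ _ _ (hε0 m) hx hm, mul_zero, add_zero, Function.comp]

theorem clamp {U : Filter ℕ} {a b : ℕ → ℝ} (hab : ∀ m, a m ≤ b m) {σ : ℝ} (hσ : σ ∈ limJ U a b) :
    ∃ s : ℕ → ℝ, (∀ m, s m ∈ Icc (a m) (b m)) ∧ Tendsto s U (𝓝 σ) := by
  refine ⟨fun m => max (a m) (min σ (b m)),
    fun m => ⟨le_max_left _ _, max_le (hab m) (min_le_right _ _)⟩,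
    Metric.tendsto_nhds.2 fun θ hθ => ?_⟩
  filter_upwards [hσ (θ / 2) (half_pos hθ)] with m hm
  rw [Real.dist_eq, abs_lt]
  have h1 : max (a m) (min σ (b m)) ≤ σ + θ / 2 :=
    max_le hm.1 ((min_le_left _ _).trans (by linarith))
  have h2 : σ - θ / 2 ≤ max (a m) (min σ (b m)) := le_max_of_le_right (le_min (by linarith) hm.2)
  constructor <;> linarith

theorem vp_lim {U : Filter ℕ} {s y : ℕ → ℝ} {σ x : ℝ} (hs : Tendsto s U (𝓝 σ))
    (hy : Tendsto y U (𝓝 x)) : Tendsto (fun m => vp (lam (s m)) (y m)) U (𝓝 (vp (lam σ) x)) :=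
  ((((lam_cont.tendsto σ).comp hs).pow 2).add (hy.pow 2)).sqrt

end LimAux

open LimAux in
theorem limS (hA : BaseA) (hB : BaseB) (hD : DelStmt) (hC : CJStmt) (hP : PSolStmt)
    (hJ : JetLimStmt) : LimStmt := by
  intro n Γ δ U ε η a b X _ hc hm hε hη H
  have ε0 : ∀ m, 0 ≤ ε m := fun m => (hm m).2.2.1.le
  have ev : ∀ x : ℝ, ∀ᶠ m in U, ε m * x < 1 / 4 := fun x =>
    (hε.mul_const x).eventually_lt_const (by norm_num)
  obtain ⟨Z, hZ, hconv⟩ := hJ U ε a b X (fun m => (hm m).1) ε0 hε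
    (fun m => (hm m).2.2.2.cj.1) fun i L => by
      obtain ⟨M, hM⟩ := H (i + 4)
      obtain ⟨C, C0, hC'⟩ := hP.tlip δ i L hc
      refine ⟨max (|M| * (lam L)⁻¹ ^ i) (C * |M|), ?_⟩
      filter_upwards [hM, ev L] with m h1 h2 σ hσ hL y hy
      have y1 : ε m * y < 1 / 4 := lt_of_le_of_lt (mul_le_mul_of_nonneg_left hy.2 (ε0 m)) h2
      have y2 : y ∈ dom (ε m) := ⟨hy.1, by linarith⟩
      refine ⟨le_max_of_le_left (((h1 σ hσ).1.2 i (by omega) y y2).trans ?_), fun σ' hσ' hL' =>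
        le_trans ?_ (mul_le_mul_of_nonneg_right (le_max_right _ _) (abs_nonneg _))⟩
      · have v0 := hA.vp_pos y (hc.lam_pos σ)
        rw [zero_sub, zpow_neg, zpow_natCast, ← inv_pow]
        exact mul_le_mul (le_abs_self _) (pow_le_pow_left₀ (by positivity) (inv_anti₀
          (hc.lam_pos L) ((hc.lam_anti (le_of_abs_le hL)).trans (hA.lam_le _ _))) _)
          (by positivity) (abs_nonneg _)
      · exact hC' (hm m).2.1 (abs_nonneg M) (min_le_right (b m) L)
          (hP.mono le_rfl (min_le_left _ _) (hm m).2.2.2) (fun τ hτ =>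
            have := h1 τ ⟨hτ.1, hτ.2.trans (min_le_left _ _)⟩
            ⟨hB.mono (hc.lam_pos τ) le_rfl (le_abs_self M) this.1, this.2.1⟩)
          σ ⟨hσ.1, le_min hσ.2 (le_of_abs_le hL)⟩ σ' ⟨hσ'.1, le_min hσ'.2 (le_of_abs_le hL')⟩
          y y2 y1
  rw [← hA.dom_zero] at hZ
  have sy : SyU (limJ U a b) lam 0 0 Z := fun h => by
    obtain ⟨M, hM⟩ := H h
    refine ⟨M, fun σ hσ => ⟨hZ.1 σ hσ, fun i hi x hx => ?_⟩⟩
    obtain ⟨s, s1, s2⟩ := clamp (fun m => (hm m).1) hσ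
    refine le_of_tendsto_of_tendsto
      (hconv i s (fun _ => x) σ x hx.1 (Eventually.of_forall s1) s2 tendsto_const_nhds).abs
      (((vp_lim s2 tendsto_const_nhds).zpow₀ _
        (Or.inl (hA.vp_pos x (hc.lam_pos σ)).ne')).const_mul M) ?_
    filter_upwards [hM, ev x] with m h1 h2
    exact (h1 _ (s1 m)).1.2 i hi x ⟨hx.1, by linarith⟩
  refine ⟨Z, hconv, sy, fun σ hσ k i _ => ?_, fun α hα β hβ => ?_⟩
  · have l0 := hc.lam_pos σ
    have hp : Par (lam σ) 0 := ⟨l0, le_rfl, by simp⟩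
    obtain ⟨g, hg⟩ : ∃ g : ℝ → ℝ,
      g = fun x => iteratedDeriv i (Z σ) x ^ 2 * wt n (lam σ) 0 i (i + 2) 0 x := ⟨_, rfl⟩
    have g0 : ∀ x, 0 < x → 0 ≤ g x := fun x hx =>
      hg ▸ mul_nonneg (sq_nonneg _) (hA.wt_nonneg n i _ _ ⟨hx, by simp⟩)
    have gc : ContinuousOn g (Ioi 0) := by
      rw [hg, ← hA.dom_zero]
      exact ((hA.iter_cont i (hZ.1 σ hσ)).continuousOn.pow 2).mul
        (hA.wt_cont n 0 i _ _ l0).continuousOn
    rw [← hg, hA.dom_zero, ← Ioc_union_Ioi_eq_Ioi zero_le_one]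
    refine IntegrableOn.union ?_ ?_
    · obtain ⟨M, hM⟩ := sy i
      refine IntegrableOn.of_bound measure_Ioc_lt_top
        ((gc.mono Ioc_subset_Ioi_self).aestronglyMeasurable measurableSet_Ioc) (M ^ 2 * (lam σ)⁻¹)
        ((ae_restrict_iff' measurableSet_Ioc).2 (Eventually.of_forall fun x hx => ?_))
      · have x0 : x ∈ dom 0 := ⟨hx.1, by simp⟩
        have v0 := hA.vp_pos x l0
        have a1 := (hM σ hσ).2 i le_rfl x x0
        have a2 := hA.Th_le_one n ((i : ℤ) + 2) hp x0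
        have a3 := hA.Th_nonneg n (lam := lam σ) ((i : ℤ) + 2) x0
        rw [Real.norm_eq_abs, abs_of_nonneg (g0 x hx.1), hg]
        dsimp only
        rw [wt, ← sq_abs]
        calc _ ≤ (M * vp (lam σ) x ^ (0 - (i : ℤ))) ^ 2 *
              (vp (lam σ) x ^ (2 * (i : ℤ) - 1 + 0) * 1) := by gcongr
          _ = M ^ 2 * (vp (lam σ) x)⁻¹ := by
              rw [mul_one, mul_pow, ← zpow_natCast (_ ^ _) 2, ← zpow_mul, mul_assoc,
                ← zpow_add₀ v0.ne', ← zpow_neg_one]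
              congr 2
              push_cast
              ring
          _ ≤ _ := mul_le_mul_of_nonneg_left (inv_anti₀ l0 (hA.lam_le _ _)) (sq_nonneg M)
    · obtain ⟨M, hM⟩ := H i
      obtain ⟨s, s1, s2⟩ := clamp (fun m => (hm m).1) hσ
      have gi : ∀ L : ℝ, IntegrableOn g (Icc 1 L) := fun L =>
        (gc.mono fun x hx => lt_of_lt_of_le one_pos hx.1).integrableOn_Icc
      refine integrableOn_Ioi_of_intervalIntegral_norm_bounded (M + 1) 1 (l := atTop) (b := id)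
        (fun L => (gi L).mono_set Ioc_subset_Icc_self) tendsto_id ?_
      filter_upwards [eventually_ge_atTop 1] with L hL
      have L0 : (0 : ℝ) < L := by linarith
      obtain ⟨m, h1, h2, h3⟩ := (hM.and ((ev L).and (unif U (K := Icc 1 L) isCompact_Icc
        (f := fun m x => iteratedDeriv i (X m (s m)) x ^ 2 * wt n (lam (s m)) (ε m) i (i + 2) 0 x)
        (gc.mono fun x hx => lt_of_lt_of_le one_pos hx.1) (fun y x hx hy => by
          have v1 := vp_lim s2 hy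
          have v0 := (hA.vp_pos x l0).ne'
          have := ((hconv i s y σ x (lt_of_lt_of_le one_pos hx.1) (Eventually.of_forall s1) s2
            hy).pow 2).mul ((v1.zpow₀ (2 * (i : ℤ) - 1 + 0) (Or.inl v0)).mul
              (((hy.div v1 v0).pow ((n : ℤ) - 1 + (i + 2)).toNat).mul
                (((hε.mul hy).const_sub 1).pow ((i : ℤ) + 2).toNat)))
          rw [hg]
          exact this) (inv_pos.2 L0)))).exists
      have sub : Ioc 1 L ⊆ dom (ε m) := fun x hx => ⟨lt_trans one_pos hx.1, by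
        have := mul_le_mul_of_nonneg_left hx.2 (ε0 m)
        linarith⟩
      have pm : Par (lam (s m)) (ε m) := ⟨hc.lam_pos _, ε0 m, le_trans
        (mul_le_mul_of_nonneg_left (hc.lam_anti (s1 m).1) (ε0 m)) (hm m).2.1.2.2⟩
      have fi := hA.intT n i (i + 2) pm (hB.adm_of_syA (q := 0) 0 pm.1 (Or.inl (hm m).2.2.1)
        fun h => ((hm m).2.2.2.sy h).imp fun _ hh => hh _ (s1 m))
      have e1 := (setIntegral_mono_set fi ((ae_restrict_iff' (hA.dom_open _).measurableSet).2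
        (Eventually.of_forall fun x hx => mul_nonneg (sq_nonneg _) (hA.wt_nonneg n i _ _ hx)))
        sub.eventuallyLE).trans ((hA.TT_le_QQ n _ _ 0 _ le_rfl).trans (h1 _ (s1 m)).2.2)
      have fi' := fi.mono_set sub
      rw [id, intervalIntegral.integral_of_le hL]
      refine (setIntegral_mono_on ((gi L).mono_set Ioc_subset_Icc_self).norm
        (fi'.add (integrableOn_const (C := L⁻¹) measure_Ioc_lt_top.ne)) measurableSet_Ioc
        fun x hx => ?_).trans ?_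
      · have := (abs_le.1 (h3 x (Ioc_subset_Icc_self hx))).1
        rw [Real.norm_eq_abs, abs_of_nonneg (g0 x (lt_trans one_pos hx.1)), Pi.add_apply]
        linarith
      · simp only [Pi.add_apply]
        rw [integral_add fi' (integrableOn_const measure_Ioc_lt_top.ne), setIntegral_const,
          Real.volume_real_Ioc_of_le hL, smul_eq_mul]
        have : (L - 1) * L⁻¹ ≤ 1 := by rw [mul_inv_le_iff₀ L0]; linarith
        linarith
  · have sub : Icc α β ⊆ limJ U a b := fun σ hσ θ hθ => by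
      filter_upwards [hα θ hθ, hβ θ hθ] with m h1 h2
      exact ⟨by linarith [hσ.1, h1.1], by linarith [hσ.2, h2.2]⟩
    refine ⟨hC.mono sub subset_rfl hZ, fun h => (sy h).imp fun M hM s hs => hM s (sub hs),
      fun σ hσ x hx => ?_⟩
    have sm : ∀ τ ∈ Icc α β, ContDiffAt ℝ ∞ (Z τ) x := fun τ hτ =>
      (hZ.1 τ (sub hτ)).contDiffAt ((hA.dom_open 0).mem_nhds hx)
    refine deriv_of_mvt (R := fun τ => RR n Γ δ 0 0 τ (Z τ) x) hσ ?_ fun s s' h1 h2 h3 => ?_
    · have nb := Icc_mem_nhds hσ.1 hσ.2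
      exact rr_lim hD hP δ hc (ε := fun _ => 0) (η := fun _ => 0) (t := id) hx.1
        (fun _ => le_rfl) tendsto_const_nhds tendsto_const_nhds tendsto_id
        (mem_of_superset nb sm) (sm σ (Ioo_subset_Icc_self hσ))
        fun i => (cj_zero hZ i hx).continuousAt (mem_of_superset nb sub)
    · have e1 : ∀ᶠ m in U, a m ≤ s ∧ s' ≤ b m := by
        filter_upwards [hα (s - α) (by linarith), hβ (β - s') (by linarith)] with m a1 a2
        exact ⟨by linarith [a1.1], by linarith [a2.2]⟩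
      have e2 : ∀ᶠ m in U, ∃ t, t ∈ Ioo s s' ∧
          RR n Γ δ (ε m) (η m) t (X m t) x = (X m s' x - X m s x) / (s' - s) := by
        filter_upwards [e1, ev x] with m a1 a2
        have xm : x ∈ dom (ε m) := ⟨hx.1, by linarith⟩
        exact exists_hasDerivAt_eq_slope (fun t => X m t x)
          (fun t => RR n Γ δ (ε m) (η m) t (X m t) x) h2
          ((cj_zero (hm m).2.2.2.cj 0 xm).mono (Icc_subset_Icc a1.1 a1.2))
          fun t ht => (hm m).2.2.2.eqn t (Ioo_subset_Ioo a1.1 a1.2 ht) x xm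
      obtain ⟨t, ht⟩ := e2.choice
      obtain ⟨τ, hτ, hle⟩ := (isCompact_Icc (a := s) (b := s')).ultrafilter_le_nhds (U.map t)
        (le_principal_iff.2 (ht.mono fun m hm => Ioo_subset_Icc_self hm.1))
      have tt : Tendsto t U (𝓝 τ) := hle
      have tm : ∀ᶠ m in U, t m ∈ Icc (a m) (b m) := by
        filter_upwards [e1, ht] with m a1 a2
        exact ⟨a1.1.trans a2.1.1.le, a2.1.2.le.trans a1.2⟩
      have l1 := rr_lim hD hP δ hc (f := fun m => X m (t m)) hx.1 ε0 hε hη tt (by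
        filter_upwards [tm, ev x] with m a1 a2
        exact ((hm m).2.2.2.cj.1 _ a1).contDiffAt
          ((hA.dom_open _).mem_nhds ⟨hx.1, by linarith⟩))
        (sm τ ⟨by linarith [hτ.1], by linarith [hτ.2]⟩)
        fun i => hconv i t (fun _ => x) τ x hx.1 tm tt tendsto_const_nhds
      have l2 : ∀ r ∈ Icc s s', Tendsto (fun m => X m r x) U (𝓝 (Z r x)) := fun r hr =>
        hconv 0 (fun _ => r) (fun _ => x) r x hx.1
          (e1.mono fun m a1 => ⟨a1.1.trans hr.1, hr.2.trans a1.2⟩) tendsto_const_nhds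
          tendsto_const_nhds
      have l3 := ((l2 s' ⟨h2.le, le_rfl⟩).sub (l2 s ⟨le_rfl, h2.le⟩)).div_const (s' - s)
      have := tendsto_nhds_unique (l1.congr' (ht.mono fun m hm => hm.2)) l3
      exact ⟨τ, hτ, by rw [this, div_mul_cancel₀ _ (by linarith)]⟩

end Vale.Agent.P264
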