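import Vale.Agent.P264.StmB

/-!
Assembly of the one-dimensional blow-up theorem.
-/

namespace Vale.Agent.P264

open scoped ContDiff Topology
open Set MeasureTheory Filter

theorem mainB (hA : BaseA) (hCoef : CoefStmt) (hSpec : SpecStmt) (hFam : FamStmt) (hKey : KeyStmt)
    (hTop : TopStmt) (hE : EnStmt) (hX : ExitStmt) (hS : SymbStmt) (hDa : DataStmt) :
    MainStmt := by
  intro n Γ hn hΓ
  by_contra hM
  have hC := hCoef n Γ hn hΓ
  obtain ⟨δ, hδ, hδ', d, y, z, hz⟩ := hSpec n Γ hn hC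
  obtain ⟨ε₂, hε₂, hε₂1, hfam⟩ := hFam n Γ δ d y z hn hC hΓ.ne hδ' hz hM
  obtain ⟨ε₀, C, -, hC1, hen⟩ := hE n (n + 11) 0 Γ hn (by omega) (by norm_num) hC
  obtain ⟨Cs, hCs, hsy⟩ := hS n 0 0 hn
  obtain ⟨hB, -, -⟩ := hDa n Γ δ d y z hn hC hz
  obtain ⟨B, hB0, hB⟩ := hB (n + 11)
  set θ₀ : ℝ := ((Cs + 1) ^ 2 * C)⁻¹ with hθ₀
  have hCpos : 0 < (Cs + 1) ^ 2 * C := by positivity
  have hθ : 0 < θ₀ := inv_pos.2 hCpos
  obtain ⟨K, ε₁, hε₁, hε₁1, hex⟩ := hX n Γ δ B θ₀ hn hC hδ hδ'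
  set ε : ℕ → ℝ := fun m => min ε₁ ε₂ / (m + 1) with hε
  have hm0 : 0 < min ε₁ ε₂ := lt_min hε₁ hε₂
  have hεpos : ∀ m, 0 < ε m := fun m => by positivity
  have hεle : ∀ m, ε m ≤ min ε₁ ε₂ := fun m =>
    div_le_self hm0.le (by have : (0 : ℝ) ≤ m := Nat.cast_nonneg m; linarith)
  have hε1 : ∀ m, ε m ≤ 1 := fun m => (hεle m).trans ((min_le_left _ _).trans hε₁1)
  choose X hXf using fun m => hfam (ε m) (hεpos m) ((hεle m).trans (min_le_right _ _))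
  have hpar : ∀ m, Par (lam 0) (ε m) := fun m =>
    ⟨hC.lam_pos 0, (hεpos m).le, by rw [hC.lam_zero]; simpa using hε1 m⟩
  -- pointwise bound by the energy
  have hpt : ∀ m a, ‖a‖ ≤ 1 → ∀ σ, 0 ≤ σ → ∀ x ∈ dom (ε m),
      X m a σ x ^ 2 ≤ (Cs + 1) ^ 2 * C * En n Γ (ε m) (n + 11) 0 (X m a) σ := by
    intro m a ha σ hσ x hx
    obtain ⟨-, h2, -⟩ := hen δ (ε m) (ε m) 0 σ (X m a) (hεpos m).le (hpar m) (Or.inl (hεpos m))
      ((hXf m).sol a ha σ)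
    obtain ⟨hp, hadm, hq, -⟩ := h2 σ ⟨hσ, le_rfl⟩
    have h3 := (hsy (lam σ) (ε m) (X m a σ) hp (by simpa using hadm)).2 0 le_rfl x hx
    simp only [iteratedDeriv_zero, Nat.cast_zero, sub_zero, zpow_zero, mul_one, mul_zero,
      zero_add] at h3
    have h4 : QQ n (lam σ) (ε m) (n + 3) 0 (X m a σ) ≤ QQ n (lam σ) (ε m) (n + 11) 0 (X m a σ) :=
      hA.QQ_mono n _ _ 0 _ (by omega)
    have h5 := hA.QQ_nonneg n (lam σ) (ε m) (n + 3) 0 (X m a σ)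
    have h6 : X m a σ x ^ 2 ≤ (Cs * √(QQ n (lam σ) (ε m) (n + 3) 0 (X m a σ))) ^ 2 := by
      rw [← sq_abs]; exact pow_le_pow_left₀ (abs_nonneg _) h3 2
    rw [mul_pow, Real.sq_sqrt h5] at h6
    have h7 : Cs ^ 2 ≤ (Cs + 1) ^ 2 := pow_le_pow_left₀ hCs (by linarith) 2
    calc X m a σ x ^ 2 ≤ Cs ^ 2 * QQ n (lam σ) (ε m) (n + 3) 0 (X m a σ) := h6
      _ ≤ (Cs + 1) ^ 2 * (C * En n Γ (ε m) (n + 11) 0 (X m a) σ) :=
          mul_le_mul h7 (h4.trans hq) h5 (by positivity)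
      _ = _ := by ring
  have hinit : ∀ m a, ‖a‖ ≤ 1 → ∀ i, X m a 0 (lam 0 * y i) = a i := by
    intro m a ha i
    rw [hC.lam_zero, one_mul, (hXf m).init a ha ((hXf m).ydom i).1, cutz,
      hC.ze_one _ ((hXf m).ydom i).2, one_mul, hz.eval]
  have hU : Tendsto ε (hyperfilter ℕ) (𝓝 0) := by
    have h1 : Tendsto ε atTop (𝓝 0) := by
      have := tendsto_one_div_add_atTop_nhds_zero_nat (𝕜 := ℝ)
      have h2 := this.const_mul (min ε₁ ε₂)
      simp only [mul_zero] at h2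
      refine h2.congr fun m => ?_
      simp [hε, div_eq_mul_inv]
    refine h1.mono_left ?_
    rw [← Nat.cofinite_eq_atTop]
    exact hyperfilter_le_cofinite
  refine hTop d (Rm z y) θ₀ (hyperfilter ℕ) (fun m a => En n Γ (ε m) (n + 11) 0 (X m a))
    (fun m a σ i => X m a σ (lam σ * y i)) ?_ hz.cont ?_ hz.semi hz.inj
    (fun m => (hXf m).contE) (fun m => (hXf m).contP) ?_ ?_ ?_ ?_
  · intro τ
    refine ⟨fun a b => ?_, fun c a => ?_⟩
    · funext i; simp [Rm]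
    · funext i; simp [Rm]
  · intro a
    funext i
    simp [Rm, hC.lam_zero, hz.eval]
  · intro m a ha
    funext i
    exact hinit m a ha i
  · intro m a ha
    have hex' : ∃ i, |a i| = 1 := by
      by_contra hne
      push Not at hne
      have : ‖a‖ < 1 := (pi_norm_lt_iff one_pos).2 fun i =>
        lt_of_le_of_ne (by simpa [ha] using norm_le_pi_norm a i) (hne i)
      linarith
    obtain ⟨i, hi⟩ := hex'
    have h1 := hpt m a ha.le 0 le_rfl (lam 0 * y i)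
      (by rw [hC.lam_zero, one_mul]; exact ((hXf m).ydom i).1)
    rw [hinit m a ha.le i, ← sq_abs, hi] at h1
    rw [hθ₀, inv_le_iff_one_le_mul₀' hCpos]
    simpa using h1
  · intro m a ha
    by_contra hno
    push Not at hno
    refine (hXf m).noblow a ha ⟨√((Cs + 1) ^ 2 * C * K), fun σ hσ x hx => ?_⟩
    have hq : ∀ k, QQ n 1 (ε m) (n + 11) k (X m a 0) = QQ n 1 (ε m) (n + 11) k (cutz z (ε m) a) :=
      fun k => hA.QQ_congr n 1 _ k ((hXf m).init a ha)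
    obtain ⟨hb1, hb2⟩ := hB (ε m) (hεpos m) (hε1 m) a
    have ha2 : B * ‖a‖ ^ 2 ≤ B := by
      have : ‖a‖ ^ 2 ≤ 1 := pow_le_one₀ (norm_nonneg _) ha
      nlinarith
    have hK := hex (ε m) σ (X m a) (hεpos m) ((hεle m).trans (min_le_left _ _)) hσ
      ((hXf m).sol a ha σ) (by rw [hq]; linarith) (by rw [hq]; linarith) (hno σ hσ) σ ⟨hσ, le_rfl⟩
    refine Real.abs_le_sqrt ((hpt m a ha σ hσ x hx).trans ?_)
    exact mul_le_mul_of_nonneg_left hK hCpos.le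
  · intro a s r h
    exact hKey n Γ δ θ₀ d y z (hyperfilter ℕ) ε s r a X hn hC hδ hδ' hθ hz
      (fun m => ⟨hεpos m, hε1 m, hXf m, (h m).1, (h m).2.1, (h m).2.2.1, (h m).2.2.2.1,
        (h m).2.2.2.2⟩) hU

end Vale.Agent.P264
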