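import Vale.Agent.P264.StmB

/-! The limit of the shifted solutions does not vanish. -/

namespace Vale.Agent.P264

open scoped ContDiff Topology
open Set MeasureTheory Filter

namespace Nonz

theorem lip (hA : BaseA) {l ε M : ℝ} {f : ℝ → ℝ} (hl : 0 < l) (hε : 0 < ε) (hM : 0 ≤ M)
    (hf : Sy l ε 1 0 M f) {x x' : ℝ} (hx : x ∈ dom ε) (hx' : x' ∈ dom ε) :
    |f x' - f x| ≤ M * l⁻¹ * |x' - x| := by
  have hc : Convex ℝ (dom ε) := by
    rw [hA.dom_pos hε]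
    exact convex_Ioo _ _
  have h := hc.norm_image_sub_le_of_norm_hasDerivWithin_le (f := f) (f' := iteratedDeriv 1 f)
    (C := M * l⁻¹) (fun w hw => ?_) (fun w hw => ?_) hx hx'
  · simpa only [Real.norm_eq_abs] using h
  · have := hA.iter_deriv 0 hf.1 hw
    rw [iteratedDeriv_zero] at this
    exact this.hasDerivWithinAt
  · refine (hf.2 1 le_rfl w hw).trans ?_
    have h1 : vp l w ^ ((0 : ℤ) - ((1 : ℕ) : ℤ)) = (vp l w)⁻¹ := by simp
    rw [h1]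
    exact mul_le_mul_of_nonneg_left (inv_anti₀ hl (hA.lam_le l w)) hM

theorem lim (U : Ultrafilter ℕ) {t : ℕ → ℝ} {a b : ℝ} (h : ∀ᶠ m in U, t m ∈ Icc a b) :
    ∃ τ ∈ Icc a b, Tendsto t U (𝓝 τ) :=
  isCompact_Icc.ultrafilter_le_nhds' (U.map t) h

end Nonz

open Nonz

theorem nonz (hA : BaseA) (hB : BaseB) (hD : DelStmt) (hE : EnStmt) (hDec : DecCStmt)
    (hCt : CtlStmt) (hDa : DataStmt) : NonzStmt := by
  intro n Γ δ θ₀ d y z U ε s a X hn hC hδ hδ' hθ hS hm hε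
  obtain ⟨ε₀, R, C, hε₀, hR, hC1, hdec⟩ := hDec n (n + 11) Γ δ hn (by omega) hC hδ
  obtain ⟨ε₁, M, hε₁, hM, hctl⟩ := hCt n Γ δ θ₀ d y z hn hC hδ hδ' hS 1 ε₀ hε₀
  have hsm : ∀ᶠ m in U, ε m ≤ ε₁ := hε.eventually (eventually_le_nhds hε₁)
  have hct : ∀ m, ε m ≤ ε₁ → ∀ σ ∈ Icc 0 (s m),
      Sy (lam σ) (ε m) 1 0 M (X m (a m) σ) ∧ En n Γ (ε m) (n + 11) 0 (X m (a m)) σ ≤ M ∧
        N1 n δ (ε m) (ε m) (n + 11) (X m (a m)) σ ≤ ε₀ := fun m h σ hσ => by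
    obtain ⟨h1, -, h3, h4, h5, -, h7⟩ := hm m
    obtain ⟨g1, -, -, g4, g5⟩ := hctl (ε m) (s m) (a m) (X m) h1 h h3 h4 h5 h7 σ hσ
    exact ⟨g1, g4, g5⟩
  have hde : ∀ m, ε m ≤ ε₁ → _ := fun m h =>
    hdec (ε m) (s m) (X m (a m)) (hm m).1 (hm m).2.1 ((hm m).2.2.1.sol _ (hm m).2.2.2.1 _)
      fun σ hσ => (hct m h σ hσ).2.2
  have hC0 : 0 ≤ C := by linarith
  constructor
  · intro L hL ha
    obtain ⟨ε₂, C', -, hC', hen⟩ := hE n (n + 11) 0 Γ hn (by omega) (by norm_num) hC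
    obtain ⟨B, hB0, hB⟩ := (hDa n Γ δ d y z hn hC hS).1 (n + 11)
    have h1 : Tendsto (fun m => Real.exp (C * L) * (C' * (B * ‖a m‖ ^ 2) + ε m ^ 4)) U
        (𝓝 (Real.exp (C * L) * (C' * (B * ‖(0 : Fin d → ℝ)‖ ^ 2) + 0 ^ 4))) :=
      ((((ha.norm.pow 2).const_mul B).const_mul C').add (hε.pow 4)).const_mul _
    have h2 : Real.exp (C * L) * (C' * (B * ‖(0 : Fin d → ℝ)‖ ^ 2) + 0 ^ 4) < θ₀ := by
      simpa using hθ
    obtain ⟨m, g1, g2, g3⟩ := (hL.and (hsm.and (h1.eventually (eventually_lt_nhds h2)))).exists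
    obtain ⟨h3, h4, h5, h6, h7, h8, -⟩ := hm m
    have h9 := (hde m g2 0 (s m) le_rfl h7 le_rfl).1
    have hP : Par (lam 0) (ε m) := by
      rw [hC.lam_zero]
      exact ⟨one_pos, h3.le, by linarith⟩
    have h10 := ((hen δ (ε m) (ε m) 0 (s m) (X m (a m)) h3.le hP (Or.inl h3)
      (h5.sol _ h6 _)).2.1 0 ⟨le_rfl, h7⟩).2.2.2
    rw [hC.lam_zero, hA.QQ_congr n 1 (n + 11) 0 (h5.init _ h6)] at h10
    have h11 : En n Γ (ε m) (n + 11) 0 (X m (a m)) 0 ≤ C' * (B * ‖a m‖ ^ 2) :=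
      h10.trans (mul_le_mul_of_nonneg_left (hB _ h3 h4 _).1 (by linarith))
    have h12 : Real.exp (C * (s m - 0)) ≤ Real.exp (C * L) := by
      rw [sub_zero]
      exact Real.exp_le_exp.2 (mul_le_mul_of_nonneg_left g1 hC0)
    have h13 : Real.exp (C * (s m - 0)) * (En n Γ (ε m) (n + 11) 0 (X m (a m)) 0 + ε m ^ 4) ≤
        Real.exp (C * L) * (C' * (B * ‖a m‖ ^ 2) + ε m ^ 4) :=
      (mul_le_mul_of_nonneg_left (by linarith) (Real.exp_pos _).le).trans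
        (mul_le_mul_of_nonneg_right h12 (by positivity))
    linarith
  · intro hs H
    obtain ⟨L, hL0, hL⟩ : ∃ L, 0 ≤ L ∧ Real.exp (-(δ * L)) * M ≤ θ₀ / 4 := by
      have h1 : Tendsto (fun L : ℝ => Real.exp (-(δ * L)) * M) atTop (𝓝 (0 * M)) :=
        (Real.tendsto_exp_neg_atTop_nhds_zero.comp
          (tendsto_id.const_mul_atTop hδ)).mul_const M
      rw [zero_mul] at h1
      exact ((eventually_ge_atTop 0).and
        (h1.eventually (eventually_le_nhds (by linarith)))).exists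
    obtain ⟨ρ, hρ0, hρ⟩ : ∃ ρ, 0 < ρ ∧ C * ρ ^ 2 ≤ θ₀ / 4 := by
      refine ⟨√(θ₀ / 4 / C), Real.sqrt_pos.2 (by positivity), le_of_eq ?_⟩
      rw [Real.sq_sqrt (by positivity)]
      field_simp
    have h4 : ∀ᶠ m in U, C * ε m ^ 4 ≤ θ₀ / 4 := by
      have h1 : Tendsto (fun m => C * ε m ^ 4) U (𝓝 (C * 0 ^ 4)) := (hε.pow 4).const_mul C
      exact h1.eventually (eventually_le_nhds (by simpa using hθ))
    have hsL : ∀ᶠ m in U, L ≤ s m := hs.eventually (eventually_ge_atTop L)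
    have hbad : ∀ᶠ m in U, ∃ p : ℝ × ℝ, p.1 ∈ Icc (s m - L) (s m) ∧ p.2 ∈ dom (ε m) ∧
        p.2 ≤ R * lam p.1 ∧ ρ < |X m (a m) p.1 p.2| := by
      filter_upwards [hsm, h4, hsL] with m g1 g2 g3
      by_contra hcon
      have h1 := (hde m g1 (s m - L) (s m) (by linarith) (by linarith) le_rfl).2 ρ
        fun σ hσ x hx hx' => not_lt.1 fun h => hcon ⟨(σ, x), hσ, hx, hx', h⟩
      have h2 := (hct m g1 (s m - L) ⟨by linarith, by linarith⟩).2.1
      rw [sub_sub_cancel] at h1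
      have h3 := mul_le_mul_of_nonneg_left h2 (Real.exp_pos (-(δ * L))).le
      have h5 := (hm m).2.2.2.2.2.1
      linarith
    obtain ⟨p, hp⟩ := hbad.choice
    obtain ⟨θ, hθ0, hθM⟩ : ∃ θ, 0 < θ ∧ M * θ ≤ ρ / 2 := by
      refine ⟨ρ / 2 / (M + 1), by positivity, ?_⟩
      rw [mul_div_assoc', div_le_iff₀ (by positivity)]
      nlinarith
    have hx : ∀ᶠ m in U, (p m).2 / lam (s m) + θ ∈ Icc θ (R * lam (-L) + θ) := by
      filter_upwards [hp] with m ⟨g1, g2, g3, _⟩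
      have h1 := hC.lam_pos (s m)
      refine ⟨le_add_of_nonneg_left (div_pos g2.1 h1).le, add_le_add_left ?_ _⟩
      rw [div_le_iff₀ h1, mul_assoc, ← hC.lam_add]
      exact g3.trans (mul_le_mul_of_nonneg_left (hC.lam_anti (by linarith [g1.1])) hR.le)
    obtain ⟨ξ, hξ, hξ'⟩ := lim U hx
    obtain ⟨τ, hτ, hτ'⟩ := lim U (t := fun m => (p m).1 - s m) (a := -L) (b := 0) (by
      filter_upwards [hp] with m g
      exact ⟨by linarith [g.1.1], by linarith [g.1.2]⟩)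
    have h5 := H _ _ τ ξ hτ.2 (lt_of_lt_of_le hθ0 hξ.1) (by
      filter_upwards [hp, hsL] with m g g'
      exact ⟨by linarith [g.1.1], by linarith [g.1.2]⟩) hτ' hξ'
    have h6 : ∀ᶠ m in U, ε m * (R * lam (-L) + θ) < 1 := by
      have h1 : Tendsto (fun m => ε m * (R * lam (-L) + θ)) U (𝓝 (0 * (R * lam (-L) + θ))) :=
        hε.mul_const _
      exact h1.eventually (eventually_lt_nhds (by simp))
    have h7 := h5.abs.eventually (eventually_lt_nhds (show |(0 : ℝ)| < ρ / 2 by simpa using hρ0))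
    obtain ⟨m, ⟨g1, g2, g3, g4⟩, g5, g6, g7, g8, g9⟩ :=
      (hp.and (hsm.and (hsL.and (hx.and (h6.and h7))))).exists
    have hl := hC.lam_pos (s m)
    have hl' := hC.lam_pos (p m).1
    have hl1 : lam (s m) ≤ 1 := hC.lam_zero ▸ hC.lam_anti (hm m).2.2.2.2.1
    have hl2 : lam (s m) ≤ lam (p m).1 := hC.lam_anti g1.2
    have hpos : 0 < (p m).2 / lam (s m) + θ := lt_of_lt_of_le hθ0 g7.1
    have hd : lam (s m) * ((p m).2 / lam (s m) + θ) ∈ dom (ε m) := by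
      refine ⟨mul_pos hl hpos, lt_of_le_of_lt (mul_le_mul_of_nonneg_left ?_ (hm m).1.le) g8⟩
      exact (mul_le_of_le_one_left hpos.le hl1).trans g7.2
    have h8 := lip hA hl' (hm m).1 hM (hct m g5 (p m).1 ⟨by linarith [g1.1], g1.2⟩).1 g2 hd
    have h9 : lam (s m) * ((p m).2 / lam (s m) + θ) - (p m).2 = lam (s m) * θ := by
      field_simp
      ring
    rw [h9, abs_of_pos (mul_pos hl hθ0)] at h8
    have h10 : M * (lam (p m).1)⁻¹ * (lam (s m) * θ) ≤ M * θ := by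
      rw [mul_assoc, ← mul_assoc _ (lam (s m))]
      refine mul_le_mul_of_nonneg_left (mul_le_of_le_one_left hθ0.le ?_) hM
      rwa [inv_mul_le_iff₀ hl', mul_one]
    rw [add_sub_cancel] at g9
    have h11 := abs_sub_abs_le_abs_sub (X m (a m) (p m).1 (p m).2)
      (X m (a m) (p m).1 (lam (s m) * ((p m).2 / lam (s m) + θ)))
    rw [abs_sub_comm] at h11
    linarith

end Vale.Agent.P264
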