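import Vale.Agent.P264.StmB

/-!
Elementary operations on solutions of the rescaled equation.
-/

namespace Vale.Agent.P264

open scoped ContDiff Topology
open Set MeasureTheory Filter

namespace PSolAux

theorem lam_pos' (σ : ℝ) : 0 < lam σ := Real.exp_pos _

theorem lam_anti' : Antitone lam := by
  intro s t h
  unfold lam
  exact Real.exp_le_exp.2 (by linarith)

theorem lam_cont : Continuous lam := by
  unfold lam
  fun_prop

theorem om_smooth (ε : ℝ) : ContDiff ℝ ∞ (om ε) := by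
  unfold om
  fun_prop

theorem par_of_le {a σ ε : ℝ} (h : Par (lam a) ε) (hσ : a ≤ σ) : Par (lam σ) ε := by
  refine ⟨lam_pos' σ, h.2.1, ?_⟩
  have := mul_le_mul_of_nonneg_left (lam_anti' hσ) h.2.1
  linarith [h.2.2]

theorem rr_congr (hD : DelStmt) (n : ℕ) (Γ : ℝ → ℝ) (δ ε η σ : ℝ) {f g : ℝ → ℝ} {x : ℝ}
    (h : f =ᶠ[𝓝 x] g) : RR n Γ δ ε η σ f x = RR n Γ δ ε η σ g x := by
  have h1 : f x = g x := h.eq_of_nhds
  have h2 : LL n ε f x = LL n ε g x := (hD.LL_congr n ε h).eq_of_nhds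
  simp only [RR, FF, h1, h2]

theorem flat (n : ℕ) (Γ : ℝ → ℝ) (δ σ : ℝ) (f : ℝ → ℝ) (x : ℝ) : RR n Γ δ 0 0 σ f x
    = -δ * f x + lam σ ^ 2 * (-(GG Γ 0 σ x * LL n 0 f x)
      + 2 * gg Γ 0 σ x * V1 n Γ 0 σ x * f x) := by
  simp [RR, FF]

/-! ### uniform symbol calculus -/

section SyU

variable {J : Set ℝ} {ε : ℝ}

theorem syU_nonneg (hB : BaseB) {q : ℤ} {a : ℝ → ℝ → ℝ} (ha : SyU J lam ε q a) (h : ℕ) :
    ∃ M, 0 ≤ M ∧ ∀ s ∈ J, Sy (lam s) ε h q M (a s) := by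
  obtain ⟨M, hM⟩ := ha h
  exact ⟨max M 0, le_max_right _ _, fun s hs =>
    hB.mono (lam_pos' s) le_rfl (le_max_left _ _) (hM s hs)⟩

theorem syU_congr (hB : BaseB) {q : ℤ} {a b : ℝ → ℝ → ℝ} (h : ∀ s ∈ J, EqOn (a s) (b s) (dom ε))
    (ha : SyU J lam ε q a) : SyU J lam ε q b := by
  intro k
  obtain ⟨M, hM⟩ := ha k
  exact ⟨M, fun s hs => hB.congr (h s hs) (hM s hs)⟩

theorem syU_add (hB : BaseB) {q : ℤ} {a b : ℝ → ℝ → ℝ} (ha : SyU J lam ε q a)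
    (hb : SyU J lam ε q b) : SyU J lam ε q fun s x => a s x + b s x := by
  intro k
  obtain ⟨M, hM⟩ := ha k
  obtain ⟨M', hM'⟩ := hb k
  exact ⟨M + M', fun s hs => hB.add (hM s hs) (hM' s hs)⟩

theorem syU_mul (hB : BaseB) {q q' : ℤ} {a b : ℝ → ℝ → ℝ} (ha : SyU J lam ε q a)
    (hb : SyU J lam ε q' b) : SyU J lam ε (q + q') fun s x => a s x * b s x := by
  intro k
  obtain ⟨M, h0, hM⟩ := syU_nonneg hB ha k
  obtain ⟨M', h0', hM'⟩ := syU_nonneg hB hb k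
  exact ⟨_, fun s hs => hB.mul (lam_pos' s) h0 h0' (hM s hs) (hM' s hs)⟩

theorem syU_time (hB : BaseB) {q : ℤ} {a : ℝ → ℝ → ℝ} {c : ℝ → ℝ} (hc : ∃ K, ∀ s ∈ J, |c s| ≤ K)
    (ha : SyU J lam ε q a) : SyU J lam ε q fun s x => c s * a s x := by
  intro k
  obtain ⟨M, h0, hM⟩ := syU_nonneg hB ha k
  obtain ⟨K, hK⟩ := hc
  exact ⟨K * M, fun s hs => hB.mono (lam_pos' s) le_rfl
    (mul_le_mul_of_nonneg_right (hK s hs) h0) (hB.smul (c s) (hM s hs))⟩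

theorem syU_smul (hB : BaseB) {q : ℤ} {a : ℝ → ℝ → ℝ} (c : ℝ)
    (ha : SyU J lam ε q a) : SyU J lam ε q fun s x => c * a s x :=
  syU_time hB (c := fun _ => c) ⟨|c|, fun _ _ => le_rfl⟩ ha

theorem syU_LL (hB : BaseB) (n : ℕ) {q : ℤ} {a : ℝ → ℝ → ℝ} (hP : ∀ s ∈ J, Par (lam s) ε)
    (ha : SyU J lam ε q a) : SyU J lam ε (q - 2) fun s => LL n ε (a s) := by
  intro k
  obtain ⟨M, h0, hM⟩ := syU_nonneg hB ha (k + 4)
  obtain ⟨K, -, hK⟩ := hB.LL_sy n k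
  exact ⟨K * M, fun s hs => hK (hP s hs) h0 (hM s hs)⟩

theorem syU_zero (q : ℤ) : SyU J lam ε q fun _ _ => 0 := by
  intro k
  refine ⟨0, fun s _ => ⟨contDiffOn_const, fun i _ x _ => ?_⟩⟩
  have : iteratedDeriv i (fun _ : ℝ => (0 : ℝ)) x = 0 := by simp
  simp [this]

theorem bdd_Icc {a b : ℝ} {c : ℝ → ℝ} (hc : Continuous c) : ∃ K, ∀ s ∈ Icc a b, |c s| ≤ K := by
  obtain ⟨K, hK⟩ := (isCompact_Icc (a := a) (b := b)).exists_bound_of_continuousOn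
    hc.continuousOn
  exact ⟨K, fun s hs => by simpa using hK s hs⟩

theorem syU_change' (hB : BaseB) {a b : ℝ} {q : ℤ} (q' : ℤ) {f : ℝ → ℝ → ℝ}
    (h : 0 < ε ∨ q ≤ q') (hf : SyU (Icc a b) lam ε q f) : SyU (Icc a b) lam ε q' f :=
  hB.syU_change (l₀ := lam b) (l₁ := lam a) q' (lam_pos' b)
    (fun _ hs => ⟨lam_anti' hs.2, lam_anti' hs.1⟩) h hf

end SyU

theorem mono (hC : CJStmt) {n : ℕ} {Γ : ℝ → ℝ} {δ ε η a b a' b' : ℝ} {X : ℝ → ℝ → ℝ}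
    (ha : a ≤ a') (hb : b' ≤ b) (h : PSol n Γ δ ε η a b X) : PSol n Γ δ ε η a' b' X := by
  refine ⟨hC.mono (Icc_subset_Icc ha hb) subset_rfl h.cj, fun k => ?_, fun σ hσ x hx =>
    h.eqn σ (Ioo_subset_Ioo ha hb hσ) x hx⟩
  obtain ⟨M, hM⟩ := h.sy k
  exact ⟨M, fun s hs => hM s (Icc_subset_Icc ha hb hs)⟩

theorem congr (hA : BaseA) (hB : BaseB) (hD : DelStmt) (hC : CJStmt) {n : ℕ} {Γ : ℝ → ℝ}
    {δ ε η a b : ℝ} {X Y : ℝ → ℝ → ℝ} (hXY : ∀ σ ∈ Icc a b, EqOn (X σ) (Y σ) (dom ε))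
    (h : PSol n Γ δ ε η a b X) : PSol n Γ δ ε η a b Y := by
  refine ⟨hC.congr (hA.dom_open ε) hXY h.cj, syU_congr hB hXY h.sy, fun σ hσ x hx => ?_⟩
  have h1 : X σ =ᶠ[𝓝 x] Y σ :=
    (hXY σ (Ioo_subset_Icc_self hσ)).eventuallyEq_of_mem ((hA.dom_open ε).mem_nhds hx)
  rw [← rr_congr hD n Γ δ ε η σ h1]
  refine (h.eqn σ hσ x hx).congr_of_eventuallyEq ?_
  filter_upwards [Icc_mem_nhds hσ.1 hσ.2] with s hs
  exact (hXY s hs hx).symm

theorem rr_shift (hD : DelStmt) {n : ℕ} {Γ : ℝ → ℝ} (hc : Coef n Γ) (δ ε η s σ : ℝ) (f : ℝ → ℝ)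
    (y : ℝ) : RR n Γ δ (lam s * ε) (η * Real.exp ((δ - 1 / 2) * s)) σ
      (fun y => f (lam s * y)) y = RR n Γ δ ε η (s + σ) f (lam s * y) := by
  obtain ⟨-, h2, h3, h4, h5⟩ := hc.shift ε s σ y
  have hl : lam s ≠ 0 := (lam_pos' s).ne'
  have h6 := hD.LL_dil n ε f y hl
  have e1 : Real.exp ((δ - 1 / 2) * s) * Real.exp (δ * σ) = Real.exp (δ * (s + σ)) * lam s := by
    unfold lam
    rw [← Real.exp_add, ← Real.exp_add]
    congr 1
    ring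
  have e2 : (Real.exp ((δ - 1 / 2) * s))⁻¹ * Real.exp (-(δ * σ)) * lam s
      = Real.exp (-(δ * (s + σ))) := by
    unfold lam
    rw [← Real.exp_neg, ← Real.exp_add, ← Real.exp_add]
    congr 1
    ring
  have e3 : om (lam s * ε) y * (η * Real.exp ((δ - 1 / 2) * s) * Real.exp (δ * σ) * f (lam s * y))
      = om ε (lam s * y) * (η * Real.exp (δ * (s + σ)) * f (lam s * y)) := by
    rw [mul_assoc η, e1]
    unfold om
    ring
  simp only [RR, FF, h2, h3, h4, h5, h6, e3, hc.lam_add, mul_inv]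
  rw [← e2]
  ring

theorem shift (hD : DelStmt) (hC : CJStmt) (hDil : DilStmt) {n : ℕ} {Γ : ℝ → ℝ}
    {δ ε η a b : ℝ} {X : ℝ → ℝ → ℝ} (s : ℝ) (hc : Coef n Γ) (h : PSol n Γ δ ε η a b X) :
    PSol n Γ δ (lam s * ε) (η * Real.exp ((δ - 1 / 2) * s)) (a - s) (b - s)
      fun σ y => X (s + σ) (lam s * y) := by
  have hl := lam_pos' s
  refine ⟨?_, fun k => ?_, fun σ hσ y hy => ?_⟩
  · refine hC.comp (t := fun σ => s + σ) hl.ne' (by fun_prop) (fun σ hσ => ?_)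
      (fun y hy => (hDil.dom_iff ε y hl).1 hy) h.cj
    exact ⟨by linarith [hσ.1], by linarith [hσ.2]⟩
  · obtain ⟨M, hM⟩ := h.sy k
    refine ⟨M * lam s ^ (0 : ℤ), fun σ hσ => ?_⟩
    refine hDil.Sy_dil hl (lam_pos' σ) ?_
    rw [← hc.lam_add]
    exact hM _ ⟨by linarith [hσ.1], by linarith [hσ.2]⟩
  · rw [rr_shift hD hc]
    have := h.eqn (s + σ) ⟨by linarith [hσ.1], by linarith [hσ.2]⟩ (lam s * y)
      ((hDil.dom_iff ε y hl).1 hy)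
    exact this.comp_const_add s σ

theorem lin (hA : BaseA) (hB : BaseB) (hD : DelStmt) (hC : CJStmt) {n : ℕ} {Γ : ℝ → ℝ}
    {δ a b : ℝ} {X Y : ℝ → ℝ → ℝ} (c d : ℝ) (hX : PSol n Γ δ 0 0 a b X)
    (hY : PSol n Γ δ 0 0 a b Y) : PSol n Γ δ 0 0 a b fun σ y => c * X σ y + d * Y σ y := by
  have ho := hA.dom_open 0
  refine ⟨?_, syU_add hB (syU_smul hB c hX.sy) (syU_smul hB d hY.sy), fun σ hσ x hx => ?_⟩
  · exact hC.add ho (hC.mul ho (hC.time _ (c := fun _ => c) continuousOn_const) hX.cj)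
      (hC.mul ho (hC.time _ (c := fun _ => d) continuousOn_const) hY.cj)
  · have h1 := hX.eqn σ hσ x hx
    have h2 := hY.eqn σ hσ x hx
    have h3 := hD.LL_lin n c d (hX.cj.1 σ (Ioo_subset_Icc_self hσ))
      (hY.cj.1 σ (Ioo_subset_Icc_self hσ)) hx
    rw [flat] at h1 h2 ⊢
    rw [h3]
    refine ((h1.const_mul c).add (h2.const_mul d)).congr_deriv ?_
    ring

theorem zero (hD : DelStmt) (hC : CJStmt) (n : ℕ) (Γ : ℝ → ℝ)
    (δ a b : ℝ) : PSol n Γ δ 0 0 a b fun _ _ => 0 := by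
  refine ⟨hC.time _ (c := fun _ => 0) continuousOn_const, syU_zero 0, fun σ _ x _ => ?_⟩
  have h1 : LL n 0 (fun _ => (0 : ℝ)) x = 0 := by
    have := hD.LL_const_mul n 0 0 (fun _ => 0) x
    simpa using this
  rw [flat, h1]
  simpa using hasDerivAt_const σ (0 : ℝ)

theorem expo (hA : BaseA) (hB : BaseB) (hD : DelStmt) (hC : CJStmt) {n : ℕ} {Γ : ℝ → ℝ}
    {δ a b : ℝ} {X : ℝ → ℝ → ℝ} (δ' : ℝ) (hX : PSol n Γ δ 0 0 a b X) :
    PSol n Γ δ' 0 0 a b fun σ y => Real.exp ((δ - δ') * σ) * X σ y := by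
  have ho := hA.dom_open 0
  refine ⟨?_, syU_time hB (bdd_Icc (by fun_prop)) hX.sy, fun σ hσ x hx => ?_⟩
  · exact hC.mul ho (hC.time _ (c := fun σ => Real.exp ((δ - δ') * σ)) (by fun_prop)) hX.cj
  · have h1 := hX.eqn σ hσ x hx
    have h2 : HasDerivAt (fun s => Real.exp ((δ - δ') * s))
        (Real.exp ((δ - δ') * σ) * (δ - δ')) σ := by
      simpa using ((hasDerivAt_id σ).const_mul (δ - δ')).exp
    rw [flat] at h1 ⊢
    rw [hD.LL_const_mul]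
    refine (h2.mul h1).congr_deriv ?_
    ring

theorem rr_cj (hA : BaseA) (hC : CJStmt) {n : ℕ} {Γ : ℝ → ℝ} {δ ε η a b : ℝ} {X : ℝ → ℝ → ℝ}
    (hc : Coef n Γ) (h : PSol n Γ δ ε η a b X) :
    CJ (Icc a b) (dom ε) fun σ => RR n Γ δ ε η σ (X σ) := by
  have ho := hA.dom_open ε
  obtain ⟨-, hg, hG, hV, hE, -⟩ := hc.cj ε (Icc a b)
  have hX := h.cj
  have hL := hC.LL n ε ho hX
  have cst : ∀ c : ℝ, CJ (Icc a b) (dom ε) fun _ _ => c := fun c =>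
    hC.time _ (c := fun _ => c) continuousOn_const
  have hom : CJ (Icc a b) (dom ε) fun _ x => om ε x :=
    hC.space _ ho (om_smooth ε).contDiffOn
  have hχ : CJ (Icc a b) (dom ε) fun σ x => η * Real.exp (δ * σ) * X σ x :=
    hC.mul ho (hC.time _ (c := fun σ => η * Real.exp (δ * σ)) (by fun_prop)) hX
  have hoχ := hC.mul ho hom hχ
  have hl : CJ (Icc a b) (dom ε) fun σ _ => lam σ ^ 2 :=
    hC.time _ (c := fun σ => lam σ ^ 2) (lam_cont.pow 2).continuousOn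
  have he : CJ (Icc a b) (dom ε) fun σ _ => η⁻¹ * Real.exp (-(δ * σ)) :=
    hC.time _ (c := fun σ => η⁻¹ * Real.exp (-(δ * σ))) (by fun_prop)
  have t1 := hC.mul ho (cst (-δ)) hX
  have t2 := hC.mul ho (cst (-1)) (hC.mul ho hG hL)
  have t3 := hC.mul ho (hC.mul ho (hC.mul ho (cst 2) hg) hV) hX
  have t4 := hC.mul ho (hC.mul ho (cst (-1))
    (hC.mul ho (hC.add ho (hC.mul ho (cst 2) hg) hoχ) hoχ)) hL
  have t5 := hC.mul ho (hC.mul ho hoχ hV) hX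
  have t6 := hC.mul ho he hE
  have t := hC.add ho t1 (hC.mul ho hl (hC.add ho (hC.add ho (hC.add ho t2 t3)
    (hC.add ho t4 t5)) t6))
  refine hC.congr ho (fun s _ x _ => ?_) t
  simp only [RR, FF]
  ring

theorem jet_t (hA : BaseA) (hC : CJStmt) {n : ℕ} {Γ : ℝ → ℝ} {δ ε η a b : ℝ} {X : ℝ → ℝ → ℝ}
    (hc : Coef n Γ) (h : PSol n Γ δ ε η a b X) (i : ℕ) (σ : ℝ) (hσ : σ ∈ Ioo a b) (x : ℝ)
    (hx : x ∈ dom ε) :
    HasDerivAt (fun s => iteratedDeriv i (X s) x) (iteratedDeriv i (RR n Γ δ ε η σ (X σ)) x) σ :=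
  hC.timejet (hA.dom_open ε) h.cj (rr_cj hA hC hc h) h.eqn i σ hσ x hx

theorem rr_syU (hB : BaseB) {n : ℕ} {Γ : ℝ → ℝ} {δ ε η a b : ℝ} {X : ℝ → ℝ → ℝ}
    (hc : Coef n Γ) (hP : Par (lam a) ε) (hε : 0 < ε ∨ η = 0) (h : PSol n Γ δ ε η a b X) :
    SyU (Icc a b) lam ε 0 fun σ => RR n Γ δ ε η σ (X σ) := by
  have hP' : ∀ s ∈ Icc a b, Par (lam s) ε := fun s hs => par_of_le hP hs.1
  have hg : SyU (Icc a b) lam ε 0 (gg Γ ε) := fun k => by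
    obtain ⟨M, -, hM⟩ := hc.sy k
    exact ⟨M, fun s hs => (hM ε s (hP' s hs)).2.1⟩
  have hG : SyU (Icc a b) lam ε 0 (GG Γ ε) := fun k => by
    obtain ⟨M, -, hM⟩ := hc.sy k
    exact ⟨M, fun s hs => (hM ε s (hP' s hs)).2.2.1⟩
  have hV : SyU (Icc a b) lam ε (-2) (V1 n Γ ε) := fun k => by
    obtain ⟨M, -, hM⟩ := hc.sy k
    exact ⟨M, fun s hs => (hM ε s (hP' s hs)).2.2.2.1⟩
  have hE : SyU (Icc a b) lam ε (-3) (err n Γ ε) := fun k => by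
    obtain ⟨M, -, hM⟩ := hc.sy k
    exact ⟨M, fun s hs => (hM ε s (hP' s hs)).2.2.2.2.2.1⟩
  have hom : SyU (Icc a b) lam ε 1 fun _ => om ε := fun k =>
    ⟨4, fun s hs => hB.om_sy k (hP' s hs)⟩
  have hX := h.sy
  have hL := syU_change' hB 0 (Or.inr (by norm_num)) (syU_LL hB n hP' hX)
  have hV' := syU_change' hB 0 (Or.inr (by norm_num)) hV
  have hE' := syU_change' hB 0 (Or.inr (by norm_num)) hE
  have hoχ : SyU (Icc a b) lam ε 0 fun σ x => om ε x * (η * Real.exp (δ * σ) * X σ x) := by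
    rcases hε with hε | hη
    · have hχ : SyU (Icc a b) lam ε 0 fun σ x => η * Real.exp (δ * σ) * X σ x :=
        syU_time hB (c := fun σ => η * Real.exp (δ * σ)) (bdd_Icc (by fun_prop)) hX
      exact syU_change' hB 0 (Or.inl hε) (syU_mul hB hom hχ)
    · refine syU_congr hB (fun s _ x _ => ?_) (syU_zero 0)
      simp [hη]
  have mul0 : ∀ {u v : ℝ → ℝ → ℝ}, SyU (Icc a b) lam ε 0 u → SyU (Icc a b) lam ε 0 v →
      SyU (Icc a b) lam ε 0 fun s x => u s x * v s x := fun hu hv => by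
    simpa using syU_mul hB hu hv
  have t1 := syU_smul hB (-δ) hX
  have t2 := syU_smul hB (-1) (mul0 hG hL)
  have t3 := mul0 (mul0 (syU_smul hB 2 hg) hV') hX
  have t4 := mul0 (syU_smul hB (-1) (mul0 (syU_add hB (syU_smul hB 2 hg) hoχ) hoχ)) hL
  have t5 := mul0 (mul0 hoχ hV') hX
  have t6 := syU_time hB (c := fun σ => η⁻¹ * Real.exp (-(δ * σ))) (bdd_Icc (by fun_prop)) hE'
  have t := syU_add hB t1 (syU_time hB (c := fun σ => lam σ ^ 2) (bdd_Icc (lam_cont.pow 2))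
    (syU_add hB (syU_add hB (syU_add hB t2 t3) (syU_add hB t4 t5)) t6))
  refine syU_congr hB (fun s _ x _ => ?_) t
  simp only [RR, FF]
  ring

/-- the right-hand side without the error term -/
noncomputable def RR0 (n : ℕ) (Γ : ℝ → ℝ) (δ ε η σ : ℝ) (f : ℝ → ℝ) : ℝ → ℝ := fun x =>
  -δ * f x + lam σ * (lam σ * (-1 * (GG Γ ε σ x * LL n ε f x)
    + 2 * gg Γ ε σ x * V1 n Γ ε σ x * f x
    + (-1 * ((2 * gg Γ ε σ x + om ε x * (η * Real.exp (δ * σ) * f x))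
        * (om ε x * (η * Real.exp (δ * σ) * f x)) * LL n ε f x)
      + om ε x * (η * Real.exp (δ * σ) * f x) * V1 n Γ ε σ x * f x)))

theorem rr0_sy (hB : BaseB) {n : ℕ} {Γ : ℝ → ℝ} (δ : ℝ) (i : ℕ) (hc : Coef n Γ) :
    ∃ C, 0 ≤ C ∧ ∀ {ε η σ M : ℝ} {f : ℝ → ℝ}, Par (lam σ) ε → 0 ≤ M →
      Sy (lam σ) ε (i + 4) 0 M f →
      Sy (lam σ) ε (i + 4) (-1) 1 (fun y => η * Real.exp (δ * σ) * f y) →
      Sy (lam σ) ε i 0 (C * M) (RR0 n Γ δ ε η σ f) := by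
  obtain ⟨N, hN1, hN⟩ := hc.sy i
  obtain ⟨K, hK0, hK⟩ := hB.LL_sy n i
  have hN0 : 0 ≤ N := by linarith
  refine ⟨|-δ| + (|(-1 : ℝ)| * (2 ^ i * N * K) + 2 ^ i * N
    + (|(-1 : ℝ)| * (2 ^ i * (2 ^ i * (|(2 : ℝ)| * N + 2 ^ i * 4 * 1) * (2 ^ i * 4 * 1)) * K)
      + 2 ^ i * (2 ^ i * (2 ^ i * 4 * 1) * N))), by positivity, ?_⟩
  intro ε η σ M f hP hM hf hχ
  have hl := lam_pos' σ
  obtain ⟨-, hg, hG, hV, hgV, -⟩ := hN ε σ hP
  have hf' : Sy (lam σ) ε i 0 M f := hB.mono hl (by omega) le_rfl hf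
  have hχ' := hB.mono hl (show i ≤ i + 4 by omega) le_rfl hχ
  have hL : Sy (lam σ) ε i (-2) (K * M) (LL n ε f) := by simpa using hK hP hM hf
  have hoχ : Sy (lam σ) ε i 0 (2 ^ i * 4 * 1)
      fun x => om ε x * (η * Real.exp (δ * σ) * f x) := by
    simpa using hB.mul hl (by norm_num) (by norm_num) (hB.om_sy i hP) hχ'
  have t1 := hB.smul (-δ) hf'
  have t2 : Sy (lam σ) ε i (-2) _ _ :=
    hB.smul (-1) (hB.mul hl hN0 (by positivity) hG hL)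
  have t3 : Sy (lam σ) ε i (-2) _ _ := hB.mul hl hN0 hM hgV hf'
  have t40 : Sy (lam σ) ε i 0 _ _ :=
    hB.mul hl (by positivity) (by positivity) (hB.add (hB.smul 2 hg) hoχ) hoχ
  have t4 : Sy (lam σ) ε i (-2) _ _ :=
    hB.smul (-1) (hB.mul hl (by positivity) (by positivity) t40 hL)
  have t50 : Sy (lam σ) ε i (-2) _ _ := hB.mul hl (by positivity) hN0 hoχ hV
  have t5 : Sy (lam σ) ε i (-2) _ _ := hB.mul hl (by positivity) hM t50 hf'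
  have t6 := hB.add (hB.add t2 t3) (hB.add t4 t5)
  have t7 := hB.lam_mul hl (by positivity) t6
  have t8 : Sy (lam σ) ε i 0 _ _ := hB.lam_mul hl (by positivity) t7
  refine hB.mono hl le_rfl (le_of_eq ?_) (hB.add t1 t8)
  ring

theorem tlip (hA : BaseA) (hB : BaseB) (hC : CJStmt) {n : ℕ} {Γ : ℝ → ℝ} (δ : ℝ) (i : ℕ) (L : ℝ)
    (hc : Coef n Γ) : ∃ C, 0 ≤ C ∧
    ∀ {ε η a b M : ℝ} {X : ℝ → ℝ → ℝ}, Par (lam a) ε → 0 ≤ M → b ≤ L → PSol n Γ δ ε η a b X →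
      (∀ σ ∈ Icc a b, Sy (lam σ) ε (i + 4) 0 M (X σ) ∧
        Sy (lam σ) ε (i + 4) (-1) 1 fun y => η * Real.exp (δ * σ) * X σ y) →
      ∀ σ ∈ Icc a b, ∀ σ' ∈ Icc a b, ∀ x ∈ dom ε, ε * x < 1 / 4 →
        |iteratedDeriv i (X σ) x - iteratedDeriv i (X σ') x| ≤ C * M * |σ - σ'| := by
  obtain ⟨C, hC0, hCb⟩ := rr0_sy hB δ i hc
  have hlL := lam_pos' L
  refine ⟨C * (lam L ^ i)⁻¹, by positivity, ?_⟩
  intro ε η a b M X hP hM hb h hS σ hσ σ' hσ' x hx hx4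
  have hbd : ∀ s ∈ Icc a b,
      |iteratedDeriv i (RR n Γ δ ε η s (X s)) x| ≤ C * (lam L ^ i)⁻¹ * M := by
    intro s hs
    have hPs := par_of_le hP hs.1
    have h1 := (hCb hPs hM (hS s hs).1 (hS s hs).2).2 i le_rfl x hx
    have h2 : RR n Γ δ ε η s (X s) =ᶠ[𝓝 x] RR0 n Γ δ ε η s (X s) := by
      have o1 : ∀ᶠ y in 𝓝 x, 0 < y := lt_mem_nhds hx.1
      have o2 : ∀ᶠ y in 𝓝 x, ε * y < 1 / 4 :=
        (continuous_const.mul continuous_id).continuousAt.eventually_lt continuousAt_const hx4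
      filter_upwards [o1, o2] with y h1 h2
      simp only [RR, RR0, FF, hc.err_zero ε s y hP.2.1 h1 h2]
      ring
    rw [h2.iteratedDeriv_eq i]
    refine h1.trans ?_
    have h3 : lam L ≤ vp (lam s) x := (lam_anti' (hs.2.trans hb)).trans (hA.lam_le _ _)
    have h4 : vp (lam s) x ^ ((0 : ℤ) - (i : ℤ)) ≤ (lam L ^ i)⁻¹ := by
      rw [zero_sub, zpow_neg, zpow_natCast]
      exact inv_anti₀ (by positivity) (pow_le_pow_left₀ hlL.le h3 i)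
    calc C * M * vp (lam s) x ^ ((0 : ℤ) - (i : ℤ)) ≤ C * M * (lam L ^ i)⁻¹ :=
          mul_le_mul_of_nonneg_left h4 (by positivity)
      _ = _ := by ring
  have hcont : ContinuousOn (fun s => iteratedDeriv i (X s) x) (Icc a b) := by
    have := (h.cj.2 i).comp (f := fun s : ℝ => (s, x)) (s := Icc a b) (by fun_prop)
      (fun s hs => ⟨hs, hx⟩)
    exact this
  have key : ∀ u ∈ Icc a b, ∀ v ∈ Icc a b, u < v →
      |iteratedDeriv i (X v) x - iteratedDeriv i (X u) x| ≤ C * (lam L ^ i)⁻¹ * M * |v - u| := by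
    intro u hu v hv huv
    obtain ⟨c, hc', hcs⟩ := exists_hasDerivAt_eq_slope (fun s => iteratedDeriv i (X s) x)
      (fun s => iteratedDeriv i (RR n Γ δ ε η s (X s)) x) huv
      (hcont.mono (Icc_subset_Icc hu.1 hv.2))
      (fun s hs => jet_t hA hC hc h i s ⟨hu.1.trans_lt hs.1, hs.2.trans_le hv.2⟩ x hx)
    have hpos : 0 < v - u := sub_pos.2 huv
    rw [eq_div_iff hpos.ne'] at hcs
    rw [← hcs, abs_mul]
    exact mul_le_mul_of_nonneg_right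
      (hbd c ⟨hu.1.trans hc'.1.le, hc'.2.le.trans hv.2⟩) (abs_nonneg _)
  rcases lt_trichotomy σ σ' with hlt | heq | hgt
  · rw [abs_sub_comm, abs_sub_comm σ]
    exact key σ hσ σ' hσ' hlt
  · subst heq
    simp
  · exact key σ' hσ' σ hσ hgt

end PSolAux

theorem psol (hA : BaseA) (hB : BaseB) (hD : DelStmt) (hC : CJStmt) (hDil : DilStmt) :
    PSolStmt where
  mono := PSolAux.mono hC
  congr := PSolAux.congr hA hB hD hC
  shift := PSolAux.shift hD hC hDil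
  lin := PSolAux.lin hA hB hD hC
  zero := PSolAux.zero hD hC
  expo := PSolAux.expo hA hB hD hC
  flat := PSolAux.flat
  rr_cj := PSolAux.rr_cj hA hC
  jet_t := fun hc h i σ hσ x hx => PSolAux.jet_t hA hC hc h i σ hσ x hx
  rr_syU := PSolAux.rr_syU hB
  tlip := fun δ i L hc => PSolAux.tlip hA hB hC δ i L hc

end Vale.Agent.P264
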