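import Vale.Agent.P264.StmB

/-! P264, part B: coordinates on the space of ancient solutions. -/

namespace Vale.Agent.P264

open scoped ContDiff Topology
open Set MeasureTheory Filter

namespace SpecAux

theorem points {V ι : Type} [AddCommGroup V] [Module ℝ V] [FiniteDimensional ℝ V]
    (φ : ι → V →ₗ[ℝ] ℝ) (h : ∀ v ≠ 0, ∃ i, φ i v ≠ 0) :
    ∃ (d : ℕ) (y : Fin d → ι) (e : V ≃ₗ[ℝ] (Fin d → ℝ)), ∀ v i, e v i = φ (y i) v := by
  obtain ⟨κ, a, -, h1, h2⟩ := exists_linearIndependent' ℝ φ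
  rw [Submodule.span_eq_top_of_ne_zero (s := range φ)
    fun v hv => (h v hv).elim fun i hi => ⟨_, mem_range_self i, hi⟩] at h1
  have := h2.finite
  have := Fintype.ofFinite κ
  have h3 := finrank_span_eq_card h2
  rw [h1, finrank_top, Subspace.dual_finrank_eq] at h3
  refine ⟨Fintype.card κ, fun i => a ((Fintype.equivFin κ).symm i),
    (LinearMap.pi fun i => φ (a ((Fintype.equivFin κ).symm i))).linearEquivOfInjective
      ((injective_iff_map_eq_zero _).2 fun v hv => (Module.forall_dual_apply_eq_zero_iff ℝ v).1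
        fun f => ?_) (by simp [h3]), fun _ _ => rfl⟩
  have h4 : Submodule.span ℝ (range (φ ∘ a)) ≤ LinearMap.ker (Module.Dual.eval ℝ V v) := by
    rw [Submodule.span_le]
    rintro _ ⟨k, rfl⟩
    simpa using congrFun hv (Fintype.equivFin κ k)
  exact h4 (h1 ▸ Submodule.mem_top)

theorem bound {d : ℕ} (N : (Fin d → ℝ) → ℝ → Prop) (h0 : N 0 0)
    (add : ∀ a b M M', 0 ≤ M → 0 ≤ M' → N a M → N b M' → N (a + b) (2 * (M + M')))
    (smul : ∀ (c : ℝ) a M, N a M → N (c • a) (|c| * M))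
    (mono : ∀ a M M', 0 ≤ M → M ≤ M' → N a M → N a M') (ex : ∀ a, ∃ M, 0 ≤ M ∧ N a M) :
    ∃ M, 0 ≤ M ∧ ∀ a, N a (M * ‖a‖) := by
  have key : ∀ s : Finset (Fin d), ∃ M, 0 ≤ M ∧ ∀ a : Fin d → ℝ,
      N (∑ i ∈ s, a i • Pi.single i (1 : ℝ)) (M * ‖a‖) := fun s => by
    induction s using Finset.induction_on with
    | empty => exact ⟨0, le_rfl, fun a => by simpa using h0⟩
    | insert i s hi ih =>
      obtain ⟨M, hM, h1⟩ := ih
      obtain ⟨M', hM', h2⟩ := ex (Pi.single i 1)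
      refine ⟨2 * (M' + M), by positivity, fun a => ?_⟩
      rw [Finset.sum_insert hi]
      refine mono _ _ _ (by positivity) ?_
        (add _ _ _ _ (by positivity) (by positivity) (smul (a i) _ _ h2) (h1 a))
      have h3 : |a i| * M' ≤ ‖a‖ * M' := mul_le_mul_of_nonneg_right (norm_le_pi_norm a i) hM'
      linarith
  obtain ⟨M, hM, h⟩ := key Finset.univ
  exact ⟨M, hM, fun a => by simpa only [← pi_eq_sum_univ'] using h a⟩

/-- the space of ancient solutions -/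
def sp (hAn : AncStmt) (n : ℕ) (Γ : ℝ → ℝ) (δ : ℝ) : Submodule ℝ (ℝ → ℝ → ℝ) where
  carrier := {Z | Anc n Γ δ Z}
  add_mem' := hAn.add
  zero_mem' := hAn.zero n Γ δ
  smul_mem' := fun c _ h => hAn.smul c h

variable (hAn : AncStmt) {n : ℕ} {Γ : ℝ → ℝ}

/-- change of the exponent -/
noncomputable def ex {δ δ' : ℝ} (h : δ' ≤ δ) : sp hAn n Γ δ →ₗ[ℝ] sp hAn n Γ δ' where
  toFun := fun X => ⟨fun σ y => Real.exp ((δ - δ') * σ) * X.1 σ y, hAn.expo h X.2⟩
  map_add' := fun _ _ => Subtype.ext (funext₂ fun _ _ => mul_add _ _ _)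
  map_smul' := fun _ _ => Subtype.ext (funext₂ fun _ _ => mul_left_comm _ _ _)

theorem ex_inj {δ δ' : ℝ} (h : δ' ≤ δ) : Function.Injective (ex hAn (n := n) (Γ := Γ) h) :=
  fun _ _ e => Subtype.ext (funext₂ fun σ y => mul_left_cancel₀ (Real.exp_pos _).ne'
    (congrFun₂ (congrArg Subtype.val e) σ y))

/-- the shift -/
noncomputable def sh (hc : Coef n Γ) (δ : ℝ) {τ : ℝ} (h : 0 ≤ τ) :
    sp hAn n Γ δ →ₗ[ℝ] sp hAn n Γ δ where
  toFun := fun X => ⟨shA τ X.1, hAn.shift hc h X.2⟩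
  map_add' := fun X Y => Subtype.ext (funext₂ fun σ y => by
    by_cases h : σ ≤ 0 ∧ 0 < y <;> simp [shA, h])
  map_smul' := fun c X => Subtype.ext (funext₂ fun σ y => by
    by_cases h : σ ≤ 0 ∧ 0 < y <;> simp [shA, h])

include hAn in
theorem fwd (hn : 1 ≤ n) (hc : Coef n Γ) {δ τ : ℝ} (hδ : 0 < δ) {Z : ℝ → ℝ → ℝ}
    (hZ : Anc n Γ δ Z) (h : shA τ Z 0 = 0) : ∀ σ, -τ ≤ σ → Z σ = 0 := fun σ hσ => by
  funext y
  by_cases h1 : σ ≤ 0 ∧ 0 < y
  · refine hAn.uniq hn hc hδ (hZ.sol (-τ) (hσ.trans h1.1)) (fun x hx => ?_) σ ⟨hσ, h1.1⟩ y h1.2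
    have h2 := congrFun h ((lam (-τ))⁻¹ * x)
    rwa [shA, if_pos ⟨le_rfl, mul_pos (inv_pos.2 (hc.lam_pos _)) hx⟩, add_zero,
      mul_inv_cancel_left₀ (hc.lam_pos _).ne'] at h2
  · exact hZ.zero σ y h1

theorem sh_inj (hn : 1 ≤ n) (hc : Coef n Γ) {δ τ : ℝ} (hδ : 0 < δ) (h : 0 ≤ τ) :
    Function.Injective (sh hAn hc δ h) := by
  refine (injective_iff_map_eq_zero _).2 fun Z e => Subtype.ext (funext fun σ => ?_)
  have h1 : shA τ Z.1 = 0 := congrArg Subtype.val e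
  rcases le_total (-τ) σ with h2 | h2
  · exact fwd hAn hn hc hδ Z.2 (congrFun h1 0) σ h2
  · refine fwd hAn hn hc hδ Z.2 (τ := -σ) ?_ σ (neg_neg σ).le
    rw [← add_sub_cancel τ (-σ), add_comm, ← hAn.shA_shA _ _ (by linarith), h1]
    funext y
    simp [shA]

theorem ev_inj (hn : 1 ≤ n) (hc : Coef n Γ) {δ : ℝ} (hδ : 0 < δ)
    [FiniteDimensional ℝ (sp hAn n Γ δ)] (Z : sp hAn n Γ δ) (h : Z.1 0 = 0) : Z = 0 := by
  let K := LinearMap.ker ((LinearMap.proj (0 : ℝ)).comp (sp hAn n Γ δ).subtype)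
  let S := (sh hAn hc δ zero_le_one).linearEquivOfInjective (sh_inj hAn hn hc hδ _) rfl
  have h1 : K.map S.symm.toLinearMap = K := by
    refine Submodule.eq_of_le_of_finrank_eq ?_ (S.symm.finrank_map_eq K)
    rintro _ ⟨W, hW, rfl⟩
    exact fwd hAn hn hc hδ (S.symm W).2 (τ := 1)
      ((congrArg (fun X : sp hAn n Γ δ => X.1 0) (S.apply_symm_apply W)).trans hW) 0 (by norm_num)
  have h2 : ∀ W ∈ K, S W ∈ K := fun W hW => by
    obtain ⟨X, hX, rfl⟩ := h1.ge hW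
    exact (S.apply_symm_apply X).symm ▸ hX
  have h3 : ∀ m : ℕ, sh hAn hc δ (Nat.cast_nonneg m) Z ∈ K := fun m => by
    induction m with
    | zero => exact (congrFun ((congrArg (shA · Z.1) Nat.cast_zero).trans
        (hAn.shA_zero Z.2)) 0).trans h
    | succ m ih =>
      have h4 : shA 1 (shA m Z.1) 0 = 0 := h2 _ ih
      rw [hAn.shA_shA m Z.1 zero_le_one, add_comm, ← Nat.cast_add_one] at h4
      exact h4
  exact Subtype.ext (funext fun σ => fwd hAn hn hc hδ Z.2 (h3 ⌈-σ⌉₊) σ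
    (neg_le.1 (Nat.le_ceil _)))

theorem gap (hF : FinDimStmt) (hn : 1 ≤ n) (hc : Coef n Γ) : ∃ δ c : ℝ, 0 < δ ∧ δ < 1 / 2 ∧
    0 < c ∧ FiniteDimensional ℝ (sp hAn n Γ δ) ∧ ∀ Z, Anc n Γ δ Z → ∃ M, 0 ≤ M ∧
      ∀ σ y, |Z σ y| ≤ M * Real.exp (c * σ) := by
  have fin : ∀ δ, 0 < δ → FiniteDimensional ℝ (sp hAn n Γ δ) := fun δ hδ => by
    obtain ⟨s, hs⟩ := hF n Γ δ hn hc hδ
    exact Submodule.finiteDimensional_of_le (S₂ := Submodule.span ℝ (s : Set (ℝ → ℝ → ℝ))) hs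
  obtain ⟨u, hu, hu1, -⟩ := exists_seq_strictAnti_tendsto' (show (1 / 4 : ℝ) < 1 / 2 by norm_num)
  have hu2 : ∀ j, 0 < u j := fun j => lt_trans (by norm_num) (hu1 j).1
  obtain ⟨j, hj⟩ : ∃ j, Module.finrank ℝ (sp hAn n Γ (u (j + 1))) ≤
      Module.finrank ℝ (sp hAn n Γ (u j)) := by
    by_contra h
    have h1 := (strictMono_nat_of_lt_succ (f := fun j => Module.finrank ℝ (sp hAn n Γ (u j)))
      fun j => not_le.1 fun e => h ⟨j, e⟩).id_le
      (Module.finrank ℝ (sp hAn n Γ (1 / 4)) + 1)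
    have := fin (1 / 4) (by norm_num)
    exact Nat.not_succ_le_self _ (h1.trans
      (LinearMap.finrank_le_finrank_of_injective (ex_inj hAn (hu1 _).1.le)))
  have h1 := hu (Nat.lt_succ_self j)
  have := fin _ (hu2 j)
  have := fin _ (hu2 (j + 1))
  refine ⟨u (j + 1), u j - u (j + 1), hu2 _, (hu1 _).2, sub_pos.2 h1, this, fun Z hZ => ?_⟩
  obtain ⟨X, hX⟩ := (LinearMap.injective_iff_surjective_of_finrank_eq_finrank (le_antisymm
    (LinearMap.finrank_le_finrank_of_injective (ex_inj hAn h1.le)) hj)).1 (ex_inj hAn h1.le) ⟨Z, hZ⟩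
  obtain ⟨M, hM⟩ := Anc.sy X.2 0
  refine ⟨|M|, abs_nonneg _, fun σ y => ?_⟩
  have h2 : Real.exp ((u j - u (j + 1)) * σ) * X.1 σ y = Z σ y :=
    congrFun₂ (congrArg Subtype.val hX) σ y
  rw [← h2, abs_mul, abs_of_pos (Real.exp_pos _), mul_comm]
  refine mul_le_mul_of_nonneg_right ?_ (Real.exp_pos _).le
  by_cases h : σ ≤ 0 ∧ 0 < y
  · simpa using ((hM σ h.1).2 0 le_rfl y ⟨h.2, by simp⟩).trans
      ((by simp : _ = M).trans_le (le_abs_self M))
  · rw [Anc.zero X.2 σ y h, abs_zero]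
    exact abs_nonneg _

end SpecAux

open SpecAux in
theorem spec (hA : BaseA) (hB : BaseB) (hD : DelStmt) (hAn : AncStmt) (hF : FinDimStmt) :
    SpecStmt := by
  intro n Γ hn hc
  obtain ⟨δ, c, hδ, hδ', hc0, _, hdec⟩ := gap hAn hF hn hc
  obtain ⟨d, y, e, he⟩ := points (V := sp hAn n Γ δ) (ι := Ioi (0 : ℝ))
    (fun x => (LinearMap.proj x.1).comp ((LinearMap.proj 0).comp (sp hAn n Γ δ).subtype))
    fun Z hZ => by_contra fun h => hZ (ev_inj hAn hn hc hδ Z (funext fun x => by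
      by_cases hx : 0 < x
      · exact by_contra fun e => h ⟨⟨x, hx⟩, e⟩
      · exact Anc.zero Z.2 0 x fun e => hx e.2))
  obtain ⟨z, hz⟩ : ∃ z : (Fin d → ℝ) →ₗ[ℝ] (ℝ → ℝ → ℝ), ∀ a, z a = (e.symm a).1 :=
    ⟨(sp hAn n Γ δ).subtype.comp e.symm.toLinearMap, fun _ => rfl⟩
  have anc : ∀ a, Anc n Γ δ (z a) := fun a => hz a ▸ (e.symm a).2
  have eval : ∀ a i, z a 0 (y i) = a i := fun a i => by
    rw [hz]
    exact (he _ i).symm.trans (congrFun (e.apply_symm_apply a) i)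
  have uniq : ∀ Z, Anc n Γ δ Z → Z = z fun i => Z 0 (y i) := fun Z hZ => by
    rw [hz, ← (funext (he ⟨Z, hZ⟩) : _ = fun i => Z 0 (y i)), e.symm_apply_apply]
  have zinj : ∀ a b, z a = z b → a = b := fun a b h => funext fun i => by
    rw [← eval a, ← eval b, h]
  have shift : ∀ τ, 0 ≤ τ → ∀ a, shA τ (z a) = z (Rm z (fun i => y i) τ a) := fun τ hτ a => by
    refine (uniq _ (hAn.shift hc hτ (anc a))).trans (congrArg z (funext fun i => ?_))
    rw [shA, if_pos ⟨le_rfl, (y i).2⟩, add_zero, Rm]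
  have sy : ∀ a h, ∃ M, 0 ≤ M ∧ Sy 1 0 h 0 M (z a 0) := fun a h => by
    obtain ⟨M, hM⟩ := (anc a).sy h
    exact ⟨|M|, abs_nonneg _, hB.mono one_pos le_rfl (le_abs_self M)
      (hc.lam_zero ▸ hM 0 self_mem_Iic)⟩
  refine ⟨δ, hδ, hδ', d, fun i => y i, z, fun i => (y i).2, anc, eval, uniq, shift,
    fun τ₁ τ₂ h₁ h₂ a => zinj _ _ ?_, fun τ hτ a h => zinj _ _ ?_, fun τ hτ a => ?_, ?_, ?_,
    fun k => ?_, fun h => ?_⟩
  · rw [← shift _ h₁, ← shift _ h₂, ← shift _ (add_nonneg h₁ h₂), hAn.shA_shA _ _ h₁]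
  · have h1 := shift τ hτ a
    rw [h, map_zero] at h1
    rw [map_zero]
    exact congrArg Subtype.val ((injective_iff_map_eq_zero _).1 (sh_inj hAn hn hc hδ hτ)
      ⟨z a, anc a⟩ (Subtype.ext h1))
  · obtain ⟨W, hW⟩ := LinearMap.surjective_of_injective (sh_inj hAn hn hc hδ hτ) ⟨z a, anc a⟩
    refine ⟨fun i => W.1 0 (y i), zinj _ _ ?_⟩
    rw [← shift τ hτ, ← uniq _ W.2]
    exact congrArg Subtype.val hW
  · obtain ⟨M, hM, h⟩ := bound (fun a M => ∀ σ x, |z a σ x| ≤ M * Real.exp (c * σ)) (by simp)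
      (fun a b M M' h1 h2 h3 h4 σ x => by
        rw [map_add]
        refine (abs_add_le _ _).trans ?_
        nlinarith [h3 σ x, h4 σ x, Real.exp_pos (c * σ)])
      (fun t a M h1 σ x => by
        rw [map_smul, mul_assoc]
        exact (abs_mul _ _).trans_le (mul_le_mul_of_nonneg_left (h1 σ x) (abs_nonneg _)))
      (fun a M M' _ h1 h2 σ x => (h2 σ x).trans
        (mul_le_mul_of_nonneg_right h1 (Real.exp_pos _).le)) fun a => hdec _ (anc a)
    refine ⟨M, c, hc0, fun τ _ a => (pi_norm_le_iff_of_nonneg (by positivity)).2 fun i => ?_⟩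
    rw [mul_right_comm, ← mul_neg]
    exact h a _ _
  · have h1 : ∀ a i, ContinuousOn (fun τ => z a (-τ) (lam (-τ) * y i)) (Ici 0) := fun a i τ hτ => by
      have h2 : Continuous lam := continuous_iff_continuousAt.2 fun s =>
        (hc.lam_deriv s).continuousAt
      have h3 := ((((anc a).sol (-(τ + 1)) (by linarith [mem_Ici.1 hτ])).cj.2 0).comp
        (f := fun τ : ℝ => (-τ, lam (-τ) * y i)) (s := Icc 0 (τ + 1)) (by fun_prop) fun t ht =>
          ⟨⟨neg_le_neg ht.2, neg_nonpos.2 ht.1⟩, mul_pos (hc.lam_pos _) (y i).2, by simp⟩) τ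
        ⟨hτ, (lt_add_one τ).le⟩
      exact h3.mono_of_mem_nhdsWithin (mem_of_superset
        (inter_mem_nhdsWithin _ (Iic_mem_nhds (lt_add_one τ))) Ici_inter_Iic.subset)
    refine continuousOn_pi.2 fun i => (continuousOn_finsetSum Finset.univ fun j _ =>
      ((continuous_apply j).comp continuous_snd).continuousOn.mul
        ((h1 (Pi.single j 1) i).comp continuousOn_fst fun _ h => h.1)).congr fun p _ => ?_
    simp only [Rm]
    conv_lhs => rw [pi_eq_sum_univ' p.2]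
    simp [Finset.sum_apply]
  · obtain ⟨M, -, h⟩ := bound (fun a M => QQ n 1 0 k 0 (z a 0) ≤ M ^ 2) (by
        refine le_of_eq (Eq.trans (hA.QQ_congr n 1 k 0 fun x _ => by simp)
          ((hA.QQ_smul n 1 0 k 0 0 (z 0 0)).trans (by simp))))
      (fun a b M M' h1 h2 h3 h4 => by
        rw [map_add]
        refine (hA.QQ_add n k 0 (sy a 0).choose_spec.2.1 (sy b 0).choose_spec.2.1
          (hc.lam_zero ▸ (anc a).int 0 le_rfl k) (hc.lam_zero ▸ (anc b).int 0 le_rfl k)).trans ?_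
        nlinarith [mul_nonneg h1 h2])
      (fun t a M h1 => by
        rw [map_smul, mul_pow, sq_abs]
        exact (hA.QQ_smul n 1 0 k 0 t (z a 0)).trans_le
          (mul_le_mul_of_nonneg_left h1 (sq_nonneg _)))
      (fun a M M' h0 h1 h2 => h2.trans (pow_le_pow_left₀ h0 h1 2))
      fun a => ⟨_, Real.sqrt_nonneg _, (Real.sq_sqrt (hA.QQ_nonneg n 1 0 k 0 _)).ge⟩
    exact ⟨M ^ 2, sq_nonneg _, fun a => mul_pow M _ 2 ▸ h a⟩
  · refine bound (fun a M => Sy 1 0 h 0 M (z a 0)) ?_ (fun a b M M' h1 h2 h3 h4 => ?_)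
      (fun t a M h1 => ?_) (fun a M M' _ h1 h2 => hB.mono one_pos le_rfl h1 h2) fun a => sy a h
    · rw [map_zero]
      exact hB.mono one_pos le_rfl abs_zero.le (hB.const 0 h 0 one_pos)
    · rw [map_add]
      exact hB.mono one_pos le_rfl (by linarith) (hB.add h3 h4)
    · rw [map_smul]
      exact hB.smul t h1

end Vale.Agent.P264
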