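import Vale.Agent.P264.StmB

/-!
Stability on bounded time intervals.
-/

namespace Vale.Agent.P264

open scoped ContDiff Topology
open Set MeasureTheory Filter

namespace Stabx

theorem par1 : Par 1 1 := ⟨one_pos, zero_le_one, by norm_num⟩

/-- uniform symbols for `lam = ε = 1` -/
def US (J : Set ℝ) (a : ℝ → ℝ → ℝ) : Prop := SyU J (fun _ => 1) 1 0 a

variable {J : Set ℝ} {a b : ℝ → ℝ → ℝ}

theorem US.ord (hB : BaseB) (ha : US J a) (q : ℤ) : SyU J (fun _ => 1) 1 q a :=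
  hB.syU_change (l₀ := 1) (l₁ := 1) q one_pos (fun _ _ => ⟨le_rfl, le_rfl⟩) (Or.inl one_pos) ha

theorem US.of_ord (hB : BaseB) {q : ℤ} (ha : SyU J (fun _ => 1) 1 q a) : US J a :=
  hB.syU_change (l₀ := 1) (l₁ := 1) 0 one_pos (fun _ _ => ⟨le_rfl, le_rfl⟩) (Or.inl one_pos) ha

theorem US.bd (hB : BaseB) (ha : US J a) (h : ℕ) (q : ℤ) :
    ∃ M, 0 ≤ M ∧ ∀ M', M ≤ M' → ∀ s ∈ J, Sy 1 1 h q M' (a s) := by
  obtain ⟨M, hM⟩ := ha.ord hB q h
  exact ⟨|M|, abs_nonneg M, fun M' hM' s hs =>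
    hB.mono one_pos le_rfl ((le_abs_self M).trans hM') (hM s hs)⟩

theorem US.syA (hB : BaseB) (ha : US J a) (q : ℤ) {s : ℝ} (hs : s ∈ J) : SyA 1 1 q (a s) :=
  fun h => (ha.ord hB q h).imp fun _ hM => hM s hs

theorem US.adm (hB : BaseB) (ha : US J a) (r : ℤ) {s : ℝ} (hs : s ∈ J) : Adm 1 1 r (a s) :=
  hB.adm_of_syA r one_pos (Or.inl one_pos) (ha.syA hB 0 hs)

theorem US.admU (hB : BaseB) (ha : US J a) (r : ℤ) : AdmU J (fun _ => 1) 1 r a :=
  hB.admU_of_syU (l₀ := 1) (l₁ := 1) r one_pos (fun _ _ => ⟨le_rfl, le_rfl⟩) (Or.inl one_pos) ha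

theorem US.mono {J' : Set ℝ} (ha : US J a) (h : J' ⊆ J) : US J' a :=
  fun k => (ha k).imp fun _ hM s hs => hM s (h hs)

theorem US.add (hB : BaseB) (ha : US J a) (hb : US J b) : US J fun s x => a s x + b s x := by
  intro h
  obtain ⟨M, hM⟩ := ha h
  obtain ⟨M', hM'⟩ := hb h
  exact ⟨M + M', fun s hs => hB.add (hM s hs) (hM' s hs)⟩

theorem US.mul (hB : BaseB) (ha : US J a) (hb : US J b) : US J fun s x => a s x * b s x := by
  intro h
  obtain ⟨M, h0, hM⟩ := ha.bd hB h 0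
  obtain ⟨M', h0', hM'⟩ := hb.bd hB h 0
  exact ⟨_, fun s hs => hB.mul one_pos h0 h0' (hM M le_rfl s hs) (hM' M' le_rfl s hs)⟩

theorem US.const (hB : BaseB) (J : Set ℝ) (c : ℝ) : US J fun _ _ => c :=
  fun h => ⟨_, fun _ _ => hB.const 1 h c one_pos⟩

theorem US.om (hB : BaseB) (J : Set ℝ) : US J fun _ x => om 1 x :=
  US.of_ord hB (q := 1) fun h => ⟨_, fun _ _ => hB.om_sy h par1⟩

theorem US.LL (hB : BaseB) (n : ℕ) (ha : US J a) : US J fun s => LL n 1 (a s) := by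
  refine US.of_ord hB (q := 0 - 2) fun h => ?_
  obtain ⟨K, -, hK⟩ := hB.LL_sy n h
  obtain ⟨M, h0, hM⟩ := ha.bd hB (h + 4) 0
  exact ⟨_, fun s hs => hK par1 h0 (hM M le_rfl s hs)⟩

theorem US.congr (ha : US J a) (h : ∀ s x, a s x = b s x) : US J b := by
  obtain rfl : a = b := funext fun s => funext (h s)
  exact ha

/-- uniform symbols with continuous jets -/
def UC (J : Set ℝ) (a : ℝ → ℝ → ℝ) : Prop := US J a ∧ CJ J (dom 1) a

section UC

variable (hA : BaseA) (hB : BaseB) (hC : CJStmt)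
include hA hB hC

theorem UC.add (ha : UC J a) (hb : UC J b) : UC J fun s x => a s x + b s x :=
  ⟨ha.1.add hB hb.1, hC.add (hA.dom_open 1) ha.2 hb.2⟩

theorem UC.mul (ha : UC J a) (hb : UC J b) : UC J fun s x => a s x * b s x :=
  ⟨ha.1.mul hB hb.1, hC.mul (hA.dom_open 1) ha.2 hb.2⟩

theorem UC.const (J : Set ℝ) (c : ℝ) : UC J fun _ _ => c :=
  ⟨US.const hB J c, hC.space J (hA.dom_open 1) contDiffOn_const⟩

theorem UC.om (J : Set ℝ) : UC J fun _ x => om 1 x :=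
  ⟨US.om hB J, hC.space J (hA.dom_open 1) (hB.om_sy 0 par1).1⟩

theorem UC.LL (n : ℕ) (ha : UC J a) : UC J fun s => LL n 1 (a s) :=
  ⟨ha.1.LL hB n, hC.LL n 1 (hA.dom_open 1) ha.2⟩

omit hA hB hC in
theorem UC.congr (ha : UC J a) (h : ∀ s x, a s x = b s x) : UC J b := by
  obtain rfl : a = b := funext fun s => funext (h s)
  exact ha

theorem UC.smul (c : ℝ) (ha : UC J a) : UC J fun s x => c * a s x :=
  (UC.const hA hB hC J c).mul hA hB hC ha

theorem UC.of_sol {n : ℕ} {γ₀ : ℝ → ℝ} {γ : ℝ → ℝ → ℝ} (h : Sol n γ₀ γ) (T : ℝ) :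
    UC (Icc 0 T) γ := by
  have h1 : CJ (Icc 0 T) (dom 1) γ := hC.mono Icc_subset_Ici_self hA.dom_one.subset h.cj
  refine ⟨hB.syU_of_bdd (l₀ := 1) (l₁ := 1) 0 one_pos one_pos (fun _ _ => ⟨le_rfl, le_rfl⟩) h1.1
    fun i => ?_, h1⟩
  rw [hA.dom_one]
  exact h.bdd i T

end UC

theorem cj_time {I : Set ℝ} (ha : CJ J I a) (j : ℕ) {x : ℝ} (hx : x ∈ I) :
    ContinuousOn (fun s => iteratedDeriv j (a s) x) J :=
  (ha.2 j).comp (f := fun s => (s, x)) (by fun_prop) fun _ hs => ⟨hs, hx⟩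

theorem sy_zero {h : ℕ} {q : ℤ} {M x : ℝ} {f : ℝ → ℝ} (hf : Sy 1 1 h q M f) (hx : x ∈ dom 1) :
    |f x| ≤ M * vp 1 x ^ q := by
  simpa using hf.2 0 (Nat.zero_le h) x hx

theorem TT_step (hA : BaseA) (n i : ℕ) (e r : ℤ) {f : ℝ → ℝ} (h1 : Adm 1 1 r f)
    (h2 : Adm 1 1 (r + 2) f) :
    TT n 1 1 i e r f ≤ TT n 1 1 i e (r + 2) f ∧ TT n 1 1 i e (r + 2) f ≤ 2 * TT n 1 1 i e r f := by
  have i1 := hA.intT n i e par1 h1
  have i2 := hA.intT n i e par1 h2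
  have hm := (hA.dom_open 1).measurableSet
  have key : ∀ x, wt n 1 1 i e (r + 2) x = (1 + x ^ 2) * wt n 1 1 i e r x := fun x => by
    have h0 := (hA.vp_pos x one_pos).ne'
    rw [wt, wt, ← add_assoc, zpow_add₀ h0, zpow_ofNat, hA.vp_sq]
    ring
  unfold TT
  rw [← integral_const_mul]
  constructor
  · refine setIntegral_mono_on i1 i2 hm fun x hx => ?_
    have := mul_nonneg (sq_nonneg (iteratedDeriv i f x)) (hA.wt_nonneg n (lam := 1) i e r hx)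
    rw [key]
    nlinarith [mul_nonneg this (sq_nonneg x)]
  · refine setIntegral_mono_on i2 (i1.const_mul 2) hm fun x hx => ?_
    have := mul_nonneg (sq_nonneg (iteratedDeriv i f x)) (hA.wt_nonneg n (lam := 1) i e r hx)
    have h3 : 0 ≤ 1 - x ^ 2 := by nlinarith [hx.1, hx.2]
    rw [key]
    nlinarith [mul_nonneg this h3]

theorem gron {E E' : ℝ → ℝ} {T K η ε : ℝ} (hE : ContinuousOn E (Icc 0 T))
    (hd : ∀ s ∈ Ioo 0 T, HasDerivAt E (E' s) s) (hb : ∀ s ∈ Ioo 0 T, E s ≤ ε → E' s ≤ K * E s)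
    (hK : 0 ≤ K) (hη : 0 < η) (h0 : E 0 < η) (hε : η * Real.exp ((K + 1) * T) ≤ ε) :
    ∀ t ∈ Icc 0 T, E t ≤ ε := by
  intro t ht
  have hB : ∀ x, x ≤ T → η * Real.exp ((K + 1) * x) ≤ ε := fun x hx => le_trans
    (mul_le_mul_of_nonneg_left (Real.exp_le_exp.2 (mul_le_mul_of_nonneg_left hx (by positivity)))
      hη.le) hε
  have hB0 : ∀ x, 0 ≤ x → η ≤ η * Real.exp ((K + 1) * x) := fun x hx =>
    le_mul_of_one_le_right hη.le (Real.one_le_exp (by positivity))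
  rcases ht.1.eq_or_lt with h | h
  · rw [← h]
    exact (h0.le.trans (hB0 t ht.1)).trans (hB t ht.2)
  have h1 : ∀ᶠ u in 𝓝[>] (0 : ℝ), E u < η := by
    have h2 := (hE 0 ⟨le_rfl, ht.1.trans ht.2⟩).eventually_lt_const h0
    exact nhdsWithin_le_of_mem (Icc_mem_nhdsGT (h.trans_le ht.2)) h2
  obtain ⟨u, hu, hu'⟩ := (h1.and (Ioo_mem_nhdsGT h)).exists
  have h3 : ∀ x ∈ Ico u t, x ∈ Ioo 0 T := fun x hx => ⟨hu'.1.trans_le hx.1, hx.2.trans_le ht.2⟩
  refine (image_le_of_deriv_right_lt_deriv_boundary (f := E) (f' := E') (a := u) (b := t)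
    (hE.mono (Icc_subset_Icc hu'.1.le ht.2)) (fun x hx => (hd x (h3 x hx)).hasDerivWithinAt)
    (B := fun x => η * Real.exp ((K + 1) * x))
    (B' := fun x => η * (Real.exp ((K + 1) * x) * (K + 1))) (hu.le.trans (hB0 u hu'.1.le))
    (fun x => ?_) (fun x hx he => ?_) ⟨hu'.2.le, le_rfl⟩).trans (hB t ht.2)
  · simpa using (((hasDerivAt_id x).const_mul (K + 1)).exp).const_mul η
  · refine (hb x (h3 x hx) (he.trans_le (hB x (h3 x hx).2.le))).trans_lt ?_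
    rw [he]
    have : 0 < η * Real.exp ((K + 1) * x) := by positivity
    linarith

end Stabx

open Stabx in
theorem stab (hA : BaseA) (hB : BaseB) (hD : DelStmt) (hC : CJStmt) (hBd : BoundStmt)
    (hDer : DerStmt) (hNL : NLStmt) : StabStmt := by
  intro n k γ₀ γ T θ hn hk hγ hθ
  have uγ := UC.of_sol hA hB hC hγ T
  have uo := UC.om hA hB hC (Icc 0 T)
  have uL := uγ.LL hA hB hC n
  have ug : UC (Icc 0 T) fun s x => 1 + om 1 x * γ s x :=
    (UC.const hA hB hC _ 1).add hA hB hC (uo.mul hA hB hC uγ)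
  have uG : UC (Icc 0 T) fun s x => (1 + om 1 x * γ s x) ^ 2 :=
    (ug.mul hA hB hC ug).congr fun s x => (sq _).symm
  have uV1 : UC (Icc 0 T) fun s x => -(om 1 x * LL n 1 (γ s) x) :=
    ((uo.mul hA hB hC uL).smul hA hB hC (-1)).congr fun s x => neg_one_mul _
  have uV : UC (Icc 0 T) fun s x => 2 * (1 + om 1 x * γ s x) * -(om 1 x * LL n 1 (γ s) x) :=
    (ug.smul hA hB hC 2).mul hA hB hC uV1
  have uGt : UC (Icc 0 T) fun s x => 2 * (1 + om 1 x * γ s x) * -(om 1 x * LL n 1 (γ s) x) *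
      (1 + om 1 x * γ s x) ^ 2 := uV.mul hA hB hC uG
  obtain ⟨c, hc, hcγ⟩ := hγ.pos T
  rw [← hA.dom_one] at hcγ
  obtain ⟨M1, p1, q1⟩ := ug.1.bd hB k 0
  obtain ⟨M2, p2, q2⟩ := uG.1.bd hB k 0
  obtain ⟨M3, p3, q3⟩ := uV1.1.bd hB k (-2)
  obtain ⟨M4, p4, q4⟩ := uV.1.bd hB k (-2)
  obtain ⟨M5, p5, q5⟩ := uGt.1.bd hB 0 (-2)
  have p6 : 0 < (c ^ 2)⁻¹ := by positivity
  obtain ⟨M, hM⟩ : ∃ M, M = 1 + M1 + M2 + M3 + M4 + M5 + (c ^ 2)⁻¹ := ⟨_, rfl⟩
  have hM1 : 1 ≤ M := by linarith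
  have hM0 : 0 < M := by linarith
  replace q1 := q1 M (by linarith)
  replace q2 := q2 M (by linarith)
  replace q3 := q3 M (by linarith)
  replace q4 := q4 M (by linarith)
  replace q5 := q5 M (by linarith)
  have hlow : ∀ s ∈ Icc 0 T, ∀ x ∈ dom 1, M⁻¹ ≤ (1 + om 1 x * γ s x) ^ 2 := fun s hs x hx =>
    (inv_le_of_inv_le₀ (by positivity) (by linarith)).trans
      (pow_le_pow_left₀ hc.le (hcγ s hs x hx) 2)
  obtain ⟨ε₀, C, hε₀, hC0, hbd⟩ := hBd n k 0 M hn (by omega) hM1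
  obtain ⟨CN, hCN, hnl⟩ := hNL n k 0 M hn hk
  obtain ⟨ε₁, hε₁, e1, e2, e3⟩ : ∃ ε₁, 0 < ε₁ ∧ 2 * M * ε₁ ≤ 1 ∧ CN * (2 * M * ε₁) ≤ ε₀ ∧
      M * ε₁ ≤ θ := by
    refine ⟨min (min 1 (ε₀ / (CN + 1))) θ / (2 * M), by positivity, ?_, ?_, ?_⟩
    · rw [mul_div_cancel₀ _ (by positivity)]
      exact (min_le_left _ _).trans (min_le_left _ _)
    · rw [mul_div_cancel₀ _ (by positivity)]
      refine (mul_le_mul_of_nonneg_left ((min_le_left _ _).trans (min_le_right _ _)) hCN).trans ?_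
      rw [← mul_div_assoc, div_le_iff₀ (by positivity)]
      linarith
    · have h1 : min (min 1 (ε₀ / (CN + 1))) θ ≤ θ := min_le_right _ _
      rw [← mul_div_assoc, div_le_iff₀ (by positivity)]
      nlinarith
  obtain ⟨η, hη⟩ : ∃ η, η = ε₁ * Real.exp (-((C * M + 1) * T)) := ⟨_, rfl⟩
  have hη0 : 0 < η := by rw [hη]; positivity
  refine ⟨η / (2 * M), by positivity, fun γ₀' γ' hγ' h0 => ?_⟩
  have uγ' := UC.of_sol hA hB hC hγ' T
  have uχ : UC (Icc 0 T) fun s x => γ' s x - γ s x :=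
    (uγ'.add hA hB hC (uγ.smul hA hB hC (-1))).congr fun s x => by ring
  have ua := uo.mul hA hB hC uχ
  have uLχ := uχ.LL hA hB hC n
  have uF : UC (Icc 0 T) fun s => FF n 1 (fun x => 1 + om 1 x * γ s x)
      (fun x => -(om 1 x * LL n 1 (γ s) x)) (fun x => γ' s x - γ s x) fun x => γ' s x - γ s x :=
    ((((((ug.smul hA hB hC 2).add hA hB hC ua).mul hA hB hC ua).smul hA hB hC (-1)).mul hA hB hC
      uLχ).add hA hB hC ((ua.mul hA hB hC uV1).mul hA hB hC uχ)).congr fun s x => by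
        simp only [FF]
        ring
  obtain ⟨R, hR⟩ : ∃ R : ℝ → ℝ → ℝ, R = fun s x => -0 * (γ' s x - γ s x) + 1 *
      (-((1 + om 1 x * γ s x) ^ 2 * LL n 1 (fun x => γ' s x - γ s x) x) +
        2 * (1 + om 1 x * γ s x) * -(om 1 x * LL n 1 (γ s) x) * (γ' s x - γ s x) +
        FF n 1 (fun x => 1 + om 1 x * γ s x) (fun x => -(om 1 x * LL n 1 (γ s) x))
          (fun x => γ' s x - γ s x) (fun x => γ' s x - γ s x) x + 0) := ⟨_, rfl⟩
  have uR : UC (Icc 0 T) R :=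
    ((((uG.mul hA hB hC uLχ).smul hA hB hC (-1)).add hA hB hC (uV.mul hA hB hC uχ)).add hA hB hC
      uF).congr fun s x => by
        simp only [hR]
        ring
  have heq : ∀ s ∈ Ioo 0 T, ∀ x ∈ dom 1, HasDerivAt (fun σ => γ' σ x - γ σ x) (R s x) s := by
    intro s hs x hx
    have hs' := Ioo_subset_Icc_self hs
    have hl := hD.LL_lin n 1 (-1) (uγ'.2.1 s hs') (uγ.2.1 s hs') hx
    simp only [one_mul, neg_mul, ← sub_eq_add_neg] at hl
    refine ((hγ'.eqn s hs.1 x (hA.dom_one.subset hx)).sub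
      (hγ.eqn s hs.1 x (hA.dom_one.subset hx))).congr_deriv ?_
    simp only [hR, FF, hl]
    ring
  obtain ⟨hE, hE'⟩ := hDer n k 0 0 T 1 (fun _ => 1) (fun _ => 0)
    (fun s x => (1 + om 1 x * γ s x) ^ 2)
    (fun s x => 2 * (1 + om 1 x * γ s x) * -(om 1 x * LL n 1 (γ s) x) * (1 + om 1 x * γ s x) ^ 2)
    (fun s x => γ' s x - γ s x) R hn (fun _ _ => par1) continuousOn_const
    (fun s _ => hasDerivAt_const s 1) ⟨0, fun _ _ => abs_zero.le⟩ ⟨M⁻¹, by positivity, hlow⟩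
    (fun s hs => (uG.2.1 s hs).continuousOn) (fun x hx => by simpa using cj_time uG.2 0 hx)
    (fun s hs => ⟨(uGt.2.1 s (Ioo_subset_Icc_self hs)).continuousOn, fun x hx =>
      (((((hγ.eqn s hs.1 x (hA.dom_one.subset hx)).const_mul (om 1 x)).const_add 1).fun_pow
        2).congr_deriv (by simp only [Nat.cast_ofNat, Nat.add_one_sub_one, pow_one]; ring))⟩)
    (by
      obtain ⟨B, -, hB'⟩ := uGt.1.bd hB 0 0
      exact ⟨B, fun s hs x hx => by
        simpa using sy_zero (hB' B le_rfl s (Ioo_subset_Icc_self hs)) hx⟩)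
    (uχ.1.admU hB 0) ((uR.1.mono Ioo_subset_Icc_self).admU hB 0)
    (fun j x hx => cj_time uχ.2 j hx) (hC.timejet (hA.dom_open 1) uχ.2 uR.2 heq)
  have hEQ : ∀ s ∈ Icc 0 T, _ := fun s hs => hA.EE_QQ n k 0 par1 hM0 (uχ.1.adm hB 0 hs)
    (uG.2.1 s hs).continuousOn fun x hx => ⟨hlow s hs x hx,
      (le_abs_self _).trans (by simpa using sy_zero (q2 s hs) hx)⟩
  intro t ht
  refine le_trans (hEQ t ht).1 (le_trans (mul_le_mul_of_nonneg_left ?_ hM0.le) e3)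
  refine gron (K := C * M) hE hE' (fun s hs hs1 => ?_) (by positivity) hη0 ?_ ?_ t ht
  · have hs' := Ioo_subset_Icc_self hs
    have a0 := uχ.1.adm hB 0 hs'
    have k1 : QQ n 1 1 k 2 (fun x => γ' s x - γ s x) ≤ 2 * M * ε₁ := by
      have k2 : QQ n 1 1 k 2 (fun x => γ' s x - γ s x) ≤
          2 * QQ n 1 1 k 0 fun x => γ' s x - γ s x := by
        rw [QQ, QQ, Finset.mul_sum]
        exact Finset.sum_le_sum fun i _ => (TT_step hA n i _ 0 a0 (uχ.1.adm hB _ hs')).2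
      have := mul_le_mul_of_nonneg_left hs1 hM0.le
      linarith [(hEQ s hs').1]
    have k3 := hnl 1 1 _ _ _ _ par1 one_pos (q1 s hs') (q3 s hs') (ug.1.syA hB 0 hs')
      (uV1.1.syA hB (-2) hs') (uχ.1.syA hB 0 hs') (uχ.1.syA hB 0 hs') (k1.trans e1)
    have k4 := hbd 1 1 0 1 (1 * 0) _ _ _ _ _ (fun _ => 0) (R s) par1 (uG.1.syA hB 0 hs')
      (uV.1.syA hB (-2) hs') (q2 s hs') (q4 s hs') (hlow s hs') zero_le_one (by simp [hM0.le])
      (uGt.2.1 s hs').continuousOn (fun x hx => by simpa using sy_zero (q5 s hs') hx) a0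
      (uF.1.adm hB _ hs') ((US.const hB _ 0).adm hB 0 hs') (fun x _ => by rw [hR])
      (k3.trans (mul_le_mul_of_nonneg_right
        ((mul_le_mul_of_nonneg_left k1 hCN).trans e2) (hA.QQ_nonneg _ _ _ _ _ _)))
    have k5 : QQ n 1 1 k 0 (fun _ => (0 : ℝ)) = 0 := by
      simpa using hA.QQ_smul n 1 1 k 0 0 fun _ => 0
    have k6 := (TT_step hA n 0 2 (0 - 2) (uχ.1.adm hB _ hs') (uχ.1.adm hB _ hs')).1
    have k7 := hA.TT_le_QQ n 1 1 (i := 0) (h := k) 0 (fun x => γ' s x - γ s x) (Nat.zero_le k)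
    rw [k5, Real.sqrt_zero, zero_mul, add_zero, mul_zero (-2 : ℝ), zero_mul, zero_add,
      one_mul C] at k4
    rw [show (0 - 2 + 2 : ℤ) = 0 by ring] at k6
    rw [show (((0 : ℕ) : ℤ) + 2) = 2 by simp] at k7
    refine k4.trans ?_
    rw [mul_assoc]
    exact mul_le_mul_of_nonneg_left (k6.trans (k7.trans (hEQ s hs').1)) hC0
  · have h1 := (hEQ 0 ⟨le_rfl, ht.1.trans ht.2⟩).2
    rw [hA.QQ_congr n 1 k 0 (g := fun x => γ₀' x - γ₀ x) fun x hx => by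
      simp only [hγ.init x (hA.dom_one.subset hx), hγ'.init x (hA.dom_one.subset hx)]] at h1
    have h2 := mul_le_mul_of_nonneg_left h0 hM0.le
    have h3 : M * (η / (2 * M)) = η / 2 := by field_simp
    linarith
  · rw [hη, mul_assoc, ← Real.exp_add, neg_add_cancel, Real.exp_zero, mul_one]

end Vale.Agent.P264
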