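import Vale.Agent.P264.StmB

/-!
Rescaling a solution of the reduced equation; the blow-up contradiction.
-/

namespace Vale.Agent.P264

open scoped ContDiff Topology
open Set MeasureTheory Filter

namespace ToXAux

theorem tt_mem {ε σ : ℝ} (h : 0 ≤ σ) : ε ^ 2 * (1 - Real.exp (-σ)) ∈ Icc 0 (ε ^ 2) := by
  have h1 : Real.exp (-σ) ≤ 1 := Real.exp_le_one_iff.2 (by linarith)
  have h2 := Real.exp_pos (-σ)
  have h3 := sq_nonneg ε
  constructor <;> nlinarith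

theorem tt_pos {ε σ : ℝ} (hε : 0 < ε) (h : 0 < σ) : 0 < ε ^ 2 * (1 - Real.exp (-σ)) :=
  mul_pos (pow_pos hε 2) (sub_pos.2 (Real.exp_lt_one_iff.2 (by linarith)))

theorem mul_mem {ε y : ℝ} (hε : 0 < ε) (h : y ∈ dom ε) : ε * y ∈ Ioo (0 : ℝ) 1 :=
  ⟨mul_pos hε h.1, h.2⟩

theorem lam_sq (σ : ℝ) : lam σ ^ 2 = Real.exp (-σ) := by
  rw [lam, ← Real.exp_nat_mul]
  congr 1
  push_cast
  ring

theorem lam_lim : Tendsto lam atTop (𝓝 0) :=
  Real.tendsto_exp_atBot.comp (tendsto_neg_atTop_atBot.atBot_div_const two_pos)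

end ToXAux

open ToXAux

theorem toXS (hA : BaseA) (hB : BaseB) (hD : DelStmt) (hC : CJStmt) (hDil : DilStmt) :
    ToXStmt := by
  intro n Γ γ₀ γ δ ε _ hc hs hε hε1 b
  have ho := hA.dom_open ε
  have ht : Continuous fun σ : ℝ => ε ^ 2 * (1 - Real.exp (-σ)) := by fun_prop
  have hk : Continuous fun σ : ℝ => ε⁻¹ * Real.exp (-(δ * σ)) := by fun_prop
  have cu : CJ (Icc 0 b) (dom ε) fun σ y => γ (ε ^ 2 * (1 - Real.exp (-σ))) (ε * y) :=
    hC.comp hε.ne' ht.continuousOn (fun σ hσ => (tt_mem hσ.1).1) (fun y hy => mul_mem hε hy) hs.cj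
  have cg := (hc.cj ε (Icc 0 b)).1
  have hl : ∀ s ∈ Icc 0 b, lam b ≤ lam s ∧ lam s ≤ 1 := fun s hs =>
    ⟨hc.lam_anti hs.2, hc.lam_zero ▸ hc.lam_anti hs.1⟩
  refine ⟨?_, fun h => ?_, fun σ hσ x hx => ?_⟩
  · have h1 := hC.mul ho (hC.time (dom ε) (continuousOn_const (c := ε))) cu
    have h2 := hC.mul ho (hC.time (dom ε) (continuousOn_const (c := (-1 : ℝ)))) cg
    refine hC.congr ho (fun s _ y _ => ?_)
      (hC.mul ho (hC.time (dom ε) hk.continuousOn) (hC.add ho h1 h2))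
    simp only [toX]
    ring
  · have su : SyU (Icc 0 b) lam ε 0 fun σ y => γ (ε ^ 2 * (1 - Real.exp (-σ))) (ε * y) := by
      refine hB.syU_of_bdd 0 (hc.lam_pos b) hε hl cu.1 fun i => ?_
      obtain ⟨C, hC'⟩ := hs.bdd i (ε ^ 2)
      refine ⟨ε ^ i * C, fun s hs' x hx => ?_⟩
      rw [hD.iter_dil i _ _ hε.ne', abs_mul, abs_of_pos (pow_pos hε i)]
      exact mul_le_mul_of_nonneg_left (hC' _ (tt_mem hs'.1) _ (mul_mem hε hx)) (pow_pos hε i).le
    have sg : SyU (Icc 0 b) lam ε 0 (gv Γ ε) := by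
      refine hB.syU_change (q := -1) 0 (hc.lam_pos b) hl (Or.inl hε) fun h => ?_
      obtain ⟨M, -, hM⟩ := hc.sy h
      refine ⟨M, fun s hs' => (hM ε s ⟨hc.lam_pos s, hε.le, ?_⟩).1⟩
      exact mul_le_one₀ hε1 (hc.lam_pos s).le (hl s hs').2
    obtain ⟨M₁, h1⟩ := su h
    obtain ⟨M₂, h2⟩ := sg h
    obtain ⟨K, hK⟩ := (isCompact_Icc (a := (0 : ℝ)) (b := b)).exists_bound_of_continuousOn
      hk.continuousOn
    refine ⟨K * |(|ε| * M₁ + |(-1 : ℝ)| * M₂)|, fun s hs' => ?_⟩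
    have h3 := hB.smul (ε⁻¹ * Real.exp (-(δ * s)))
      (hB.add (hB.smul ε (h1 s hs')) (hB.smul (-1) (h2 s hs')))
    refine hB.congr (fun y _ => ?_) (hB.mono (hc.lam_pos s) le_rfl ?_ h3)
    · simp only [toX]
      ring
    · exact (mul_le_mul_of_nonneg_left (le_abs_self _) (abs_nonneg _)).trans
        (mul_le_mul_of_nonneg_right (hK s hs') (abs_nonneg _))
  · have hσ' : σ ∈ Icc 0 b := Ioo_subset_Icc_self hσ
    have d1 : HasDerivAt (fun s : ℝ => ε ^ 2 * (1 - Real.exp (-s))) (ε ^ 2 * Real.exp (-σ)) σ := by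
      have := ((hasDerivAt_neg σ).exp.const_sub 1).const_mul (ε ^ 2)
      refine this.congr_deriv ?_
      ring
    have d2 := (hs.eqn _ (tt_pos hε hσ.1) _ (mul_mem hε hx)).comp σ d1
    have d3 := (hc.dt ε σ x hx.1).1
    have d4 : HasDerivAt (fun s : ℝ => ε⁻¹ * Real.exp (-(δ * s)))
        (ε⁻¹ * (Real.exp (-(δ * σ)) * -δ)) σ := by
      have := (((hasDerivAt_id σ).const_mul δ).neg.exp).const_mul ε⁻¹
      simpa using this
    refine (d4.mul ((d2.const_mul ε).sub d3)).congr_deriv ?_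
    have e1 : toX Γ δ ε γ σ = fun y => (ε⁻¹ * Real.exp (-(δ * σ)) * ε) *
        γ (ε ^ 2 * (1 - Real.exp (-σ))) (ε * y) + (-(ε⁻¹ * Real.exp (-(δ * σ)))) * gv Γ ε σ y := by
      funext y
      simp only [toX]
      ring
    have e2 := hD.LL_lin n (ε⁻¹ * Real.exp (-(δ * σ)) * ε) (-(ε⁻¹ * Real.exp (-(δ * σ))))
      (cu.1 σ hσ') (cg.1 σ hσ') hx
    have e3 := hD.LL_dil n 1 (γ (ε ^ 2 * (1 - Real.exp (-σ)))) x hε.ne'
    rw [mul_one] at e3
    rw [← e1, e3] at e2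
    simp only [RR, FF, GG, gg, V1, err, e2, lam_sq]
    simp only [toX, om, Function.comp, Pi.sub_apply, Real.exp_neg (δ * σ)]
    have := (Real.exp_pos (δ * σ)).ne'
    field_simp
    ring

theorem blow (hA : BaseA) : BlowStmt := by
  rintro n Γ γ₀ γ δ ε hc ⟨Y, hY, hΓ⟩ hs hε hδ ⟨C, hC⟩
  obtain ⟨B, hB⟩ := hs.bdd 0 (ε ^ 2)
  have l1 : Tendsto (fun σ => lam σ * Y) atTop (𝓝 0) := by
    simpa using lam_lim.mul_const Y
  have l2 : Tendsto (fun σ => ε * (lam σ * Y)) atTop (𝓝 0) := by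
    simpa using l1.const_mul ε
  have l3 : Tendsto (fun σ => Real.exp ((δ - 1 / 2) * σ)) atTop (𝓝 0) :=
    Real.tendsto_exp_atBot.comp (tendsto_id.const_mul_atTop_of_neg (by linarith))
  have ev : ∀ᶠ σ in atTop, 0 ≤ σ ∧ ε * (lam σ * Y) < 1 / 4 :=
    (eventually_ge_atTop 0).and (l2.eventually_lt_const (by norm_num))
  have l4 : Tendsto (fun σ => (1 + Y * Γ Y) / (1 - ε * (lam σ * Y)) - 1) atTop
      (𝓝 ((1 + Y * Γ Y) / (1 - 0) - 1)) :=
    (tendsto_const_nhds.div (tendsto_const_nhds.sub l2) (by norm_num)).sub_const 1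
  have l5 : Tendsto (fun σ => lam σ * Y * (ε * B) + Real.exp ((δ - 1 / 2) * σ) * (Y * ε * C)) atTop
      (𝓝 0) := by
    simpa using (l1.mul_const (ε * B)).add (l3.mul_const (Y * ε * C))
  have l6 : Tendsto (fun σ => (1 + Y * Γ Y) / (1 - ε * (lam σ * Y)) - 1) atTop (𝓝 0) := by
    refine squeeze_zero_norm' (ev.mono fun σ hσ => ?_) l5
    have hy : 0 < lam σ * Y := mul_pos (hc.lam_pos σ) hY
    have hd : lam σ * Y ∈ dom ε := ⟨hy, by linarith [hσ.2]⟩
    have h1 := (hc.near ε σ _ hε.le hy hσ.2).1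
    rw [hc.val] at h1
    have h2 := hB _ (tt_mem hσ.1) _ (mul_mem hε hd)
    rw [iteratedDeriv_zero] at h2
    have h3 := hC σ hσ.1 _ hd
    have h4 : |1 - ε * (lam σ * Y)| ≤ 1 := by
      have := mul_pos hε hy
      rw [abs_le]
      constructor <;> linarith [hσ.2]
    have e0 : Real.exp ((δ - 1 / 2) * σ) = lam σ * Real.exp (δ * σ) := by
      rw [lam, ← Real.exp_add]
      congr 1
      ring
    have e1 : gg Γ ε σ (lam σ * Y) - 1 = (1 - ε * (lam σ * Y)) *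
        (lam σ * Y * (ε * γ (ε ^ 2 * (1 - Real.exp (-σ))) (ε * (lam σ * Y))) -
          Real.exp ((δ - 1 / 2) * σ) * (Y * ε * toX Γ δ ε γ σ (lam σ * Y))) := by
      rw [e0]
      simp only [gg, toX, om, Real.exp_neg (δ * σ)]
      have := (Real.exp_pos (δ * σ)).ne'
      field_simp
      ring
    rw [← h1, e1, Real.norm_eq_abs, abs_mul]
    refine (mul_le_of_le_one_left (abs_nonneg _) h4).trans ((abs_sub _ _).trans (add_le_add ?_ ?_))
    · rw [abs_mul, abs_mul ε, abs_of_pos hy, abs_of_pos hε]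
      exact mul_le_mul_of_nonneg_left (mul_le_mul_of_nonneg_left h2 hε.le) hy.le
    · rw [abs_mul, abs_mul (Y * ε), abs_of_pos (Real.exp_pos _), abs_of_pos (mul_pos hY hε)]
      exact mul_le_mul_of_nonneg_left (mul_le_mul_of_nonneg_left h3 (mul_pos hY hε).le)
        (Real.exp_pos _).le
  have := tendsto_nhds_unique l4 l6
  rw [sub_zero, div_one, add_sub_cancel_left] at this
  exact mul_ne_zero hY.ne' hΓ this

end Vale.Agent.P264
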