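import Vale.Agent.P264.StmB
import Vale.Agent.P371.Brouwer

/-! P264, part B: the topological argument. -/

namespace Vale.Agent.P264

open scoped ContDiff Topology
open Set MeasureTheory Filter

namespace TopAux

variable {V : Type} [NormedAddCommGroup V] [NormedSpace ℝ V] [FiniteDimensional ℝ V]

theorem fix {Ψ : V → V} (h : Continuous Ψ) :
    ∃ a, ‖a‖ ≤ 1 ∧ (Ψ a = 0 ∨ ‖a‖ = 1 ∧ ∃ t : ℝ, 0 ≤ t ∧ Ψ a = -t • a) := by
  by_cases h0 : ∃ a, ‖a‖ ≤ 1 ∧ Ψ a = 0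
  · exact h0.imp fun a ha => ⟨ha.1, Or.inl ha.2⟩
  · have h1 : ∀ a ∈ Metric.closedBall (0 : V) 1, ‖Ψ a‖ ≠ 0 := fun a ha e =>
      h0 ⟨a, mem_closedBall_zero_iff.1 ha, norm_eq_zero.1 e⟩
    have h2 : ∀ a ∈ Metric.closedBall (0 : V) 1, ‖(-‖Ψ a‖)⁻¹ • Ψ a‖ = 1 := fun a ha => by
      rw [norm_smul, norm_inv, norm_neg, norm_norm, inv_mul_cancel₀ (h1 a ha)]
    have := FiniteDimensional.proper_real V
    obtain ⟨a, ha, e⟩ := Vale.Agent.P371.brouwer (convex_closedBall (0 : V) 1)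
      (isCompact_closedBall 0 1) ⟨0, Metric.mem_closedBall_self zero_le_one⟩
      (f := fun a => (-‖Ψ a‖)⁻¹ • Ψ a) ((h.norm.neg.continuousOn.inv₀
        fun a ha => neg_ne_zero.2 (h1 a ha)).smul h.continuousOn)
      fun a ha => mem_closedBall_zero_iff.2 (h2 a ha).le
    exact ⟨a, mem_closedBall_zero_iff.1 ha, Or.inr ⟨e ▸ h2 a ha, ‖Ψ a‖, norm_nonneg _,
      (inv_smul_eq_iff₀ (neg_ne_zero.2 (h1 a ha))).1 e⟩⟩

theorem mass_deriv {E : ℝ → ℝ} (hE : Continuous E) (θ r : ℝ) :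
    HasDerivAt (mass E θ) (max (E r - θ) 0) r :=
  (Continuous.integral_hasStrictDerivAt (f := fun σ => max (E σ - θ) 0) (by fun_prop) 0
    r).hasDerivAt

theorem mass_mono {E : ℝ → ℝ} (hE : Continuous E) (θ : ℝ) : Monotone (mass E θ) :=
  monotone_of_hasDerivAt_nonneg (mass_deriv hE θ) fun _ => le_max_right _ _

theorem core {R : ℝ → V → V} {θ : ℝ} {E : V → ℝ → ℝ} {P : V → ℝ → V}
    (lin : ∀ τ, IsLinearMap ℝ (R τ)) (cR : Continuous (Function.uncurry R)) (R0 : ∀ a, R 0 a = a)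
    (semi : ∀ τ₁ τ₂, 0 ≤ τ₁ → 0 ≤ τ₂ → ∀ a, R τ₁ (R τ₂ a) = R (τ₁ + τ₂) a)
    (inj : ∀ τ, 0 ≤ τ → ∀ a, R τ a = 0 → a = 0) (cE : Continuous (Function.uncurry E))
    (cP : Continuous (Function.uncurry P)) (P0 : ∀ a, ‖a‖ ≤ 1 → P a 0 = a)
    (E0 : ∀ a, ‖a‖ = 1 → θ ≤ E a 0) (big : ∀ a, ‖a‖ ≤ 1 → ∃ S, 0 ≤ S ∧ 1 < mass (E a) θ S) :
    ∃ a s w, ‖a‖ ≤ 1 ∧ 0 ≤ s ∧ θ ≤ E a s ∧ (w = 0 ∨ 1 ≤ ‖w - P a s‖) ∧
      ∀ p, ∃ r, s ≤ r ∧ mass (E a) θ r ≤ 1 ∧ ‖w - p‖ ≤ ‖R (r - s) (P a r) - p‖ := by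
  have cE' : ∀ a, Continuous (E a) := fun a => cE.uncurry_left a
  have cM : Continuous fun p : V × ℝ => mass (E p.1) θ p.2 :=
    intervalIntegral.continuous_parametric_primitive_of_continuous
      (f := fun a σ => max (E a σ - θ) 0) ((cE.sub continuous_const).max continuous_const)
  have := FiniteDimensional.proper_real V
  obtain ⟨S, hS⟩ := (isCompact_closedBall (0 : V) 1).elim_directed_cover
    (fun S : ℕ => {a | 1 < mass (E a) θ S})
    (fun S => isOpen_lt continuous_const (cM.comp (continuous_id.prodMk continuous_const)))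
    (fun a ha => by
      obtain ⟨S, -, h⟩ := big a (mem_closedBall_zero_iff.1 ha)
      exact mem_iUnion.2 ⟨⌈S⌉₊, h.trans_le (mass_mono (cE' a) θ (Nat.le_ceil S))⟩)
    (Monotone.directed_le fun i j h a ha =>
      lt_of_lt_of_le (a := (1 : ℝ)) ha (mass_mono (cE' a) θ (Nat.cast_le.2 h)))
  obtain ⟨w, hw⟩ : ∃ w : V → ℝ → ℝ,
    w = fun a σ => 2 * max (1 - mass (E a) θ σ) 0 * max (E a σ - θ) 0 := ⟨_, rfl⟩
  have cw : Continuous (Function.uncurry w) := hw ▸ (continuous_const.mul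
    ((continuous_const.sub cM).max continuous_const)).mul
      ((cE.sub continuous_const).max continuous_const)
  obtain ⟨a, ha, hfix⟩ := fix (Ψ := fun a => ∫ σ in (0 : ℝ)..S, w a σ • R σ (P a σ))
    (intervalIntegral.continuous_parametric_intervalIntegral_of_continuous'
      (cw.smul (cR.comp (continuous_snd.prodMk cP))) _ _)
  have hS1 : 1 < mass (E a) θ S := hS (mem_closedBall_zero_iff.2 ha)
  have hS0 : (0 : ℝ) ≤ S := Nat.cast_nonneg S
  have hz : ∀ r, 0 ≤ r → (∀ σ ∈ Ico 0 r, E a σ < θ) → mass (E a) θ r = 0 := fun r hr h => by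
    rw [mass, intervalIntegral.integral_of_le hr, integral_Ioc_eq_integral_Ioo]
    exact setIntegral_eq_zero_of_forall_eq_zero fun σ hσ =>
      max_eq_right (sub_nonpos.2 (h σ ⟨hσ.1.le, hσ.2⟩).le)
  obtain ⟨s, ⟨hs, hs1⟩, hs2⟩ := (isCompact_Icc.inter_right (isClosed_le continuous_const
    (cE' a))).exists_isLeast (s := Icc 0 (S : ℝ) ∩ {σ | θ ≤ E a σ}) (by
      by_contra hn
      rw [hz S hS0 fun σ hσ => not_le.1 fun e => hn ⟨σ, Ico_subset_Icc_self hσ, e⟩] at hS1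
      linarith)
  have hs3 : ∀ σ ∈ Ico 0 s, E a σ < θ := fun σ hσ =>
    not_le.1 fun e => hσ.2.not_ge (hs2 ⟨⟨hσ.1, hσ.2.le.trans hs.2⟩, e⟩)
  obtain ⟨r', hr', hr1⟩ := intermediate_value_Icc hs.2
    (cM.comp (continuous_const.prodMk continuous_id)).continuousOn
    (show (1 : ℝ) ∈ Icc (mass (E a) θ s) (mass (E a) θ S) from
      ⟨(hz s hs.1 hs3).trans_le zero_le_one, hS1.le⟩)
  have hr2 : mass (E a) θ r' = 1 := hr1
  have w1 : ∀ σ ∈ Ico 0 s, w a σ = 0 := fun σ hσ => by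
    simp only [hw, max_eq_right (sub_nonpos.2 (hs3 σ hσ).le), mul_zero]
  have w2 : ∀ σ, r' ≤ σ → w a σ = 0 := fun σ hσ => by
    simp only [hw, max_eq_right (sub_nonpos.2 (hr2.ge.trans (mass_mono (cE' a) θ hσ))), mul_zero,
      zero_mul]
  have w3 : ∀ σ, 0 ≤ w a σ := fun σ => by
    rw [hw]
    positivity
  have cwa : Continuous (w a) := cw.uncurry_left a
  have w4 : ∫ σ in (0 : ℝ)..S, w a σ = 1 := by
    rw [← intervalIntegral.integral_add_adjacent_intervals (b := r') (cwa.intervalIntegrable _ _)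
      (cwa.intervalIntegrable _ _), intervalIntegral.integral_congr (a := r') (g := fun _ => 0)
        fun σ hσ => w2 σ (uIcc_of_le hr'.2 ▸ hσ).1,
      intervalIntegral.integral_eq_sub_of_hasDerivAt (f := fun σ => -(1 - mass (E a) θ σ) ^ 2)
        (fun σ hσ => ?_) (cwa.intervalIntegrable _ _)]
    · rw [hr2]
      simp [mass]
    · rw [uIcc_of_le (hs.1.trans hr'.1)] at hσ
      refine ((((mass_deriv (cE' a) θ σ).const_sub 1).pow 2).neg).congr_deriv ?_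
      simp only [hw, max_eq_left (sub_nonneg.2 ((mass_mono (cE' a) θ hσ.2).trans hr2.le))]
      ring
  have cv : Continuous fun σ => R (σ - s) (P a σ) :=
    cR.comp ((continuous_id.sub continuous_const).prodMk (cP.uncurry_left a))
  have key : ∫ σ in (0 : ℝ)..S, w a σ • R σ (P a σ) =
      R s (∫ σ in (0 : ℝ)..S, w a σ • R (σ - s) (P a σ)) := by
    refine Eq.trans (intervalIntegral.integral_congr fun σ hσ => ?_)
      ((LinearMap.toContinuousLinearMap ((lin s).mk' _)).intervalIntegral_comp_comm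
        ((cwa.smul cv).intervalIntegrable _ _))
    rw [uIcc_of_le hS0] at hσ
    change _ = R s (w a σ • R (σ - s) (P a σ))
    rw [(lin s).map_smul]
    rcases lt_or_ge σ s with h | h
    · simp only [w1 σ ⟨hσ.1, h⟩, zero_smul]
    · rw [semi _ _ hs.1 (sub_nonneg.2 h), add_sub_cancel]
  refine ⟨a, s, ∫ σ in (0 : ℝ)..S, w a σ • R (σ - s) (P a σ), ha, hs.1, hs1, ?_, fun p => ?_⟩
  · rw [key] at hfix
    refine hfix.imp (inj s hs.1 _) fun ⟨h1, t, ht, h2⟩ => ?_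
    have h3 : s = 0 := le_antisymm (hs2 ⟨⟨le_rfl, hS0⟩, E0 a h1⟩) hs.1
    rw [h3, R0] at h2
    rw [h3, h2, P0 a ha, ← one_smul ℝ a, smul_smul, ← sub_smul, norm_smul, h1, Real.norm_eq_abs,
      abs_of_nonpos (by linarith)]
    linarith
  · obtain ⟨r, hr, hm⟩ := isCompact_Icc.exists_isMaxOn (nonempty_Icc.2 hr'.1)
      (cv.sub (continuous_const (y := p))).norm.continuousOn
    refine ⟨r, hr.1, (mass_mono (cE' a) θ hr.2).trans hr2.le, ?_⟩
    have h1 : (∫ σ in (0 : ℝ)..S, w a σ • R (σ - s) (P a σ)) - p =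
        ∫ σ in (0 : ℝ)..S, w a σ • (R (σ - s) (P a σ) - p) := by
      simp only [smul_sub]
      have := FiniteDimensional.complete ℝ V
      rw [intervalIntegral.integral_sub ((cwa.fun_smul cv).intervalIntegrable _ _)
        ((cwa.fun_smul continuous_const).intervalIntegrable _ _),
        intervalIntegral.integral_smul_const, w4, one_smul]
    rw [h1]
    refine (intervalIntegral.norm_integral_le_of_norm_le
      (g := fun σ => w a σ * ‖R (r - s) (P a r) - p‖) hS0 (Eventually.of_forall fun σ hσ => ?_)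
      ((cwa.mul continuous_const).intervalIntegrable _ _)).trans_eq ?_
    · rw [norm_smul, Real.norm_of_nonneg (w3 σ)]
      rcases lt_or_ge σ s with h | h
      · simp only [w1 σ ⟨hσ.1.le, h⟩, zero_mul, le_refl]
      · rcases le_total r' σ with h' | h'
        · simp only [w2 σ h', zero_mul, le_refl]
        · exact mul_le_mul_of_nonneg_left (hm ⟨h, h'⟩) (w3 σ)
    · rw [intervalIntegral.integral_mul_const, w4, one_mul]

theorem one {R : ℝ → V → V} {θ : ℝ} {E : V → ℝ → ℝ} {P : V → ℝ → V}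
    (lin : ∀ τ, IsLinearMap ℝ (R τ))
    (cR : ContinuousOn (fun p : ℝ × V => R p.1 p.2) (Ici 0 ×ˢ univ)) (R0 : ∀ a, R 0 a = a)
    (semi : ∀ τ₁ τ₂, 0 ≤ τ₁ → 0 ≤ τ₂ → ∀ a, R τ₁ (R τ₂ a) = R (τ₁ + τ₂) a)
    (inj : ∀ τ, 0 ≤ τ → ∀ a, R τ a = 0 → a = 0)
    (cE : ContinuousOn (fun p : V × ℝ => E p.1 p.2) (Metric.closedBall 0 1 ×ˢ Ici 0))
    (cP : ContinuousOn (fun p : V × ℝ => P p.1 p.2) (Metric.closedBall 0 1 ×ˢ Ici 0))
    (P0 : ∀ a, ‖a‖ ≤ 1 → P a 0 = a) (E0 : ∀ a, ‖a‖ = 1 → θ ≤ E a 0)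
    (big : ∀ a, ‖a‖ ≤ 1 → ∃ S, 0 ≤ S ∧ 1 < mass (E a) θ S) :
    ∃ a s w, ‖a‖ ≤ 1 ∧ 0 ≤ s ∧ θ ≤ E a s ∧ (w = 0 ∨ 1 ≤ ‖w - P a s‖) ∧
      ∀ p, ∃ r, s ≤ r ∧ mass (E a) θ r ≤ 1 ∧ ‖w - p‖ ≤ ‖R (r - s) (P a r) - p‖ := by
  have h0 : ∀ a : V, 0 < max 1 ‖a‖ := fun a => zero_lt_one.trans_le (le_max_left _ _)
  have c1 : Continuous fun p : V × ℝ => ((max 1 ‖p.1‖)⁻¹ • p.1, max p.2 0) :=
    (((continuous_const.max continuous_fst.norm).inv₀ fun p => (h0 _).ne').smul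
      continuous_fst).prodMk (continuous_snd.max continuous_const)
  have m1 : ∀ p : V × ℝ, ((max 1 ‖p.1‖)⁻¹ • p.1, max p.2 0) ∈
      Metric.closedBall (0 : V) 1 ×ˢ Ici (0 : ℝ) := fun p => ⟨mem_closedBall_zero_iff.2 (by
        rw [norm_smul, norm_inv, Real.norm_of_nonneg (h0 _).le, inv_mul_le_one₀ (h0 _)]
        exact le_max_right _ _), le_max_right p.2 0⟩
  have e1 : ∀ a : V, ‖a‖ ≤ 1 → (max 1 ‖a‖)⁻¹ • a = a := fun a ha => by
    rw [max_eq_left ha, inv_one, one_smul]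
  have e2 : ∀ a : V, ‖a‖ ≤ 1 → ∀ r, 0 ≤ r →
      mass (fun σ => E ((max 1 ‖a‖)⁻¹ • a) (max σ 0)) θ r = mass (E a) θ r := fun a ha r hr =>
    intervalIntegral.integral_congr fun σ hσ => by
      simp only [e1 a ha, max_eq_left (uIcc_of_le hr ▸ hσ).1]
  obtain ⟨a, s, w, h1, h2, h3, h4, h5⟩ := core (R := fun τ => R (max τ 0)) (θ := θ)
    (E := fun a σ => E ((max 1 ‖a‖)⁻¹ • a) (max σ 0))
    (P := fun a σ => P ((max 1 ‖a‖)⁻¹ • a) (max σ 0)) (fun _ => lin _)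
    (cR.comp_continuous ((continuous_fst.max continuous_const).prodMk continuous_snd)
      fun p => ⟨le_max_right p.1 0, trivial⟩) (by simpa using R0)
    (fun τ₁ τ₂ h₁ h₂ a => by
      simp only [max_eq_left h₁, max_eq_left h₂, max_eq_left (add_nonneg h₁ h₂), semi _ _ h₁ h₂])
    (fun τ _ => inj _ (le_max_right _ _)) (cE.comp_continuous c1 m1) (cP.comp_continuous c1 m1)
    (fun a ha => by simp only [e1 a ha, max_self, P0 a ha])
    (fun a ha => by simpa only [e1 a ha.le, max_self] using E0 a ha)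
    fun a ha => (big a ha).imp fun S h => ⟨h.1, h.2.trans_eq (e2 a ha S h.1).symm⟩
  simp only [e1 a h1, max_eq_left h2] at h3 h4
  refine ⟨a, s, w, h1, h2, h3, h4, fun p => (h5 p).imp fun r h =>
    ⟨h.1, (e2 a h1 r (h2.trans h.1)).symm.trans_le h.2.1, ?_⟩⟩
  simpa only [e1 a h1, max_eq_left (h2.trans h.1), max_eq_left (sub_nonneg.2 h.1)] using h.2.2

end TopAux

theorem top : TopStmt := by
  intro d R θ U E P lin cR R0 semi inj cE cP P0 E0 big key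
  choose a s w h1 h2 h3 h4 r h5 h6 h7 using fun m =>
    TopAux.one lin cR R0 semi inj (cE m) (cP m) (P0 m) (E0 m) (big m)
  obtain ⟨p, hp, t1, -⟩ := key a s (fun m => r m 0) fun m => ⟨h1 m, h2 m, h5 m 0, h3 m, h6 m 0⟩
  obtain ⟨p', -, t2, t3⟩ := key a s (fun m => r m p) fun m => ⟨h1 m, h2 m, h5 m p, h3 m, h6 m p⟩
  rw [tendsto_nhds_unique t2 t1, tendsto_iff_norm_sub_tendsto_zero] at t3
  have t4 : Tendsto w U (𝓝 p) := tendsto_iff_norm_sub_tendsto_zero.2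
    (squeeze_zero (fun _ => norm_nonneg _) (fun m => h7 m p) t3)
  have t5 := (t4.sub t1).norm
  rw [sub_self, norm_zero] at t5
  obtain ⟨m, e1, e2⟩ := ((t4.eventually_ne hp).and (t5.eventually (gt_mem_nhds zero_lt_one))).exists
  exact (h4 m).elim e1 e2.not_ge

end Vale.Agent.P264
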