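import Vale.Agent.P264.StmB

/-! Symbol bounds from the norms, and the bootstrap inside the tube. -/

namespace Vale.Agent.P264

open scoped ContDiff Topology
open Set MeasureTheory Filter

theorem symb (hA : BaseA) (hPt : PtStmt) : SymbStmt := by
  intro n h q hn
  obtain ⟨C, hC, H⟩ := hPt n (2 * h + n + 3) (-2 * q) hn
  refine ⟨√C, Real.sqrt_nonneg _, fun l ε f hp hf => ⟨hf.1, fun i hi x hx => ?_⟩⟩
  have h1 := H l ε f hp hf i (by omega) x hx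
  have hv := hA.vp_pos x hp.1
  rw [hA.Th_one hn (by push_cast; omega), mul_one, ← le_div_iff₀ (zpow_pos hv _)] at h1
  refine abs_le_of_sq_le_sq' (h1.trans_eq ?_) (by positivity) |> abs_le.2
  rw [mul_pow, mul_pow, Real.sq_sqrt hC, Real.sq_sqrt (hA.QQ_nonneg ..), div_eq_mul_inv,
    ← zpow_neg, ← zpow_natCast, ← zpow_mul]
  congr 2
  push_cast
  ring

namespace Tube

theorem boot {f : ℝ → ℝ} {c κ m b : ℝ} (hκ : 0 < κ) (hc : 0 ≤ c) (hf : ContinuousOn f (Icc 0 b))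
    (h0 : f 0 + c / κ < m)
    (hd : ∀ σ ∈ Ioo 0 b, ∃ f', HasDerivAt f f' σ ∧ (f σ ≤ m → f' ≤ c * Real.exp (-(κ * σ)))) :
    ∀ σ ∈ Icc 0 b, f σ ≤ m := by
  have hck : 0 ≤ c / κ := div_nonneg hc hκ.le
  refine IsClosed.Icc_subset_of_forall_mem_nhdsGT_of_Icc_subset (s := {σ | f σ ≤ m})
    (inter_comm _ _ ▸ hf.preimage_isClosed_of_isClosed isClosed_Icc isClosed_Iic)
    (by linarith : f 0 ≤ m) fun t ht hs => ?_
  have hg : ∀ σ ∈ interior (Icc 0 t), ∃ g', g' ≤ 0 ∧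
      HasDerivAt (fun s => f s + c / κ * Real.exp (-(κ * s))) g' σ := fun σ hσ => by
    rw [interior_Icc] at hσ
    obtain ⟨f', h1, h2⟩ := hd σ ⟨hσ.1, hσ.2.trans ht.2⟩
    refine ⟨_, ?_, h1.add (((hasDerivAt_id σ).const_mul κ).neg.exp.const_mul (c / κ))⟩
    have h3 := h2 (hs (Ioo_subset_Icc_self hσ))
    simp only [id, mul_one, Pi.neg_apply]
    field_simp
    linarith
  have h1 := antitoneOn_of_deriv_nonpos (convex_Icc 0 t)
    ((hf.mono (Icc_subset_Icc_right ht.2.le)).add (by fun_prop))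
    (fun σ hσ => (hg σ hσ).choose_spec.2.differentiableAt.differentiableWithinAt)
    (fun σ hσ => (hg σ hσ).choose_spec.2.deriv.trans_le (hg σ hσ).choose_spec.1)
    (left_mem_Icc.2 ht.1) (right_mem_Icc.2 ht.1) ht.1
  simp only [Pi.add_apply, mul_zero, neg_zero, Real.exp_zero, mul_one] at h1
  have h2 : f t < m := by linarith [mul_nonneg hck (Real.exp_pos (-(κ * t))).le]
  exact (((hf t (Ico_subset_Icc_self ht)).mono_of_mem_nhdsWithin (Icc_mem_nhdsGT_of_mem ht)).eventually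
    (gt_mem_nhds h2)).mono fun σ hσ => hσ.le

theorem lam_sq (σ : ℝ) : lam σ ^ 2 = Real.exp (-σ) := by
  rw [lam, ← Real.exp_nat_mul]
  congr 1
  ring

theorem step {ε δ σ C T A E E' : ℝ} (hε : 0 < ε) (hδ : 0 < δ) (hσ : 0 < σ) (hC : 0 ≤ C)
    (hT : T ≤ A) (h1 : (ε * Real.exp (δ * σ)) ^ 2 * E ≤ 1)
    (h : E' ≤ -2 * δ * E + lam σ ^ 2 * C *
      (T + ε⁻¹ * Real.exp (-(δ * σ)) * √(ε ^ (6 - 2 : ℤ)) * √E)) :
    2 * δ * ((ε * Real.exp (δ * σ)) ^ 2 * E) + (ε * Real.exp (δ * σ)) ^ 2 * E' ≤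
      ε ^ 2 * (C * (A + 1)) * Real.exp (-((1 - 2 * δ) * σ)) := by
  have e1 : √(ε ^ (6 - 2 : ℤ)) = ε ^ 2 := by
    rw [show ε ^ (6 - 2 : ℤ) = (ε ^ 2) ^ 2 by norm_num [← pow_mul], Real.sqrt_sq (by positivity)]
  have e2 : ε * Real.exp (δ * σ) * √E ≤ 1 := by
    rw [← Real.sqrt_sq (by positivity : 0 ≤ ε * Real.exp (δ * σ)), ← Real.sqrt_mul (sq_nonneg _)]
    exact Real.sqrt_le_one.2 h1
  have e3 : ε⁻¹ * Real.exp (-(δ * σ)) * ε ^ 2 * √E ≤ 1 := by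
    refine le_trans ?_ e2
    rw [show ε⁻¹ * Real.exp (-(δ * σ)) * ε ^ 2 = ε * Real.exp (-(δ * σ)) by field_simp]
    gcongr
    linarith [mul_pos hδ hσ]
  have e4 : Real.exp (-((1 - 2 * δ) * σ)) = Real.exp (δ * σ) ^ 2 * Real.exp (-σ) := by
    rw [← Real.exp_nat_mul, ← Real.exp_add]
    congr 1
    push_cast
    ring
  rw [e1, lam_sq] at h
  have h2 : E' ≤ -2 * δ * E + Real.exp (-σ) * C * (A + 1) := h.trans (by gcongr)
  have h3 := mul_le_mul_of_nonneg_left h2 (sq_nonneg (ε * Real.exp (δ * σ)))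
  rw [e4]
  linarith

end Tube

set_option linter.unusedVariables false in
theorem tube (hA : BaseA) (hB : BaseB) (hD : DelStmt) (hE : EnStmt) (hDec : DecCStmt)
    (hS : SymbStmt) (hP : PSolStmt) : TubeStmt := by
  intro n k Γ δ K B θ hn hk hc hδ hδ' hθ
  obtain ⟨e0, C0, -, hC0, H0⟩ := hE n (n + 11) 0 Γ hn (by omega) (by omega) hc
  obtain ⟨e1, C1, -, hC1, H1⟩ := hE n k 0 Γ hn (by omega) (by omega) hc
  obtain ⟨e2, C2, he2, hC2, H2⟩ := hE n k 2 Γ hn (by omega) (by omega) hc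
  obtain ⟨e3, R, C3, he3, -, hC3, H3⟩ := hDec n k Γ δ hn (by omega) hc hδ
  obtain ⟨Cs, hCs, Hs⟩ := hS n 0 0 hn
  have hκ : 0 < 1 - 2 * δ := by linarith
  obtain ⟨m, hm, hm1, hm2⟩ : ∃ m, 0 < m ∧ m ≤ 1 ∧ C2 * m ≤ min θ (min e2 e3) :=
    ⟨min 1 (min θ (min e2 e3) / C2), by positivity, min_le_left _ _,
      (le_div_iff₀' (by positivity)).1 (min_le_right _ _)⟩
  obtain ⟨A, hA0, hAe⟩ : ∃ A, 0 ≤ A ∧ A = C2 * (C0 * |K| + 1) := ⟨_, by positivity, rfl⟩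
  obtain ⟨D, hD0, hDe⟩ : ∃ D, 0 < D ∧ D = C2 * |B| + A / (1 - 2 * δ) + 1 := ⟨_, by positivity, rfl⟩
  refine ⟨min 1 (m / D), C1 * (C1 * B + C3 * ((Cs * √(C0 * K)) ^ 2 + 1)), by positivity,
    min_le_left _ _, fun ε b X hε hε1 hX hB0 hB2 hK => ?_⟩
  have hε2 : ε ≤ 1 := hε1.trans (min_le_left _ _)
  have hε3 : ε * D ≤ m := (le_div_iff₀ hD0).1 (hε1.trans (min_le_right _ _))
  have hp : Par (lam 0) ε := by
    rw [hc.lam_zero]
    exact ⟨one_pos, hε.le, by linarith⟩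
  obtain ⟨-, G0, -⟩ := H0 δ ε ε 0 b X hε.le hp (.inl hε) hX
  obtain ⟨-, G1, -⟩ := H1 δ ε ε 0 b X hε.le hp (.inl hε) hX
  obtain ⟨Gc, G2, Gd⟩ := H2 δ ε ε 0 b X hε.le hp (.inl hε) hX
  have hQ : ∀ σ ∈ Icc 0 b, QQ n (lam σ) ε (n + 11) 0 (X σ) ≤ C0 * K := fun σ hσ =>
    (G0 σ hσ).2.2.1.trans (mul_le_mul_of_nonneg_left (hK σ hσ) (by positivity))
  have hN : ∀ σ ∈ Icc 0 b, (ε * Real.exp (δ * σ)) ^ 2 * En n Γ ε k 2 X σ ≤ m →
      N1 n δ ε ε k X σ ≤ min θ (min e2 e3) := fun σ hσ h => by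
    have h1 := mul_le_mul_of_nonneg_left (G2 σ hσ).2.2.1 (sq_nonneg (ε * Real.exp (δ * σ)))
    have h2 := mul_le_mul_of_nonneg_left h (by positivity : 0 ≤ C2)
    unfold N1
    linarith
  intro σ hσ
  have h0 : (0 : ℝ) ∈ Icc 0 b := left_mem_Icc.2 (hσ.1.trans hσ.2)
  have key := Tube.boot (f := fun s => (ε * Real.exp (δ * s)) ^ 2 * En n Γ ε k 2 X s)
    (c := ε ^ 2 * A) (m := m) hκ (by positivity) (ContinuousOn.mul (by fun_prop) Gc) ?_ ?_
  · have hN' := fun s hs => hN s hs (key s hs)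
    refine ⟨(hN' σ hσ).trans (min_le_left _ _), (G1 σ hσ).2.2.1.trans ?_⟩
    have h1 := (H3 ε b X hε hε2 hX (fun s hs => (hN' s hs).trans
      ((min_le_right _ _).trans (min_le_right _ _))) 0 σ le_rfl hσ.1 hσ.2).2 (Cs * √(C0 * K))
      fun s hs x hx _ => by
        have hs' : s ∈ Icc 0 b := ⟨hs.1, hs.2.trans hσ.2⟩
        have h2 := (Hs (lam s) ε (X s) (G0 s hs').1 (G0 s hs').2.1).2 0 le_rfl x hx
        simp only [iteratedDeriv_zero, mul_zero, Nat.cast_zero, sub_zero, zpow_zero, mul_one] at h2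
        exact h2.trans (mul_le_mul_of_nonneg_left (Real.sqrt_le_sqrt
          ((hA.QQ_mono n _ _ _ _ (by omega)).trans (hQ s hs'))) hCs)
    have h2 := (G1 0 h0).2.2.2
    rw [hc.lam_zero] at h2
    have h3 : En n Γ ε k 0 X 0 ≤ C1 * B := h2.trans (by gcongr)
    have h4 : 0 ≤ C1 * B := mul_nonneg (by positivity) ((hA.QQ_nonneg ..).trans hB0)
    have h5 : Real.exp (-(δ * (σ - 0))) ≤ 1 :=
      Real.exp_le_one_iff.2 (neg_nonpos.2 (mul_nonneg hδ.le (by linarith [hσ.1])))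
    have h6 : ε ^ 4 ≤ 1 := pow_le_one₀ hε.le hε2
    refine mul_le_mul_of_nonneg_left (h1.trans (add_le_add ?_ (by gcongr))) (by positivity)
    exact (mul_le_mul_of_nonneg_left h3 (Real.exp_pos _).le).trans (mul_le_of_le_one_left h4 h5)
  · have h2 := (G2 0 h0).2.2.2
    rw [hc.lam_zero] at h2
    have h3 : ε * En n Γ ε k 2 X 0 ≤ C2 * |B| := by
      have h4 := mul_le_mul_of_nonneg_left h2 hε.le
      have h5 := mul_le_mul_of_nonneg_left (hB2.trans (le_abs_self B)) (by positivity : 0 ≤ C2)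
      linarith
    have h4 := mul_le_mul_of_nonneg_left h3 hε.le
    have h5 : ε ^ 2 * (A / (1 - 2 * δ)) ≤ ε * (A / (1 - 2 * δ)) :=
      mul_le_mul_of_nonneg_right (by nlinarith) (by positivity)
    simp only [mul_zero, Real.exp_zero, mul_one, mul_div_assoc]
    rw [hDe] at hε3
    linarith
  · intro s hs
    obtain ⟨E', h1, h2⟩ := Gd s hs
    have hs' := Ioo_subset_Icc_self hs
    refine ⟨_, ((((hasDerivAt_id s).const_mul δ).exp.const_mul ε).pow 2).mul h1, fun h => ?_⟩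
    have h3 := Tube.step hε hδ hs.1 (by positivity) (A := C0 * |K|)
      (((hA.TT_le_QQ n (lam s) ε 0 (X s) (Nat.zero_le _)).trans (hQ s hs')).trans
        (mul_le_mul_of_nonneg_left (le_abs_self K) (by positivity))) (h.trans hm1)
      (h2 ((hN s hs' h).trans ((min_le_right _ _).trans (min_le_left _ _))))
    rw [hAe]
    refine le_trans (le_of_eq ?_) h3
    simp only [id, Pi.pow_apply]
    push_cast
    ring

end Vale.Agent.P264
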