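import Vale.Agent.P264.AllU
import Vale.Agent.P264.AllG
import Vale.Agent.P264.Coef
import Vale.Agent.P264.PSol
import Vale.Agent.P264.En
import Vale.Agent.P264.Dec
import Vale.Agent.P264.Tube
import Vale.Agent.P264.Exit
import Vale.Agent.P264.Anc
import Vale.Agent.P264.FD
import Vale.Agent.P264.Grid
import Vale.Agent.P264.FinDim
import Vale.Agent.P264.Spec
import Vale.Agent.P264.JetLim
import Vale.Agent.P264.Lim
import Vale.Agent.P264.ToX
import Vale.Agent.P264.Stab
import Vale.Agent.P264.Data
import Vale.Agent.P264.Fam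
import Vale.Agent.P264.Nonz
import Vale.Agent.P264.Key
import Vale.Agent.P264.Top
import Vale.Agent.P264.MainB

/-!
Final assembly.
-/

namespace Vale.Agent.P264

theorem mainAll : MainStmt :=
  have hA := baseA
  have hP := psol hA sB sD cjS sDil
  have hE := en hA sB sD sBound sDer sNL hP
  have hDC := decC hA sB sD hE sLoc
  have hDF := decF hA sB sD hE sLoc
  have hS := symb hA sPt
  have hT := tube hA sB sD hE hDC hS hP
  have hX := exitS hA sB sD hE hDC hT hP
  have hDa := data hA sB sD sDil sMul extS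
  have hCt := ctl hA sB sD hE hX hT hS hDa
  have hAn := anc hA sB sD sDil hP hE hDF
  have hFin := finDim hA sB sD hAn fd (grid hA sB sD sDil sPt hP hE hDF hAn)
  have hTo := toXS hA sB sD cjS sDil
  have hCo := contX hA sB sD sDil (stab hA sB sD cjS sBound sDer sNL) hE hS hTo
  mainB hA (coef hA sB sD cjS sDil) (spec hA sB sD hAn hFin)
    (fam hA sB sD hE hTo (blow hA) hCo hDa)
    (key hA sB sD sDil hP hAn (limS hA sB sD cjS hP (jetLim hA)) hCt
      (nonz hA sB sD hE hDC hCt hDa) hE)
    top hE hX hS hDa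

theorem goal : Goal := by
  obtain ⟨n, hn, Γ, hΓ⟩ := shrinkAll
  exact finalAll ⟨n, hn, mainAll n Γ (by omega) hΓ⟩

end Vale.Agent.P264
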