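import Vale.Agent.P264.StmS

/-!
Symbol calculus.
-/

namespace Vale.Agent.P264

open scoped ContDiff Topology
open Set MeasureTheory Filter

namespace BaseBx

variable {lam ε M M' : ℝ} {h h' : ℕ} {q q' r r' : ℤ} {a b f g : ℝ → ℝ}

theorem vp_nonneg (lam x : ℝ) : 0 ≤ vp lam x := Real.sqrt_nonneg _

theorem zp_nonneg (lam x : ℝ) (m : ℤ) : 0 ≤ vp lam x ^ m := zpow_nonneg (vp_nonneg _ _) _

theorem mono (hh : h' ≤ h) (hM : M ≤ M') (ha : Sy lam ε h q M a) : Sy lam ε h' q M' a :=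
  ⟨ha.1, fun i hi x hx => (ha.2 i (hi.trans hh) x hx).trans
    (mul_le_mul_of_nonneg_right hM (zp_nonneg _ _ _))⟩

theorem congr (hA : BaseA) (he : EqOn a b (dom ε)) (ha : Sy lam ε h q M a) : Sy lam ε h q M b :=
  ⟨ha.1.congr he.symm, fun i hi x hx => hA.iter_congr i he hx ▸ ha.2 i hi x hx⟩

theorem order (he : q = q') (ha : Sy lam ε h q M a) : Sy lam ε h q' M a := he ▸ ha

theorem der (hA : BaseA) (ha : Sy lam ε (h + 1) q M a) : Sy lam ε h (q - 1) M (deriv a) := by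
  refine ⟨ha.1.deriv_of_isOpen (hA.dom_open ε) le_rfl, fun i hi x hx => ?_⟩
  have := ha.2 (i + 1) (by omega) x hx
  rw [iteratedDeriv_succ', show q - ((i + 1 : ℕ) : ℤ) = q - 1 - i by push_cast; ring] at this
  exact this

theorem succ (ha : ContDiffOn ℝ ∞ a (dom ε)) (h0 : ∀ x ∈ dom ε, |a x| ≤ M * vp lam x ^ q)
    (h1 : Sy lam ε h (q - 1) M (deriv a)) : Sy lam ε (h + 1) q M a := by
  refine ⟨ha, fun i hi x hx => ?_⟩
  cases i with
  | zero => simpa using h0 x hx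
  | succ i =>
    rw [iteratedDeriv_succ', show q - ((i + 1 : ℕ) : ℤ) = q - 1 - i by push_cast; ring]
    exact h1.2 i (by omega) x hx

theorem cst (hM : 0 ≤ M) {c : ℝ} (h0 : ∀ x ∈ dom ε, |c| ≤ M * vp lam x ^ q) :
    Sy lam ε h q M fun _ => c := by
  refine ⟨contDiffOn_const, fun i _ x hx => ?_⟩
  cases i with
  | zero => simpa using h0 x hx
  | succ i =>
    rw [iteratedDeriv_const, if_neg (Nat.succ_ne_zero i), abs_zero]
    exact mul_nonneg hM (zp_nonneg _ _ _)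

theorem const (ε : ℝ) (h : ℕ) (c : ℝ) : Sy lam ε h 0 |c| fun _ => c :=
  cst (abs_nonneg c) fun x _ => by simp

/-- a function with prescribed derivative -/
theorem of_deriv (hA : BaseA) (ha : ContDiffOn ℝ ∞ a (dom ε))
    (hd : ∀ x ∈ dom ε, HasDerivAt a (b x) x) (h0 : ∀ x ∈ dom ε, |a x| ≤ M * vp lam x ^ q)
    (h1 : Sy lam ε h (q - 1) M b) : Sy lam ε (h + 1) q M a :=
  succ ha h0 (congr hA (fun x hx => (hd x hx).deriv.symm) h1)

theorem affine (hA : BaseA) (hM : 0 ≤ M) {c : ℝ} (ha : ContDiffOn ℝ ∞ a (dom ε))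
    (hd : ∀ x ∈ dom ε, HasDerivAt a c x) (h0 : ∀ x ∈ dom ε, |a x| ≤ M * vp lam x ^ q)
    (h1 : ∀ x ∈ dom ε, |c| ≤ M * vp lam x ^ (q - 1)) : Sy lam ε h q M a :=
  mono (Nat.le_succ h) le_rfl (of_deriv hA (b := fun _ => c) ha hd h0 (cst hM h1))

theorem add (hA : BaseA) (ha : Sy lam ε h q M a) (hb : Sy lam ε h q M' b) :
    Sy lam ε h q (M + M') fun x => a x + b x := by
  refine ⟨ha.1.add hb.1, fun i hi x hx => ?_⟩
  have := hA.iter_lin 1 1 i ha.1 hb.1 hx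
  simp only [one_mul] at this
  rw [this, add_mul]
  exact (abs_add_le _ _).trans (add_le_add (ha.2 i hi x hx) (hb.2 i hi x hx))

theorem smul (c : ℝ) (ha : Sy lam ε h q M a) : Sy lam ε h q (|c| * M) fun x => c * a x := by
  refine ⟨contDiffOn_const.mul ha.1, fun i hi x hx => ?_⟩
  rw [iteratedDeriv_const_mul_field, abs_mul, mul_assoc]
  exact mul_le_mul_of_nonneg_left (ha.2 i hi x hx) (abs_nonneg c)

theorem mul (hA : BaseA) (hl : 0 < lam) (hM : 0 ≤ M) (hM' : 0 ≤ M') (ha : Sy lam ε h q M a)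
    (hb : Sy lam ε h q' M' b) : Sy lam ε h (q + q') (2 ^ h * M * M') fun x => a x * b x := by
  refine ⟨ha.1.mul hb.1, fun j hj x hx => ?_⟩
  have h0 := hA.vp_pos x hl
  rw [hA.iter_mul j ha.1 hb.1 hx]
  refine (Finset.abs_sum_le_sum_abs _ _).trans ((Finset.sum_le_sum (g := fun i =>
    (j.choose i : ℝ) * (M * M' * vp lam x ^ (q + q' - j))) fun i hi => ?_).trans ?_)
  · have hi' : i ≤ j := Nat.lt_succ_iff.1 (Finset.mem_range.1 hi)
    rw [abs_mul, abs_mul, Nat.abs_cast, mul_assoc]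
    refine mul_le_mul_of_nonneg_left ((mul_le_mul (ha.2 i (hi'.trans hj) x hx)
      (hb.2 (j - i) (by omega) x hx) (abs_nonneg _) (by positivity)).trans (le_of_eq ?_))
      (Nat.cast_nonneg _)
    rw [show q + q' - j = q - i + (q' - (j - i : ℕ)) by push_cast [hi']; ring, zpow_add₀ h0.ne']
    ring
  · rw [← Finset.sum_mul, ← Nat.cast_sum, Nat.sum_range_choose, mul_assoc (2 ^ h : ℝ),
      mul_assoc (2 ^ h : ℝ)]
    refine mul_le_mul_of_nonneg_right ?_ (by positivity)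
    push_cast
    exact pow_le_pow_right₀ one_le_two hj

theorem eps_mul (hA : BaseA) (hp : Par lam ε) (hM : 0 ≤ M) (ha : Sy lam ε h q M a) :
    Sy lam ε h (q - 1) (2 * M) fun x => ε * a x := by
  refine ⟨contDiffOn_const.mul ha.1, fun i hi x hx => ?_⟩
  have h0 := hA.vp_pos x hp.1
  rw [iteratedDeriv_const_mul_field, abs_mul, abs_of_nonneg hp.2.1]
  refine (mul_le_mul_of_nonneg_left (ha.2 i hi x hx) hp.2.1).trans ?_
  rw [show q - i = q - 1 - i + 1 by ring, zpow_add_one₀ h0.ne']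
  have := mul_le_mul_of_nonneg_right (hA.eps_vp hp hx)
    (mul_nonneg hM (zp_nonneg lam x (q - 1 - i)))
  linarith

theorem lam_mul (hA : BaseA) (hl : 0 < lam) (hM : 0 ≤ M) (ha : Sy lam ε h q M a) :
    Sy lam ε h (q + 1) M fun x => lam * a x := by
  refine ⟨contDiffOn_const.mul ha.1, fun i hi x hx => ?_⟩
  have h0 := hA.vp_pos x hl
  rw [iteratedDeriv_const_mul_field, abs_mul, abs_of_nonneg hl.le]
  refine (mul_le_mul_of_nonneg_left (ha.2 i hi x hx) hl.le).trans ?_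
  rw [show q + 1 - i = q - i + 1 by ring, zpow_add_one₀ h0.ne']
  have := mul_le_mul_of_nonneg_right (hA.lam_le lam x) (mul_nonneg hM (zp_nonneg lam x (q - i)))
  linarith

theorem inv (hA : BaseA) (h : ℕ) (M c : ℝ) (hc : 0 < c) : ∃ M', 0 ≤ M' ∧
    ∀ {lam ε : ℝ} {a : ℝ → ℝ}, 0 < lam → Sy lam ε h 0 M a → (∀ x ∈ dom ε, c ≤ a x) →
      Sy lam ε h 0 M' fun x => (a x)⁻¹ := by
  have h0 : ∀ {y : ℝ}, c ≤ y → |y⁻¹| ≤ c⁻¹ := fun {y} hy => by
    rw [abs_of_pos (inv_pos.2 (hc.trans_le hy))]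
    exact inv_anti₀ hc hy
  induction h with
  | zero =>
    refine ⟨c⁻¹, (inv_pos.2 hc).le, fun {lam ε a} _ ha hac =>
      ⟨ha.1.inv fun x hx => (hc.trans_le (hac x hx)).ne', fun i hi x hx => ?_⟩⟩
    obtain rfl : i = 0 := by omega
    simpa using h0 (hac x hx)
  | succ h ih =>
    obtain ⟨M', hM', ih⟩ := ih
    refine ⟨c⁻¹ + |(-1 : ℝ)| * (2 ^ h * (2 ^ h * |M| * M') * M'), by positivity,
      fun {lam ε a} hl ha hac => ?_⟩
    have h1 := ih hl (mono (Nat.le_succ h) le_rfl ha) hac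
    have h2 := mono le_rfl (le_abs_self M) (der hA ha)
    have h3 := smul (-1) (mul hA hl (by positivity) hM' (mul hA hl (abs_nonneg M) hM' h2 h1) h1)
    refine of_deriv hA h1.1 (fun x hx => ?_) (fun x hx => ?_)
      (mono le_rfl (le_add_of_nonneg_left (inv_pos.2 hc).le) (order (by ring) h3))
    · have h4 : HasDerivAt a (deriv a x) x := ((ha.1.contDiffAt
        ((hA.dom_open ε).mem_nhds hx)).differentiableAt (by simp)).hasDerivAt
      have h5 := (hc.trans_le (hac x hx)).ne'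
      refine (h4.fun_inv h5).congr_deriv ?_
      field_simp
    · rw [zpow_zero, mul_one]
      exact (h0 (hac x hx)).trans (le_add_of_nonneg_right (by positivity))

theorem id_sy (hA : BaseA) : Sy lam ε h 1 1 fun x => x :=
  affine hA zero_le_one (c := 1) contDiffOn_id (fun x _ => hasDerivAt_id x)
    (fun x hx => by rw [abs_of_pos hx.1, zpow_one, one_mul]; exact hA.x_le lam x)
    fun x _ => by simp

theorem vp_smooth (hA : BaseA) (hl : 0 < lam) (q : ℤ) : ContDiff ℝ ∞ fun x => vp lam x ^ q := by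
  have h1 : ContDiff ℝ ∞ (vp lam) :=
    (contDiff_const.add (contDiff_id.pow 2)).sqrt fun x => by positivity
  cases q with
  | ofNat m => simpa using h1.pow m
  | negSucc m =>
    simp only [zpow_negSucc]
    exact (h1.pow (m + 1)).inv fun x => pow_ne_zero _ (hA.vp_pos x hl).ne'

theorem vp_sy (hA : BaseA) (h : ℕ) (q : ℤ) : ∃ M, 0 ≤ M ∧ ∀ {lam : ℝ} (ε : ℝ), 0 < lam →
    Sy lam ε h q M fun x => vp lam x ^ q := by
  induction h generalizing q with
  | zero =>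
    refine ⟨1, zero_le_one, fun {lam} ε hl =>
      ⟨(vp_smooth hA hl q).contDiffOn, fun i hi x _ => ?_⟩⟩
    obtain rfl : i = 0 := by omega
    simp [abs_of_nonneg (zp_nonneg lam x q)]
  | succ h ih =>
    obtain ⟨M, hM, ih⟩ := ih (q - 2)
    refine ⟨1 + 2 ^ h * (|(q : ℝ)| * 1) * M, by positivity, fun {lam} ε hl => ?_⟩
    have h3 := mul hA hl (by positivity) hM (smul (q : ℝ) (id_sy hA)) (ih ε hl)
    refine of_deriv hA (vp_smooth hA hl q).contDiffOn (fun x _ => hA.vp_deriv q x hl)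
      (fun x _ => ?_) (mono le_rfl (le_add_of_nonneg_left zero_le_one) (order (by ring) h3))
    rw [abs_of_nonneg (zp_nonneg lam x q)]
    exact le_mul_of_one_le_left (zp_nonneg _ _ _) (le_add_of_nonneg_right (by positivity))

theorem eps_le (hA : BaseA) (hp : Par lam ε) {x : ℝ} (hx : x ∈ dom ε) :
    ε ≤ 2 * vp lam x ^ (-1 : ℤ) := by
  rw [zpow_neg_one, ← div_eq_mul_inv, le_div_iff₀ (hA.vp_pos x hp.1)]
  exact hA.eps_vp hp hx

theorem om_sy (hA : BaseA) (h : ℕ) (hp : Par lam ε) : Sy lam ε h 1 4 (om ε) := by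
  have h1 : Sy lam ε h (1 - 1) 4 fun x => 1 - 2 * ε * x := by
    refine affine hA (by norm_num) (c := -(2 * ε)) (by fun_prop) (fun x _ => ?_) (fun x hx => ?_)
      fun x hx => ?_
    · simpa using ((hasDerivAt_id x).const_mul (2 * ε)).const_sub 1
    · have := mul_nonneg hp.2.1 hx.1.le
      rw [sub_self, zpow_zero, abs_le]
      constructor <;> linarith [hx.2]
    · rw [abs_neg, abs_of_nonneg (by linarith [hp.2.1]), show (1 - 1 - 1 : ℤ) = -1 by ring]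
      linarith [eps_le hA hp hx]
  refine mono (Nat.le_succ h) le_rfl (of_deriv hA (by unfold om; fun_prop) (fun x _ => ?_)
    (fun x hx => ?_) h1)
  · refine ((hasDerivAt_id x).mul (((hasDerivAt_id x).const_mul ε).const_sub 1)).congr_deriv ?_
    simp only [id]
    ring
  · have h2 := mul_nonneg hp.2.1 hx.1.le
    have h3 := hA.x_le lam x
    have h4 := hx.1
    have h5 : 0 < 1 - ε * x := by linarith [hx.2]
    rw [om, abs_of_pos (mul_pos h4 h5), zpow_one]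
    nlinarith

theorem ell_sy (hA : BaseA) (n j h : ℕ) (hp : Par lam ε) :
    Sy lam ε h 0 (4 * (n + j + 2)) (ell n ε j) := by
  have hn : (0 : ℝ) ≤ n := Nat.cast_nonneg n
  have hj : (0 : ℝ) ≤ j := Nat.cast_nonneg j
  refine affine hA (by positivity) (c := -(ε * (n + 2 * j + 1))) (by unfold ell; fun_prop)
    (fun x _ => ?_) (fun x hx => ?_) fun x hx => ?_
  · refine (((((hasDerivAt_id x).const_mul ε).const_sub 1).const_mul ((n : ℝ) - 1)).add
      ((((hasDerivAt_id x).const_mul (2 * ε)).const_sub 1).const_mul ((j : ℝ) + 1))).congr_deriv ?_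
    ring
  · have h2 := mul_nonneg hp.2.1 hx.1.le
    have h5 : 0 < 1 - ε * x := by linarith [hx.2]
    rw [ell, zpow_zero, mul_one, abs_le]
    constructor <;> nlinarith [mul_nonneg hn h2, mul_nonneg hj h2, mul_nonneg hn h5.le,
      mul_nonneg hj h5.le]
  · have h1 := eps_le hA hp hx
    have h2 := zp_nonneg lam x (-1)
    rw [abs_neg, abs_of_nonneg (mul_nonneg hp.2.1 (by positivity)), zero_sub]
    nlinarith [mul_le_mul_of_nonneg_right h1 (show (0 : ℝ) ≤ n + 2 * j + 1 by positivity),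
      mul_nonneg hn h2]

theorem dl_sy (hA : BaseA) (n j : ℕ) (hp : Par lam ε) (hM : 0 ≤ M) (hf : Sy lam ε (h + 1) q M f) :
    Sy lam ε h q ((2 ^ h * 4 + 2 ^ h * (4 * (n + j + 2))) * M) (dl n ε j f) := by
  rw [add_mul]
  exact add hA (order (by ring) (mul hA hp.1 (by norm_num) hM (om_sy hA h hp) (der hA hf)))
    (order (by ring) (mul hA hp.1 (by positivity) hM (ell_sy hA n j h hp)
      (mono (Nat.le_succ h) le_rfl hf)))

theorem LL_sy (hA : BaseA) (n h : ℕ) : ∃ K, 0 ≤ K ∧ ∀ {lam ε M : ℝ} {q : ℤ} {f : ℝ → ℝ},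
    Par lam ε → 0 ≤ M → Sy lam ε (h + 4) q M f → Sy lam ε h (q - 2) (K * M) (LL n ε f) := by
  refine ⟨(2 ^ (h + 2) * 4 + 2 ^ (h + 2) * (4 * (n + (0 : ℕ) + 2))) *
    (2 ^ (h + 3) * 4 + 2 ^ (h + 3) * (4 * (n + (1 : ℕ) + 2))), by positivity,
    fun {lam ε M q f} hp hM hf => ?_⟩
  rw [mul_assoc]
  exact order (by ring) (der hA (der hA (dl_sy hA n 0 hp (by positivity) (dl_sy hA n 1 hp hM hf))))

theorem cut_sy (hA : BaseA) (ζ : ℝ → ℝ) (hζ : ContDiff ℝ ∞ ζ) (h1 : ∀ u, 1 ≤ u → ζ u = 0) (h : ℕ) :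
    ∃ M, 0 ≤ M ∧ ∀ {lam κ : ℝ} (ε : ℝ), 0 < lam → 0 ≤ κ → κ * lam ≤ 1 →
      Sy lam ε h 0 M (fun x => ζ (κ * x)) ∧ Sy lam ε h (-1) M fun x => κ * ζ (κ * x) := by
  have hB : ∀ i : ℕ, ∃ B, ∀ u ∈ Icc (0 : ℝ) 1, ‖iteratedDeriv i ζ u‖ ≤ B := fun i =>
    isCompact_Icc.exists_bound_of_continuousOn
      (hζ.continuous_iteratedDeriv i (by exact_mod_cast le_top)).continuousOn
  choose B hB using hB
  have hB0 : ∀ i, 0 ≤ B i := fun i => (norm_nonneg _).trans (hB i 0 (by simp))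
  obtain ⟨D, hD⟩ : ∃ D, D = ∑ i ∈ Finset.range (h + 1), B i := ⟨_, rfl⟩
  have hD0 : 0 ≤ D := hD ▸ Finset.sum_nonneg fun i _ => hB0 i
  have key : ∀ {lam κ x : ℝ}, 0 < lam → 0 ≤ κ → κ * lam ≤ 1 → 0 < x → ∀ i ≤ h, ∀ m ≤ h + 1,
      κ ^ m * |iteratedDeriv i ζ (κ * x)| ≤ 2 ^ (h + 1) * D * vp lam x ^ (-(m : ℤ)) := by
    intro lam κ x hl hκ hκl hx i hi m hm
    have h0 := hA.vp_pos x hl
    rcases lt_or_ge 1 (κ * x) with hc | hc
    · have he : ζ =ᶠ[𝓝 (κ * x)] fun _ => 0 := by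
        filter_upwards [lt_mem_nhds hc] with u hu using h1 u hu.le
      rw [he.iteratedDeriv_eq, iteratedDeriv_const]
      simp only [ite_self, abs_zero, mul_zero]
      positivity
    · have h2 : |iteratedDeriv i ζ (κ * x)| ≤ D := (hB i _ ⟨by positivity, hc⟩).trans
        (hD ▸ Finset.single_le_sum (fun i _ => hB0 i) (Finset.mem_range.2 (by omega)))
      have h3 : κ * vp lam x ≤ 2 := by
        have := mul_le_mul_of_nonneg_left (hA.vp_le hl.le hx.le) hκ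
        linarith
      have h4 : κ ^ m * vp lam x ^ m ≤ 2 ^ (h + 1) := by
        rw [← mul_pow]
        exact (pow_le_pow_left₀ (by positivity) h3 m).trans (pow_le_pow_right₀ one_le_two hm)
      rw [zpow_neg, zpow_natCast, ← div_eq_mul_inv, le_div_iff₀ (by positivity), mul_right_comm]
      exact mul_le_mul h4 h2 (abs_nonneg _) (by positivity)
  refine ⟨2 ^ (h + 1) * D, by positivity, fun {lam κ} ε hl hκ hκl => ?_⟩
  have hs : ContDiff ℝ ∞ fun x => ζ (κ * x) := hζ.comp (contDiff_const.mul contDiff_id)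
  have hi : ∀ (i : ℕ) (x : ℝ), iteratedDeriv i (fun x => ζ (κ * x)) x =
      κ ^ i * iteratedDeriv i ζ (κ * x) := fun i x =>
    congrFun (iteratedDeriv_comp_const_mul (hζ.of_le (by exact_mod_cast le_top)) κ) x
  refine ⟨⟨hs.contDiffOn, fun i hi' x hx => ?_⟩,
    ⟨(contDiff_const.mul hs).contDiffOn, fun i hi' x hx => ?_⟩⟩
  · rw [hi, abs_mul, abs_of_nonneg (pow_nonneg hκ i), zero_sub]
    exact key hl hκ hκl hx.1 i hi' i (by omega)
  · rw [iteratedDeriv_const_mul_field, hi, ← mul_assoc, ← pow_succ', abs_mul,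
      abs_of_nonneg (pow_nonneg hκ _), show (-1 - i : ℤ) = -((i + 1 : ℕ) : ℤ) by push_cast; ring]
    exact key hl hκ hκl hx.1 i hi' (i + 1) (by omega)

theorem zp_bound (hA : BaseA) {l₀ : ℝ} (l₁ : ℝ) {ε : ℝ} (hl : 0 < l₀) {m : ℤ}
    (hm : 0 < ε ∨ m ≤ 0) :
    ∃ K, 0 ≤ K ∧ ∀ lam, l₀ ≤ lam → lam ≤ l₁ → ∀ x ∈ dom ε, vp lam x ^ m ≤ K := by
  rcases le_or_gt m 0 with h0 | h0
  · refine ⟨l₀ ^ m, by positivity, fun lam h1 _ x _ => ?_⟩
    rw [← neg_neg m, zpow_neg _ (-m), zpow_neg _ (-m)]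
    exact inv_anti₀ (zpow_pos hl _)
      (zpow_le_zpow_left₀ (by omega) hl.le (h1.trans (hA.lam_le lam x)))
  · have hε : 0 < ε := hm.resolve_right (by omega)
    refine ⟨|l₁ + ε⁻¹| ^ m, by positivity, fun lam h1 h2 x hx => ?_⟩
    refine zpow_le_zpow_left₀ h0.le (vp_nonneg _ _) (le_trans ?_ (le_abs_self _))
    have h3 := hA.vp_le (hl.le.trans h1) hx.1.le
    rw [hA.dom_pos hε] at hx
    linarith [hx.2]

section Unif

variable {J : Set ℝ} {lam : ℝ → ℝ} {l₀ l₁ : ℝ} {a : ℝ → ℝ → ℝ}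

theorem syU_of_bdd (hA : BaseA) (q : ℤ) (hl : 0 < l₀) (hε : 0 < ε)
    (hJ : ∀ s ∈ J, l₀ ≤ lam s ∧ lam s ≤ l₁) (ha : ∀ s ∈ J, ContDiffOn ℝ ∞ (a s) (dom ε))
    (hb : ∀ i : ℕ, ∃ C, ∀ s ∈ J, ∀ x ∈ dom ε, |iteratedDeriv i (a s) x| ≤ C) :
    SyU J lam ε q a := by
  choose C hC using hb
  choose K hK0 hK using fun i : ℕ => zp_bound hA l₁ hl (m := i - q) (Or.inl hε)
  refine fun h => ⟨∑ i ∈ Finset.range (h + 1), |C i| * K i, fun s hs =>
    ⟨ha s hs, fun i hi x hx => ?_⟩⟩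
  have h0 := hA.vp_pos x (hl.trans_le (hJ s hs).1)
  have h1 : |C i| * K i ≤ ∑ i ∈ Finset.range (h + 1), |C i| * K i :=
    Finset.single_le_sum (f := fun i => |C i| * K i)
      (fun i _ => mul_nonneg (abs_nonneg _) (hK0 i)) (Finset.mem_range.2 (by omega))
  refine le_trans ?_ (mul_le_mul_of_nonneg_right h1 (zp_nonneg _ _ _))
  have h2 : 1 ≤ K i * vp (lam s) x ^ (q - i) := by
    refine le_trans (le_of_eq ?_)
      (mul_le_mul_of_nonneg_right (hK i _ (hJ s hs).1 (hJ s hs).2 x hx) (zp_nonneg _ _ _))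
    rw [← zpow_add₀ h0.ne', show i - q + (q - i) = 0 by ring, zpow_zero]
  rw [mul_assoc]
  exact ((hC i s hs x hx).trans (le_abs_self _)).trans (le_mul_of_one_le_right (abs_nonneg _) h2)

theorem syU_change (hA : BaseA) (q' : ℤ) (hl : 0 < l₀) (hJ : ∀ s ∈ J, l₀ ≤ lam s ∧ lam s ≤ l₁)
    (hq : 0 < ε ∨ q ≤ q') (ha : SyU J lam ε q a) : SyU J lam ε q' a := by
  obtain ⟨K, -, hK⟩ := zp_bound hA l₁ hl (m := q - q') (hq.imp_right fun h => by omega)
  intro h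
  obtain ⟨M, hM⟩ := ha h
  refine ⟨|M| * K, fun s hs => ⟨(hM s hs).1, fun i hi x hx => ?_⟩⟩
  have h0 := hA.vp_pos x (hl.trans_le (hJ s hs).1)
  refine ((mono le_rfl (le_abs_self M) (hM s hs)).2 i hi x hx).trans ?_
  rw [show q - i = q - q' + (q' - i) by ring, zpow_add₀ h0.ne', mul_assoc]
  exact mul_le_mul_of_nonneg_left (mul_le_mul_of_nonneg_right
    (hK _ (hJ s hs).1 (hJ s hs).2 x hx) (zp_nonneg _ _ _)) (abs_nonneg M)

theorem admU_of_syU (hA : BaseA) (r : ℤ) (hl : 0 < l₀) (hJ : ∀ s ∈ J, l₀ ≤ lam s ∧ lam s ≤ l₁)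
    (hq : 0 < ε ∨ r + 2 * q ≤ -1) (ha : SyU J lam ε q a) : AdmU J lam ε r a := by
  obtain ⟨K, -, hK⟩ := zp_bound hA l₁ hl (m := r + 2 * q + 1) (hq.imp_right fun h => by omega)
  refine ⟨fun s hs => ((ha 0).choose_spec s hs).1, fun i => ?_⟩
  obtain ⟨M, hM⟩ := ha i
  refine ⟨M ^ 2 * K, fun s hs x hx => ?_⟩
  have h0 := hA.vp_pos x (hl.trans_le (hJ s hs).1)
  have h1 := pow_le_pow_left₀ (abs_nonneg _) ((hM s hs).2 i le_rfl x hx) 2
  rw [sq_abs] at h1
  refine (mul_le_mul_of_nonneg_right h1 (zp_nonneg _ _ _)).trans ?_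
  rw [mul_pow, mul_assoc, sq (vp _ _ ^ _), ← zpow_add₀ h0.ne', ← zpow_add₀ h0.ne',
    show q - i + (q - i) + (2 * i + r + 1) = r + 2 * q + 1 by ring]
  exact mul_le_mul_of_nonneg_left (hK _ (hJ s hs).1 (hJ s hs).2 x hx) (sq_nonneg M)

end Unif

theorem syA_of_bdd (hA : BaseA) (q : ℤ) (hl : 0 < lam) (hε : 0 < ε)
    (ha : ContDiffOn ℝ ∞ a (dom ε))
    (hb : ∀ i : ℕ, ∃ C, ∀ x ∈ dom ε, |iteratedDeriv i a x| ≤ C) : SyA lam ε q a := fun h =>
  (syU_of_bdd hA (J := univ) (lam := fun _ => lam) (a := fun _ => a) q hl hε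
    (fun _ _ => ⟨le_rfl, le_rfl⟩) (fun _ _ => ha)
    (fun i => (hb i).imp fun _ hC _ _ => hC) h).imp fun _ hM => hM 0 trivial

theorem adm_of_syA (hA : BaseA) (r : ℤ) (hl : 0 < lam) (hq : 0 < ε ∨ r + 2 * q ≤ -1)
    (hf : SyA lam ε q f) : Adm lam ε r f := by
  have := admU_of_syU hA (J := univ) (lam := fun _ => lam) (a := fun _ => f) r hl
    (fun _ _ => ⟨le_rfl, le_rfl⟩) hq fun h => (hf h).imp fun _ hM _ _ => hM
  exact ⟨this.1 0 trivial, fun i => (this.2 i).imp fun _ hC => hC 0 trivial⟩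

theorem adm_mono (hA : BaseA) (hl : 0 < lam) (hr : r' ≤ r) (hf : Adm lam ε r f) :
    Adm lam ε r' f := by
  obtain ⟨K, hK0, hK⟩ := zp_bound hA (ε := ε) lam hl (m := r' - r) (Or.inr (by omega))
  refine ⟨hf.1, fun i => ?_⟩
  obtain ⟨C, hC⟩ := hf.2 i
  refine ⟨C * K, fun x hx => ?_⟩
  have h0 := hA.vp_pos x hl
  rw [show 2 * (i : ℤ) + r' + 1 = 2 * i + r + 1 + (r' - r) by ring, zpow_add₀ h0.ne', ← mul_assoc]
  exact mul_le_mul (hC x hx) (hK _ le_rfl le_rfl x hx) (zp_nonneg _ _ _)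
    (le_trans (by positivity) (hC x hx))

theorem adm_congr (hA : BaseA) (he : EqOn f g (dom ε)) (hf : Adm lam ε r f) : Adm lam ε r g :=
  ⟨hf.1.congr he.symm, fun i => (hf.2 i).imp fun _ hC x hx => hA.iter_congr i he hx ▸ hC x hx⟩

theorem adm_lin (hA : BaseA) (a b : ℝ) (hf : Adm lam ε r f) (hg : Adm lam ε r g) :
    Adm lam ε r fun x => a * f x + b * g x := by
  refine ⟨(contDiffOn_const.mul hf.1).add (contDiffOn_const.mul hg.1), fun i => ?_⟩
  obtain ⟨C, hC⟩ := hf.2 i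
  obtain ⟨D, hD⟩ := hg.2 i
  refine ⟨2 * a ^ 2 * C + 2 * b ^ 2 * D, fun x hx => ?_⟩
  rw [hA.iter_lin a b i hf.1 hg.1 hx]
  have h1 := mul_le_mul_of_nonneg_left (hC x hx) (sq_nonneg a)
  have h2 := mul_le_mul_of_nonneg_left (hD x hx) (sq_nonneg b)
  have h3 := mul_nonneg (sq_nonneg (a * iteratedDeriv i f x - b * iteratedDeriv i g x))
    (zp_nonneg lam x (2 * (i : ℤ) + r + 1))
  linarith

theorem sum_bd {ι : Type} (s : Finset ι) {D : Set ℝ} {F : ι → ℝ → ℝ} {w : ℝ → ℝ}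
    (hw : ∀ x, 0 ≤ w x) (hF : ∀ i ∈ s, ∃ C, ∀ x ∈ D, F i x ^ 2 * w x ≤ C) :
    ∃ C, ∀ x ∈ D, (∑ i ∈ s, F i x) ^ 2 * w x ≤ C := by
  classical
  induction s using Finset.induction_on with
  | empty => exact ⟨0, fun x _ => by simp⟩
  | insert j s hj ih =>
    obtain ⟨C, hC⟩ := hF j (Finset.mem_insert_self j s)
    obtain ⟨C', hC'⟩ := ih fun i hi => hF i (Finset.mem_insert_of_mem hi)
    refine ⟨2 * C + 2 * C', fun x hx => ?_⟩
    rw [Finset.sum_insert hj]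
    have h3 := mul_nonneg (sq_nonneg (F j x - ∑ i ∈ s, F i x)) (hw x)
    linarith [hC x hx, hC' x hx]

theorem adm_mul (hA : BaseA) (hl : 0 < lam) (ha : SyA lam ε q a) (hf : Adm lam ε (r + 2 * q) f) :
    Adm lam ε r fun x => a x * f x := by
  have ha1 := (ha 0).choose_spec.1
  refine ⟨ha1.mul hf.1, fun j => ?_⟩
  obtain ⟨M, hM⟩ := ha j
  obtain ⟨C, hC⟩ := sum_bd (Finset.range (j + 1)) (D := dom ε)
    (F := fun i x => (j.choose i : ℝ) * iteratedDeriv i a x * iteratedDeriv (j - i) f x)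
    (fun x => zp_nonneg lam x (2 * (j : ℤ) + r + 1)) fun i hi => by
      have hi' : i ≤ j := Nat.lt_succ_iff.1 (Finset.mem_range.1 hi)
      obtain ⟨C, hC⟩ := hf.2 (j - i)
      refine ⟨(j.choose i : ℝ) ^ 2 * M ^ 2 * C, fun x hx => ?_⟩
      have h0 := hA.vp_pos x hl
      have h1 := pow_le_pow_left₀ (abs_nonneg _) (hM.2 i hi' x hx) 2
      have h2 := hC x hx
      rw [sq_abs] at h1
      rw [show 2 * ((j - i : ℕ) : ℤ) + (r + 2 * q) + 1 = q - i + (q - i) + (2 * j + r + 1) by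
        push_cast [hi']; ring, zpow_add₀ h0.ne', zpow_add₀ h0.ne'] at h2
      have h3 := mul_le_mul_of_nonneg_left h2 (show 0 ≤ (j.choose i : ℝ) ^ 2 * M ^ 2 by positivity)
      have h4 := mul_le_mul_of_nonneg_right h1 (show 0 ≤ (j.choose i : ℝ) ^ 2 *
        iteratedDeriv (j - i) f x ^ 2 * vp lam x ^ (2 * (j : ℤ) + r + 1) by positivity)
      linarith
  exact ⟨C, fun x hx => by rw [hA.iter_mul j ha1 hf.1 hx]; exact hC x hx⟩

theorem adm_iter (hA : BaseA) (j : ℕ) (hf : Adm lam ε r f) :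
    Adm lam ε (r + 2 * j) (iteratedDeriv j f) := by
  refine ⟨hA.iter_cont j hf.1, fun i => (hf.2 (i + j)).imp fun C hC x hx => ?_⟩
  have e : iteratedDeriv i (iteratedDeriv j f) = iteratedDeriv (i + j) f := by
    simp only [iteratedDeriv_eq_iterate, Function.iterate_add_apply]
  rw [e, show 2 * (i : ℤ) + (r + 2 * j) + 1 = 2 * ((i + j : ℕ) : ℤ) + r + 1 by push_cast; ring]
  exact hC x hx

theorem adm_deriv (hA : BaseA) (hf : Adm lam ε r f) : Adm lam ε (r + 2) (deriv f) := by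
  simpa using adm_iter hA 1 hf

theorem adm_dl (hA : BaseA) (n j : ℕ) (hp : Par lam ε) (hf : Adm lam ε r f) :
    Adm lam ε r (dl n ε j f) := by
  have h1 := adm_mul hA (q := 1) (r := r) hp.1 (fun h => ⟨_, om_sy hA h hp⟩)
    (by simpa using adm_deriv hA hf)
  have h2 := adm_mul hA (q := 0) (r := r) hp.1 (fun h => ⟨_, ell_sy hA n j h hp⟩)
    (by simpa using hf)
  have h3 := adm_lin hA 1 1 h1 h2
  simp only [one_mul] at h3
  exact h3

theorem adm_LL (hA : BaseA) (n : ℕ) (hp : Par lam ε) (hf : Adm lam ε r f) :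
    Adm lam ε (r + 4) (LL n ε f) := by
  rw [show r + 4 = r + 2 + 2 by ring]
  exact adm_deriv hA (adm_deriv hA (adm_dl hA n 0 hp (adm_dl hA n 1 hp hf)))

end BaseBx

open BaseBx in
theorem baseB (hA : BaseA) : BaseB where
  mono _ := mono
  congr := congr hA
  const ε h c _ := const ε h c
  add := add hA
  smul := smul
  mul := mul hA
  eps_mul := eps_mul hA
  lam_mul := lam_mul hA
  deriv := der hA
  inv := inv hA
  vp_sy := vp_sy hA
  om_sy := om_sy hA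
  ell_sy n j _ _ h := ell_sy hA n j h
  LL_sy := LL_sy hA
  cut_sy := cut_sy hA
  syA_of_bdd q _ := syA_of_bdd hA q
  syU_of_bdd q _ := syU_of_bdd hA q
  syU_change q' _ := syU_change hA q'
  adm_of_syA r _ := adm_of_syA hA r
  admU_of_syU r _ := admU_of_syU hA r
  adm_mono := adm_mono hA
  adm_congr := adm_congr hA
  adm_lin a b _ := adm_lin hA a b
  adm_mul := adm_mul hA
  adm_iter := adm_iter hA
  adm_deriv := adm_deriv hA
  adm_dl n j := adm_dl hA n j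
  adm_LL n := adm_LL hA n

end Vale.Agent.P264
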