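import Vale.Agent.P264.StmS

/-! The energy inequality at a fixed time. -/

namespace Vale.Agent.P264

open scoped ContDiff
open Set MeasureTheory Filter

namespace Bound

theorem sqrt_mul_le {X Y B c : ℝ} (hc : 0 ≤ c) (hB : 0 ≤ B) (hX : X ≤ c * B) (hY : Y ≤ B) :
    √X * √Y ≤ √c * B := by
  calc √X * √Y ≤ √(c * B) * √B :=
        mul_le_mul (Real.sqrt_le_sqrt hX) (Real.sqrt_le_sqrt hY) (Real.sqrt_nonneg _)
          (Real.sqrt_nonneg _)
    _ = √c * B := by rw [Real.sqrt_mul hc, mul_assoc, Real.mul_self_sqrt hB]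

theorem pair (hA : BaseA) (hB : BaseB) (hP : PairStmt) (n m : ℕ) (p : ℤ) (M : ℝ) (hn : 1 ≤ n)
    (hm : 1 ≤ m) (hM : 0 ≤ M) :
    ∃ C, 0 ≤ C ∧ ∀ (lam ε : ℝ) (b H f : ℝ → ℝ), Par lam ε → Sy lam ε 2 0 M b → SyA lam ε 0 b →
      Adm lam ε (p + 2) H → Adm lam ε (p - 2) f → ∀ j ≤ m + 2,
        |PP n lam ε j p b H f|
          ≤ C * (√(QQ n lam ε m (p + 2) H) * √(QQ n lam ε (m + 4) (p - 2) f)) := by
  choose D hD0 hD using fun i => hP.dual n i p M hn
  have hS : 0 ≤ ∑ i ∈ Finset.range (m + 1), D i := Finset.sum_nonneg fun i _ => hD0 i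
  refine ⟨M + ∑ i ∈ Finset.range (m + 1), D i, add_nonneg hM hS, ?_⟩
  intro lam ε b H f hpar hb hbA hH hf j hj
  have key : ∀ (c : ℝ) (i i' : ℕ), 0 ≤ c → c ≤ M + ∑ i ∈ Finset.range (m + 1), D i → i ≤ m →
      i' ≤ m + 4 → c * √(QQ n lam ε i (p + 2) H) * √(QQ n lam ε i' (p - 2) f) ≤
        (M + ∑ i ∈ Finset.range (m + 1), D i) *
          (√(QQ n lam ε m (p + 2) H) * √(QQ n lam ε (m + 4) (p - 2) f)) := by
    intro c i i' hc hc' hi hi'
    rw [mul_assoc]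
    refine mul_le_mul hc' ?_ (by positivity) (add_nonneg hM hS)
    exact mul_le_mul (Real.sqrt_le_sqrt (hA.QQ_mono n lam ε _ _ hi))
      (Real.sqrt_le_sqrt (hA.QQ_mono n lam ε _ _ hi')) (Real.sqrt_nonneg _) (Real.sqrt_nonneg _)
  by_cases h2 : 2 ≤ j
  · obtain ⟨i, rfl⟩ := Nat.exists_eq_add_of_le' h2
    refine (hD i hpar hb hbA hH hf).trans (key _ _ _ (hD0 i) ?_ (by omega) (by omega))
    have := Finset.single_le_sum (f := D) (s := Finset.range (m + 1)) (fun i _ => hD0 i)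
      (Finset.mem_range.2 (show i < m + 1 by omega))
    linarith
  · have hb0 : Sy lam ε 0 0 M b := hB.mono hpar.1 (by norm_num) le_rfl hb
    exact (hP.direct n j 2 hpar hM hb0 hH hf).trans
      (key _ _ _ hM (by linarith) (by omega) (by omega))

theorem PP_congr (hA : BaseA) (n j : ℕ) (p : ℤ) {lam ε : ℝ} {b F F' f : ℝ → ℝ}
    (h : EqOn F F' (dom ε)) : PP n lam ε j p b F f = PP n lam ε j p b F' f := by
  refine setIntegral_congr_fun (hA.dom_open ε).measurableSet fun x hx => ?_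
  simp only [hA.iter_congr j h hx]

theorem PP_lin (hA : BaseA) (hP : PairStmt) (n j : ℕ) (p : ℤ) {lam ε M : ℝ} {b F F' f : ℝ → ℝ}
    (a c : ℝ) (hpar : Par lam ε) (hb : Sy lam ε 0 0 M b) (hF : Adm lam ε p F)
    (hF' : Adm lam ε p F') (hf : Adm lam ε p f) :
    PP n lam ε j p b (fun x => a * F x + c * F' x) f
      = a * PP n lam ε j p b F f + c * PP n lam ε j p b F' f := by
  have h1 := hP.int n j (p := p) hpar hb hF hf (by omega)
  have h2 := hP.int n j (p := p) hpar hb hF' hf (by omega)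
  unfold PP
  rw [← integral_const_mul, ← integral_const_mul, ← integral_add (h1.const_mul a) (h2.const_mul c)]
  refine setIntegral_congr_fun (hA.dom_open ε).measurableSet fun x hx => ?_
  simp only [hA.iter_lin a c j hF.1 hF'.1 hx]
  ring

theorem wt_shift (hA : BaseA) (n i : ℕ) (e r : ℤ) {lam : ℝ} (ε x : ℝ) (hl : 0 < lam) :
    wt n lam ε i e (r - 2) x = wt n lam ε i e r x * vp lam x ^ (-2 : ℤ) := by
  have hv := (hA.vp_pos x hl).ne'
  unfold wt
  rw [show 2 * (i : ℤ) - 1 + (r - 2) = (2 * (i : ℤ) - 1 + r) + (-2) by ring, zpow_add₀ hv]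
  ring

/-- the terms coming from the time dependence of the weight -/
theorem weight (hA : BaseA) (hB : BaseB) (n j : ℕ) (p : ℤ) {lam ε M μ ll c K : ℝ}
    {G Gt f : ℝ → ℝ} (hpar : Par lam ε) (hM : 1 ≤ M) (hG : ContinuousOn G (dom ε))
    (hGl : ∀ x ∈ dom ε, M⁻¹ ≤ G x) (hμ : 0 ≤ μ) (hll : |ll| ≤ M * μ)
    (hGt : ContinuousOn Gt (dom ε))
    (hGtb : ∀ x ∈ dom ε, |Gt x| ≤ M * μ * vp lam x ^ (-2 : ℤ)) (hf : Adm lam ε p f)
    (hc : |c| ≤ K) :
    IntegrableOn (fun x => iteratedDeriv j f x ^ 2 * (c * ll / vp lam x ^ 2 - Gt x / G x)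
      * wt n lam ε j (j + 2) p x / G x) (dom ε) ∧
    ∫ x in dom ε, iteratedDeriv j f x ^ 2 * (c * ll / vp lam x ^ 2 - Gt x / G x)
      * wt n lam ε j (j + 2) p x / G x
      ≤ μ * ((K * M + M * M) * M) * TT n lam ε j (j + 2) (p - 2) f := by
  have hM0 : 0 < M := by linarith
  have hK : 0 ≤ K := (abs_nonneg c).trans hc
  have hGp : ∀ x ∈ dom ε, 0 < G x := fun x hx => (inv_pos.2 hM0).trans_le (hGl x hx)
  have hms := (hA.dom_open ε).measurableSet
  have hint := (hA.intT n j (j + 2) hpar (hB.adm_mono hpar.1 (show p - 2 ≤ p by omega) hf)).const_mul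
    (μ * ((K * M + M * M) * M))
  have hbd : ∀ x ∈ dom ε, |iteratedDeriv j f x ^ 2 * (c * ll / vp lam x ^ 2 - Gt x / G x)
      * wt n lam ε j (j + 2) p x / G x| ≤ μ * ((K * M + M * M) * M) *
        (iteratedDeriv j f x ^ 2 * wt n lam ε j (j + 2) (p - 2) x) := by
    intro x hx
    have hv := hA.vp_pos x hpar.1
    have hg := hGp x hx
    have hgi : (G x)⁻¹ ≤ M := by
      have := inv_anti₀ (inv_pos.2 hM0) (hGl x hx)
      rwa [inv_inv] at this
    have hgi0 : 0 ≤ (G x)⁻¹ := (inv_pos.2 hg).le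
    have hw := hA.wt_nonneg n (lam := lam) j (j + 2) p hx
    have hz : vp lam x ^ (-2 : ℤ) = (vp lam x ^ 2)⁻¹ := by
      rw [zpow_neg]; norm_cast
    have hz0 : 0 ≤ vp lam x ^ (-2 : ℤ) := (zpow_pos hv _).le
    have h1 : |c * ll / vp lam x ^ 2| ≤ K * (M * μ) * vp lam x ^ (-2 : ℤ) := by
      rw [div_eq_mul_inv, ← hz, abs_mul, abs_mul, abs_of_nonneg hz0]
      exact mul_le_mul_of_nonneg_right (mul_le_mul hc hll (abs_nonneg _) hK) hz0
    have h2 : |Gt x / G x| ≤ M * μ * vp lam x ^ (-2 : ℤ) * M := by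
      rw [div_eq_mul_inv, abs_mul, abs_of_nonneg hgi0]
      exact mul_le_mul (hGtb x hx) hgi hgi0 (by positivity)
    have h3 : |c * ll / vp lam x ^ 2 - Gt x / G x|
        ≤ μ * (K * M + M * M) * vp lam x ^ (-2 : ℤ) := by
      refine (abs_sub _ _).trans ?_
      calc _ ≤ K * (M * μ) * vp lam x ^ (-2 : ℤ) + M * μ * vp lam x ^ (-2 : ℤ) * M :=
            add_le_add h1 h2
        _ = _ := by ring
    rw [wt_shift hA n j _ p ε x hpar.1, div_eq_mul_inv, abs_mul, abs_mul, abs_mul,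
      abs_of_nonneg hgi0, abs_of_nonneg hw, abs_of_nonneg (sq_nonneg _)]
    calc iteratedDeriv j f x ^ 2 * |c * ll / vp lam x ^ 2 - Gt x / G x|
          * wt n lam ε j (j + 2) p x * (G x)⁻¹
        ≤ iteratedDeriv j f x ^ 2 * (μ * (K * M + M * M) * vp lam x ^ (-2 : ℤ))
          * wt n lam ε j (j + 2) p x * M := by gcongr
      _ = _ := by ring
  have hvc : Continuous (vp lam) := by unfold vp; fun_prop
  have hcont : ContinuousOn (fun x => iteratedDeriv j f x ^ 2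
      * (c * ll / vp lam x ^ 2 - Gt x / G x) * wt n lam ε j (j + 2) p x / G x) (dom ε) := by
    have h1 := (hA.iter_cont j hf.1).continuousOn
    have h2 := (hA.wt_cont n ε j (j + 2) p hpar.1).continuousOn (s := dom ε)
    refine (((h1.pow 2).mul ((continuousOn_const.div (hvc.continuousOn.pow 2) fun x _ => ?_).sub
      (hGt.div hG fun x hx => (hGp x hx).ne'))).mul h2).div hG fun x hx => (hGp x hx).ne'
    exact (pow_pos (hA.vp_pos x hpar.1) 2).ne'
  have hI : IntegrableOn (fun x => iteratedDeriv j f x ^ 2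
      * (c * ll / vp lam x ^ 2 - Gt x / G x) * wt n lam ε j (j + 2) p x / G x) (dom ε) :=
    Integrable.mono' hint (hcont.aestronglyMeasurable hms)
      ((ae_restrict_iff' hms).2 (Eventually.of_forall hbd))
  refine ⟨hI, ?_⟩
  unfold TT
  rw [← integral_const_mul]
  exact setIntegral_mono_on hI hint hms fun x hx => (le_abs_self _).trans (hbd x hx)

/-- splitting the derivative of the energy -/
theorem split (hA : BaseA) (hB : BaseB) (hP : PairStmt) (n k : ℕ) (p : ℤ)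
    {lam ε M M' α μ ll : ℝ} {G Gt f H₁ H₂ H₃ H₄ R : ℝ → ℝ} (hpar : Par lam ε) (hM : 1 ≤ M)
    (hG : ContinuousOn G (dom ε)) (hb : Sy lam ε 0 0 M' fun x => (G x)⁻¹)
    (hGl : ∀ x ∈ dom ε, M⁻¹ ≤ G x) (hμ : 0 ≤ μ) (hll : |ll| ≤ M * μ)
    (hGt : ContinuousOn Gt (dom ε))
    (hGtb : ∀ x ∈ dom ε, |Gt x| ≤ M * μ * vp lam x ^ (-2 : ℤ)) (hf : Adm lam ε p f)
    (h₁ : Adm lam ε p H₁) (h₂ : Adm lam ε p H₂) (h₃ : Adm lam ε p H₃) (h₄ : Adm lam ε p H₄)
    (hR : ∀ x ∈ dom ε, R x = -α * f x + μ * (-H₁ x + H₂ x + H₃ x + H₄ x)) :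
    dEE n lam ε k p G Gt ll f R ≤ -2 * α * EE n lam ε k p G f
      + 2 * μ * ∑ j ∈ Finset.range (k + 1), (-PP n lam ε j p (fun x => (G x)⁻¹) H₁ f
        + PP n lam ε j p (fun x => (G x)⁻¹) H₂ f + PP n lam ε j p (fun x => (G x)⁻¹) H₃ f
        + PP n lam ε j p (fun x => (G x)⁻¹) H₄ f)
      + μ * ((((k : ℝ) + n + 2 + |(p : ℝ)|) * M + M * M) * M) * QQ n lam ε k (p - 2) f := by
  have hms := (hA.dom_open ε).measurableSet
  have a₁ := hB.adm_lin (-1) 1 hpar.1 h₁ h₂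
  have a₂ := hB.adm_lin 1 1 hpar.1 h₃ h₄
  have a₃ := hB.adm_lin 1 1 hpar.1 a₁ a₂
  have a₄ := hB.adm_lin (-α) μ hpar.1 hf a₃
  have hRe : EqOn (fun x => -α * f x + μ * (1 * (-1 * H₁ x + 1 * H₂ x)
      + 1 * (1 * H₃ x + 1 * H₄ x))) R (dom ε) := fun x hx => by
    simp only [hR x hx]; ring
  have hRa : Adm lam ε p R := hB.adm_congr hRe a₄
  unfold dEE EE QQ
  rw [Finset.mul_sum, Finset.mul_sum, Finset.mul_sum, ← Finset.sum_add_distrib,
    ← Finset.sum_add_distrib]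
  refine Finset.sum_le_sum fun j hj => ?_
  have hjk : (j : ℝ) ≤ k := by exact_mod_cast Nat.lt_succ_iff.1 (Finset.mem_range.1 hj)
  have hc : |(j : ℝ) - n - 2 + p| ≤ (k : ℝ) + n + 2 + |(p : ℝ)| := by
    have h0 : (0 : ℝ) ≤ j := Nat.cast_nonneg j
    have h1 : (0 : ℝ) ≤ n := Nat.cast_nonneg n
    rw [abs_le]
    constructor
    · linarith [neg_abs_le (p : ℝ)]
    · linarith [le_abs_self (p : ℝ)]
  obtain ⟨hWi, hW⟩ := weight hA hB n j p hpar hM hG hGl hμ hll hGt hGtb hf hc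
  have hRi := hP.int n j (p := p) hpar hb hRa hf (by omega)
  have e1 : ∫ x in dom ε, (2 * iteratedDeriv j f x * iteratedDeriv j R x
      + iteratedDeriv j f x ^ 2 * (((j : ℝ) - n - 2 + p) * ll / vp lam x ^ 2 - Gt x / G x))
      * wt n lam ε j (j + 2) p x / G x = 2 * PP n lam ε j p (fun x => (G x)⁻¹) R f
        + ∫ x in dom ε, iteratedDeriv j f x ^ 2
          * (((j : ℝ) - n - 2 + p) * ll / vp lam x ^ 2 - Gt x / G x)
          * wt n lam ε j (j + 2) p x / G x := by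
    unfold PP
    rw [← integral_const_mul, ← integral_add (hRi.const_mul 2) hWi]
    refine setIntegral_congr_fun hms fun x _ => ?_
    ring
  have e2 : ∫ x in dom ε, iteratedDeriv j f x ^ 2 * wt n lam ε j (j + 2) p x / G x
      = PP n lam ε j p (fun x => (G x)⁻¹) f f := by
    unfold PP
    refine setIntegral_congr_fun hms fun x _ => ?_
    simp only
    ring
  have e3 : PP n lam ε j p (fun x => (G x)⁻¹) R f = -α * PP n lam ε j p (fun x => (G x)⁻¹) f f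
      + μ * (-PP n lam ε j p (fun x => (G x)⁻¹) H₁ f
        + PP n lam ε j p (fun x => (G x)⁻¹) H₂ f + PP n lam ε j p (fun x => (G x)⁻¹) H₃ f
        + PP n lam ε j p (fun x => (G x)⁻¹) H₄ f) := by
    rw [← PP_congr hA n j p hRe, PP_lin hA hP n j p (-α) μ hpar hb hf a₃ hf,
      PP_lin hA hP n j p 1 1 hpar hb a₁ a₂ hf, PP_lin hA hP n j p (-1) 1 hpar hb h₁ h₂ hf,
      PP_lin hA hP n j p 1 1 hpar hb h₃ h₄ hf]
    ring
  rw [e1, e2, e3]
  linarith

end Bound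

open _root_.Vale.Agent.P264.Bound in
theorem bound (hA : BaseA) (hB : BaseB) (hD : DelStmt) (hM : MulStmt) (hL : LStmt)
    (hP : PairStmt) (hC : CoStmt) (hI : InStmt) : BoundStmt := by
  intro n k p M hn hk hM1
  have hM0 : 0 < M := by linarith
  obtain ⟨m, rfl⟩ : ∃ m, k = m + 3 := ⟨k - 3, by omega⟩
  have hm : 1 ≤ m := by omega
  obtain ⟨M', hM'0, hinv⟩ := hB.inv 2 M M⁻¹ (inv_pos.2 hM0)
  obtain ⟨C₁, hC₁, hp₁⟩ := pair hA hB hP n m p M' hn hm hM'0
  obtain ⟨C₂, hC₂, hp₂⟩ := pair hA hB hP n (m + 1) p M' hn (by omega) hM'0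
  obtain ⟨Cm, hCm, hmul⟩ := hM n m
  obtain ⟨Cv, hCv, hmulv⟩ := hM n (m + 3)
  obtain ⟨Cl, hCl, hl⟩ := hL n m (p - 2) hn
  obtain ⟨Cc, hCc, hco⟩ := hC n (m + 3) p M (1 / 4) hn (by omega) hM1 (by norm_num)
  set Kw : ℝ := ((((m + 3 : ℕ) : ℝ) + n + 2 + |(p : ℝ)|) * M + M * M) * M with hKw
  have hKw0 : 0 ≤ Kw := by positivity
  set K₁ : ℝ := 1 + Cc + (m + 3) * (C₁ * √(Cm * M ^ 2 * Cl)) + (m + 4) * (M' * √(Cv * M ^ 2))
    with hK₁
  have hK₁0 : 0 ≤ K₁ := by positivity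
  set K₂ : ℝ := 2 * K₁ + Kw with hK₂
  have hK₂0 : 0 ≤ K₂ := by positivity
  obtain ⟨Ci, hCi, hin⟩ := hI n (m + 4) (p - 2) (K₂ + 1)⁻¹ hn (by positivity)
  set s : ℝ := (4 * ((m + 4) * C₂ + 1))⁻¹ with hs
  have hs0 : 0 < s := by positivity
  have hs1 : (m + 4) * (C₂ * s) ≤ 1 / 4 := by
    have h1 : 4 * ((m + 4) * C₂ + 1) * s = 1 := mul_inv_cancel₀ (by positivity)
    nlinarith
  refine ⟨s ^ 2, K₂ * Ci + 2 * ((m + 4) * M'), by positivity, by positivity, ?_⟩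
  intro lam ε α μ ll G Gt V f F e R hpar hGA hVA hG hV hGl hμ hll hGt hGtb hf hF he hR hFs
  have hl0 := hpar.1
  have hb2 : Sy lam ε 2 0 M' fun x => (G x)⁻¹ :=
    hinv hl0 (hB.mono hl0 (by omega) le_rfl hG) hGl
  have hb0 : Sy lam ε 0 0 M' fun x => (G x)⁻¹ := hB.mono hl0 (by norm_num) le_rfl hb2
  have hbA : SyA lam ε 0 fun x => (G x)⁻¹ := by
    intro h
    obtain ⟨N, hN⟩ := hGA h
    obtain ⟨N', -, hN'⟩ := hB.inv h N M⁻¹ (inv_pos.2 hM0)
    exact ⟨N', hN' hl0 hN hGl⟩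
  have hf2 : Adm lam ε (p - 2) f := hB.adm_mono hl0 (by omega) hf
  have hLf : Adm lam ε (p + 2 + 2 * 0) (LL n ε f) :=
    hB.adm_mono hl0 (by omega) (hB.adm_LL n hpar hf)
  have hfv : Adm lam ε (p + 2 + 2 * (-2)) f := hB.adm_mono hl0 (by omega) hf
  have hGL : Adm lam ε (p + 2) fun x => G x * LL n ε f x := hB.adm_mul hl0 hGA hLf
  have hVf : Adm lam ε (p + 2) fun x => V x * f x := hB.adm_mul hl0 hVA hfv
  have hsp := split hA hB hP n (m + 3) p (α := α) (R := R) hpar hM1 hG.1.continuousOn hb0 hGl hμ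
    hll hGt hGtb hf (hB.adm_mono hl0 (by omega) hGL) (hB.adm_mono hl0 (by omega) hVf)
    (hB.adm_mono hl0 (by omega) hF) he hR
  rw [← hKw] at hsp
  set A := QQ n lam ε (m + 5) (p - 2) f with hAd
  set B := QQ n lam ε (m + 4) (p - 2) f with hBd
  set T := TT n lam ε 0 2 (p - 2) f with hTd
  set E := √(QQ n lam ε (m + 3) p e) * √(QQ n lam ε (m + 3) p f) with hEd
  have hA0 : 0 ≤ A := hA.QQ_nonneg _ _ _ _ _ _
  have hB0 : 0 ≤ B := hA.QQ_nonneg _ _ _ _ _ _
  have hT0 : 0 ≤ T := hA.TT_nonneg _ _ _ _ _ _ _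
  have hE0 : 0 ≤ E := by positivity
  have hB3 : QQ n lam ε (m + 3) (p - 2) f ≤ B := hA.QQ_mono _ _ _ _ _ (by omega)
  -- lower order terms of the main part
  have hQL : QQ n lam ε m (p + 2) (fun x => G x * LL n ε f x) ≤ Cm * M ^ 2 * Cl * B := by
    have h1 := (hmul lam ε M (p + 2) 0 G (LL n ε f) hpar (hB.mono hl0 (by omega) le_rfl hG)
      (hD.LL_smooth n hf.1) fun i _ => hA.intT n i _ hpar hLf).2
    have h2 := hl lam ε f hpar hf2
    rw [show p - 2 + 4 = p + 2 + 2 * 0 by ring] at h2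
    calc _ ≤ _ := h1
      _ ≤ Cm * M ^ 2 * (Cl * B) := mul_le_mul_of_nonneg_left h2 (by positivity)
      _ = _ := by ring
  have t₁ : ∀ j ∈ Finset.range (m + 3),
      -PP n lam ε j p (fun x => (G x)⁻¹) (fun x => G x * LL n ε f x) f
        ≤ C₁ * √(Cm * M ^ 2 * Cl) * B := by
    intro j hj
    have h1 := hp₁ lam ε _ _ f hpar hb2 hbA hGL hf2 j
      (by have := Finset.mem_range.1 hj; omega)
    have h2 := sqrt_mul_le (by positivity) hB0 hQL (le_refl B)
    calc _ ≤ _ := neg_le_abs _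
      _ ≤ _ := h1
      _ ≤ C₁ * (√(Cm * M ^ 2 * Cl) * B) := mul_le_mul_of_nonneg_left h2 hC₁
      _ = _ := by ring
  have t₀ : -PP n lam ε (m + 3) p (fun x => (G x)⁻¹) (fun x => G x * LL n ε f x) f
      ≤ -(3 / 4) * A + (1 + Cc) * B := by
    have h1 := hco lam ε G f hpar hGA hG hGl hf2
    have h2 : A = B + TT n lam ε (m + 3 + 2) (((m + 3 : ℕ) : ℤ) + 4) (p - 2) f := by
      rw [hAd, hBd]
      unfold QQ
      rw [Finset.sum_range_succ]
      congr 2
    have h3 : QQ n lam ε (m + 3 + 2) (p - 2) f = A := rfl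
    have h4 : QQ n lam ε (m + 3 + 1) (p - 2) f = B := rfl
    rw [h3, h4] at h1
    linarith
  have s₁ : ∑ j ∈ Finset.range (m + 3 + 1),
      -PP n lam ε j p (fun x => (G x)⁻¹) (fun x => G x * LL n ε f x) f
        ≤ -(3 / 4) * A + (1 + Cc) * B + (m + 3) * (C₁ * √(Cm * M ^ 2 * Cl) * B) := by
    rw [Finset.sum_range_succ]
    have h1 := Finset.sum_le_card_nsmul _ _ _ t₁
    rw [Finset.card_range, nsmul_eq_mul] at h1
    push_cast at h1
    linarith
  -- the potential term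
  have hQV : QQ n lam ε (m + 3) (p + 2) (fun x => V x * f x) ≤ Cv * M ^ 2 * B := by
    have h1 := (hmulv lam ε M (p + 2) (-2) V f hpar hV hf.1 fun i _ => hA.intT n i _ hpar hfv).2
    rw [show p + 2 + 2 * (-2) = p - 2 by ring] at h1
    exact h1.trans (mul_le_mul_of_nonneg_left hB3 (by positivity))
  have t₂ : ∀ j ∈ Finset.range (m + 3 + 1),
      PP n lam ε j p (fun x => (G x)⁻¹) (fun x => V x * f x) f
        + PP n lam ε j p (fun x => (G x)⁻¹) F f + PP n lam ε j p (fun x => (G x)⁻¹) e f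
        ≤ M' * √(Cv * M ^ 2) * B + C₂ * s * A + M' * E := by
    intro j hj
    have hj' : j ≤ m + 3 := by have := Finset.mem_range.1 hj; omega
    have u₁ : PP n lam ε j p (fun x => (G x)⁻¹) (fun x => V x * f x) f
        ≤ M' * √(Cv * M ^ 2) * B := by
      have h1 := hP.direct n j 2 hpar hM'0 hb0 hVf hf2
      have h2 := sqrt_mul_le (by positivity) hB0 ((hA.QQ_mono n lam ε _ _ hj').trans hQV)
        (hA.QQ_mono n lam ε (p - 2) f (show j ≤ m + 4 by omega))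
      calc _ ≤ _ := le_abs_self _
        _ ≤ _ := h1
        _ ≤ M' * (√(Cv * M ^ 2) * B) := by
          rw [mul_assoc]; exact mul_le_mul_of_nonneg_left h2 hM'0
        _ = _ := by ring
    have u₂ : PP n lam ε j p (fun x => (G x)⁻¹) F f ≤ C₂ * s * A := by
      have h1 := hp₂ lam ε _ F f hpar hb2 hbA hF hf2 j hj'
      have h2 := sqrt_mul_le (X := QQ n lam ε (m + 1) (p + 2) F) (sq_nonneg s) hA0 hFs (le_refl A)
      rw [Real.sqrt_sq hs0.le] at h2
      calc _ ≤ _ := le_abs_self _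
        _ ≤ _ := h1
        _ ≤ C₂ * (s * A) := mul_le_mul_of_nonneg_left h2 hC₂
        _ = _ := by ring
    have u₃ : PP n lam ε j p (fun x => (G x)⁻¹) e f ≤ M' * E := by
      have h1 := hP.direct n j (p := p) 0 hpar hM'0 hb0 (F := e) (f := f)
        (by rwa [add_zero]) (by rwa [sub_zero])
      rw [add_zero, sub_zero] at h1
      calc _ ≤ _ := le_abs_self _
        _ ≤ _ := h1
        _ ≤ M' * E := by
          rw [mul_assoc]
          exact mul_le_mul_of_nonneg_left (mul_le_mul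
            (Real.sqrt_le_sqrt (hA.QQ_mono n lam ε _ _ hj'))
            (Real.sqrt_le_sqrt (hA.QQ_mono n lam ε _ _ hj')) (Real.sqrt_nonneg _)
            (Real.sqrt_nonneg _)) hM'0
    linarith
  have s₂ := Finset.sum_le_card_nsmul _ _ _ t₂
  rw [Finset.card_range, nsmul_eq_mul] at s₂
  push_cast at s₂
  have s₃ : ∑ j ∈ Finset.range (m + 3 + 1),
      (-PP n lam ε j p (fun x => (G x)⁻¹) (fun x => G x * LL n ε f x) f
        + PP n lam ε j p (fun x => (G x)⁻¹) (fun x => V x * f x) f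
        + PP n lam ε j p (fun x => (G x)⁻¹) F f + PP n lam ε j p (fun x => (G x)⁻¹) e f)
      ≤ -(1 / 2) * A + K₁ * B + (m + 4) * M' * E := by
    have h1 : ∑ j ∈ Finset.range (m + 3 + 1),
        (-PP n lam ε j p (fun x => (G x)⁻¹) (fun x => G x * LL n ε f x) f
          + PP n lam ε j p (fun x => (G x)⁻¹) (fun x => V x * f x) f
          + PP n lam ε j p (fun x => (G x)⁻¹) F f + PP n lam ε j p (fun x => (G x)⁻¹) e f)
        = ∑ j ∈ Finset.range (m + 3 + 1),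
          -PP n lam ε j p (fun x => (G x)⁻¹) (fun x => G x * LL n ε f x) f
          + ∑ j ∈ Finset.range (m + 3 + 1),
            (PP n lam ε j p (fun x => (G x)⁻¹) (fun x => V x * f x) f
          + PP n lam ε j p (fun x => (G x)⁻¹) F f + PP n lam ε j p (fun x => (G x)⁻¹) e f) := by
      rw [← Finset.sum_add_distrib]
      exact Finset.sum_congr rfl fun j _ => by ring
    have h2 : (m + 4) * (C₂ * s) * A ≤ 1 / 4 * A := mul_le_mul_of_nonneg_right hs1 hA0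
    rw [h1, hK₁]
    linarith
  have hBA : K₂ * B ≤ A + K₂ * Ci * T := by
    have h1 : B ≤ (K₂ + 1)⁻¹ * A + Ci * T := hin lam ε f hpar hf2
    have h2 : K₂ * (K₂ + 1)⁻¹ ≤ 1 := by
      rw [← div_eq_mul_inv, div_le_one (by positivity)]; linarith
    calc K₂ * B ≤ K₂ * ((K₂ + 1)⁻¹ * A + Ci * T) := mul_le_mul_of_nonneg_left h1 hK₂0
      _ = K₂ * (K₂ + 1)⁻¹ * A + K₂ * Ci * T := by ring
      _ ≤ 1 * A + K₂ * Ci * T := by gcongr
      _ = _ := by ring
  have f₁ := mul_le_mul_of_nonneg_left s₃ (show 0 ≤ 2 * μ by positivity)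
  have f₂ : μ * Kw * QQ n lam ε (m + 3) (p - 2) f ≤ μ * Kw * B :=
    mul_le_mul_of_nonneg_left hB3 (by positivity)
  have f₃ : 2 * (-(1 / 2) * A + K₁ * B + (m + 4) * M' * E) + Kw * B
      ≤ (K₂ * Ci + 2 * ((m + 4) * M')) * (T + E) := by
    have g₁ : 0 ≤ K₂ * Ci * E := by positivity
    have g₂ : 0 ≤ 2 * ((m + 4) * M') * T := by positivity
    have g₃ : K₂ * B = 2 * K₁ * B + Kw * B := by rw [hK₂]; ring
    linarith
  have f₄ := mul_le_mul_of_nonneg_left f₃ hμ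
  linarith

end Vale.Agent.P264
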