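import Vale.Agent.P264.StmS

/-!
Functions that are smooth in space with jointly continuous space jets.
-/

namespace Vale.Agent.P264

open scoped ContDiff Topology
open Set MeasureTheory Filter

namespace CJAux

variable {J I : Set ℝ} {f g : ℝ → ℝ → ℝ}

theorem iter_cont {u : ℝ → ℝ} (hI : IsOpen I) (i : ℕ) (hu : ContDiffOn ℝ ∞ u I) :
    ContDiffOn ℝ ∞ (iteratedDeriv i u) I := by
  induction i with
  | zero => simpa using hu
  | succ i ih =>
    rw [iteratedDeriv_succ]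
    exact ih.deriv_of_isOpen hI le_rfl

theorem iter_deriv {u : ℝ → ℝ} (hI : IsOpen I) (i : ℕ) {x : ℝ} (hu : ContDiffOn ℝ ∞ u I)
    (hx : x ∈ I) : HasDerivAt (iteratedDeriv i u) (iteratedDeriv (i + 1) u x) x := by
  rw [iteratedDeriv_succ]
  exact (((iter_cont hI i hu).contDiffAt (hI.mem_nhds hx)).differentiableAt
    (by simp)).hasDerivAt

theorem at_of_on {u : ℝ → ℝ} (hI : IsOpen I) (i : ℕ) {x : ℝ} (hu : ContDiffOn ℝ ∞ u I)
    (hx : x ∈ I) : ContDiffAt ℝ i u x :=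
  (hu.contDiffAt (hI.mem_nhds hx)).of_le (by exact_mod_cast le_top)

theorem joint (hI : IsOpen I) (h : ContDiffOn ℝ ∞ (fun p : ℝ × ℝ => f p.1 p.2) (univ ×ˢ I))
    (i : ℕ) : ContDiffOn ℝ ∞ (fun p : ℝ × ℝ => iteratedDeriv i (f p.1) p.2) (univ ×ˢ I) := by
  have hO : IsOpen ((univ : Set ℝ) ×ˢ I) := isOpen_univ.prod hI
  induction i with
  | zero => simpa using h
  | succ i ih =>
    have h1 := (ih.fderiv_of_isOpen (m := ∞) hO le_rfl).clm_apply
      (contDiffOn_const (c := ((0 : ℝ), (1 : ℝ))))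
    refine h1.congr fun p hp => ?_
    have h2 := ((ih.contDiffAt (hO.mem_nhds hp)).differentiableAt (by simp)).hasFDerivAt
    have h3 : HasDerivAt (fun y : ℝ => (p.1, y)) ((0 : ℝ), (1 : ℝ)) p.2 :=
      (hasDerivAt_const _ _).prodMk (hasDerivAt_id _)
    have h4 := h2.comp_hasDerivAt p.2 h3
    rw [iteratedDeriv_succ]
    exact h4.deriv

theorem of_smooth (J : Set ℝ) (hI : IsOpen I)
    (h : ContDiffOn ℝ ∞ (fun p : ℝ × ℝ => f p.1 p.2) (univ ×ˢ I)) : CJ J I f :=
  ⟨fun s _ => h.comp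
      (contDiff_const.prodMk contDiff_id : ContDiff ℝ ∞ fun y : ℝ => (s, y)).contDiffOn
      fun _ hy => ⟨mem_univ _, hy⟩,
    fun i => (joint hI h i).continuousOn.mono (prod_mono (subset_univ _) le_rfl)⟩

theorem congr (hI : IsOpen I) (h : ∀ s ∈ J, EqOn (f s) (g s) I) (hf : CJ J I f) : CJ J I g :=
  ⟨fun s hs => (hf.1 s hs).congr fun _ hx => (h s hs hx).symm,
    fun i => (hf.2 i).congr fun p hp => ((h p.1 hp.1).iteratedDeriv_of_isOpen hI i hp.2).symm⟩

theorem add (hI : IsOpen I) (hf : CJ J I f) (hg : CJ J I g) : CJ J I fun s x => f s x + g s x :=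
  ⟨fun s hs => (hf.1 s hs).add (hg.1 s hs), fun i => ((hf.2 i).add (hg.2 i)).congr fun p hp =>
    iteratedDeriv_fun_add (at_of_on hI i (hf.1 p.1 hp.1) hp.2) (at_of_on hI i (hg.1 p.1 hp.1) hp.2)⟩

theorem mul (hI : IsOpen I) (hf : CJ J I f) (hg : CJ J I g) : CJ J I fun s x => f s x * g s x :=
  ⟨fun s hs => (hf.1 s hs).mul (hg.1 s hs), fun i =>
    (continuousOn_finsetSum (Finset.range (i + 1)) fun j _ =>
      ((continuousOn_const (c := (i.choose j : ℝ))).mul (hf.2 j)).mul (hg.2 (i - j))).congr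
      fun p hp => iteratedDeriv_fun_mul (at_of_on hI i (hf.1 p.1 hp.1) hp.2)
        (at_of_on hI i (hg.1 p.1 hp.1) hp.2)⟩

theorem time (I : Set ℝ) {c : ℝ → ℝ} (hc : ContinuousOn c J) : CJ J I fun s _ => c s := by
  refine ⟨fun s _ => contDiffOn_const, fun i => ?_⟩
  simp only [iteratedDeriv_const]
  split_ifs
  · exact hc.comp continuousOn_fst fun p hp => hp.1
  · exact continuousOn_const

theorem space (J : Set ℝ) {c : ℝ → ℝ} (hI : IsOpen I) (hc : ContDiffOn ℝ ∞ c I) :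
    CJ J I fun _ x => c x :=
  ⟨fun _ _ => hc, fun i => (iter_cont hI i hc).continuousOn.comp continuousOn_snd fun _ hp => hp.2⟩

theorem der (hI : IsOpen I) (hf : CJ J I f) : CJ J I fun s => deriv (f s) :=
  ⟨fun s hs => (hf.1 s hs).deriv_of_isOpen hI le_rfl, fun i => by
    simpa only [iteratedDeriv_succ'] using hf.2 (i + 1)⟩

theorem dl_cj (n : ℕ) (ε : ℝ) (j : ℕ) (hI : IsOpen I) (hf : CJ J I f) :
    CJ J I fun s => dl n ε j (f s) := by
  have h1 : ContDiff ℝ ∞ (om ε) := by unfold om; fun_prop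
  have h2 : ContDiff ℝ ∞ (ell n ε j) := by unfold ell; fun_prop
  exact add hI (mul hI (space J hI h1.contDiffOn) (der hI hf)) (mul hI (space J hI h2.contDiffOn) hf)

theorem iter_dil (i : ℕ) (κ : ℝ) (u : ℝ → ℝ) :
    iteratedDeriv i (fun y => u (κ * y)) = fun y => κ ^ i * iteratedDeriv i u (κ * y) := by
  induction i with
  | zero => simp
  | succ i ih =>
    funext y
    rw [iteratedDeriv_succ, ih, deriv_const_mul_field, deriv_comp_mul_left, iteratedDeriv_succ,
      smul_eq_mul, pow_succ, mul_assoc]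

theorem comp {J' I' : Set ℝ} {t : ℝ → ℝ} {κ : ℝ} (ht : ContinuousOn t J') (hm : MapsTo t J' J)
    (hκ : ∀ y ∈ I', κ * y ∈ I) (hf : CJ J I f) : CJ J' I' fun s y => f (t s) (κ * y) := by
  refine ⟨fun s hs => (hf.1 _ (hm hs)).comp
    (contDiff_const.mul contDiff_id : ContDiff ℝ ∞ fun y : ℝ => κ * y).contDiffOn hκ, fun i => ?_⟩
  simp only [iter_dil]
  refine continuousOn_const.mul ((hf.2 i).comp (f := fun p : ℝ × ℝ => (t p.1, κ * p.2))
    ((ht.comp continuousOn_fst fun p hp => hp.1).prodMk (by fun_prop))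
    fun p hp => ⟨hm hp.1, hκ _ hp.2⟩)

theorem cont_time (hf : CJ J I f) (i : ℕ) {x : ℝ} (hx : x ∈ I) :
    ContinuousOn (fun s => iteratedDeriv i (f s) x) J :=
  (hf.2 i).comp (f := fun s : ℝ => (s, x)) (by fun_prop) fun _ hs => ⟨hs, hx⟩

theorem int_eq {a b : ℝ} {R : ℝ → ℝ → ℝ} (hI : IsOpen I) (hf : CJ (Icc a b) I f)
    (hR : CJ (Icc a b) I R)
    (h : ∀ s ∈ Ioo a b, ∀ x ∈ I, HasDerivAt (fun σ => f σ x) (R s x) s) {s : ℝ}
    (hs : s ∈ Icc a b) (i : ℕ) : ∀ x ∈ I, ∫ σ in a..s, iteratedDeriv i (R σ) x =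
      iteratedDeriv i (f s) x - iteratedDeriv i (f a) x := by
  have hsub : Icc a s ⊆ Icc a b := Icc_subset_Icc le_rfl hs.2
  have hsub' : uIoc a s ⊆ Icc a b := by
    rw [uIoc_of_le hs.1]; exact Ioc_subset_Icc_self.trans hsub
  have hint : ∀ j, ∀ x ∈ I, IntervalIntegrable (fun σ => iteratedDeriv j (R σ) x) volume a s :=
    fun j x hx => ((cont_time hR j hx).mono hsub).intervalIntegrable_of_Icc hs.1
  induction i with
  | zero =>
    intro x hx
    simp only [iteratedDeriv_zero]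
    exact intervalIntegral.integral_eq_sub_of_hasDerivAt_of_le hs.1
      ((cont_time hf 0 hx).mono hsub)
      (fun σ hσ => h σ ⟨hσ.1, hσ.2.trans_le hs.2⟩ x hx) (hint 0 x hx)
  | succ i ih =>
    intro x hx
    obtain ⟨δ, hδ, hb⟩ := Metric.nhds_basis_closedBall.mem_iff.1 (hI.mem_nhds hx)
    obtain ⟨B, hB⟩ := (isCompact_Icc.prod (isCompact_closedBall x δ)).exists_bound_of_continuousOn
      ((hR.2 (i + 1)).mono (prod_mono le_rfl hb))
    have h1 := (intervalIntegral.hasDerivAt_integral_of_dominated_loc_of_deriv_le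
      (μ := volume) (a := a) (b := s) (F := fun y σ => iteratedDeriv i (R σ) y)
      (F' := fun y σ => iteratedDeriv (i + 1) (R σ) y) (bound := fun _ => B)
      (Metric.closedBall_mem_nhds x hδ)
      (Filter.mem_of_superset (hI.mem_nhds hx) fun y hy =>
        ((cont_time hR i hy).mono hsub').aestronglyMeasurable measurableSet_uIoc)
      (hint i x hx)
      (((cont_time hR (i + 1) hx).mono hsub').aestronglyMeasurable measurableSet_uIoc)
      (Eventually.of_forall fun σ hσ y hy => hB (σ, y) ⟨hsub' hσ, hy⟩)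
      intervalIntegrable_const
      (Eventually.of_forall fun σ hσ y hy => iter_deriv hI i (hR.1 σ (hsub' hσ)) (hb hy))).2
    have h2 := (iter_deriv hI i (hf.1 s hs) hx).sub
      (iter_deriv hI i (hf.1 a ⟨le_rfl, hs.1.trans hs.2⟩) hx)
    exact h1.unique (h2.congr_of_eventuallyEq
      (Filter.mem_of_superset (hI.mem_nhds hx) fun y hy => ih y hy))

theorem timejet {a b : ℝ} {R : ℝ → ℝ → ℝ} (hI : IsOpen I) (hf : CJ (Icc a b) I f)
    (hR : CJ (Icc a b) I R)
    (h : ∀ s ∈ Ioo a b, ∀ x ∈ I, HasDerivAt (fun σ => f σ x) (R s x) s) (i : ℕ) :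
    ∀ s ∈ Ioo a b, ∀ x ∈ I,
      HasDerivAt (fun σ => iteratedDeriv i (f σ) x) (iteratedDeriv i (R s) x) s := by
  intro s hs x hx
  have c := cont_time hR i hx
  have h1 := intervalIntegral.integral_hasDerivAt_right (a := a)
    ((c.mono (Icc_subset_Icc le_rfl hs.2.le)).intervalIntegrable_of_Icc hs.1.le)
    ((c.mono Ioo_subset_Icc_self).stronglyMeasurableAtFilter isOpen_Ioo s hs)
    (c.continuousAt (Icc_mem_nhds hs.1 hs.2))
  refine (h1.add_const (iteratedDeriv i (f a) x)).congr_of_eventuallyEq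
    (Filter.mem_of_superset (Icc_mem_nhds hs.1 hs.2) fun σ hσ => ?_)
  exact (eq_sub_iff_add_eq.1 (int_eq hI hf hR h hσ i x hx)).symm

end CJAux

theorem cjS : CJStmt where
  of_smooth := fun J _ _ hI h => CJAux.of_smooth J hI h
  mono := fun hJ hI hf => ⟨fun s hs => (hf.1 s (hJ hs)).mono hI,
    fun i => (hf.2 i).mono (prod_mono hJ hI)⟩
  congr := CJAux.congr
  add := CJAux.add
  mul := CJAux.mul
  time := fun I _ hc => CJAux.time I hc
  space := fun J _ _ hI hc => CJAux.space J hI hc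
  LL := fun n ε _ _ _ hI hf =>
    CJAux.der hI (CJAux.der hI (CJAux.dl_cj n ε 0 hI (CJAux.dl_cj n ε 1 hI hf)))
  comp := fun _ ht hm hκ hf => CJAux.comp ht hm hκ hf
  timejet := CJAux.timejet

end Vale.Agent.P264
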