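import Vale.Agent.P264.StmS

/-! P264: coercivity at top order. -/

namespace Vale.Agent.P264

open scoped ContDiff
open Set MeasureTheory Filter

namespace Co

theorem iter_iter (l k : ℕ) (f : ℝ → ℝ) :
    iteratedDeriv l (iteratedDeriv k f) = iteratedDeriv (k + l) f := by
  simp only [iteratedDeriv_eq_iterate]
  rw [add_comm, Function.iterate_add_apply]

theorem int3 (hA : BaseA) {ε : ℝ} {H a b c : ℝ → ℝ} (ha : IntegrableOn a (dom ε))
    (hb : IntegrableOn b (dom ε)) (hc : IntegrableOn c (dom ε)) (α β γ : ℝ)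
    (h : ∀ x ∈ dom ε, H x = α * a x + β * b x + γ * c x) :
    ∫ x in dom ε, H x
      = α * (∫ x in dom ε, a x) + β * (∫ x in dom ε, b x) + γ * ∫ x in dom ε, c x := by
  have h1 : Integrable (fun x => α * a x + β * b x) (volume.restrict (dom ε)) :=
    (ha.const_mul α).add (hb.const_mul β)
  rw [setIntegral_congr_fun (hA.dom_open ε).measurableSet h, integral_add h1 (hc.const_mul γ),
    integral_add (ha.const_mul α) (hb.const_mul β), integral_const_mul, integral_const_mul,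
    integral_const_mul]

/-- Cauchy-Schwarz for a weighted pairing of two derivatives -/
theorem pair (hA : BaseA) {n : ℕ} (hn : 1 ≤ n) {lam ε : ℝ} (hP : Par lam ε) {r₁ r₂ : ℤ}
    {f₁ f₂ : ℝ → ℝ} (h1 : Adm lam ε r₁ f₁) (h2 : Adm lam ε r₂ f₂) (i₁ i₂ e₁ e₂ e : ℕ)
    (he : e₁ + e₂ = 2 * e) {s : ℤ} (hs : 2 * s = 2 * i₁ + r₁ + 2 * i₂ + r₂ - 2 * n - 2 * e)
    {c : ℝ → ℝ} {K X Y : ℝ} (hK : 0 ≤ K) (hc : ContinuousOn c (dom ε))
    (hb : ∀ x ∈ dom ε, |c x| ≤ K * vp lam x ^ s) (hX : TT n lam ε i₁ e₁ r₁ f₁ ≤ X)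
    (hY : TT n lam ε i₂ e₂ r₂ f₂ ≤ Y) :
    IntegrableOn (fun x => iteratedDeriv i₁ f₁ x * iteratedDeriv i₂ f₂ x * c x * WW n ε e x)
      (dom ε) ∧
    |∫ x in dom ε, iteratedDeriv i₁ f₁ x * iteratedDeriv i₂ f₂ x * c x * WW n ε e x|
      ≤ K * (√X * √Y) := by
  have ia : IntegrableOn (fun x => K ^ 2 * (iteratedDeriv i₁ f₁ x ^ 2 * wt n lam ε i₁ e₁ r₁ x))
      (dom ε) := (hA.intT n i₁ e₁ hP h1).const_mul _
  have ib := hA.intT n i₂ e₂ hP h2
  have key : ∀ x ∈ dom ε, 0 ≤ K ^ 2 * (iteratedDeriv i₁ f₁ x ^ 2 * wt n lam ε i₁ e₁ r₁ x) ∧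
      0 ≤ iteratedDeriv i₂ f₂ x ^ 2 * wt n lam ε i₂ e₂ r₂ x ∧
      (iteratedDeriv i₁ f₁ x * iteratedDeriv i₂ f₂ x * c x * WW n ε e x) ^ 2 ≤
        K ^ 2 * (iteratedDeriv i₁ f₁ x ^ 2 * wt n lam ε i₁ e₁ r₁ x) *
          (iteratedDeriv i₂ f₂ x ^ 2 * wt n lam ε i₂ e₂ r₂ x) := fun x hx => by
    have w1 := hA.wt_nonneg n (lam := lam) i₁ e₁ r₁ hx
    have w2 := hA.wt_nonneg n (lam := lam) i₂ e₂ r₂ hx
    refine ⟨by positivity, by positivity, ?_⟩
    have hv := (hA.vp_pos x hP.1).ne'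
    have e1 : wt n lam ε i₁ e₁ r₁ x * wt n lam ε i₂ e₂ r₂ x = (vp lam x ^ s * WW n ε e x) ^ 2 := by
      have e2 : WW n ε e₁ x * WW n ε e₂ x = WW n ε e x ^ 2 := by
        rw [WW, WW, WW, mul_mul_mul_comm, ← pow_add (om ε x), he]
        ring
      have e3 : (2 * (i₁ : ℤ) + r₁ - n - e₁) + (2 * (i₂ : ℤ) + r₂ - n - e₂) = s + s := by omega
      rw [hA.wt_eq _ _ _ hn hP.1, hA.wt_eq _ _ _ hn hP.1, mul_mul_mul_comm, e2, ← zpow_add₀ hv, e3,
        zpow_add₀ hv]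
      ring
    have h3 : c x ^ 2 ≤ (K * vp lam x ^ s) ^ 2 := sq_le_sq' (abs_le.1 (hb x hx)).1 (abs_le.1 (hb x hx)).2
    calc _ = (iteratedDeriv i₁ f₁ x * iteratedDeriv i₂ f₂ x * WW n ε e x) ^ 2 * c x ^ 2 := by ring
      _ ≤ (iteratedDeriv i₁ f₁ x * iteratedDeriv i₂ f₂ x * WW n ε e x) ^ 2 *
        (K * vp lam x ^ s) ^ 2 := mul_le_mul_of_nonneg_left h3 (sq_nonneg _)
      _ = _ := by
        linear_combination (-(K * iteratedDeriv i₁ f₁ x * iteratedDeriv i₂ f₂ x) ^ 2) * e1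
  have hW : Continuous (WW n ε e) := by unfold WW om; fun_prop
  refine ⟨Integrable.mono' (ia.add ib) (ContinuousOn.aestronglyMeasurable
    ((((hA.iter_cont i₁ h1.1).continuousOn.mul (hA.iter_cont i₂ h2.1).continuousOn).mul hc).mul
      hW.continuousOn) (hA.dom_open ε).measurableSet)
    ((ae_restrict_iff' (hA.dom_open ε).measurableSet).2 (ae_of_all _ fun x hx => ?_)),
    (hA.cs ia ib key).trans ?_⟩
  · obtain ⟨k1, k2, k3⟩ := key x hx
    refine abs_le_of_sq_le_sq (k3.trans ?_) (add_nonneg k1 k2)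
    rw [Pi.add_apply]
    nlinarith [mul_nonneg k1 k2]
  · rw [integral_const_mul, Real.sqrt_mul (sq_nonneg K), Real.sqrt_sq hK, mul_assoc]
    exact mul_le_mul_of_nonneg_left (mul_le_mul (Real.sqrt_le_sqrt hX) (Real.sqrt_le_sqrt hY)
      (Real.sqrt_nonneg _) (Real.sqrt_nonneg _)) hK

theorem TT_le (hA : BaseA) (n : ℕ) {lam ε : ℝ} (hP : Par lam ε) {r : ℤ} {f : ℝ → ℝ}
    (hf : Adm lam ε r f) {i e h : ℕ} (hi : i ≤ h) (he : i + 2 ≤ e) :
    TT n lam ε i e r f ≤ QQ n lam ε h r f :=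
  (hA.TT_anti n i hP hf (by omega)).trans (hA.TT_le_QQ n lam ε r f hi)

theorem syA_pos (hB : BaseB) {lam ε : ℝ} (hl : 0 < lam) {q : ℤ} {a : ℝ → ℝ} (ha : SyA lam ε q a)
    (h : ℕ) : ∃ M, 0 ≤ M ∧ Sy lam ε h q M a :=
  (ha h).elim fun M hM => ⟨max M 0, le_max_right _ _, hB.mono hl le_rfl (le_max_left _ _) hM⟩

theorem syA_mul (hB : BaseB) {lam ε : ℝ} (hl : 0 < lam) {q q' : ℤ} {a b : ℝ → ℝ}
    (ha : SyA lam ε q a) (hb : SyA lam ε q' b) : SyA lam ε (q + q') fun x => a x * b x := fun h => by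
  obtain ⟨M, h0, h1⟩ := syA_pos hB hl ha h
  obtain ⟨M', h0', h1'⟩ := syA_pos hB hl hb h
  exact ⟨_, hB.mul hl h0 h0' h1 h1'⟩

theorem syA_vp (hB : BaseB) {lam : ℝ} (ε : ℝ) (hl : 0 < lam) (q : ℤ) :
    SyA lam ε q fun x => vp lam x ^ q := fun h => (hB.vp_sy h q).imp fun _ hM => hM.2 ε hl

theorem deriv_mul_iter (hA : BaseA) {ε x : ℝ} {a f : ℝ → ℝ} (ha : ContDiffOn ℝ ∞ a (dom ε))
    (hf : ContDiffOn ℝ ∞ f (dom ε)) (k : ℕ) (hx : x ∈ dom ε) :
    deriv (fun y => a y * iteratedDeriv k f y) x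
      = iteratedDeriv 1 a x * iteratedDeriv k f x + a x * iteratedDeriv (k + 1) f x := by
  have h := hA.iter_deriv 0 ha hx
  rw [iteratedDeriv_zero] at h
  exact (h.mul (hA.iter_deriv k hf hx)).deriv

theorem Sy.zero {lam ε M : ℝ} {h : ℕ} {q : ℤ} {a : ℝ → ℝ} (ha : Sy lam ε h q M a) :
    ∀ x ∈ dom ε, |a x| ≤ M * vp lam x ^ q := fun x hx => by
  simpa using ha.2 0 (Nat.zero_le h) x hx

/-- the leading term -/
theorem top (hA : BaseA) (hB : BaseB) (hD : DelStmt) {n : ℕ} (k : ℕ) (p : ℤ) (hn : 1 ≤ n) :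
    ∃ K, 0 ≤ K ∧ ∀ (lam ε : ℝ) (f : ℝ → ℝ), Par lam ε → Adm lam ε (p - 2) f →
      TT n lam ε (k + 2) (k + 4) (p - 2) f
          - K * (√(QQ n lam ε (k + 2) (p - 2) f) * √(QQ n lam ε (k + 1) (p - 2) f))
        ≤ ∫ x in dom ε, iteratedDeriv k (LL n ε f) x * iteratedDeriv k f x
          * vp lam x ^ ((k : ℤ) + p - n - 2) * WW n ε (k + 2) x := by
  obtain ⟨q, hq⟩ : ∃ q : ℤ, q = k + p - n - 2 := ⟨_, rfl⟩
  obtain ⟨M, hM, hv⟩ := hB.vp_sy 2 q
  obtain ⟨c1, hc1⟩ : ∃ c, c = cc n 0 (k + 2) + cc n 1 (k + 2) := ⟨_, rfl⟩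
  obtain ⟨c0, hc0⟩ : ∃ c, c = cc n 0 (k + 2) * cc n 1 (k + 1) := ⟨_, rfl⟩
  refine ⟨3 * M + |c1| * (4 * M) + |c0| * (4 * M), by positivity, fun lam ε f hP hf => ?_⟩
  rw [← hq]
  have hm := hv ε hP.1
  have hm1 := hB.eps_mul hP hM hm
  have hm2 := hB.eps_mul hP (by positivity) hm1
  have hmA := syA_vp hB ε hP.1 q
  have hmA1 : SyA lam ε (q - 1) fun x => ε * vp lam x ^ q := fun h => by
    obtain ⟨M', h0, h1⟩ := syA_pos hB hP.1 hmA h
    exact ⟨_, hB.eps_mul hP h0 h1⟩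
  have hu := hB.adm_iter k hf
  have a1 : Adm lam ε (p - 2 + 2 * k - 2 * q) fun x => vp lam x ^ q * iteratedDeriv k f x :=
    hB.adm_mul hP.1 hmA (by rwa [sub_add_cancel])
  have a2 : Adm lam ε (p - 2 + 2 * k - 2 * (q - 1))
      fun x => ε * vp lam x ^ q * iteratedDeriv k f x :=
    hB.adm_mul hP.1 hmA1 (by rwa [sub_add_cancel])
  obtain ⟨i1, -, b1⟩ := hD.ibp (k + 2) hn hP (hB.adm_dl n (k + 3) hP (hB.adm_iter (k + 2) hf)) a1
    (by omega)
  obtain ⟨-, -, b2⟩ := hD.ibp (k + 3) hn hP (hB.adm_iter (k + 2) hf) (hB.adm_deriv a1) (by omega)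
  obtain ⟨i3, -, b3⟩ := hD.ibp (k + 2) hn hP (hB.adm_iter (k + 1) hf) a2 (by omega)
  have t := fun {i e h : ℕ} => TT_le hA n hP hf (i := i) (e := e) (h := h)
  obtain ⟨j1, p1⟩ := pair hA hn hP hf hf (k + 2) (k + 1) (k + 4) (k + 4) (k + 4) (by omega)
    (s := q - (1 : ℕ)) (by omega) hM (hA.iter_cont 1 hm.1).continuousOn (hm.2 1 (by omega))
    (t (h := k + 2) (by omega) (by omega)) (t (h := k + 1) (by omega) (by omega))
  obtain ⟨j2, p2⟩ := pair hA hn hP hf hf (k + 2) k (k + 4) (k + 4) (k + 4) (by omega)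
    (s := q - (2 : ℕ)) (by omega) hM (hA.iter_cont 2 hm.1).continuousOn (hm.2 2 (by omega))
    (t (h := k + 2) (by omega) (by omega)) (t (h := k + 1) (by omega) (by omega))
  obtain ⟨j3, p3⟩ := pair hA hn hP hf hf (k + 1) (k + 1) (k + 3) (k + 3) (k + 3) (by omega)
    (s := q - 1) (by omega) (by positivity) hm1.1.continuousOn (Sy.zero hm1)
    (t (h := k + 2) (by omega) (by omega)) (t (h := k + 1) (by omega) (by omega))
  obtain ⟨j4, p4⟩ := pair hA hn hP hf hf (k + 1) k (k + 3) (k + 3) (k + 3) (by omega)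
    (s := q - 1 - (1 : ℕ)) (by omega) (by positivity) (hA.iter_cont 1 hm1.1).continuousOn
    (hm1.2 1 (by omega))
    (t (h := k + 2) (by omega) (by omega)) (t (h := k + 1) (by omega) (by omega))
  obtain ⟨j5, p5⟩ := pair hA hn hP hf hf k k (k + 2) (k + 2) (k + 2) (by omega)
    (s := q - 1 - 1) (by omega) (by positivity) hm2.1.continuousOn (Sy.zero hm2)
    (t (h := k + 2) (by omega) (by omega)) (t (h := k + 1) (by omega) (by omega))
  have e1 := int3 hA (H := fun x => iteratedDeriv k (LL n ε f) x * iteratedDeriv k f x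
      * vp lam x ^ q * WW n ε (k + 2) x) i1 i3 j5 1 (-c1) c0 fun x hx => by
    rw [hD.top n k hf.1 hx, ← hc1, ← hc0]
    ring
  have e2 := int3 hA (H := fun x => iteratedDeriv (k + 2) f x *
      deriv (deriv fun x => vp lam x ^ q * iteratedDeriv k f x) x * WW n ε (k + 3 + 1) x)
      (hA.intT n (k + 2) (k + 4) hP hf) j1 j2 1 2 1 fun x hx => by
    have e3 : deriv (deriv fun x => vp lam x ^ q * iteratedDeriv k f x)
        = iteratedDeriv 2 fun x => vp lam x ^ q * iteratedDeriv k f x := by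
      rw [iteratedDeriv_succ, iteratedDeriv_one]
    have e4 := hA.wt_eq (ε := ε) (x := x) (k + 2) (k + 4) (p - 2) hn hP.1
    rw [show (2 * ((k + 2 : ℕ) : ℤ) + (p - 2) - n - (k + 4 : ℕ)) = q by omega,
      show ((k + 4 : ℕ) : ℤ) = k + 4 from rfl] at e4
    rw [e3, hA.iter_mul 2 hm.1 hu.1 hx, e4]
    simp only [Finset.sum_range_succ, Finset.sum_range_zero, iter_iter, iteratedDeriv_zero]
    norm_num
    ring
  have e3 := int3 hA (H := fun x => iteratedDeriv (k + 1) f x *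
      deriv (fun x => ε * vp lam x ^ q * iteratedDeriv k f x) x * WW n ε (k + 2 + 1) x)
      j3 j4 j4 1 1 0 fun x hx => by
    rw [deriv_mul_iter hA hm1.1 hf.1 k hx]
    ring
  rw [e1, b1, b2, b3, e2, e3]
  obtain ⟨E, hE⟩ : ∃ E, E = √(QQ n lam ε (k + 2) (p - 2) f) * √(QQ n lam ε (k + 1) (p - 2) f) :=
    ⟨_, rfl⟩
  rw [← hE] at p1 p2 p3 p4 p5 ⊢
  have q1 := mul_le_mul_of_nonneg_left ((abs_add_le _ _).trans (add_le_add p3 p4)) (abs_nonneg c1)
  have q2 := mul_le_mul_of_nonneg_left p5 (abs_nonneg c0)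
  rw [← abs_mul] at q1 q2
  unfold TT
  linarith [(abs_le.1 p1).1, (abs_le.1 p2).1, (abs_le.1 q1).1, (abs_le.1 q2).1]

/-- the term with one derivative on the coefficient -/
theorem one (hA : BaseA) (hB : BaseB) (hD : DelStmt) {n : ℕ} (hn : 1 ≤ n) (j : ℕ) {p : ℤ}
    {lam ε K X Y : ℝ} (hP : Par lam ε) {a F f : ℝ → ℝ} (hK : 0 ≤ K)
    (ha : Sy lam ε 1 (j + p - n - 1) K a) (haA : SyA lam ε (j + p - n - 1) a)
    (hF : Adm lam ε (p + 2) F) (hf : Adm lam ε (p - 2) f) (hX : QQ n lam ε j (p + 2) F ≤ X)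
    (hY : QQ n lam ε (j + 3) (p - 2) f ≤ Y) :
    |∫ x in dom ε, iteratedDeriv (j + 1) F x * iteratedDeriv (j + 2) f x * a x * WW n ε (j + 4) x|
      ≤ (2 + 4 * (n + (j + 3 : ℕ) + 2)) * K * (√X * √Y) := by
  have a1 : Adm lam ε (p - 2 + 2 * (j + 2 : ℕ) - 2 * (j + p - n - 1))
      fun x => a x * iteratedDeriv (j + 2) f x :=
    hB.adm_mul hP.1 haA (by rw [sub_add_cancel]; exact hB.adm_iter _ hf)
  obtain ⟨-, -, b1⟩ := hD.ibp (j + 3) hn hP a1 (hB.adm_iter j hF) (by omega)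
  have tF := (TT_le hA n hP hF (i := j) (e := j + 2) le_rfl le_rfl).trans hX
  have t := fun {i e : ℕ} h1 h2 =>
    (TT_le hA n hP hf (i := i) (e := e) (h := j + 3) h1 h2).trans hY
  have hl := hB.ell_sy n (j + 3) 0 hP
  obtain ⟨j1, p1⟩ := pair hA hn hP hF hf j (j + 3) (j + 2) (j + 6) (j + 4) (by omega)
    (by omega) hK ha.1.continuousOn (Sy.zero ha) tF (t (by omega) (by omega))
  obtain ⟨j2, p2⟩ := pair hA hn hP hF hf j (j + 2) (j + 2) (j + 6) (j + 4) (by omega)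
    (s := j + p - n - 1 - (1 : ℕ)) (by omega) hK (hA.iter_cont 1 ha.1).continuousOn (ha.2 1 le_rfl)
    tF (t (by omega) (by omega))
  obtain ⟨j3, p3⟩ := pair hA hn hP hF hf j (j + 2) (j + 2) (j + 4) (j + 3) (by omega)
    (s := j + p - n - 1) (by omega) (c := fun x => ell n ε (j + 3) x * a x)
    (K := 4 * (n + (j + 3 : ℕ) + 2) * K) (by positivity)
    (hl.1.continuousOn.mul ha.1.continuousOn) (fun x hx => by
      have h1 := Sy.zero hl x hx
      rw [zpow_zero, mul_one] at h1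
      rw [abs_mul, mul_assoc]
      exact mul_le_mul h1 (Sy.zero ha x hx) (abs_nonneg _) (by positivity))
    tF (t (by omega) (by omega))
  have e1 := int3 hA (H := fun x => dl n ε (j + 3) (fun x => a x * iteratedDeriv (j + 2) f x) x *
      iteratedDeriv j F x * WW n ε (j + 3) x) j1 j2 j3 1 1 1 fun x hx => by
    rw [dl, deriv_mul_iter hA ha.1 hf.1 _ hx]
    simp only [WW]
    ring
  have e2 : ∫ x in dom ε, iteratedDeriv (j + 1) F x * iteratedDeriv (j + 2) f x * a x *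
      WW n ε (j + 4) x = ∫ x in dom ε, a x * iteratedDeriv (j + 2) f x *
        deriv (iteratedDeriv j F) x * WW n ε (j + 3 + 1) x :=
    integral_congr_ae (ae_of_all _ fun x => by
      simp only [← iteratedDeriv_succ]
      ring)
  rw [e2, ← abs_neg, ← b1, e1, abs_le]
  constructor <;> linarith [abs_le.1 p1, abs_le.1 p2, abs_le.1 p3]

end Co

open Co in
theorem co (hA : BaseA) (hB : BaseB) (hD : DelStmt) (hH : HardyStmt) (hL : LStmt) (hP : PairStmt) :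
    CoStmt := by
  refine (fun _ _ => ?_) hH hP
  intro n k p M θ hn hk hM hθ
  obtain ⟨j, rfl⟩ := Nat.exists_eq_add_of_le' hk
  obtain ⟨K0, hK0, h0⟩ := top hA hB hD (j + 2) p hn
  obtain ⟨CL, hCL, hL'⟩ := hL n j (p - 2) hn
  obtain ⟨q, hq⟩ : ∃ q : ℤ, q = (j + 2 : ℕ) + p - n - 2 := ⟨_, rfl⟩
  obtain ⟨Mv, hMv, hv⟩ := hB.vp_sy 1 q
  have hM0 : 0 < M := by linarith
  obtain ⟨Mi, hMi, hi⟩ := hB.inv 1 M M⁻¹ (inv_pos.2 hM0)
  obtain ⟨K1, hK1⟩ : ∃ K : ℝ,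
    K = (2 + 4 * (n + (j + 3 : ℕ) + 2)) * (2 ^ 1 * (2 ^ 1 * M * Mi) * Mv) := ⟨_, rfl⟩
  have hK1' : 0 ≤ K1 := by rw [hK1]; positivity
  obtain ⟨K, hK⟩ : ∃ K : ℝ, K = K0 + ∑ i ∈ Finset.range (j + 2),
    ((j + 2).choose (i + 1) : ℝ) * ((K1 + M * M) * √CL) := ⟨_, rfl⟩
  refine ⟨K ^ 2 / θ, by positivity, fun lam ε G f hP hG hGs hGb hf => ?_⟩
  have hl := hP.1
  have hF : Adm lam ε (p + 2) (LL n ε f) := by
    have h := hB.adm_LL n hP hf
    rwa [show p - 2 + 4 = p + 2 by ring] at h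
  have hX : QQ n lam ε j (p + 2) (LL n ε f) ≤ CL * QQ n lam ε (j + 4) (p - 2) f := by
    have h := hL' lam ε f hP hf
    rwa [show p - 2 + 4 = p + 2 by ring] at h
  have hG0 : ∀ x ∈ dom ε, 0 < G x := fun x hx => (inv_pos.2 hM0).trans_le (hGb x hx)
  have hGi : SyA lam ε 0 fun x => (G x)⁻¹ := fun h => by
    obtain ⟨M', h1⟩ := hG h
    obtain ⟨M'', -, h2⟩ := hB.inv h M' M⁻¹ (inv_pos.2 hM0)
    exact ⟨_, h2 hl h1 hGb⟩
  have hc : ∀ i, ContinuousOn (fun x => iteratedDeriv i G x * (G x)⁻¹ * vp lam x ^ q) (dom ε) :=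
    fun i => ((hA.iter_cont i hGs.1).continuousOn.mul (hGi 0).choose_spec.1.continuousOn).mul
      (hv ε hl).1.continuousOn
  have hb : ∀ i ≤ j + 2, ∀ x ∈ dom ε, |iteratedDeriv i G x * (G x)⁻¹ * vp lam x ^ q|
      ≤ M * M * vp lam x ^ (q - i) := fun i hi x hx => by
    have h1 := hA.vp_pos x hl
    have h2 := hG0 x hx
    have h3 : (G x)⁻¹ ≤ M := (inv_le_comm₀ h2 hM0).2 (hGb x hx)
    rw [abs_mul, abs_mul, abs_of_pos (inv_pos.2 h2), abs_of_pos (zpow_pos h1 q),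
      show q - i = 0 - i + q by ring, zpow_add₀ h1.ne']
    calc _ ≤ M * vp lam x ^ (0 - i : ℤ) * M * vp lam x ^ q := by
          gcongr
          exact hGs.2 i hi x hx
      _ = _ := by ring
  have hp := fun (i : ℕ) (hi : i ≤ j + 2) {X Y : ℝ} => pair hA hn hP hF hf (j + 2 - i) (j + 2)
    (j + 2 - i + 2) (j + 2 + i + 2) (j + 2 + 2) (by omega) (s := q - i) (by omega) (X := X) (Y := Y)
    (by positivity) (hc i) (hb i hi)
  have e1 : PP n lam ε (j + 2) p (fun x => (G x)⁻¹) (fun x => G x * LL n ε f x) f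
      = ∑ i ∈ Finset.range (j + 2 + 1), ((j + 2).choose i : ℝ) * ∫ x in dom ε,
        iteratedDeriv (j + 2 - i) (LL n ε f) x * iteratedDeriv (j + 2) f x *
          (iteratedDeriv i G x * (G x)⁻¹ * vp lam x ^ q) * WW n ε (j + 2 + 2) x := by
    simp only [← integral_const_mul]
    rw [← integral_finsetSum _ fun i hi => (hp i (Nat.lt_succ_iff.1 (Finset.mem_range.1 hi))
      le_rfl le_rfl).1.const_mul _]
    refine setIntegral_congr_fun (hA.dom_open ε).measurableSet fun x hx => ?_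
    have e4 := hA.wt_eq (ε := ε) (x := x) (j + 2) (j + 2 + 2) p hn hl
    rw [show (2 * ((j + 2 : ℕ) : ℤ) + p - n - (j + 2 + 2 : ℕ)) = q by omega,
      show ((j + 2 + 2 : ℕ) : ℤ) = (j + 2 : ℕ) + 2 from rfl] at e4
    simp only
    rw [hA.iter_mul _ hGs.1 hF.1 hx, e4, Finset.sum_mul,
      Finset.sum_mul, Finset.sum_mul]
    exact Finset.sum_congr rfl fun i _ => by ring
  obtain ⟨E, hE⟩ : ∃ E, E = √(QQ n lam ε (j + 4) (p - 2) f) * √(QQ n lam ε (j + 3) (p - 2) f) :=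
    ⟨_, rfl⟩
  have hE0 : 0 ≤ √CL * E := by rw [hE]; positivity
  have eE : √(CL * QQ n lam ε (j + 4) (p - 2) f) * √(QQ n lam ε (j + 3) (p - 2) f) = √CL * E := by
    rw [Real.sqrt_mul hCL, hE, mul_assoc]
  have h1 : ∀ i ∈ Finset.range (j + 2), -((K1 + M * M) * √CL * E) ≤ ∫ x in dom ε,
      iteratedDeriv (j + 2 - (i + 1)) (LL n ε f) x * iteratedDeriv (j + 2) f x *
        (iteratedDeriv (i + 1) G x * (G x)⁻¹ * vp lam x ^ q) * WW n ε (j + 2 + 2) x := by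
    intro i hi'
    have hi2 := Finset.mem_range.1 hi'
    rcases i with _ | i
    · have eq : (0 : ℤ) - 1 + 0 + q = j + p - n - 1 := by omega
      have s1 := hB.mul hl (by positivity) hMv (hB.mul hl hM0.le hMi
        (hB.deriv (hB.mono hl (by omega) le_rfl hGs)) (hi hl (hB.mono hl (by omega) le_rfl hGs) hGb))
        (hv ε hl)
      have s2 := syA_mul hB hl (syA_mul hB hl (fun h => (hG (h + 1)).imp fun _ => hB.deriv) hGi)
        (syA_vp hB ε hl q)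
      rw [eq] at s1 s2
      have h2 := (abs_le.1 (one hA hB hD hn j hP (by positivity) s1 s2 hF hf hX le_rfl)).1
      rw [eE, ← hK1] at h2
      rw [zero_add, iteratedDeriv_one]
      refine le_trans ?_ h2
      nlinarith [mul_nonneg (mul_self_nonneg M) hE0]
    · have h2 := (abs_le.1 (hp (i + 1 + 1) (by omega)
        ((TT_le hA n hP hF (h := j) (by omega) le_rfl).trans hX)
        (TT_le hA n hP hf (h := j + 3) (by omega) (by omega))).2).1
      rw [eE] at h2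
      refine le_trans ?_ h2
      nlinarith [mul_nonneg hK1' hE0]
  have h2 := Finset.sum_le_sum fun i hi => mul_le_mul_of_nonneg_left (h1 i hi)
    (Nat.cast_nonneg (α := ℝ) ((j + 2).choose (i + 1)))
  have h3 := h0 lam ε f hP hf
  have e2 : ∫ x in dom ε, iteratedDeriv (j + 2 - 0) (LL n ε f) x * iteratedDeriv (j + 2) f x *
      (iteratedDeriv 0 G x * (G x)⁻¹ * vp lam x ^ q) * WW n ε (j + 2 + 2) x
      = ∫ x in dom ε, iteratedDeriv (j + 2) (LL n ε f) x * iteratedDeriv (j + 2) f x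
        * vp lam x ^ q * WW n ε (j + 2 + 2) x :=
    setIntegral_congr_fun (hA.dom_open ε).measurableSet fun x hx => by
      simp only [iteratedDeriv_zero, mul_inv_cancel₀ (hG0 x hx).ne', one_mul, Nat.sub_zero]
  have e3 : ∑ i ∈ Finset.range (j + 2), ((j + 2).choose (i + 1) : ℝ) * -((K1 + M * M) * √CL * E)
      = K0 * E - K * E := by
    rw [hK, add_mul K0, Finset.sum_mul, sub_add_cancel_left, ← Finset.sum_neg_distrib]
    exact Finset.sum_congr rfl fun i _ => by ring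
  have h4 : K * E ≤ θ * QQ n lam ε (j + 4) (p - 2) f + K ^ 2 / θ * QQ n lam ε (j + 3) (p - 2) f := by
    have q1 := Real.sq_sqrt (hA.QQ_nonneg n lam ε (j + 4) (p - 2) f)
    have q2 := Real.sq_sqrt (hA.QQ_nonneg n lam ε (j + 3) (p - 2) f)
    rw [← q1, ← q2, hE]
    generalize √(QQ n lam ε (j + 4) (p - 2) f) = a
    generalize √(QQ n lam ε (j + 3) (p - 2) f) = b
    refine le_of_mul_le_mul_left ?_ hθ
    rw [mul_add, ← mul_assoc θ (K ^ 2 / θ), mul_div_cancel₀ _ hθ.ne']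
    nlinarith [sq_nonneg (θ * a - K * b), sq_nonneg (θ * a), sq_nonneg (K * b)]
  rw [← hq, ← hE] at h3
  rw [e3] at h2
  rw [e1, Finset.sum_range_succ', e2, Nat.choose_zero_right, Nat.cast_one, one_mul]
  linarith

end Vale.Agent.P264
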