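import Vale.Agent.P264.StmS

/-!
The operators `dl` and `LL`.
-/

namespace Vale.Agent.P264

open scoped ContDiff
open Set MeasureTheory Filter

namespace Del

/-- `u 0, ..., u N` are successive derivatives on `U` -/
def Ch (U : Set ℝ) (N : ℕ) (u : ℕ → ℝ → ℝ) : Prop :=
  ∀ i < N, ∀ y ∈ U, HasDerivAt (u i) (u (i + 1) y) y

/-- the derivatives of `dl j (u 0)` -/
noncomputable def Dv (n : ℕ) (ε : ℝ) (j : ℕ) (u : ℕ → ℝ → ℝ) (m : ℕ) (y : ℝ) : ℝ :=
  om ε y * u (m + 1) y + ell n ε (j + m) y * u m y - ε * cc n j m * u (m - 1) y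

theorem om_deriv (ε y : ℝ) : HasDerivAt (om ε) (1 - 2 * ε * y) y := by
  have := (hasDerivAt_id' y).mul (((hasDerivAt_id' y).const_mul ε).const_sub 1)
  exact this.congr_deriv (by ring)

theorem ell_deriv (n : ℕ) (ε : ℝ) (j : ℕ) (y : ℝ) :
    HasDerivAt (ell n ε j) (-(ε * (n + 1 + 2 * j))) y := by
  have := ((((hasDerivAt_id' y).const_mul ε).const_sub 1).const_mul ((n : ℝ) - 1)).add
    ((((hasDerivAt_id' y).const_mul (2 * ε)).const_sub 1).const_mul ((j : ℝ) + 1))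
  exact this.congr_deriv (by ring)

theorem ch_Dv (n : ℕ) (ε : ℝ) (j : ℕ) {U : Set ℝ} {N : ℕ} {u : ℕ → ℝ → ℝ} (h : Ch U (N + 1) u) :
    Ch U N (Dv n ε j u) := by
  intro m hm y hy
  have h1 := (((om_deriv ε y).mul (h (m + 1) (by omega) y hy)).add
    ((ell_deriv n ε (j + m) y).mul (h m (by omega) y hy))).sub
    ((h (m - 1) (by omega) y hy).const_mul (ε * cc n j m))
  refine h1.congr_deriv ?_
  rcases m with _ | m <;> simp only [Dv, ell, cc, Nat.add_sub_cancel] <;> push_cast <;> ring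

theorem iter_eq {U : Set ℝ} (hU : IsOpen U) {N : ℕ} {u : ℕ → ℝ → ℝ} (h : Ch U N u) {g : ℝ → ℝ}
    (hg : EqOn g (u 0) U) (m : ℕ) (hm : m ≤ N) : EqOn (iteratedDeriv m g) (u m) U := by
  induction m with
  | zero => rwa [iteratedDeriv_zero]
  | succ m ih =>
    intro y hy
    rw [iteratedDeriv_succ, ((ih (by omega)).eventuallyEq_of_mem (hU.mem_nhds hy)).deriv_eq]
    exact (h m (by omega) y hy).deriv

theorem dl_eq (n : ℕ) (ε : ℝ) (j : ℕ) {U : Set ℝ} (hU : IsOpen U) {N : ℕ} {u : ℕ → ℝ → ℝ}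
    (h : Ch U (N + 1) u) {g : ℝ → ℝ} (hg : EqOn g (u 0) U) :
    EqOn (dl n ε j g) (Dv n ε j u 0) U := by
  intro y hy
  have h1 := iter_eq hU h hg 1 (by omega) hy
  rw [iteratedDeriv_one] at h1
  simp only [dl, Dv, cc, h1, hg hy, Nat.cast_zero, zero_mul, mul_zero, sub_zero, add_zero]

theorem dldl_eq (n : ℕ) (ε : ℝ) (j : ℕ) {U : Set ℝ} (hU : IsOpen U) {u : ℕ → ℝ → ℝ}
    (h : Ch U 2 u) {g : ℝ → ℝ} (hg : EqOn g (u 0) U) {y : ℝ} (hy : y ∈ U) :
    dl n ε j (dl n ε (j + 1) g) y = om ε y ^ 2 * u 2 y +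
      om ε y * (ell n ε (j + 2) y + ell n ε j y) * u 1 y +
      (ell n ε j y * ell n ε (j + 1) y - ε * om ε y * cc n (j + 1) 1) * u 0 y := by
  rw [dl_eq n ε j hU (ch_Dv n ε (j + 1) h) (dl_eq n ε (j + 1) hU h hg) hy]
  simp only [Dv, cc, Nat.cast_zero, zero_mul, mul_zero, sub_zero, add_zero, zero_add,
    Nat.sub_self, add_assoc j, Nat.reduceAdd]
  ring

theorem LL_eq (n : ℕ) (ε : ℝ) (j : ℕ) {U : Set ℝ} (hU : IsOpen U) {u : ℕ → ℝ → ℝ}
    (h : Ch U (j + 4) u) {g : ℝ → ℝ} (hg : EqOn g (u 0) U) {y : ℝ} (hy : y ∈ U) :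
    iteratedDeriv j (LL n ε g) y = om ε y ^ 2 * u (j + 4) y +
      om ε y * (ell n ε (j + 4) y + ell n ε (j + 2) y) * u (j + 3) y +
      (ell n ε (j + 2) y * ell n ε (j + 3) y - ε * om ε y * (cc n 1 (j + 3) + cc n 0 (j + 2))) *
        u (j + 2) y +
      ε * (-(ell n ε (j + 2) y * (cc n 1 (j + 2) + cc n 0 (j + 2)))) * u (j + 1) y +
      ε ^ 2 * (cc n 0 (j + 2) * cc n 1 (j + 1)) * u j y := by
  have h1 := ch_Dv n ε 1 h
  have h2 := iter_eq hU (ch_Dv n ε 0 h1) (dl_eq n ε 0 hU h1 (dl_eq n ε 1 hU h hg)) (j + 2) le_rfl hy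
  rw [iteratedDeriv_succ', iteratedDeriv_succ'] at h2
  refine h2.trans ?_
  have e1 : 1 + (j + 2 + 1) = j + 4 := by omega
  have e2 : 1 + (j + 2) = j + 3 := by omega
  have e3 : 1 + (j + 1) = j + 2 := by omega
  simp only [Dv, zero_add, Nat.add_succ_sub_one, e1, e2, e3, add_zero]
  ring

theorem ch_dom (hA : BaseA) {ε : ℝ} {f : ℝ → ℝ} (hf : ContDiffOn ℝ ∞ f (dom ε)) (N k : ℕ) :
    Ch (dom ε) N fun i => iteratedDeriv (k + i) f := fun i _ _ hy => hA.iter_deriv (k + i) hf hy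

theorem ch_dom0 (hA : BaseA) {ε : ℝ} {f : ℝ → ℝ} (hf : ContDiffOn ℝ ∞ f (dom ε)) (N : ℕ) :
    Ch (dom ε) N fun i => iteratedDeriv i f := fun i _ _ hy => hA.iter_deriv i hf hy

theorem eq0 (f : ℝ → ℝ) (U : Set ℝ) : EqOn f (iteratedDeriv 0 f) U := by
  rw [iteratedDeriv_zero]; exact fun _ _ => rfl

theorem ch_at {f : ℝ → ℝ} {x : ℝ} (hf : ContDiffAt ℝ ∞ f x) (N : ℕ) :
    ∃ U, IsOpen U ∧ x ∈ U ∧ Ch U N fun i => iteratedDeriv i f := by
  have h1 : ContDiffAt ℝ N f x := hf.of_le (by exact_mod_cast le_top)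
  obtain ⟨U, h2, h3, h4⟩ := eventually_nhds_iff.1 (h1.eventually (by simp))
  refine ⟨U, h3, h4, fun i hi y hy => ?_⟩
  have h5 : DifferentiableAt ℝ (iteratedDeriv i f) y :=
    ((h2 y hy).differentiableAt_iteratedFDeriv (by exact_mod_cast hi)).continuousMultilinear_apply_const
      fun _ => 1
  beta_reduce
  rw [iteratedDeriv_succ]
  exact h5.hasDerivAt

theorem om_smooth (ε : ℝ) : ContDiff ℝ ∞ (om ε) := by unfold om; fun_prop

theorem ell_smooth (n : ℕ) (ε : ℝ) (j : ℕ) : ContDiff ℝ ∞ (ell n ε j) := by unfold ell; fun_prop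

/-- the coefficients of `LL` -/
noncomputable def cj (n : ℕ) : ℕ → ℝ × ℝ → ℝ
  | 0, p => p.1 ^ 2 * (cc n 0 2 * cc n 1 1)
  | 1, p => p.1 * (-(ell n p.1 2 p.2 * (cc n 1 2 + cc n 0 2)))
  | 2, p => ell n p.1 2 p.2 * ell n p.1 3 p.2 - p.1 * om p.1 p.2 * (cc n 1 3 + cc n 0 2)
  | 3, p => om p.1 p.2 * (ell n p.1 4 p.2 + ell n p.1 2 p.2)
  | _ + 4, p => om p.1 p.2 ^ 2

theorem cj_smooth (n i : ℕ) : ContDiff ℝ ∞ (cj n i) := by
  change ContDiff ℝ ∞ fun p => cj n i p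
  rcases i with _ | _ | _ | _ | i <;> simp only [cj, om, ell] <;> fun_prop

theorem dl_smooth (hA : BaseA) (n j : ℕ) {ε : ℝ} {f : ℝ → ℝ} (hf : ContDiffOn ℝ ∞ f (dom ε)) :
    ContDiffOn ℝ ∞ (dl n ε j f) (dom ε) :=
  ((om_smooth ε).contDiffOn.mul (hf.deriv_of_isOpen (hA.dom_open ε) le_rfl)).add
    ((ell_smooth n ε j).contDiffOn.mul hf)

theorem dl_congr (n : ℕ) (ε : ℝ) (j : ℕ) {f g : ℝ → ℝ} {x : ℝ} (h : f =ᶠ[nhds x] g) :
    dl n ε j f =ᶠ[nhds x] dl n ε j g := by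
  filter_upwards [h, h.deriv] with y h1 h2
  simp only [dl, h1, h2]

theorem ell_bd (n j : ℕ) {ε x : ℝ} (hε : 0 ≤ ε) (hx : x ∈ dom ε) : |ell n ε j x| ≤ n + j + 2 := by
  have h1 : 0 ≤ ε * x := mul_nonneg hε hx.1.le
  have h2 : ε * x < 1 := hx.2
  have h3 : (0 : ℝ) ≤ n := n.cast_nonneg
  have h4 : (0 : ℝ) ≤ j := j.cast_nonneg
  have h5 := mul_nonneg h3 h1
  have h6 := mul_nonneg h4 h1
  have h7 := mul_le_mul_of_nonneg_left h2.le h3
  have h8 := mul_le_mul_of_nonneg_left h2.le h4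
  rw [ell, abs_le]
  constructor <;> nlinarith

theorem om_bd {ε x : ℝ} (hε : 0 ≤ ε) (hx : x ∈ dom ε) : |ε * om ε x| ≤ 1 := by
  have h1 : 0 ≤ ε * x := mul_nonneg hε hx.1.le
  have h2 : ε * x < 1 := hx.2
  rw [om, abs_le]
  constructor <;> nlinarith

theorem bd_add {a b A B : ℝ} (ha : |a| ≤ A) (hb : |b| ≤ B) : |a + b| ≤ A + B :=
  (abs_add_le a b).trans (add_le_add ha hb)

theorem bd_mul {a b A B : ℝ} (ha : |a| ≤ A) (hb : |b| ≤ B) : |a * b| ≤ A * B := by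
  rw [abs_mul]; exact mul_le_mul ha hb (abs_nonneg _) ((abs_nonneg _).trans ha)

theorem bd_sub {a b A B : ℝ} (ha : |a| ≤ A) (hb : |b| ≤ B) : |a - b| ≤ A + B :=
  (abs_sub a b).trans (add_le_add ha hb)

theorem deriv_dil (τ : ℝ) (f : ℝ → ℝ) : (deriv fun y => f (τ * y)) = fun y => τ * deriv f (τ * y) :=
  funext fun _ => deriv_comp_mul_left _ _ _

theorem dl_dil (n : ℕ) (ε τ : ℝ) (j : ℕ) (f : ℝ → ℝ) :
    (dl n (τ * ε) j fun y => f (τ * y)) = fun y => dl n ε j f (τ * y) := by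
  funext y
  simp only [dl, deriv_dil, om, ell]
  ring

theorem dl_const_mul (n : ℕ) (ε c : ℝ) (j : ℕ) (f : ℝ → ℝ) :
    (dl n ε j fun y => c * f y) = fun y => c * dl n ε j f y := by
  funext y
  simp only [dl, deriv_const_mul_field]
  ring

theorem WW_deriv {n : ℕ} (hn : 1 ≤ n) (ε : ℝ) (j : ℕ) (x : ℝ) :
    HasDerivAt (WW n ε (j + 1)) (ell n ε j x * WW n ε j x) x := by
  obtain ⟨k, rfl⟩ : ∃ k, n = k + 1 := ⟨n - 1, by omega⟩
  have h := (hasDerivAt_pow k x).mul ((om_deriv ε x).pow (j + 1))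
  refine h.congr_deriv ?_
  rcases k with _ | k <;> simp only [WW, ell, om, Nat.add_sub_cancel, Pi.pow_apply] <;> push_cast <;>
    ring

theorem WW_cont (n : ℕ) (ε : ℝ) (j : ℕ) : Continuous (WW n ε j) := by unfold WW om; fun_prop

theorem WW_bd (hA : BaseA) (n j : ℕ) {lam ε x : ℝ} (hε : 0 ≤ ε) (hx : x ∈ dom ε) :
    0 ≤ WW n ε j x ∧ WW n ε j x ≤ vp lam x ^ (n - 1 + j) := by
  have h1 : 0 ≤ ε * x := mul_nonneg hε hx.1.le
  have h2 : 0 ≤ om ε x := mul_nonneg hx.1.le (sub_nonneg.2 hx.2.le)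
  have h3 := hA.x_le lam x
  have h4 : om ε x ≤ vp lam x :=
    (mul_le_of_le_one_right hx.1.le (by linarith)).trans h3
  refine ⟨mul_nonneg (pow_nonneg hx.1.le _) (pow_nonneg h2 _), ?_⟩
  rw [pow_add]
  exact mul_le_mul (pow_le_pow_left₀ hx.1.le h3 _) (pow_le_pow_left₀ h2 h4 _) (pow_nonneg h2 _)
    (pow_nonneg (hx.1.le.trans h3) _)

theorem prod_bd (hA : BaseA) {lam ε : ℝ} (hl : 0 < lam) {r r' : ℤ} {A B : ℝ → ℝ}
    (h1 : Adm lam ε r A) (h2 : Adm lam ε r' B) (k : ℕ) (hk : r + r' + 2 = 2 * ((k : ℤ) + 2)) :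
    ∃ C, ∀ x ∈ dom ε, ∀ w, 0 ≤ w → w ≤ vp lam x ^ k → |A x * B x * w| ≤ C * vp lam x ^ (-2 : ℤ) := by
  obtain ⟨C₁, hC₁⟩ := h1.2 0
  obtain ⟨C₂, hC₂⟩ := h2.2 0
  refine ⟨√(C₁ * C₂), fun x hx w hw0 hw => ?_⟩
  have hv := hA.vp_pos x hl
  have a1 := hC₁ x hx
  have a2 := hC₂ x hx
  rw [iteratedDeriv_zero] at a1 a2
  have a3 := mul_le_mul a1 a2 (by positivity) (le_trans (by positivity) a1)
  have a4 : (|A x * B x| * vp lam x ^ (k + 2)) ^ 2 ≤ C₁ * C₂ := by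
    refine le_trans (le_of_eq ?_) a3
    rw [mul_mul_mul_comm, ← zpow_add₀ hv.ne', mul_pow, sq_abs, mul_pow, ← pow_mul, ← zpow_natCast (vp lam x)]
    congr 2
    push_cast
    linarith
  have a5 := Real.le_sqrt_of_sq_le a4
  rw [zpow_neg, zpow_ofNat, ← div_eq_mul_inv, le_div_iff₀ (by positivity), abs_mul, abs_of_nonneg hw0]
  refine le_trans ?_ a5
  rw [pow_add, mul_assoc]
  gcongr

theorem ibp (hA : BaseA) (hB : BaseB) {n : ℕ} (j : ℕ) {lam ε : ℝ} {r₁ r₂ : ℤ} {A B : ℝ → ℝ}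
    (hn : 1 ≤ n) (hp : Par lam ε) (h1 : Adm lam ε r₁ A) (h2 : Adm lam ε r₂ B)
    (hr : 2 * ((n : ℤ) + j) ≤ r₁ + r₂) :
    IntegrableOn (fun x => dl n ε j A x * B x * WW n ε j x) (dom ε) ∧
    IntegrableOn (fun x => A x * deriv B x * WW n ε (j + 1) x) (dom ε) ∧
    ∫ x in dom ε, dl n ε j A x * B x * WW n ε j x
      = -∫ x in dom ε, A x * deriv B x * WW n ε (j + 1) x := by
  have h3 : Adm lam ε (2 * ((n : ℤ) + j) - r₁) B := hB.adm_mono hp.1 (by linarith) h2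
  have hk : ((n - 1 + j : ℕ) : ℤ) = n - 1 + j := by omega
  have hk' : ((n - 1 + (j + 1) : ℕ) : ℤ) = n + j := by omega
  obtain ⟨C₁, hC₁⟩ := prod_bd hA hp.1 (hB.adm_dl n j hp h1) h3 (n - 1 + j) (by rw [hk]; ring)
  obtain ⟨C₂, hC₂⟩ := prod_bd hA hp.1 h1 (hB.adm_deriv h3) (n - 1 + (j + 1)) (by rw [hk']; ring)
  obtain ⟨C₃, hC₃⟩ := prod_bd hA hp.1 h1 h3 (n - 1 + j) (by rw [hk]; ring)
  have i1 : IntegrableOn (fun x => dl n ε j A x * B x * WW n ε j x) (dom ε) :=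
    hA.int_of_bound hp.1 (((dl_smooth hA n j h1.1).continuousOn.mul h2.1.continuousOn).mul
      (WW_cont n ε j).continuousOn)
      fun x hx => hC₁ x hx _ (WW_bd hA n j (lam := lam) hp.2.1 hx).1 (WW_bd hA n j hp.2.1 hx).2
  have i2 : IntegrableOn (fun x => A x * deriv B x * WW n ε (j + 1) x) (dom ε) :=
    hA.int_of_bound hp.1 ((h1.1.continuousOn.mul (hB.adm_deriv h3).1.continuousOn).mul
      (WW_cont n ε (j + 1)).continuousOn)
      fun x hx => hC₂ x hx _ (WW_bd hA n _ (lam := lam) hp.2.1 hx).1 (WW_bd hA n _ hp.2.1 hx).2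
  refine ⟨i1, i2, ?_⟩
  rw [eq_neg_iff_add_eq_zero, ← integral_add i1 i2]
  refine hA.ftc (C := C₃) (H := fun x => A x * B x * WW n ε (j + 1) x) hp (fun x hx => ?_)
    (i1.add i2) fun x hx => ?_
  · have d : ∀ {f : ℝ → ℝ}, ContDiffOn ℝ ∞ f (dom ε) → HasDerivAt f (deriv f x) x := fun hf =>
      ((hf.contDiffAt ((hA.dom_open ε).mem_nhds hx)).differentiableAt (by simp)).hasDerivAt
    refine (((d h1.1).mul (d h2.1)).mul (WW_deriv hn ε j x)).congr_deriv ?_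
    simp only [dl, WW, Pi.mul_apply]
    ring
  · have a1 := hC₃ x hx _ (WW_bd hA n j (lam := lam) hp.2.1 hx).1 (WW_bd hA n j hp.2.1 hx).2
    have a2 : 0 ≤ om ε x := mul_nonneg hx.1.le (sub_nonneg.2 hx.2.le)
    have a3 : A x * B x * WW n ε (j + 1) x = A x * B x * WW n ε j x * om ε x := by
      simp only [WW]; ring
    rw [a3, abs_mul, abs_of_nonneg a2]
    refine (mul_le_mul_of_nonneg_right a1 a2).trans (le_of_eq ?_)
    rw [zpow_neg, zpow_ofNat, om]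
    ring

end Del

open Del in
theorem del (hA : BaseA) (hB : BaseB) : DelStmt where
  dl_smooth := dl_smooth hA
  LL_smooth := fun n ε _ hf =>
    (((dl_smooth hA n 0 (dl_smooth hA n 1 hf)).deriv_of_isOpen (hA.dom_open ε)
      le_rfl).deriv_of_isOpen (hA.dom_open ε) le_rfl)
  LL_congr := fun n ε _ _ _ h => (dl_congr n ε 0 (dl_congr n ε 1 h)).deriv.deriv
  LL_lin := by
    intro n ε f g a b x hf hg hx
    have h := fun {f : ℝ → ℝ} (hf : ContDiffOn ℝ ∞ f (dom ε)) =>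
      LL_eq n ε 0 (hA.dom_open ε) (ch_dom0 hA hf _) (eq0 f _) hx
    have h1 := h ((contDiffOn_const.mul hf).add (contDiffOn_const.mul hg) :
      ContDiffOn ℝ ∞ (fun y => a * f y + b * g y) (dom ε))
    have h2 := h hf
    have h3 := h hg
    simp only [fun i => hA.iter_lin a b i hf hg hx] at h1
    rw [iteratedDeriv_zero (f := LL n ε _)] at h1 h2 h3
    rw [h1, h2, h3]
    ring
  iter := by
    intro n j m ε f x hf hx
    have h := ch_dom0 hA hf (m + 1)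
    rw [iter_eq (hA.dom_open ε) (ch_Dv n ε j h) (dl_eq n ε j (hA.dom_open ε) h (eq0 f _)) m le_rfl
      hx, Dv, dl, iteratedDeriv_succ]
  top := by
    intro n j ε f x hf hx
    rw [LL_eq n ε j (hA.dom_open ε) (ch_dom0 hA hf _) (eq0 f _) hx,
      dldl_eq n ε (j + 2) (hA.dom_open ε) (ch_dom hA hf 2 (j + 2)) (fun _ _ => rfl) hx,
      dl, ← iteratedDeriv_succ]
    simp only [cc, add_assoc j, Nat.reduceAdd, add_zero]
    push_cast
    ring
  dldl := by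
    intro n j
    refine ⟨max ((n + (j + 2 : ℕ) + 2) + (n + j + 2))
      ((n + j + 2) * (n + (j + 1 : ℕ) + 2) + 1 * |cc n (j + 1) 1|), fun {ε} hε =>
      ⟨fun y => ell n ε (j + 2) y + ell n ε j y,
        fun y => ell n ε j y * ell n ε (j + 1) y - ε * om ε y * cc n (j + 1) 1,
        (ell_smooth n ε _).continuous.add (ell_smooth n ε _).continuous,
        ((ell_smooth n ε _).continuous.mul (ell_smooth n ε _).continuous).sub
          ((continuous_const.mul (om_smooth ε).continuous).mul continuous_const),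
        fun x hx => ⟨(bd_add (ell_bd n _ hε hx) (ell_bd n _ hε hx)).trans (le_max_left _ _),
          (bd_sub (bd_mul (ell_bd n _ hε hx) (ell_bd n _ hε hx))
            (bd_mul (om_bd hε hx) le_rfl)).trans (le_max_right _ _)⟩, fun {u x} hu hx => ?_⟩⟩
    rw [dldl_eq n ε j (hA.dom_open ε) (ch_dom0 hA hu 2) (eq0 u _) hx, iteratedDeriv_zero]
  expand := by
    intro n j
    refine ⟨max (max ((n + (j + 4 : ℕ) + 2) + (n + (j + 2 : ℕ) + 2))
      ((n + (j + 2 : ℕ) + 2) * (n + (j + 3 : ℕ) + 2) + 1 * |cc n 1 (j + 3) + cc n 0 (j + 2)|))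
      (max ((n + (j + 2 : ℕ) + 2) * |cc n 1 (j + 2) + cc n 0 (j + 2)|)
        |cc n 0 (j + 2) * cc n 1 (j + 1)|), fun {ε} hε =>
      ⟨_, _, _, _, fun x hx => ⟨?_, ?_, ?_, ?_⟩, fun {f x} hf hx =>
        LL_eq n ε j (hA.dom_open ε) (ch_dom0 hA hf _) (eq0 f _) hx⟩⟩
    · exact (bd_add (ell_bd n _ hε hx) (ell_bd n _ hε hx)).trans
        ((le_max_left _ _).trans (le_max_left _ _))
    · exact (bd_sub (bd_mul (ell_bd n _ hε hx) (ell_bd n _ hε hx))
        (bd_mul (om_bd hε hx) le_rfl)).trans ((le_max_right _ _).trans (le_max_left _ _))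
    · rw [abs_neg]
      exact (bd_mul (ell_bd n _ hε hx) le_rfl).trans ((le_max_left _ _).trans (le_max_right _ _))
    · exact (le_max_right _ _).trans (le_max_right _ _)
  jets := by
    intro n
    refine ⟨fun i => cj n i, fun i => cj_smooth n i, fun {ε f x} hf => ?_⟩
    obtain ⟨U, hU, hx, h⟩ := ch_at hf (0 + 4)
    have h1 := LL_eq n ε 0 hU h (eq0 f _) hx
    rw [iteratedDeriv_zero (f := LL n ε _)] at h1
    rw [h1, Fin.sum_univ_eq_sum_range (fun i => cj n i (ε, x) * iteratedDeriv i f x) 5]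
    simp only [Finset.sum_range_succ, Finset.sum_range_zero, cj, zero_add]
    ring
  iter_dil := by
    intro i τ f y _
    induction i generalizing y with
    | zero => simp
    | succ i ih =>
      rw [iteratedDeriv_succ, iteratedDeriv_succ, funext ih, deriv_const_mul_field, deriv_dil]
      ring
  LL_dil := by
    intro n ε τ f y _
    simp only [LL, dl_dil, deriv_dil, deriv_const_mul_field']
    ring
  LL_const_mul := by
    intro n ε c f y
    simp only [LL, dl_const_mul, deriv_const_mul_field']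
  ibp := ibp hA hB

end Vale.Agent.P264
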