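import Vale.Agent.P264.StmS

/-!
Differentiating the energy in time.
-/

namespace Vale.Agent.P264

open scoped ContDiff
open Set MeasureTheory Filter

namespace Der

lemma vp_comm (lam x : ℝ) : vp lam x = vp x lam := by simp only [vp, add_comm]

lemma vp_cont : Continuous fun z : ℝ × ℝ => vp z.1 z.2 := by
  unfold vp
  fun_prop

lemma vp_neg_two (hA : BaseA) {l₀ lam : ℝ} (x : ℝ) (h0 : 0 < l₀) (h : l₀ ≤ lam) :
    vp lam x ^ (-2 : ℤ) ≤ vp l₀ x ^ (-2 : ℤ) := by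
  rw [zpow_neg, zpow_neg, zpow_ofNat, zpow_ofNat, hA.vp_sq, hA.vp_sq]
  gcongr

lemma int_bound (hA : BaseA) {l₀ : ℝ} (h0 : 0 < l₀) (ε K : ℝ) :
    IntegrableOn (fun x => K * vp l₀ x ^ (-2 : ℤ)) (dom ε) := by
  refine hA.int_of_bound (lam := l₀) (C := |K|) h0 ?_ fun x _ => ?_
  · refine (continuous_const.mul (Continuous.zpow₀ ?_ _ fun x => ?_)).continuousOn
    · exact vp_cont.comp (continuous_const.prodMk continuous_id)
    · exact Or.inl (hA.vp_pos x h0).ne'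
  · rw [abs_mul, abs_of_pos (zpow_pos (hA.vp_pos x h0) _)]

lemma key (hA : BaseA) {a b ε l₀ K K' : ℝ} {F F' : ℝ → ℝ → ℝ} (h0 : 0 < l₀)
    (hc : ∀ s ∈ Icc a b, ContinuousOn (F s) (dom ε))
    (hc' : ∀ s ∈ Ioo a b, ContinuousOn (F' s) (dom ε))
    (hb : ∀ s ∈ Icc a b, ∀ x ∈ dom ε, |F s x| ≤ K * vp l₀ x ^ (-2 : ℤ))
    (hb' : ∀ s ∈ Ioo a b, ∀ x ∈ dom ε, |F' s x| ≤ K' * vp l₀ x ^ (-2 : ℤ))
    (ht : ∀ x ∈ dom ε, ContinuousOn (fun s => F s x) (Icc a b))
    (hd : ∀ s ∈ Ioo a b, ∀ x ∈ dom ε, HasDerivAt (fun σ => F σ x) (F' s x) s) :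
    ContinuousOn (fun s => ∫ x in dom ε, F s x) (Icc a b) ∧
      ∀ s ∈ Ioo a b, HasDerivAt (fun s => ∫ x in dom ε, F s x) (∫ x in dom ε, F' s x) s := by
  have hm : MeasurableSet (dom ε) := (hA.dom_open ε).measurableSet
  refine ⟨continuousOn_of_dominated (fun s hs => (hc s hs).aestronglyMeasurable hm)
    (fun s hs => ae_restrict_of_forall_mem hm (hb s hs)) (int_bound hA h0 ε K)
    (ae_restrict_of_forall_mem hm ht), fun s hs => ?_⟩
  have hn : Ioo a b ∈ nhds s := isOpen_Ioo.mem_nhds hs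
  refine (hasDerivAt_integral_of_dominated_loc_of_deriv_le hn ?_
    (hA.int_of_bound h0 (hc s (Ioo_subset_Icc_self hs)) (hb s (Ioo_subset_Icc_self hs)))
    ((hc' s hs).aestronglyMeasurable hm)
    (ae_restrict_of_forall_mem hm fun x hx σ hσ => hb' σ hσ x hx) (int_bound hA h0 ε K')
    (ae_restrict_of_forall_mem hm fun x hx σ hσ => hd σ hσ x hx)).2
  filter_upwards [hn] with σ hσ
  exact (hc σ (Ioo_subset_Icc_self hσ)).aestronglyMeasurable hm

lemma sq_wt_le (hA : BaseA) (n j : ℕ) (e p : ℤ) {l₀ lam ε x u C : ℝ} (h0 : 0 < l₀) (h : l₀ ≤ lam)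
    (hP : Par lam ε) (hx : x ∈ dom ε) (hu : u ^ 2 * vp lam x ^ (2 * (j : ℤ) + p + 1) ≤ C) :
    u ^ 2 * wt n lam ε j e p x ≤ C * vp l₀ x ^ (-2 : ℤ) := by
  have hv := hA.vp_pos x hP.1
  have hC : 0 ≤ C := le_trans (by positivity) hu
  calc u ^ 2 * wt n lam ε j e p x ≤ u ^ 2 * (vp lam x ^ (2 * (j : ℤ) - 1 + p) * 1) := by
        unfold wt
        gcongr
        exact hA.Th_le_one n e hP hx
    _ = u ^ 2 * vp lam x ^ (2 * (j : ℤ) + p + 1) * vp lam x ^ (-2 : ℤ) := by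
        rw [mul_one, mul_assoc, ← zpow_add₀ hv.ne']
        congr 2
        ring
    _ ≤ C * vp l₀ x ^ (-2 : ℤ) := by
        gcongr
        exact vp_neg_two hA x h0 h

lemma abs_le_aux {u v w t G c D P Q : ℝ} (hw : 0 ≤ w) (hc : 0 < c) (hG : c ≤ G) (ht : |t| ≤ D)
    (hu : u ^ 2 * w ≤ P) (hv : v ^ 2 * w ≤ Q) :
    |(2 * u * v + u ^ 2 * t) * w / G| ≤ (P + Q + D * P) / c := by
  have h1 : |2 * u * v + u ^ 2 * t| ≤ u ^ 2 + v ^ 2 + D * u ^ 2 := by
    have h2 := abs_le.1 ht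
    have h3 := sq_nonneg u
    rw [abs_le]
    constructor <;> nlinarith [sq_nonneg (u + v), sq_nonneg (u - v)]
  have hD : 0 ≤ D := (abs_nonneg t).trans ht
  have h4 : |2 * u * v + u ^ 2 * t| * w ≤ P + Q + D * P := by
    refine (mul_le_mul_of_nonneg_right h1 hw).trans ?_
    nlinarith [mul_le_mul_of_nonneg_left hu hD]
  rw [abs_div, abs_mul, abs_of_nonneg hw, abs_of_pos (hc.trans_le hG)]
  exact div_le_div₀ (le_trans (by positivity) h4) h4 hc hG

lemma wt_deriv (hA : BaseA) {n : ℕ} (hn : 1 ≤ n) (j : ℕ) (p : ℤ) {ε x s l' : ℝ} {lam : ℝ → ℝ}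
    (hx : x ∈ dom ε) (hl : 0 < lam s) (hd : HasDerivAt lam l' s) :
    HasDerivAt (fun σ => wt n (lam σ) ε j (j + 2) p x)
      (((j : ℝ) - n - 2 + p) * (lam s * l') / vp (lam s) x ^ 2 * wt n (lam s) ε j (j + 2) p x) s := by
  have e : ∀ l : ℝ, 0 < l → wt n l ε j (j + 2) p x =
      WW n ε (j + 2) x * vp x l ^ ((j : ℤ) - n - 2 + p) := fun l hl => by
    have := hA.wt_eq (n := n) (ε := ε) (x := x) j (j + 2) p hn hl
    push_cast at this
    rw [this, vp_comm]
    congr 2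
    ring
  have h1 := ((hA.vp_deriv ((j : ℤ) - n - 2 + p) (lam s) hx.1).comp s hd).const_mul
    (WW n ε (j + 2) x)
  have h2 : (fun σ => wt n (lam σ) ε j (j + 2) p x) =ᶠ[nhds s]
      fun σ => WW n ε (j + 2) x * vp x (lam σ) ^ ((j : ℤ) - n - 2 + p) := by
    filter_upwards [hd.continuousAt.eventually (lt_mem_nhds hl)] with σ hσ using e _ hσ
  refine (h1.congr_of_eventuallyEq h2).congr_deriv ?_
  have hv := (hA.vp_pos (lam s) hx.1).ne'
  rw [e _ hl, zpow_sub₀ hv, vp_comm (lam s), zpow_ofNat]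
  push_cast
  field_simp

lemma wt_time (hA : BaseA) (n j : ℕ) (e p : ℤ) {ε x : ℝ} {lam : ℝ → ℝ} {J : Set ℝ}
    (hx : x ∈ dom ε) (hl : ContinuousOn lam J) :
    ContinuousOn (fun σ => wt n (lam σ) ε j e p x) J := by
  have h1 : ContinuousOn (fun σ => vp (lam σ) x) J :=
    vp_cont.comp_continuousOn (hl.prodMk continuousOn_const)
  have h2 : ∀ σ ∈ J, vp (lam σ) x ≠ 0 := fun σ _ => by
    rw [vp_comm]
    exact (hA.vp_pos _ hx.1).ne'
  unfold wt Th
  exact (h1.zpow₀ _ fun σ hσ => Or.inl (h2 σ hσ)).mul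
    (((continuousOn_const.div h1 h2).pow _).mul continuousOn_const)

end Der

open Der in
theorem der (hA : BaseA) (hB : BaseB) : DerStmt := by
  intro n k p a b ε lam lam' G Gt X R hn hP hlc hld ⟨B, hB⟩ ⟨c, hc, hG⟩ hGx hGt hGd ⟨B', hB'⟩ hX hR
    hXt hXd
  obtain ⟨l₀, h0, hl₀⟩ := isCompact_Icc.exists_forall_le' hlc fun s hs => (hP s hs).1
  have hI := @Ioo_subset_Icc_self ℝ _ a b
  have hG0 : ∀ s ∈ Icc a b, ∀ x ∈ dom ε, G s x ≠ 0 := fun s hs x hx =>
    (hc.trans_le (hG s hs x hx)).ne'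
  have main : ∀ j : ℕ, _ ∧ _ := fun j => by
    obtain ⟨C, hC⟩ := hX.2 j
    obtain ⟨C', hC'⟩ := hR.2 j
    have hu : ∀ s ∈ Icc a b, ContinuousOn (iteratedDeriv j (X s)) (dom ε) := fun s hs =>
      (hA.iter_cont j (hX.1 s hs)).continuousOn
    have hw : ∀ s ∈ Icc a b, ContinuousOn (wt n (lam s) ε j (j + 2) p) (dom ε) := fun s hs =>
      (hA.wt_cont n ε j _ p (hP s hs).1).continuousOn
    have b1 : ∀ s ∈ Icc a b, ∀ x ∈ dom ε, iteratedDeriv j (X s) x ^ 2 *
        wt n (lam s) ε j (j + 2) p x ≤ C * vp l₀ x ^ (-2 : ℤ) := fun s hs x hx =>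
      sq_wt_le hA n j _ p h0 (hl₀ s hs) (hP s hs) hx (hC s hs x hx)
    refine key hA (a := a) (b := b) (ε := ε) (K := C / c)
      (K' := (C + C' + (|(j : ℝ) - n - 2 + p| * B / l₀ + B' / c) * C) / c)
      (F := fun s x => iteratedDeriv j (X s) x ^ 2 * wt n (lam s) ε j (j + 2) p x / G s x)
      (F' := fun s x => (2 * iteratedDeriv j (X s) x * iteratedDeriv j (R s) x
        + iteratedDeriv j (X s) x ^ 2 * (((j : ℝ) - n - 2 + p) * (lam s * lam' s) /
          vp (lam s) x ^ 2 - Gt s x / G s x)) * wt n (lam s) ε j (j + 2) p x / G s x)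
      h0 (fun s hs => ?_) (fun s hs => ?_) (fun s hs x hx => ?_) (fun s hs x hx => ?_)
      (fun x hx => ?_) (fun s hs x hx => ?_)
    · exact (((hu s hs).pow 2).mul (hw s hs)).div (hGx s hs) (hG0 s hs)
    · have h1 : ContinuousOn (fun x => vp (lam s) x ^ 2) (dom ε) :=
        ((vp_cont.comp (continuous_const.prodMk continuous_id)).pow 2).continuousOn
      refine (ContinuousOn.mul (ContinuousOn.add ((continuousOn_const.mul (hu s (hI hs))).mul
        (hA.iter_cont j (hR.1 s hs)).continuousOn) (((hu s (hI hs)).pow 2).mul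
        ((continuousOn_const.div h1 fun x _ => ?_).sub
        ((hGd s hs).1.div (hGx s (hI hs)) (hG0 s (hI hs)))))) (hw s (hI hs))).div (hGx s (hI hs))
        (hG0 s (hI hs))
      exact (pow_pos (hA.vp_pos x (hP s (hI hs)).1) 2).ne'
    · have h1 := hA.wt_nonneg n (lam := lam s) j (j + 2) p hx
      rw [abs_div, abs_of_nonneg (mul_nonneg (sq_nonneg _) h1),
        abs_of_pos (hc.trans_le (hG s hs x hx)), div_mul_eq_mul_div]
      exact div_le_div₀ (le_trans (mul_nonneg (sq_nonneg _) h1) (b1 s hs x hx)) (b1 s hs x hx) hc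
        (hG s hs x hx)
    · have hl := (hP s (hI hs)).1
      have hGp := hc.trans_le (hG s (hI hs) x hx)
      have hB0 : 0 ≤ B := (abs_nonneg _).trans (hB s hs)
      refine (abs_le_aux (D := |(j : ℝ) - n - 2 + p| * B / l₀ + B' / c)
        (hA.wt_nonneg n j (j + 2) p hx) hc (hG s (hI hs) x hx) ?_ (b1 s (hI hs) x hx)
        (sq_wt_le hA n j _ p h0 (hl₀ s (hI hs)) (hP s (hI hs)) hx (hC' s hs x hx))).trans_eq
        (by ring)
      refine (abs_sub _ _).trans (add_le_add ?_ ?_)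
      · rw [abs_div, abs_mul, abs_mul, abs_of_pos hl, abs_of_nonneg (sq_nonneg (vp (lam s) x))]
        calc _ ≤ |(j : ℝ) - n - 2 + p| * (lam s * B) / lam s ^ 2 := by
              gcongr
              · exact hB s hs
              · exact hA.lam_le _ _
          _ = |(j : ℝ) - n - 2 + p| * B / lam s := by field_simp
          _ ≤ _ := by
              gcongr
              exact hl₀ s (hI hs)
      · rw [abs_div, abs_of_pos hGp]
        exact div_le_div₀ ((abs_nonneg _).trans (hB' s hs x hx)) (hB' s hs x hx) hc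
          (hG s (hI hs) x hx)
    · exact (((hXt j x hx).pow 2).mul (wt_time hA n j _ p hx hlc)).div (hGt x hx)
        fun s hs => hG0 s hs x hx
    · have h1 := (((hXd j s hs x hx).pow 2).mul
        (wt_deriv hA hn j p hx (hP s (hI hs)).1 (hld s hs))).div ((hGd s hs).2 x hx)
        (hG0 s (hI hs) x hx)
      refine h1.congr_deriv ?_
      have h2 := hG0 s (hI hs) x hx
      have h3 := (hA.vp_pos x (hP s (hI hs)).1).ne'
      simp only [Pi.mul_apply, Pi.pow_apply, Nat.cast_ofNat, Nat.add_one_sub_one, pow_one]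
      field_simp
      ring
  exact ⟨continuousOn_finsetSum _ fun j _ => (main j).1,
    fun s hs => HasDerivAt.fun_sum fun j _ => (main j).2 s hs⟩

end Vale.Agent.P264
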