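import Vale.Agent.P264.StmS

/-!
Dilations and localisation.
-/

namespace Vale.Agent.P264

open scoped ContDiff Topology
open Set MeasureTheory Filter

namespace Dil

theorem dom_iff {τ : ℝ} (ε y : ℝ) (h : 0 < τ) : y ∈ dom (τ * ε) ↔ τ * y ∈ dom ε := by
  have e : τ * ε * y = ε * (τ * y) := by ring
  change (0 < y ∧ τ * ε * y < 1) ↔ (0 < τ * y ∧ ε * (τ * y) < 1)
  rw [e, mul_pos_iff_of_pos_left h]

theorem vp_dil {τ : ℝ} (lam y : ℝ) (h : 0 < τ) : vp (τ * lam) (τ * y) = τ * vp lam y := by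
  unfold vp
  rw [show (τ * lam) ^ 2 + (τ * y) ^ 2 = τ ^ 2 * (lam ^ 2 + y ^ 2) by ring,
    Real.sqrt_mul (sq_nonneg τ), Real.sqrt_sq h.le]

theorem wt_dil (n : ℕ) {τ : ℝ} (lam ε : ℝ) (i : ℕ) (e r : ℤ) (y : ℝ) (h : 0 < τ) :
    wt n (τ * lam) ε i e r (τ * y) = τ ^ (2 * (i : ℤ) - 1 + r) * wt n lam (τ * ε) i e r y := by
  unfold wt Th
  rw [vp_dil lam y h, mul_div_mul_left _ _ h.ne', mul_zpow,
    show ε * (τ * y) = τ * ε * y by ring, mul_assoc]

theorem ind_eq {τ : ℝ} (ε : ℝ) (h : 0 < τ) (H : ℝ → ℝ) :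
    (dom (τ * ε)).indicator (fun y => H (τ * y)) = fun y => (dom ε).indicator H (τ * y) := by
  funext y
  by_cases hy : y ∈ dom (τ * ε)
  · rw [indicator_of_mem hy, indicator_of_mem ((dom_iff ε y h).1 hy)]
  · rw [indicator_of_notMem hy, indicator_of_notMem fun h' => hy ((dom_iff ε y h).2 h')]

theorem int_dil (hA : BaseA) {τ : ℝ} (ε : ℝ) (h : 0 < τ) (H : ℝ → ℝ) :
    ∫ y in dom (τ * ε), H (τ * y) = τ⁻¹ * ∫ x in dom ε, H x := by
  rw [← integral_indicator (hA.dom_open _).measurableSet, ind_eq ε h,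
    Measure.integral_comp_mul_left, integral_indicator (hA.dom_open _).measurableSet,
    abs_of_pos (inv_pos.2 h), smul_eq_mul]

theorem integrable_dil (hA : BaseA) {τ : ℝ} (ε : ℝ) (h : 0 < τ) {H : ℝ → ℝ}
    (hH : IntegrableOn H (dom ε)) : IntegrableOn (fun y => H (τ * y)) (dom (τ * ε)) := by
  rw [← integrable_indicator_iff (hA.dom_open _).measurableSet, ind_eq ε h]
  exact ((integrable_indicator_iff (hA.dom_open _).measurableSet).2 hH).comp_mul_left' h.ne'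

theorem pt (hD : DelStmt) (n : ℕ) {τ : ℝ} (lam ε : ℝ) (i : ℕ) (e r : ℤ) (f : ℝ → ℝ) (y : ℝ)
    (h : 0 < τ) : iteratedDeriv i (fun y => f (τ * y)) y ^ 2 * wt n lam (τ * ε) i e r y =
      τ ^ (1 - r) * (iteratedDeriv i f (τ * y) ^ 2 * wt n (τ * lam) ε i e r (τ * y)) := by
  have e1 : (τ ^ i) ^ 2 = τ ^ (1 - r) * τ ^ (2 * (i : ℤ) - 1 + r) := by
    rw [← zpow_add₀ h.ne', ← pow_mul, ← zpow_natCast]
    congr 1
    push_cast
    ring
  rw [hD.iter_dil i f y h.ne', wt_dil n lam ε i e r y h, mul_pow, e1]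
  ring

theorem zp {τ : ℝ} (r : ℤ) (h : 0 < τ) (I : ℝ) : τ ^ (1 - r) * (τ⁻¹ * I) = τ ^ (-r) * I := by
  rw [← mul_assoc, ← zpow_sub_one₀ h.ne']
  congr 2
  ring

theorem TT_dil (hA : BaseA) (hD : DelStmt) (n : ℕ) {τ : ℝ} (lam ε : ℝ) (i : ℕ) (e r : ℤ)
    (f : ℝ → ℝ) (h : 0 < τ) :
    TT n lam (τ * ε) i e r (fun y => f (τ * y)) = τ ^ (-r) * TT n (τ * lam) ε i e r f := by
  unfold TT
  simp only [pt hD n lam ε i e r f _ h]
  rw [integral_const_mul,
    int_dil hA ε h fun x => iteratedDeriv i f x ^ 2 * wt n (τ * lam) ε i e r x, zp r h]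

theorem zpow_le {v w K : ℝ} (hv : 0 < v) (hw : 0 < w) (h1 : v ≤ K * w) (h2 : w ≤ K * v) (k : ℤ) :
    v ^ k ≤ K ^ k.natAbs * w ^ k := by
  obtain ⟨m, rfl | rfl⟩ := k.eq_nat_or_neg
  · rw [Int.natAbs_natCast, zpow_natCast, zpow_natCast, ← mul_pow]
    exact pow_le_pow_left₀ hv.le h1 m
  · rw [Int.natAbs_neg, Int.natAbs_natCast, zpow_neg, zpow_neg, zpow_natCast, zpow_natCast,
      ← inv_pow, ← inv_pow, ← mul_pow]
    refine pow_le_pow_left₀ (inv_pos.2 hv).le ?_ m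
    rw [← div_eq_mul_inv, le_div_iff₀ hw, inv_mul_le_iff₀ hv]
    linarith

theorem wt_form (hA : BaseA) (n : ℕ) {lam : ℝ} (ε : ℝ) (i : ℕ) (e r : ℤ) (x : ℝ) (h : 0 < lam) :
    wt n lam ε i e r x = vp lam x ^ (2 * (i : ℤ) - 1 + r - (((n : ℤ) - 1 + e).toNat : ℕ)) *
      (x ^ ((n : ℤ) - 1 + e).toNat * (1 - ε * x) ^ e.toNat) := by
  unfold wt Th
  rw [zpow_sub₀ (hA.vp_pos x h).ne', zpow_natCast, div_pow]
  ring

theorem QQ_lam (hA : BaseA) (n h : ℕ) (r : ℤ) (l₀ : ℝ) (hl : 0 < l₀) :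
    ∃ C, 0 ≤ C ∧ ∀ (lam lam' : ℝ) (f : ℝ → ℝ), lam ∈ Icc l₀ 1 → lam' ∈ Icc l₀ 1 →
      Adm lam' 1 r f → QQ n lam 1 h r f ≤ C * QQ n lam' 1 h r f := by
  let c : ℕ → ℝ := fun i =>
    (2 / l₀) ^ (2 * (i : ℤ) - 1 + r - (((n : ℤ) - 1 + (i + 2)).toNat : ℕ)).natAbs
  have hc : ∀ i, 0 ≤ c i := fun i => by positivity
  refine ⟨∑ i ∈ Finset.range (h + 1), c i, Finset.sum_nonneg fun i _ => hc i,
    fun lam lam' f h1 h2 hf => ?_⟩
  have p1 : 0 < lam := hl.trans_le h1.1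
  have p2 : 0 < lam' := hl.trans_le h2.1
  have key : ∀ {a b x : ℝ}, a ∈ Icc l₀ 1 → b ∈ Icc l₀ 1 → x ∈ dom 1 →
      vp a x ≤ 2 / l₀ * vp b x := by
    intro a b x ha hb hx
    have t1 := hA.vp_le (hl.le.trans ha.1) hx.1.le
    have t2 : x < 1 := by simpa using hx.2
    have t3 := hb.1.trans (hA.lam_le b x)
    rw [div_mul_eq_mul_div, le_div_iff₀ hl]
    have t4 : vp a x ≤ 2 := by linarith [ha.2]
    nlinarith
  unfold QQ
  rw [Finset.mul_sum]
  refine Finset.sum_le_sum fun i hi => ?_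
  refine le_trans ?_ (mul_le_mul_of_nonneg_right
    (Finset.single_le_sum (fun j _ => hc j) hi) (hA.TT_nonneg _ _ _ _ _ _ _))
  unfold TT
  rw [← integral_const_mul]
  have hm := (hA.dom_open 1).measurableSet
  refine integral_mono_of_nonneg
    ((ae_restrict_iff' hm).2 (.of_forall fun x hx =>
      mul_nonneg (sq_nonneg _) (hA.wt_nonneg n i _ r hx)))
    ((hA.intT n i _ ⟨p2, zero_le_one, by linarith [h2.2]⟩ hf).const_mul _)
    ((ae_restrict_iff' hm).2 (.of_forall fun x hx => ?_))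
  have t1 := zpow_le (hA.vp_pos x p1) (hA.vp_pos x p2) (key h1 h2 hx) (key h2 h1 hx)
    (2 * (i : ℤ) - 1 + r - (((n : ℤ) - 1 + (i + 2)).toNat : ℕ))
  have t2 : 0 ≤ x ^ ((n : ℤ) - 1 + (i + 2)).toNat * (1 - 1 * x) ^ ((i : ℤ) + 2).toNat :=
    mul_nonneg (pow_nonneg hx.1.le _) (pow_nonneg (by linarith [hx.2]) _)
  have t3 := mul_le_mul_of_nonneg_left (mul_le_mul_of_nonneg_right t1 t2)
    (sq_nonneg (iteratedDeriv i f x))
  change iteratedDeriv i f x ^ 2 * wt n lam 1 i (i + 2) r x ≤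
    c i * (iteratedDeriv i f x ^ 2 * wt n lam' 1 i (i + 2) r x)
  rw [wt_form hA n 1 i _ r x p1, wt_form hA n 1 i _ r x p2]
  refine t3.trans (le_of_eq ?_)
  simp only [c]
  ring

theorem QQ_flat (hA : BaseA) (n h : ℕ) (r : ℤ) {lam ε : ℝ} {f : ℝ → ℝ} (hl : 0 < lam) (he : 0 ≤ ε)
    (hi : IntQ n lam 0 h r f) (hf : ContDiffOn ℝ ∞ f (dom 0)) :
    IntQ n lam ε h r f ∧ QQ n lam ε h r f ≤ QQ n lam 0 h r f := by
  have hs : dom ε ⊆ dom 0 := fun x hx => ⟨hx.1, by simp⟩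
  have hm := (hA.dom_open ε).measurableSet
  have pw : ∀ i : ℕ, ∀ x ∈ dom ε, iteratedDeriv i f x ^ 2 * wt n lam ε i (i + 2) r x ≤
      iteratedDeriv i f x ^ 2 * wt n lam 0 i (i + 2) r x := by
    intro i x hx
    refine mul_le_mul_of_nonneg_left ?_ (sq_nonneg _)
    rw [wt_form hA n ε i _ r x hl, wt_form hA n 0 i _ r x hl]
    refine mul_le_mul_of_nonneg_left (mul_le_mul_of_nonneg_left ?_ (pow_nonneg hx.1.le _))
      (zpow_nonneg (hA.vp_pos x hl).le _)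
    exact pow_le_pow_left₀ (by linarith [hx.2]) (by nlinarith [mul_nonneg he hx.1.le]) _
  have h1 : IntQ n lam ε h r f := fun i hh =>
    Integrable.mono' ((hi i hh).mono_set hs)
      ((((hA.iter_cont i hf).continuousOn.mono hs).pow 2).mul
        (hA.wt_cont n ε i _ r hl).continuousOn |>.aestronglyMeasurable hm)
      ((ae_restrict_iff' hm).2 (.of_forall fun x hx => by
        rw [Real.norm_eq_abs,
          abs_of_nonneg (mul_nonneg (sq_nonneg _) (hA.wt_nonneg n i _ r hx))]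
        exact pw i x hx))
  refine ⟨h1, Finset.sum_le_sum fun i hi' => ?_⟩
  have hh : i ≤ h := Nat.lt_succ_iff.1 (Finset.mem_range.1 hi')
  exact (setIntegral_mono_on (h1 i hh) ((hi i hh).mono_set hs) hm (pw i)).trans
    (setIntegral_mono_set (hi i hh) ((ae_restrict_iff' (hA.dom_open 0).measurableSet).2
      (.of_forall fun x hx => mul_nonneg (sq_nonneg _) (hA.wt_nonneg n i _ r hx)))
      hs.eventuallyLE)

end Dil

theorem dil (hA : BaseA) (hD : DelStmt) : DilStmt where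
  dom_iff := Dil.dom_iff
  vp_dil := Dil.vp_dil
  TT_dil := fun n _ lam ε i e r f h _ => Dil.TT_dil hA hD n lam ε i e r f h
  QQ_dil := fun n _ lam ε _ r f h _ => by
    unfold QQ
    rw [Finset.mul_sum]
    exact Finset.sum_congr rfl fun i _ => Dil.TT_dil hA hD n lam ε i _ r f h
  EE_dil := fun n τ lam ε _ r G f h _ => by
    unfold EE
    rw [Finset.mul_sum]
    refine Finset.sum_congr rfl fun i _ => ?_
    simp only [Dil.pt hD n lam ε i _ r f _ h, mul_div_assoc (τ ^ (1 - r))]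
    rw [integral_const_mul, Dil.int_dil hA ε h
      fun x => iteratedDeriv i f x ^ 2 * wt n (τ * lam) ε i (i + 2) r x / G x, Dil.zp r h]
  IntQ_dil := fun n τ lam ε _ r f h _ hi i hh => by
    simp only [Dil.pt hD n lam ε i _ r f _ h]
    exact (Dil.integrable_dil hA ε h (hi i hh)).const_mul _
  Sy_dil := fun {τ lam ε M _ q a} h _ ha => by
    refine ⟨ha.1.comp (contDiff_const.mul contDiff_id : ContDiff ℝ ∞ fun y : ℝ => τ * y).contDiffOn
      fun y hy => (Dil.dom_iff ε y h).1 hy, fun i hi y hy => ?_⟩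
    have h1 := ha.2 i hi _ ((Dil.dom_iff ε y h).1 hy)
    rw [hD.iter_dil i a y h.ne', abs_mul, abs_of_pos (pow_pos h i)]
    refine (mul_le_mul_of_nonneg_left h1 (pow_pos h i).le).trans (le_of_eq ?_)
    rw [Dil.vp_dil lam y h, mul_zpow, zpow_sub₀ h.ne', zpow_natCast]
    field_simp
  QQ_lam := Dil.QQ_lam hA
  QQ_flat := Dil.QQ_flat hA

theorem loc (hA : BaseA) (hB : BaseB) : LocStmt := by
  intro n p θ hp hθ
  have _ := hB
  set R := 1 + θ⁻¹ with hR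
  have hθ' := inv_pos.2 hθ
  have hR0 : 0 < R := by linarith
  have hR1 : 1 ≤ θ * R ^ 2 := by
    have : θ * θ⁻¹ = 1 := mul_inv_cancel₀ hθ.ne'
    rw [hR]; nlinarith
  refine ⟨R, R, hR0, hR0.le, fun lam ε ρ f hP hf hρ => ?_⟩
  have hl := hP.1
  have hm := (hA.dom_open ε).measurableSet
  have i1 := (hA.intT n 0 2 hP hf).const_mul (θ * lam ^ (-p))
  have i2 : Integrable ((Ioc 0 (R * lam)).indicator fun _ : ℝ => ρ ^ 2 * lam⁻¹) :=
    (integrable_indicator_iff measurableSet_Ioc).2 (integrableOn_const measure_Ioc_lt_top.ne)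
  have n2 : ∀ x, 0 ≤ (Ioc 0 (R * lam)).indicator (fun _ : ℝ => ρ ^ 2 * lam⁻¹) x :=
    indicator_nonneg fun _ _ => by positivity
  have e2 : ∫ x in dom ε, (Ioc 0 (R * lam)).indicator (fun _ : ℝ => ρ ^ 2 * lam⁻¹) x ≤
      R * ρ ^ 2 := by
    refine (setIntegral_le_integral i2 (.of_forall n2)).trans (le_of_eq ?_)
    rw [integral_indicator_const _ measurableSet_Ioc, Real.volume_real_Ioc_of_le (by positivity),
      smul_eq_mul]
    field_simp
    ring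
  unfold TT
  rw [← mul_assoc, ← integral_const_mul, ← integral_const_mul]
  refine le_trans ?_ (add_le_add_right e2 _)
  rw [← integral_add i1 i2.integrableOn]
  refine integral_mono_of_nonneg
    ((ae_restrict_iff' hm).2 (.of_forall fun x hx => mul_nonneg (zpow_nonneg hl.le _)
      (mul_nonneg (sq_nonneg _) (hA.wt_nonneg n 0 _ _ hx))))
    (i1.add i2.integrableOn) ((ae_restrict_iff' hm).2 (.of_forall fun x hx => ?_))
  have v0 := hA.vp_pos x hl
  have w0 := hA.wt_nonneg n (lam := lam) 0 2 p hx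
  change lam ^ (2 - p) * (iteratedDeriv 0 f x ^ 2 * wt n lam ε 0 2 (p - 2) x) ≤
    θ * lam ^ (-p) * (iteratedDeriv 0 f x ^ 2 * wt n lam ε 0 2 p x) +
      (Ioc 0 (R * lam)).indicator (fun _ : ℝ => ρ ^ 2 * lam⁻¹) x
  rw [iteratedDeriv_zero]
  by_cases hx' : x ≤ R * lam
  · rw [indicator_of_mem (show x ∈ Ioc 0 (R * lam) from ⟨hx.1, hx'⟩)]
    have t1 : f x ^ 2 ≤ ρ ^ 2 := by
      rw [← sq_abs (f x)]; exact pow_le_pow_left₀ (abs_nonneg _) (hρ x hx hx') 2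
    have t2 : wt n lam ε 0 2 (p - 2) x ≤ lam ^ (p - 3) := by
      unfold wt
      refine (mul_le_of_le_one_right (zpow_nonneg v0.le _) (hA.Th_le_one n 2 hP hx)).trans ?_
      rw [show 2 * ((0 : ℕ) : ℤ) - 1 + (p - 2) = p - 3 by push_cast; ring]
      obtain ⟨m, hm⟩ : ∃ m : ℕ, p - 3 = -(m : ℤ) := ⟨(3 - p).toNat, by omega⟩
      rw [hm, zpow_neg, zpow_neg, zpow_natCast, zpow_natCast]
      exact inv_anti₀ (pow_pos hl m) (pow_le_pow_left₀ hl.le (hA.lam_le lam x) m)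
    have t3 := mul_le_mul_of_nonneg_left
      (mul_le_mul t1 t2 (hA.wt_nonneg n 0 2 _ hx) (sq_nonneg _)) (zpow_nonneg hl.le (2 - p))
    have t4 : lam ^ (2 - p) * (ρ ^ 2 * lam ^ (p - 3)) = ρ ^ 2 * lam⁻¹ := by
      rw [mul_left_comm, ← zpow_add₀ hl.ne', show 2 - p + (p - 3) = -1 by ring, zpow_neg_one]
    have t5 : 0 ≤ θ * lam ^ (-p) * (f x ^ 2 * wt n lam ε 0 2 p x) := by positivity
    linarith
  · have t1 : wt n lam ε 0 2 (p - 2) x = (vp lam x ^ 2)⁻¹ * wt n lam ε 0 2 p x := by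
      unfold wt
      rw [show 2 * ((0 : ℕ) : ℤ) - 1 + (p - 2) = -2 + (2 * ((0 : ℕ) : ℤ) - 1 + p) by ring,
        zpow_add₀ v0.ne', zpow_neg, zpow_ofNat, mul_assoc]
    have t2 : lam ^ (2 - p) = lam ^ 2 * lam ^ (-p) := by
      rw [sub_eq_add_neg, zpow_add₀ hl.ne', zpow_ofNat]
    have t3 : lam ^ 2 * (vp lam x ^ 2)⁻¹ ≤ θ := by
      rw [← div_eq_mul_inv, div_le_iff₀ (by positivity)]
      have t4 : R * lam ≤ vp lam x := (not_le.1 hx').le.trans (hA.x_le lam x)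
      have t5 := mul_le_mul_of_nonneg_left (pow_le_pow_left₀ (by positivity) t4 2) hθ.le
      have t6 := mul_le_mul_of_nonneg_right hR1 (sq_nonneg lam)
      rw [mul_pow] at t5
      linarith
    have t7 := mul_le_mul_of_nonneg_right t3
      (by positivity : 0 ≤ lam ^ (-p) * (f x ^ 2 * wt n lam ε 0 2 p x))
    rw [t1, t2]
    linarith [n2 x]

end Vale.Agent.P264
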