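import Vale.Agent.P264.StmS

/-! Smooth extension to the closed interval. -/

namespace Vale.Agent.P264

open scoped ContDiff
open Set Filter Topology

namespace Ext

theorem iter_smooth {f : ℝ → ℝ} (hf : ContDiffOn ℝ ∞ f (Ioo 0 1)) (i : ℕ) :
    ContDiffOn ℝ ∞ (iteratedDeriv i f) (Ioo 0 1) := by
  induction i with
  | zero => simpa using hf
  | succ i ih =>
    rw [iteratedDeriv_succ]
    exact ih.deriv_of_isOpen isOpen_Ioo (by simp)

theorem iter_deriv {f : ℝ → ℝ} (hf : ContDiffOn ℝ ∞ f (Ioo 0 1)) (i : ℕ) {x : ℝ}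
    (hx : x ∈ Ioo (0 : ℝ) 1) : HasDerivAt (iteratedDeriv i f) (iteratedDeriv (i + 1) f x) x := by
  rw [iteratedDeriv_succ]
  exact (((iter_smooth hf i).contDiffAt (isOpen_Ioo.mem_nhds hx)).differentiableAt
    (by simp)).hasDerivAt

theorem closure_deriv {u v : ℝ → ℝ} (hu : Continuous u) (hv : Continuous v)
    (h : ∀ x ∈ Ioo (0 : ℝ) 1, HasDerivAt u (v x) x) (x : ℝ) :
    HasDerivWithinAt u (v x) (Icc 0 1) x := by
  rw [← closure_Ioo (zero_ne_one' ℝ), hasDerivWithinAt_iff_hasFDerivWithinAt]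
  refine hasFDerivWithinAt_closure_of_tendsto_fderiv
    (fun y hy => (h y hy).differentiableAt.differentiableWithinAt) (convex_Ioo 0 1) isOpen_Ioo
    (fun y _ => hu.continuousWithinAt) ?_
  have h1 : Continuous fun y => ContinuousLinearMap.toSpanSingleton ℝ (v y) :=
    (ContinuousLinearMap.smulRightL ℝ ℝ ℝ 1).continuous.comp hv
  refine (h1.continuousWithinAt (s := Ioo 0 1) (x := x)).tendsto.congr' ?_
  filter_upwards [self_mem_nhdsWithin] with y hy
  exact (h y hy).hasFDerivAt.fderiv.symm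

end Ext

open Ext in
theorem extS : ExtStmt := by
  intro f hf hb
  have h1 : ∀ i, ∃ g : ℝ → ℝ, Continuous g ∧ EqOn (iteratedDeriv i f) g (Ioo 0 1) := fun i => by
    obtain ⟨C, hC⟩ := hb (i + 1)
    have h2 : LipschitzOnWith C.toNNReal (iteratedDeriv i f) (Ioo 0 1) :=
      (convex_Ioo 0 1).lipschitzOnWith_of_nnnorm_hasDerivWithin_le
        (fun x hx => (iter_deriv hf i hx).hasDerivWithinAt)
        fun x hx => (hC x hx).trans (Real.le_coe_toNNReal C)
    obtain ⟨g, h3, h4⟩ := h2.extend_real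
    exact ⟨g, h3.continuous, h4⟩
  choose g hg hfg using h1
  have h2 : ∀ i x, HasDerivWithinAt (g i) (g (i + 1) x) (Icc 0 1) x := fun i =>
    closure_deriv (hg i) (hg (i + 1)) fun x hx => by
      rw [← hfg (i + 1) hx]
      refine (iter_deriv hf i hx).congr_of_eventuallyEq ?_
      filter_upwards [isOpen_Ioo.mem_nhds hx] with y hy using (hfg i hy).symm
  have hU : UniqueDiffOn ℝ (Icc (0 : ℝ) 1) := uniqueDiffOn_Icc zero_lt_one
  have h3 : ∀ (m : ℕ) i, ContDiffOn ℝ m (g i) (Icc 0 1) := fun m => by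
    induction m with
    | zero => exact fun i => contDiffOn_zero.2 (hg i).continuousOn
    | succ m ih =>
      intro i
      rw [Nat.cast_succ, contDiffOn_succ_iff_derivWithin hU]
      exact ⟨fun x _ => (h2 i x).differentiableWithinAt, by simp,
        (ih (i + 1)).congr fun x hx => (h2 i x).derivWithin (hU x hx)⟩
  exact ⟨g 0, contDiffOn_infty.2 fun m => h3 m 0, fun x hx => (hfg 0 hx).symm⟩

end Vale.Agent.P264
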