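import Vale.Agent.P264.StmS

/-!
The weighted Hardy chain.
-/

namespace Vale.Agent.P264

open scoped ContDiff Topology
open Set MeasureTheory Filter

namespace Hardy

theorem dPhi (hA : BaseA) {lam : ℝ} (h : 0 < lam) (ε : ℝ) (q : ℤ) (a b : ℕ) (x : ℝ) :
    HasDerivAt (fun y => vp lam y ^ (q + 1) * ((y / vp lam y) ^ a * (1 - ε * y) ^ b))
      (vp lam x ^ q * ((q + 1) * (x / vp lam x) * (x / vp lam x) ^ a * (1 - ε * x) ^ b +
        a * (x / vp lam x) ^ (a - 1) * (1 - (x / vp lam x) ^ 2) * (1 - ε * x) ^ b -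
        ε * vp lam x * b * (x / vp lam x) ^ a * (1 - ε * x) ^ (b - 1))) x := by
  have h0 := (hA.vp_pos x h).ne'
  have d1 := hA.vp_deriv (q + 1) x h
  have d2 : HasDerivAt (fun y => y / vp lam y) ((1 - (x / vp lam x) ^ 2) / vp lam x) x := by
    have := (hasDerivAt_id x).mul (hA.vp_deriv (-1) x h)
    simp only [zpow_neg_one, id] at this
    refine HasDerivAt.congr_deriv this ?_
    rw [show (-1 - 2 : ℤ) = -(3 : ℕ) by norm_num, zpow_neg, zpow_natCast]
    push_cast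
    field_simp
    ring
  have d3 : HasDerivAt (fun y => 1 - ε * y) (-ε) x := by
    simpa using ((hasDerivAt_id x).const_mul ε).const_sub 1
  refine (d1.mul ((d2.pow a).mul (d3.pow b))).congr_deriv ?_
  simp only [Pi.mul_apply, Pi.pow_apply]
  rw [show q + 1 - 2 = q - 1 by ring, zpow_sub_one₀ h0, zpow_add_one₀ h0]
  generalize (x / vp lam x) ^ a = A
  generalize (x / vp lam x) ^ (a - 1) = A'
  generalize (1 - ε * x) ^ b = B
  generalize (1 - ε * x) ^ (b - 1) = B'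
  push_cast
  field_simp
  ring

theorem t_mem (hA : BaseA) {lam ε x : ℝ} (h : Par lam ε) (hx : x ∈ dom ε) :
    0 ≤ x / vp lam x ∧ x / vp lam x ≤ 1 ∧ 0 ≤ 1 - ε * x ∧ 1 - ε * x ≤ 1 :=
  ⟨div_nonneg hx.1.le (hA.vp_pos x h.1).le, div_le_one_of_le₀ (hA.x_le _ _) (hA.vp_pos x h.1).le,
    by linarith [hx.2], by linarith [mul_nonneg h.2.1 hx.1.le]⟩

theorem pow_le_Th (hA : BaseA) (n : ℕ) {lam ε x : ℝ} (h : Par lam ε) (hx : x ∈ dom ε) {e : ℤ}
    {a b : ℕ} (ha : ((n : ℤ) - 1 + e).toNat ≤ a) (hb : e.toNat ≤ b) :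
    (x / vp lam x) ^ a * (1 - ε * x) ^ b ≤ Th n lam ε e x := by
  obtain ⟨h1, h2, h3, h4⟩ := t_mem hA h hx
  exact mul_le_mul (pow_le_pow_of_le_one h1 h2 ha) (pow_le_pow_of_le_one h3 h4 hb)
    (pow_nonneg h3 _) (pow_nonneg h1 _)

theorem int_deriv (hA : BaseA) {ε : ℝ} {H H' g : ℝ → ℝ}
    (hd : ∀ x ∈ dom ε, HasDerivAt H (H' x) x) (hg : IntegrableOn g (dom ε))
    (hb : ∀ x ∈ dom ε, |H' x| ≤ g x) : IntegrableOn H' (dom ε) := by
  have hm := (hA.dom_open ε).measurableSet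
  refine Integrable.mono' hg ((measurable_deriv H).aestronglyMeasurable.congr
    ((ae_restrict_iff' hm).2 (.of_forall fun x hx => (hd x hx).deriv)))
    ((ae_restrict_iff' hm).2 (.of_forall hb))

theorem wt_succ (hA : BaseA) (n : ℕ) {lam : ℝ} (h : 0 < lam) (ε : ℝ) (i : ℕ) (e r : ℤ) (x : ℝ) :
    wt n lam ε (i + 1) e r x =
      vp lam x ^ (2 * (i : ℤ) - 1 + r) * vp lam x ^ 2 * Th n lam ε e x := by
  unfold wt
  rw [← zpow_ofNat, ← zpow_add₀ (hA.vp_pos x h).ne']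
  congr 2
  push_cast
  ring

theorem coef {a b c t y : ℝ} (ha : 0 ≤ a) (hb : 0 ≤ b) (t0 : 0 ≤ t) (t1 : t ≤ 1) (y0 : 0 ≤ y)
    (y1 : y ≤ 1) (hy : y ≤ 2 * t) :
    1 - (4 * (a + b + 3) + |c - a|) * (t * (1 - y)) ≤
      ((c + 1) * t * t * (1 - y) + (a + 1) * (1 - t ^ 2) * (1 - y) - (b + 1) * y) * (1 - 2 * y) -
        2 * y * (1 - y) ∧
    |((c + 1) * t * t * (1 - y) + (a + 1) * (1 - t ^ 2) * (1 - y) - (b + 1) * y) * (1 - 2 * y) -
        2 * y * (1 - y)| ≤ 4 * (a + b + 3) + |c - a| := by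
  have e : ((c + 1) * t * t * (1 - y) + (a + 1) * (1 - t ^ 2) * (1 - y) - (b + 1) * y) *
      (1 - 2 * y) - 2 * y * (1 - y) = (a + 1) * (1 - y) + (b + 1) * y -
        2 * (a + b + 3) * (y * (1 - y)) + (c - a) * (t * (1 - 2 * y) * (t * (1 - y))) := by ring
  have s0 : 0 ≤ 1 - y := by linarith
  have k0 : 0 ≤ t * (1 - y) := mul_nonneg t0 s0
  have k1 : t * (1 - y) ≤ 1 := mul_le_one₀ t1 s0 (by linarith)
  have k2 : |t * (1 - 2 * y)| ≤ 1 := by
    rw [abs_mul, abs_of_nonneg t0]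
    exact mul_le_one₀ t1 (abs_nonneg _) (abs_le.2 ⟨by linarith, by linarith⟩)
  have k3 : |(c - a) * (t * (1 - 2 * y) * (t * (1 - y)))| ≤ |c - a| * (t * (1 - y)) := by
    rw [abs_mul, abs_mul, abs_of_nonneg k0]
    exact mul_le_mul_of_nonneg_left (mul_le_of_le_one_left k0 k2) (abs_nonneg _)
  have k4 := abs_le.1 k3
  have k5 : y * (1 - y) ≤ 2 * (t * (1 - y)) := by nlinarith
  have k6 : 0 ≤ y * (1 - y) := mul_nonneg y0 s0
  have k7 : y * (1 - y) ≤ 1 := mul_le_one₀ y1 s0 (by linarith)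
  have k8 := mul_le_mul_of_nonneg_left k5 (show 0 ≤ 2 * (a + b + 3) by linarith)
  have k9 := mul_le_mul_of_nonneg_left k7 (show 0 ≤ 2 * (a + b + 3) by linarith)
  have k10 := mul_le_of_le_one_right (abs_nonneg (c - a)) k1
  have k11 := mul_nonneg ha s0
  have k12 := mul_nonneg hb y0
  have k13 := mul_le_of_le_one_right ha (show 1 - y ≤ 1 by linarith)
  have k14 := mul_le_of_le_one_right hb y1
  have k15 := mul_nonneg (show 0 ≤ 2 * (a + b + 3) by linarith) k6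
  rw [e]
  exact ⟨by linarith [k4.1], abs_le.2 ⟨by linarith [k4.1], by linarith [k4.2]⟩⟩

theorem step (hA : BaseA) (n i : ℕ) (e r : ℤ) : ∃ K : ℝ, 0 ≤ K ∧ ∀ (lam ε : ℝ) (f : ℝ → ℝ),
    Par lam ε → Adm lam ε r f → TT n lam ε i e r f ≤
      K * TT n lam ε i (e + 1) r f + 4 * TT n lam ε (i + 1) (e + 2) r f := by
  set a := ((n : ℤ) - 1 + e).toNat with ha
  set b := e.toNat with hb
  set c := 2 * (i : ℤ) - 1 + r with hc
  set K : ℝ := 4 * ((a : ℝ) + b + 3) + |(c : ℝ) - a| with hK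
  have hK0 : 0 ≤ K := by positivity
  refine ⟨2 * K, by positivity, fun lam ε f hp hf => ?_⟩
  have hm := (hA.dom_open ε).measurableSet
  set u := iteratedDeriv i f with hu
  set u' := iteratedDeriv (i + 1) f with hu'
  set S : ℝ → ℝ := fun x => ((c + 1) * (x / vp lam x) * (x / vp lam x) * (1 - ε * x) +
    (a + 1) * (1 - (x / vp lam x) ^ 2) * (1 - ε * x) - (b + 1) * (ε * x)) * (1 - 2 * (ε * x)) -
      2 * (ε * x) * (1 - ε * x) with hS
  have hw : ∀ x, wt n lam ε i e r x = vp lam x ^ c * ((x / vp lam x) ^ a * (1 - ε * x) ^ b) :=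
    fun x => rfl
  have hd : ∀ x ∈ dom ε, HasDerivAt (fun y => u y ^ 2 * (vp lam y ^ (c + 1) *
      ((y / vp lam y) ^ (a + 1) * (1 - ε * y) ^ (b + 1)) * (1 - 2 * (ε * y))))
      (2 * u x * u' x * (wt n lam ε i e r x * (x * (1 - ε * x)) * (1 - 2 * (ε * x))) +
        u x ^ 2 * wt n lam ε i e r x * S x) x := by
    intro x hx
    have h0 := (hA.vp_pos x hp.1).ne'
    have d3 : HasDerivAt (fun y => 1 - 2 * (ε * y)) (-(2 * ε)) x := by
      simpa using (((hasDerivAt_id x).const_mul ε).const_mul 2).const_sub 1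
    refine (((hA.iter_deriv i hf.1 hx).pow 2).mul
      ((dPhi hA hp.1 ε c (a + 1) (b + 1) x).mul d3)).congr_deriv ?_
    simp only [Pi.mul_apply, Pi.pow_apply, Nat.add_sub_cancel, hw, hS, pow_succ _ a, pow_succ _ b,
      zpow_add_one₀ h0, ← hu, ← hu']
    generalize (x / vp lam x) ^ a = A
    generalize (1 - ε * x) ^ b = B
    generalize vp lam x ^ c = w
    push_cast
    field_simp
    ring
  have key : ∀ x ∈ dom ε, 1 - K * (x / vp lam x * (1 - ε * x)) ≤ S x ∧ |S x| ≤ K := by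
    intro x hx
    obtain ⟨h1, h2, h3, h4⟩ := t_mem hA hp hx
    refine coef (Nat.cast_nonneg a) (Nat.cast_nonneg b) h1 h2 (by linarith) (by linarith) ?_
    have h5 := mul_le_mul_of_nonneg_right (hA.eps_vp hp hx) h1
    rwa [mul_assoc, mul_div_cancel₀ _ (hA.vp_pos x hp.1).ne'] at h5
  have b1 : ∀ x ∈ dom ε, wt n lam ε i e r x * (x / vp lam x * (1 - ε * x)) ≤
      wt n lam ε i (e + 1) r x := fun x hx => by
    have := mul_le_mul_of_nonneg_left (pow_le_Th hA n hp hx (e := e + 1) (a := a + 1) (b := b + 1)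
      (by omega) (by omega)) (zpow_nonneg (hA.vp_pos x hp.1).le c)
    exact (le_of_eq (by rw [hw]; ring)).trans this
  have b2 : ∀ x ∈ dom ε, wt n lam ε i e r x * (x * (1 - ε * x)) ^ 2 ≤
      wt n lam ε (i + 1) (e + 2) r x := fun x hx => by
    have h0 := hA.vp_pos x hp.1
    have := mul_le_mul_of_nonneg_left (pow_le_Th hA n hp hx (e := e + 2) (a := a + 2) (b := b + 2)
      (by omega) (by omega)) (mul_nonneg (zpow_nonneg h0.le c) (sq_nonneg (vp lam x)))
    rw [wt_succ hA n hp.1]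
    refine (le_of_eq ?_).trans this
    rw [hw, pow_add, pow_add]
    generalize (x / vp lam x) ^ a = A
    field_simp
  have b3 : ∀ x ∈ dom ε,
      |2 * u x * u' x * (wt n lam ε i e r x * (x * (1 - ε * x)) * (1 - 2 * (ε * x)))| ≤
        u x ^ 2 * wt n lam ε i e r x / 2 + 2 * (u' x ^ 2 * wt n lam ε (i + 1) (e + 2) r x) := by
    intro x hx
    obtain ⟨h1, h2, h3, h4⟩ := t_mem hA hp hx
    have h5 := hA.wt_nonneg n (lam := lam) i e r hx
    have h6 := mul_le_mul_of_nonneg_left (b2 x hx) (sq_nonneg (u' x))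
    have h7 : (1 - 2 * (ε * x)) ^ 2 ≤ 1 := by nlinarith
    have h8 := mul_le_mul_of_nonneg_left h7 (mul_nonneg (sq_nonneg (u' x))
      (mul_nonneg h5 (sq_nonneg (x * (1 - ε * x)))))
    generalize wt n lam ε i e r x = P at *
    generalize x * (1 - ε * x) = z at *
    generalize 1 - 2 * (ε * x) = s at *
    exact abs_le.2 ⟨by nlinarith [mul_nonneg h5 (sq_nonneg (u x + 2 * u' x * z * s))],
      by nlinarith [mul_nonneg h5 (sq_nonneg (u x - 2 * u' x * z * s))]⟩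
  have i0 := hA.intT n i e hp hf
  have i1 := hA.intT n i (e + 1) hp hf
  have i2 := hA.intT n (i + 1) (e + 2) hp hf
  have hi := int_deriv hA hd (((i0.div_const 2).add (i2.const_mul 2)).add (i0.mul_const K))
    fun x hx => (abs_add_le _ _).trans (add_le_add (b3 x hx) (by
      have h5 := mul_nonneg (sq_nonneg (u x)) (hA.wt_nonneg n (lam := lam) i e r hx)
      rw [abs_mul, abs_of_nonneg h5]
      exact mul_le_mul_of_nonneg_left (key x hx).2 h5))
  obtain ⟨C, hC⟩ := hf.2 i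
  have h0 := hA.ftc (C := C) hp hd hi fun x hx => by
    obtain ⟨h1, h2, h3, h4⟩ := t_mem hA hp hx
    have h0 := hA.vp_pos x hp.1
    have h5 : |1 - 2 * (ε * x)| ≤ 1 := abs_le.2 ⟨by linarith, by linarith⟩
    have h6 : (x / vp lam x) ^ a * (1 - ε * x) ^ b ≤ 1 :=
      mul_le_one₀ (pow_le_one₀ h1 h2) (pow_nonneg h3 _) (pow_le_one₀ h3 h4)
    have h7 : 0 ≤ x / vp lam x * (1 - ε * x) / vp lam x := by positivity
    have h8 : 0 ≤ u x ^ 2 * vp lam x ^ (2 * (i : ℤ) + r + 1) := by positivity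
    have h9 : u x ^ 2 * (vp lam x ^ (c + 1) * ((x / vp lam x) ^ (a + 1) * (1 - ε * x) ^ (b + 1)) *
        (1 - 2 * (ε * x))) = u x ^ 2 * vp lam x ^ (2 * (i : ℤ) + r + 1) *
          (x / vp lam x * (1 - ε * x) / vp lam x) *
            ((x / vp lam x) ^ a * (1 - ε * x) ^ b * (1 - 2 * (ε * x))) := by
      rw [show 2 * (i : ℤ) + r + 1 = c + 1 + 1 by omega, zpow_add_one₀ h0.ne' (c + 1), pow_succ _ a,
        pow_succ _ b]
      generalize (x / vp lam x) ^ a = A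
      field_simp
    rw [h9, abs_mul, abs_of_nonneg (mul_nonneg h8 h7), abs_mul,
      abs_of_nonneg (mul_nonneg (pow_nonneg h1 a) (pow_nonneg h3 b))]
    exact (mul_le_of_le_one_right (mul_nonneg h8 h7) (mul_le_one₀ h6 (abs_nonneg _) h5)).trans
      (mul_le_mul_of_nonneg_right (hC x hx) h7)
  have j1 := (i1.const_mul (2 * K)).add (i2.const_mul 4)
  have h1 := setIntegral_mono_on i0 ((hi.const_mul 2).add j1) hm fun x hx => by
    have h5 := mul_nonneg (sq_nonneg (u x)) (hA.wt_nonneg n (lam := lam) i e r hx)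
    have h6 := mul_le_mul_of_nonneg_left (key x hx).1 h5
    have h7 := mul_le_mul_of_nonneg_left (mul_le_mul_of_nonneg_left (b1 x hx) (sq_nonneg (u x))) hK0
    have h8 := (abs_le.1 (b3 x hx)).1
    simp only [Pi.add_apply, ← hu, ← hu']
    linarith
  rw [integral_add' (hi.const_mul 2) j1, integral_add' (i1.const_mul _) (i2.const_mul _),
    integral_const_mul, integral_const_mul, integral_const_mul, h0, mul_zero, zero_add] at h1
  exact h1

theorem chain (hA : BaseA) (n h : ℕ) (r : ℤ) (k : ℕ) : ∀ (i : ℕ) (e : ℤ), i ≤ h →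
    2 * (i : ℤ) - h + 2 ≤ e → (i : ℤ) + 2 - e ≤ k → ∃ C : ℝ, 0 ≤ C ∧
      ∀ (lam ε : ℝ) (f : ℝ → ℝ), Par lam ε → Adm lam ε r f →
        TT n lam ε i e r f ≤ C * QQ n lam ε h r f := by
  have base : ∀ (i : ℕ) (e : ℤ), i ≤ h → (i : ℤ) + 2 ≤ e → ∃ C : ℝ, 0 ≤ C ∧
      ∀ (lam ε : ℝ) (f : ℝ → ℝ), Par lam ε → Adm lam ε r f →
        TT n lam ε i e r f ≤ C * QQ n lam ε h r f := fun i e hi he =>
    ⟨1, zero_le_one, fun lam ε f hp hf => by
      rw [one_mul]
      exact (hA.TT_anti n i hp hf he).trans (hA.TT_le_QQ n lam ε r f hi)⟩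
  induction k with
  | zero => exact fun i e hi _ he => base i e hi (by omega)
  | succ k ih =>
    intro i e hi h1 h2
    by_cases he : (i : ℤ) + 2 ≤ e
    · exact base i e hi he
    obtain ⟨K, hK, hs⟩ := step hA n i e r
    obtain ⟨C1, p1, q1⟩ := ih i (e + 1) hi (by omega) (by omega)
    obtain ⟨C2, p2, q2⟩ := ih (i + 1) (e + 2) (by omega) (by omega) (by omega)
    refine ⟨K * C1 + 4 * C2, by positivity, fun lam ε f hp hf => (hs lam ε f hp hf).trans ?_⟩
    nlinarith [mul_le_mul_of_nonneg_left (q1 lam ε f hp hf) hK, q2 lam ε f hp hf]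

end Hardy

theorem hardy (hA : BaseA) (hB : BaseB) : HardyStmt := by
  have _ := hB
  intro n h r _
  have key : ∀ i : ℕ, ∃ C : ℝ, 0 ≤ C ∧ (i ≤ h → ∀ (lam ε : ℝ) (f : ℝ → ℝ), Par lam ε →
      Adm lam ε r f → TT n lam ε i (2 * (i : ℤ) - h + 2) r f ≤ C * QQ n lam ε h r f) := by
    intro i
    by_cases hi : i ≤ h
    · obtain ⟨C, h1, h2⟩ := Hardy.chain hA n h r h i _ hi le_rfl (by omega)
      exact ⟨C, h1, fun _ => h2⟩
    · exact ⟨0, le_rfl, fun h => absurd h hi⟩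
  choose C h1 h2 using key
  refine ⟨∑ i ∈ Finset.range (h + 1), C i, Finset.sum_nonneg fun i _ => h1 i,
    fun lam ε f hp hf i hi e he => ?_⟩
  exact (hA.TT_anti n i hp hf he).trans ((h2 i hi lam ε f hp hf).trans
    (mul_le_mul_of_nonneg_right (Finset.single_le_sum (fun i _ => h1 i)
      (Finset.mem_range.2 (by omega))) (hA.QQ_nonneg n lam ε h r f)))

end Vale.Agent.P264
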