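import Vale.Agent.P264.StmS

/-!
Mapping property of `LL` and the interpolation inequality.
-/

namespace Vale.Agent.P264

open scoped ContDiff
open Set MeasureTheory Filter

namespace In

theorem wt_eq' (hA : BaseA) {n : ℕ} {lam : ℝ} (ε x : ℝ) (i e : ℕ) {e' r z : ℤ} (hn : 1 ≤ n)
    (hl : 0 < lam) (he : e' = e) (hz : 2 * (i : ℤ) + r - n - e = z) :
    wt n lam ε i e' r x = WW n ε e x * vp lam x ^ z := by
  rw [he, ← hz]
  exact hA.wt_eq i e r hn hl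

theorem om_nonneg {ε x : ℝ} (hx : x ∈ dom ε) : 0 ≤ om ε x :=
  mul_nonneg hx.1.le (sub_nonneg.2 hx.2.le)

theorem WW_nonneg (n : ℕ) {ε x : ℝ} (j : ℕ) (hx : x ∈ dom ε) : 0 ≤ WW n ε j x :=
  mul_nonneg (pow_nonneg hx.1.le _) (pow_nonneg (om_nonneg hx) _)

theorem WW_add (n : ℕ) (ε x : ℝ) (j k : ℕ) : WW n ε (j + k) x = WW n ε j x * om ε x ^ k := by
  simp only [WW]; ring

theorem iadd {μ : Measure ℝ} {f g : ℝ → ℝ} (hf : Integrable f μ) (hg : Integrable g μ) :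
    Integrable (fun x => f x + g x) μ := hf.add hg

theorem sq_five (a b c d e : ℝ) :
    (a + b + c + d + e) ^ 2 ≤ 5 * (a ^ 2 + b ^ 2 + c ^ 2 + d ^ 2 + e ^ 2) := by
  nlinarith [sq_nonneg (a - b), sq_nonneg (a - c), sq_nonneg (a - d), sq_nonneg (a - e),
    sq_nonneg (b - c), sq_nonneg (b - d), sq_nonneg (b - e), sq_nonneg (c - d), sq_nonneg (c - e),
    sq_nonneg (d - e)]

theorem sq_le_of_abs {c K : ℝ} (h : |c| ≤ K) : c ^ 2 ≤ K ^ 2 :=
  sq_le_sq' (abs_le.1 h).1 (abs_le.1 h).2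

/-- the pointwise inequality behind the mapping property -/
theorem pt_L {o ε v K c₃ c₂ c₁ c₀ u₄ u₃ u₂ u₁ u₀ W Q : ℝ} (hW : 0 ≤ W) (hQ : 0 ≤ Q) (hε : 0 ≤ ε)
    (hv : 0 < v) (hev : ε * v ≤ 2) (h₃ : |c₃| ≤ K) (h₂ : |c₂| ≤ K) (h₁ : |c₁| ≤ K)
    (h₀ : |c₀| ≤ K) :
    (o ^ 2 * u₄ + o * c₃ * u₃ + c₂ * u₂ + ε * c₁ * u₁ + ε ^ 2 * c₀ * u₀) ^ 2 * (W * (Q * v ^ 4)) ≤
      5 * (u₄ ^ 2 * (W * o ^ 4 * (Q * v ^ 4))) + 5 * K ^ 2 * (u₃ ^ 2 * (W * o ^ 2 * (Q * v ^ 4)))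
        + 5 * K ^ 2 * (u₂ ^ 2 * (W * (Q * v ^ 4))) + 20 * K ^ 2 * (u₁ ^ 2 * (W * (Q * v ^ 2)))
        + 80 * K ^ 2 * (u₀ ^ 2 * (W * Q)) := by
  have e2 : (ε * v) ^ 2 ≤ 2 ^ 2 := pow_le_pow_left₀ (by positivity) hev 2
  have e4 : (ε * v) ^ 4 ≤ 2 ^ 4 := pow_le_pow_left₀ (by positivity) hev 4
  have a := mul_le_mul_of_nonneg_right
    (sq_five (o ^ 2 * u₄) (o * c₃ * u₃) (c₂ * u₂) (ε * c₁ * u₁) (ε ^ 2 * c₀ * u₀))
    (by positivity : 0 ≤ W * (Q * v ^ 4))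
  have b₃ := mul_le_mul_of_nonneg_right (sq_le_of_abs h₃)
    (by positivity : 0 ≤ u₃ ^ 2 * (W * o ^ 2 * (Q * v ^ 4)))
  have b₂ := mul_le_mul_of_nonneg_right (sq_le_of_abs h₂)
    (by positivity : 0 ≤ u₂ ^ 2 * (W * (Q * v ^ 4)))
  have b₁ := mul_le_mul_of_nonneg_right
    (mul_le_mul (sq_le_of_abs h₁) e2 (by positivity) (by positivity))
    (by positivity : 0 ≤ u₁ ^ 2 * (W * (Q * v ^ 2)))
  have b₀ := mul_le_mul_of_nonneg_right
    (mul_le_mul (sq_le_of_abs h₀) e4 (by positivity) (by positivity))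
    (by positivity : 0 ≤ u₀ ^ 2 * (W * Q))
  linarith

theorem one_L (hA : BaseA) (hB : BaseB) (hD : DelStmt) (hH : HardyStmt) (n j : ℕ) (r : ℤ)
    (hn : 1 ≤ n) : ∃ C, 0 ≤ C ∧ ∀ (lam ε : ℝ) (f : ℝ → ℝ), Par lam ε → Adm lam ε r f →
      TT n lam ε j (j + 2) (r + 4) (LL n ε f) ≤ C * QQ n lam ε (j + 4) r f := by
  obtain ⟨K, hK⟩ := hD.expand n j
  obtain ⟨C, hC, hT⟩ := hH n (j + 4) r hn
  refine ⟨(5 + 110 * K ^ 2) * C, by positivity, fun lam ε f hp hf => ?_⟩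
  obtain ⟨c₃, c₂, c₁, c₀, hc, he⟩ := hK hp.2.1
  have i₄ := hA.intT n (j + 4) (j + 6) hp hf
  have i₃ := hA.intT n (j + 3) (j + 4) hp hf
  have i₂ := hA.intT n (j + 2) (j + 2) hp hf
  have i₁ := hA.intT n (j + 1) (j + 2) hp hf
  have i₀ := hA.intT n j (j + 2) hp hf
  have t₄ := hT lam ε f hp hf (j + 4) le_rfl (j + 6) (by push_cast; omega)
  have t₃ := hT lam ε f hp hf (j + 3) (by omega) (j + 4) (by push_cast; omega)
  have t₂ := hT lam ε f hp hf (j + 2) (by omega) (j + 2) (by push_cast; omega)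
  have t₁ := hT lam ε f hp hf (j + 1) (by omega) (j + 2) (by push_cast; omega)
  have t₀ := hT lam ε f hp hf j (by omega) (j + 2) (by push_cast; omega)
  have j₄ := i₄.const_mul 5
  have j₃ := i₃.const_mul (5 * K ^ 2)
  have j₂ := i₂.const_mul (5 * K ^ 2)
  have j₁ := i₁.const_mul (20 * K ^ 2)
  have j₀ := i₀.const_mul (80 * K ^ 2)
  have key : TT n lam ε j (j + 2) (r + 4) (LL n ε f) ≤
      5 * TT n lam ε (j + 4) (j + 6) r f + 5 * K ^ 2 * TT n lam ε (j + 3) (j + 4) r f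
        + 5 * K ^ 2 * TT n lam ε (j + 2) (j + 2) r f + 20 * K ^ 2 * TT n lam ε (j + 1) (j + 2) r f
        + 80 * K ^ 2 * TT n lam ε j (j + 2) r f := by
    simp only [TT]
    rw [← integral_const_mul, ← integral_const_mul, ← integral_const_mul, ← integral_const_mul,
      ← integral_const_mul, ← integral_add j₄ j₃, ← integral_add (iadd j₄ j₃) j₂,
      ← integral_add (iadd (iadd j₄ j₃) j₂) j₁,
      ← integral_add (iadd (iadd (iadd j₄ j₃) j₂) j₁) j₀]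
    refine setIntegral_mono_on (hA.intT n j _ hp (hB.adm_LL n hp hf))
      (iadd (iadd (iadd (iadd j₄ j₃) j₂) j₁) j₀) (hA.dom_open ε).measurableSet fun x hx => ?_
    have hv := hA.vp_pos x hp.1
    have z2 : vp lam x ^ ((j : ℤ) + r - n - 2 + 2) =
        vp lam x ^ ((j : ℤ) + r - n - 2) * vp lam x ^ 2 := by
      rw [zpow_add₀ hv.ne']; rfl
    have z4 : vp lam x ^ ((j : ℤ) + r - n - 2 + 4) =
        vp lam x ^ ((j : ℤ) + r - n - 2) * vp lam x ^ 4 := by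
      rw [zpow_add₀ hv.ne']; rfl
    rw [he hf.1 hx,
      wt_eq' hA ε x j (j + 2) (z := (j : ℤ) + r - n - 2 + 4) hn hp.1 (by push_cast; ring)
        (by push_cast; ring),
      wt_eq' hA ε x (j + 4) (j + 2 + 4) (z := (j : ℤ) + r - n - 2 + 4) hn hp.1
        (by push_cast; ring) (by push_cast; ring),
      wt_eq' hA ε x (j + 3) (j + 2 + 2) (z := (j : ℤ) + r - n - 2 + 4) hn hp.1
        (by push_cast; ring) (by push_cast; ring),
      wt_eq' hA ε x (j + 2) (j + 2) (z := (j : ℤ) + r - n - 2 + 4) hn hp.1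
        (by push_cast; ring) (by push_cast; ring),
      wt_eq' hA ε x (j + 1) (j + 2) (z := (j : ℤ) + r - n - 2 + 2) hn hp.1
        (by push_cast; ring) (by push_cast; ring),
      wt_eq' hA ε x j (j + 2) (z := (j : ℤ) + r - n - 2) hn hp.1 (by push_cast; ring)
        (by push_cast; ring), z2, z4, WW_add n ε x (j + 2) 4, WW_add n ε x (j + 2) 2]
    exact pt_L (WW_nonneg n _ hx) (zpow_pos hv _).le hp.2.1 hv (hA.eps_vp hp hx) (hc x hx).1
      (hc x hx).2.1 (hc x hx).2.2.1 (hc x hx).2.2.2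
  have hK2 : 0 ≤ K ^ 2 := sq_nonneg K
  have s₃ := mul_le_mul_of_nonneg_left t₃ hK2
  have s₂ := mul_le_mul_of_nonneg_left t₂ hK2
  have s₁ := mul_le_mul_of_nonneg_left t₁ hK2
  have s₀ := mul_le_mul_of_nonneg_left t₀ hK2
  linarith

/-- the pointwise inequality behind the interpolation -/
theorem pt_I {o x v q l K δ u₂ u₁ u₀ W Q : ℝ} (hW : 0 ≤ W) (hQ : 0 ≤ Q) (hv : 0 < v) (hδ : 0 < δ)
    (ho : 0 ≤ o) (hox : o ≤ x) (hxv : x ≤ v) (hl : |l| ≤ K) :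
    -((o * (q * x * Q * u₁ + Q * v ^ 2 * u₂) + l * (Q * v ^ 2 * u₁)) * u₀ * W) ≤
      2 * δ * (u₂ ^ 2 * (W * o ^ 2 * (Q * v ^ 3)))
        + 2 * δ * (K + |q|) ^ 2 * (u₁ ^ 2 * (W * (Q * v ^ 3)))
        + (4 * δ)⁻¹ * (u₀ ^ 2 * (W * (Q * v))) := by
  obtain ⟨s, hs, hs0, hs1⟩ : ∃ s : ℝ, o * x = s * v ^ 2 ∧ 0 ≤ s ∧ s ≤ 1 := by
    refine ⟨o * x / v ^ 2, by field_simp, div_nonneg (mul_nonneg ho (ho.trans hox)) (sq_nonneg v),
      (div_le_one (by positivity)).2 ?_⟩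
    rw [sq]
    exact mul_le_mul (hox.trans hxv) hxv (ho.trans hox) hv.le
  have hk : |l + q * s| ≤ K + |q| := by
    refine (abs_add_le _ _).trans (add_le_add hl ?_)
    rw [abs_mul, abs_of_nonneg hs0]
    exact mul_le_of_le_one_right (abs_nonneg q) hs1
  set k := l + q * s with hkdef
  have e : -((o * (q * x * Q * u₁ + Q * v ^ 2 * u₂) + l * (Q * v ^ 2 * u₁)) * u₀ * W) =
      W * (Q * v) * (-(v * (o * u₂ + k * u₁)) * u₀) := by
    have : o * (q * x * Q * u₁) = q * (s * v ^ 2) * Q * u₁ := by rw [← hs]; ring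
    rw [mul_add o, this, hkdef]; ring
  have y : ∀ a b : ℝ, a * b ≤ δ * a ^ 2 + (4 * δ)⁻¹ * b ^ 2 := fun a b => by
    have h1 : 0 ≤ (4 * δ)⁻¹ * (2 * δ * a - b) ^ 2 := by positivity
    have h2 : (4 * δ)⁻¹ * (2 * δ * a - b) ^ 2 = δ * a ^ 2 + (4 * δ)⁻¹ * b ^ 2 - a * b := by
      field_simp; ring
    linarith
  have h1 : (o * u₂ + k * u₁) ^ 2 ≤ 2 * (o * u₂) ^ 2 + 2 * ((K + |q|) ^ 2 * u₁ ^ 2) := by
    have := mul_le_mul_of_nonneg_right (sq_le_of_abs hk) (sq_nonneg u₁)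
    nlinarith [sq_nonneg (o * u₂ - k * u₁)]
  have h2 := mul_le_mul_of_nonneg_left h1 (by positivity : 0 ≤ W * (Q * v) * (δ * v ^ 2))
  have h3 := mul_le_mul_of_nonneg_left (y (-(v * (o * u₂ + k * u₁))) u₀)
    (by positivity : 0 ≤ W * (Q * v))
  rw [e]
  linarith

theorem one_I (hA : BaseA) (hB : BaseB) (hD : DelStmt) (hH : HardyStmt) (n i : ℕ) (r : ℤ)
    (hn : 1 ≤ n) {θ : ℝ} (hθ : 0 < θ) :
    ∃ C, 0 ≤ C ∧ ∀ (lam ε : ℝ) (f : ℝ → ℝ), Par lam ε → Adm lam ε r f →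
      TT n lam ε (i + 1) (i + 3) r f ≤ θ * QQ n lam ε (i + 2) r f + C * QQ n lam ε i r f := by
  obtain ⟨C, hC, hT⟩ := hH n (i + 2) r hn
  set q : ℤ := (i : ℤ) + r - n - 1 with hq
  set K : ℝ := 4 * (n + ((i + 2 : ℕ) : ℝ) + 2) with hK
  obtain ⟨δ, hδ, hδθ⟩ : ∃ δ : ℝ, 0 < δ ∧ δ * (2 * (1 + (K + |(q : ℝ)|) ^ 2) * C) ≤ θ := by
    have h0 : 0 ≤ 2 * (1 + (K + |(q : ℝ)|) ^ 2) * C := by positivity
    refine ⟨θ / (2 * (1 + (K + |(q : ℝ)|) ^ 2) * C + 1), by positivity, ?_⟩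
    rw [div_mul_eq_mul_div, div_le_iff₀ (by positivity)]
    exact mul_le_mul_of_nonneg_left (by linarith) hθ.le
  refine ⟨(4 * δ)⁻¹, by positivity, fun lam ε f hp hf => ?_⟩
  have sy : SyA lam ε q fun x => vp lam x ^ q := fun h => by
    obtain ⟨M, -, hM⟩ := hB.vp_sy h q
    exact ⟨M, hM ε hp.1⟩
  have aA : Adm lam ε (2 * n + 4 - r) fun x => vp lam x ^ q * iteratedDeriv (i + 1) f x :=
    hB.adm_mul hp.1 sy (by
      have := hB.adm_iter (i + 1) hf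
      rwa [show r + 2 * ((i + 1 : ℕ) : ℤ) = 2 * n + 4 - r + 2 * q by rw [hq]; push_cast; ring]
        at this)
  obtain ⟨I1, -, e⟩ := hD.ibp (i + 2) hn hp aA (hB.adm_iter i hf) (by push_cast; omega)
  have i₂ := hA.intT n (i + 2) (i + 4) hp hf
  have i₁ := hA.intT n (i + 1) (i + 2) hp hf
  have i₀ := hA.intT n i (i + 2) hp hf
  have t₂ := hT lam ε f hp hf (i + 2) le_rfl (i + 4) (by push_cast; omega)
  have t₁ := hT lam ε f hp hf (i + 1) (by omega) (i + 2) (by push_cast; omega)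
  have t₀ := hA.TT_le_QQ n lam ε r f (le_refl i)
  have j₂ := i₂.const_mul (2 * δ)
  have j₁ := i₁.const_mul (2 * δ * (K + |(q : ℝ)|) ^ 2)
  have j₀ := i₀.const_mul (4 * δ)⁻¹
  have e1 : TT n lam ε (i + 1) (i + 3) r f = ∫ x in dom ε,
      -(dl n ε (i + 2) (fun x => vp lam x ^ q * iteratedDeriv (i + 1) f x) x
        * iteratedDeriv i f x * WW n ε (i + 2) x) := by
    rw [integral_neg, e, neg_neg, TT]
    refine setIntegral_congr_fun (hA.dom_open ε).measurableSet fun x _ => ?_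
    rw [wt_eq' hA ε x (i + 1) (i + 2 + 1) (z := q) hn hp.1 (by push_cast; ring)
      (by rw [hq]; push_cast; ring), ← iteratedDeriv_succ]
    ring
  have key : TT n lam ε (i + 1) (i + 3) r f ≤ 2 * δ * TT n lam ε (i + 2) (i + 4) r f
      + 2 * δ * (K + |(q : ℝ)|) ^ 2 * TT n lam ε (i + 1) (i + 2) r f
      + (4 * δ)⁻¹ * TT n lam ε i (i + 2) r f := by
    rw [e1]
    simp only [TT]
    rw [← integral_const_mul, ← integral_const_mul, ← integral_const_mul, ← integral_add j₂ j₁,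
      ← integral_add (iadd j₂ j₁) j₀]
    refine setIntegral_mono_on I1.neg (iadd (iadd j₂ j₁) j₀) (hA.dom_open ε).measurableSet
      fun x hx => ?_
    have hv := hA.vp_pos x hp.1
    have z1 : vp lam x ^ (q - 2 + 1) = vp lam x ^ (q - 2) * vp lam x := by
      rw [zpow_add₀ hv.ne', zpow_one]
    have z2 : vp lam x ^ q = vp lam x ^ (q - 2) * vp lam x ^ 2 := by
      rw [← zpow_natCast, ← zpow_add₀ hv.ne']; simp
    have z3 : vp lam x ^ (q - 2 + 3) = vp lam x ^ (q - 2) * vp lam x ^ 3 := by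
      rw [zpow_add₀ hv.ne']; rfl
    have d : HasDerivAt (fun x => vp lam x ^ q * iteratedDeriv (i + 1) f x) _ x :=
      (hA.vp_deriv q x hp.1).mul (hA.iter_deriv (i + 1) hf.1 hx)
    have hl : |ell n ε (i + 2) x| ≤ K := by
      simpa [hK] using (hB.ell_sy n (i + 2) 0 hp).2 0 le_rfl x hx
    simp only [dl]
    rw [d.deriv,
      wt_eq' hA ε x (i + 2) (i + 2 + 2) (z := q - 2 + 3) hn hp.1 (by push_cast; ring)
        (by rw [hq]; push_cast; ring),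
      wt_eq' hA ε x (i + 1) (i + 2) (z := q - 2 + 3) hn hp.1 (by push_cast; ring)
        (by rw [hq]; push_cast; ring),
      wt_eq' hA ε x i (i + 2) (z := q - 2 + 1) hn hp.1 (by push_cast; ring)
        (by rw [hq]; push_cast; ring), z1, z2, z3, WW_add n ε x (i + 2) 2]
    refine pt_I (WW_nonneg n _ hx) (zpow_pos hv _).le hv hδ (om_nonneg hx) ?_ (hA.x_le lam x) hl
    exact mul_le_of_le_one_right hx.1.le (by linarith [mul_nonneg hp.2.1 hx.1.le])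
  have s₂ := mul_le_mul_of_nonneg_left t₂ (by positivity : 0 ≤ 2 * δ)
  have s₁ := mul_le_mul_of_nonneg_left t₁ (by positivity : 0 ≤ 2 * δ * (K + |(q : ℝ)|) ^ 2)
  have s₀ := mul_le_mul_of_nonneg_left t₀ (by positivity : 0 ≤ (4 * δ)⁻¹)
  have s := mul_le_mul_of_nonneg_right hδθ (hA.QQ_nonneg n lam ε (i + 2) r f)
  linarith

end In

open In in
theorem lS (hA : BaseA) (hB : BaseB) (hD : DelStmt) (hH : HardyStmt) : LStmt := by
  intro n h r hn
  choose C hC hT using fun j => one_L hA hB hD hH n j r hn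
  refine ⟨∑ j ∈ Finset.range (h + 1), C j, Finset.sum_nonneg fun j _ => hC j,
    fun lam ε f hp hf => ?_⟩
  rw [QQ, Finset.sum_mul]
  refine Finset.sum_le_sum fun j hj => (hT j lam ε f hp hf).trans ?_
  exact mul_le_mul_of_nonneg_left (hA.QQ_mono n lam ε r f (by
    have := Finset.mem_range.1 hj; omega)) (hC j)

open In in
theorem inS (hA : BaseA) (hB : BaseB) (hD : DelStmt) (hH : HardyStmt) : InStmt := by
  intro n h r θ hn hθ
  induction h generalizing θ with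
  | zero =>
    refine ⟨1, zero_le_one, fun lam ε f _ _ => ?_⟩
    have e : QQ n lam ε 0 r f = TT n lam ε 0 2 r f := by simp [QQ]
    have := mul_nonneg hθ.le (hA.QQ_nonneg n lam ε (0 + 1) r f)
    linarith
  | succ h ih =>
    obtain ⟨C₁, hC₁, h₁⟩ := one_I hA hB hD hH n h r hn (half_pos hθ)
    obtain ⟨C₂, hC₂, h₂⟩ := ih (2 * (1 + C₁))⁻¹ (by positivity)
    refine ⟨2 * (1 + C₁) * C₂, by positivity, fun lam ε f hp hf => ?_⟩
    have e : QQ n lam ε (h + 1) r f = QQ n lam ε h r f + TT n lam ε (h + 1) (h + 3) r f := by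
      rw [QQ, Finset.sum_range_succ, show ((h + 1 : ℕ) : ℤ) + 2 = h + 3 by push_cast; ring]
      rfl
    have a := h₁ lam ε f hp hf
    have b := mul_le_mul_of_nonneg_left (h₂ lam ε f hp hf) (by positivity : 0 ≤ 2 * (1 + C₁))
    rw [mul_add (2 * (1 + C₁)), ← mul_assoc (2 * (1 + C₁)), mul_inv_cancel₀ (by positivity),
      one_mul] at b
    have e' : QQ n lam ε (h + 1 + 1) r f = QQ n lam ε (h + 2) r f := rfl
    linarith

end Vale.Agent.P264
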