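import Vale.Agent.P264.StmS

/-! The quasilinear remainder. -/

namespace Vale.Agent.P264

open scoped ContDiff
open Set MeasureTheory

namespace NL

/-- admissible for every weight -/
def Good (lam ε : ℝ) (f : ℝ → ℝ) : Prop := ∀ r, Adm lam ε r f

variable {lam ε : ℝ} {f g a : ℝ → ℝ}

theorem Good.sm (h : Good lam ε f) : ContDiffOn ℝ ∞ f (dom ε) := (h 0).1

theorem Good.int (hA : BaseA) (hP : Par lam ε) (h : Good lam ε f) (n k : ℕ) (r : ℤ) :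
    IntQ n lam ε k r f := fun i _ => hA.intT n i _ hP (h r)

theorem Good.mul (hB : BaseB) (hP : Par lam ε) {q : ℤ} (ha : SyA lam ε q a) (h : Good lam ε f) :
    Good lam ε fun x => a x * f x := fun _ => hB.adm_mul hP.1 ha (h _)

theorem Good.LL (hB : BaseB) (hP : Par lam ε) (h : Good lam ε f) (n : ℕ) :
    Good lam ε (LL n ε f) := fun r => by
  have := hB.adm_LL n hP (h (r - 4))
  rwa [sub_add_cancel] at this

theorem Good.lin (hB : BaseB) (hP : Par lam ε) (h : Good lam ε f) (h' : Good lam ε g) (s t : ℝ) :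
    Good lam ε fun x => s * f x + t * g x := fun r => hB.adm_lin s t hP.1 (h r) (h' r)

theorem QQ_lin (hA : BaseA) (hB : BaseB) (hP : Par lam ε) (h : Good lam ε f) (h' : Good lam ε g)
    (s t : ℝ) (n k : ℕ) (r : ℤ) : QQ n lam ε k r (fun x => s * f x + t * g x) ≤
      2 * s ^ 2 * QQ n lam ε k r f + 2 * t ^ 2 * QQ n lam ε k r g := by
  have h1 : Good lam ε fun x => s * f x := by simpa using h.lin hB hP h s 0
  have h2 : Good lam ε fun x => t * g x := by simpa using h'.lin hB hP h' t 0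
  have := hA.QQ_add n k r h1.sm h2.sm (h1.int hA hP n k r) (h2.int hA hP n k r)
  rw [hA.QQ_smul, hA.QQ_smul] at this
  linarith

theorem num {Ca Cm CL M X Y A L Gl VF AL T₁ T₂ T₃ : ℝ} (hCa : 0 ≤ Ca) (hCm : 0 ≤ Cm)
    (hCL : 0 ≤ CL) (hX : 0 ≤ X) (hX1 : X ≤ 1) (hY : 0 ≤ Y) (hL0 : 0 ≤ L) (hGL0 : 0 ≤ Gl)
    (hVF0 : 0 ≤ VF) (hAL0 : 0 ≤ AL) (hA : A ≤ Cm * 4 ^ 2 * X) (hL : L ≤ CL * Y)
    (hGL : Gl ≤ Cm * M ^ 2 * L) (hVF : VF ≤ Cm * M ^ 2 * Y) (hAL : AL ≤ Ca * A * L)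
    (h1 : T₁ ≤ Ca * A * Gl) (h2 : T₂ ≤ Ca * A * AL) (h3 : T₃ ≤ Ca * A * VF) :
    8 * T₁ + 4 * T₂ + 4 * T₃ ≤ Ca * (Cm * 4 ^ 2) *
      (8 * (Cm * M ^ 2 * CL) + 4 * (Ca * (Cm * 4 ^ 2) * CL) + 4 * (Cm * M ^ 2)) * X * Y := by
  have a1 : Gl ≤ Cm * M ^ 2 * (CL * Y) := hGL.trans (by gcongr)
  have a2 : AL ≤ Ca * (Cm * 4 ^ 2 * 1) * (CL * Y) :=
    hAL.trans (by gcongr; exact hA.trans (by gcongr))
  have b1 : T₁ ≤ Ca * (Cm * 4 ^ 2 * X) * (Cm * M ^ 2 * (CL * Y)) := h1.trans (by gcongr)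
  have b2 : T₂ ≤ Ca * (Cm * 4 ^ 2 * X) * (Ca * (Cm * 4 ^ 2 * 1) * (CL * Y)) :=
    h2.trans (by gcongr)
  have b3 : T₃ ≤ Ca * (Cm * 4 ^ 2 * X) * (Cm * M ^ 2 * Y) := h3.trans (by gcongr)
  linarith

end NL

open NL in
theorem nl (hA : BaseA) (hB : BaseB) (hD : DelStmt) (hM : MulStmt) (hAl : AlStmt) (hL : LStmt) :
    NLStmt := by
  intro n k p M hn hk
  obtain ⟨h, rfl⟩ : ∃ h, k = h + 2 := ⟨k - 2, by omega⟩
  obtain ⟨Cm, hCm, HM⟩ := hM n h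
  obtain ⟨Ca, hCa, HA⟩ := hAl n h (p + 2) hn (by omega)
  obtain ⟨CL, hCL, HL⟩ := hL n h (p - 2) hn
  refine ⟨Ca * (Cm * 4 ^ 2) *
    (8 * (Cm * M ^ 2 * CL) + 4 * (Ca * (Cm * 4 ^ 2) * CL) + 4 * (Cm * M ^ 2)), by positivity, ?_⟩
  intro lam ε g V χ f hP hε hg hV sg sV sχ sf hχ
  have so : SyA lam ε 1 (om ε) := fun j => ⟨4, hB.om_sy j hP⟩
  have gχ : Good lam ε χ := fun r => hB.adm_of_syA r hP.1 (Or.inl hε) sχ
  have gf : Good lam ε f := fun r => hB.adm_of_syA r hP.1 (Or.inl hε) sf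
  have ga : Good lam ε fun x => om ε x * χ x := gχ.mul hB hP so
  have gm : ∀ {b : ℝ → ℝ}, Good lam ε b → Good lam ε fun x => om ε x * χ x * b x := fun hb => by
    simpa only [mul_assoc] using (hb.mul hB hP sχ).mul hB hP so
  have gL := gf.LL hB hP n
  have gG := gL.mul hB hP sg
  have gV := gf.mul hB hP sV
  have e1 := (HM lam ε 4 0 1 _ χ hP (hB.om_sy h hP) gχ.sm (gχ.int hA hP _ _ _)).2
  have e2 := HL lam ε f hP (gf _)
  have e3 := (HM lam ε M (p + 2) 0 g _ hP (hB.mono hP.1 (by omega) le_rfl hg) gL.sm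
    (gL.int hA hP _ _ _)).2
  have e4 := (HM lam ε M (p + 2) (-2) V f hP (hB.mono hP.1 (by omega) le_rfl hV) gf.sm
    (gf.int hA hP _ _ _)).2
  rw [show (0 : ℤ) + 2 * 1 = 2 by norm_num] at e1
  rw [show p - 2 + 4 = p + 2 by ring] at e2
  rw [mul_zero, add_zero] at e3
  rw [show p + 2 + 2 * -2 = p - 2 by ring] at e4
  have e1' := e1.trans (mul_le_mul_of_nonneg_left
    (hA.QQ_mono n lam ε 2 χ (Nat.le_add_right h 2)) (by positivity))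
  have e4' := e4.trans (mul_le_mul_of_nonneg_left
    (hA.QQ_mono n lam ε (p - 2) f (Nat.le_add_right h 4)) (by positivity))
  have f1 := QQ_lin hA hB hP (gm (gm gL)) (gm gV) (-1) 1 n h (p + 2)
  have f2 := QQ_lin hA hB hP (gm gG) ((gm (gm gL)).lin hB hP (gm gV) (-1) 1) (-2) 1 n h (p + 2)
  have f3 := num hCa hCm hCL (hA.QQ_nonneg _ _ _ _ _ _) hχ (hA.QQ_nonneg _ _ _ _ _ _)
    (hA.QQ_nonneg _ _ _ _ _ _) (hA.QQ_nonneg _ _ _ _ _ _) (hA.QQ_nonneg _ _ _ _ _ _)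
    (hA.QQ_nonneg _ _ _ _ _ _) e1' e2 e3 e4' (HA lam ε _ _ hP (ga 0) (gL _))
    (HA lam ε _ _ hP (ga 0) (gG _)) (HA lam ε _ _ hP (ga 0) (gm gL _))
    (HA lam ε _ _ hP (ga 0) (gV _))
  have f4 : FF n ε g V χ f = fun x => -2 * (om ε x * χ x * (g x * LL n ε f x)) +
      1 * (-1 * (om ε x * χ x * (om ε x * χ x * LL n ε f x)) +
        1 * (om ε x * χ x * (V x * f x))) := by
    funext x
    unfold FF
    ring
  rw [f4, Nat.add_sub_cancel]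
  refine le_trans ?_ f3
  linarith

end Vale.Agent.P264
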