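import Vale.Agent.P264.StmS

/-!
Pairing bounds.
-/

namespace Vale.Agent.P264

open scoped ContDiff
open Set MeasureTheory Filter

namespace Pair

variable {n : ℕ} {lam ε M x : ℝ} {b F f : ℝ → ℝ}

theorem wt_sq (hA : BaseA) (h : 0 < lam) (i : ℕ) (e p t : ℤ) :
    wt n lam ε i e p x ^ 2 = wt n lam ε i e (p + t) x * wt n lam ε i e (p - t) x := by
  have := (hA.vp_pos x h).ne'
  rw [wt, wt, wt, mul_mul_mul_comm, sq, mul_mul_mul_comm, ← zpow_add₀ this, ← zpow_add₀ this]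
  congr 2
  ring

theorem wt_eq' (hA : BaseA) (hn : 1 ≤ n) (h : 0 < lam) (i e : ℕ) {e' r q : ℤ} (he : e' = e)
    (hq : 2 * (i : ℤ) + r - n - e = q) : wt n lam ε i e' r x = WW n ε e x * vp lam x ^ q := by
  rw [he, hA.wt_eq i e r hn h, hq]

theorem pt_bd (hA : BaseA) (h : 0 < lam) (hb : Sy lam ε 0 0 M b) (j : ℕ) (p t : ℤ)
    (hx : x ∈ dom ε) : 0 ≤ M ^ 2 * (iteratedDeriv j F x ^ 2 * wt n lam ε j (j + 2) (p + t) x) ∧
      0 ≤ iteratedDeriv j f x ^ 2 * wt n lam ε j (j + 2) (p - t) x ∧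
      (iteratedDeriv j F x * iteratedDeriv j f x * wt n lam ε j (j + 2) p x * b x) ^ 2 ≤
        M ^ 2 * (iteratedDeriv j F x ^ 2 * wt n lam ε j (j + 2) (p + t) x) *
          (iteratedDeriv j f x ^ 2 * wt n lam ε j (j + 2) (p - t) x) := by
  have h1 := hA.wt_nonneg n (lam := lam) j (j + 2) (p + t) hx
  have h2 := hA.wt_nonneg n (lam := lam) j (j + 2) (p - t) hx
  have h3 : |b x| ≤ M := by simpa using hb.2 0 le_rfl x hx
  refine ⟨by positivity, by positivity, ?_⟩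
  rw [mul_pow, mul_pow, wt_sq hA h j _ p t]
  refine (mul_le_mul_of_nonneg_left (sq_le_sq' (abs_le.1 h3).1 (abs_le.1 h3).2)
    (by positivity)).trans_eq (by ring)

theorem alg {α β γ X Y Z N : ℝ} (h1 : |α| ≤ N) (h2 : |β| ≤ N) (h3 : |γ| ≤ N) :
    (α * X + β * Y + γ * Z) ^ 2 ≤ 3 * N ^ 2 * (X ^ 2 + Y ^ 2 + Z ^ 2) := by
  have a1 := sq_le_sq' (abs_le.1 h1).1 (abs_le.1 h1).2
  have a2 := sq_le_sq' (abs_le.1 h2).1 (abs_le.1 h2).2
  have a3 := sq_le_sq' (abs_le.1 h3).1 (abs_le.1 h3).2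
  have a4 : (α * X + β * Y + γ * Z) ^ 2 ≤ (α ^ 2 + β ^ 2 + γ ^ 2) * (X ^ 2 + Y ^ 2 + Z ^ 2) := by
    nlinarith [sq_nonneg (α * Y - β * X), sq_nonneg (α * Z - γ * X), sq_nonneg (β * Z - γ * Y)]
  exact a4.trans (mul_le_mul_of_nonneg_right (by linarith) (by positivity))

theorem alg2 {o a0 a1 a2 c1 c0 u0 u1 u2 K P : ℝ} (h0 : |a0| ≤ P) (h1 : |o * a1| ≤ P)
    (h2 : |o ^ 2 * a2| ≤ P) (k1 : |c1| ≤ K) (k0 : |c0| ≤ K) :
    (o ^ 2 * (a0 * u2 + 2 * a1 * u1 + a2 * u0) + o * c1 * (a0 * u1 + a1 * u0) +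
      c0 * (a0 * u0)) ^ 2 ≤
      3 * ((2 + 2 * K) * P) ^ 2 * ((o ^ 2 * u2) ^ 2 + (o * u1) ^ 2 + u0 ^ 2) := by
  have hK := (abs_nonneg _).trans k1
  have hP := (abs_nonneg _).trans h0
  have m : ∀ {c a : ℝ}, |c| ≤ K → |a| ≤ P → |c * a| ≤ K * P := fun hc ha =>
    (abs_mul _ _).trans_le (mul_le_mul hc ha (abs_nonneg _) hK)
  have KP := mul_nonneg hK hP
  refine le_trans (le_of_eq (by ring)) (alg (α := a0) (β := 2 * (o * a1) + c1 * a0)
    (γ := o ^ 2 * a2 + c1 * (o * a1) + c0 * a0) (by linarith) ?_ ?_)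
  · have := abs_le.1 (m k1 h0)
    have := abs_le.1 h1
    exact abs_le.2 ⟨by linarith, by linarith⟩
  · have := abs_le.1 (m k1 h1)
    have := abs_le.1 (m k0 h0)
    have := abs_le.1 h2
    exact abs_le.2 ⟨by linarith, by linarith⟩

theorem om_bd (hA : BaseA) (hP : Par lam ε) (hx : x ∈ dom ε) : |om ε x| ≤ vp lam x := by
  have h1 := hx.1
  have h2 := hx.2
  have h3 := mul_nonneg hP.2.1 h1.le
  rw [om, abs_of_nonneg (mul_nonneg h1.le (by linarith))]
  nlinarith [hA.x_le lam x]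

theorem sy_om (hA : BaseA) (hP : Par lam ε) {q : ℤ} {a : ℝ → ℝ} {h : ℕ} (ha : Sy lam ε h q M a)
    (hx : x ∈ dom ε) {i : ℕ} (hi : i ≤ h) :
    |om ε x ^ i * iteratedDeriv i a x| ≤ M * vp lam x ^ q := by
  have hv := hA.vp_pos x hP.1
  rw [abs_mul, abs_pow]
  refine (mul_le_mul (pow_le_pow_left₀ (abs_nonneg _) (om_bd hA hP hx) i) (ha.2 i hi x hx)
    (abs_nonneg _) (by positivity)).trans_eq ?_
  rw [zpow_sub₀ hv.ne', zpow_natCast]
  field_simp

theorem dual (hA : BaseA) (hB : BaseB) (hD : DelStmt) (hH : HardyStmt) (n j : ℕ) (p : ℤ) (M : ℝ)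
    (hn : 1 ≤ n) : ∃ C, 0 ≤ C ∧ ∀ {lam ε : ℝ} {b F f : ℝ → ℝ},
    Par lam ε → Sy lam ε 2 0 M b → SyA lam ε 0 b → Adm lam ε (p + 2) F → Adm lam ε (p - 2) f →
    |PP n lam ε (j + 2) p b F f|
      ≤ C * √(QQ n lam ε j (p + 2) F) * √(QQ n lam ε (j + 4) (p - 2) f) := by
  obtain ⟨q, hq⟩ : ∃ q : ℤ, q = j - n + p := ⟨_, rfl⟩
  obtain ⟨M0, m0, hM0⟩ := hB.vp_sy 2 q
  obtain ⟨K, hK⟩ := hD.dldl n (j + 2)
  obtain ⟨C, c0, hC⟩ := hH n (j + 4) (p - 2) hn
  obtain ⟨N, hN⟩ : ∃ N, N = 3 * ((2 + 2 * K) * (2 ^ 2 * M0 * |M|)) ^ 2 := ⟨_, rfl⟩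
  have n0 : 0 ≤ N := by rw [hN]; positivity
  refine ⟨√(N * (3 * C)), Real.sqrt_nonneg _, fun {lam ε b F f} hP hb hb' hF hf => ?_⟩
  obtain ⟨c₁, c₀, -, -, hc, hdl⟩ := hK hP.2.1
  have sa := hB.mul hP.1 m0 (abs_nonneg M) (hM0 ε hP.1) (hB.mono hP.1 le_rfl (le_abs_self M) hb)
  have sa' : SyA lam ε q fun x => vp lam x ^ q * b x := fun h => by
    obtain ⟨M1, m1, h1⟩ := hB.vp_sy h q
    obtain ⟨M2, h2⟩ := hb' h
    have := hB.mul hP.1 m1 (abs_nonneg M2) (h1 ε hP.1) (hB.mono hP.1 le_rfl (le_abs_self M2) h2)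
    rw [add_zero] at this
    exact ⟨_, this⟩
  rw [add_zero] at sa
  generalize ha : (fun x => vp lam x ^ q * b x) = a at sa sa'
  have aA := hB.adm_iter j hF
  have au := hB.adm_iter (j + 2) hf
  have aB : Adm lam ε (2 * n + 2 - p) fun x => a x * iteratedDeriv (j + 2) f x :=
    hB.adm_mul hP.1 sa' (hB.adm_mono hP.1 (by push_cast; omega) au)
  obtain ⟨-, -, i1⟩ := hD.ibp (j + 2 + 1) hn hP aB (hB.adm_deriv aA) (by push_cast; omega)
  obtain ⟨-, -, i2⟩ := hD.ibp (j + 2) hn hP (hB.adm_dl n (j + 2 + 1) hP aB) aA (by push_cast; omega)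
  have e : PP n lam ε (j + 2) p b F f = ∫ x in dom ε, dl n ε (j + 2) (dl n ε (j + 2 + 1)
      fun x => a x * iteratedDeriv (j + 2) f x) x * iteratedDeriv j F x * WW n ε (j + 2) x := by
    rw [i2, i1, neg_neg, PP]
    refine integral_congr_ae (Eventually.of_forall fun x => ?_)
    beta_reduce
    rw [wt_eq' hA hn hP.1 (j + 2) (j + 2 + 1 + 1) (q := q) (by push_cast; ring) (by push_cast; omega),
      ← ha, ← iteratedDeriv_succ, ← iteratedDeriv_succ]
    ring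
  have j1 := hA.intT n (j + 4) (j + 6) hP hf
  have j2 := hA.intT n (j + 3) (j + 4) hP hf
  have j3 := hA.intT n (j + 2) (j + 2) hP hf
  rw [e]
  refine (hA.cs (hA.intT n j (j + 2) hP hF) (((j1.add j2).add j3).const_mul N)
    fun x hx => ?_).trans ?_
  · have w := fun i e r => hA.wt_nonneg n (lam := lam) i e r hx
    refine ⟨mul_nonneg (sq_nonneg _) (w _ _ _), mul_nonneg n0 (add_nonneg (add_nonneg
      (mul_nonneg (sq_nonneg _) (w _ _ _)) (mul_nonneg (sq_nonneg _) (w _ _ _)))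
      (mul_nonneg (sq_nonneg _) (w _ _ _))), ?_⟩
    have e1 : iteratedDeriv 1 (iteratedDeriv (j + 2) f) = iteratedDeriv (j + 3) f := by
      rw [iteratedDeriv_one, ← iteratedDeriv_succ]
    have e2 : iteratedDeriv 2 (iteratedDeriv (j + 2) f) = iteratedDeriv (j + 4) f := by
      rw [iteratedDeriv_succ (n := 1), e1, ← iteratedDeriv_succ]
    have b0 := sy_om hA hP sa hx (Nat.zero_le 2)
    have b1 := sy_om hA hP sa hx one_le_two
    rw [pow_zero, one_mul, iteratedDeriv_zero] at b0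
    rw [pow_one] at b1
    have key := alg2 (u0 := iteratedDeriv (j + 2) f x) (u1 := iteratedDeriv (j + 3) f x)
      (u2 := iteratedDeriv (j + 4) f x) b0 b1 (sy_om hA hP sa hx le_rfl) (hc x hx).1 (hc x hx).2
    simp only [Pi.add_apply]
    rw [hdl aB.1 hx, hA.iter_mul 2 sa.1 au.1 hx, hA.iter_mul 1 sa.1 au.1 hx,
      wt_eq' hA hn hP.1 j (j + 2) (q := q) (by push_cast; ring) (by push_cast; omega),
      wt_eq' hA hn hP.1 (j + 4) (j + 6) (q := q) (by push_cast; ring) (by push_cast; omega),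
      wt_eq' hA hn hP.1 (j + 3) (j + 4) (q := q) (by push_cast; ring) (by push_cast; omega),
      wt_eq' hA hn hP.1 (j + 2) (j + 2) (q := q) (by push_cast; ring) (by push_cast; omega)]
    simp only [Finset.sum_range_succ, Finset.sum_range_zero, Nat.sub_zero, Nat.sub_self,
      Nat.add_one_sub_one, iteratedDeriv_zero, e1, e2, Nat.choose_zero_right, Nat.choose_self,
      Nat.choose_one_right, Nat.cast_one, Nat.cast_ofNat, zero_add, one_mul]
    rw [mul_assoc, mul_pow]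
    refine (mul_le_mul_of_nonneg_right key (sq_nonneg _)).trans_eq ?_
    simp only [hN, WW]
    ring
  · have t1 := hC lam ε f hP hf (j + 4) le_rfl (j + 6) (by push_cast; omega)
    have t2 := hC lam ε f hP hf (j + 3) (by omega) (j + 4) (by push_cast; omega)
    have t3 := hC lam ε f hP hf (j + 2) (by omega) (j + 2) (by push_cast; omega)
    rw [mul_comm (√(N * _)), mul_assoc, ← Real.sqrt_mul (x := N * (3 * C)) (by positivity)]
    refine mul_le_mul (Real.sqrt_le_sqrt (hA.TT_le_QQ n lam ε _ F le_rfl)) (Real.sqrt_le_sqrt ?_)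
      (Real.sqrt_nonneg _) (Real.sqrt_nonneg _)
    rw [integral_const_mul, integral_add' (j1.add j2) j3, integral_add' j1 j2, mul_assoc]
    exact mul_le_mul_of_nonneg_left (by simp only [TT] at t1 t2 t3; linarith) n0

end Pair

open Pair in
theorem pair (hA : BaseA) (hB : BaseB) (hD : DelStmt) (hH : HardyStmt) : PairStmt where
  int n j lam ε M r₁ r₂ p b F f hP hb hF hf hr := by
    have i1 := (hA.intT n j (j + 2) hP
      (hB.adm_mono (r' := p + (p - r₂)) hP.1 (by omega) hF)).const_mul (M ^ 2)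
    have i2 := hA.intT n j (j + 2) hP (hB.adm_mono (r' := p - (p - r₂)) hP.1 (by omega) hf)
    have hm := (hA.dom_open ε).measurableSet
    refine (i1.add i2).mono' (ContinuousOn.aestronglyMeasurable
      ((((hA.iter_cont j hF.1).continuousOn.mul (hA.iter_cont j hf.1).continuousOn).mul
        (hA.wt_cont n ε j _ p hP.1).continuousOn).mul hb.1.continuousOn) hm)
      ((ae_restrict_iff' hm).2 (Eventually.of_forall fun x hx => ?_))
    obtain ⟨h1, h2, h3⟩ := pt_bd (n := n) (F := F) (f := f) hA hP.1 hb j p (p - r₂) hx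
    exact abs_le_of_sq_le_sq' (by simp only [Pi.add_apply]; nlinarith [mul_nonneg h1 h2])
      (add_nonneg h1 h2) |> abs_le.2
  direct n j lam ε M p t b F f hP hM hb hF hf := by
    refine (hA.cs ((hA.intT n j (j + 2) hP hF).const_mul (M ^ 2)) (hA.intT n j (j + 2) hP hf)
      fun x hx => pt_bd hA hP.1 hb j p t hx).trans ?_
    rw [integral_const_mul, Real.sqrt_mul (sq_nonneg M), Real.sqrt_sq hM]
    exact mul_le_mul (mul_le_mul_of_nonneg_left
      (Real.sqrt_le_sqrt (hA.TT_le_QQ n lam ε _ F le_rfl)) hM)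
      (Real.sqrt_le_sqrt (hA.TT_le_QQ n lam ε _ f le_rfl)) (Real.sqrt_nonneg _) (by positivity)
  dual := dual hA hB hD hH

end Vale.Agent.P264
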