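import Vale.Agent.P264.Hardy

/-!
Weighted pointwise bounds.
-/

namespace Vale.Agent.P264

open scoped ContDiff Topology
open Set MeasureTheory Filter

namespace Pt

theorem sub_dom {ε x y : ℝ} (h : 0 ≤ ε) (hx : x ∈ dom ε) (hy : y ∈ dom ε) : uIcc x y ⊆ dom ε := by
  intro z hz
  rcases mem_uIcc.1 hz with h1 | h1
  · exact ⟨hx.1.trans_le h1.1, (mul_le_mul_of_nonneg_left h1.2 h).trans_lt hy.2⟩
  · exact ⟨hy.1.trans_le h1.1, (mul_le_mul_of_nonneg_left h1.2 h).trans_lt hx.2⟩

theorem osc (hA : BaseA) {ε : ℝ} (h : 0 ≤ ε) {H H' g : ℝ → ℝ}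
    (hd : ∀ x ∈ dom ε, HasDerivAt H (H' x) x) (hg : IntegrableOn g (dom ε))
    (hb : ∀ x ∈ dom ε, |H' x| ≤ g x) {x y : ℝ} (hx : x ∈ dom ε) (hy : y ∈ dom ε) :
    H x - H y ≤ ∫ z in dom ε, g z := by
  have hm := (hA.dom_open ε).measurableSet
  have hi := Hardy.int_deriv hA hd hg hb
  have hs := sub_dom h hy hx
  rw [← intervalIntegral.integral_eq_sub_of_hasDerivAt (fun z hz => hd z (hs hz))
    (hi.mono_set hs).intervalIntegrable]
  refine (Real.le_norm_self _).trans (intervalIntegral.norm_integral_le_integral_norm_uIoc.trans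
    ((setIntegral_mono_set hi.norm (.of_forall fun _ => norm_nonneg _)
      (LE.le.eventuallyLE (uIoc_subset_uIcc.trans hs))).trans ?_))
  exact setIntegral_mono_on hi.norm hg hm hb

theorem one (hA : BaseA) (n i : ℕ) (e r : ℤ) : ∃ K : ℝ, 0 ≤ K ∧ ∀ (lam ε : ℝ) (f : ℝ → ℝ),
    Par lam ε → Adm lam ε r f → ∀ x ∈ dom ε,
      iteratedDeriv i f x ^ 2 * vp lam x ^ (2 * (i : ℤ) + r) * Th n lam ε (e + 2) x ≤
        K * TT n lam ε i e r f + TT n lam ε (i + 1) (e + 2) r f := by
  set a := ((n : ℤ) - 1 + (e + 2)).toNat with ha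
  set b := (e + 2).toNat with hb
  set c := 2 * (i : ℤ) - 1 + r with hc
  set K : ℝ := |(c : ℝ) + 1| + a + 2 * b + 1 with hK
  have hK0 : 0 ≤ K := by positivity
  refine ⟨K + 8, by positivity, fun lam ε f hp hf x hx => ?_⟩
  have hm := (hA.dom_open ε).measurableSet
  set u := iteratedDeriv i f with hu
  set u' := iteratedDeriv (i + 1) f with hu'
  have hd := fun x (hx : x ∈ dom ε) =>
    ((hA.iter_deriv i hf.1 hx).pow 2).mul (Hardy.dPhi hA hp.1 ε c a b x)
  have i0 := hA.intT n i e hp hf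
  have i2 := hA.intT n (i + 1) (e + 2) hp hf
  have key := fun y (hy : y ∈ dom ε) => osc hA hp.2.1 hd ((i0.const_mul K).add i2)
    (fun x hx => by
      obtain ⟨h1, h2, h3, h4⟩ := Hardy.t_mem hA hp hx
      have h0 := hA.vp_pos x hp.1
      have p1 := Hardy.pow_le_Th hA n hp hx (e := e) (a := a) (b := b) (by omega) (by omega)
      have p2 := Hardy.pow_le_Th hA n hp hx (e := e) (a := a - 1) (b := b) (by omega) (by omega)
      have p3 := Hardy.pow_le_Th hA n hp hx (e := e) (a := a) (b := b - 1) (by omega) (by omega)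
      have p4 := hA.eps_vp hp hx
      have p5 : 0 ≤ ε * vp lam x := mul_nonneg hp.2.1 h0.le
      have q1 : 0 ≤ (x / vp lam x) ^ a * (1 - ε * x) ^ b := by positivity
      have q2 : 0 ≤ (x / vp lam x) ^ (a - 1) * (1 - ε * x) ^ b := by positivity
      have q3 : 0 ≤ (x / vp lam x) ^ a * (1 - ε * x) ^ (b - 1) := by positivity
      have q4 : 0 ≤ 1 - (x / vp lam x) ^ 2 := by nlinarith
      have q5 : 1 - (x / vp lam x) ^ 2 ≤ 1 := by nlinarith
      have e1 : Th n lam ε (e + 2) x = (x / vp lam x) ^ a * (1 - ε * x) ^ b := rfl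
      have e2 : wt n lam ε i e r x = vp lam x ^ c * Th n lam ε e x := rfl
      simp only [Pi.add_apply, Pi.pow_apply, Hardy.wt_succ hA n hp.1, e1, e2, ← hu, ← hu', ← hc,
        zpow_add_one₀ h0.ne', Nat.add_one_sub_one, Nat.cast_ofNat, pow_one]
      have w0 : 0 < vp lam x ^ c := zpow_pos h0 c
      have r1 : |((c : ℝ) + 1) * (x / vp lam x) * (x / vp lam x) ^ a * (1 - ε * x) ^ b| ≤
          |(c : ℝ) + 1| * Th n lam ε e x := by
        rw [mul_assoc, mul_assoc, abs_mul, abs_of_nonneg (mul_nonneg h1 q1)]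
        exact mul_le_mul_of_nonneg_left ((mul_le_of_le_one_left q1 h2).trans p1) (abs_nonneg _)
      have r2 : |(a : ℝ) * (x / vp lam x) ^ (a - 1) * (1 - (x / vp lam x) ^ 2) *
          (1 - ε * x) ^ b| ≤ a * Th n lam ε e x := by
        rw [abs_of_nonneg (by positivity)]
        refine (le_of_eq (by ring)).trans (mul_le_mul_of_nonneg_left
          ((mul_le_of_le_one_left q2 q5).trans p2) (Nat.cast_nonneg a))
      have r3 : |ε * vp lam x * b * (x / vp lam x) ^ a * (1 - ε * x) ^ (b - 1)| ≤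
          2 * b * Th n lam ε e x := by
        rw [abs_of_nonneg (by positivity), mul_assoc _ ((x / vp lam x) ^ a)]
        exact mul_le_mul (mul_le_mul_of_nonneg_right p4 (Nat.cast_nonneg b)) p3 q3 (by positivity)
      have r4 := (abs_sub _ _).trans (add_le_add ((abs_add_le _ _).trans (add_le_add r1 r2)) r3)
      have r5 := mul_le_mul_of_nonneg_left r4 (mul_nonneg (sq_nonneg (u x)) w0.le)
      refine (abs_add_le _ _).trans ?_
      rw [abs_mul (u x ^ 2), abs_mul (vp lam x ^ c), abs_of_pos w0, abs_of_nonneg (sq_nonneg (u x))]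
      have r6 : |2 * u x * u' x * (vp lam x ^ c * vp lam x *
          ((x / vp lam x) ^ a * (1 - ε * x) ^ b))| ≤ u x ^ 2 * (vp lam x ^ c * Th n lam ε e x) +
            u' x ^ 2 * (vp lam x ^ c * vp lam x ^ 2 * ((x / vp lam x) ^ a * (1 - ε * x) ^ b)) := by
        have r7 := mul_le_mul_of_nonneg_left p1 (mul_nonneg (sq_nonneg (u x)) w0.le)
        have r8 := mul_nonneg w0.le q1
        generalize (x / vp lam x) ^ a * (1 - ε * x) ^ b = P at *
        exact abs_le.2 ⟨by nlinarith [mul_nonneg r8 (sq_nonneg (u x + u' x * vp lam x))],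
          by nlinarith [mul_nonneg r8 (sq_nonneg (u x - u' x * vp lam x))]⟩
      rw [hK]
      linarith) hx hy
  rw [integral_add' (i0.const_mul K) i2, integral_const_mul] at key
  have hl := hp.1
  have m1 : lam / 4 ∈ dom ε := ⟨by positivity, by linarith [hp.2.2, mul_div_assoc ε lam 4]⟩
  have m2 : lam / 2 ∈ dom ε := ⟨by positivity, by linarith [hp.2.2, mul_div_assoc ε lam 2]⟩
  have hs := sub_dom hp.2.1 m1 m2
  have hle : lam / 4 ≤ lam / 2 := by linarith
  rw [uIcc_of_le hle] at hs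
  set D := u x ^ 2 * vp lam x ^ (2 * (i : ℤ) + r) * Th n lam ε (e + 2) x -
    (K * TT n lam ε i e r f + TT n lam ε (i + 1) (e + 2) r f) with hD
  have h1 := setIntegral_mono_on (f := fun _ => D) (integrableOn_const measure_Icc_lt_top.ne)
    ((i0.mono_set hs).const_mul (2 * lam)) measurableSet_Icc fun y hy => by
      have h0 := hA.vp_pos y hp.1
      have k1 := key y (hs hy)
      have k2 : vp lam y ≤ 2 * lam := by linarith [hA.vp_le hl.le (hs hy).1.le, hy.2]
      have k3 : u y ^ 2 * (vp lam y ^ (c + 1) * Th n lam ε (e + 2) y) ≤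
          2 * lam * (u y ^ 2 * wt n lam ε i e r y) := by
        rw [zpow_add_one₀ h0.ne']
        have k4 := mul_le_mul k2 (hA.Th_anti n hp (hs hy) (show e ≤ e + 2 by omega))
          (hA.Th_nonneg n _ (hs hy)) (by positivity)
        refine (le_of_eq (by ring)).trans ((mul_le_mul_of_nonneg_left k4
          (mul_nonneg (sq_nonneg (u y)) (zpow_nonneg h0.le c))).trans (le_of_eq ?_))
        unfold wt
        ring
      rw [hD, show 2 * (i : ℤ) + r = c + 1 by omega, mul_assoc]
      exact (sub_le_comm.1 k1).trans k3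
  have h2 := setIntegral_mono_set i0 ((ae_restrict_iff' hm).2 (.of_forall fun y hy =>
    mul_nonneg (sq_nonneg _) (hA.wt_nonneg n i e r hy))) (LE.le.eventuallyLE hs)
  rw [setIntegral_const, integral_const_mul, Real.volume_real_Icc_of_le hle, smul_eq_mul] at h1
  have h3 := h1.trans (mul_le_mul_of_nonneg_left h2 (by positivity))
  have h4 : D ≤ 8 * TT n lam ε i e r f := by
    refine le_of_mul_le_mul_left (a := lam / 4) ?_ (by positivity)
    unfold TT
    linarith
  linarith

end Pt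

theorem ptS (hA : BaseA) (hB : BaseB) (hH : HardyStmt) : PtStmt := by
  have _ := hB
  intro n h r hn
  obtain ⟨C, hC, H⟩ := hH n h r hn
  choose K h1 h2 using fun i : ℕ => Pt.one hA n i (2 * (i : ℤ) - h + 2) r
  have hS : 0 ≤ ∑ i ∈ Finset.range h, K i := Finset.sum_nonneg fun i _ => h1 i
  refine ⟨(∑ i ∈ Finset.range h, K i + 1) * C, by positivity, fun lam ε f hp hf i hi x hx => ?_⟩
  have k1 := h2 i lam ε f hp hf x hx
  have k2 := H lam ε f hp hf i (by omega) _ le_rfl
  have k3 := H lam ε f hp hf (i + 1) hi (2 * (i : ℤ) - h + 2 + 2) (by omega)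
  have k4 : K i ≤ ∑ i ∈ Finset.range h, K i :=
    Finset.single_le_sum (fun i _ => h1 i) (Finset.mem_range.2 hi)
  have k5 := mul_le_mul k4 k2 (hA.TT_nonneg _ _ _ _ _ _ _) hS
  rw [show 2 * (i : ℤ) - h + 4 = 2 * (i : ℤ) - h + 2 + 2 by ring]
  linarith

end Vale.Agent.P264
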