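import Vale.Agent.P264.BaseA
import Vale.Agent.P264.BaseB
import Vale.Agent.P264.Del
import Vale.Agent.P264.Hardy
import Vale.Agent.P264.Pt
import Vale.Agent.P264.Al
import Vale.Agent.P264.In
import Vale.Agent.P264.Pair
import Vale.Agent.P264.Co
import Vale.Agent.P264.NL
import Vale.Agent.P264.Ext
import Vale.Agent.P264.Bound
import Vale.Agent.P264.Der
import Vale.Agent.P264.CJ
import Vale.Agent.P264.Dil

/-!
Assembly of part S.
-/

namespace Vale.Agent.P264

theorem sB : BaseB := baseB baseA
theorem sD : DelStmt := del baseA sB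
theorem sH : HardyStmt := hardy baseA sB
theorem sPt : PtStmt := ptS baseA sB sH
theorem sMul : MulStmt := mulS baseA
theorem sL : LStmt := lS baseA sB sD sH
theorem sPair : PairStmt := pair baseA sB sD sH
theorem sNL : NLStmt := nl baseA sB sD sMul (al baseA sB sH sPt) sL
theorem sBound : BoundStmt :=
  bound baseA sB sD sMul sL sPair (co baseA sB sD sH sL sPair) (inS baseA sB sD sH)
theorem sDer : DerStmt := der baseA sB
theorem sDil : DilStmt := dil baseA sD
theorem sLoc : LocStmt := loc baseA sB

end Vale.Agent.P264
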