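import Vale.Agent.P264.ToCone

/-!
Final assembly: the one-dimensional blow-up theorem implies the goal.
-/

namespace Vale.Agent.P264

open scoped ContDiff ComplexOrder Matrix
open Set

namespace Final

open ToCone

theorem lift_rep (hR : RhoStmt) {n : ℕ} (F₀ : ℝ → ℝ) {Z : V (n + 1)} (hZ : Z ≠ 0) :
    lift (fun p : CP n => F₀ (rho p.rep)) Z = F₀ (rho Z) := by
  unfold lift
  rw [dif_pos hZ]
  obtain ⟨a, ha⟩ := Projectivization.exists_smul_eq_mk_rep ℂ Z hZ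
  change F₀ (rho (Projectivization.mk ℂ Z hZ).rep) = F₀ (rho Z)
  rw [← ha, Units.smul_def, hR.hom0 (a : ℂ) a.ne_zero Z hZ]

theorem derivs {F F₀ F₁ F₂ : ℝ → ℝ} (hJ : Jet2 (Icc 0 1) F₀ F₁ F₂)
    (hF : ∀ r ∈ Icc (0 : ℝ) 1, F r = F₀ r) :
    ∀ r ∈ Ioo (0 : ℝ) 1, deriv F r = F₁ r ∧ deriv (deriv F) r = F₂ r := by
  have h1 : ∀ r ∈ Ioo (0 : ℝ) 1, deriv F r = F₁ r := by
    intro r hr
    have hn : Icc (0 : ℝ) 1 ∈ nhds r := Icc_mem_nhds hr.1 hr.2
    refine HasDerivAt.deriv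
      (((hJ r (Ioo_subset_Icc_self hr)).1.hasDerivAt hn).congr_of_eventuallyEq ?_)
    filter_upwards [hn] with s hs using hF s hs
  intro r hr
  refine ⟨h1 r hr, HasDerivAt.deriv (((hJ r (Ioo_subset_Icc_self hr)).2.hasDerivAt
    (Icc_mem_nhds hr.1 hr.2)).congr_of_eventuallyEq ?_)⟩
  filter_upwards [Ioo_mem_nhds hr.1 hr.2] with s hs using h1 s hs

end Final

open ToCone Final in
theorem final (hW : WirtStmt) (hR : RhoStmt) (hL : LinkStmt) (hT : ToConeStmt) (hI : InvStmt)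
    (hRad : RadStmt) (hF : RadFlowStmt) (hSig : SigStmt) (hJet : JetStmt) (hTime : TimeStmt)
    (hInit : InitStmt) : FinalStmt := by
  rintro ⟨n, hn, γ₀, hγ, hpos, hno⟩
  have hn1 : 1 ≤ n := by omega
  obtain ⟨F₀, F₁, F₂, hF₀, hJ, hp, hrel⟩ := hInit γ₀ hγ hpos
  have hch : ∀ (i : Fin (n + 1)) (z : V n), F₀ (rho (chart i z).rep) = F₀ (rho (hom i z)) :=
    fun i z => (lift_hom (fun p : CP n => F₀ (rho p.rep)) i z).symm.trans
      (lift_rep hR F₀ (hom_ne_zero i z))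
  have hsm : ContDiffOn ℝ ∞ (fun W : V (n + 1) => F₀ (rho W)) (nz (n + 1)) :=
    hF₀.comp hR.smooth fun Z hZ => hR.mem hZ
  have h0 : Hom0 fun W : V (n + 1) => F₀ (rho W) := fun c hc Z hZ =>
    congrArg F₀ (hR.hom0 c hc Z hZ)
  have hS₀ : SmoothFn fun p : CP n => F₀ (rho p.rep) := by
    intro i
    simp only [hch]
    exact contDiff_iff_contDiffAt.mpr fun z => contDiffAt_comp_hom hsm i z
  refine ⟨n, hn, fun p => F₀ (rho p.rep), hS₀, fun i z => ?_, fun S φ hφ => ?_⟩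
  · have e1 : metric (fun p : CP n => F₀ (rho p.rep)) i z = gch (fun W => F₀ (rho W)) i z := by
      unfold metric gch
      simp only [hch]
    have hm := hR.mem (hom_ne_zero i z)
    rw [e1, (hL n _ hsm h0 i z).1]
    exact hRad.pos n hn1 F₀ F₁ F₂ hJ _ (hom_ne_zero i z) (hp _ hm).1 (hp _ hm).2
  · have hC := hT n _ S φ hS₀ hφ
    have hinit : ∀ Z : V (n + 1), Z ≠ 0 →
        lift ((fun p : CP n => F₀ (rho p.rep)) + φ 0) Z = F₀ (rho Z) := by
      intro Z hZ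
      rw [hφ.init, add_zero, lift_rep hR F₀ hZ]
    have hRF := hF n hn S _ hC (hI n hn1 S _ F₀ hC hinit)
    obtain ⟨j1, j2, j3, j4⟩ := hJet n S _ hRF
    refine hno _ ⟨j1, j2, j3, hTime n hn1 S _ hRF, fun x hx => ?_⟩
    obtain ⟨hr, hmu, -⟩ := ((hSig n S _ hRF).1 0 le_rfl).2 x hx
    have e1 := j4 0 le_rfl _ hr
    have e2 := hrel _ hr
    obtain ⟨d1, d2⟩ := derivs (F := fun r =>
      lift ((fun p : CP n => F₀ (rho p.rep)) + φ 0) (pt n r)) hJ (fun r hr => by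
        rw [hinit _ (hR.pt_ne hn1 r hr), hR.rho_pt hn1 r hr]) _ hr
    rw [hmu] at e1
    unfold mu RP at hmu
    unfold RQ at e1
    rw [d1] at hmu
    rw [d2, d1] at e1
    rw [hmu, e1] at e2
    have hom : om 1 x ≠ 0 := by
      unfold om
      rw [one_mul]
      exact mul_ne_zero hx.1.ne' (sub_pos.mpr hx.2).ne'
    exact mul_left_cancel₀ (pow_ne_zero 2 hom) (add_left_cancel e2)

end Vale.Agent.P264
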