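import Vale.Agent.P264.StmU

/-! Green symmetry of the Laplacian on the cone. -/

namespace Vale.Agent.P264

open scoped ContDiff ComplexOrder Matrix
open Set MeasureTheory

namespace Green

variable {m : ℕ}

theorem piola_alg (I H : Matrix (Fin m) (Fin m) ℂ) (dM : Fin m → Matrix (Fin m) (Fin m) ℂ)
    (a : Fin m → ℂ) (hd : ∀ l p q, dM l p q - dM p l q = a l * H p q - a p * H l q)
    (hI : I *ᵥ a = a) (hH : H *ᵥ a = 0) (k : Fin m) :
    ∑ j, ((I * dM j).trace * I k j - (I * dM j * I) k j) = (I * H).trace * a k := by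
  have hI' : ∀ q, ∑ p, I q p * a p = a q := fun q => congrFun hI q
  have hH' : ∀ j, ∑ q, H j q * a q = 0 := fun j => congrFun hH j
  have e1 : ∑ j, (I * dM j * I) k j = ∑ j, ∑ q, ∑ p, I k j * dM p j q * I q p := by
    simp only [Matrix.mul_apply, Finset.sum_mul]
    rw [Finset.sum_comm, Finset.sum_congr rfl fun q _ => Finset.sum_comm, Finset.sum_comm]
  have e2 : ∀ j, (I * dM j).trace * I k j = ∑ q, ∑ p, I k j * dM j p q * I q p := fun j => by
    simp only [Matrix.trace, Matrix.diag, Matrix.mul_apply, Finset.sum_mul]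
    exact Finset.sum_congr rfl fun q _ => Finset.sum_congr rfl fun p _ => by ring
  have e3 : ∀ j, ∑ q, ∑ p, I k j * dM j p q * I q p - ∑ q, ∑ p, I k j * dM p j q * I q p =
      (I * H).trace * (I k j * a j) := fun j => by
    have e4 : ∑ q, ∑ p, I k j * H j q * (I q p * a p) = 0 := by
      simp only [← Finset.mul_sum, hI', mul_assoc, hH', mul_zero]
    rw [← sub_zero (_ * (I k j * a j)), ← e4]
    simp only [Matrix.trace, Matrix.diag, Matrix.mul_apply, Finset.sum_mul,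
      ← Finset.sum_sub_distrib]
    refine Finset.sum_congr rfl fun q _ => Finset.sum_congr rfl fun p _ => ?_
    linear_combination I k j * I q p * hd j p q
  rw [Finset.sum_sub_distrib, e1, Finset.sum_congr rfl fun j _ => e2 j, ← Finset.sum_sub_distrib,
    Finset.sum_congr rfl fun j _ => e3 j, ← Finset.mul_sum, hI']

theorem at_of_on {F : Type} [NormedAddCommGroup F] [NormedSpace ℝ F] {f : V m → F}
    (hf : ContDiffOn ℝ ∞ f (nz m)) {z : V m} (hz : z ≠ 0) : ContDiffAt ℝ ∞ f z :=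
  hf.contDiffAt (isOpen_ne.mem_nhds hz)

theorem dAt {f : V m → ℂ} {z : V m} (hf : ContDiffAt ℝ ∞ f z) : DifferentiableAt ℝ f z :=
  hf.differentiableAt (by simp)

theorem ofReal_at {f : V m → ℝ} {z : V m} (hf : ContDiffAt ℝ ∞ f z) :
    ContDiffAt ℝ ∞ (fun w => (f w : ℂ)) z :=
  Complex.ofRealCLM.contDiff.contDiffAt.comp z hf

theorem cM_apply (φ : V m → ℝ) (w : V m) (p q : Fin m) :
    cM φ w p q = (1 : Matrix (Fin m) (Fin m) ℂ) p q + (nsq w : ℂ) * hess φ w p q := rfl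

theorem cM_at (hW : WirtStmt) {φ : V m → ℝ} {z : V m} (hφ : ContDiffAt ℝ ∞ φ z) (p q : Fin m) :
    ContDiffAt ℝ ∞ (fun w => cM φ w p q) z :=
  contDiffAt_const.add ((ofReal_at hW.nsq_smooth.contDiffAt).mul (hW.hess_smooth p q hφ))

theorem dz_cM (hW : WirtStmt) {φ : V m → ℝ} {z : V m} (hφ : ContDiffAt ℝ ∞ φ z) (l p q : Fin m) :
    dz l (fun w => cM φ w p q) z = star (z l) * hess φ z p q +
      (nsq z : ℂ) * dz l (dz p (dzb q fun w => (φ w : ℂ))) z := by
  have h1 := dAt (ofReal_at (z := z) hW.nsq_smooth.contDiffAt)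
  have h2 := dAt (hW.hess_smooth p q hφ)
  simp only [cM_apply]
  rw [hW.dz_add l (differentiableAt_const _) (h1.fun_mul h2), hW.dz_const, zero_add,
    hW.dz_mul l h1 h2, hW.dz_nsq]
  rfl

/-- the cofactor matrix -/
noncomputable def cof (φ : V m → ℝ) (k j : Fin m) (w : V m) : ℂ :=
  (cM φ w).det * (cM φ w)⁻¹ k j

theorem det_at (hW : WirtStmt) (hJ : JacStmt) {φ : V m → ℝ} {z : V m} (hφ : ContDiffAt ℝ ∞ φ z) :
    ContDiffAt ℝ ∞ (fun w => (cM φ w).det) z :=
  contDiffWithinAt_univ.1 (hJ.smooth_det fun p q => (cM_at hW hφ p q).contDiffWithinAt)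

theorem inv_at (hW : WirtStmt) (hJ : JacStmt) {φ : V m → ℝ} {z : V m} (hφ : ContDiffAt ℝ ∞ φ z)
    (hu : IsUnit (cM φ z).det) (k j : Fin m) : ContDiffAt ℝ ∞ (fun w => (cM φ w)⁻¹ k j) z :=
  contDiffWithinAt_univ.1 (hJ.smooth_inv (fun p q => (cM_at hW hφ p q).contDiffWithinAt) hu k j)

theorem cof_at (hW : WirtStmt) (hJ : JacStmt) {φ : V m → ℝ} {z : V m} (hφ : ContDiffAt ℝ ∞ φ z)
    (hu : IsUnit (cM φ z).det) (k j : Fin m) : ContDiffAt ℝ ∞ (cof φ k j) z :=
  (det_at hW hJ hφ).mul (inv_at hW hJ hφ hu k j)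

theorem inv_mulVec (hW : WirtStmt) {φ : V m → ℝ} {z : V m} (hφ : ContDiffOn ℝ ∞ φ (nz m))
    (h0 : Hom0 φ) (hz : z ≠ 0) (hu : IsUnit (cM φ z).det) : (cM φ z)⁻¹ *ᵥ star z = star z := by
  have h1 : cM φ z *ᵥ star z = star z := by
    rw [cM, Matrix.add_mulVec, Matrix.one_mulVec, Matrix.smul_mulVec,
      hW.hess_mulVec_star hφ h0 hz, smul_zero, add_zero]
  conv_lhs => rw [← h1]
  rw [Matrix.mulVec_mulVec, Matrix.nonsing_inv_mul _ hu, Matrix.one_mulVec]

theorem piola (hW : WirtStmt) (hJ : JacStmt) {φ : V m → ℝ} {z : V m}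
    (hφ : ContDiffOn ℝ ∞ φ (nz m)) (h0 : Hom0 φ) (hz : z ≠ 0) (hu : IsUnit (cM φ z).det)
    (k : Fin m) :
    ∑ j, dz j (cof φ k j) z = (cM φ z).det * ((cM φ z)⁻¹ * hess φ z).trace * star (z k) := by
  have hφ' := at_of_on hφ hz
  have h1 := piola_alg (cM φ z)⁻¹ (hess φ z)
    (fun l => Matrix.of fun p q => dz l (fun w => cM φ w p q) z) (star z)
    (fun l p q => by
      simp only [Matrix.of_apply, dz_cM hW hφ', Pi.star_apply]
      rw [hW.dz_dz l p (hW.dzb_smooth q (ofReal_at hφ'))]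
      ring)
    (inv_mulVec hW hφ h0 hz hu) (hW.hess_mulVec_star hφ h0 hz) k
  rw [mul_assoc, ← Pi.star_apply, ← h1, Finset.mul_sum]
  refine Finset.sum_congr rfl fun j _ => ?_
  have h2 : ∀ p q, DifferentiableAt ℝ (fun w => cM φ w p q) z := fun p q => dAt (cM_at hW hφ' p q)
  unfold cof
  rw [hW.dz_mul j (dAt (det_at hW hJ hφ')) (dAt (inv_at hW hJ hφ' hu k j)), hJ.dz_det j h2 hu,
    hJ.dz_inv j h2 hu]
  ring

theorem bump_smooth : ContDiff ℝ ∞ fun r => bump r * r :=
  ((Real.smoothTransition.contDiff.comp (contDiff_id.sub contDiff_const)).mul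
    (Real.smoothTransition.contDiff.comp (contDiff_const.sub contDiff_id))).mul contDiff_id

/-- the cutoff -/
noncomputable def be (z : V m) : ℂ := ((bump (nsq z) * nsq z : ℝ) : ℂ)

theorem be_smooth (hW : WirtStmt) : ContDiff ℝ ∞ (be : V m → ℂ) :=
  Complex.ofRealCLM.contDiff.comp (bump_smooth.comp hW.nsq_smooth)

theorem be_small {z : V m} (h : nsq z < 1) : be z = 0 := by
  simp [be, bump, Real.smoothTransition.zero_of_nonpos (sub_nonpos.2 h.le)]

theorem be_large {z : V m} (h : 2 < ‖z‖) : be z = 0 := by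
  have h1 : 4 ≤ nsq z := by
    by_contra h2
    refine h.not_ge ((pi_norm_le_iff_of_nonneg (by norm_num)).2 fun j => ?_)
    have h3 : ‖z j‖ ^ 2 ≤ nsq z :=
      Finset.single_le_sum (f := fun j => ‖z j‖ ^ 2) (fun _ _ => by positivity) (Finset.mem_univ j)
    nlinarith [norm_nonneg (z j)]
  simp [be, bump, Real.smoothTransition.zero_of_nonpos (sub_nonpos.2 h1)]

theorem cut_zero (hW : WirtStmt) (g : V m → ℂ) :
    (fun z => be z * g z) =ᶠ[nhds 0] fun _ => 0 := by
  have h1 : ∀ᶠ z in nhds (0 : V m), nsq z < 1 :=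
    hW.nsq_smooth.continuous.continuousAt.eventually_lt continuousAt_const (by simp [nsq])
  filter_upwards [h1] with z hz
  rw [be_small hz, zero_mul]

theorem cut_smooth (hW : WirtStmt) {g : V m → ℂ} (hg : ∀ z, z ≠ 0 → ContDiffAt ℝ ∞ g z) :
    ContDiff ℝ ∞ fun z => be z * g z := by
  refine contDiff_iff_contDiffAt.2 fun z => ?_
  rcases eq_or_ne z 0 with rfl | hz
  · exact contDiffAt_const.congr_of_eventuallyEq (cut_zero hW g)
  · exact (be_smooth hW).contDiffAt.mul (hg z hz)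

theorem cut_supp (g : V m → ℂ) : HasCompactSupport fun z => be z * g z :=
  HasCompactSupport.intro (isCompact_closedBall 0 2) fun z hz => by
    rw [be_large (by simpa using hz), zero_mul]

theorem cut_int (hW : WirtStmt) {g : V m → ℂ} (hg : ∀ z, z ≠ 0 → ContDiffAt ℝ ∞ g z) :
    Integrable fun z => be z * g z :=
  (cut_smooth hW hg).continuous.integrable_of_hasCompactSupport (cut_supp g)

theorem int_fderiv {Y : V m → ℂ} (hY : ContDiff ℝ ∞ Y) (hs : HasCompactSupport Y) (v : V m) :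
    Integrable (fun z => fderiv ℝ Y z v) ∧ ∫ z, fderiv ℝ Y z v = 0 := by
  have h1 : Integrable fun z => fderiv ℝ Y z v :=
    ((hY.continuous_fderiv (by simp)).clm_apply continuous_const).integrable_of_hasCompactSupport
      (hs.fderiv_apply (𝕜 := ℝ) v)
  refine ⟨h1, ?_⟩
  have := integral_mul_fderiv_eq_neg_fderiv_mul_of_integrable (μ := (volume : Measure (V m)))
    (f := fun _ => (1 : ℂ)) (g := Y) (v := v) (by simp) (by simpa using h1)
    (by simpa using hY.continuous.integrable_of_hasCompactSupport hs)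
    (fun _ _ => differentiableAt_const _) fun x _ => dAt hY.contDiffAt
  simpa using this

theorem int_dz {Y : V m → ℂ} (hY : ContDiff ℝ ∞ Y) (hs : HasCompactSupport Y) (j : Fin m) :
    Integrable (dz j Y) ∧ ∫ z, dz j Y z = 0 := by
  obtain ⟨a1, a2⟩ := int_fderiv hY hs (Pi.single j 1)
  obtain ⟨b1, b2⟩ := int_fderiv hY hs (Pi.single j Complex.I)
  refine ⟨(a1.sub (b1.const_mul Complex.I)).div_const 2, ?_⟩
  unfold dz
  rw [integral_div, integral_sub a1 (b1.const_mul Complex.I), integral_const_mul, a2, b2]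
  simp

theorem dz_be (hW : WirtStmt) (z : V m) : ∃ c : ℂ, ∀ j, dz j be z = c * star (z j) := by
  have h1 : DifferentiableAt ℝ (nsq : V m → ℝ) z :=
    hW.nsq_smooth.contDiffAt.differentiableAt (by simp)
  have h2 := (bump_smooth.contDiffAt.differentiableAt (x := nsq z)
    (by simp)).hasDerivAt.comp_hasFDerivAt z h1.hasFDerivAt
  exact ⟨_, fun j => (hW.dz_comp j h1 h2).trans (by rw [hW.dz_nsq])⟩

/-- the second order term -/
noncomputable def tA (φ f h : V m → ℝ) (z : V m) : ℂ :=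
  f z * ∑ j, ∑ k, cof φ k j z * dz j (dzb k fun w => (h w : ℂ)) z

/-- the Dirichlet term -/
noncomputable def tD (φ f h : V m → ℝ) (z : V m) : ℂ :=
  ∑ j, dz j (fun w => (f w : ℂ)) z * ∑ k, cof φ k j z * dzb k (fun w => (h w : ℂ)) z

/-- the vector field -/
noncomputable def tY (φ f h : V m → ℝ) (j : Fin m) (z : V m) : ℂ :=
  f z * ∑ k, cof φ k j z * dzb k (fun w => (h w : ℂ)) z

section

variable (hW : WirtStmt) (hJ : JacStmt) {φ f h : V m → ℝ} (hφ : ContDiffOn ℝ ∞ φ (nz m))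
  (hf : ContDiffOn ℝ ∞ f (nz m)) (hh : ContDiffOn ℝ ∞ h (nz m))
  (hu : ∀ z, z ≠ 0 → IsUnit (cM φ z).det)
include hW hJ hφ hh hu

theorem sum_at (j : Fin m) {z : V m} (hz : z ≠ 0) :
    ContDiffAt ℝ ∞ (fun z => ∑ k, cof φ k j z * dzb k (fun w => (h w : ℂ)) z) z :=
  ContDiffAt.sum fun k _ => (cof_at hW hJ (at_of_on hφ hz) (hu z hz) k j).mul
    (hW.dzb_smooth k (ofReal_at (at_of_on hh hz)))

include hf

theorem tY_at (j : Fin m) {z : V m} (hz : z ≠ 0) : ContDiffAt ℝ ∞ (tY φ f h j) z :=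
  (ofReal_at (at_of_on hf hz)).mul (sum_at hW hJ hφ hh hu j hz)

theorem tD_at {z : V m} (hz : z ≠ 0) : ContDiffAt ℝ ∞ (tD φ f h) z :=
  ContDiffAt.sum fun j _ => (hW.dz_smooth j (ofReal_at (at_of_on hf hz))).mul
    (sum_at hW hJ hφ hh hu j hz)

theorem tA_at {z : V m} (hz : z ≠ 0) : ContDiffAt ℝ ∞ (tA φ f h) z :=
  (ofReal_at (at_of_on hf hz)).mul (ContDiffAt.sum fun j _ => ContDiffAt.sum fun k _ =>
    (cof_at hW hJ (at_of_on hφ hz) (hu z hz) k j).mul
      (hW.dz_smooth j (hW.dzb_smooth k (ofReal_at (at_of_on hh hz)))))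

theorem div_eq (h0 : Hom0 φ) (h1 : Hom0 h) (z : V m) :
    ∑ j, dz j (fun w => be w * tY φ f h j w) z = be z * tA φ f h z + be z * tD φ f h z := by
  rcases eq_or_ne z 0 with rfl | hz
  · rw [be_small (by simp [nsq]), zero_mul, zero_mul, add_zero]
    exact Finset.sum_eq_zero fun j _ => by rw [hW.dz_congr j (cut_zero hW _), hW.dz_const]
  obtain ⟨c, hc⟩ := dz_be hW z
  have hE : ∑ k, star (z k) * dzb k (fun w => (h w : ℂ)) z = 0 :=
    hW.euler_dzb (fun c hc Z hZ => by rw [h1 c hc Z hZ]) hz (dAt (ofReal_at (at_of_on hh hz)))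
  have hI : ∀ k, ∑ j, (cM φ z)⁻¹ k j * star (z j) = star (z k) := fun k =>
    congrFun (inv_mulVec hW hφ h0 hz (hu z hz)) k
  have hc' : ∀ k j, DifferentiableAt ℝ (cof φ k j) z := fun k j =>
    dAt (cof_at hW hJ (at_of_on hφ hz) (hu z hz) k j)
  have hd : ∀ k, DifferentiableAt ℝ (dzb k fun w => (h w : ℂ)) z := fun k =>
    dAt (hW.dzb_smooth k (ofReal_at (at_of_on hh hz)))
  have e1 : ∑ j, star (z j) * tY φ f h j z = 0 := by
    have : ∑ j, star (z j) * tY φ f h j z = f z * (cM φ z).det *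
        ∑ k, (∑ j, (cM φ z)⁻¹ k j * star (z j)) * dzb k (fun w => (h w : ℂ)) z := by
      simp only [tY, cof, Finset.mul_sum, Finset.sum_mul]
      rw [Finset.sum_comm]
      exact Finset.sum_congr rfl fun k _ => Finset.sum_congr rfl fun j _ => by ring
    simp only [this, hI, hE, mul_zero]
  have e2 : ∑ j, ∑ k, dz j (cof φ k j) z * dzb k (fun w => (h w : ℂ)) z = 0 := by
    rw [Finset.sum_comm]
    simp only [← Finset.sum_mul, piola hW hJ hφ h0 hz (hu z hz), mul_assoc, ← Finset.mul_sum, hE,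
      mul_zero]
  have e3 : ∀ j, dz j (fun w => be w * tY φ f h j w) z = c * (star (z j) * tY φ f h j z) +
      be z * (dz j (fun w => (f w : ℂ)) z * ∑ k, cof φ k j z * dzb k (fun w => (h w : ℂ)) z) +
      be z * f z * (∑ k, dz j (cof φ k j) z * dzb k (fun w => (h w : ℂ)) z +
        ∑ k, cof φ k j z * dz j (dzb k fun w => (h w : ℂ)) z) := fun j => by
    rw [hW.dz_mul j (dAt (be_smooth hW).contDiffAt) (dAt (tY_at hW hJ hφ hf hh hu j hz)), hc]
    unfold tY
    rw [hW.dz_mul j (dAt (ofReal_at (at_of_on hf hz))) (dAt (sum_at hW hJ hφ hh hu j hz)),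
      hW.dz_sum Finset.univ j fun k _ => (hc' k j).fun_mul (hd k),
      Finset.sum_congr rfl fun k _ => hW.dz_mul j (hc' k j) (hd k), Finset.sum_add_distrib]
    ring
  simp only [e3, Finset.sum_add_distrib, ← Finset.mul_sum, e1, e2, tA, tD]
  ring

theorem int_eq (h0 : Hom0 φ) (h1 : Hom0 h) :
    ∫ z, (be z * tA φ f h z).re = -∫ z, (be z * tD φ f h z).re := by
  have a1 := cut_int hW fun z hz => tA_at hW hJ hφ hf hh hu (z := z) hz
  have a2 := cut_int hW fun z hz => tD_at hW hJ hφ hf hh hu (z := z) hz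
  have a3 := fun j => int_dz (cut_smooth hW fun z hz => tY_at hW hJ hφ hf hh hu j (z := z) hz)
    (cut_supp _) j
  have a4 : (∫ z, be z * tA φ f h z) + ∫ z, be z * tD φ f h z = 0 := by
    rw [← integral_add a1 a2]
    simp only [← div_eq hW hJ hφ hf hh hu h0 h1]
    rw [integral_finsetSum _ fun j _ => (a3 j).1]
    exact Finset.sum_eq_zero fun j _ => (a3 j).2
  have a5 := integral_re a1
  have a6 := integral_re a2
  simp only [RCLike.re_to_complex] at a5 a6
  rw [a5, a6, eq_neg_iff_add_eq_zero, ← Complex.add_re, a4, Complex.zero_re]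

end

theorem det_real {M : Matrix (Fin m) (Fin m) ℂ} (hM : M.PosDef) : (M.det.re : ℂ) = M.det :=
  Complex.ext rfl (by simpa using (Complex.pos_iff.1 hM.det_pos).2)

theorem tD_star (hW : WirtStmt) (φ f h : V m → ℝ) {z : V m} (hM : (cM φ z).PosDef) :
    star (tD φ f h z) = tD φ h f z := by
  have e1 : ∀ (g : V m → ℝ) j, star (dz j (fun w => (g w : ℂ)) z) = dzb j (fun w => (g w : ℂ)) z :=
    fun g j => by rw [← hW.dzb_star]; simp
  have e2 : ∀ (g : V m → ℝ) j, star (dzb j (fun w => (g w : ℂ)) z) = dz j (fun w => (g w : ℂ)) z :=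
    fun g j => by rw [← e1, star_star]
  have e3 : ∀ k j, star (cof φ k j z) = cof φ j k z := fun k j => by
    unfold cof
    rw [star_mul', hM.isHermitian.inv.apply, ← det_real hM]
    simp
  simp only [tD, star_sum, star_mul', e1, e2, e3, Finset.mul_sum]
  rw [Finset.sum_comm]
  exact Finset.sum_congr rfl fun k _ => Finset.sum_congr rfl fun j _ => by ring

theorem tA_re (φ f h : V m → ℝ) (hM : ∀ z, z ≠ 0 → (cM φ z).PosDef) (z : V m) :
    bump (nsq z) * (f z * lap φ h z * (cM φ z).det.re) = (be z * tA φ f h z).re := by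
  rcases eq_or_ne z 0 with rfl | hz
  · simp [be, lap, nsq]
  have e1 : ∑ j, ∑ k, cof φ k j z * dz j (dzb k fun w => (h w : ℂ)) z =
      ((cM φ z).det.re : ℂ) * ((cM φ z)⁻¹ * hess h z).trace := by
    rw [det_real (hM z hz), Finset.sum_comm]
    simp only [cof, Matrix.trace, Matrix.diag, Matrix.mul_apply, hess, Matrix.of_apply,
      Finset.mul_sum, mul_assoc]
  rw [tA, e1, be, lap, Complex.re_ofReal_mul, Complex.re_ofReal_mul, Complex.re_ofReal_mul]
  ring

end Green

open Green in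
theorem green (hW : WirtStmt) (hJ : JacStmt) : GreenStmt := by
  intro m φ f h hφ hf hh h0 h1 h2 hM
  have hu : ∀ z, z ≠ 0 → IsUnit (cM φ z).det := fun z hz => (hM z hz).det_pos.ne'.isUnit
  unfold avg
  simp only [tA_re φ _ _ hM]
  rw [int_eq hW hJ hφ hf hh hu h0 h2, int_eq hW hJ hφ hh hf hu h0 h1]
  congr 2
  funext z
  rcases eq_or_ne z 0 with rfl | hz
  · simp [be, nsq]
  · rw [← tD_star hW φ f h (hM z hz), be, Complex.re_ofReal_mul, Complex.re_ofReal_mul]
    rfl

end Vale.Agent.P264
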