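import Vale.Agent.P264.StmU

/-! P264, part R: a radial potential with a prescribed momentum profile. -/

namespace Vale.Agent.P264

open scoped ContDiff Topology
open Set Filter

namespace Init

theorem ud : UniqueDiffOn ℝ (Icc (0 : ℝ) 1) := uniqueDiffOn_Icc zero_lt_one

/-- a smooth primitive on the unit interval -/
theorem prim {h : ℝ → ℝ} (hh : ContDiffOn ℝ ∞ h (Icc 0 1)) :
    ∃ H : ℝ → ℝ, ContDiffOn ℝ ∞ H (Icc 0 1) ∧ ∀ x ∈ Icc (0 : ℝ) 1, HasDerivAt H (h x) x := by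
  have hc : Continuous fun x : ℝ => h (projIcc (0 : ℝ) 1 zero_le_one x) :=
    hh.continuousOn.comp_continuous (continuous_subtype_val.comp continuous_projIcc)
      fun x => (projIcc (0 : ℝ) 1 zero_le_one x).2
  have hd : ∀ x ∈ Icc (0 : ℝ) 1, HasDerivAt
      (fun u => ∫ y in (0 : ℝ)..u, h (projIcc (0 : ℝ) 1 zero_le_one y)) (h x) x := fun x hx => by
    have := (hc.integral_hasStrictDerivAt 0 x).hasDerivAt
    rwa [projIcc_of_mem _ hx] at this
  refine ⟨_, ?_, hd⟩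
  rw [contDiffOn_infty_iff_derivWithin ud]
  exact ⟨fun x hx => (hd x hx).differentiableAt.differentiableWithinAt,
    hh.congr fun x hx => (hd x hx).hasDerivWithinAt.derivWithin (ud x hx)⟩

/-- a smooth inverse on the unit interval -/
theorem inv {R R' : ℝ → ℝ} (hd : ∀ x ∈ Icc (0 : ℝ) 1, HasDerivAt R (R' x) x)
    (hs : ContDiffOn ℝ ∞ R' (Icc 0 1)) (hp : ∀ x ∈ Icc (0 : ℝ) 1, 0 < R' x) (h0 : R 0 = 0)
    (h1 : R 1 = 1) : ∃ S : ℝ → ℝ, ContDiffOn ℝ ∞ S (Icc 0 1) ∧ (∀ r, S r ∈ Icc (0 : ℝ) 1) ∧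
      ∀ r ∈ Icc (0 : ℝ) 1, R (S r) = r ∧ HasDerivWithinAt S (R' (S r))⁻¹ (Icc 0 1) r := by
  have hc : ContinuousOn R (Icc 0 1) := fun x hx => (hd x hx).continuousAt.continuousWithinAt
  have hm : StrictMonoOn R (Icc 0 1) := strictMonoOn_of_hasDerivWithinAt_pos (convex_Icc 0 1) hc
    (fun x hx => (hd x (interior_subset hx)).hasDerivWithinAt) fun x hx => hp x (interior_subset hx)
  have hI : ∀ x ∈ Icc (0 : ℝ) 1, R x ∈ Icc (0 : ℝ) 1 := fun x hx =>
    ⟨h0 ▸ hm.monotoneOn ⟨le_rfl, zero_le_one⟩ hx hx.1, h1 ▸ hm.monotoneOn hx ⟨zero_le_one, le_rfl⟩ hx.2⟩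
  let e : Icc (0 : ℝ) 1 ≃o Icc (0 : ℝ) 1 :=
    StrictMono.orderIsoOfSurjective (fun x => ⟨R x, hI x x.2⟩) (fun x y h => hm x.2 y.2 h)
      fun y => by
        have := intermediate_value_Icc zero_le_one hc
        rw [h0, h1] at this
        obtain ⟨x, hx, e⟩ := this y.2
        exact ⟨⟨x, hx⟩, Subtype.ext e⟩
  let S : ℝ → ℝ := fun r => e.symm (projIcc (0 : ℝ) 1 zero_le_one r)
  have hS : Continuous S := continuous_subtype_val.comp (e.symm.continuous.comp continuous_projIcc)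
  have hSI : ∀ r, S r ∈ Icc (0 : ℝ) 1 := fun r => (e.symm _).2
  have hRS : ∀ r ∈ Icc (0 : ℝ) 1, R (S r) = r := fun r hr => by
    have := congrArg Subtype.val (e.apply_symm_apply (projIcc (0 : ℝ) 1 zero_le_one r))
    exact this.trans (congrArg Subtype.val (projIcc_of_mem _ hr))
  have hD : ∀ r ∈ Icc (0 : ℝ) 1, HasDerivWithinAt S (R' (S r))⁻¹ (Icc 0 1) r := fun r hr =>
    HasFDerivWithinAt.of_local_left_inverse (t := univ)
      (by rw [nhdsWithin_univ]; exact hS.continuousWithinAt)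
      ((hd _ (hSI r)).hasFDerivAt_equiv (hp _ (hSI r)).ne').hasFDerivWithinAt hr
      (eventually_mem_nhdsWithin.mono hRS)
  refine ⟨S, contDiffOn_infty.2 fun n => ?_, hSI, fun r hr => ⟨hRS r hr, hD r hr⟩⟩
  induction n with
  | zero => exact contDiffOn_zero.2 hS.continuousOn
  | succ n ih =>
    rw [Nat.cast_succ, contDiffOn_succ_iff_derivWithin ud]
    refine ⟨fun r hr => (hD r hr).differentiableWithinAt, by simp, ?_⟩
    exact (((contDiffOn_infty.1 hs n).comp ih fun r _ => hSI r).inv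
      fun r _ => (hp _ (hSI r)).ne').congr fun r hr => (hD r hr).derivWithin (ud r hr)

end Init

open Init in
theorem initS : InitStmt := by
  intro γ hγ hp
  have hom : ContDiffOn ℝ ∞ (fun x => 1 + om 1 x * γ x) (Icc 0 1) :=
    contDiffOn_const.add (ContDiffOn.mul (by unfold om; fun_prop) hγ)
  obtain ⟨ψ, hψ, dψ⟩ := prim (h := fun x => -γ x / (1 + om 1 x * γ x))
    (hγ.neg.div hom fun x hx => (hp x hx).ne')
  have he : ContDiffOn ℝ ∞ (fun x => Real.exp (ψ x)) (Icc 0 1) := hψ.exp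
  have hE : ContDiffOn ℝ ∞ (fun x => 1 - x + x * Real.exp (ψ x)) (Icc 0 1) :=
    (contDiffOn_const.sub contDiffOn_id).add (contDiffOn_id.mul he)
  have pE : ∀ x ∈ Icc (0 : ℝ) 1, 0 < 1 - x + x * Real.exp (ψ x) := fun x hx => by
    have := Real.exp_pos (ψ x)
    rcases hx.1.lt_or_eq with h | h
    · have := mul_pos h this
      linarith [hx.2]
    · rw [← h]
      norm_num
  obtain ⟨S, hS, hSI, hR⟩ := inv (R := fun x => x * Real.exp (ψ x) / (1 - x + x * Real.exp (ψ x)))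
    (R' := fun x => Real.exp (ψ x) / ((1 - x + x * Real.exp (ψ x)) ^ 2 * (1 + om 1 x * γ x)))
    (fun x hx => by
      have h1 := (hasDerivAt_id' x).mul (dψ x hx).exp
      have h2 := (h1.div (((hasDerivAt_id' x).const_sub 1).add h1) (pE x hx).ne')
      refine h2.congr_deriv ?_
      have h3 := (hp x hx).ne'
      have h4 := (pE x hx).ne'
      have h5 := div_mul_cancel₀ (-γ x) h3
      simp only [Pi.mul_apply, Pi.add_apply]
      rw [div_eq_div_iff (pow_ne_zero 2 h4) (mul_ne_zero (pow_ne_zero 2 h4) h3)]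
      generalize -γ x / (1 + om 1 x * γ x) = k at h5 ⊢
      unfold om at h5 ⊢
      linear_combination
        (Real.exp (ψ x) * (1 - x + x * Real.exp (ψ x)) ^ 2 * x * (1 - x)) * h5)
    (he.div ((hE.pow 2).mul hom) fun x hx => (mul_pos (pow_pos (pE x hx) 2) (hp x hx)).ne')
    (fun x hx => div_pos (Real.exp_pos _) (mul_pos (pow_pos (pE x hx) 2) (hp x hx)))
    (by simp) (by simp)
  have hG : ContDiffOn ℝ ∞ (fun x => (1 - Real.exp (ψ x)) * (1 - x + x * Real.exp (ψ x))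
      / Real.exp (ψ x)) (Icc 0 1) :=
    ((contDiffOn_const.sub he).mul hE).div he fun x _ => (Real.exp_pos _).ne'
  obtain ⟨F₁, hF⟩ : ∃ F₁ : ℝ → ℝ, ∀ r, F₁ r = (1 - Real.exp (ψ (S r)))
    * (1 - S r + S r * Real.exp (ψ (S r))) / Real.exp (ψ (S r)) := ⟨_, fun _ => rfl⟩
  have h1 : ContDiffOn ℝ ∞ F₁ (Icc 0 1) := (hG.comp hS fun r _ => hSI r).congr fun r _ => hF r
  obtain ⟨F₀, h0, d0⟩ := prim h1
  have d1 : ∀ r ∈ Icc (0 : ℝ) 1, HasDerivWithinAt F₁ (derivWithin F₁ (Icc 0 1) r) (Icc 0 1) r :=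
    fun r hr => (h1.differentiableOn (by simp) r hr).hasDerivWithinAt
  have hrp : ∀ r ∈ Icc (0 : ℝ) 1, rp r (F₁ r)
      = (1 - S r + S r * Real.exp (ψ (S r))) / Real.exp (ψ (S r)) := fun r hr => by
    have h2 := (hR r hr).1
    have h3 := (pE _ (hSI r)).ne'
    have h4 := (Real.exp_pos (ψ (S r))).ne'
    rw [rp, hF]
    generalize S r = x at *
    rw [← h2]
    field_simp
    ring
  have hmu : ∀ r ∈ Icc (0 : ℝ) 1, r * rp r (F₁ r) = S r := fun r hr => by
    have h2 := (hR r hr).1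
    have h3 := (pE _ (hSI r)).ne'
    have h4 := (Real.exp_pos (ψ (S r))).ne'
    rw [hrp r hr]
    generalize S r = x at *
    rw [← h2]
    field_simp
  have hrq : ∀ r ∈ Icc (0 : ℝ) 1, rq r (F₁ r) (derivWithin F₁ (Icc 0 1) r)
      = (1 - S r + S r * Real.exp (ψ (S r))) ^ 2 * (1 + om 1 (S r) * γ (S r))
        / Real.exp (ψ (S r)) := fun r hr => by
    have h2 := (hasDerivWithinAt_id r (Icc (0 : ℝ) 1)).mul
      ((((hasDerivWithinAt_id r (Icc (0 : ℝ) 1)).const_sub 1).mul (d1 r hr)).const_add 1)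
    have h3 := (hR r hr).2.congr (fun y hy => hmu y hy) (hmu r hr)
    have h4 := (ud r hr).eq_deriv _ h2 h3
    rw [inv_div] at h4
    rw [← h4, rq]
    simp only [id, Pi.mul_apply]
    ring
  refine ⟨F₀, F₁, derivWithin F₁ (Icc 0 1), h0, fun r hr => ⟨(d0 r hr).hasDerivWithinAt, d1 r hr⟩,
    fun r hr => ⟨?_, ?_⟩, fun r hr => ?_⟩
  · rw [hrp r hr]
    exact div_pos (pE _ (hSI r)) (Real.exp_pos _)
  · rw [hrq r hr]
    exact div_pos (mul_pos (pow_pos (pE _ (hSI r)) 2) (hp _ (hSI r))) (Real.exp_pos _)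
  · have hr' := Ioo_subset_Icc_self hr
    have h2 := (hR r hr').1
    have h3 := (pE _ (hSI r)).ne'
    have h4 := (Real.exp_pos (ψ (S r))).ne'
    rw [hrq r hr', hmu r hr']
    generalize S r = x at *
    rw [← h2]
    unfold om
    field_simp
    ring

end Vale.Agent.P264
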