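import Vale.Agent.P264.StmU

/-! P264: the invariant `rho` and unitary invariance of the flow. -/

namespace Vale.Agent.P264

open scoped ContDiff ComplexOrder Matrix
open Set

namespace Inv

theorem pt_nsq {n : ℕ} (hn : 1 ≤ n) {r : ℝ} (hr : r ∈ Icc (0 : ℝ) 1) : nsq (pt n r) = 1 := by
  obtain ⟨k, rfl⟩ := Nat.exists_eq_add_of_le' hn
  simp [nsq, pt, Fin.sum_univ_succ, Real.sq_sqrt hr.1, Real.sq_sqrt (sub_nonneg.2 hr.2)]

theorem isOpen_nz (m : ℕ) : IsOpen (nz m) := isOpen_ne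

variable {m : ℕ} {A : Matrix (Fin m) (Fin m) ℂ}

theorem nsq_mulVec (hW : WirtStmt) (hA : Aᴴ * A = 1) (Z : V m) : nsq (A *ᵥ Z) = nsq Z := by
  refine Complex.ofReal_injective ?_
  rw [hW.nsq_eq, hW.nsq_eq, dotProduct_comm, Matrix.star_mulVec, ← Matrix.dotProduct_mulVec,
    Matrix.mulVec_mulVec, hA, Matrix.one_mulVec, dotProduct_comm]

theorem mulVec_ne (hA : Aᴴ * A = 1) {Z : V m} (hZ : Z ≠ 0) : A *ᵥ Z ≠ 0 := fun h => hZ (by
  rw [← Matrix.one_mulVec Z, ← hA, ← Matrix.mulVec_mulVec, h, Matrix.mulVec_zero])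

theorem contDiff_mulVec (A : Matrix (Fin m) (Fin m) ℂ) : ContDiff ℝ ∞ fun Z : V m => A *ᵥ Z :=
  ((LinearMap.toContinuousLinearMap (Matrix.mulVecLin A)).restrictScalars ℝ).contDiff

theorem conj_unit (hA : Aᴴ * A = 1) : Aᵀ * A.map star = 1 := by
  have h := congrArg Matrix.transpose (mul_eq_one_comm.1 (mul_eq_one_comm.1 hA))
  rw [Matrix.transpose_mul, Matrix.transpose_one] at h
  exact h

theorem cM_mulVec (hW : WirtStmt) (hA : Aᴴ * A = 1) {φ : V m → ℝ} (hφ : ContDiffOn ℝ ∞ φ (nz m))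
    {Z : V m} (hZ : Z ≠ 0) : cM (fun W => φ (A *ᵥ W)) Z = Aᵀ * cM φ (A *ᵥ Z) * A.map star := by
  rw [cM, cM, hW.hess_mulVec A (hφ.contDiffAt ((isOpen_nz m).mem_nhds (mulVec_ne hA hZ))),
    nsq_mulVec hW hA, mul_add, add_mul, mul_one, conj_unit hA, Matrix.mul_smul, Matrix.smul_mul]

theorem trace_conj (hA : Aᴴ * A = 1) (X : Matrix (Fin m) (Fin m) ℂ) :
    (Aᵀ * X * A.map star).trace = X.trace := by
  rw [Matrix.trace_mul_cycle, mul_eq_one_comm.1 (conj_unit hA), one_mul]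

theorem inv_conj (hA : Aᴴ * A = 1) (X : Matrix (Fin m) (Fin m) ℂ) :
    (Aᵀ * X * A.map star)⁻¹ = Aᵀ * X⁻¹ * A.map star := by
  rw [Matrix.mul_inv_rev, Matrix.mul_inv_rev, Matrix.inv_eq_left_inv (conj_unit hA),
    Matrix.inv_eq_right_inv (conj_unit hA), mul_assoc]

theorem cS_mulVec (hW : WirtStmt) (hA : Aᴴ * A = 1) {φ : V m → ℝ} (hφ : ContDiffOn ℝ ∞ φ (nz m))
    (hl : ContDiffOn ℝ ∞ (ldet φ) (nz m)) {Z : V m} (hZ : Z ≠ 0) :
    cS (fun W => φ (A *ᵥ W)) Z = cS φ (A *ᵥ Z) := by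
  have e : ldet (fun W => φ (A *ᵥ W)) =ᶠ[nhds Z] fun W => ldet φ (A *ᵥ W) :=
    ((isOpen_nz m).eventually_mem hZ).mono fun W hW' => by
      simp only [ldet]
      rw [cM_mulVec hW hA hφ hW', Matrix.det_mul_comm, ← mul_assoc,
        mul_eq_one_comm.1 (conj_unit hA), one_mul]
  have e2 : ∀ X Y : Matrix (Fin m) (Fin m) ℂ,
      Aᵀ * X * A.map star * (Aᵀ * Y * A.map star) = Aᵀ * (X * Y) * A.map star := fun X Y => by
    simp only [mul_assoc]
    rw [← mul_assoc (A.map star) Aᵀ, mul_eq_one_comm.1 (conj_unit hA), one_mul]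
  rw [cS, cS, lap, lap, hW.hess_congr e,
    hW.hess_mulVec A (hl.contDiffAt ((isOpen_nz m).mem_nhds (mulVec_ne hA hZ))),
    cM_mulVec hW hA hφ hZ, inv_conj hA, e2, trace_conj hA, trace_conj hA, nsq_mulVec hW hA]

theorem flow_mulVec (hW : WirtStmt) (hS : SmStmt) (hA : Aᴴ * A = 1) {S : ℝ} {Φ : ℝ → V m → ℝ}
    (h : ConeFlow S Φ) : ConeFlow S fun t W => Φ t (A *ᵥ W) := by
  refine ⟨?_, fun t ht c hc Z hZ => ?_, fun t ht Z hZ => ?_, fun t ht Z hZ => ?_⟩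
  · exact ContDiffOn.comp (f := fun p : ℝ × V m => (p.1, A *ᵥ p.2)) h.smooth
      (contDiff_fst.prodMk ((contDiff_mulVec A).comp contDiff_snd)).contDiffOn
      fun p hp => ⟨hp.1, mulVec_ne hA hp.2⟩
  · show Φ t (A *ᵥ (c • Z)) = Φ t (A *ᵥ Z)
    rw [Matrix.mulVec_smul, h.hom0 t ht c hc _ (mulVec_ne hA hZ)]
  · rw [cM_mulVec hW hA (hS.slice h.smooth t ht) hZ]
    have e : Aᵀ = (A.map star)ᴴ := by
      ext i j
      simp
    rw [e]
    refine (h.pos t ht _ (mulVec_ne hA hZ)).conjTranspose_mul_mul_same fun X Y hXY => ?_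
    rw [← Matrix.one_mulVec X, ← Matrix.one_mulVec Y, ← conj_unit hA, ← Matrix.mulVec_mulVec,
      ← Matrix.mulVec_mulVec, hXY]
  · have h1 := hS.slice h.smooth t ht.le
    rw [cS_mulVec hW hA h1 (hS.static h1 (h.hom0 t ht.le) (h.pos t ht.le)).2.2.2.1 hZ]
    exact h.eqn t ht _ (mulVec_ne hA hZ)

/-- a unitary matrix that moves `u` to `v` and fixes the coordinates where they agree -/
theorem exists_unitary {u v : V m} (h : star u ⬝ᵥ u = star v ⬝ᵥ v) :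
    ∃ A : Matrix (Fin m) (Fin m) ℂ, Aᴴ * A = 1 ∧ A *ᵥ u = v ∧
      ∀ j, u j = v j → ∀ W, (A *ᵥ W) j = W j := by
  obtain ⟨w, hw⟩ : ∃ w, w = u - v := ⟨_, rfl⟩
  obtain ⟨α, hα⟩ : ∃ α, α = star w ⬝ᵥ u := ⟨_, rfl⟩
  have h1 : star w ⬝ᵥ w = α + star α := by
    rw [hα, ← Matrix.star_dotProduct, hw]
    simp only [star_sub, sub_dotProduct, dotProduct_sub]
    linear_combination -h
  have h2 : ∀ W, (1 - α⁻¹ • Matrix.vecMulVec w (star w)) *ᵥ W = W - (α⁻¹ * (star w ⬝ᵥ W)) • w :=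
    fun W => by
      rw [Matrix.sub_mulVec, Matrix.one_mulVec, Matrix.smul_mulVec, Matrix.vecMulVec_mulVec,
        op_smul_eq_smul, smul_smul]
  refine ⟨1 - α⁻¹ • Matrix.vecMulVec w (star w), ?_, ?_, fun j hj W => ?_⟩
  · have h3 : α⁻¹ + (star α)⁻¹ = (star α)⁻¹ * α⁻¹ * (α + star α) := by
      rcases eq_or_ne α 0 with e | e
      · simp [e]
      · have := star_ne_zero.2 e
        field_simp
        ring
    rw [Matrix.conjTranspose_sub, Matrix.conjTranspose_one, Matrix.conjTranspose_smul,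
      Matrix.conjTranspose_vecMulVec, star_star, star_inv₀, sub_mul, mul_sub, mul_sub, one_mul,
      one_mul, mul_one, Matrix.smul_mul, Matrix.mul_smul, Matrix.vecMulVec_mul_vecMulVec, h1,
      Matrix.vecMulVec_smul]
    linear_combination (norm := module) h3.symm • Matrix.vecMulVec w (star w)
  · rw [h2, ← hα]
    rcases eq_or_ne α 0 with e | e
    · rw [e, star_zero, add_zero, dotProduct_star_self_eq_zero, hw, sub_eq_zero] at h1
      rw [e, mul_zero, zero_smul, sub_zero, h1]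
    · rw [inv_mul_cancel₀ e, one_smul, hw, sub_sub_cancel]
  · rw [h2, Pi.sub_apply, Pi.smul_apply, hw, Pi.sub_apply, hj, sub_self, smul_zero, sub_zero]

end Inv

theorem rhoS (hW : WirtStmt) : RhoStmt where
  mem := fun {n Z} hZ => by
    have h1 := hW.nsq_pos hZ
    have h2 : ‖Z 0‖ ^ 2 ≤ nsq Z :=
      Finset.single_le_sum (f := fun j => ‖Z j‖ ^ 2) (fun _ _ => sq_nonneg _) (Finset.mem_univ 0)
    exact ⟨sub_nonneg.2 ((div_le_one h1).2 h2), sub_le_self _ (by positivity)⟩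
  smooth := contDiffOn_const.sub (((contDiff_apply ℝ ℂ 0).norm_sq ℝ).contDiffOn.div
    hW.nsq_smooth.contDiffOn fun _ hZ => (hW.nsq_pos hZ).ne')
  hom0 := fun c hc Z _ => by
    rw [rho, rho, hW.nsq_smul, Pi.smul_apply, norm_smul, mul_pow,
      mul_div_mul_left _ _ (pow_ne_zero 2 (norm_ne_zero_iff.2 hc))]
  pt_nsq := fun hn _ hr => Inv.pt_nsq hn hr
  pt_ne := fun hn r hr e => by
    have h := Inv.pt_nsq hn hr
    rw [e] at h
    simp [nsq] at h
  rho_pt := fun hn r hr => by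
    rw [rho, Inv.pt_nsq hn hr]
    simp [pt, Real.sq_sqrt (sub_nonneg.2 hr.2)]
  pt_smooth := contDiffOn_pi.2 fun j => by
    unfold pt
    split_ifs
    · exact Complex.ofRealCLM.contDiff.comp_contDiffOn ((contDiffOn_const.sub contDiffOn_id).sqrt
        fun r hr => (sub_pos.2 hr.2).ne')
    · exact Complex.ofRealCLM.contDiff.comp_contDiffOn (contDiffOn_id.sqrt fun r hr => hr.1.ne')
    · exact contDiffOn_const

theorem inv (hW : WirtStmt) (hS : SmStmt) (hR : RhoStmt) (hU : UniqStmt) : InvStmt := by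
  intro n hn S Φ F₀ h h0 t ht Z hZ
  have hN := hW.nsq_pos hZ
  have hr := hR.mem hZ
  obtain ⟨c, hc⟩ : ∃ c : ℂ, c = √(nsq Z) * Complex.exp (Complex.arg (Z 0) * Complex.I) := ⟨_, rfl⟩
  have hc1 : ‖c‖ ^ 2 = nsq Z := by
    rw [hc, norm_mul, Complex.norm_exp_ofReal_mul_I, mul_one, Complex.norm_real, Real.norm_eq_abs,
      sq_abs, Real.sq_sqrt hN.le]
  have hc0 : c ≠ 0 := fun e => hN.ne' (by rw [← hc1, e]; simp)
  have hc2 : Z 0 = (c • pt n (rho Z)) 0 := by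
    have e : √(nsq Z) * √(1 - rho Z) = ‖Z 0‖ := by
      rw [← Real.sqrt_mul hN.le, rho, sub_sub_cancel, mul_div_cancel₀ _ hN.ne',
        Real.sqrt_sq (norm_nonneg _)]
    have e2 : pt n (rho Z) 0 = ((√(1 - rho Z) : ℝ) : ℂ) := if_pos rfl
    rw [Pi.smul_apply, e2, smul_eq_mul, hc, mul_right_comm, ← Complex.ofReal_mul, e,
      Complex.norm_mul_exp_arg_mul_I]
  obtain ⟨A, hA, h1, h2⟩ := Inv.exists_unitary (u := Z) (v := c • pt n (rho Z)) (by
    rw [dotProduct_comm, ← hW.nsq_eq, dotProduct_comm, ← hW.nsq_eq, hW.nsq_smul,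
      hR.pt_nsq hn _ hr, mul_one, hc1])
  have h3 := hU _ S _ _ h (Inv.flow_mulVec hW hS hA h) (fun W hW' => by
    rw [h0 W hW', h0 _ (Inv.mulVec_ne hA hW'), rho, rho, h2 0 hc2, Inv.nsq_mulVec hW hA]) t ht Z hZ
  rw [h3, h1, h.hom0 t ht c hc0 _ (hR.pt_ne hn _ hr)]

end Vale.Agent.P264
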