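import Vale.Agent.P264.StmU

/-! Derivatives of the determinant and of the inverse matrix. -/

namespace Vale.Agent.P264

open scoped ContDiff Matrix Topology
open Set Filter

namespace Jac

variable {m : ℕ}

theorem det_adj {M : ℝ → Matrix (Fin m) (Fin m) ℂ} {M' : Matrix (Fin m) (Fin m) ℂ} {t : ℝ}
    (h : ∀ j k, HasDerivAt (fun s => M s j k) (M' j k) t) :
    HasDerivAt (fun s => (M s).det) ((M t).adjugate * M').trace t := by
  have e : ((M t).adjugate * M').trace = ∑ σ : Equiv.Perm (Fin m), ((Equiv.Perm.sign σ : ℤ) : ℂ) *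
      ∑ i, (∏ j ∈ Finset.univ.erase i, M t (σ j) j) • M' (σ i) i := by
    simp only [Finset.mul_sum]
    rw [Finset.sum_comm]
    refine Finset.sum_congr rfl fun i _ => ?_
    have e1 : ((M t).adjugate * M').diag i = (M t).cramer (fun r => M' r i) i := by
      rw [Matrix.cramer_eq_adjugate_mulVec]
      rfl
    rw [e1, Matrix.cramer_apply, Matrix.det_apply']
    refine Finset.sum_congr rfl fun σ _ => congrArg _ ?_
    rw [← Finset.prod_erase_mul _ _ (Finset.mem_univ i), Matrix.updateCol_self, smul_eq_mul]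
    exact congrArg (· * _) (Finset.prod_congr rfl fun j hj =>
      Matrix.updateCol_ne (Finset.ne_of_mem_erase hj))
  simp only [e, Matrix.det_apply']
  exact HasDerivAt.fun_sum fun σ _ => (HasDerivAt.fun_finsetProd fun i _ => h (σ i) i).const_mul _

theorem det_t {M : ℝ → Matrix (Fin m) (Fin m) ℂ} {M' : Matrix (Fin m) (Fin m) ℂ} {t : ℝ}
    (h : ∀ j k, HasDerivAt (fun s => M s j k) (M' j k) t) (hu : IsUnit (M t).det) :
    HasDerivAt (fun s => (M s).det) ((M t).det * ((M t)⁻¹ * M').trace) t := by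
  rw [Matrix.inv_def, Matrix.smul_mul, Matrix.trace_smul, smul_eq_mul,
    Ring.mul_inverse_cancel_left _ _ hu]
  exact det_adj h

variable {E : Type} [NormedAddCommGroup E] [NormedSpace ℝ E] {M : E → Matrix (Fin m) (Fin m) ℂ}
  {s : Set E} {z : E}

theorem smooth_det (h : ∀ j k, ContDiffWithinAt ℝ ∞ (fun w => M w j k) s z) :
    ContDiffWithinAt ℝ ∞ (fun w => (M w).det) s z := by
  simp only [Matrix.det_apply']
  exact ContDiffWithinAt.sum fun σ _ =>
    contDiffWithinAt_const.mul (contDiffWithinAt_prod fun i _ => h (σ i) i)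

theorem smooth_inv (h : ∀ j k, ContDiffWithinAt ℝ ∞ (fun w => M w j k) s z) (hu : IsUnit (M z).det)
    (a b : Fin m) : ContDiffWithinAt ℝ ∞ (fun w => (M w)⁻¹ a b) s z := by
  simp only [Matrix.inv_def, Ring.inverse_eq_inv', Matrix.smul_apply, smul_eq_mul,
    Matrix.adjugate_apply]
  refine ((smooth_det h).inv hu.ne_zero).mul (smooth_det fun j k => ?_)
  simp only [Matrix.updateRow_apply]
  split_ifs
  · exact contDiffWithinAt_const
  · exact h j k

theorem diff_of {f : Matrix (Fin m) (Fin m) ℂ → ℂ}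
    (h : ∀ j k, DifferentiableAt ℝ (fun w => M w j k) z)
    (hf : ContDiffWithinAt ℝ ∞ (fun P : Fin m → Fin m → ℂ => f (Matrix.of P)) univ
      fun j k => M z j k) : DifferentiableAt ℝ (fun w => f (M w)) z :=
  DifferentiableAt.comp (f := fun w j k => M w j k) z
    ((contDiffWithinAt_univ.1 hf).differentiableAt (by simp))
    (differentiableAt_pi.2 fun j => differentiableAt_pi.2 (h j))

theorem coord (P : Fin m → Fin m → ℂ) (j k : Fin m) :
    ContDiffWithinAt ℝ ∞ (fun Q : Fin m → Fin m → ℂ => Matrix.of Q j k) univ P :=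
  (show ContDiff ℝ ∞ fun Q : Fin m → Fin m → ℂ => Q j k by fun_prop).contDiffAt.contDiffWithinAt

theorem diff_det (h : ∀ j k, DifferentiableAt ℝ (fun w => M w j k) z) :
    DifferentiableAt ℝ (fun w => (M w).det) z :=
  diff_of h (smooth_det (coord _))

theorem diff_inv (h : ∀ j k, DifferentiableAt ℝ (fun w => M w j k) z) (hu : IsUnit (M z).det)
    (a b : Fin m) : DifferentiableAt ℝ (fun w => (M w)⁻¹ a b) z :=
  diff_of (f := fun P => P⁻¹ a b) h (smooth_inv (coord _) hu a b)

theorem fd_det (h : ∀ j k, DifferentiableAt ℝ (fun w => M w j k) z) (hu : IsUnit (M z).det) (v : E) :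
    fderiv ℝ (fun w => (M w).det) z v =
      (M z).det * ((M z)⁻¹ * Matrix.of fun j k => fderiv ℝ (fun w => M w j k) z v).trace := by
  have k := det_t (M := fun t : ℝ => M (z + t • v)) (t := 0)
    (M' := Matrix.of fun j k => fderiv ℝ (fun w => M w j k) z v)
    (fun j k => (h j k).hasFDerivAt.hasLineDerivAt v) (by simpa using hu)
  rw [zero_smul, add_zero] at k
  exact ((diff_det h).hasFDerivAt.hasLineDerivAt v).unique k

theorem fd_inv (h : ∀ j k, DifferentiableAt ℝ (fun w => M w j k) z) (hu : IsUnit (M z).det) (v : E) :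
    (Matrix.of fun a b => fderiv ℝ (fun w => (M w)⁻¹ a b) z v) =
      -((M z)⁻¹ * (Matrix.of fun j k => fderiv ℝ (fun w => M w j k) z v) * (M z)⁻¹) := by
  have h0 : (Matrix.of fun a b => fderiv ℝ (fun w => (M w)⁻¹ a b) z v) * M z +
      (M z)⁻¹ * (Matrix.of fun j k => fderiv ℝ (fun w => M w j k) z v) = 0 := by
    ext a b
    have k1 := HasFDerivAt.fun_sum (u := Finset.univ) fun j _ =>
      (diff_inv h hu a j).hasFDerivAt.fun_mul (h j b).hasFDerivAt
    have k2 : HasFDerivAt (fun w => ∑ j, (M w)⁻¹ a j * M w j b) (0 : E →L[ℝ] ℂ) z := by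
      refine (hasFDerivAt_const ((1 : Matrix (Fin m) (Fin m) ℂ) a b) z).congr_of_eventuallyEq ?_
      filter_upwards [(diff_det h).continuousAt.eventually_ne hu.ne_zero] with w hw
      rw [← Matrix.mul_apply, Matrix.nonsing_inv_mul _ hw.isUnit]
    have k3 := congrArg (fun L : E →L[ℝ] ℂ => L v) (k1.unique k2)
    simp only [sum_apply, add_apply, smul_apply, smul_eq_mul, zero_apply,
      Finset.sum_add_distrib] at k3
    simp only [Matrix.add_apply, Matrix.mul_apply, Matrix.of_apply, Matrix.zero_apply, ← k3,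
      mul_comm (M z _ b)]
    exact add_comm _ _
  rw [← neg_mul, ← eq_neg_of_add_eq_zero_left h0, Matrix.mul_nonsing_inv_cancel_right _ _ hu]

theorem dz_of (l : Fin m) (N : V m → Matrix (Fin m) (Fin m) ℂ) (x : V m) :
    (Matrix.of fun j k => dz l (fun w => N w j k) x) = (2 : ℂ)⁻¹ •
      ((Matrix.of fun j k => fderiv ℝ (fun w => N w j k) x (Pi.single l 1)) - Complex.I •
        Matrix.of fun j k => fderiv ℝ (fun w => N w j k) x (Pi.single l Complex.I)) := by
  ext j k
  simp [dz, div_eq_inv_mul]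

end Jac

open Jac

theorem jac : JacStmt := by
  refine ⟨det_t, fun l M z h hu => ?_, fun l M z h hu a b => ?_, smooth_det, smooth_inv⟩
  · rw [dz, fd_det h hu, fd_det h hu, dz_of]
    simp only [Matrix.mul_smul, Matrix.mul_sub, Matrix.trace_smul, Matrix.trace_sub, smul_eq_mul]
    ring
  · refine (congrFun (congrFun (dz_of l (fun w => (M w)⁻¹) z) a) b).trans ?_
    rw [fd_inv h hu, fd_inv h hu, dz_of, ← Matrix.neg_apply]
    refine congrArg (fun P : Matrix _ _ ℂ => P a b) ?_
    simp only [Matrix.mul_smul, Matrix.mul_sub, Matrix.smul_mul, Matrix.sub_mul]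
    module

end Vale.Agent.P264
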