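import Vale.Agent.P264.StmU

/-! P264, part R: jets in the momentum variable. -/

namespace Vale.Agent.P264

open scoped ContDiff Topology
open Set Filter

namespace Jet

/-- uniformly positive on bounded time intervals -/
def Low (g : ℝ → ℝ → ℝ) : Prop :=
  ∀ T : ℝ, ∃ c, 0 < c ∧ ∀ t ∈ Icc 0 T, ∀ r ∈ Ioo (0 : ℝ) 1, c ≤ g t r

/-- bounded on bounded time intervals -/
def Bd (g : ℝ → ℝ → ℝ) : Prop :=
  ∀ T : ℝ, ∃ C, ∀ t ∈ Icc 0 T, ∀ r ∈ Ioo (0 : ℝ) 1, |g t r| ≤ C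

/-- rational expressions in the jets of `F` with positive denominators -/
inductive A (F : ℝ → ℝ → ℝ) : (ℝ → ℝ → ℝ) → Prop
  | jet (j : ℕ) : A F fun t r => iteratedDeriv j (F t) r
  | id : A F fun _ r => r
  | const (c : ℝ) : A F fun _ _ => c
  | add {g k : ℝ → ℝ → ℝ} : A F g → A F k → A F fun t r => g t r + k t r
  | mul {g k : ℝ → ℝ → ℝ} : A F g → A F k → A F fun t r => g t r * k t r
  | inv {g : ℝ → ℝ → ℝ} : A F g → Low g → A F fun t r => (g t r)⁻¹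

variable {F : ℝ → ℝ → ℝ}

theorem A.of_eq {g k : ℝ → ℝ → ℝ} (h : A F g) (e : ∀ t r, k t r = g t r) : A F k := by
  have : k = g := funext fun t => funext fun r => e t r
  rwa [this]

theorem Low.pos {g : ℝ → ℝ → ℝ} (h : Low g) {t r : ℝ} (ht : 0 ≤ t) (hr : r ∈ Ioo (0 : ℝ) 1) :
    0 < g t r := by
  obtain ⟨c, hc, h⟩ := h t
  exact hc.trans_le (h t ⟨ht, le_rfl⟩ r hr)

theorem slice {G : ℝ × ℝ → ℝ} (h : ContDiffOn ℝ ∞ G (Ici 0 ×ˢ Ioo 0 1)) {t r : ℝ} (ht : 0 ≤ t)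
    (hr : r ∈ Ioo (0 : ℝ) 1) :
    HasDerivAt (fun x => G (t, x)) (fderivWithin ℝ G (Ici 0 ×ˢ Ioo 0 1) (t, r) (0, 1)) r := by
  have h1 := (h.differentiableOn (by simp) (t, r) ⟨ht, hr⟩).hasFDerivWithinAt
  have h2 : HasDerivWithinAt (fun x : ℝ => (t, x)) ((0, 1) : ℝ × ℝ) (Ioo 0 1) r :=
    ((hasDerivAt_const r t).prodMk (hasDerivAt_id' r)).hasDerivWithinAt
  exact (h1.comp_hasDerivWithinAt r h2 fun x hx => ⟨ht, hx⟩).hasDerivAt (isOpen_Ioo.mem_nhds hr)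

theorem jet_smooth (h : ContDiffOn ℝ ∞ (fun p : ℝ × ℝ => F p.1 p.2) (Ici 0 ×ˢ Ioo 0 1)) (j : ℕ) :
    ContDiffOn ℝ ∞ (fun p : ℝ × ℝ => iteratedDeriv j (F p.1) p.2) (Ici 0 ×ˢ Ioo 0 1) := by
  induction j with
  | zero => simpa only [iteratedDeriv_zero] using h
  | succ j ih =>
    have hu : UniqueDiffOn ℝ (Ici (0 : ℝ) ×ˢ Ioo (0 : ℝ) 1) :=
      (uniqueDiffOn_Ici 0).prod isOpen_Ioo.uniqueDiffOn
    refine (((ih.fderivWithin hu (m := ∞) (by simp)).clm_apply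
      (contDiffOn_const (c := ((0, 1) : ℝ × ℝ)))).congr fun p hp => ?_)
    rw [iteratedDeriv_succ]
    exact (slice ih hp.1 hp.2).deriv

theorem A.props {n : ℕ} {S : ℝ} (hF : RadFlow n S F) {g : ℝ → ℝ → ℝ} (h : A F g) :
    ContinuousOn (fun p : ℝ × ℝ => g p.1 p.2) (Ici 0 ×ˢ Ioo 0 1) ∧ Bd g ∧
      ∃ g', A F g' ∧ ∀ t, 0 ≤ t → ∀ r ∈ Ioo (0 : ℝ) 1, HasDerivAt (g t) (g' t r) r := by
  induction h with
  | jet j =>
    refine ⟨(jet_smooth hF.smooth j).continuousOn, hF.bdd j, _, A.jet (j + 1), fun t ht r hr => ?_⟩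
    rw [iteratedDeriv_succ]
    exact (slice (jet_smooth hF.smooth j) ht hr).differentiableAt.hasDerivAt
  | id =>
    exact ⟨continuousOn_snd, fun T => ⟨1, fun t _ r hr => abs_le.2 ⟨by linarith [hr.1], hr.2.le⟩⟩,
      _, A.const 1, fun t _ r _ => hasDerivAt_id' r⟩
  | const c =>
    exact ⟨continuousOn_const, fun T => ⟨|c|, fun _ _ _ _ => le_rfl⟩, _, A.const 0,
      fun t _ r _ => hasDerivAt_const r c⟩
  | add _ _ ih1 ih2 =>
    obtain ⟨c1, b1, g1, a1, d1⟩ := ih1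
    obtain ⟨c2, b2, g2, a2, d2⟩ := ih2
    refine ⟨c1.add c2, fun T => ?_, _, a1.add a2, fun t ht r hr => (d1 t ht r hr).add (d2 t ht r hr)⟩
    obtain ⟨C1, h1⟩ := b1 T
    obtain ⟨C2, h2⟩ := b2 T
    exact ⟨C1 + C2, fun t ht r hr => (abs_add_le _ _).trans (add_le_add (h1 t ht r hr) (h2 t ht r hr))⟩
  | mul hg hk ih1 ih2 =>
    obtain ⟨c1, b1, g1, a1, d1⟩ := ih1
    obtain ⟨c2, b2, g2, a2, d2⟩ := ih2
    refine ⟨c1.mul c2, fun T => ?_, _, (a1.mul hk).add (hg.mul a2),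
      fun t ht r hr => (d1 t ht r hr).mul (d2 t ht r hr)⟩
    obtain ⟨C1, h1⟩ := b1 T
    obtain ⟨C2, h2⟩ := b2 T
    refine ⟨C1 * C2, fun t ht r hr => ?_⟩
    rw [abs_mul]
    exact mul_le_mul (h1 t ht r hr) (h2 t ht r hr) (abs_nonneg _)
      ((abs_nonneg _).trans (h1 t ht r hr))
  | inv hg hl ih =>
    obtain ⟨c1, -, g1, a1, d1⟩ := ih
    refine ⟨c1.inv₀ fun p hp => (hl.pos hp.1 hp.2).ne', fun T => ?_, _,
      ((A.const (-1)).mul a1).mul ((hg.inv hl).mul (hg.inv hl)), fun t ht r hr => ?_⟩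
    · obtain ⟨c, hc, h⟩ := hl T
      refine ⟨c⁻¹, fun t ht r hr => ?_⟩
      rw [abs_of_pos (inv_pos.2 (hc.trans_le (h t ht r hr)))]
      exact inv_anti₀ hc (h t ht r hr)
    · refine ((d1 t ht r hr).inv (hl.pos ht hr).ne').congr_deriv ?_
      rw [div_eq_mul_inv, pow_two, mul_inv, neg_one_mul]

theorem A.d1 : A F fun t r => deriv (F t) r := (A.jet 1).of_eq fun t r => by rw [iteratedDeriv_one]

theorem A.d2 : A F fun t r => deriv (deriv (F t)) r :=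
  (A.jet 2).of_eq fun t r => by rw [iteratedDeriv_succ, iteratedDeriv_one]

theorem A.rp : A F fun t r => RP (F t) r :=
  ((A.const 1).add (((A.const 1).add ((A.const (-1)).mul A.id)).mul A.d1)).of_eq fun t r => by
    simp only [RP, Vale.Agent.P264.rp]
    ring

theorem A.rq : A F fun t r => RQ (F t) r :=
  (((A.const 1).add (((A.const 1).add ((A.const (-2)).mul A.id)).mul A.d1)).add
    ((A.id.mul ((A.const 1).add ((A.const (-1)).mul A.id))).mul A.d2)).of_eq fun t r => by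
      simp only [RQ, Vale.Agent.P264.rq]
      ring

theorem A.ru : A F fun t r => 1 - r * deriv (F t) r :=
  ((A.const 1).add ((A.const (-1)).mul (A.id.mul A.d1))).of_eq fun t r => by ring

theorem A.gh (h1 : Low fun t r => RP (F t) r) (h2 : Low fun t r => 1 - r * deriv (F t) r) :
    A F fun t r => ghat (F t) r :=
  ((A.d2.add (A.d1.mul A.d1)).mul (((A.rp.inv h1).mul (A.rp.inv h1)).mul
    ((A.ru.inv h2).mul (A.ru.inv h2)))).of_eq fun t r => by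
      simp only [ghat]
      rw [div_eq_mul_inv, mul_inv, pow_two, pow_two, pow_two, mul_inv, mul_inv]

section Comp
variable {n : ℕ} {S : ℝ} (hF : RadFlow n S F) {σ : ℝ → ℝ → ℝ}
  (hσ : ∀ t, 0 ≤ t → ∀ x ∈ Ioo (0 : ℝ) 1, σ t x ∈ Ioo (0 : ℝ) 1 ∧
    HasDerivAt (σ t) (RQ (F t) (σ t x))⁻¹ x)
include hF hσ

theorem A.step {g : ℝ → ℝ → ℝ} (h : A F g) : ∃ g', A F g' ∧ ∀ t, 0 ≤ t → ∀ x ∈ Ioo (0 : ℝ) 1,
    HasDerivAt (fun y => g t (σ t y)) (g' t (σ t x)) x := by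
  obtain ⟨-, -, g', a, d⟩ := h.props hF
  have hl : Low fun t r => RQ (F t) r := fun T => by
    obtain ⟨c, hc, h⟩ := hF.pos T
    exact ⟨c, hc, fun t ht r hr => (h t ht r hr).2⟩
  exact ⟨_, a.mul (A.rq.inv hl), fun t ht x hx =>
    (d t ht _ (hσ t ht x hx).1).comp x (hσ t ht x hx).2⟩

theorem A.smooth {g : ℝ → ℝ → ℝ} (h : A F g) {t : ℝ} (ht : 0 ≤ t) :
    ContDiffOn ℝ ∞ (fun y => g t (σ t y)) (Ioo 0 1) := by
  refine contDiffOn_infty.2 fun m => ?_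
  induction m generalizing g with
  | zero =>
    obtain ⟨g', -, d⟩ := h.step hF hσ
    exact contDiffOn_zero.2 fun x hx => (d t ht x hx).continuousAt.continuousWithinAt
  | succ m ih =>
    obtain ⟨g', a, d⟩ := h.step hF hσ
    rw [Nat.cast_succ, contDiffOn_succ_iff_deriv_of_isOpen isOpen_Ioo]
    exact ⟨fun x hx => (d t ht x hx).differentiableAt.differentiableWithinAt, by simp,
      (ih a).congr fun x hx => (d t ht x hx).deriv⟩

theorem A.iter {g : ℝ → ℝ → ℝ} (h : A F g) (j : ℕ) : ∃ g', A F g' ∧ ∀ t, 0 ≤ t →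
    ∀ x ∈ Ioo (0 : ℝ) 1, iteratedDeriv j (fun y => g t (σ t y)) x = g' t (σ t x) := by
  induction j with
  | zero => exact ⟨g, h, fun t _ x _ => by rw [iteratedDeriv_zero]⟩
  | succ j ih =>
    obtain ⟨k, a, e⟩ := ih
    obtain ⟨k', a', d⟩ := a.step hF hσ
    refine ⟨k', a', fun t ht x hx => ?_⟩
    rw [iteratedDeriv_succ]
    exact ((d t ht x hx).congr_of_eventuallyEq
      (eventually_of_mem (isOpen_Ioo.mem_nhds hx) (e t ht))).deriv
end Comp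

theorem ident {r a b : ℝ} (h1 : rp r a ≠ 0) (h2 : 1 - r * a ≠ 0) :
    (1 + om 1 (r * rp r a) * ((b + a ^ 2) / (rp r a ^ 2 * (1 - r * a) ^ 2)))
      * (rp r a * (1 - r * a)) = rq r a b ∧
    om 1 (r * rp r a) = r * (1 - r) * (rp r a * (1 - r * a)) := by
  have e : om 1 (r * rp r a) = r * (1 - r) * (rp r a * (1 - r * a)) := by
    simp only [om, rp]
    ring
  refine ⟨?_, e⟩
  rw [e]
  field_simp
  simp only [rp, rq]
  ring

end Jet

open Jet in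
theorem jet (h : SigStmt) : JetStmt := by
  intro n S F hF
  obtain ⟨h1, h2, h3, -⟩ := h n S F hF
  have hσ : ∀ t, 0 ≤ t → ∀ x ∈ Ioo (0 : ℝ) 1, sig (F t) x ∈ Ioo (0 : ℝ) 1 ∧
      HasDerivAt (sig (F t)) (RQ (F t) (sig (F t) x))⁻¹ x := fun t ht x hx =>
    ⟨((h1 t ht).2 x hx).1, ((h1 t ht).2 x hx).2.2⟩
  have lP : Low fun t r => RP (F t) r := fun T => by
    obtain ⟨c, hc, h⟩ := hF.pos T
    exact ⟨c, hc, fun t ht r hr => (h t ht r hr).1⟩
  have lU : Low fun t r => 1 - r * deriv (F t) r := h3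
  have a := A.gh lP lU
  have id1 := fun t (ht : 0 ≤ t) r (hr : r ∈ Ioo (0 : ℝ) 1) =>
    ident (b := deriv (deriv (F t)) r) (lP.pos ht hr).ne' (lU.pos ht hr).ne'
  refine ⟨⟨fun t ht => a.smooth hF hσ ht, fun i => ?_⟩, fun j T => ?_, fun T => ?_,
    fun t ht r hr => ?_⟩
  · obtain ⟨g, ag, e⟩ := a.iter hF hσ i
    have := (ag.props hF).1.comp (f := fun p : ℝ × ℝ => (p.1, sig (F p.1) p.2))
      (continuousOn_fst.prodMk h2) fun p hp => ⟨hp.1, (hσ p.1 hp.1 p.2 hp.2).1⟩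
    exact this.congr fun p hp => e p.1 hp.1 p.2 hp.2
  · obtain ⟨g, ag, e⟩ := a.iter hF hσ j
    obtain ⟨C, hC⟩ := (ag.props hF).2.1 T
    exact ⟨C, fun t ht x hx => (congrArg abs (e t ht.1 x hx)).trans_le
      (hC t ht _ (hσ t ht.1 x hx).1)⟩
  · obtain ⟨c, hc, hq⟩ := hF.pos T
    obtain ⟨C, hC⟩ := ((A.rp.mul A.ru).props hF).2.1 T
    refine ⟨c / (|C| + 1), by positivity, fun t ht x hx => ?_⟩
    obtain ⟨hr, hx', -⟩ := (h1 t ht.1).2 x hx
    have e : (1 + om 1 x * gam (F t) x) * (RP (F t) (sig (F t) x)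
        * (1 - sig (F t) x * deriv (F t) (sig (F t) x))) = RQ (F t) (sig (F t) x) := by
      have := (id1 t ht.1 _ hr).1
      rwa [show sig (F t) x * rp (sig (F t) x) (deriv (F t) (sig (F t) x)) = x from hx'] at this
    have p1 := mul_pos (lP.pos ht.1 hr) (lU.pos ht.1 hr)
    have p2 := (le_abs_self _).trans ((hC t ht _ hr).trans (le_abs_self C))
    have p3 := (hq t ht _ hr).2
    have p4 : 0 < 1 + om 1 x * gam (F t) x :=
      (mul_pos_iff_of_pos_right p1).1 (e ▸ hc.trans_le p3)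
    rw [div_le_iff₀ (by positivity)]
    nlinarith
  · obtain ⟨e1, e2⟩ := id1 t ht r hr
    rw [gam, ((h1 t ht).1 r hr).2.1]
    have e3 : om 1 (mu (F t) r) = r * (1 - r) * (RP (F t) r * (1 - r * deriv (F t) r)) := e2
    have e4 : (1 + om 1 (mu (F t) r) * ghat (F t) r) * (RP (F t) r * (1 - r * deriv (F t) r))
      = RQ (F t) r := e1
    rw [← e4]
    linear_combination (-(1 + om 1 (mu (F t) r) * ghat (F t) r)) * e3

end Vale.Agent.P264
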