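import Vale.Agent.P264.StmU

/-! The chart metric versus the cone matrix. -/

namespace Vale.Agent.P264

open scoped ContDiff ComplexOrder Matrix
open Matrix Sum

namespace Link

variable {κ : Type} [Fintype κ] [DecidableEq κ]

omit [DecidableEq κ] in
theorem blk_pos {A : Matrix κ κ ℂ} {D : Matrix Unit Unit ℂ} (hA : A.PosDef) (hD : D.PosDef) :
    (fromBlocks A 0 0 D).PosDef := by
  refine .of_dotProduct_mulVec_pos (isHermitian_fromBlocks_iff.2 ⟨hA.1, by simp, by simp, hD.1⟩)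
    fun x hx => ?_
  have e : star x ⬝ᵥ fromBlocks A 0 0 D *ᵥ x = star (x ∘ inl) ⬝ᵥ A *ᵥ (x ∘ inl) +
      star (x ∘ inr) ⬝ᵥ D *ᵥ (x ∘ inr) := by
    rw [fromBlocks_mulVec, zero_mulVec, zero_mulVec, add_zero, zero_add,
      ← sumElim_dotProduct_sumElim]
    congr 1
    ext (_ | _) <;> rfl
  rw [e]
  by_cases h : x ∘ inl = 0
  · refine add_pos_of_nonneg_of_pos (hA.posSemidef.dotProduct_mulVec_nonneg _)
      (hD.dotProduct_mulVec_pos fun h' => hx ?_)
    ext (j | j)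
    exacts [congrFun h j, congrFun h' j]
  · exact add_pos_of_pos_of_nonneg (hA.dotProduct_mulVec_pos h)
      (hD.posSemidef.dotProduct_mulVec_nonneg _)

/-- the change of basis -/
noncomputable def U (Z : κ ⊕ Unit → ℂ) : Matrix (κ ⊕ Unit) (κ ⊕ Unit) ℂ :=
  fromBlocks 1 (of fun j _ => -star (Z (inl j))) (of fun _ j => Z (inl j)) 1

variable {Z : κ ⊕ Unit → ℂ} (hZ : Z (inr ()) = 1)
include hZ

theorem U_det : (U Z).det = Z ⬝ᵥ star Z := by
  rw [U, det_fromBlocks_one₁₁]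
  simp [mul_apply, dotProduct, hZ, add_comm]

theorem U_conj {K : Matrix (κ ⊕ Unit) (κ ⊕ Unit) ℂ} (h1 : K *ᵥ star Z = 0) (h2 : Z ᵥ* K = 0)
    (a c : ℂ) : a • K + c • vecMulVec (star Z) Z =
      (U Z)ᴴ * fromBlocks (a • K.toBlocks₁₁) 0 0 (c • 1) * U Z := by
  have e1 (p) : K p (inr ()) = -∑ k, K p (inl k) * star (Z (inl k)) := by
    simpa [mulVec, dotProduct, hZ, eq_neg_iff_add_eq_zero, add_comm] using congrFun h1 p
  have e2 (k) : K (inr ()) (inl k) = -∑ j, Z (inl j) * K (inl j) (inl k) := by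
    simpa [vecMul, dotProduct, hZ, eq_neg_iff_add_eq_zero, add_comm] using congrFun h2 (inl k)
  rw [U, fromBlocks_conjTranspose, fromBlocks_multiply, fromBlocks_multiply]
  ext (j | ⟨⟩) (k | ⟨⟩) <;>
    simp [vecMulVec_apply, mul_apply, toBlocks₁₁, hZ, e1, e2, Finset.mul_sum, Finset.sum_mul,
      mul_assoc, mul_left_comm a, one_apply]

theorem core {N : ℝ} (hN : 0 < N) (hNZ : (N : ℂ) = Z ⬝ᵥ star Z)
    {L M : Matrix (κ ⊕ Unit) (κ ⊕ Unit) ℂ} (h1 : L *ᵥ star Z = 0) (h2 : Z ᵥ* L = 0)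
    (hM : M = (N : ℂ) • L + (N : ℂ)⁻¹ • vecMulVec (star Z) Z) :
    (L.toBlocks₁₁.PosDef ↔ M.PosDef) ∧ M.det = (N : ℂ) ^ (Fintype.card κ + 1) * L.toBlocks₁₁.det ∧
      (IsUnit L.toBlocks₁₁.det → ∀ K : Matrix (κ ⊕ Unit) (κ ⊕ Unit) ℂ, K *ᵥ star Z = 0 →
        Z ᵥ* K = 0 → (L.toBlocks₁₁⁻¹ * K.toBlocks₁₁).trace = N * (M⁻¹ * K).trace) := by
  have h0 : (0 : ℂ) < N := Complex.zero_lt_real.2 hN
  have hd : (U Z).det = N := (U_det hZ).trans hNZ.symm
  have hU : IsUnit (U Z).det := hd ▸ h0.ne'.isUnit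
  have hU' : IsUnit (U Z)ᴴ.det := det_conjTranspose (U Z) ▸ hU.star
  rw [U_conj hZ h1 h2] at hM
  subst hM
  refine ⟨?_, ?_, fun hL K k1 k2 => ?_⟩
  · rw [← star_eq_conjTranspose,
      ((isUnit_iff_isUnit_det _).2 hU).posDef_star_left_conjugate_iff]
    refine ⟨fun h => blk_pos (h.smul h0) (PosDef.one.smul (inv_pos.2 h0)), fun h => ?_⟩
    have := (h.submatrix inl_injective).smul (inv_pos.2 h0)
    rwa [show submatrix _ inl inl = (N : ℂ) • L.toBlocks₁₁ from rfl,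
      inv_smul_smul₀ h0.ne'] at this
  · rw [det_mul, det_mul, det_conjTranspose, hd, det_fromBlocks_zero₂₁, det_smul, det_smul, det_one,
      Fintype.card_unit, Complex.star_def, Complex.conj_ofReal]
    field_simp
    ring
  · have e := U_conj hZ k1 k2 1 0
    rw [one_smul, one_smul, zero_smul, zero_smul, add_zero] at e
    have e' : (fromBlocks ((N : ℂ) • L.toBlocks₁₁) 0 0 ((N : ℂ)⁻¹ • (1 : Matrix Unit Unit ℂ)))⁻¹ =
        fromBlocks ((N : ℂ)⁻¹ • L.toBlocks₁₁⁻¹) 0 0 ((N : ℂ) • 1) := inv_eq_left_inv (by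
      simp only [fromBlocks_multiply, Matrix.smul_mul, Matrix.mul_smul, nonsing_inv_mul _ hL,
        smul_inv_smul₀ h0.ne', inv_smul_smul₀ h0.ne', Matrix.mul_zero, Matrix.zero_mul, add_zero,
        zero_add, Matrix.mul_one, smul_zero, fromBlocks_one])
    conv_rhs => rw [e, Matrix.mul_inv_rev, Matrix.mul_inv_rev, e', Matrix.mul_assoc,
      trace_mul_comm, Matrix.mul_assoc, Matrix.mul_assoc, Matrix.mul_assoc, mul_nonsing_inv _ hU,
      Matrix.mul_one, nonsing_inv_mul_cancel_left _ _ hU', fromBlocks_multiply]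
    simp [trace, Finset.mul_sum, h0.ne']

end Link

open Link

theorem link (hW : WirtStmt) : LinkStmt := by
  intro n φ hφ h0 i z
  let e : Fin n ⊕ Unit ≃ Fin (n + 1) :=
    (Equiv.optionEquivSumPUnit _).symm.trans (finSuccEquiv' i).symm
  have he : ∀ K : Matrix (Fin (n + 1)) (Fin (n + 1)) ℂ,
      (K.submatrix e e).toBlocks₁₁ = K.submatrix i.succAbove i.succAbove := fun K => by
    ext j k
    simp [e, toBlocks₁₁]
  have hz := hom_ne_zero i z
  have hN := hW.nsq_pos hz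
  have hN' : (nsq (hom i z) : ℂ) ≠ 0 := Complex.ofReal_ne_zero.2 hN.ne'
  have sm {f : V (n + 1) → ℝ} (hf : ContDiffOn ℝ ∞ f (nz _)) : ContDiffAt ℝ ∞ f (hom i z) :=
    hf.contDiffAt (isOpen_ne.mem_nhds hz)
  have hl : ContDiffAt ℝ ∞ (fun w => Real.log (nsq w)) (hom i z) :=
    hW.nsq_smooth.contDiffAt.log hN.ne'
  have hK : hess (fun w => Real.log (nsq w)) (hom i z) = (nsq (hom i z) : ℂ)⁻¹ •
      (1 - (nsq (hom i z) : ℂ)⁻¹ • vecMulVec (star (hom i z)) (hom i z)) := by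
    rw [← hW.hess_log_nsq hz, inv_smul_smul₀ hN']
  have k1 : hess (fun w => Real.log (nsq w)) (hom i z) *ᵥ star (hom i z) = 0 := by
    rw [hK, smul_mulVec, sub_mulVec, one_mulVec, smul_mulVec, vecMulVec_mulVec, ← hW.nsq_eq,
      op_smul_eq_smul, inv_smul_smul₀ hN', sub_self, smul_zero]
  have k2 : hom i z ᵥ* hess (fun w => Real.log (nsq w)) (hom i z) = 0 := by
    rw [hK, vecMul_smul, vecMul_sub, vecMul_one, vecMul_smul, vecMul_vecMulVec, ← hW.nsq_eq,
      inv_smul_smul₀ hN', sub_self, smul_zero]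
  have hg : gch φ i z = (hess (fun w => Real.log (nsq w)) (hom i z) + hess φ (hom i z)).submatrix
      i.succAbove i.succAbove := by
    have := hW.hess_lin 1 1 0 hl (sm hφ)
    simp only [one_mul, add_zero, Complex.ofReal_one, one_smul] at this
    rw [← this, ← hW.hess_hom i (hl.add (sm hφ)), gch]
    simp [nsq, Fin.sum_univ_succAbove _ i, hom]
  have r1 {K : Matrix (Fin (n + 1)) (Fin (n + 1)) ℂ} (h : K *ᵥ star (hom i z) = 0) :
      K.submatrix e e *ᵥ star (hom i z ∘ e) = 0 := by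
    rw [submatrix_mulVec_equiv, show star (hom i z ∘ e) ∘ e.symm = star (hom i z) by ext; simp, h]
    rfl
  have r2 {K : Matrix (Fin (n + 1)) (Fin (n + 1)) ℂ} (h : hom i z ᵥ* K = 0) :
      (hom i z ∘ e) ᵥ* K.submatrix e e = 0 := by
    rw [submatrix_vecMul_equiv, show (hom i z ∘ e) ∘ e.symm = hom i z by ext; simp, h]
    rfl
  have p1 := hW.hess_mulVec_star hφ h0 hz
  obtain ⟨c1, c2, c3⟩ := core (Z := hom i z ∘ e) (by simp [e, hom]) hN
    ((hW.nsq_eq _).trans (comp_equiv_dotProduct_comp_equiv _ _ e).symm)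
    (L := (hess (fun w => Real.log (nsq w)) (hom i z) + hess φ (hom i z)).submatrix e e)
    (M := (cM φ (hom i z)).submatrix e e) (r1 (by rw [add_mulVec, k1, p1, add_zero]))
    (r2 (by rw [vecMul_add, k2, hW.vecMul_hess hφ h0 hz, add_zero])) (by
      have : cM φ (hom i z) = (nsq (hom i z) : ℂ) • (hess (fun w => Real.log (nsq w)) (hom i z) +
          hess φ (hom i z)) + (nsq (hom i z) : ℂ)⁻¹ • vecMulVec (star (hom i z)) (hom i z) := by
        rw [smul_add, hW.hess_log_nsq hz, cM]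
        abel
      rw [this]
      rfl)
  rw [he, ← hg] at c1 c2 c3
  rw [det_submatrix_equiv_self, Fintype.card_fin] at c2
  have c1' : (gch φ i z).PosDef ↔ (cM φ (hom i z)).PosDef := c1.trans
    ⟨fun h => by simpa using h.submatrix e.symm.injective, fun h => h.submatrix e.injective⟩
  refine ⟨c1', c2, fun hp => ?_⟩
  have c4 (K : Matrix (Fin (n + 1)) (Fin (n + 1)) ℂ) (h1 : K *ᵥ star (hom i z) = 0)
      (h2 : hom i z ᵥ* K = 0) : ((gch φ i z)⁻¹ * K.submatrix i.succAbove i.succAbove).trace =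
        nsq (hom i z) * ((cM φ (hom i z))⁻¹ * K).trace := by
    rw [← he, c3 ((isUnit_iff_isUnit_det _).1 hp.isUnit) _ (r1 h1) (r2 h2), inv_submatrix_equiv,
      submatrix_mul_equiv]
    exact congrArg _ (e.sum_comp fun j => ((cM φ (hom i z))⁻¹ * K) j j)
  refine ⟨fun h hh hh0 => ?_, ?_⟩
  · rw [hW.hess_hom i (sm hh), c4 _ (hW.hess_mulVec_star hh hh0 hz) (hW.vecMul_hess hh hh0 hz),
      Complex.re_ofReal_mul, lap]
  · have hu := (isUnit_iff_isUnit_det _).1 (c1'.1 hp).isUnit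
    have m1 : cM φ (hom i z) *ᵥ star (hom i z) = star (hom i z) := by
      rw [cM, add_mulVec, one_mulVec, smul_mulVec, p1, smul_zero, add_zero]
    have m2 : (cM φ (hom i z))⁻¹ *ᵥ star (hom i z) = star (hom i z) := by
      conv_lhs => rw [← m1, mulVec_mulVec, nonsing_inv_mul _ hu, one_mulVec]
    rw [hW.hess_hom i hl, c4 _ k1 k2, hK, Matrix.mul_smul, trace_smul, smul_eq_mul,
      mul_inv_cancel_left₀ hN', Matrix.mul_sub, Matrix.mul_one, Matrix.mul_smul, mul_vecMulVec, m2,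
      trace_sub, trace_smul, trace_vecMulVec, dotProduct_comm, ← hW.nsq_eq, smul_eq_mul,
      inv_mul_cancel₀ hN', Complex.sub_re, Complex.one_re]

end Vale.Agent.P264
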