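import Vale.Agent.P264.StmU

/-! Strict concavity of the logarithm of the determinant. -/

namespace Vale.Agent.P264

open scoped ComplexOrder Matrix MatrixOrder Matrix.Norms.L2Operator
open Finset

namespace Mat

variable {m : ℕ}

theorem simul {A B : Matrix (Fin m) (Fin m) ℂ} (hA : A.PosDef) (hB : B.PosDef) :
    ∃ (Q : Matrix (Fin m) (Fin m) ℂ) (μ : Fin m → ℝ), IsUnit Q ∧ (∀ i, 0 < μ i) ∧ A = Q * star Q ∧
      B = Q * Matrix.diagonal (fun i => (μ i : ℂ)) * star Q := by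
  obtain ⟨P, hP⟩ := CStarAlgebra.nonneg_iff_eq_mul_star_self.1 hA.posSemidef.nonneg
  obtain ⟨P, rfl⟩ : IsUnit P := isUnit_of_mul_isUnit_left (hP ▸ hA.isUnit)
  have hC := (Matrix.IsUnit.posDef_star_right_conjugate_iff (x := B) (P⁻¹).isUnit).2 hB
  refine ⟨P * hC.1.eigenvectorUnitary, hC.1.eigenvalues,
    P.isUnit.mul (Unitary.toUnits hC.1.eigenvectorUnitary).isUnit, hC.eigenvalues_pos, ?_, ?_⟩
  · rw [star_mul, mul_assoc, ← mul_assoc _ _ (star (P : Matrix (Fin m) (Fin m) ℂ)),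
      Unitary.mul_star_self_of_mem hC.1.eigenvectorUnitary.2, one_mul, hP]
  · have e := hC.1.spectral_theorem
    rw [Unitary.conjStarAlgAut_apply] at e
    have e1 : B = P.1 * (P⁻¹.1 * B * star P⁻¹.1) * star P.1 := by
      simp only [mul_assoc, ← star_mul, Units.mul_inv, star_one, mul_one, Units.mul_inv_cancel_left]
    refine (e1.trans (congrArg (fun X => P.1 * X * star P.1) e)).trans ?_
    simp only [star_mul, mul_assoc, Function.comp_def, Complex.coe_algebraMap]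

theorem scalar {x K : ℝ} (hx : 0 < x) (hK : x ≤ K) :
    (x - 1) ^ 2 ≤ 2 * (K + 1) * (x - 1 - Real.log x) := by
  obtain ⟨y, hy, rfl⟩ : ∃ y, 0 < y ∧ x = y ^ 2 :=
    ⟨√x, Real.sqrt_pos.2 hx, (Real.sq_sqrt hx.le).symm⟩
  have h1 := Real.log_le_sub_one_of_pos hy
  rw [Real.log_pow]
  calc (y ^ 2 - 1) ^ 2 = (y + 1) ^ 2 * (y - 1) ^ 2 := by ring
    _ ≤ _ := mul_le_mul (by nlinarith [sq_nonneg (y - 1)]) (by push_cast; nlinarith) (sq_nonneg _)
      (by nlinarith)

end Mat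

open Mat

theorem mat : MatStmt := by
  intro m C
  refine ⟨1 / ((m ^ 3 * C ^ 2 + 1) * (2 * (m ^ 2 * C ^ 2 + 1))), by positivity,
    fun A B hA hB h => ?_⟩
  obtain ⟨Q, μ, hQ, hμ, e1, e2⟩ := simul hA hB
  have hQ' := (Matrix.isUnit_iff_isUnit_det _).1 hQ
  have t1 : (A⁻¹ * B).trace = ((∑ i, μ i : ℝ) : ℂ) := by
    rw [e1, e2, Matrix.mul_inv_rev, mul_assoc, mul_assoc Q, Matrix.nonsing_inv_mul_cancel_left _ _ hQ',
      ← mul_assoc, Matrix.trace_mul_cycle, Matrix.mul_nonsing_inv _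
        ((Matrix.isUnit_iff_isUnit_det _).1 hQ.star), one_mul, Matrix.trace_diagonal,
      Complex.ofReal_sum]
  have t2 : B.det = ((∏ i, μ i : ℝ) : ℂ) * A.det := by
    rw [e1, e2]
    simp only [Matrix.det_mul, Matrix.det_diagonal, Complex.ofReal_prod]
    ring
  have t3 : ∑ i, μ i ≤ m ^ 2 * C ^ 2 := by
    rw [← Complex.ofReal_re (∑ i, μ i), ← t1]
    refine (Complex.re_le_norm _).trans ((norm_sum_le_of_le univ (n := fun _ => m * C ^ 2)
      fun j _ => (norm_sum_le_of_le univ (n := fun _ => C ^ 2) fun k _ => (norm_mul_le_of_le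
        (h j k).2.2.1 (h k j).2.1).trans_eq (sq C).symm).trans_eq (by simp)).trans_eq ?_)
    simp
    ring
  have t4 : ∀ j i, ‖Q j i‖ ^ 2 ≤ C := fun j i => by
    have e : A j j = ((∑ i, ‖Q j i‖ ^ 2 : ℝ) : ℂ) := by
      simp [e1, Matrix.mul_apply, Complex.mul_conj']
    refine (single_le_sum (f := fun i => ‖Q j i‖ ^ 2) (fun _ _ => sq_nonneg _) (mem_univ i)).trans ?_
    rw [← Complex.ofReal_re (∑ i, _), ← e]
    exact (Complex.re_le_norm _).trans (h j j).1
  have t5 : ∀ j k, ‖(B - A) j k‖ ^ 2 ≤ m * C ^ 2 * ∑ i, (μ i - 1) ^ 2 := fun j k => by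
    have e : (B - A) j k = ∑ i, Q j i * star (Q k i) * ((μ i - 1 : ℝ) : ℂ) := by
      rw [e1, e2]
      simp only [Matrix.sub_apply, Matrix.mul_apply (N := star Q), Matrix.mul_diagonal,
        Matrix.star_apply, ← sum_sub_distrib]
      exact sum_congr rfl fun i _ => by push_cast; ring
    have e3 : ‖(B - A) j k‖ ≤ ∑ i, C * |μ i - 1| := by
      rw [e]
      refine norm_sum_le_of_le _ fun i _ => norm_mul_le_of_le ?_
        ((Complex.norm_real _).trans_le (Real.norm_eq_abs _).le)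
      rw [norm_mul, norm_star]
      nlinarith [t4 j i, t4 k i, sq_nonneg (‖Q j i‖ - ‖Q k i‖)]
    refine (pow_le_pow_left₀ (norm_nonneg _) e3 2).trans ((sum_mul_sq_le_sq_mul_sq _ _ _).trans_eq ?_)
    simp
  have t6 : ∑ i, (μ i - 1) ^ 2 ≤ 2 * (m ^ 2 * C ^ 2 + 1) * ∑ i, (μ i - 1 - Real.log (μ i)) := by
    rw [mul_sum]
    exact sum_le_sum fun i _ => scalar (hμ i)
      ((single_le_sum (fun i _ => (hμ i).le) (mem_univ i)).trans t3)
  have t7 : ∑ j, ∑ k, ‖(B - A) j k‖ ^ 2 ≤ (m ^ 3 * C ^ 2 + 1) * ∑ i, (μ i - 1) ^ 2 := by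
    refine (sum_le_sum fun j _ => sum_le_sum fun k _ => t5 j k).trans ?_
    have := sum_nonneg fun i (_ : i ∈ univ) => sq_nonneg (μ i - 1)
    simp only [sum_const, card_univ, Fintype.card_fin, nsmul_eq_mul]
    linarith
  rw [t1, t2, Complex.ofReal_re, Complex.re_ofReal_mul, Real.log_mul
    (prod_pos fun i _ => hμ i).ne' (Complex.pos_iff.1 hA.det_pos).1.ne',
    Real.log_prod fun i _ => (hμ i).ne', one_div, inv_mul_le_iff₀ (by positivity)]
  refine (t7.trans (mul_le_mul_of_nonneg_left t6 (by positivity))).trans_eq ?_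
  simp only [sum_sub_distrib, sum_const, card_univ, Fintype.card_fin, nsmul_eq_mul]
  ring

end Vale.Agent.P264
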