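import Vale.Agent.P264.RadA

/-! Cone matrices of radial potentials. -/

namespace Vale.Agent.P264

open scoped ContDiff ComplexOrder Matrix Topology
open Set Filter

namespace Rad

variable {n : ℕ}

/-- indicator of the first coordinate -/
noncomputable def ee (j : Fin (n + 1)) : ℂ := if j = 0 then 1 else 0

/-- the conjugate of the vector `c` -/
noncomputable def cb (Z : V (n + 1)) (k : Fin (n + 1)) : ℂ := (1 - (rho Z : ℂ)) * Z k - ee k * Z 0

lemma star_ee (j : Fin (n + 1)) : star (ee j) = ee j := by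
  unfold ee
  split_ifs <;> simp

lemma star_cb (Z : V (n + 1)) (k : Fin (n + 1)) :
    star (cb Z k) = (1 - (rho Z : ℂ)) * star (Z k) - ee k * star (Z 0) := by
  simp only [cb, star_sub, star_mul', star_ee, star_one, Complex.star_def, Complex.conj_ofReal]

lemma nz_nhds {m : ℕ} {Z : V m} (hZ : Z ≠ 0) : ∀ᶠ W in 𝓝 Z, W ≠ 0 := eventually_ne_nhds hZ

lemma rho_cast (W : V (n + 1)) : (rho W : ℂ) = 1 - W 0 * star (W 0) * (nsq W : ℂ)⁻¹ := by
  rw [rho, Complex.star_def, Complex.mul_conj, Complex.normSq_eq_norm_sq]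
  push_cast
  ring

lemma N_ne (hW : WirtStmt) {m : ℕ} {Z : V m} (hZ : Z ≠ 0) : (nsq Z : ℂ) ≠ 0 := by
  exact_mod_cast (hW.nsq_pos hZ).ne'

lemma z0_sq (hW : WirtStmt) {Z : V (n + 1)} (hZ : Z ≠ 0) :
    star (Z 0) * Z 0 = nsq Z * (1 - (rho Z : ℂ)) := by
  have := N_ne hW hZ
  rw [rho_cast]
  field_simp
  ring

lemma rho_at (hR : RhoStmt) {Z : V (n + 1)} (hZ : Z ≠ 0) : ContDiffAt ℝ ∞ rho Z :=
  hR.smooth.contDiffAt (nz_nhds hZ)

lemma rho_diff (hR : RhoStmt) {Z : V (n + 1)} (hZ : Z ≠ 0) : DifferentiableAt ℝ rho Z :=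
  (rho_at hR hZ).differentiableAt (by simp)

lemma cast_diff {m : ℕ} {f : V m → ℝ} {Z : V m} (h : DifferentiableAt ℝ f Z) :
    DifferentiableAt ℝ (fun W => (f W : ℂ)) Z :=
  Complex.ofRealCLM.differentiableAt.comp Z h

lemma inv_has (hW : WirtStmt) {m : ℕ} {Z : V m} (hZ : Z ≠ 0) :
    HasFDerivAt (fun W => (nsq W)⁻¹) ((-(nsq Z ^ 2)⁻¹) • fderiv ℝ nsq Z) Z :=
  (hasDerivAt_inv (hW.nsq_pos hZ).ne').comp_hasFDerivAt Z
    (hW.nsq_smooth.differentiable (by simp) Z).hasFDerivAt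

lemma inv_diff (hW : WirtStmt) {m : ℕ} {Z : V m} (hZ : Z ≠ 0) :
    DifferentiableAt ℝ (fun W => (nsq W : ℂ)⁻¹) Z := by
  simpa using cast_diff (inv_has hW hZ).differentiableAt

lemma dz_inv (hW : WirtStmt) {m : ℕ} {Z : V m} (hZ : Z ≠ 0) (j : Fin m) :
    dz j (fun W => (nsq W : ℂ)⁻¹) Z = -((nsq Z : ℂ) ^ 2)⁻¹ * star (Z j) := by
  have h := hW.dz_comp j (hW.nsq_smooth.differentiable (by simp) Z) (inv_has hW hZ)
  rw [hW.dz_nsq] at h
  simpa using h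

lemma dzb_inv (hW : WirtStmt) {m : ℕ} {Z : V m} (hZ : Z ≠ 0) (j : Fin m) :
    dzb j (fun W => (nsq W : ℂ)⁻¹) Z = -((nsq Z : ℂ) ^ 2)⁻¹ * Z j := by
  have h := hW.dzb_comp j (hW.nsq_smooth.differentiable (by simp) Z) (inv_has hW hZ)
  rw [hW.dzb_nsq] at h
  simpa using h

lemma coord_diff {m : ℕ} (k : Fin m) (Z : V m) : DifferentiableAt ℝ (fun W : V m => W k) Z := by
  fun_prop

lemma coord_star_diff {m : ℕ} (k : Fin m) (Z : V m) :
    DifferentiableAt ℝ (fun W : V m => star (W k)) Z :=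
  Complex.conjCLE.differentiableAt.comp Z (coord_diff k Z)

lemma dzb_rho (hW : WirtStmt) {Z : V (n + 1)} (hZ : Z ≠ 0) (k : Fin (n + 1)) :
    dzb k (fun W => (rho W : ℂ)) Z = cb Z k * (nsq Z : ℂ)⁻¹ := by
  have e : (fun W : V (n + 1) => (rho W : ℂ)) =
      fun W => 1 + (-1) * (W 0 * star (W 0) * (nsq W : ℂ)⁻¹) := by
    funext W
    rw [rho_cast]
    ring
  have d1 := (coord_diff 0 Z).fun_mul (coord_star_diff 0 Z)
  have d2 := d1.fun_mul (inv_diff hW hZ)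
  rw [e, hW.dzb_add k (differentiableAt_const _) ((differentiableAt_const _).fun_mul d2),
    hW.dzb_mul k (differentiableAt_const _) d2, hW.dzb_mul k d1 (inv_diff hW hZ),
    hW.dzb_mul k (coord_diff 0 Z) (coord_star_diff 0 Z), hW.dzb_const, hW.dzb_const,
    hW.dzb_coord, hW.dzb_coord_conj, dzb_inv hW hZ, cb, rho_cast, ee]
  have := N_ne hW hZ
  field_simp
  ring

lemma dz_rho (hW : WirtStmt) {Z : V (n + 1)} (hZ : Z ≠ 0) (j : Fin (n + 1)) :
    dz j (fun W => (rho W : ℂ)) Z = star (cb Z j) * (nsq Z : ℂ)⁻¹ := by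
  have h := hW.dz_star j (fun W => (rho W : ℂ)) Z
  rw [dzb_rho hW hZ] at h
  simpa using h

lemma cb_diff (hR : RhoStmt) {Z : V (n + 1)} (hZ : Z ≠ 0) (k : Fin (n + 1)) :
    DifferentiableAt ℝ (fun W => cb W k) Z :=
  (((differentiableAt_const _).sub (cast_diff (rho_diff hR hZ))).mul (coord_diff k Z)).sub
    ((differentiableAt_const _).mul (coord_diff 0 Z))

lemma dz_cb (hW : WirtStmt) (hR : RhoStmt) {Z : V (n + 1)} (hZ : Z ≠ 0) (j k : Fin (n + 1)) :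
    dz j (fun W => cb W k) Z = (1 - (rho Z : ℂ)) * (1 : Mt (n + 1)) j k - ee j * ee k -
      star (cb Z j) * Z k * (nsq Z : ℂ)⁻¹ := by
  have e : (fun W : V (n + 1) => cb W k) =
      fun W => (1 + (-1) * (rho W : ℂ)) * W k + (-ee k) * W 0 := by
    funext W
    rw [cb]
    ring
  have d0 := cast_diff (rho_diff hR hZ)
  have d1 : DifferentiableAt ℝ (fun W : V (n + 1) => (-1) * (rho W : ℂ)) Z :=
    (differentiableAt_const _).mul d0
  have d2 : DifferentiableAt ℝ (fun W : V (n + 1) => 1 + (-1) * (rho W : ℂ)) Z :=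
    (differentiableAt_const _).add d1
  rw [e, hW.dz_add j (d2.fun_mul (coord_diff k Z))
      ((differentiableAt_const _).fun_mul (coord_diff 0 Z)),
    hW.dz_mul j d2 (coord_diff k Z), hW.dz_add j (differentiableAt_const _) d1,
    hW.dz_mul j (differentiableAt_const _) d0,
    hW.dz_mul j (differentiableAt_const _) (coord_diff 0 Z), hW.dz_const, hW.dz_const,
    hW.dz_const, hW.dz_coord, hW.dz_coord, dz_rho hW hZ, Matrix.one_apply, ee, ee]
  ring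

/-- the Hessian of a radial function -/
lemma hess_rad (hW : WirtStmt) (hR : RhoStmt) {S : Set ℝ} {F F₁ F₂ : ℝ → ℝ} (hF : Jet2 S F F₁ F₂)
    {Z : V (n + 1)} (hZ : Z ≠ 0) (hS : ∀ᶠ W in 𝓝 Z, rho W ∈ S) (j k : Fin (n + 1)) :
    hess (fun W => F (rho W)) Z j k =
      F₂ (rho Z) * (star (cb Z j) * (nsq Z : ℂ)⁻¹) * (cb Z k * (nsq Z : ℂ)⁻¹) +
      F₁ (rho Z) * (((1 - (rho Z : ℂ)) * (1 : Mt (n + 1)) j k - ee j * ee k -
        star (cb Z j) * Z k * (nsq Z : ℂ)⁻¹) * (nsq Z : ℂ)⁻¹ +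
        cb Z k * (-((nsq Z : ℂ) ^ 2)⁻¹ * star (Z j))) := by
  have h1 : dzb k (fun W => (F (rho W) : ℂ)) =ᶠ[𝓝 Z]
      fun W => (F₁ (rho W) : ℂ) * (cb W k * (nsq W : ℂ)⁻¹) := by
    filter_upwards [nz_nhds hZ, hS.eventually_nhds] with W hW0 hWS
    have h2 := (hF _ hWS.self_of_nhds).1.comp_hasFDerivAt W (rho_diff hR hW0).hasFDerivAt hWS
    have h6 := hW.dzb_comp k (rho_diff hR hW0) h2
    simp only [Function.comp] at h6
    rw [h6, dzb_rho hW hW0]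
  have h3 := (hF _ hS.self_of_nhds).2.comp_hasFDerivAt Z (rho_diff hR hZ).hasFDerivAt hS
  have h4 : DifferentiableAt ℝ (fun W => (F₁ (rho W) : ℂ)) Z := cast_diff h3.differentiableAt
  have h5 := hW.dz_comp j (rho_diff hR hZ) h3
  simp only [Function.comp] at h5
  rw [hess, Matrix.of_apply, hW.dz_congr j h1,
    hW.dz_mul j h4 ((cb_diff hR hZ k).fun_mul (inv_diff hW hZ)),
    hW.dz_mul j (cb_diff hR hZ k) (inv_diff hW hZ), h5, dz_rho hW hZ, dz_cb hW hR hZ, dz_inv hW hZ]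

/-- the vector `c` -/
noncomputable def cc (Z : V (n + 1)) : V (n + 1) := star (cb Z)

lemma sum_ee (f : Fin (n + 1) → ℂ) : ∑ k, ee k * f k = f 0 := by
  simp [ee]

lemma dot_aa (hW : WirtStmt) {m : ℕ} (Z : V m) : star (star Z) ⬝ᵥ star Z = nsq Z := by
  rw [star_star, hW.nsq_eq]

lemma dot_ac (hW : WirtStmt) {Z : V (n + 1)} (hZ : Z ≠ 0) : star (star Z) ⬝ᵥ cc Z = 0 := by
  have h1 := hW.nsq_eq Z
  have h2 := z0_sq hW hZ
  have h3 := sum_ee (fun k => Z k * star (Z 0))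
  have e : star (star Z) ⬝ᵥ cc Z =
      (1 - (rho Z : ℂ)) * (Z ⬝ᵥ star Z) - ∑ k, ee k * (Z k * star (Z 0)) := by
    rw [star_star, dotProduct, dotProduct, Finset.mul_sum, ← Finset.sum_sub_distrib]
    refine Finset.sum_congr rfl fun k _ => ?_
    rw [cc, Pi.star_apply, star_cb, Pi.star_apply]
    ring
  rw [e, h3, ← h1]
  linear_combination -h2

lemma dot_cc (hW : WirtStmt) {Z : V (n + 1)} (hZ : Z ≠ 0) :
    star (cc Z) ⬝ᵥ cc Z = nsq Z * rho Z * (1 - (rho Z : ℂ)) := by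
  have h1 := dot_ac hW hZ
  have h2 := z0_sq hW hZ
  have h3 := sum_ee (fun k => Z 0 * cc Z k)
  have e : star (cc Z) ⬝ᵥ cc Z =
      (1 - (rho Z : ℂ)) * (star (star Z) ⬝ᵥ cc Z) - ∑ k, ee k * (Z 0 * cc Z k) := by
    rw [star_star, dotProduct, dotProduct, Finset.mul_sum, ← Finset.sum_sub_distrib]
    refine Finset.sum_congr rfl fun k _ => ?_
    rw [Pi.star_apply, cc, Pi.star_apply, star_star, cb]
    ring
  rw [e, h3, h1, cc, Pi.star_apply, star_cb, ee, if_pos rfl]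
  linear_combination (rho Z : ℂ) * h2

lemma entry {N r F1 F2 aj zk cj ck ej ek a0 z0 d : ℂ} (hN : N ≠ 0) (hr1 : 1 - r ≠ 0)
    (h0 : a0 * z0 = N * (1 - r)) (hcj : cj = (1 - r) * aj - ej * a0)
    (hck : ck = (1 - r) * zk - ek * z0) :
    d + N * (F2 * (cj * N⁻¹) * (ck * N⁻¹) +
      F1 * (((1 - r) * d - ej * ek - cj * zk * N⁻¹) * N⁻¹ + ck * (-(N ^ 2)⁻¹ * aj))) =
    (1 + (1 - r) * F1) * (d - N⁻¹ * (aj * zk)) + N⁻¹ * (aj * zk) +
      (F2 * N⁻¹ - F1 * (N * (1 - r))⁻¹) * (cj * ck) := by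
  have e : ej * ek = ((1 - r) * aj - cj) * ((1 - r) * zk - ck) / (N * (1 - r)) := by
    rw [eq_div_iff (mul_ne_zero hN hr1), hcj, hck, ← h0]
    ring
  rw [e]
  field_simp
  ring

lemma cM_eq (hW : WirtStmt) (hR : RhoStmt) {S : Set ℝ} {F F₁ F₂ : ℝ → ℝ} (hF : Jet2 S F F₁ F₂)
    {Z : V (n + 1)} (hZ : Z ≠ 0) (hS : ∀ᶠ W in 𝓝 Z, rho W ∈ S) (h1 : rho Z ≠ 1) :
    cM (fun W => F (rho W)) Z = DD (RR (star Z)) (RR (cc Z)) (rp (rho Z) (F₁ (rho Z)) : ℝ) 1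
      (rq (rho Z) (F₁ (rho Z)) (F₂ (rho Z)) : ℝ) := by
  have hN := N_ne hW hZ
  have hr1 : 1 - (rho Z : ℂ) ≠ 0 := by
    rw [sub_ne_zero]
    exact_mod_cast h1.symm
  ext j k
  rw [cM, Matrix.add_apply, Matrix.smul_apply, hess_rad hW hR hF hZ hS, smul_eq_mul,
    entry (ck := cb Z k) (zk := Z k) (ek := ee k) hN hr1 (z0_sq hW hZ) (star_cb Z j) rfl]
  simp only [DD, RR, Matrix.add_apply, Matrix.sub_apply, Matrix.smul_apply, smul_eq_mul,
    Matrix.vecMulVec_apply, dot_aa hW, dot_cc hW hZ, rp, rq]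
  simp only [cc, star_star, Pi.star_apply]
  push_cast
  rcases eq_or_ne (rho Z : ℂ) 0 with h0 | h0
  · have h2 : cc Z = 0 := by
      rw [← dotProduct_star_self_eq_zero, dot_cc hW hZ, h0]
      simp
    have h3 : star (cb Z j) = 0 := congrFun h2 j
    rw [h3]
    ring
  · field_simp
    ring

lemma proj_e0 : Proj (0 : Mt (n + 1)) (Matrix.of fun j k => ee j * ee k) := by
  refine ⟨by simp, ?_, by simp, by simp, by simp, ?_⟩
  · ext j k
    simp [Matrix.mul_apply, ee]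
  · ext j k
    rw [Matrix.conjTranspose_apply, Matrix.of_apply, Matrix.of_apply, star_mul, star_ee, star_ee]

lemma cM_one (hW : WirtStmt) (hR : RhoStmt) {S : Set ℝ} {F F₁ F₂ : ℝ → ℝ} (hF : Jet2 S F F₁ F₂)
    {Z : V (n + 1)} (hZ : Z ≠ 0) (hS : ∀ᶠ W in 𝓝 Z, rho W ∈ S) (h1 : rho Z = 1) :
    cM (fun W => F (rho W)) Z = DD 0 (Matrix.of fun j k => ee j * ee k) (1 : ℝ) (1 : ℝ)
      (rq (rho Z) (F₁ (rho Z)) (F₂ (rho Z)) : ℝ) := by
  have hN := N_ne hW hZ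
  have h2 : cc Z = 0 := by
    rw [← dotProduct_star_self_eq_zero, dot_cc hW hZ, h1]
    simp
  have h3 : ∀ j, cb Z j = 0 := fun j => star_eq_zero.1 (congrFun h2 j)
  ext j k
  rw [cM, Matrix.add_apply, Matrix.smul_apply, hess_rad hW hR hF hZ hS, smul_eq_mul]
  simp only [DD, Matrix.add_apply, Matrix.sub_apply, Matrix.smul_apply, smul_eq_mul,
    Matrix.of_apply, Matrix.zero_apply, h3, h1, rq, star_zero]
  push_cast
  field_simp
  ring

lemma ioo_nhds (hR : RhoStmt) {Z : V (n + 1)} (hZ : Z ≠ 0) (h : rho Z ∈ Ioo (0 : ℝ) 1) :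
    ∀ᶠ W in 𝓝 Z, rho W ∈ Ioo (0 : ℝ) 1 :=
  (rho_diff hR hZ).continuousAt.eventually (isOpen_Ioo.mem_nhds h)

lemma cc_ne (hW : WirtStmt) {Z : V (n + 1)} (hZ : Z ≠ 0) (h : rho Z ∈ Ioo (0 : ℝ) 1) :
    star (cc Z) ⬝ᵥ cc Z ≠ 0 := by
  rw [dot_cc hW hZ]
  refine mul_ne_zero (mul_ne_zero (N_ne hW hZ) (by exact_mod_cast h.1.ne')) ?_
  rw [sub_ne_zero]
  exact_mod_cast h.2.ne'

lemma aa_ne (hW : WirtStmt) {m : ℕ} {Z : V m} (hZ : Z ≠ 0) : star (star Z) ⬝ᵥ star Z ≠ 0 := by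
  rw [dot_aa hW]
  exact N_ne hW hZ

end Rad

open Rad in
theorem rad (hW : WirtStmt) (hR : RhoStmt) : RadStmt := by
  refine ⟨fun n _ F F₁ F₂ hF Z hZ hp hq => ?_, fun n hn F F₁ F₂ hF Z hZ hr hp => ?_,
    fun n _ F F₁ F₂ u u₁ u₂ hF hu Z hZ hr hp hq => ?_, fun n hn F F₁ F₂ hF r hr => ?_⟩
  · have hS : ∀ᶠ W in 𝓝 Z, rho W ∈ Icc (0 : ℝ) 1 := (nz_nhds hZ).mono fun W hW0 => hR.mem hW0
    rcases eq_or_ne (rho Z) 1 with h1 | h1
    · rw [cM_one hW hR hF hZ hS h1]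
      exact DD_posDef proj_e0 one_pos one_pos hq
    · rw [cM_eq hW hR hF hZ hS h1]
      exact DD_posDef (y := 1) (RR_proj (dot_ac hW hZ)) hp one_pos hq
  · rw [cM_eq hW hR hF hZ (ioo_nhds hR hZ hr) hr.2.ne,
      DD_det hn (dot_ac hW hZ) (aa_ne hW hZ) (cc_ne hW hZ hr) (by exact_mod_cast hp)]
    push_cast
    rfl
  · have hP := RR_proj (dot_ac hW hZ)
    have tA := RR_trace (aa_ne hW hZ)
    have tB := RR_trace (cc_ne hW hZ hr)
    have hinv := DD_inv hP (x := (rp (rho Z) (F₁ (rho Z)) : ℝ)) (y := 1)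
      (z := (rq (rho Z) (F₁ (rho Z)) (F₂ (rho Z)) : ℝ)) (by exact_mod_cast hp) one_ne_zero
      (by exact_mod_cast hq)
    rw [← cM_eq hW hR hF hZ (ioo_nhds hR hZ hr) hr.2.ne] at hinv
    constructor
    · rw [hinv, DD_trace tA tB, ← Complex.ofReal_re (1 + _ + _)]
      congr 1
      push_cast
      ring
    · have e1 : (nsq Z : ℂ) • hess (fun W => u (rho W)) Z =
          cM (fun W => u (rho W)) Z - 1 := by rw [cM, add_sub_cancel_left]
      rw [cM_eq hW hR hu hZ (ioo_nhds hR hZ hr) hr.2.ne,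
        ← DD_one (RR (star Z)) (RR (cc Z)), DD_sub] at e1
      rw [lap, ← Complex.re_ofReal_mul, ← smul_eq_mul, ← Matrix.trace_smul, ← mul_smul_comm, e1,
        hinv, DD_mul hP, DD_trace tA tB, ← Complex.ofReal_re (_ + _)]
      congr 1
      push_cast
      ring
  · have hn1 : 1 ≤ n := by omega
    have hr' : r ∈ Icc (0 : ℝ) 1 := Ioo_subset_Icc_self hr
    have hZ := hR.pt_ne hn1 r hr'
    have hrho := hR.rho_pt hn1 r hr'
    have hr2 : rho (pt n r) ∈ Ioo (0 : ℝ) 1 := by rwa [hrho]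
    have hP := RR_proj (dot_ac hW hZ)
    have tA := RR_trace (aa_ne hW hZ)
    have tB := RR_trace (cc_ne hW hZ hr2)
    rw [cM_eq hW hR hF hZ (ioo_nhds hR hZ hr2) hr2.2.ne, hrho]
    constructor
    · refine eig_of_mul (P := DD (RR (star (pt n r))) (RR (cc (pt n r))) 1 0 0) ?_ ?_
      · rw [DD_trace tA tB]
        have h2 : ((n + 1 : ℕ) : ℂ) ≠ (2 : ℕ) := by
          rw [Ne, Nat.cast_inj]
          omega
        simpa [sub_eq_zero] using h2
      · rw [DD_mul hP]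
        simp only [DD]
        module
    · refine eig_of_mul (P := DD (RR (star (pt n r))) (RR (cc (pt n r))) 0 0 1) ?_ ?_
      · rw [DD_trace tA tB]
        simp
      · rw [DD_mul hP]
        simp only [DD]
        module

end Vale.Agent.P264
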