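import Vale.Agent.P264.StmU

/-!
Bounded derivatives of the radial profile up to both ends.
-/

namespace Vale.Agent.P264

open scoped ContDiff Topology
open Set

namespace RadBd

/-- the open unit disc -/
def O : Set (ℝ × ℝ) := {q | q.1 ^ 2 + q.2 ^ 2 < 1}

theorem isOpen_O : IsOpen O := isOpen_lt (by fun_prop) continuous_const

theorem ev_O {b y : ℝ} (h : (b, y) ∈ O) : ∀ᶠ y' in 𝓝 y, (b, y') ∈ O :=
  (show Continuous fun y' : ℝ => (b, y') by fun_prop).continuousAt.eventually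
    (isOpen_O.mem_nhds h)

/-- derivatives in the last variable are jointly smooth -/
theorem jet (m : ℕ) {H : ℝ × ℝ × ℝ → ℝ} (hH : ContDiffOn ℝ ∞ H (Ici 0 ×ˢ O)) :
    ∃ K : ℝ × ℝ × ℝ → ℝ, ContDiffOn ℝ ∞ K (Ici 0 ×ˢ O) ∧ ∀ t, 0 ≤ t → ∀ b y, (b, y) ∈ O →
      iteratedDeriv m (fun y => H (t, b, y)) y = K (t, b, y) := by
  induction m with
  | zero => exact ⟨H, hH, fun _ _ _ _ _ => rfl⟩
  | succ m ih =>
    obtain ⟨K, hK, e⟩ := ih
    have hu : UniqueDiffOn ℝ (Ici (0 : ℝ) ×ˢ O) := (uniqueDiffOn_Ici 0).prod isOpen_O.uniqueDiffOn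
    refine ⟨fun p => fderivWithin ℝ K (Ici 0 ×ˢ O) p (0, 0, 1),
      (hK.fderivWithin hu (by simp)).clm_apply contDiffOn_const, fun t ht b y hy => ?_⟩
    have e1 : iteratedDeriv m (fun y => H (t, b, y)) =ᶠ[𝓝 y] fun y => K (t, b, y) :=
      (ev_O hy).mono fun y' hy' => e t ht b y' hy'
    rw [iteratedDeriv_succ, e1.deriv_eq]
    have hm : ((t, b, y) : ℝ × ℝ × ℝ) ∈ Ici (0 : ℝ) ×ˢ O := ⟨ht, hy⟩
    have d1 := ((hK.differentiableOn (by simp)) _ hm).hasFDerivWithinAt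
    have d2 : HasDerivAt (fun y : ℝ => ((t, b, y) : ℝ × ℝ × ℝ)) (0, 0, 1) y :=
      (hasDerivAt_const y t).prodMk ((hasDerivAt_const y b).prodMk (hasDerivAt_id y))
    have hev : ∀ᶠ y' in 𝓝 y, ((t, b, y') : ℝ × ℝ × ℝ) ∈ Ici (0 : ℝ) ×ˢ O :=
      (ev_O hy).mono fun y' hy' => ⟨ht, hy'⟩
    exact (d1.comp_hasDerivAt y d2 hev).deriv

theorem iter_id_mul (m : ℕ) {k : ℝ → ℝ} (hk : ContDiffAt ℝ ∞ k 0) :
    iteratedDeriv (m + 1) (fun y => y * k y) 0 = (m + 1) * iteratedDeriv m k 0 := by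
  rw [iteratedDeriv_fun_mul (f := fun y => y) contDiffAt_id (hk.of_le (by exact_mod_cast le_top)),
    Finset.sum_eq_single 1]
  · simp
  · intro i _ hi
    rw [iteratedDeriv_fun_id_zero, if_neg hi, mul_zero, zero_mul]
  · intro h
    exact absurd (Finset.mem_range.2 (by omega)) h

/-- the `j`-th derivative is controlled by the `2 j`-th derivative along a parabola -/
theorem parab (j : ℕ) {s a : ℝ} (hs : |s| = 1) (ha : a ∈ Ioo (0 : ℝ) 1) {G : ℝ → ℝ}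
    (hG : ContDiffOn ℝ ∞ G (Ioo 0 1)) :
    |iteratedDeriv j G a| ≤ |iteratedDeriv (2 * j) (fun y => G (a + s * y ^ 2)) 0| := by
  induction j generalizing G with
  | zero => simp
  | succ j ih =>
    have hG' : ContDiffOn ℝ ∞ (deriv G) (Ioo 0 1) := hG.deriv_of_isOpen isOpen_Ioo (by simp)
    have hc : ContDiff ℝ ∞ fun y : ℝ => a + s * y ^ 2 := by fun_prop
    have hev : ∀ᶠ y in 𝓝 (0 : ℝ), a + s * y ^ 2 ∈ Ioo (0 : ℝ) 1 :=
      hc.continuous.continuousAt.eventually (isOpen_Ioo.mem_nhds (by simpa using ha))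
    have e1 : deriv (fun y => G (a + s * y ^ 2)) =ᶠ[𝓝 0]
        fun y => 2 * s * (y * deriv G (a + s * y ^ 2)) := by
      filter_upwards [hev] with y hy
      have d1 : HasDerivAt G (deriv G (a + s * y ^ 2)) (a + s * y ^ 2) :=
        ((hG.contDiffAt (isOpen_Ioo.mem_nhds hy)).differentiableAt (by simp)).hasDerivAt
      have d2 : HasDerivAt (fun y : ℝ => a + s * y ^ 2) (s * (2 * y)) y := by
        simpa using ((hasDerivAt_pow 2 y).const_mul s).const_add a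
      have d3 : HasDerivAt (fun y => G (a + s * y ^ 2)) _ y := d1.comp y d2
      rw [d3.deriv]; ring
    have hk : ContDiffAt ℝ ∞ (fun y => deriv G (a + s * y ^ 2)) 0 :=
      ContDiffAt.comp (g := deriv G) 0 (hG'.contDiffAt (isOpen_Ioo.mem_nhds hev.self_of_nhds))
        hc.contDiffAt
    rw [iteratedDeriv_succ', show 2 * (j + 1) = 2 * j + 1 + 1 by ring, iteratedDeriv_succ',
      e1.iteratedDeriv_eq, iteratedDeriv_const_mul_field, iter_id_mul _ hk, abs_mul, abs_mul,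
      abs_mul, hs, abs_two]
    have h1 : (1 : ℝ) ≤ |((2 * j : ℕ) : ℝ) + 1| := by
      rw [abs_of_nonneg (by positivity)]
      linarith [Nat.cast_nonneg (α := ℝ) (2 * j)]
    have h2 := ih hG'
    have h3 := abs_nonneg (iteratedDeriv (2 * j) (fun y => deriv G (a + s * y ^ 2)) 0)
    nlinarith

/-- the bound along a family of curves -/
theorem half {n : ℕ} (hn : 1 ≤ n) (hR : RhoStmt) {Φ : ℝ → V (n + 1) → ℝ} (hΦ : Sm Φ)
    (hinv : ∀ t, 0 ≤ t → ∀ Z, Z ≠ 0 → Φ t Z = Φ t (pt n (rho Z))) (j : ℕ) (T : ℝ)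
    {Z : ℝ × ℝ → V (n + 1)} (hZ : ContDiffOn ℝ ∞ Z O) (hZ0 : ∀ q ∈ O, Z q ≠ 0) {A : ℝ → ℝ} {s : ℝ}
    (hs : |s| = 1) (hρ : ∀ q ∈ O, rho (Z q) = A q.1 + s * q.2 ^ 2) :
    ∃ C, ∀ t ∈ Icc 0 T, ∀ b ∈ Icc (0 : ℝ) (3 / 4), A b ∈ Ioo (0 : ℝ) 1 →
      |iteratedDeriv j (fun r => Φ t (pt n r)) (A b)| ≤ C := by
  have hH : ContDiffOn ℝ ∞ (fun p : ℝ × ℝ × ℝ => Φ p.1 (Z p.2)) (Ici 0 ×ˢ O) :=
    ContDiffOn.comp (g := fun p : ℝ × V (n + 1) => Φ p.1 p.2)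
      (f := fun p : ℝ × ℝ × ℝ => (p.1, Z p.2)) hΦ
      (contDiffOn_fst.prodMk (hZ.comp contDiffOn_snd fun p hp => hp.2))
      fun p hp => ⟨hp.1, hZ0 _ hp.2⟩
  obtain ⟨K, hK, e⟩ := jet (2 * j) hH
  have hO : ∀ b ∈ Icc (0 : ℝ) (3 / 4), ((b, 0) : ℝ × ℝ) ∈ O := fun b hb => by
    change b ^ 2 + 0 ^ 2 < 1
    nlinarith [hb.1, hb.2]
  obtain ⟨C, hC⟩ := (isCompact_Icc.prod (isCompact_Icc.prod isCompact_singleton) :
    IsCompact (Icc 0 T ×ˢ Icc (0 : ℝ) (3 / 4) ×ˢ {(0 : ℝ)})).exists_bound_of_continuousOn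
    (hK.continuousOn.mono fun p hp => ⟨hp.1.1, by
      have h1 : p.2 = (p.2.1, 0) := Prod.ext rfl hp.2.2
      rw [h1]
      exact hO _ hp.2.1⟩)
  refine ⟨C, fun t ht b hb hA => ?_⟩
  have hG : ContDiffOn ℝ ∞ (fun r => Φ t (pt n r)) (Ioo 0 1) :=
    ContDiffOn.comp (g := fun p : ℝ × V (n + 1) => Φ p.1 p.2) (f := fun r => (t, pt n r)) hΦ
      (contDiffOn_const.prodMk hR.pt_smooth)
      fun r hr => ⟨ht.1, hR.pt_ne hn r (Ioo_subset_Icc_self hr)⟩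
  refine (parab j hs hA hG).trans ?_
  have e1 : (fun y => Φ t (pt n (A b + s * y ^ 2))) =ᶠ[𝓝 0] fun y => Φ t (Z (b, y)) :=
    (ev_O (hO b hb)).mono fun y hy => by
      simp only [hinv t ht.1 _ (hZ0 _ hy), hρ _ hy]
  rw [e1.iteratedDeriv_eq, e t ht.1 b 0 (hO b hb)]
  exact hC (t, b, 0) ⟨ht, hb, rfl⟩

/-- the vector with first two coordinates `α`, `β` -/
def zz (n : ℕ) (α β : ℂ) : V (n + 1) := fun j =>
  if j.val = 0 then α else if j.val = 1 then β else 0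

theorem nsq_zz {n : ℕ} (hn : 1 ≤ n) (α β : ℂ) : nsq (zz n α β) = ‖α‖ ^ 2 + ‖β‖ ^ 2 := by
  obtain ⟨k, rfl⟩ : ∃ k, n = k + 1 := ⟨n - 1, by omega⟩
  simp [nsq, zz, Fin.sum_univ_succ]

theorem zz_smooth {n : ℕ} {α β : ℝ × ℝ → ℂ} (hα : ContDiffOn ℝ ∞ α O) (hβ : ContDiffOn ℝ ∞ β O) :
    ContDiffOn ℝ ∞ (fun q => zz n (α q) (β q)) O := by
  refine contDiffOn_pi.2 fun j => ?_
  simp only [zz]
  split_ifs
  · exact hα
  · exact hβ
  · exact contDiffOn_const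

/-- the real coordinate -/
noncomputable def al (q : ℝ × ℝ) : ℂ := ((√(1 - (q.1 ^ 2 + q.2 ^ 2)) : ℝ) : ℂ)

/-- the complex coordinate -/
noncomputable def be (q : ℝ × ℝ) : ℂ := (q.1 : ℂ) + (q.2 : ℂ) * Complex.I

theorem al_smooth : ContDiffOn ℝ ∞ al O :=
  Complex.ofRealCLM.contDiff.comp_contDiffOn (ContDiffOn.sqrt (by fun_prop)
    fun q hq => (sub_pos.2 (show q.1 ^ 2 + q.2 ^ 2 < 1 from hq)).ne')

theorem be_smooth : ContDiffOn ℝ ∞ be O :=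
  (((Complex.ofRealCLM.contDiff.comp contDiff_fst).add
    ((Complex.ofRealCLM.contDiff.comp contDiff_snd).mul contDiff_const))).contDiffOn

theorem norm_al {q : ℝ × ℝ} (hq : q ∈ O) : ‖al q‖ ^ 2 = 1 - (q.1 ^ 2 + q.2 ^ 2) := by
  rw [al, Complex.norm_real, Real.norm_eq_abs, sq_abs,
    Real.sq_sqrt (sub_pos.2 (show q.1 ^ 2 + q.2 ^ 2 < 1 from hq)).le]

theorem norm_be (q : ℝ × ℝ) : ‖be q‖ ^ 2 = q.1 ^ 2 + q.2 ^ 2 := by
  rw [be, Complex.sq_norm, Complex.normSq_add_mul_I]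

theorem ne_zero_of_nsq {m : ℕ} {Z : V m} (h : nsq Z = 1) : Z ≠ 0 := by
  rintro rfl
  simp [nsq] at h

theorem sqrt_mem {x : ℝ} (h : x ≤ 1 / 2) : √x ∈ Icc (0 : ℝ) (3 / 4) :=
  ⟨Real.sqrt_nonneg x, Real.sqrt_le_iff.2 ⟨by norm_num, by linarith⟩⟩

end RadBd

open RadBd in
theorem radBd (hW : WirtStmt) (hR : RhoStmt) : RadBdStmt := by
  intro n hn Φ hΦ hinv j T
  have n1 : ∀ q ∈ O, nsq (zz n (al q) (be q)) = 1 := fun q hq => by
    rw [nsq_zz hn, norm_al hq, norm_be]; ring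
  have n2 : ∀ q ∈ O, nsq (zz n (be q) (al q)) = 1 := fun q hq => by
    rw [nsq_zz hn, norm_al hq, norm_be]; ring
  obtain ⟨C₁, h₁⟩ := half hn hR hΦ hinv j T (zz_smooth al_smooth be_smooth)
    (fun q hq => ne_zero_of_nsq (n1 q hq)) (A := fun b => b ^ 2) (s := 1) abs_one
    fun q hq => by
      rw [rho, n1 q hq]
      change 1 - ‖al q‖ ^ 2 / 1 = _
      rw [norm_al hq]; ring
  obtain ⟨C₂, h₂⟩ := half hn hR hΦ hinv j T (zz_smooth be_smooth al_smooth)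
    (fun q hq => ne_zero_of_nsq (n2 q hq)) (A := fun b => 1 - b ^ 2) (s := -1) (by simp)
    fun q hq => by
      rw [rho, n2 q hq]
      change 1 - ‖be q‖ ^ 2 / 1 = _
      rw [norm_be]; ring
  refine ⟨max C₁ C₂, fun t ht r hr => ?_⟩
  rcases le_total r (1 / 2) with h | h
  · have e : √r ^ 2 = r := Real.sq_sqrt hr.1.le
    have := h₁ t ht (√r) (sqrt_mem h) (by rw [e]; exact hr)
    rw [e] at this
    exact this.trans (le_max_left _ _)
  · have e : 1 - √(1 - r) ^ 2 = r := by rw [Real.sq_sqrt (by linarith [hr.2])]; ring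
    have := h₂ t ht (√(1 - r)) (sqrt_mem (by linarith)) (by rw [e]; exact hr)
    rw [e] at this
    exact this.trans (le_max_right _ _)

end Vale.Agent.P264
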