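import Vale.Agent.P264.StmU

/-! The flow of the radial profile. -/

namespace Vale.Agent.P264

open scoped ContDiff ComplexOrder Matrix
open Set Filter Topology

namespace RadFlowAux

theorem sm_deriv {f : ℝ → ℝ} (hf : ContDiffOn ℝ ∞ f (Ioo 0 1)) :
    ContDiffOn ℝ ∞ (deriv f) (Ioo 0 1) :=
  hf.deriv_of_isOpen isOpen_Ioo (by simp)

theorem hasDeriv {f : ℝ → ℝ} (hf : ContDiffOn ℝ ∞ f (Ioo 0 1)) {r : ℝ} (hr : r ∈ Ioo (0 : ℝ) 1) :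
    HasDerivWithinAt f (deriv f r) (Ioo 0 1) r :=
  ((hf.contDiffAt (isOpen_Ioo.mem_nhds hr)).differentiableAt
    (by simp)).hasDerivAt.hasDerivWithinAt

theorem jet {f : ℝ → ℝ} (hf : ContDiffOn ℝ ∞ f (Ioo 0 1)) :
    Jet2 (Ioo 0 1) f (deriv f) (deriv (deriv f)) := fun _ hr =>
  ⟨hasDeriv hf hr, hasDeriv (sm_deriv hf) hr⟩

theorem sm_RU (n : ℕ) {f : ℝ → ℝ} (hf : ContDiffOn ℝ ∞ f (Ioo 0 1))
    (hp : ∀ r ∈ Ioo (0 : ℝ) 1, 0 < RP f r ∧ 0 < RQ f r) : ContDiffOn ℝ ∞ (RU n f) (Ioo 0 1) := by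
  have h1 := sm_deriv hf
  have h2 := sm_deriv h1
  have hP : ContDiffOn ℝ ∞ (RP f) (Ioo 0 1) :=
    contDiffOn_const.add ((contDiffOn_const.sub contDiffOn_id).mul h1)
  have hQ : ContDiffOn ℝ ∞ (RQ f) (Ioo 0 1) :=
    (contDiffOn_const.add
      ((contDiffOn_const.sub (contDiffOn_const.mul contDiffOn_id)).mul h1)).add
      ((contDiffOn_id.mul (contDiffOn_const.sub contDiffOn_id)).mul h2)
  exact ((hP.pow _).mul hQ).log fun r hr => (mul_pos (pow_pos (hp r hr).1 _) (hp r hr).2).ne'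

theorem isOpen_nz (m : ℕ) : IsOpen (nz m) := isOpen_ne

theorem compact_sph (hW : WirtStmt) (m : ℕ) : IsCompact {Z : V m | nsq Z = 1} := by
  refine Metric.isCompact_of_isClosed_isBounded
    (isClosed_eq hW.nsq_smooth.continuous continuous_const) ?_
  refine (Metric.isBounded_closedBall (x := (0 : V m)) (r := 1)).subset fun Z hZ => ?_
  rw [mem_closedBall_zero_iff, pi_norm_le_iff_of_nonneg zero_le_one]
  intro j
  have h : ‖Z j‖ ^ 2 ≤ nsq Z :=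
    Finset.single_le_sum (f := fun j => ‖Z j‖ ^ 2) (fun _ _ => sq_nonneg _) (Finset.mem_univ j)
  rw [show nsq Z = 1 from hZ] at h
  nlinarith [norm_nonneg (Z j)]

theorem ne_of_sph {m : ℕ} {Z : V m} (h : nsq Z = 1) : Z ≠ 0 := by
  rintro rfl
  simp [nsq] at h

theorem lower (hW : WirtStmt) (hS : SmStmt) {m : ℕ} {S : ℝ} {Φ : ℝ → V m → ℝ} (hΦ : ConeFlow S Φ)
    (T : ℝ) : ∃ c, 0 < c ∧ ∀ t ∈ Icc 0 T, ∀ Z : V m, nsq Z = 1 → ∀ (l : ℝ) (v : V m), v ≠ 0 →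
      cM (Φ t) Z *ᵥ v = (l : ℂ) • v → c ≤ l := by
  have hK := (isCompact_Icc (a := (0 : ℝ)) (b := T)).prod
    ((compact_sph hW m).prod (compact_sph hW m))
  have hc : ContinuousOn (fun p : ℝ × V m × V m =>
      (star p.2.2 ⬝ᵥ cM (Φ p.1) p.2.1 *ᵥ p.2.2).re)
      (Icc 0 T ×ˢ {Z : V m | nsq Z = 1} ×ˢ {Z : V m | nsq Z = 1}) := by
    have h1 : ∀ j k, ContinuousOn (fun p : ℝ × V m × V m => cM (Φ p.1) p.2.1 j k)
        (Icc 0 T ×ˢ {Z : V m | nsq Z = 1} ×ˢ {Z : V m | nsq Z = 1}) := fun j k =>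
      (hS.cM_sm hΦ.smooth j k).continuousOn.comp (f := fun p : ℝ × V m × V m => (p.1, p.2.1))
        (by fun_prop) fun p hp => ⟨hp.1.1, ne_of_sph hp.2.1⟩
    refine Complex.continuous_re.comp_continuousOn ?_
    simp only [dotProduct, Matrix.mulVec]
    refine continuousOn_finsetSum _ fun j _ => ContinuousOn.mul (by fun_prop) ?_
    exact continuousOn_finsetSum _ fun k _ => (h1 j k).mul (by fun_prop)
  obtain ⟨c, hc0, hc1⟩ := hK.exists_forall_le' hc (a := 0) fun p hp =>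
    (Complex.pos_iff.1 ((hΦ.pos p.1 hp.1.1 p.2.1 (ne_of_sph hp.2.1)).dotProduct_mulVec_pos
      (ne_of_sph hp.2.2))).1
  refine ⟨c, hc0, fun t ht Z hZ l v hv he => ?_⟩
  have hv0 := hW.nsq_pos hv
  have hn : nsq ((((√(nsq v))⁻¹ : ℝ) : ℂ) • v) = 1 := by
    rw [hW.nsq_smul, Complex.norm_real, Real.norm_eq_abs, sq_abs, inv_pow, Real.sq_sqrt hv0.le,
      inv_mul_cancel₀ hv0.ne']
  have he' : cM (Φ t) Z *ᵥ ((((√(nsq v))⁻¹ : ℝ) : ℂ) • v) =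
      (l : ℂ) • ((((√(nsq v))⁻¹ : ℝ) : ℂ) • v) := by
    rw [Matrix.mulVec_smul, he, smul_comm]
  have h := hc1 (t, Z, (((√(nsq v))⁻¹ : ℝ) : ℂ) • v) ⟨ht, hZ, hn⟩
  simp only at h
  rw [he', dotProduct_smul, dotProduct_comm, ← hW.nsq_eq, hn] at h
  simpa using h

end RadFlowAux

open RadFlowAux in
theorem radFlow (hW : WirtStmt) (hS : SmStmt) (hR : RhoStmt) (hRad : RadStmt) (hB : RadBdStmt) :
    RadFlowStmt := by
  intro n hn S Φ hΦ hinv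
  have hn1 : 1 ≤ n := by omega
  have hsm : ContDiffOn ℝ ∞ (fun p : ℝ × ℝ => Φ p.1 (pt n p.2)) (Ici 0 ×ˢ Ioo 0 1) :=
    ContDiffOn.comp (f := fun p : ℝ × ℝ => (p.1, pt n p.2)) hΦ.smooth
      (contDiffOn_fst.prodMk (hR.pt_smooth.comp contDiffOn_snd fun p hp => hp.2))
      fun p hp => ⟨hp.1, hR.pt_ne hn1 _ (Ioo_subset_Icc_self hp.2)⟩
  have hsl : ∀ t, 0 ≤ t → ContDiffOn ℝ ∞ (fun r => Φ t (pt n r)) (Ioo 0 1) := fun t ht =>
    (hS.slice hΦ.smooth t ht).comp hR.pt_smooth fun r hr => hR.pt_ne hn1 _ (Ioo_subset_Icc_self hr)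
  have hcM : ∀ t, 0 ≤ t → ∀ Z : V (n + 1), Z ≠ 0 →
      cM (Φ t) Z = cM (fun W => (fun r => Φ t (pt n r)) (rho W)) Z := fun t ht Z hZ => by
    have e : Φ t =ᶠ[𝓝 Z] fun W => Φ t (pt n (rho W)) :=
      eventually_of_mem ((isOpen_nz _).mem_nhds hZ) fun W hW0 => hinv t ht W hW0
    rw [cM, cM, hW.hess_congr e]
  have hpos : ∀ T : ℝ, ∃ c, 0 < c ∧ ∀ t ∈ Icc 0 T, ∀ r ∈ Ioo (0 : ℝ) 1,
      c ≤ RP (fun r => Φ t (pt n r)) r ∧ c ≤ RQ (fun r => Φ t (pt n r)) r := fun T => by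
    obtain ⟨c, hc, h⟩ := lower hW hS hΦ T
    refine ⟨c, hc, fun t ht r hr => ?_⟩
    have hr' := Ioo_subset_Icc_self hr
    obtain ⟨⟨v, hv, e⟩, ⟨w, hw, e'⟩⟩ := hRad.eig n hn _ _ _ (jet (hsl t ht.1)) r hr
    rw [← hcM t ht.1 _ (hR.pt_ne hn1 r hr')] at e e'
    exact ⟨h t ht _ (hR.pt_nsq hn1 r hr') _ v hv e, h t ht _ (hR.pt_nsq hn1 r hr') _ w hw e'⟩
  refine ⟨hsm, hB n hn1 Φ hΦ.smooth hinv, hpos, fun t ht r hr => ?_⟩
  have hr' := Ioo_subset_Icc_self hr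
  have hZ := hR.pt_ne hn1 r hr'
  have hρ := hR.rho_pt hn1 r hr'
  have hp : ∀ r ∈ Ioo (0 : ℝ) 1,
      0 < RP (fun r => Φ t (pt n r)) r ∧ 0 < RQ (fun r => Φ t (pt n r)) r := fun r hr => by
    obtain ⟨c, hc, h⟩ := hpos t
    exact ⟨hc.trans_le (h t ⟨ht.le, le_rfl⟩ r hr).1, hc.trans_le (h t ⟨ht.le, le_rfl⟩ r hr).2⟩
  have e : ldet (Φ t) =ᶠ[𝓝 (pt n r)] fun W => RU n (fun r => Φ t (pt n r)) (rho W) := by
    have h1 : ContinuousAt (rho : V (n + 1) → ℝ) (pt n r) :=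
      hR.smooth.continuousOn.continuousAt ((isOpen_nz _).mem_nhds hZ)
    filter_upwards [(isOpen_nz _).mem_nhds hZ, h1 (isOpen_Ioo.mem_nhds (hρ.symm ▸ hr))]
      with W h0 hW1
    rw [ldet, hcM t ht.le W h0, hRad.det n hn1 _ _ _ (jet (hsl t ht.le)) W h0 hW1 (hp _ hW1).1.ne',
      Complex.ofReal_re]
    rfl
  obtain ⟨h1, h2⟩ := hRad.trace n hn1 _ _ _ _ _ _ (jet (hsl t ht.le))
    (jet (sm_RU n (hsl t ht.le) hp)) (pt n r) hZ (hρ.symm ▸ hr) (hρ.symm ▸ (hp r hr).1.ne')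
    (hρ.symm ▸ (hp r hr).2.ne')
  have key : cS (Φ t) (pt n r) = radS n (fun r => Φ t (pt n r)) r := by
    rw [lap] at h2
    rw [cS, lap, hW.hess_congr e, hcM t ht.le _ hZ, h1, h2, hρ, radS, RP, RQ, RP, RQ]
    push_cast
    ring
  rw [← key]
  exact hΦ.eqn t ht _ hZ

end Vale.Agent.P264
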