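import Vale.Agent.P264.StmU

/-! The inverse of the momentum map. -/

namespace Vale.Agent.P264

open scoped ContDiff
open Set Filter Topology

namespace Sig

theorem line (t r : ℝ) : HasDerivAt (fun x : ℝ => (t, x)) ((0, 1) : ℝ × ℝ) r :=
  (hasDerivAt_const r t).prodMk (hasDerivAt_id r)

theorem dr {F : ℝ → ℝ → ℝ}
    (h : ContDiffOn ℝ ∞ (fun p : ℝ × ℝ => F p.1 p.2) (Ici 0 ×ˢ Ioo 0 1)) :
    ContDiffOn ℝ ∞ (fun p : ℝ × ℝ => deriv (F p.1) p.2) (Ici 0 ×ˢ Ioo 0 1) ∧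
      ∀ t, 0 ≤ t → ∀ r ∈ Ioo (0 : ℝ) 1, DifferentiableAt ℝ (F t) r := by
  have h1 : ∀ t, 0 ≤ t → ∀ r ∈ Ioo (0 : ℝ) 1, HasDerivAt (F t)
      (fderivWithin ℝ (fun p : ℝ × ℝ => F p.1 p.2) (Ici 0 ×ˢ Ioo 0 1) (t, r) (0, 1)) r :=
    fun t ht r hr =>
      ((h.differentiableOn (by simp) (t, r) ⟨ht, hr⟩).hasFDerivWithinAt.comp_hasDerivWithinAt r
        (line t r).hasDerivWithinAt (s := Ioo 0 1) fun x hx => ⟨ht, hx⟩).hasDerivAt
        (Ioo_mem_nhds hr.1 hr.2)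
  refine ⟨?_, fun t ht r hr => (h1 t ht r hr).differentiableAt⟩
  exact ((h.fderivWithin ((uniqueDiffOn_Ici 0).prod (uniqueDiffOn_Ioo 0 1)) (m := ∞)
    (by simp)).clm_apply contDiffOn_const).congr fun p hp => (h1 p.1 hp.1 p.2 hp.2).deriv

theorem mu_deriv {f : ℝ → ℝ} {r : ℝ} (h : DifferentiableAt ℝ (deriv f) r) :
    HasDerivAt (mu f) (RQ f r) r := by
  refine ((hasDerivAt_id r).mul ((((hasDerivAt_id r).const_sub 1).mul h.hasDerivAt).const_add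
    1)).congr_deriv ?_
  simp only [RQ, rq, id, Pi.mul_apply]
  ring

section Static

variable {f : ℝ → ℝ} {c C : ℝ} (hd : ∀ r ∈ Ioo (0 : ℝ) 1, HasDerivAt (mu f) (RQ f r) r)
  (hc : ∀ r ∈ Ioo (0 : ℝ) 1, c ≤ RQ f r)

include hd hc in
theorem slope : ∀ x ∈ Ioo (0 : ℝ) 1, ∀ y ∈ Ioo (0 : ℝ) 1, x ≤ y → c * (y - x) ≤ mu f y - mu f x :=
  (convex_Ioo 0 1).mul_sub_le_image_sub_of_le_deriv
    (fun r hr => (hd r hr).continuousAt.continuousWithinAt)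
    (fun r hr => (hd r (interior_subset hr)).differentiableAt.differentiableWithinAt)
    fun r hr => (hc r (interior_subset hr)).trans_eq (hd r (interior_subset hr)).deriv.symm

include hd hc in
theorem slope_abs {x y : ℝ} (hx : x ∈ Ioo (0 : ℝ) 1) (hy : y ∈ Ioo (0 : ℝ) 1) :
    c * |y - x| ≤ |mu f y - mu f x| := by
  rcases le_total x y with h | h
  · rw [abs_of_nonneg (sub_nonneg.2 h)]
    exact (slope hd hc x hx y hy h).trans (le_abs_self _)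
  · rw [abs_sub_comm, abs_sub_comm (mu f y), abs_of_nonneg (sub_nonneg.2 h)]
    exact (slope hd hc y hy x hx h).trans (le_abs_self _)

theorem ends (hC : ∀ r ∈ Ioo (0 : ℝ) 1, |deriv f r| ≤ C) {r : ℝ} (hr : r ∈ Ioo (0 : ℝ) 1) :
    mu f r ≤ r + C * r ∧ mu f r ≤ r + C * (1 - r) ∧ r - C * (1 - r) ≤ mu f r := by
  obtain ⟨h1, h2⟩ := abs_le.1 (hC r hr)
  have h0 : 0 ≤ C := by linarith
  have h3 : 0 ≤ r * (1 - r) := mul_nonneg hr.1.le (by linarith [hr.2])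
  have h4 := mul_le_mul_of_nonneg_left h1 h3
  have h5 := mul_le_mul_of_nonneg_left h2 h3
  have h6 := mul_nonneg h0 (sq_nonneg r)
  have h7 := mul_nonneg h0 (sq_nonneg (1 - r))
  simp only [mu, RP, rp]
  exact ⟨by linarith, by linarith, by linarith⟩

include hd hc in
theorem upper (hC : ∀ r ∈ Ioo (0 : ℝ) 1, |deriv f r| ≤ C) {r : ℝ} (hr : r ∈ Ioo (0 : ℝ) 1) :
    c * (1 - r) ≤ 1 - mu f r := by
  have h := ContinuousWithinAt.closure_le (f := fun y => c * (y - r) + mu f r)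
    (g := fun y => y + C * (1 - y)) (s := Ioo r 1) (x := 1)
    (by rw [closure_Ioo hr.2.ne]; exact right_mem_Icc.2 hr.2.le) (by fun_prop) (by fun_prop)
    fun y hy => by
      have h1 : y ∈ Ioo (0 : ℝ) 1 := ⟨hr.1.trans hy.1, hy.2⟩
      linarith [slope hd hc r hr y h1 hy.1.le, (ends hC h1).2.1]
  linarith

include hd in
theorem surj (hC : ∀ r ∈ Ioo (0 : ℝ) 1, |deriv f r| ≤ C) {x : ℝ} (hx : x ∈ Ioo (0 : ℝ) 1) :
    ∃ r ∈ Ioo (0 : ℝ) 1, mu f r = x := by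
  have h0 : 0 < C + 1 := by linarith [(abs_nonneg _).trans (hC x hx)]
  have h1 : 1 ≤ C + 1 := by linarith [(abs_nonneg _).trans (hC x hx)]
  have h2 : 0 < 1 - x := by linarith [hx.2]
  have ha : x / (C + 1) ∈ Ioo (0 : ℝ) 1 :=
    ⟨div_pos hx.1 h0, (div_le_self hx.1.le h1).trans_lt hx.2⟩
  have hb : 1 - (1 - x) / (C + 1) ∈ Ioo (0 : ℝ) 1 :=
    ⟨by linarith [div_le_self h2.le h1, hx.1], by linarith [div_pos h2 h0]⟩
  refine isPreconnected_Ioo.intermediate_value ha hb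
    (fun r hr => (hd r hr).continuousAt.continuousWithinAt) ⟨?_, ?_⟩
  · linarith [(ends hC ha).1, mul_div_cancel₀ x h0.ne']
  · linarith [(ends hC hb).2.2, mul_div_cancel₀ (1 - x) h0.ne']

end Static

end Sig

open Sig in
theorem sigS : SigStmt := by
  intro n S F h
  have h1 := (dr h.smooth).1
  have hd : ∀ t, 0 ≤ t → ∀ r ∈ Ioo (0 : ℝ) 1, HasDerivAt (mu (F t)) (RQ (F t) r) r :=
    fun t ht r hr => mu_deriv ((dr (F := fun t => deriv (F t)) h1).2 t ht r hr)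
  have hm : ContDiffOn ℝ ∞ (fun p : ℝ × ℝ => mu (F p.1) p.2) (Ici 0 ×ˢ Ioo 0 1) :=
    contDiffOn_snd.mul (contDiffOn_const.add ((contDiffOn_const.sub contDiffOn_snd).mul h1))
  have hC : ∀ t, 0 ≤ t → ∃ C, ∀ r ∈ Ioo (0 : ℝ) 1, |deriv (F t) r| ≤ C := fun t ht => by
    obtain ⟨C, hC⟩ := h.bdd 1 t
    exact ⟨C, fun r hr => by simpa using hC t ⟨ht, le_rfl⟩ r hr⟩
  have hs : ∀ t, 0 ≤ t → ∀ x ∈ Ioo (0 : ℝ) 1,
      sig (F t) x ∈ Ioo (0 : ℝ) 1 ∧ mu (F t) (sig (F t) x) = x := fun t ht x hx => by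
    obtain ⟨C, hC⟩ := hC t ht
    exact ⟨Function.invFunOn_mem (surj (hd t ht) hC hx),
      Function.invFunOn_eq (surj (hd t ht) hC hx)⟩
  have hq : ∀ t, 0 ≤ t → ∀ r ∈ Ioo (0 : ℝ) 1, RQ (F t) r ≠ 0 := fun t ht r hr => by
    obtain ⟨c, c0, hc⟩ := h.pos t
    exact (c0.trans_le (hc t ⟨ht, le_rfl⟩ r hr).2).ne'
  have hco : ContinuousOn (fun p : ℝ × ℝ => sig (F p.1) p.2) (Ici 0 ×ˢ Ioo 0 1) := by
    rintro ⟨t, x⟩ ⟨ht, hx⟩
    obtain ⟨c, c0, hc⟩ := h.pos (t + 1)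
    obtain ⟨a1, a2⟩ := hs t ht x hx
    have a4 : ContinuousOn (fun p : ℝ × ℝ => mu (F p.1) (sig (F t) x)) (Ici 0 ×ˢ Ioo 0 1) :=
      hm.continuousOn.comp (f := fun p : ℝ × ℝ => (p.1, sig (F t) x)) (by fun_prop)
        fun p hp => ⟨hp.1, a1⟩
    have a3 : ContinuousWithinAt (fun p : ℝ × ℝ => |p.2 - mu (F p.1) (sig (F t) x)| / c)
        (Ici 0 ×ˢ Ioo 0 1) (t, x) :=
      ((continuousWithinAt_snd.sub (a4 (t, x) ⟨ht, hx⟩)).abs).div_const c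
    refine tendsto_iff_norm_sub_tendsto_zero.2 (squeeze_zero' (.of_forall fun _ => norm_nonneg _)
      ?_ (by simpa [a2] using a3.tendsto))
    filter_upwards [self_mem_nhdsWithin, mem_nhdsWithin_of_mem_nhds
      (continuous_fst.continuousAt.preimage_mem_nhds (Iic_mem_nhds (lt_add_one t)))] with p hp hp'
    obtain ⟨b1, b2⟩ := hs p.1 hp.1 p.2 hp.2
    have b3 := slope_abs (hd p.1 hp.1) (fun r hr => (hc p.1 ⟨hp.1, hp'⟩ r hr).2) a1 b1
    rw [b2] at b3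
    exact (le_div_iff₀' c0).2 b3
  refine ⟨fun t ht => ⟨fun r hr => ?_, fun x hx => ⟨(hs t ht x hx).1, (hs t ht x hx).2, ?_⟩⟩, hco,
    fun T => ?_, fun t ht x hx => ?_⟩
  · obtain ⟨c, c0, hc⟩ := h.pos t
    obtain ⟨C, hC⟩ := hC t ht
    have a1 := fun r hr => (hc t ⟨ht, le_rfl⟩ r hr).2
    refine ⟨⟨mul_pos hr.1 (c0.trans_le (hc t ⟨ht, le_rfl⟩ r hr).1), ?_⟩,
      InjOn.leftInvOn_invFunOn (fun x hx y hy e => ?_) hr, hd t ht r hr⟩
    · linarith [upper (hd t ht) a1 hC hr, mul_pos c0 (sub_pos.2 hr.2)]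
    · have a2 := slope_abs (hd t ht) a1 hx hy
      rw [e, sub_self, abs_zero] at a2
      exact (sub_eq_zero.1 (abs_nonpos_iff.1 (nonpos_of_mul_nonpos_right a2 c0))).symm
  · refine HasDerivAt.of_local_left_inverse ?_ (hd t ht _ (hs t ht x hx).1)
      (hq t ht _ (hs t ht x hx).1) ?_
    · exact ((hco (t, x) ⟨ht, hx⟩).comp (f := fun y : ℝ => (t, y)) (s := Ioo 0 1) (by fun_prop)
        fun y hy => ⟨ht, hy⟩).continuousAt (Ioo_mem_nhds hx.1 hx.2)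
    · filter_upwards [Ioo_mem_nhds hx.1 hx.2] with y hy using (hs t ht y hy).2
  · obtain ⟨c, c0, hc⟩ := h.pos T
    refine ⟨c, c0, fun t ht r hr => ?_⟩
    obtain ⟨C, hC⟩ := hC t ht.1
    have a1 := upper (hd t ht.1) (fun r hr => (hc t ht r hr).2) hC hr
    simp only [mu, RP, rp] at a1
    exact le_of_mul_le_mul_right (by linarith) (sub_pos.2 hr.2)
  · obtain ⟨a1, -⟩ := hs t ht.le x hx
    have n1 : ∀ y ∈ Ioo (0 : ℝ) 1, (Ici 0 ×ˢ Ioo 0 1 : Set (ℝ × ℝ)) ∈ 𝓝 (t, y) := fun y hy =>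
      prod_mem_nhds (Ici_mem_nhds ht) (Ioo_mem_nhds hy.1 hy.2)
    have a2 := ((hm.contDiffAt (n1 _ a1)).differentiableAt (by simp)).hasFDerivAt
    have a3 := (a2.comp_hasDerivAt _ (line t _)).unique (hd t ht.le _ a1)
    generalize fderiv ℝ (fun p : ℝ × ℝ => mu (F p.1) p.2) (t, sig (F t) x) = m at a2 a3
    have a4 : Function.Injective
        ((ContinuousLinearMap.fst ℝ ℝ ℝ).prod m : ℝ × ℝ →ₗ[ℝ] ℝ × ℝ) := by
      refine (injective_iff_map_eq_zero _).2 fun v hv => ?_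
      have b1 : v.1 = 0 := congrArg Prod.fst hv
      have b2 : m v = 0 := congrArg Prod.snd hv
      have b3 : v = v.2 • ((0, 1) : ℝ × ℝ) := Prod.ext (by simp [b1]) (by simp)
      rw [b3, map_smul, a3, smul_eq_mul] at b2
      exact Prod.ext b1 ((mul_eq_zero.1 b2).resolve_right (hq t ht.le _ a1))
    have a5 := HasFDerivAt.of_local_left_inverse
      (f := fun p : ℝ × ℝ => (p.1, mu (F p.1) p.2))
      (f' := (LinearEquiv.ofInjectiveEndo _ a4).toContinuousLinearEquiv)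
      (g := fun p : ℝ × ℝ => (p.1, sig (F p.1) p.2)) (a := (t, x))
      (continuousAt_fst.prodMk (hco.continuousAt (n1 x hx))) (hasFDerivAt_fst.prodMk a2)
      (by filter_upwards [n1 x hx] with p hp using Prod.ext rfl (hs p.1 hp.1 p.2 hp.2).2)
    exact (a5.differentiableAt.comp t (f := fun τ : ℝ => (τ, x)) (by fun_prop)).snd

end Vale.Agent.P264
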