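import Vale.Agent.P264.StmU

/-! Joint smoothness, homogeneity and the time derivative of the Hessian. -/

namespace Vale.Agent.P264

open scoped ContDiff ComplexOrder Matrix Topology
open Set Filter

namespace SmS

variable {m : ℕ}

theorem op : IsOpen (nz m) := isOpen_ne

theorem sp {f : ℝ → V m → ℂ} (h : Sm f) (v : V m) : Sm fun t Z => fderiv ℝ (f t) Z v := by
  intro p hp
  have h1 : ContDiffWithinAt ℝ ∞ (Function.uncurry fun (q : ℝ × V m) W => f q.1 W)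
      ((Ici 0 ×ˢ nz m) ×ˢ nz m) (p, p.2) :=
    (h p hp).comp (f := fun q : (ℝ × V m) × V m => (q.1.1, q.2)) (p, p.2) (by fun_prop)
      fun q hq => ⟨hq.1.1, hq.2⟩
  refine (h1.fderivWithin_apply (k := fun _ => v) contDiffWithinAt_snd contDiffWithinAt_const
    op.uniqueDiffOn (by simp) hp fun q hq => hq.2).congr_of_mem (fun q hq => ?_) hp
  rw [fderivWithin_of_isOpen op hq.2]

theorem dz_sm {f : ℝ → V m → ℂ} (h : Sm f) (j : Fin m) : Sm fun t Z => dz j (f t) Z :=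
  ((sp h _).sub (contDiffOn_const.mul (sp h _))).div_const _

theorem dzb_sm {f : ℝ → V m → ℂ} (h : Sm f) (j : Fin m) : Sm fun t Z => dzb j (f t) Z :=
  ((sp h _).add (contDiffOn_const.mul (sp h _))).div_const _

theorem coe_sm {f : ℝ → V m → ℝ} (h : Sm f) : Sm fun t Z => (f t Z : ℂ) :=
  Complex.ofRealCLM.contDiff.comp_contDiffOn h

theorem re_sm {f : ℝ → V m → ℂ} (h : Sm f) : Sm fun t Z => (f t Z).re :=
  Complex.reCLM.contDiff.comp_contDiffOn h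

theorem hess_sm {f : ℝ → V m → ℝ} (h : Sm f) (j k : Fin m) : Sm fun t Z => hess (f t) Z j k :=
  dz_sm (dzb_sm (coe_sm h) k) j

theorem slice {f : ℝ → V m → ℝ} (h : Sm f) {t : ℝ} (ht : 0 ≤ t) : ContDiffOn ℝ ∞ (f t) (nz m) :=
  ContDiffOn.comp (f := fun Z => (t, Z)) h (by fun_prop) fun _ hZ => ⟨ht, hZ⟩

theorem const_sm {f : V m → ℝ} (h : ContDiffOn ℝ ∞ f (nz m)) : Sm fun _ => f :=
  h.comp contDiffOn_snd fun _ hp => hp.2

theorem fd_aux {G : ℝ × V m → ℂ} {g : V m → ℂ} {t : ℝ}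
    (hG : ∀ τ, 0 < τ → ∀ W, W ≠ 0 → ContDiffAt ℝ 2 G (τ, W)) (ht : 0 < t)
    (hg : ∀ W, W ≠ 0 → HasDerivAt (fun τ => G (τ, W)) (g W) t) {Z : V m} (hZ : Z ≠ 0) (v : V m) :
    HasDerivAt (fun τ => fderiv ℝ (fun W => G (τ, W)) Z v) (fderiv ℝ g Z v) t := by
  have hD (τ hτ W hW) := ((hG τ hτ W hW).differentiableAt two_ne_zero).hasFDerivAt
  have h2 := (((hG t ht Z hZ).fderiv_right (m := 1) le_rfl).differentiableAt
    one_ne_zero).hasFDerivAt
  have hc (W : V m) : HasDerivAt (fun τ : ℝ => (τ, W)) (1, 0) t :=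
    (hasDerivAt_id t).prodMk (hasDerivAt_const t W)
  have e1 : g =ᶠ[𝓝 Z] fun W => fderiv ℝ G (t, W) (1, 0) := by
    filter_upwards [op.mem_nhds hZ] with W hW
    exact (hg W hW).unique ((hD t ht W hW).comp_hasDerivAt (f := fun τ : ℝ => (τ, W)) t (hc W))
  have e2 : (fun τ => fderiv ℝ (fun W => G (τ, W)) Z v) =ᶠ[𝓝 t]
      fun τ => fderiv ℝ G (τ, Z) (0, v) := by
    filter_upwards [Ioi_mem_nhds ht] with τ hτ
    exact DFunLike.congr_fun ((hD τ hτ Z hZ).comp Z (hasFDerivAt_prodMk_right τ Z)).fderiv v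
  have e3 : HasFDerivAt (fun W => fderiv ℝ G (t, W) (1, 0)) _ Z :=
    (h2.comp Z (hasFDerivAt_prodMk_right t Z)).clm_apply (hasFDerivAt_const ((1 : ℝ), (0 : V m)) Z)
  have e4 : HasDerivAt (fun τ => fderiv ℝ G (τ, Z) (0, v)) _ t :=
    (h2.comp_hasDerivAt (f := fun τ : ℝ => (τ, Z)) t (hc Z)).clm_apply
      (hasDerivAt_const t ((0 : ℝ), v))
  refine (e4.congr_deriv ?_).congr_of_eventuallyEq e2
  rw [e1.fderiv_eq, e3.fderiv]
  simpa using (hG t ht Z hZ).isSymmSndFDerivAt (by simp) (1, 0) (0, v)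

theorem fd_t {f : ℝ → V m → ℂ} {g : V m → ℂ} {t : ℝ} (h : Sm f) (ht : 0 < t)
    (hg : ∀ W, W ≠ 0 → HasDerivAt (fun τ => f τ W) (g W) t) {Z : V m} (hZ : Z ≠ 0) (v : V m) :
    HasDerivAt (fun τ => fderiv ℝ (f τ) Z v) (fderiv ℝ g Z v) t :=
  fd_aux (G := fun p => f p.1 p.2) (fun _ hτ _ hW => (h.contDiffAt
    (prod_mem_nhds (Ici_mem_nhds hτ) (op.mem_nhds hW))).of_le (by norm_cast)) ht hg hZ v

theorem cM_sm (hW : WirtStmt) {Φ : ℝ → V m → ℝ} (h : Sm Φ) (j k : Fin m) :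
    Sm fun t Z => cM (Φ t) Z j k :=
  contDiffOn_const.add ((coe_sm (const_sm hW.nsq_smooth.contDiffOn)).mul (hess_sm h j k))

section

variable (hW : WirtStmt) (hJ : JacStmt) {Φ : ℝ → V m → ℝ} (h : Sm Φ)
  (hp : ∀ t, 0 ≤ t → ∀ Z, Z ≠ 0 → (cM (Φ t) Z).PosDef)
include hW hJ h

theorem det_sm : Sm fun t Z => (cM (Φ t) Z).det := fun p hq =>
  hJ.smooth_det (M := fun p : ℝ × V m => cM (Φ p.1) p.2) fun j k => cM_sm hW h j k p hq

include hp

theorem inv_sm (j k : Fin m) : Sm fun t Z => (cM (Φ t) Z)⁻¹ j k := fun p hq =>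
  hJ.smooth_inv (M := fun p : ℝ × V m => cM (Φ p.1) p.2) (fun j k => cM_sm hW h j k p hq)
    ((Matrix.isUnit_iff_isUnit_det _).1 (hp _ hq.1 _ hq.2).isUnit) j k

theorem ldet_sm : Sm fun t Z => ldet (Φ t) Z :=
  ContDiffOn.log (re_sm (det_sm hW hJ h)) fun _ hq =>
    (Complex.pos_iff.1 (hp _ hq.1 _ hq.2).det_pos).1.ne'

theorem lap_sm (u : ℝ → V m → ℝ) (hu : Sm u) : Sm fun t Z => lap (Φ t) (u t) Z := by
  have h5 : Sm fun t Z => ∑ j, ∑ k, (cM (Φ t) Z)⁻¹ j k * hess (u t) Z k j :=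
    ContDiffOn.sum fun j _ => ContDiffOn.sum fun k _ =>
      ContDiffOn.mul (inv_sm hW hJ h hp j k) (hess_sm hu k j)
  simp only [lap, Matrix.trace, Matrix.diag_apply, Matrix.mul_apply]
  exact ContDiffOn.mul (const_sm hW.nsq_smooth.contDiffOn) (re_sm h5)

theorem curv_sm :
    (∀ j k, Sm fun t Z => (cM (Φ t) Z)⁻¹ j k) ∧ (Sm fun t Z => (cM (Φ t) Z).det.re) ∧
      (Sm fun t Z => ldet (Φ t) Z) ∧ (Sm fun t Z => cS (Φ t) Z) ∧
      ∀ h : ℝ → V m → ℝ, Sm h → Sm fun t Z => lap (Φ t) (h t) Z := by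
  have h5 : Sm fun t Z => ∑ j, (cM (Φ t) Z)⁻¹ j j :=
    ContDiffOn.sum fun j _ => inv_sm hW hJ h hp j j
  refine ⟨inv_sm hW hJ h hp, re_sm (det_sm hW hJ h), ldet_sm hW hJ h hp, ?_, lap_sm hW hJ h hp⟩
  simp only [cS, Matrix.trace, Matrix.diag_apply]
  exact ContDiffOn.sub (contDiffOn_const.mul (ContDiffOn.sub (re_sm h5) contDiffOn_const))
    (lap_sm hW hJ h hp (fun t => ldet (Φ t)) (ldet_sm hW hJ h hp))

end

theorem lap_eq (φ h : V m → ℝ) (Z : V m) :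
    lap φ h Z = ((cM φ Z)⁻¹ * ((nsq Z : ℂ) • hess h Z)).trace.re := by
  rw [Matrix.mul_smul, Matrix.trace_smul, smul_eq_mul, Complex.re_ofReal_mul, lap]

end SmS

open SmS

theorem smS (hW : WirtStmt) (hJ : JacStmt) : SmStmt where
  slice h _ ht := slice h ht
  hess_sm := hess_sm
  cM_sm := cM_sm hW
  curv_sm := curv_sm hW hJ
  static {m φ} hφ h0 hp := by
    obtain ⟨-, -, h3, h4, h5⟩ := curv_sm hW hJ (const_sm hφ) fun _ _ => hp
    have h1 : Hom0 (cM φ) := fun c hc Z hZ => congrArg (1 + ·) (hW.hom0_hess hφ h0 c hc Z hZ)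
    have h2 : Hom0 (ldet φ) := fun c hc Z hZ => by rw [ldet, h1 c hc Z hZ, ldet]
    have h6 (h : V m → ℝ) (hh : ContDiffOn ℝ ∞ h (nz m)) (hh0 : Hom0 h) : Hom0 (lap φ h) :=
      fun c hc Z hZ => by
        rw [lap_eq, lap_eq, h1 c hc Z hZ]
        exact congrArg (fun A => ((cM φ Z)⁻¹ * A).trace.re) (hW.hom0_hess hh hh0 c hc Z hZ)
    exact ⟨h1, h2, fun c hc Z hZ => by
      rw [cS, h1 c hc Z hZ, h6 _ (slice h3 le_rfl) h2 c hc Z hZ, cS], slice h3 le_rfl,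
      slice h4 le_rfl, fun h hh hh0 => ⟨h6 h hh hh0, slice (h5 _ (const_sm hh)) le_rfl⟩⟩
  hess_t {m f g t} h ht hg Z hZ j k := by
    have h1 (W) (hW : W ≠ 0) : HasDerivAt (fun τ => dzb k (fun w => (f τ w : ℂ)) W)
        (dzb k (fun w => (g w : ℂ)) W) t := by
      have := fd_t (coe_sm h) ht (fun W hW => (hg W hW).ofReal_comp) hW
      exact ((this _).add ((this _).const_mul _)).div_const _
    have := fd_t (dzb_sm (coe_sm h) k) ht h1 hZ
    exact ((this _).sub ((this _).const_mul _)).div_const _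

end Vale.Agent.P264
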