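import Vale.Agent.P264.StmU

/-!
The scalar curvature in the momentum variable.
-/

namespace Vale.Agent.P264

open scoped ContDiff
open Set

namespace Stat

theorem ev {f g : ℝ → ℝ} (h : ∀ r ∈ Ioo (0 : ℝ) 1, f r = g r) {r : ℝ} (hr : r ∈ Ioo (0 : ℝ) 1) :
    f =ᶠ[nhds r] g := Filter.mem_of_superset (isOpen_Ioo.mem_nhds hr) h

theorem core {n : ℕ} (hn : 1 ≤ n) {f φ φ1 φ2 : ℝ → ℝ} (hP : ∀ r ∈ Ioo (0 : ℝ) 1, 0 < RP f r)
    (hQ : ∀ r ∈ Ioo (0 : ℝ) 1, 0 < RQ f r)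
    (hμ : ∀ r ∈ Ioo (0 : ℝ) 1, mu f r ∈ Ioo (0 : ℝ) 1 ∧ HasDerivAt (mu f) (RQ f r) r)
    (hφ : ∀ x ∈ Ioo (0 : ℝ) 1, HasDerivAt φ (φ1 x) x ∧ HasDerivAt φ1 (φ2 x) x)
    (hid : ∀ r ∈ Ioo (0 : ℝ) 1, r * (1 - r) * RQ f r = φ (mu f r)) {r : ℝ}
    (hr : r ∈ Ioo (0 : ℝ) 1) :
    radS n f r = n * (n - 1) / mu f r - φ2 (mu f r) - 2 * (n - 1) * φ1 (mu f r) / mu f r -
      (n - 1) * (n - 2) * φ (mu f r) / mu f r ^ 2 := by
  have hφ0 : ∀ r ∈ Ioo (0 : ℝ) 1, 0 < φ (mu f r) := fun r hr => by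
    rw [← hid r hr]
    exact mul_pos (mul_pos hr.1 (sub_pos.2 hr.2)) (hQ r hr)
  have hU : ∀ r ∈ Ioo (0 : ℝ) 1, RU n f r = (n - 1) * (Real.log (mu f r) - Real.log r) +
      (Real.log (φ (mu f r)) - Real.log r - Real.log (1 - r)) := fun r hr => by
    have h1 := (sub_pos.2 hr.2).ne'
    rw [RU, ← hid r hr, mu, Real.log_mul (pow_pos (hP r hr) _).ne' (hQ r hr).ne', Real.log_pow,
      Real.log_mul hr.1.ne' (hP r hr).ne', Real.log_mul (mul_ne_zero hr.1.ne' h1) (hQ r hr).ne',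
      Real.log_mul hr.1.ne' h1, Nat.cast_sub hn, Nat.cast_one]
    ring
  have hU1 : ∀ r ∈ Ioo (0 : ℝ) 1, deriv (RU n f) r =
      ((n - 1) * (φ (mu f r) / mu f r) + φ1 (mu f r) - n + (n + 1) * r) / (r * (1 - r)) :=
    fun r hr => by
    have h1 := (sub_pos.2 hr.2).ne'
    have h2 := hr.1.ne'
    have h3 := (hμ r hr).1.1.ne'
    have h4 := (hQ r hr).ne'
    have a1 := (hμ r hr).2.log h3
    have a2 := Real.hasDerivAt_log h2
    have a3 := ((hφ _ (hμ r hr).1).1.comp r (hμ r hr).2).log (hφ0 r hr).ne'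
    have a4 := ((hasDerivAt_id' r).const_sub 1).log h1
    have a5 := ((a1.sub a2).const_mul ((n : ℝ) - 1)).add ((a3.sub a2).sub a4)
    rw [(ev hU hr).deriv_eq]
    refine a5.deriv.trans ?_
    simp only [Function.comp_apply]
    rw [← hid r hr]
    field_simp
    ring
  have h1 := (sub_pos.2 hr.2).ne'
  have h2 := hr.1.ne'
  have h3 := (hμ r hr).1.1.ne'
  have h4 := (hQ r hr).ne'
  have h5 := (hP r hr).ne'
  have a1 := (hφ _ (hμ r hr).1).1.comp r (hμ r hr).2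
  have a2 := (hφ _ (hμ r hr).1).2.comp r (hμ r hr).2
  have a3 := (((((a1.div (hμ r hr).2 h3).const_mul ((n : ℝ) - 1)).add a2).sub_const (n : ℝ)).add
    ((hasDerivAt_id' r).const_mul ((n : ℝ) + 1))).div
    ((hasDerivAt_id' r).mul ((hasDerivAt_id' r).const_sub 1)) (mul_ne_zero h2 h1)
  have a4 := (ev hU1 hr).deriv_eq.trans a3.deriv
  simp only [Function.comp_apply, Pi.add_apply, Pi.div_apply, Pi.mul_apply] at a4
  have a5 : RP (RU n f) r = 1 + (1 - r) * deriv (RU n f) r := rfl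
  have a6 : RQ (RU n f) r = 1 + (1 - 2 * r) * deriv (RU n f) r +
    r * (1 - r) * deriv (deriv (RU n f)) r := rfl
  rw [radS, a5, a6, a4, hU1 r hr]
  generalize φ (mu f r) = p0
  generalize φ1 (mu f r) = p1
  generalize φ2 (mu f r) = p2
  rw [mu]
  generalize RP f r = P at h5
  generalize RQ f r = Q at h4
  field_simp
  ring

theorem jet {γ : ℝ → ℝ} (h : ContDiffOn ℝ ∞ γ (Ioo 0 1)) {x : ℝ} (hx : x ∈ Ioo (0 : ℝ) 1) :
    HasDerivAt γ (deriv γ x) x ∧ HasDerivAt (deriv γ) (deriv (deriv γ) x) x := by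
  have h' := (contDiffOn_infty_iff_deriv_of_isOpen isOpen_Ioo).1 h
  have h2 := (contDiffOn_infty_iff_deriv_of_isOpen isOpen_Ioo).1 h'.2
  exact ⟨(h'.1.differentiableAt (isOpen_Ioo.mem_nhds hx)).hasDerivAt,
    (h2.1.differentiableAt (isOpen_Ioo.mem_nhds hx)).hasDerivAt⟩

theorem om_d (x : ℝ) : HasDerivAt (om 1) (1 - 2 * x) x :=
  ((hasDerivAt_id' x).mul (((hasDerivAt_id' x).const_mul 1).const_sub 1)).congr_deriv (by ring)

theorem ell_d (n j : ℕ) (x : ℝ) : HasDerivAt (ell n 1 j) (-(n - 1) - 2 * (j + 1)) x :=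
  (((((hasDerivAt_id' x).const_mul 1).const_sub 1).const_mul ((n : ℝ) - 1)).add
    ((((hasDerivAt_id' x).const_mul (2 * 1)).const_sub 1).const_mul ((j : ℝ) + 1))).congr_deriv
    (by ring)

end Stat

theorem stat (h1 : SigStmt) (h2 : JetStmt) : StatStmt := by
  intro n hn S F hF t ht x hx
  obtain ⟨s1, s2⟩ := (h1 n S F hF).1 t ht
  obtain ⟨j1, -, -, j2⟩ := h2 n S F hF
  obtain ⟨c, hc, hp⟩ := hF.pos t
  have hγ : ContDiffOn ℝ ∞ (gam (F t)) (Ioo 0 1) := j1.1 t ht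
  have hid := j2 t ht
  generalize gam (F t) = γ at hγ hid ⊢
  have hφ : ∀ y ∈ Ioo (0 : ℝ) 1, HasDerivAt (fun y => om 1 y + om 1 y ^ 2 * γ y)
      (1 - 2 * y + (2 * om 1 y * (1 - 2 * y) * γ y + om 1 y ^ 2 * deriv γ y)) y ∧
      HasDerivAt (fun y => 1 - 2 * y + (2 * om 1 y * (1 - 2 * y) * γ y + om 1 y ^ 2 * deriv γ y))
        (-2 + ((2 * (1 - 2 * y) ^ 2 - 4 * om 1 y) * γ y + 4 * om 1 y * (1 - 2 * y) * deriv γ y +
          om 1 y ^ 2 * deriv (deriv γ) y)) y := fun y hy => by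
    obtain ⟨g1, g2⟩ := Stat.jet hγ hy
    have o := Stat.om_d y
    have l := ((hasDerivAt_id' y).const_mul 2).const_sub 1
    exact ⟨(o.add ((o.pow 2).mul g1)).congr_deriv (by simp only [Pi.pow_apply]; push_cast; ring),
      (l.add ((((o.const_mul 2).mul l).mul g1).add ((o.pow 2).mul g2))).congr_deriv
        (by simp only [Pi.pow_apply, Pi.mul_apply]; push_cast; ring)⟩
  rw [Stat.core hn (fun r hr => hc.trans_le (hp t ⟨ht, le_rfl⟩ r hr).1)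
    (fun r hr => hc.trans_le (hp t ⟨ht, le_rfl⟩ r hr).2) (fun r hr => ⟨(s1 r hr).1, (s1 r hr).2.2⟩)
    hφ hid (s2 x hx).1, (s2 x hx).2.1]
  obtain ⟨g1, g2⟩ := Stat.jet hγ hx
  have d : HasDerivAt (dl n 1 1 γ) _ x := ((Stat.om_d x).mul g2).add ((Stat.ell_d n 1 x).mul g1)
  have e : dl n 1 0 (dl n 1 1 γ) x = om 1 x * deriv (dl n 1 1 γ) x +
    ell n 1 0 x * (om 1 x * deriv γ x + ell n 1 1 x * γ x) := rfl
  have h0 := hx.1.ne'
  rw [e, d.deriv]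
  simp only [om, ell]
  field_simp
  push_cast
  ring

end Vale.Agent.P264
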