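import Vale.Agent.P264.StmU

/-! The evolution equation in the momentum variable. -/

namespace Vale.Agent.P264

open scoped ContDiff Topology
open Set Filter

namespace Time

/-- the open parameter domain -/
def Om : Set (ℝ × ℝ) := Ioi 0 ×ˢ Ioo 0 1

theorem isOpen_Om : IsOpen Om := isOpen_Ioi.prod isOpen_Ioo

noncomputable def D (v : ℝ × ℝ) (g : ℝ × ℝ → ℝ) (p : ℝ × ℝ) : ℝ := fderiv ℝ g p v

theorem D_sm {g : ℝ × ℝ → ℝ} (hg : ContDiffOn ℝ ∞ g Om) (v : ℝ × ℝ) :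
    ContDiffOn ℝ ∞ (D v g) Om :=
  (hg.fderiv_of_isOpen isOpen_Om (by simp)).clm_apply contDiffOn_const

theorem curve {g : ℝ × ℝ → ℝ} (hg : ContDiffOn ℝ ∞ g Om) {a b : ℝ → ℝ} {a' b' s : ℝ}
    (ha : HasDerivAt a a' s) (hb : HasDerivAt b b' s) (hp : (a s, b s) ∈ Om) :
    HasDerivAt (fun τ => g (a τ, b τ))
      (a' * D (1, 0) g (a s, b s) + b' * D (0, 1) g (a s, b s)) s := by
  have h1 := ((hg.contDiffAt (isOpen_Om.mem_nhds hp)).differentiableAt (by simp)).hasFDerivAt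
  have h2 := h1.comp_hasDerivAt s (ha.prodMk hb)
  have e : fderiv ℝ g (a s, b s) (a', b') =
      a' * D (1, 0) g (a s, b s) + b' * D (0, 1) g (a s, b s) := by
    have : ((a', b') : ℝ × ℝ) = a' • ((1, 0) : ℝ × ℝ) + b' • ((0, 1) : ℝ × ℝ) := by simp
    rw [this, map_add, map_smul, map_smul]
    rfl
  rw [e] at h2
  exact h2

theorem dr {g : ℝ × ℝ → ℝ} (hg : ContDiffOn ℝ ∞ g Om) {t r : ℝ} (hp : (t, r) ∈ Om) :
    HasDerivAt (fun s => g (t, s)) (D (0, 1) g (t, r)) r := by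
  have := curve hg (hasDerivAt_const r t) (hasDerivAt_id r) hp
  simpa using this

theorem dt {g : ℝ × ℝ → ℝ} (hg : ContDiffOn ℝ ∞ g Om) {t r : ℝ} (hp : (t, r) ∈ Om) :
    HasDerivAt (fun s => g (s, r)) (D (1, 0) g (t, r)) t := by
  have := curve hg (hasDerivAt_id t) (hasDerivAt_const t r) hp
  simpa using this

theorem comm {g : ℝ × ℝ → ℝ} (hg : ContDiffOn ℝ ∞ g Om) {p : ℝ × ℝ} (hp : p ∈ Om)
    (v w : ℝ × ℝ) : D v (D w g) p = D w (D v g) p := by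
  have h := hg.contDiffAt (isOpen_Om.mem_nhds hp)
  have h2 : ContDiffAt ℝ 2 g p := h.of_le (WithTop.coe_le_coe.2 (le_top : ((2 : ℕ∞)) ≤ ⊤))
  have hd : DifferentiableAt ℝ (fderiv ℝ g) p :=
    (h2.fderiv_right (m := 1) (by norm_num)).differentiableAt (by simp)
  have e : ∀ v w : ℝ × ℝ, D v (D w g) p = fderiv ℝ (fderiv ℝ g) p v w := by
    intro v w
    change fderiv ℝ (fun q => fderiv ℝ g q w) p v = _
    rw [fderiv_clm_apply hd (differentiableAt_const w)]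
    simp
  rw [e, e]
  exact (h2.isSymmSndFDerivAt (by simp)).eq v w

theorem D_congr {g k : ℝ × ℝ → ℝ} (h : ∀ q ∈ Om, g q = k q) {p : ℝ × ℝ} (hp : p ∈ Om)
    (v : ℝ × ℝ) : D v g p = D v k p := by
  have e : g =ᶠ[𝓝 p] k := eventually_of_mem (isOpen_Om.mem_nhds hp) h
  unfold D
  rw [e.fderiv_eq]

theorem dl_sm (n j : ℕ) {f : ℝ → ℝ} (hf : ContDiffOn ℝ ∞ f (Ioo 0 1)) :
    ContDiffOn ℝ ∞ (dl n 1 j f) (Ioo 0 1) := by
  have h1 : ContDiffOn ℝ ∞ (deriv f) (Ioo 0 1) := hf.deriv_of_isOpen isOpen_Ioo (by simp)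
  have h2 : ContDiff ℝ ∞ (om 1) := by
    unfold om
    fun_prop
  have h3 : ContDiff ℝ ∞ (ell n 1 j) := by
    unfold ell
    fun_prop
  exact (h2.contDiffOn.mul h1).add (h3.contDiffOn.mul hf)

end Time

open Time in
theorem time (h1 : SigStmt) (h2 : JetStmt) (h3 : StatStmt) : TimeStmt := by
  intro n hn S F hF t ht x hx
  obtain ⟨s1, -, -, s4⟩ := h1 n S F hF
  obtain ⟨j1, -, -, j4⟩ := h2 n S F hF
  set G : ℝ × ℝ → ℝ := fun p => F p.1 p.2 with hGd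
  have hG : ContDiffOn ℝ ∞ G Om := hF.smooth.mono (prod_mono Ioi_subset_Ici_self Subset.rfl)
  set G1 := D (0, 1) G with hG1d
  have hG1 : ContDiffOn ℝ ∞ G1 Om := D_sm hG _
  set G2 := D (0, 1) G1 with hG2d
  have hG2 : ContDiffOn ℝ ∞ G2 Om := D_sm hG1 _
  set H := D (1, 0) G with hHd
  have hH : ContDiffOn ℝ ∞ H Om := D_sm hG _
  set H1 := D (0, 1) H with hH1d
  have hH1 : ContDiffOn ℝ ∞ H1 Om := D_sm hH _
  have e1 : ∀ τ r, (τ, r) ∈ Om → deriv (F τ) r = G1 (τ, r) := fun τ r hp => (dr hG hp).deriv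
  have e2 : ∀ τ r, (τ, r) ∈ Om → deriv (deriv (F τ)) r = G2 (τ, r) := by
    intro τ r hp
    have e : deriv (F τ) =ᶠ[𝓝 r] fun s => G1 (τ, s) := by
      filter_upwards [isOpen_Ioo.mem_nhds hp.2] with s hs
      exact e1 τ s ⟨hp.1, hs⟩
    rw [e.deriv_eq]
    exact (dr hG1 hp).deriv
  have eQ : ∀ τ r, (τ, r) ∈ Om → RQ (F τ) r =
      1 + (1 - 2 * r) * G1 (τ, r) + r * (1 - r) * G2 (τ, r) := fun τ r hp => by
    rw [RQ, rq, e1 τ r hp, e2 τ r hp]
  have c1 : ∀ p ∈ Om, D (1, 0) G1 p = H1 p := fun p hp => comm hG hp _ _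
  have c2 : ∀ p ∈ Om, D (1, 0) G2 p = D (0, 1) H1 p := fun p hp => by
    rw [hG2d, comm hG1 hp, D_congr c1 hp]
  -- the static computation at time `t`
  set W := dl n 1 0 (dl n 1 1 (gam (F t))) with hWd
  have hW : ContDiffOn ℝ ∞ W (Ioo 0 1) := dl_sm n 0 (dl_sm n 1 (j1.1 t ht.le))
  have hW1 : ContDiffOn ℝ ∞ (deriv W) (Ioo 0 1) := hW.deriv_of_isOpen isOpen_Ioo (by simp)
  have dW : ∀ y ∈ Ioo (0 : ℝ) 1, HasDerivAt W (deriv W y) y := fun y hy =>
    ((hW.contDiffAt (isOpen_Ioo.mem_nhds hy)).differentiableAt (by simp)).hasDerivAt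
  have dW1 : ∀ y ∈ Ioo (0 : ℝ) 1, HasDerivAt (deriv W) (deriv (deriv W) y) y := fun y hy =>
    ((hW1.contDiffAt (isOpen_Ioo.mem_nhds hy)).differentiableAt (by simp)).hasDerivAt
  have st0 : ∀ r ∈ Ioo (0 : ℝ) 1, H (t, r) = n * (n + 1) - W (mu (F t) r) - S := by
    intro r hr
    obtain ⟨a1, a2, -⟩ := (s1 t ht.le).1 r hr
    have a3 := h3 n hn S F hF t ht.le _ a1
    rw [a2] at a3
    rw [← a3]
    exact (dt hG ⟨ht, hr⟩).unique (hF.eqn t ht r hr)
  have st1 : ∀ r ∈ Ioo (0 : ℝ) 1, H1 (t, r) = -(deriv W (mu (F t) r) *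
      (1 + (1 - 2 * r) * G1 (t, r) + r * (1 - r) * G2 (t, r))) := by
    intro r hr
    obtain ⟨a1, -, a3⟩ := (s1 t ht.le).1 r hr
    have a4 := (((dW _ a1).comp r a3).const_sub ((n : ℝ) * (n + 1))).sub_const S
    rw [← eQ t r ⟨ht, hr⟩]
    refine (dr hH ⟨ht, hr⟩).unique (a4.congr_of_eventuallyEq ?_)
    filter_upwards [isOpen_Ioo.mem_nhds hr] with s hs
    exact st0 s hs
  obtain ⟨r1, r2, -⟩ := (s1 t ht.le).2 x hx
  set r := sig (F t) x with hr
  have hp : (t, r) ∈ Om := ⟨ht, r1⟩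
  set a := G1 (t, r) with ha
  set b := G2 (t, r) with hb
  set c := D (0, 1) G2 (t, r) with hc
  set Q := 1 + (1 - 2 * r) * a + r * (1 - r) * b with hQ
  have st2 : D (0, 1) H1 (t, r) = -(deriv (deriv W) x * Q * Q + deriv W x *
      (-2 * a + (1 - 2 * r) * b + ((1 - 2 * r) * b + r * (1 - r) * c))) := by
    obtain ⟨a1, -, a3⟩ := (s1 t ht.le).1 r r1
    have a4 := (dW1 _ a1).comp r a3
    have a5 : HasDerivAt (fun s => 1 + (1 - 2 * s) * G1 (t, s) + s * (1 - s) * G2 (t, s))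
        (-2 * a + (1 - 2 * r) * b + ((1 - 2 * r) * b + r * (1 - r) * c)) r := by
      have b1 : HasDerivAt (fun s : ℝ => 1 - 2 * s) (-2) r := by
        simpa using ((hasDerivAt_id r).const_mul 2).const_sub 1
      have b2 : HasDerivAt (fun s : ℝ => s * (1 - s)) (1 - 2 * r) r :=
        ((hasDerivAt_id r).fun_mul ((hasDerivAt_id r).const_sub 1)).congr_deriv (by
          simp only [id]
          ring)
      exact ((b1.fun_mul (dr hG1 hp)).const_add 1).fun_add (b2.fun_mul (dr hG2 hp))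
    have a6 := (a4.fun_mul a5).fun_neg
    rw [eQ t r hp] at a6
    simp only [Function.comp_def] at a6
    rw [r2] at a6
    refine (dr hH1 hp).unique (a6.congr_of_eventuallyEq ?_)
    filter_upwards [isOpen_Ioo.mem_nhds r1] with s hs
    exact st1 s hs
  have st1' : H1 (t, r) = -(deriv W x * Q) := by rw [st1 r r1, r2]
  have hQ0 : 0 < Q := by
    obtain ⟨d, d0, hd⟩ := hF.pos t
    have := (hd t ⟨ht.le, le_rfl⟩ r r1).2
    rw [eQ t r hp] at this
    exact d0.trans_le this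
  -- the curve
  set σ : ℝ → ℝ := fun τ => sig (F τ) x with hσd
  obtain ⟨σ', hσ⟩ : ∃ σ', HasDerivAt σ σ' t := ⟨_, (s4 t ht x hx).hasDerivAt⟩
  have hσt : σ t = r := rfl
  have ev : ∀ᶠ τ in 𝓝 t, 0 < τ := lt_mem_nhds ht
  have da : HasDerivAt (fun τ => G1 (τ, σ τ)) (H1 (t, r) + σ' * b) t := by
    have := curve hG1 (hasDerivAt_id t) hσ hp
    simp only [id, one_mul] at this
    rwa [c1 _ hp] at this
  have db : HasDerivAt (fun τ => G2 (τ, σ τ)) (D (0, 1) H1 (t, r) + σ' * c) t := by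
    have := curve hG2 (hasDerivAt_id t) hσ hp
    simp only [id, one_mul] at this
    rwa [c2 _ hp] at this
  have hσ' : σ' = r * (1 - r) * deriv W x := by
    have a1 := hσ.fun_mul (((hσ.const_sub 1).fun_mul da).const_add 1)
    have a2 : (fun τ => σ τ * (1 + (1 - σ τ) * G1 (τ, σ τ))) =ᶠ[𝓝 t] fun _ => x := by
      filter_upwards [ev] with τ hτ
      obtain ⟨b1, b2, -⟩ := (s1 τ hτ.le).2 x hx
      rw [mu, RP, rp, e1 τ (sig (F τ) x) ⟨hτ, b1⟩] at b2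
      exact b2
    have a3 := (a1.congr_of_eventuallyEq a2.symm).unique (hasDerivAt_const t x)
    rw [hσt, st1'] at a3
    apply mul_right_cancel₀ hQ0.ne'
    rw [← ha] at a3
    linear_combination a3
  have hom0 : om 1 x ≠ 0 := by
    unfold om
    exact mul_ne_zero hx.1.ne' (by linarith [hx.2])
  have dφ := (hσ.fun_mul (hσ.const_sub 1)).fun_mul
    (((((hσ.const_mul 2).const_sub 1).fun_mul da).const_add 1).fun_add
      ((hσ.fun_mul (hσ.const_sub 1)).fun_mul db))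
  have eφ : (fun τ => gam (F τ) x) =ᶠ[𝓝 t] fun τ => (σ τ * (1 - σ τ) *
      (1 + (1 - 2 * σ τ) * G1 (τ, σ τ) + σ τ * (1 - σ τ) * G2 (τ, σ τ)) - om 1 x) / om 1 x ^ 2 := by
    filter_upwards [ev] with τ hτ
    obtain ⟨b1, b2, -⟩ := (s1 τ hτ.le).2 x hx
    have b3 := j4 τ hτ.le _ b1
    rw [b2, eQ τ (sig (F τ) x) ⟨hτ, b1⟩] at b3
    rw [eq_div_iff (pow_ne_zero 2 hom0)]
    linear_combination -b3
  have e0 : r * (1 - r) * Q = om 1 x * (1 + om 1 x * gam (F t) x) := by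
    have b3 := j4 t ht.le _ r1
    rw [r2, eQ t _ hp] at b3
    linear_combination b3
  refine (((dφ.sub_const (om 1 x)).div_const (om 1 x ^ 2)).congr_of_eventuallyEq eφ).congr_deriv ?_
  rw [div_eq_iff (pow_ne_zero 2 hom0), hσt, ← ha, ← hb, st1', st2, hσ', ← hQ]
  change _ = -(1 + om 1 x * gam (F t) x) ^ 2 * deriv (deriv W) x * om 1 x ^ 2
  linear_combination (-(deriv (deriv W) x) *
    (r * (1 - r) * Q + om 1 x * (1 + om 1 x * gam (F t) x))) * e0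

end Vale.Agent.P264
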