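import Vale.Agent.P264.StmU

/-!
From a Calabi flow in the affine charts to a flow in cone form.
-/

namespace Vale.Agent.P264

open scoped ContDiff ComplexOrder Matrix
open Set

namespace ToCone

/-- affine coordinates in the chart `i` -/
noncomputable def aff {n : ℕ} (i : Fin (n + 1)) (Z : V (n + 1)) : V n :=
  fun j => Z (i.succAbove j) / Z i

theorem smul_hom_aff {n : ℕ} {i : Fin (n + 1)} {Z : V (n + 1)} (h : Z i ≠ 0) :
    Z i • hom i (aff i Z) = Z := by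
  funext k
  refine Fin.succAboveCases i ?_ (fun j => ?_) k
  · simp [hom]
  · simp only [hom, aff, Pi.smul_apply, Fin.insertNth_apply_succAbove, smul_eq_mul]
    field_simp

theorem exists_ne {m : ℕ} {Z : V m} (h : Z ≠ 0) : ∃ i, Z i ≠ 0 := by
  by_contra hn
  exact h (funext fun i => not_not.mp fun hi => hn ⟨i, hi⟩)

theorem hom0_aff {n : ℕ} {α : Type} {f : V (n + 1) → α} (hf : Hom0 f) {i : Fin (n + 1)}
    {Z : V (n + 1)} (h : Z i ≠ 0) : f Z = f (hom i (aff i Z)) := by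
  have := hf (Z i) h _ (hom_ne_zero i (aff i Z))
  rwa [smul_hom_aff h] at this

theorem lift_hom {n : ℕ} (ψ : CP n → ℝ) (i : Fin (n + 1)) (z : V n) :
    lift ψ (hom i z) = ψ (chart i z) := by
  unfold lift
  rw [dif_pos (hom_ne_zero i z)]
  rfl

theorem lift_hom0 {n : ℕ} (ψ : CP n → ℝ) : Hom0 (lift ψ) := by
  intro c hc Z hZ
  unfold lift
  rw [dif_pos hZ, dif_pos (smul_ne_zero hc hZ)]
  exact congrArg ψ ((Projectivization.mk_eq_mk_iff' ℂ _ _ _ _).mpr ⟨c, rfl⟩)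

theorem lift_aff {n : ℕ} (ψ : CP n → ℝ) {i : Fin (n + 1)} {Z : V (n + 1)} (h : Z i ≠ 0) :
    lift ψ Z = ψ (chart i (aff i Z)) := by
  rw [hom0_aff (lift_hom0 ψ) h, lift_hom]

theorem metric_eq {n : ℕ} (ψ : CP n → ℝ) (i : Fin (n + 1)) (z : V n) :
    metric ψ i z = gch (lift ψ) i z := by
  unfold metric gch
  simp only [lift_hom]

theorem isOpen_nz (m : ℕ) : IsOpen (nz m) := isOpen_ne

theorem contDiff_hom {n : ℕ} (i : Fin (n + 1)) : ContDiff ℝ ∞ (hom i : V n → V (n + 1)) := by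
  rw [contDiff_pi]
  intro k
  refine Fin.succAboveCases i ?_ (fun j => ?_) k
  · simp only [hom, Fin.insertNth_apply_same]
    exact contDiff_const
  · simp only [hom, Fin.insertNth_apply_succAbove]
    exact contDiff_apply ℝ ℂ j

theorem contDiffAt_aff {n : ℕ} {i : Fin (n + 1)} {Z : V (n + 1)} (h : Z i ≠ 0) :
    ContDiffAt ℝ ∞ (aff i) Z := by
  rw [contDiffAt_pi]
  intro j
  simp only [aff, div_eq_mul_inv]
  exact ((contDiff_apply ℝ ℂ (i.succAbove j)).contDiffAt).mul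
    (((contDiff_apply ℝ ℂ i).contDiffAt (x := Z)).inv h)

theorem contDiffAt_comp_hom {n : ℕ} {f : V (n + 1) → ℝ} (hf : ContDiffOn ℝ ∞ f (nz (n + 1)))
    (i : Fin (n + 1)) (z : V n) : ContDiffAt ℝ ∞ (fun w => f (hom i w)) z :=
  (hf.contDiffAt ((isOpen_nz _).mem_nhds (hom_ne_zero i z))).comp z (contDiff_hom i).contDiffAt

theorem sm_lift {n : ℕ} {φ₀ : CP n → ℝ} {φ : ℝ → CP n → ℝ} (h₀ : SmoothFn φ₀)
    (h : ∀ i, ContDiffOn ℝ ∞ (fun p : ℝ × (Fin n → ℂ) => φ p.1 (chart i p.2))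
      (Ici 0 ×ˢ univ)) : Sm fun t => lift (φ₀ + φ t) := by
  rintro ⟨t, Z⟩ ⟨ht, hZ⟩
  obtain ⟨i, hi⟩ := exists_ne (show Z ≠ 0 from hZ)
  have ha : ContDiffAt ℝ ∞ (fun p : ℝ × V (n + 1) => aff i p.2) (t, Z) :=
    (contDiffAt_aff hi).comp (t, Z) contDiffAt_snd
  have h1 : ContDiffWithinAt ℝ ∞ (fun p : ℝ × V (n + 1) => φ p.1 (chart i (aff i p.2)))
      (Ici 0 ×ˢ nz (n + 1)) (t, Z) :=
    ContDiffWithinAt.comp (g := fun p : ℝ × (Fin n → ℂ) => φ p.1 (chart i p.2))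
      (f := fun p : ℝ × V (n + 1) => (p.1, aff i p.2)) (t, Z) (h i _ ⟨ht, mem_univ _⟩)
      (contDiffAt_fst.prodMk ha).contDiffWithinAt fun p hp => ⟨hp.1, mem_univ _⟩
  have h2 : ContDiffAt ℝ ∞ (fun p : ℝ × V (n + 1) => φ₀ (chart i (aff i p.2))) (t, Z) :=
    (h₀ i).contDiffAt.comp (t, Z) ha
  have h3 : ∀ᶠ p : ℝ × V (n + 1) in nhds (t, Z), p.2 i ≠ 0 :=
    (((continuous_apply i).comp continuous_snd).continuousAt (x := (t, Z))).eventually_ne hi
  refine (h2.contDiffWithinAt.add h1).congr_of_eventuallyEq ?_ (lift_aff _ hi)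
  filter_upwards [nhdsWithin_le_nhds h3] with p hp
  exact lift_aff _ hp

theorem hom0_cM (hW : WirtStmt) {m : ℕ} {f : V m → ℝ} (hf : ContDiffOn ℝ ∞ f (nz m))
    (h0 : Hom0 f) : Hom0 (cM f) := by
  intro c hc Z hZ
  have := hW.hom0_hess hf h0 c hc Z hZ
  unfold cM
  exact congrArg (fun A => 1 + A) this

theorem pos_lift (hW : WirtStmt) (hL : LinkStmt) {n : ℕ} {ψ : CP n → ℝ}
    (hs : ContDiffOn ℝ ∞ (lift ψ) (nz (n + 1))) (hk : IsKahler ψ) (Z : V (n + 1)) (hZ : Z ≠ 0) :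
    (cM (lift ψ) Z).PosDef := by
  obtain ⟨i, hi⟩ := exists_ne hZ
  rw [hom0_aff (hom0_cM hW hs (lift_hom0 ψ)) hi, ← (hL n _ hs (lift_hom0 ψ) i _).1, ← metric_eq]
  exact hk i _

theorem scal_eq (hW : WirtStmt) (hS : SmStmt) (hL : LinkStmt) {n : ℕ} {ψ : CP n → ℝ}
    (hs : ContDiffOn ℝ ∞ (lift ψ) (nz (n + 1))) (hk : IsKahler ψ) (i : Fin (n + 1)) (z : V n) :
    scal ψ i z = cS (lift ψ) (hom i z) := by
  have h0 := lift_hom0 ψ
  obtain ⟨-, hl0, -, hls, -, -⟩ := hS.static hs h0 (pos_lift hW hL hs hk)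
  have hg : ∀ w, (gch (lift ψ) i w).PosDef := fun w => metric_eq ψ i w ▸ hk i w
  have e1 : (fun w => Real.log (metric ψ i w).det.re) = fun w =>
      1 * ldet (lift ψ) (hom i w) + (-((n : ℝ) + 1)) * Real.log (nsq (hom i w)) + 0 := by
    funext w
    have hN := hW.nsq_pos (hom_ne_zero i w)
    have hd : 0 < (gch (lift ψ) i w).det.re := (Complex.pos_iff.mp (hg w).det_pos).1
    rw [metric_eq, ldet, (hL n _ hs h0 i w).2.1, ← Complex.ofReal_pow, Complex.re_ofReal_mul,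
      Real.log_mul (pow_pos hN _).ne' hd.ne', Real.log_pow]
    push_cast
    ring
  have hlog : ContDiffAt ℝ ∞ (fun w : V n => Real.log (nsq (hom i w))) z :=
    (hW.nsq_smooth.comp (contDiff_hom i)).contDiffAt.log (hW.nsq_pos (hom_ne_zero i z)).ne'
  obtain ⟨e2, e3⟩ := (hL n _ hs h0 i z).2.2 (hg z)
  have e4 := e2 _ hls hl0
  unfold scal cS
  rw [e1, hW.hess_lin _ _ _ (contDiffAt_comp_hom hls i z) hlog, metric_eq, Matrix.mul_add,
    Matrix.mul_smul, Matrix.mul_smul, Matrix.trace_add, Matrix.trace_smul, Matrix.trace_smul,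
    Complex.add_re, smul_eq_mul, smul_eq_mul, Complex.re_ofReal_mul, Complex.re_ofReal_mul, e3, e4]
  push_cast
  ring

end ToCone

open ToCone in
theorem toCone (hW : WirtStmt) (hS : SmStmt) (hL : LinkStmt) : ToConeStmt := by
  intro n φ₀ Sbar φ h₀ hφ
  have hsm := sm_lift h₀ hφ.smooth
  refine ⟨hsm, fun t _ => lift_hom0 _, fun t ht =>
    pos_lift hW hL (hS.slice hsm t ht) (hφ.kahler t ht), fun t ht Z hZ => ?_⟩
  obtain ⟨i, hi⟩ := exists_ne hZ
  have hs := hS.slice hsm t ht.le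
  have hk := hφ.kahler t ht.le
  obtain ⟨-, -, hc0, -, -, -⟩ := hS.static hs (lift_hom0 _) (pos_lift hW hL hs hk)
  rw [hom0_aff hc0 hi, ← scal_eq hW hS hL hs hk]
  simp only [lift_aff _ hi, Pi.add_apply]
  exact (hφ.eqn t ht i _).const_add _

end Vale.Agent.P264
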