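import Vale.Agent.P264.UniqA

/-! Uniqueness of smooth solutions of the Calabi flow in cone form, by an energy estimate. -/

namespace Vale.Agent.P264

open scoped ContDiff ComplexOrder Matrix Topology
open Set MeasureTheory Filter

namespace Uniq

variable {m : ℕ}

theorem cn_of_sm {α : Type} [NormedAddCommGroup α] [NormedSpace ℝ α] {f : ℝ → V m → α}
    (hf : Sm f) : Cn f := ContDiffOn.continuousOn hf

theorem at_of_on {f : V m → ℝ} (hf : ContDiffOn ℝ ∞ f (nz m)) {Z : V m} (hZ : Z ≠ 0) :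
    ContDiffAt ℝ ∞ f Z := hf.contDiffAt (nz_open.mem_nhds hZ)

theorem det_real {A : Matrix (Fin m) (Fin m) ℂ} (hA : A.PosDef) :
    0 < A.det.re ∧ A.det.im = 0 := by
  have h := Complex.pos_iff.1 hA.det_pos
  exact ⟨h.1, h.2.symm⟩

theorem det_unit {A : Matrix (Fin m) (Fin m) ℂ} (hA : A.PosDef) : IsUnit A.det :=
  hA.det_pos.ne'.isUnit

theorem lap_eq (φ h : V m → ℝ) (Z : V m) :
    ((cM φ Z)⁻¹ * ((nsq Z : ℂ) • hess h Z)).trace.re = lap φ h Z := by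
  rw [Matrix.mul_smul, Matrix.trace_smul, smul_eq_mul, Complex.re_ofReal_mul]
  rfl

theorem tr_cM (φ ψ : V m → ℝ) (Z : V m) :
    ((cM φ Z)⁻¹ * cM ψ Z).trace.re = ((cM φ Z)⁻¹).trace.re + lap φ ψ Z := by
  have e : cM ψ Z = 1 + (nsq Z : ℂ) • hess ψ Z := rfl
  rw [e, Matrix.mul_add, Matrix.mul_one, Matrix.trace_add, Complex.add_re, lap_eq]

theorem lap_const (hW : WirtStmt) (φ : V m → ℝ) (c : ℝ) (Z : V m) :
    lap φ (fun _ => c) Z = 0 := by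
  have h := hW.hess_lin 0 0 c (f := fun _ : V m => (0 : ℝ)) (g := fun _ => (0 : ℝ)) (z := Z)
    contDiffAt_const contDiffAt_const
  simp only [mul_zero, add_zero, zero_add, Complex.ofReal_zero, zero_smul] at h
  unfold lap
  rw [h]
  simp

theorem lap_sub (hW : WirtStmt) (φ : V m → ℝ) {f g : V m → ℝ} {Z : V m}
    (hf : ContDiffAt ℝ ∞ f Z) (hg : ContDiffAt ℝ ∞ g Z) :
    lap φ (fun W => f W - g W) Z = lap φ f Z - lap φ g Z := by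
  have h := hW.hess_lin 1 (-1) 0 hf hg
  have e : (fun w => 1 * f w + -1 * g w + 0) = fun W => f W - g W := by
    funext w
    ring
  rw [e] at h
  unfold lap
  rw [h]
  simp only [Complex.ofReal_one, one_smul, Complex.ofReal_neg, neg_smul, Matrix.mul_add,
    Matrix.mul_neg, Matrix.trace_add, Matrix.trace_neg, Complex.add_re, Complex.neg_re]
  ring

theorem cM_congr (hW : WirtStmt) {φ ψ : V m → ℝ} (h : ∀ Z, Z ≠ 0 → φ Z = ψ Z) {Z : V m}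
    (hZ : Z ≠ 0) : cM φ Z = cM ψ Z := by
  have he : φ =ᶠ[𝓝 Z] ψ := by
    filter_upwards [nz_open.mem_nhds hZ] with W hW'
    exact h W hW'
  unfold cM
  rw [hW.hess_congr he]

theorem cS_congr (hW : WirtStmt) {φ ψ : V m → ℝ} (h : ∀ Z, Z ≠ 0 → cM φ Z = cM ψ Z) {Z : V m}
    (hZ : Z ≠ 0) : cS φ Z = cS ψ Z := by
  have he : ldet φ =ᶠ[𝓝 Z] ldet ψ := by
    filter_upwards [nz_open.mem_nhds hZ] with W hW'
    unfold ldet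
    rw [h W hW']
  unfold cS lap
  rw [hW.hess_congr he, h Z hZ]

theorem avg_lap (hW : WirtStmt) (hG : GreenStmt) {φ h : V m → ℝ}
    (hφ : ContDiffOn ℝ ∞ φ (nz m)) (hh : ContDiffOn ℝ ∞ h (nz m)) (h0 : Hom0 φ) (h1 : Hom0 h)
    (hp : ∀ Z, Z ≠ 0 → (cM φ Z).PosDef) :
    avg (fun Z => lap φ h Z * (cM φ Z).det.re) = 0 := by
  have h2 := hG m φ (fun _ => 1) h hφ contDiffOn_const hh h0 (fun _ _ _ _ => rfl) h1 hp
  simp only [one_mul, lap_const hW, mul_zero, zero_mul] at h2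
  rw [h2]
  exact avg_zero

/-- the volume density -/
noncomputable def vv (Φ : ℝ → V m → ℝ) (t : ℝ) (Z : V m) : ℝ := (cM (Φ t) Z).det.re

/-- the Laplacian of the scalar curvature -/
noncomputable def ds (Φ : ℝ → V m → ℝ) (t : ℝ) (Z : V m) : ℝ := lap (Φ t) (cS (Φ t)) Z

section one

variable {S : ℝ} {Φ : ℝ → V m → ℝ}

theorem vv_pos (h : ConeFlow S Φ) {t : ℝ} (ht : 0 ≤ t) {Z : V m} (hZ : Z ≠ 0) : 0 < vv Φ t Z :=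
  (det_real (h.pos t ht Z hZ)).1

theorem vv_deriv (hW : WirtStmt) (hJ : JacStmt) (hS : SmStmt) (h : ConeFlow S Φ) {t : ℝ}
    (ht : 0 < t) {Z : V m} (hZ : Z ≠ 0) :
    HasDerivAt (fun τ => vv Φ τ Z) (vv Φ t Z * ds Φ t Z) t := by
  have hst := hS.static (hS.slice h.smooth t ht.le) (h.hom0 t ht.le) (h.pos t ht.le)
  have hc : ContDiffAt ℝ ∞ (cS (Φ t)) Z := at_of_on hst.2.2.2.2.1 hZ
  have e1 : hess (fun W => cS (Φ t) W - S) Z = hess (cS (Φ t)) Z := by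
    have h1 := hW.hess_lin 1 0 (-S) hc hc
    have e : (fun w => 1 * cS (Φ t) w + 0 * cS (Φ t) w + -S) = fun W => cS (Φ t) W - S := by
      funext w
      ring
    rw [e] at h1
    rw [h1]
    simp
  have hd : ∀ j k, HasDerivAt (fun s => cM (Φ s) Z j k)
      (((nsq Z : ℂ) • hess (cS (Φ t)) Z) j k) t := by
    intro j k
    have h2 := hS.hess_t (g := fun W => cS (Φ t) W - S) h.smooth ht (h.eqn t ht) Z hZ j k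
    rw [e1] at h2
    exact (h2.const_mul (nsq Z : ℂ)).const_add ((1 : Matrix (Fin m) (Fin m) ℂ) j k)
  have h3 := hJ.det_t (M := fun s => cM (Φ s) Z) hd (det_unit (h.pos t ht.le Z hZ))
  have h4 := Complex.reCLM.hasFDerivAt.comp_hasDerivAt t h3
  have e2 : Complex.reCLM ((cM (Φ t) Z).det *
      ((cM (Φ t) Z)⁻¹ * ((nsq Z : ℂ) • hess (cS (Φ t)) Z)).trace) = vv Φ t Z * ds Φ t Z := by
    rw [Complex.reCLM_apply, Complex.mul_re, (det_real (h.pos t ht.le Z hZ)).2, zero_mul, sub_zero,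
      lap_eq]
    rfl
  rw [e2] at h4
  exact h4

theorem ldet_deriv (hW : WirtStmt) (hJ : JacStmt) (hS : SmStmt) (h : ConeFlow S Φ) {t : ℝ}
    (ht : 0 < t) {Z : V m} (hZ : Z ≠ 0) :
    HasDerivAt (fun τ => ldet (Φ τ) Z) (ds Φ t Z) t := by
  have hp := vv_pos h ht.le hZ
  have h1 := (vv_deriv hW hJ hS h ht hZ).log hp.ne'
  rw [mul_div_cancel_left₀ _ hp.ne'] at h1
  exact h1

theorem cn_vv (hS : SmStmt) (h : ConeFlow S Φ) : Cn (vv Φ) :=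
  cn_of_sm (hS.curv_sm h.smooth h.pos).2.1

theorem sm_ldet (hS : SmStmt) (h : ConeFlow S Φ) : Sm fun t Z => ldet (Φ t) Z :=
  (hS.curv_sm h.smooth h.pos).2.2.1

theorem sm_cS (hS : SmStmt) (h : ConeFlow S Φ) : Sm fun t Z => cS (Φ t) Z :=
  (hS.curv_sm h.smooth h.pos).2.2.2.1

theorem cn_lap (hS : SmStmt) (h : ConeFlow S Φ) {g : ℝ → V m → ℝ} (hg : Sm g) :
    Cn fun t Z => lap (Φ t) (g t) Z :=
  cn_of_sm ((hS.curv_sm h.smooth h.pos).2.2.2.2 g hg)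

theorem cn_ds (hS : SmStmt) (h : ConeFlow S Φ) : Cn (ds Φ) :=
  cn_lap hS h (g := fun t => cS (Φ t)) (sm_cS hS h)

theorem cn_cM (hS : SmStmt) (h : ConeFlow S Φ) : Cn fun t Z => cM (Φ t) Z :=
  Cn.of_entry fun j k => cn_of_sm (hS.cM_sm h.smooth j k)

theorem cn_inv (hS : SmStmt) (h : ConeFlow S Φ) : Cn fun t Z => (cM (Φ t) Z)⁻¹ :=
  Cn.of_entry fun j k => cn_of_sm ((hS.curv_sm h.smooth h.pos).1 j k)

theorem cn_hess (hS : SmStmt) {g : ℝ → V m → ℝ} (hg : Sm g) :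
    Cn fun t Z => (nsq Z : ℂ) • hess (g t) Z := by
  refine Cn.of_entry fun j k => ?_
  have h1 : Cn fun t Z => hess (g t) Z j k := cn_of_sm (hS.hess_sm hg j k)
  have h2 : Continuous fun p : ℝ × V m => (nsq p.2 : ℂ) :=
    Complex.continuous_ofReal.comp (nsq_cont.comp continuous_snd)
  exact ContinuousOn.mul h2.continuousOn h1

theorem avg_vv (hW : WirtStmt) (hJ : JacStmt) (hG : GreenStmt) (hS : SmStmt) (h : ConeFlow S Φ)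
    {t : ℝ} (ht : 0 ≤ t) : avg (vv Φ t) = avg (vv Φ 0) := by
  refine const_of_deriv (f := fun τ => avg (vv Φ τ)) (avg_cont (cn_vv hS h)) (fun s hs => ?_) ht
  have h1 := avg_deriv (G := fun t Z => vv Φ t Z * ds Φ t Z) (cn_vv hS h)
    (ContinuousOn.mul (cn_vv hS h) (cn_ds hS h))
    (fun t ht Z hZ => vv_deriv hW hJ hS h ht hZ) hs
  have hst := hS.static (hS.slice h.smooth s hs.le) (h.hom0 s hs.le) (h.pos s hs.le)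
  have h2 := avg_lap hW hG (hS.slice h.smooth s hs.le) hst.2.2.2.2.1 (h.hom0 s hs.le) hst.2.2.1
    (h.pos s hs.le)
  have h3 : avg (fun Z => vv Φ s Z * ds Φ s Z) = 0 := by
    rw [← h2]
    exact avg_congr fun Z _ => mul_comm _ _
  rw [h3] at h1
  exact h1

end one

/-- difference of the log determinants -/
noncomputable def eta (Φ₁ Φ₂ : ℝ → V m → ℝ) (t : ℝ) (Z : V m) : ℝ :=
  ldet (Φ₁ t) Z - ldet (Φ₂ t) Z

/-- squared size of the difference of the matrices -/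
noncomputable def aa (Φ₁ Φ₂ : ℝ → V m → ℝ) (t : ℝ) (Z : V m) : ℝ :=
  ∑ j, ∑ k, ‖(cM (Φ₂ t) Z - cM (Φ₁ t) Z) j k‖ ^ 2

noncomputable def w0 (Φ₁ Φ₂ : ℝ → V m → ℝ) (t : ℝ) (Z : V m) : ℝ :=
  lap (Φ₁ t) (Φ₂ t) Z - lap (Φ₁ t) (Φ₁ t) Z + eta Φ₁ Φ₂ t Z

/-- the energy density -/
noncomputable def en (Φ₁ Φ₂ : ℝ → V m → ℝ) (t : ℝ) (Z : V m) : ℝ :=
  eta Φ₁ Φ₂ t Z ^ 2 * vv Φ₁ t Z

/-- its time derivative -/
noncomputable def en' (Φ₁ Φ₂ : ℝ → V m → ℝ) (t : ℝ) (Z : V m) : ℝ :=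
  2 * eta Φ₁ Φ₂ t Z * (ds Φ₁ t Z - ds Φ₂ t Z) * vv Φ₁ t Z
    + eta Φ₁ Φ₂ t Z ^ 2 * (vv Φ₁ t Z * ds Φ₁ t Z)

section two

variable {S : ℝ} {Φ₁ Φ₂ : ℝ → V m → ℝ}

theorem aa_nonneg (t : ℝ) (Z : V m) : 0 ≤ aa Φ₁ Φ₂ t Z :=
  Finset.sum_nonneg fun _ _ => Finset.sum_nonneg fun _ _ => by positivity

theorem sm_eta (hS : SmStmt) (h1 : ConeFlow S Φ₁) (h2 : ConeFlow S Φ₂) : Sm (eta Φ₁ Φ₂) :=
  ContDiffOn.sub (sm_ldet hS h1) (sm_ldet hS h2)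

theorem cn_w0 (hS : SmStmt) (h1 : ConeFlow S Φ₁) (h2 : ConeFlow S Φ₂) : Cn (w0 Φ₁ Φ₂) :=
  ContinuousOn.add (ContinuousOn.sub (cn_lap hS h1 h2.smooth) (cn_lap hS h1 h1.smooth))
    (cn_of_sm (sm_eta hS h1 h2))

theorem cn_en (hS : SmStmt) (h1 : ConeFlow S Φ₁) (h2 : ConeFlow S Φ₂) : Cn (en Φ₁ Φ₂) :=
  ContinuousOn.mul (ContinuousOn.pow (cn_of_sm (sm_eta hS h1 h2)) 2) (cn_vv hS h1)

theorem cn_en' (hS : SmStmt) (h1 : ConeFlow S Φ₁) (h2 : ConeFlow S Φ₂) : Cn (en' Φ₁ Φ₂) :=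
  ContinuousOn.add
    (ContinuousOn.mul (ContinuousOn.mul
      (ContinuousOn.mul continuousOn_const (cn_of_sm (sm_eta hS h1 h2)))
      (ContinuousOn.sub (cn_ds hS h1) (cn_ds hS h2))) (cn_vv hS h1))
    (ContinuousOn.mul (ContinuousOn.pow (cn_of_sm (sm_eta hS h1 h2)) 2)
      (ContinuousOn.mul (cn_vv hS h1) (cn_ds hS h1)))

theorem en_deriv (hW : WirtStmt) (hJ : JacStmt) (hS : SmStmt) (h1 : ConeFlow S Φ₁)
    (h2 : ConeFlow S Φ₂) {t : ℝ} (ht : 0 < t) {Z : V m} (hZ : Z ≠ 0) :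
    HasDerivAt (fun τ => en Φ₁ Φ₂ τ Z) (en' Φ₁ Φ₂ t Z) t := by
  have d1 : HasDerivAt (fun τ => eta Φ₁ Φ₂ τ Z) (ds Φ₁ t Z - ds Φ₂ t Z) t :=
    (ldet_deriv hW hJ hS h1 ht hZ).fun_sub (ldet_deriv hW hJ hS h2 ht hZ)
  have d2 := (d1.fun_mul d1).fun_mul (vv_deriv hW hJ hS h1 ht hZ)
  have e : (fun τ => en Φ₁ Φ₂ τ Z) = fun τ => eta Φ₁ Φ₂ τ Z * eta Φ₁ Φ₂ τ Z * vv Φ₁ τ Z := by
    funext τ
    unfold en
    ring
  rw [e]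
  refine d2.congr_deriv ?_
  unfold en'
  ring

theorem tr_bound (hS : SmStmt) (h1 : ConeFlow S Φ₁) (h2 : ConeFlow S Φ₂)
    {X : ℝ → V m → Matrix (Fin m) (Fin m) ℂ} (hX : Cn X) (T : ℝ) :
    ∃ C : ℝ, 0 ≤ C ∧ ∀ t ∈ Icc (0 : ℝ) T, ∀ Z ∈ KK m,
      (((cM (Φ₁ t) Z)⁻¹ * X t Z).trace.re - ((cM (Φ₂ t) Z)⁻¹ * X t Z).trace.re) ^ 2
        ≤ C * aa Φ₁ Φ₂ t Z := by
  have hc : Cn fun t Z => (cM (Φ₂ t) Z)⁻¹ * X t Z * (cM (Φ₁ t) Z)⁻¹ :=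
    ContinuousOn.mul (ContinuousOn.mul (cn_inv hS h2) hX) (cn_inv hS h1)
  obtain ⟨C, -, hC⟩ := hc.mbound T
  exact ⟨C ^ 2 * m ^ 2, by positivity, fun t ht Z hZ =>
    trace_inv_sub (det_unit (h1.pos t ht.1 Z (KK_ne hZ))) (det_unit (h2.pos t ht.1 Z (KK_ne hZ)))
      (hC t ht Z hZ)⟩

theorem lap_bound (hS : SmStmt) (h1 : ConeFlow S Φ₁) (h2 : ConeFlow S Φ₂)
    {g : ℝ → V m → ℝ} (hg : Sm g) (T : ℝ) :
    ∃ C : ℝ, 0 ≤ C ∧ ∀ t ∈ Icc (0 : ℝ) T, ∀ Z ∈ KK m,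
      (lap (Φ₁ t) (g t) Z - lap (Φ₂ t) (g t) Z) ^ 2 ≤ C * aa Φ₁ Φ₂ t Z := by
  obtain ⟨C, hC0, hC⟩ := tr_bound hS h1 h2 (cn_hess hS hg) T
  refine ⟨C, hC0, fun t ht Z hZ => ?_⟩
  have := hC t ht Z hZ
  rwa [lap_eq, lap_eq] at this

theorem aa_le (hM : MatStmt) (hS : SmStmt) (h1 : ConeFlow S Φ₁) (h2 : ConeFlow S Φ₂) (T : ℝ) :
    ∃ c : ℝ, 0 < c ∧ ∀ t ∈ Icc (0 : ℝ) T, ∀ Z ∈ KK m, c * aa Φ₁ Φ₂ t Z ≤ w0 Φ₁ Φ₂ t Z := by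
  obtain ⟨C1, p1, b1⟩ := (cn_cM hS h1).mbound T
  obtain ⟨C2, p2, b2⟩ := (cn_cM hS h2).mbound T
  obtain ⟨C3, p3, b3⟩ := (cn_inv hS h1).mbound T
  obtain ⟨C4, p4, b4⟩ := (cn_inv hS h2).mbound T
  obtain ⟨c, hc, hb⟩ := hM m (C1 + C2 + C3 + C4)
  refine ⟨c, hc, fun t ht Z hZ => ?_⟩
  have hp1 := h1.pos t ht.1 Z (KK_ne hZ)
  have h3 := hb _ _ hp1 (h2.pos t ht.1 Z (KK_ne hZ)) fun j k =>
    ⟨(b1 t ht Z hZ j k).trans (by linarith), (b2 t ht Z hZ j k).trans (by linarith),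
      (b3 t ht Z hZ j k).trans (by linarith), (b4 t ht Z hZ j k).trans (by linarith)⟩
  have h4 := tr_cM (Φ₁ t) (Φ₁ t) Z
  rw [Matrix.nonsing_inv_mul _ (det_unit hp1), Matrix.trace_one, Fintype.card_fin,
    Complex.natCast_re] at h4
  rw [tr_cM] at h3
  unfold w0 eta ldet aa
  linarith

theorem avg_w0 (hW : WirtStmt) (hJ : JacStmt) (hG : GreenStmt) (hS : SmStmt)
    (h1 : ConeFlow S Φ₁) (h2 : ConeFlow S Φ₂) (h0 : ∀ Z, Z ≠ 0 → Φ₁ 0 Z = Φ₂ 0 Z) (T : ℝ) :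
    ∃ C : ℝ, 0 ≤ C ∧ ∀ t ∈ Icc (0 : ℝ) T,
      avg (fun Z => w0 Φ₁ Φ₂ t Z * vv Φ₁ t Z) ≤ C * avg (en Φ₁ Φ₂ t) := by
  obtain ⟨B, -, hB⟩ := (cn_of_sm (sm_eta hS h1 h2)).bound T
  refine ⟨Real.exp B, (Real.exp_pos B).le, fun t ht => ?_⟩
  have s1 := hS.slice h1.smooth t ht.1
  have s2 := hS.slice h2.smooth t ht.1
  have a1 : avg (fun Z => lap (Φ₁ t) (Φ₁ t) Z * vv Φ₁ t Z) = 0 :=
    avg_lap hW hG s1 s1 (h1.hom0 t ht.1) (h1.hom0 t ht.1) (h1.pos t ht.1)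
  have a2 : avg (fun Z => lap (Φ₁ t) (Φ₂ t) Z * vv Φ₁ t Z) = 0 :=
    avg_lap hW hG s1 s2 (h1.hom0 t ht.1) (h2.hom0 t ht.1) (h1.pos t ht.1)
  have a3 : avg (vv Φ₁ t) = avg (vv Φ₂ t) := by
    rw [avg_vv hW hJ hG hS h1 ht.1, avg_vv hW hJ hG hS h2 ht.1]
    refine avg_congr fun Z hZ => ?_
    unfold vv
    rw [cM_congr hW h0 hZ]
  have c1 := (cn_vv hS h1).slice ht.1
  have c2 := (cn_vv hS h2).slice ht.1
  have c3 : ContinuousOn (fun Z => lap (Φ₁ t) (Φ₁ t) Z * vv Φ₁ t Z) (nz m) :=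
    ((cn_lap hS h1 h1.smooth).slice ht.1).mul c1
  have c4 : ContinuousOn (fun Z => lap (Φ₁ t) (Φ₂ t) Z * vv Φ₁ t Z) (nz m) :=
    ((cn_lap hS h1 h2.smooth).slice ht.1).mul c1
  have c5 : ContinuousOn (fun Z => w0 Φ₁ Φ₂ t Z * vv Φ₁ t Z) (nz m) :=
    ((cn_w0 hS h1 h2).slice ht.1).mul c1
  have c6 := (cn_en hS h1 h2).slice ht.1
  have c7 : ContinuousOn (fun Z => Real.exp B * en Φ₁ Φ₂ t Z) (nz m) := continuousOn_const.mul c6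
  have c8 : ContinuousOn (fun Z => vv Φ₁ t Z - vv Φ₂ t Z) (nz m) := c1.sub c2
  have c9 : ContinuousOn (fun Z => lap (Φ₁ t) (Φ₂ t) Z * vv Φ₁ t Z
      - lap (Φ₁ t) (Φ₁ t) Z * vv Φ₁ t Z) (nz m) := c4.sub c3
  have c10 : ContinuousOn (fun Z => (vv Φ₁ t Z - vv Φ₂ t Z) + (lap (Φ₁ t) (Φ₂ t) Z * vv Φ₁ t Z
      - lap (Φ₁ t) (Φ₁ t) Z * vv Φ₁ t Z)) (nz m) := c8.add c9
  have key := avg_mono c5 (c7.add c10) fun Z hZ => by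
    have p1 := vv_pos h1 ht.1 (KK_ne hZ)
    have p2 := vv_pos h2 ht.1 (KK_ne hZ)
    have e1 : Real.exp (-eta Φ₁ Φ₂ t Z) * vv Φ₁ t Z = vv Φ₂ t Z := by
      have e2 : -eta Φ₁ Φ₂ t Z = Real.log (vv Φ₂ t Z) - Real.log (vv Φ₁ t Z) := by
        unfold eta ldet vv
        ring
      rw [e2, Real.exp_sub, Real.exp_log p1, Real.exp_log p2, div_mul_cancel₀ _ p1.ne']
    have b1 : |-eta Φ₁ Φ₂ t Z| ≤ B := by
      rw [abs_neg]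
      exact hB t ht Z hZ
    have b2 := mul_le_mul_of_nonneg_right (exp_quad b1) p1.le
    simp only [Pi.add_apply]
    unfold w0 en
    nlinarith
  have e3 : avg ((fun Z => Real.exp B * en Φ₁ Φ₂ t Z) + fun Z => (vv Φ₁ t Z - vv Φ₂ t Z) +
      (lap (Φ₁ t) (Φ₂ t) Z * vv Φ₁ t Z - lap (Φ₁ t) (Φ₁ t) Z * vv Φ₁ t Z))
      = Real.exp B * avg (en Φ₁ Φ₂ t) := by
    refine (avg_add c7 c10).trans ?_
    rw [avg_add c8 c9, avg_sub c1 c2, avg_sub c4 c3, a1, a2, a3, avg_const_mul]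
    ring
  exact key.trans e3.le

theorem pt_ineq {η x r₁ r₂ v d B a K₁ K₂ c w : ℝ} (hv : 0 < v) (hd : d ≤ B)
    (h1 : r₁ ^ 2 ≤ K₁ * a) (h2 : r₂ ^ 2 ≤ K₂ * a) (hK₁ : 0 ≤ K₁) (hK₂ : 0 ≤ K₂) (hc : 0 < c)
    (hw : c * a ≤ w) :
    2 * η * r₂ * v + η ^ 2 * (v * d) + 2 * ((-x + r₁) * x * v)
      ≤ (K₁ + K₂) / c * (w * v) + (1 + B) * (η ^ 2 * v) := by
  have e1 : (K₁ + K₂) * a ≤ (K₁ + K₂) / c * w := by
    rw [div_mul_eq_mul_div, le_div_iff₀ hc, mul_assoc, mul_comm a c]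
    exact mul_le_mul_of_nonneg_left hw (by linarith)
  have e2 : η ^ 2 * d ≤ η ^ 2 * B := mul_le_mul_of_nonneg_left hd (sq_nonneg η)
  have e3 : 2 * η * r₂ + η ^ 2 * d + 2 * ((-x + r₁) * x)
      ≤ (K₁ + K₂) / c * w + (1 + B) * η ^ 2 := by
    nlinarith [sq_nonneg (η - r₂), sq_nonneg (2 * x - r₁), sq_nonneg r₁]
  have e4 := mul_le_mul_of_nonneg_right e3 hv.le
  nlinarith

theorem avg_en' (hW : WirtStmt) (hG : GreenStmt) (hM : MatStmt) (hS : SmStmt)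
    (h1 : ConeFlow S Φ₁) (h2 : ConeFlow S Φ₂) (T : ℝ) :
    ∃ C₁ C₂ : ℝ, 0 ≤ C₁ ∧ ∀ t ∈ Icc (0 : ℝ) T, avg (en' Φ₁ Φ₂ t) ≤
      C₁ * avg (fun Z => w0 Φ₁ Φ₂ t Z * vv Φ₁ t Z) + C₂ * avg (en Φ₁ Φ₂ t) := by
  obtain ⟨c, hc, hca⟩ := aa_le hM hS h1 h2 T
  obtain ⟨B, -, hB⟩ := (cn_ds hS h1).bound T
  obtain ⟨Ka, pa, ba⟩ := tr_bound hS h1 h2 (X := fun _ _ => 1) continuousOn_const T
  obtain ⟨Kb, pb, bb⟩ := lap_bound hS h1 h2 (sm_ldet hS h2) T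
  obtain ⟨K₂, p2, b2⟩ := lap_bound hS h1 h2 (sm_cS hS h2) T
  have pK : 0 ≤ 2 * (m : ℝ) ^ 2 * Ka + 2 * Kb := by positivity
  refine ⟨(2 * (m : ℝ) ^ 2 * Ka + 2 * Kb + K₂) / c, 1 + B, by positivity, fun t ht => ?_⟩
  have s1 := hS.slice h1.smooth t ht.1
  have s2 := hS.slice h2.smooth t ht.1
  have st1 := hS.static s1 (h1.hom0 t ht.1) (h1.pos t ht.1)
  have st2 := hS.static s2 (h2.hom0 t ht.1) (h2.pos t ht.1)
  have sη : ContDiffOn ℝ ∞ (eta Φ₁ Φ₂ t) (nz m) := st1.2.2.2.1.sub st2.2.2.2.1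
  have hη : Hom0 (eta Φ₁ Φ₂ t) := fun a ha Z hZ => by
    unfold eta
    rw [st1.2.1 a ha Z hZ, st2.2.1 a ha Z hZ]
  have sσ : ContDiffOn ℝ ∞ (fun W => cS (Φ₁ t) W - cS (Φ₂ t) W) (nz m) :=
    st1.2.2.2.2.1.sub st2.2.2.2.2.1
  have hσ : Hom0 (fun W => cS (Φ₁ t) W - cS (Φ₂ t) W) := fun a ha Z hZ => by
    simp only [st1.2.2.1 a ha Z hZ, st2.2.2.1 a ha Z hZ]
  have gr : avg (fun Z => eta Φ₁ Φ₂ t Z * lap (Φ₁ t) (fun W => cS (Φ₁ t) W - cS (Φ₂ t) W) Z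
        * vv Φ₁ t Z)
      = avg (fun Z => (cS (Φ₁ t) Z - cS (Φ₂ t) Z) * lap (Φ₁ t) (eta Φ₁ Φ₂ t) Z * vv Φ₁ t Z) :=
    hG m (Φ₁ t) (eta Φ₁ Φ₂ t) (fun W => cS (Φ₁ t) W - cS (Φ₂ t) W) s1 sη sσ (h1.hom0 t ht.1) hη hσ
      (h1.pos t ht.1)
  have c1 := (cn_vv hS h1).slice ht.1
  have c2 : ContinuousOn (fun Z => eta Φ₁ Φ₂ t Z
      * lap (Φ₁ t) (fun W => cS (Φ₁ t) W - cS (Φ₂ t) W) Z * vv Φ₁ t Z) (nz m) :=
    (sη.continuousOn.mul (st1.2.2.2.2.2 _ sσ hσ).2.continuousOn).mul c1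
  have c3 : ContinuousOn (fun Z => (cS (Φ₁ t) Z - cS (Φ₂ t) Z)
      * lap (Φ₁ t) (eta Φ₁ Φ₂ t) Z * vv Φ₁ t Z) (nz m) :=
    (sσ.continuousOn.mul (st1.2.2.2.2.2 _ sη hη).2.continuousOn).mul c1
  have c4 := (cn_en' hS h1 h2).slice ht.1
  have c5 : ContinuousOn (fun Z => (2 * (m : ℝ) ^ 2 * Ka + 2 * Kb + K₂) / c
      * (w0 Φ₁ Φ₂ t Z * vv Φ₁ t Z)) (nz m) :=
    continuousOn_const.mul (((cn_w0 hS h1 h2).slice ht.1).mul c1)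
  have c6 : ContinuousOn (fun Z => (1 + B) * en Φ₁ Φ₂ t Z) (nz m) :=
    continuousOn_const.mul ((cn_en hS h1 h2).slice ht.1)
  have c7 : ContinuousOn (fun Z => (cS (Φ₁ t) Z - cS (Φ₂ t) Z)
      * lap (Φ₁ t) (eta Φ₁ Φ₂ t) Z * vv Φ₁ t Z - eta Φ₁ Φ₂ t Z
      * lap (Φ₁ t) (fun W => cS (Φ₁ t) W - cS (Φ₂ t) W) Z * vv Φ₁ t Z) (nz m) := c3.sub c2
  have c8 : ContinuousOn (fun Z => 2 * ((cS (Φ₁ t) Z - cS (Φ₂ t) Z)
      * lap (Φ₁ t) (eta Φ₁ Φ₂ t) Z * vv Φ₁ t Z - eta Φ₁ Φ₂ t Z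
      * lap (Φ₁ t) (fun W => cS (Φ₁ t) W - cS (Φ₂ t) W) Z * vv Φ₁ t Z)) (nz m) :=
    continuousOn_const.mul c7
  have c9 : ContinuousOn (fun Z => en' Φ₁ Φ₂ t Z + 2 * ((cS (Φ₁ t) Z - cS (Φ₂ t) Z)
      * lap (Φ₁ t) (eta Φ₁ Φ₂ t) Z * vv Φ₁ t Z - eta Φ₁ Φ₂ t Z
      * lap (Φ₁ t) (fun W => cS (Φ₁ t) W - cS (Φ₂ t) W) Z * vv Φ₁ t Z)) (nz m) := c4.add c8
  have c10 : ContinuousOn (fun Z => (2 * (m : ℝ) ^ 2 * Ka + 2 * Kb + K₂) / c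
      * (w0 Φ₁ Φ₂ t Z * vv Φ₁ t Z) + (1 + B) * en Φ₁ Φ₂ t Z) (nz m) := c5.add c6
  have key := avg_mono c9 c10 fun Z hZ => by
    have hZ0 := KK_ne hZ
    have l1 := lap_sub hW (Φ₁ t) (at_of_on st1.2.2.2.2.1 hZ0) (at_of_on st2.2.2.2.2.1 hZ0)
    have l2 : lap (Φ₁ t) (eta Φ₁ Φ₂ t) Z
        = lap (Φ₁ t) (ldet (Φ₁ t)) Z - lap (Φ₁ t) (ldet (Φ₂ t)) Z :=
      lap_sub hW (Φ₁ t) (at_of_on st1.2.2.2.1 hZ0) (at_of_on st2.2.2.2.1 hZ0)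
    have qa := ba t ht Z hZ
    rw [Matrix.mul_one, Matrix.mul_one] at qa
    have qb : (lap (Φ₁ t) (ldet (Φ₂ t)) Z - lap (Φ₂ t) (ldet (Φ₂ t)) Z) ^ 2
        ≤ Kb * aa Φ₁ Φ₂ t Z := bb t ht Z hZ
    have q2 : (lap (Φ₁ t) (cS (Φ₂ t)) Z - lap (Φ₂ t) (cS (Φ₂ t)) Z) ^ 2
        ≤ K₂ * aa Φ₁ Φ₂ t Z := b2 t ht Z hZ
    have q1 : ((m : ℝ) * (((cM (Φ₁ t) Z)⁻¹).trace.re - ((cM (Φ₂ t) Z)⁻¹).trace.re)
        - (lap (Φ₁ t) (ldet (Φ₂ t)) Z - lap (Φ₂ t) (ldet (Φ₂ t)) Z)) ^ 2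
        ≤ (2 * (m : ℝ) ^ 2 * Ka + 2 * Kb) * aa Φ₁ Φ₂ t Z := by
      have q3 := mul_le_mul_of_nonneg_left qa (sq_nonneg (m : ℝ))
      nlinarith [sq_nonneg ((m : ℝ) * (((cM (Φ₁ t) Z)⁻¹).trace.re - ((cM (Φ₂ t) Z)⁻¹).trace.re)
        + (lap (Φ₁ t) (ldet (Φ₂ t)) Z - lap (Φ₂ t) (ldet (Φ₂ t)) Z))]
    have hd : ds Φ₁ t Z ≤ B := (le_abs_self _).trans (hB t ht Z hZ)
    have q := pt_ineq (η := eta Φ₁ Φ₂ t Z) (x := lap (Φ₁ t) (eta Φ₁ Φ₂ t) Z)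
      (vv_pos h1 ht.1 hZ0) hd q1 q2 pK p2 hc (hca t ht Z hZ)
    have e1 : cS (Φ₁ t) Z - cS (Φ₂ t) Z = -lap (Φ₁ t) (eta Φ₁ Φ₂ t) Z +
        ((m : ℝ) * (((cM (Φ₁ t) Z)⁻¹).trace.re - ((cM (Φ₂ t) Z)⁻¹).trace.re)
        - (lap (Φ₁ t) (ldet (Φ₂ t)) Z - lap (Φ₂ t) (ldet (Φ₂ t)) Z)) := by
      rw [l2]
      unfold cS
      ring
    refine le_trans (le_of_eq ?_) q
    rw [l1, ← e1]
    unfold en' ds
    ring
  rw [avg_add c4 c8, avg_const_mul, avg_sub c3 c2, gr, avg_add c5 c6, avg_const_mul,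
    avg_const_mul] at key
  linarith

theorem cM_eq (hW : WirtStmt) (hJ : JacStmt) (hG : GreenStmt) (hM : MatStmt) (hS : SmStmt)
    (h1 : ConeFlow S Φ₁) (h2 : ConeFlow S Φ₂) (h0 : ∀ Z, Z ≠ 0 → Φ₁ 0 Z = Φ₂ 0 Z) {T : ℝ}
    (hT : 0 ≤ T) (Z : V m) (hZ : Z ≠ 0) : cM (Φ₁ T) Z = cM (Φ₂ T) Z := by
  obtain ⟨C, pC, hC⟩ := avg_w0 hW hJ hG hS h1 h2 h0 T
  obtain ⟨C₁, C₂, p1, hC1⟩ := avg_en' hW hG hM hS h1 h2 T
  obtain ⟨c, hc, hca⟩ := aa_le hM hS h1 h2 T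
  have hT' : T ∈ Icc (0 : ℝ) T := ⟨hT, le_rfl⟩
  have he : avg (en Φ₁ Φ₂ T) ≤ 0 := by
    refine gronwall_zero (e := fun t => avg (en Φ₁ Φ₂ t)) (e' := fun t => avg (en' Φ₁ Φ₂ t))
      (C := C₁ * C + C₂) (avg_cont (cn_en hS h1 h2))
      (fun t ht => avg_deriv (cn_en hS h1 h2) (cn_en' hS h1 h2)
        (fun s hs W hW' => en_deriv hW hJ hS h1 h2 hs hW') ht) (fun t ht0 htT => ?_) ?_ hT
    · have a1 := hC t ⟨ht0.le, htT.le⟩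
      have a2 := hC1 t ⟨ht0.le, htT.le⟩
      have a3 := mul_le_mul_of_nonneg_left a1 p1
      linarith
    · refine (avg_congr (G := fun _ => 0) fun W hW' => ?_).trans avg_zero
      unfold en eta ldet
      rw [cM_congr hW h0 hW']
      ring
  have hw : avg (fun Z => w0 Φ₁ Φ₂ T Z * vv Φ₁ T Z) ≤ 0 :=
    (hC T hT').trans (mul_nonpos_of_nonneg_of_nonpos pC he)
  have hin : ∀ W : V m, nsq W = 2 → cM (Φ₁ T) W = cM (Φ₂ T) W := by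
    intro W hW2
    have hK : W ∈ KK m := ⟨by linarith, by linarith⟩
    have z1 := eq_zero_of_avg (F := fun Z => w0 Φ₁ Φ₂ T Z * vv Φ₁ T Z)
      (((cn_w0 hS h1 h2).slice hT).mul ((cn_vv hS h1).slice hT))
      (fun Y hY => mul_nonneg ((mul_nonneg hc.le (aa_nonneg T Y)).trans (hca T hT' Y hY))
        (vv_pos h1 hT (KK_ne hY)).le) hw (Z := W) (by linarith) (by linarith)
    have z2 : w0 Φ₁ Φ₂ T W = 0 :=
      (mul_eq_zero.1 z1).resolve_right (vv_pos h1 hT (KK_ne hK)).ne'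
    have z3 : aa Φ₁ Φ₂ T W = 0 := by
      have z4 := hca T hT' W hK
      rw [z2] at z4
      exact le_antisymm (nonpos_of_mul_nonpos_right z4 hc) (aa_nonneg T W)
    ext j k
    have z5 := (Finset.sum_eq_zero_iff_of_nonneg fun _ _ => by positivity).1
      ((Finset.sum_eq_zero_iff_of_nonneg fun _ _ =>
        Finset.sum_nonneg fun _ _ => by positivity).1 z3 j (Finset.mem_univ j)) k
        (Finset.mem_univ k)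
    have z6 := norm_eq_zero.1 ((pow_eq_zero_iff two_ne_zero).1 z5)
    rw [Matrix.sub_apply] at z6
    exact (sub_eq_zero.1 z6).symm
  have hN := hW.nsq_pos hZ
  have hq : 0 < √(2 / nsq Z) := Real.sqrt_pos.2 (by positivity)
  have ha : ((√(2 / nsq Z) : ℝ) : ℂ) ≠ 0 := Complex.ofReal_ne_zero.2 hq.ne'
  have st1 := hS.static (hS.slice h1.smooth T hT) (h1.hom0 T hT) (h1.pos T hT)
  have st2 := hS.static (hS.slice h2.smooth T hT) (h2.hom0 T hT) (h2.pos T hT)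
  rw [← st1.1 _ ha Z hZ, ← st2.1 _ ha Z hZ]
  refine hin _ ?_
  rw [hW.nsq_smul, Complex.norm_real, Real.norm_of_nonneg hq.le,
    Real.sq_sqrt (by positivity), div_mul_cancel₀ _ hN.ne']

end two

end Uniq

open Uniq in
theorem uniq (hW : WirtStmt) (hJ : JacStmt) (hG : GreenStmt) (hM : MatStmt) (hS : SmStmt) :
    UniqStmt := by
  intro m S Φ₁ Φ₂ h1 h2 h0 t ht Z hZ
  have h3 := const_of_deriv (f := fun τ => Φ₁ τ Z - Φ₂ τ Z)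
    (((cn_of_sm h1.smooth).time hZ).sub ((cn_of_sm h2.smooth).time hZ)) (fun s hs => by
      have d := (h1.eqn s hs Z hZ).fun_sub (h2.eqn s hs Z hZ)
      rw [cS_congr hW (cM_eq hW hJ hG hM hS h1 h2 h0 hs.le) hZ, sub_self] at d
      exact d) ht
  have h4 := h0 Z hZ
  linarith

end Vale.Agent.P264
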