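import Vale.Agent.P264.Wirt
import Vale.Agent.P264.Jac
import Vale.Agent.P264.Green
import Vale.Agent.P264.Mat
import Vale.Agent.P264.SmS
import Vale.Agent.P264.Uniq
import Vale.Agent.P264.Link
import Vale.Agent.P264.ToCone
import Vale.Agent.P264.Inv
import Vale.Agent.P264.Rad
import Vale.Agent.P264.RadBd
import Vale.Agent.P264.RadFlow
import Vale.Agent.P264.Sig
import Vale.Agent.P264.Jet
import Vale.Agent.P264.Stat
import Vale.Agent.P264.Time
import Vale.Agent.P264.Init
import Vale.Agent.P264.Final

/-!
Assembly of parts U and R.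
-/

namespace Vale.Agent.P264

theorem finalAll : FinalStmt :=
  have hW := wirt
  have hJ := jac
  have hS := smS hW hJ
  have hR := rhoS hW
  have hL := link hW
  have hRad := rad hW hR
  have hJet := jet sigS
  final hW hR hL (toCone hW hS hL) (inv hW hS hR (uniq hW hJ (green hW hJ) mat hS)) hRad
    (radFlow hW hS hR hRad (radBd hW hR)) sigS hJet (time sigS hJet (stat sigS hJet)) initS

end Vale.Agent.P264
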