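import Vale.Agent.P264.StmS

/-!
Weights, integrability, Cauchy-Schwarz.
-/

namespace Vale.Agent.P264

open scoped ContDiff Topology
open Set MeasureTheory Filter

namespace BaseAx

theorem dom_open (ε : ℝ) : IsOpen (dom ε) :=
  (isOpen_lt continuous_const continuous_id).inter 
    (isOpen_lt (continuous_const.mul continuous_id) continuous_const)

theorem dom_meas (ε : ℝ) : MeasurableSet (dom ε) := (dom_open ε).measurableSet

theorem dom_zero : dom 0 = Ioi 0 := by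
  ext x
  simp [dom]

theorem dom_pos {ε : ℝ} (h : 0 < ε) : dom ε = Ioo 0 ε⁻¹ := by
  ext x
  simp only [dom, mem_ofPred_eq, mem_Ioo, ← one_div, lt_div_iff₀' h]

theorem vp_pos {lam : ℝ} (x : ℝ) (h : 0 < lam) : 0 < vp lam x := Real.sqrt_pos.2 (by positivity)

theorem vp_nonneg (lam x : ℝ) : 0 ≤ vp lam x := Real.sqrt_nonneg _

theorem vp_sq (lam x : ℝ) : vp lam x ^ 2 = lam ^ 2 + x ^ 2 := Real.sq_sqrt (by positivity)

theorem lam_le (lam x : ℝ) : lam ≤ vp lam x :=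
  Real.le_sqrt_of_sq_le (by nlinarith [sq_nonneg x])

theorem x_le (lam x : ℝ) : x ≤ vp lam x :=
  Real.le_sqrt_of_sq_le (by nlinarith [sq_nonneg lam])

theorem vp_le {lam x : ℝ} (h : 0 ≤ lam) (hx : 0 ≤ x) : vp lam x ≤ lam + x :=
  Real.sqrt_le_iff.2 ⟨by positivity, by nlinarith [mul_nonneg h hx]⟩

theorem vp_cont (lam : ℝ) : Continuous (vp lam) := by
  unfold vp
  fun_prop

theorem vp_deriv {lam : ℝ} (q : ℤ) (x : ℝ) (h : 0 < lam) :
    HasDerivAt (fun y => vp lam y ^ q) (q * x * vp lam x ^ (q - 2)) x := by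
  have h0 := vp_pos x h
  have h1 : HasDerivAt (vp lam) (2 * x / (2 * vp lam x)) x := by
    have := ((hasDerivAt_pow 2 x).const_add (lam ^ 2)).sqrt (by positivity)
    simp only [Nat.cast_ofNat, Nat.add_one_sub_one, pow_one] at this
    exact this
  refine ((hasDerivAt_zpow q (vp lam x) (Or.inl h0.ne')).comp x h1).congr_deriv ?_
  rw [show q - 2 = q - 1 - 1 by ring, zpow_sub_one₀ h0.ne' (q - 1)]
  field_simp

theorem eps_vp {lam ε x : ℝ} (h : Par lam ε) (hx : x ∈ dom ε) : ε * vp lam x ≤ 2 := by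
  have h1 := mul_le_mul_of_nonneg_left (vp_le h.1.le hx.1.le) h.2.1
  linarith [h.2.2, hx.2]

theorem Th_nonneg (n : ℕ) {lam ε x : ℝ} (e : ℤ) (hx : x ∈ dom ε) : 0 ≤ Th n lam ε e x :=
  mul_nonneg (pow_nonneg (div_nonneg hx.1.le (vp_nonneg _ _)) _)
    (pow_nonneg (by linarith [hx.2]) _)

theorem Th_anti (n : ℕ) {lam ε x : ℝ} {e e' : ℤ} (h : Par lam ε) (hx : x ∈ dom ε) (he : e ≤ e') :
    Th n lam ε e' x ≤ Th n lam ε e x := by
  have h1 : 0 ≤ x / vp lam x := div_nonneg hx.1.le (vp_nonneg _ _)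
  have h2 : x / vp lam x ≤ 1 := div_le_one_of_le₀ (x_le _ _) (vp_nonneg _ _)
  have h3 : 0 ≤ 1 - ε * x := by linarith [hx.2]
  have h4 : 1 - ε * x ≤ 1 := by linarith [mul_nonneg h.2.1 hx.1.le]
  exact mul_le_mul (pow_le_pow_of_le_one h1 h2 (by omega)) (pow_le_pow_of_le_one h3 h4 (by omega))
    (pow_nonneg h3 _) (pow_nonneg h1 _)

theorem Th_le_one (n : ℕ) {lam ε x : ℝ} (e : ℤ) (h : Par lam ε) (hx : x ∈ dom ε) :
    Th n lam ε e x ≤ 1 := by
  have h1 : 0 ≤ x / vp lam x := div_nonneg hx.1.le (vp_nonneg _ _)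
  have h2 : x / vp lam x ≤ 1 := div_le_one_of_le₀ (x_le _ _) (vp_nonneg _ _)
  have h3 : 0 ≤ 1 - ε * x := by linarith [hx.2]
  have h4 : 1 - ε * x ≤ 1 := by linarith [mul_nonneg h.2.1 hx.1.le]
  exact mul_le_one₀ (pow_le_one₀ h1 h2) (pow_nonneg h3 _) (pow_le_one₀ h3 h4)

theorem Th_eq {n : ℕ} {lam ε x : ℝ} (e : ℕ) (hn : 1 ≤ n) (h : 0 < lam) :
    Th n lam ε e x = WW n ε e x * vp lam x ^ (1 - (n : ℤ) - e) := by
  obtain ⟨m, rfl⟩ := Nat.exists_eq_add_of_le' hn
  have h0 := vp_pos x h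
  have e1 : (((m + 1 : ℕ) : ℤ) - 1 + e).toNat = m + e := by omega
  have e2 : (1 - ((m + 1 : ℕ) : ℤ) - e) = -((m + e : ℕ) : ℤ) := by omega
  unfold Th WW om
  rw [e1, e2, Int.toNat_natCast, zpow_neg, zpow_natCast, Nat.add_sub_cancel, div_pow, mul_pow,
    pow_add]
  ring

theorem Th_one {n : ℕ} {lam ε x : ℝ} {e : ℤ} (hn : 1 ≤ n) (h : (n : ℤ) - 1 + e ≤ 0) :
    Th n lam ε e x = 1 := by
  unfold Th
  rw [show ((n : ℤ) - 1 + e).toNat = 0 by omega, show e.toNat = 0 by omega]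
  simp

theorem wt_nonneg (n : ℕ) {lam ε x : ℝ} (i : ℕ) (e r : ℤ) (hx : x ∈ dom ε) :
    0 ≤ wt n lam ε i e r x := mul_nonneg (zpow_nonneg (vp_nonneg _ _) _) (Th_nonneg n e hx)

theorem wt_cont (n : ℕ) {lam : ℝ} (ε : ℝ) (i : ℕ) (e r : ℤ) (h : 0 < lam) :
    Continuous (wt n lam ε i e r) := by
  have h0 := fun x => (vp_pos x h).ne'
  exact ((vp_cont lam).zpow₀ _ fun x => Or.inl (h0 x)).mul
    (((continuous_id.div (vp_cont lam) h0).pow _).mul (by fun_prop))

theorem wt_eq {n : ℕ} {lam ε x : ℝ} (i e : ℕ) (r : ℤ) (hn : 1 ≤ n) (h : 0 < lam) :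
    wt n lam ε i e r x = WW n ε e x * vp lam x ^ (2 * (i : ℤ) + r - n - e) := by
  unfold wt
  rw [Th_eq e hn h, mul_left_comm, ← zpow_add₀ (vp_pos x h).ne']
  congr 2
  ring

theorem iter_cont {ε : ℝ} {f : ℝ → ℝ} (i : ℕ) (hf : ContDiffOn ℝ ∞ f (dom ε)) :
    ContDiffOn ℝ ∞ (iteratedDeriv i f) (dom ε) := by
  induction i with
  | zero => simpa using hf
  | succ i ih =>
    rw [iteratedDeriv_succ]
    exact ih.deriv_of_isOpen (dom_open ε) le_rfl

theorem iter_deriv {ε : ℝ} {f : ℝ → ℝ} (i : ℕ) {x : ℝ} (hf : ContDiffOn ℝ ∞ f (dom ε))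
    (hx : x ∈ dom ε) : HasDerivAt (iteratedDeriv i f) (iteratedDeriv (i + 1) f x) x := by
  rw [iteratedDeriv_succ]
  exact (((iter_cont i hf).contDiffAt ((dom_open ε).mem_nhds hx)).differentiableAt
    (by simp)).hasDerivAt

theorem at_of_on {ε : ℝ} {f : ℝ → ℝ} (i : ℕ) {x : ℝ} (hf : ContDiffOn ℝ ∞ f (dom ε))
    (hx : x ∈ dom ε) : ContDiffAt ℝ i f x :=
  (hf.contDiffAt ((dom_open ε).mem_nhds hx)).of_le (by exact_mod_cast le_top)

theorem iter_lin {ε : ℝ} {f g : ℝ → ℝ} (a b : ℝ) (i : ℕ) {x : ℝ} (hf : ContDiffOn ℝ ∞ f (dom ε))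
    (hg : ContDiffOn ℝ ∞ g (dom ε)) (hx : x ∈ dom ε) :
    iteratedDeriv i (fun y => a * f y + b * g y) x
      = a * iteratedDeriv i f x + b * iteratedDeriv i g x := by
  rw [iteratedDeriv_fun_add (contDiffAt_const.mul (at_of_on i hf hx))
    (contDiffAt_const.mul (at_of_on i hg hx)), iteratedDeriv_const_mul_field,
    iteratedDeriv_const_mul_field]

theorem int_of_bound {lam ε C : ℝ} {H : ℝ → ℝ} (h : 0 < lam) (hH : ContinuousOn H (dom ε))
    (hb : ∀ x ∈ dom ε, |H x| ≤ C * vp lam x ^ (-2 : ℤ)) : IntegrableOn H (dom ε) := by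
  refine Integrable.mono' (g := fun x => |C| * (1 + (lam ^ 2)⁻¹) * (1 + x ^ 2)⁻¹)
    (integrable_inv_one_add_sq.const_mul _).integrableOn
    (hH.aestronglyMeasurable (dom_meas ε)) ((ae_restrict_iff' (dom_meas ε)).2
      (.of_forall fun x hx => (hb x hx).trans ?_))
  have h0 := vp_pos x h
  rw [zpow_neg, zpow_ofNat, vp_sq, mul_assoc]
  refine mul_le_mul (le_abs_self C) ?_ (by positivity) (abs_nonneg C)
  rw [← div_eq_mul_inv, le_div_iff₀ (by positivity), inv_mul_le_iff₀ (by positivity)]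
  have h1 : lam ^ 2 * (lam ^ 2)⁻¹ = 1 := mul_inv_cancel₀ (by positivity)
  have h2 : 0 ≤ x ^ 2 * (lam ^ 2)⁻¹ := by positivity
  nlinarith [sq_nonneg lam]

theorem ftc {lam ε C : ℝ} {H H' : ℝ → ℝ} (h : Par lam ε) (hd : ∀ x ∈ dom ε, HasDerivAt H (H' x) x)
    (hi : IntegrableOn H' (dom ε))
    (hb : ∀ x ∈ dom ε, |H x| ≤ C * (x / vp lam x * (1 - ε * x) / vp lam x)) :
    ∫ x in dom ε, H' x = 0 := by
  have h0 := fun x => (vp_pos x h.1).ne'
  have hc : Continuous fun x => C * (x / vp lam x * (1 - ε * x) / vp lam x) :=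
    continuous_const.mul (((continuous_id.div (vp_cont lam) h0).mul (by fun_prop)).div
      (vp_cont lam) h0)
  have key : ∀ (a : ℝ) (l : Filter ℝ), l ≤ 𝓝 a → (∀ᶠ x in l, x ∈ dom ε) → a * (1 - ε * a) = 0 →
      Tendsto H l (𝓝 0) := by
    intro a l hl hm ha
    refine squeeze_zero_norm' (hm.mono hb) ?_
    have h1 := (hc.tendsto a).mono_left hl
    rwa [show a / vp lam a * (1 - ε * a) = a * (1 - ε * a) / vp lam a by ring, ha, zero_div,
      zero_div, mul_zero] at h1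
  rcases h.2.1.eq_or_lt with rfl | he
  · rw [dom_zero] at *
    have h1 : Tendsto H (𝓝[>] 0) (𝓝 0) :=
      key 0 _ nhdsWithin_le_nhds self_mem_nhdsWithin (by ring)
    have h2 : Tendsto H atTop (𝓝 0) := by
      refine squeeze_zero_norm' (a := fun x => |C| * x⁻¹) ?_
        (by simpa using tendsto_inv_atTop_zero.const_mul |C|)
      filter_upwards [eventually_gt_atTop 0] with x hx
      refine (hb x hx).trans ((le_abs_self _).trans ?_)
      have h3 := vp_pos x h.1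
      rw [abs_mul, zero_mul, sub_zero, mul_one, abs_of_nonneg (a := x / vp lam x / vp lam x)
        (by positivity)]
      refine mul_le_mul_of_nonneg_left ?_ (abs_nonneg C)
      rw [← one_div]
      exact div_le_div₀ zero_le_one (div_le_one_of_le₀ (x_le _ _) h3.le) hx (x_le _ _)
    have e : ∀ x ∈ Ioi (0 : ℝ), Function.update H 0 0 =ᶠ[𝓝 x] H := fun x hx => by
      filter_upwards [isOpen_Ioi.mem_nhds hx] with y hy
      exact Function.update_of_ne (ne_of_gt hy) _ _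
    have h3 := integral_Ioi_of_hasDerivAt_of_tendsto (f := Function.update H 0 0) (m := 0)
      (continuousWithinAt_update_same.2 (by rwa [Ici_sdiff_left]))
      (fun x hx => (hd x hx).congr_of_eventuallyEq (e x hx)) hi
      (h2.congr' (by
        filter_upwards [eventually_gt_atTop 0] with y hy
        exact (Function.update_of_ne (ne_of_gt hy) _ _).symm))
    simpa using h3
  · have hp : 0 < ε⁻¹ := inv_pos.2 he
    rw [dom_pos he] at *
    have h3 := intervalIntegral.integral_eq_sub_of_hasDerivAt_of_tendsto hp hd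
      ((intervalIntegrable_iff_integrableOn_Ioo_of_le hp.le).2 hi)
      (key 0 _ nhdsWithin_le_nhds (Ioo_mem_nhdsGT hp) (by ring))
      (key ε⁻¹ _ nhdsWithin_le_nhds (Ioo_mem_nhdsLT hp) (by
        rw [mul_inv_cancel₀ he.ne', sub_self, mul_zero]))
    rwa [intervalIntegral.integral_of_le hp.le, integral_Ioc_eq_integral_Ioo, sub_zero] at h3

theorem sq_cont (n : ℕ) {lam ε : ℝ} {f : ℝ → ℝ} (i : ℕ) (e r : ℤ) (h : 0 < lam)
    (hf : ContDiffOn ℝ ∞ f (dom ε)) :
    ContinuousOn (fun x => iteratedDeriv i f x ^ 2 * wt n lam ε i e r x) (dom ε) :=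
  ((iter_cont i hf).continuousOn.pow 2).mul (wt_cont n ε i e r h).continuousOn

theorem intT (n : ℕ) {lam ε : ℝ} {r : ℤ} {f : ℝ → ℝ} (i : ℕ) (e : ℤ) (h : Par lam ε)
    (hf : Adm lam ε r f) :
    IntegrableOn (fun x => iteratedDeriv i f x ^ 2 * wt n lam ε i e r x) (dom ε) := by
  obtain ⟨C, hC⟩ := hf.2 i
  refine int_of_bound (C := C) h.1 (sq_cont n i e r h.1 hf.1) fun x hx => ?_
  have h0 := vp_pos x h.1
  rw [abs_of_nonneg (mul_nonneg (sq_nonneg _) (wt_nonneg n i e r hx))]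
  refine le_trans ?_ (mul_le_mul_of_nonneg_right (hC x hx) (zpow_nonneg h0.le _))
  rw [mul_assoc, ← zpow_add₀ h0.ne', show 2 * (i : ℤ) + r + 1 + -2 = 2 * (i : ℤ) - 1 + r by ring]
  exact mul_le_mul_of_nonneg_left (mul_le_of_le_one_right (zpow_nonneg h0.le _)
    (Th_le_one n e h hx)) (sq_nonneg _)

theorem mono {ε : ℝ} {a b : ℝ → ℝ} (hb : IntegrableOn b (dom ε))
    (h : ∀ x ∈ dom ε, 0 ≤ a x ∧ a x ≤ b x) : ∫ x in dom ε, a x ≤ ∫ x in dom ε, b x :=
  integral_mono_of_nonneg ((ae_restrict_iff' (dom_meas ε)).2 (.of_forall fun x hx => (h x hx).1))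
    hb ((ae_restrict_iff' (dom_meas ε)).2 (.of_forall fun x hx => (h x hx).2))

theorem cs {ε : ℝ} {a b H : ℝ → ℝ} (ha : IntegrableOn a (dom ε)) (hb : IntegrableOn b (dom ε))
    (h : ∀ x ∈ dom ε, 0 ≤ a x ∧ 0 ≤ b x ∧ H x ^ 2 ≤ a x * b x) :
    |∫ x in dom ε, H x| ≤ √(∫ x in dom ε, a x) * √(∫ x in dom ε, b x) := by
  have hA : 0 ≤ ∫ x in dom ε, a x := setIntegral_nonneg (dom_meas ε) fun x hx => (h x hx).1
  have hB : 0 ≤ ∫ x in dom ε, b x := setIntegral_nonneg (dom_meas ε) fun x hx => (h x hx).2.1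
  have key : ∀ t : ℝ, 0 ≤ (∫ x in dom ε, a x) * (t * t) + (-2 * |∫ x in dom ε, H x|) * t +
      ∫ x in dom ε, b x := by
    intro t
    have h1 := norm_integral_le_of_norm_le (μ := volume.restrict (dom ε))
      (f := fun x => 2 * t * H x) (g := fun x => t * t * a x + b x) ((ha.const_mul _).add hb)
      ((ae_restrict_iff' (dom_meas ε)).2 (.of_forall fun x hx => by
        obtain ⟨k1, k2, k3⟩ := h x hx
        refine abs_le_of_sq_le_sq ?_ (add_nonneg (mul_nonneg (mul_self_nonneg t) k1) k2)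
        nlinarith [sq_nonneg (t * t * a x - b x), mul_le_mul_of_nonneg_left k3 (sq_nonneg t)]))
    rw [integral_const_mul, integral_add (ha.const_mul _) hb, integral_const_mul, Real.norm_eq_abs,
      abs_mul, abs_mul, abs_two] at h1
    nlinarith [le_abs_self t, abs_nonneg (∫ x in dom ε, H x)]
  have h5 := discrim_le_zero key
  unfold discrim at h5
  rw [← Real.sqrt_mul hA]
  exact Real.le_sqrt_of_sq_le (by nlinarith)

theorem TT_nonneg (n : ℕ) (lam ε : ℝ) (i : ℕ) (e r : ℤ) (f : ℝ → ℝ) : 0 ≤ TT n lam ε i e r f :=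
  setIntegral_nonneg (dom_meas ε) fun _ hx => mul_nonneg (sq_nonneg _) (wt_nonneg n i e r hx)

theorem TT_anti (n : ℕ) {lam ε : ℝ} (i : ℕ) {e e' r : ℤ} {f : ℝ → ℝ} (h : Par lam ε)
    (hf : Adm lam ε r f) (he : e ≤ e') : TT n lam ε i e' r f ≤ TT n lam ε i e r f :=
  mono (intT n i e h hf) fun _ hx => ⟨mul_nonneg (sq_nonneg _) (wt_nonneg n i e' r hx),
    mul_le_mul_of_nonneg_left (mul_le_mul_of_nonneg_left (Th_anti n h hx he)
      (zpow_nonneg (vp_nonneg _ _) _)) (sq_nonneg _)⟩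

theorem QQ_add (n : ℕ) {lam ε : ℝ} (h : ℕ) (r : ℤ) {f g : ℝ → ℝ} (hf : ContDiffOn ℝ ∞ f (dom ε))
    (hg : ContDiffOn ℝ ∞ g (dom ε)) (jf : IntQ n lam ε h r f) (jg : IntQ n lam ε h r g) :
    QQ n lam ε h r (fun x => f x + g x) ≤ 2 * QQ n lam ε h r f + 2 * QQ n lam ε h r g := by
  unfold QQ TT
  rw [Finset.mul_sum, Finset.mul_sum, ← Finset.sum_add_distrib]
  refine Finset.sum_le_sum fun i hi => ?_
  have hi' : i ≤ h := Nat.lt_succ_iff.1 (Finset.mem_range.1 hi)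
  rw [← integral_const_mul, ← integral_const_mul,
    ← integral_add ((jf i hi').const_mul _) ((jg i hi').const_mul _)]
  refine mono (((jf i hi').const_mul _).add ((jg i hi').const_mul _)) fun x hx => ?_
  have h0 := wt_nonneg n (lam := lam) i (i + 2) r hx
  refine ⟨mul_nonneg (sq_nonneg _) h0, ?_⟩
  rw [iteratedDeriv_fun_add (at_of_on i hf hx) (at_of_on i hg hx)]
  nlinarith [mul_nonneg (sq_nonneg (iteratedDeriv i f x - iteratedDeriv i g x)) h0]

theorem int_div {ε c : ℝ} {a G : ℝ → ℝ} (hc : 0 < c) (ha : IntegrableOn a (dom ε))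
    (hG : ContinuousOn G (dom ε)) (h : ∀ x ∈ dom ε, c ≤ G x) :
    IntegrableOn (fun x => a x / G x) (dom ε) := by
  simp only [div_eq_mul_inv]
  refine Integrable.mul_bdd (c := c⁻¹) ha
    ((hG.inv₀ fun x hx => (hc.trans_le (h x hx)).ne').aestronglyMeasurable (dom_meas ε))
    ((ae_restrict_iff' (dom_meas ε)).2 (.of_forall fun x hx => ?_))
  rw [Real.norm_of_nonneg (inv_nonneg.2 (hc.le.trans (h x hx)))]
  exact inv_anti₀ hc (h x hx)

theorem EE_QQ (n : ℕ) {lam ε M : ℝ} (h : ℕ) (r : ℤ) {G f : ℝ → ℝ} (hp : Par lam ε) (hM : 0 < M)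
    (hf : Adm lam ε r f) (hG : ContinuousOn G (dom ε)) (hb : ∀ x ∈ dom ε, M⁻¹ ≤ G x ∧ G x ≤ M) :
    QQ n lam ε h r f ≤ M * EE n lam ε h r G f ∧ EE n lam ε h r G f ≤ M * QQ n lam ε h r f := by
  unfold QQ TT EE
  rw [Finset.mul_sum, Finset.mul_sum]
  have hM' := inv_pos.2 hM
  refine ⟨Finset.sum_le_sum fun i _ => ?_, Finset.sum_le_sum fun i _ => ?_⟩
  · rw [← integral_const_mul]
    refine mono ((int_div hM' (intT n i _ hp hf) hG fun x hx => (hb x hx).1).const_mul _)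
      fun x hx => ?_
    have h0 := mul_nonneg (sq_nonneg (iteratedDeriv i f x)) (wt_nonneg n (lam := lam) i (i + 2) r hx)
    refine ⟨h0, ?_⟩
    rw [← mul_div_assoc, le_div_iff₀' (hM'.trans_le (hb x hx).1)]
    exact mul_le_mul_of_nonneg_right (hb x hx).2 h0
  · rw [← integral_const_mul]
    refine mono ((intT n i _ hp hf).const_mul _) fun x hx => ?_
    have h0 := mul_nonneg (sq_nonneg (iteratedDeriv i f x)) (wt_nonneg n (lam := lam) i (i + 2) r hx)
    refine ⟨div_nonneg h0 (hM'.le.trans (hb x hx).1), ?_⟩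
    refine (div_le_div_of_nonneg_left h0 hM' (hb x hx).1).trans (le_of_eq ?_)
    rw [div_inv_eq_mul, mul_comm]

theorem EE_near (n : ℕ) {lam ε c θ : ℝ} (h : ℕ) (r : ℤ) {G f g : ℝ → ℝ} (hp : Par lam ε)
    (hc : 0 < c) (hθ : 0 < θ) (hf : Adm lam ε r f) (hg : Adm lam ε r g)
    (hG : ContinuousOn G (dom ε)) (hb : ∀ x ∈ dom ε, c ≤ G x) :
    |EE n lam ε h r G f - EE n lam ε h r G g|
      ≤ θ * EE n lam ε h r G g + (1 + θ⁻¹) * c⁻¹ * QQ n lam ε h r (fun x => f x - g x) := by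
  unfold QQ TT EE
  rw [Finset.mul_sum, Finset.mul_sum, ← Finset.sum_add_distrib, ← Finset.sum_sub_distrib]
  refine (Finset.abs_sum_le_sum_abs _ _).trans (Finset.sum_le_sum fun i _ => ?_)
  have i1 := intT n i (i + 2) hp hf
  have i2 := intT n i (i + 2) hp hg
  have j1 := int_div hc i1 hG hb
  have j2 := int_div hc i2 hG hb
  have e : ∀ x ∈ dom ε, iteratedDeriv i (fun x => f x - g x) x =
      iteratedDeriv i f x - iteratedDeriv i g x := fun x hx =>
    iteratedDeriv_fun_sub (at_of_on i hf.1 hx) (at_of_on i hg.1 hx)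
  have i3 : IntegrableOn (fun x => iteratedDeriv i (fun x => f x - g x) x ^ 2 *
      wt n lam ε i (i + 2) r x) (dom ε) := by
    refine Integrable.mono' ((i1.const_mul 2).add (i2.const_mul 2))
      ((sq_cont n i _ r hp.1 (hf.1.sub hg.1)).aestronglyMeasurable (dom_meas ε))
      ((ae_restrict_iff' (dom_meas ε)).2 (.of_forall fun x hx => ?_))
    have h0 := wt_nonneg n (lam := lam) i (i + 2) r hx
    rw [Real.norm_of_nonneg (mul_nonneg (sq_nonneg _) h0), e x hx, Pi.add_apply]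
    nlinarith [mul_nonneg (sq_nonneg (iteratedDeriv i f x + iteratedDeriv i g x)) h0]
  rw [← integral_sub j1 j2, ← integral_const_mul, ← integral_const_mul,
    ← integral_add (j2.const_mul _) (i3.const_mul _), ← Real.norm_eq_abs]
  refine norm_integral_le_of_norm_le ((j2.const_mul _).add (i3.const_mul _))
    ((ae_restrict_iff' (dom_meas ε)).2 (.of_forall fun x hx => ?_))
  have h0 := wt_nonneg n (lam := lam) i (i + 2) r hx
  have h1 := hc.trans_le (hb x hx)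
  rw [e x hx]
  generalize iteratedDeriv i f x = u
  generalize iteratedDeriv i g x = v
  generalize wt n lam ε i (i + 2) r x = w at h0
  have h2 : |u ^ 2 - v ^ 2| ≤ θ * v ^ 2 + (1 + θ⁻¹) * (u - v) ^ 2 := by
    have h3 : θ * θ⁻¹ = 1 := mul_inv_cancel₀ hθ.ne'
    have h4 : ∀ s : ℝ, 2 * v * s ≤ θ * v ^ 2 + θ⁻¹ * s ^ 2 := fun s => by
      have h5 := mul_nonneg (inv_pos.2 hθ).le (sq_nonneg (θ * v - s))
      have h6 : θ⁻¹ * (θ * v - s) ^ 2 =
          (θ * θ⁻¹) * θ * v ^ 2 - 2 * (θ * θ⁻¹) * v * s + θ⁻¹ * s ^ 2 := by ring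
      rw [h6, h3] at h5
      linarith
    have h7 := h4 (u - v)
    have h8 := h4 (v - u)
    exact abs_le.2 ⟨by nlinarith [sq_nonneg (u - v)], by nlinarith⟩
  have h9 : w / G x ≤ c⁻¹ * w := by
    rw [div_eq_inv_mul]
    exact mul_le_mul_of_nonneg_right (inv_anti₀ hc (hb x hx)) h0
  have h10 : 0 ≤ w / G x := div_nonneg h0 h1.le
  calc ‖u ^ 2 * w / G x - v ^ 2 * w / G x‖ = |u ^ 2 - v ^ 2| * (w / G x) := by
        rw [Real.norm_eq_abs, ← abs_of_nonneg h10, ← abs_mul]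
        congr 1
        ring
    _ ≤ (θ * v ^ 2 + (1 + θ⁻¹) * (u - v) ^ 2) * (w / G x) := mul_le_mul_of_nonneg_right h2 h10
    _ = θ * (v ^ 2 * w / G x) + (1 + θ⁻¹) * (u - v) ^ 2 * (w / G x) := by ring
    _ ≤ θ * (v ^ 2 * w / G x) + (1 + θ⁻¹) * (u - v) ^ 2 * (c⁻¹ * w) := by gcongr
    _ = _ := by ring

end BaseAx

open BaseAx in
theorem baseA : BaseA where
  dom_open := dom_open
  dom_zero := dom_zero
  dom_one := by rw [dom_pos one_pos, inv_one]
  dom_pos := dom_pos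
  vp_pos := vp_pos
  lam_le := lam_le
  x_le := x_le
  vp_le := vp_le
  vp_sq := vp_sq
  vp_deriv := vp_deriv
  eps_vp := eps_vp
  Th_nonneg := Th_nonneg
  Th_le_one := Th_le_one
  Th_anti := Th_anti
  Th_eq := Th_eq
  Th_one := Th_one
  wt_nonneg := wt_nonneg
  wt_cont := wt_cont
  wt_eq := wt_eq
  iter_cont := iter_cont
  iter_deriv := iter_deriv
  iter_congr := fun i h => h.iteratedDeriv_of_isOpen (dom_open _) i
  iter_lin := iter_lin
  iter_mul := fun j _ hf hg hx => iteratedDeriv_fun_mul (at_of_on j hf hx) (at_of_on j hg hx)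
  int_of_bound := int_of_bound
  ftc := ftc
  intT := intT
  cs := cs
  TT_nonneg := TT_nonneg
  TT_anti := TT_anti
  QQ_nonneg := fun n lam ε _ r f => Finset.sum_nonneg fun i _ => TT_nonneg n lam ε i _ r f
  QQ_mono := fun n lam ε _ _ r f hh => Finset.sum_le_sum_of_subset_of_nonneg
    (Finset.range_mono (by omega)) fun i _ _ => TT_nonneg n lam ε i _ r f
  TT_le_QQ := fun n lam ε _ _ r f hh => Finset.single_le_sum
    (f := fun i : ℕ => TT n lam ε i (i + 2) r f) (fun i _ => TT_nonneg n lam ε i _ r f)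
    (Finset.mem_range.2 (by omega))
  QQ_congr := fun _ _ ε _ _ _ _ h => Finset.sum_congr rfl fun i _ =>
    setIntegral_congr_fun (dom_meas ε) fun x hx => by
      rw [h.iteratedDeriv_of_isOpen (dom_open _) i hx]
  EE_congr := fun _ _ ε _ _ _ _ _ _ h h' => Finset.sum_congr rfl fun i _ =>
    setIntegral_congr_fun (dom_meas ε) fun x hx => by
      rw [h.iteratedDeriv_of_isOpen (dom_open _) i hx, h' hx]
  QQ_smul := fun n lam ε h r c f => by
    unfold QQ TT
    rw [Finset.mul_sum]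
    refine Finset.sum_congr rfl fun i _ => ?_
    rw [← integral_const_mul]
    refine integral_congr_ae (.of_forall fun x => ?_)
    beta_reduce
    rw [iteratedDeriv_const_mul_field]
    ring
  QQ_add := QQ_add
  EE_QQ := EE_QQ
  EE_near := EE_near

end Vale.Agent.P264
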