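import Mathlib

/-!
Definitions for the statement: complex projective space with its affine charts, Kaehler potentials
relative to the Fubini-Study form, scalar curvature, and global smooth solutions of the Calabi flow.
-/

namespace Vale.Agent.P264

open scoped ContDiff ComplexOrder

/-- The Wirtinger derivative in the direction `z j`. -/
noncomputable def dz {m : ℕ} (j : Fin m) (f : (Fin m → ℂ) → ℂ) (z : Fin m → ℂ) : ℂ :=
  (fderiv ℝ f z (Pi.single j 1) - Complex.I * fderiv ℝ f z (Pi.single j Complex.I)) / 2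

/-- The conjugate Wirtinger derivative in the direction `z k`. -/
noncomputable def dzb {m : ℕ} (k : Fin m) (f : (Fin m → ℂ) → ℂ) (z : Fin m → ℂ) : ℂ :=
  (fderiv ℝ f z (Pi.single k 1) + Complex.I * fderiv ℝ f z (Pi.single k Complex.I)) / 2

/-- The complex Hessian of a real function. -/
noncomputable def hess {m : ℕ} (f : (Fin m → ℂ) → ℝ) (z : Fin m → ℂ) : Matrix (Fin m) (Fin m) ℂ :=
  Matrix.of fun j k => dz j (dzb k fun w => (f w : ℂ)) z

/-- Complex projective space of dimension `n`. -/
abbrev CP (n : ℕ) : Type := Projectivization ℂ (Fin (n + 1) → ℂ)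

/-- Homogeneous coordinates of the point with affine coordinates `z` in the chart `i`. -/
def hom {n : ℕ} (i : Fin (n + 1)) (z : Fin n → ℂ) : Fin (n + 1) → ℂ :=
  Fin.insertNth (α := fun _ => ℂ) i 1 z

theorem hom_ne_zero {n : ℕ} (i : Fin (n + 1)) (z : Fin n → ℂ) : hom i z ≠ 0 := by
  intro h
  have := congrFun h i
  simp [hom] at this

/-- The affine chart number `i` of projective space. -/
noncomputable def chart {n : ℕ} (i : Fin (n + 1)) (z : Fin n → ℂ) : CP n :=
  Projectivization.mk ℂ (hom i z) (hom_ne_zero i z)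

/-- Smooth real functions on projective space. -/
def SmoothFn {n : ℕ} (φ : CP n → ℝ) : Prop :=
  ∀ i, ContDiff ℝ ∞ fun z => φ (chart i z)

/-- The coefficient matrix, in the chart `i`, of the Fubini-Study form plus `i ∂ ∂bar φ`. -/
noncomputable def metric {n : ℕ} (φ : CP n → ℝ) (i : Fin (n + 1)) (z : Fin n → ℂ) :
    Matrix (Fin n) (Fin n) ℂ :=
  hess (fun w => Real.log (1 + ∑ j, ‖w j‖ ^ 2) + φ (chart i w)) z

/-- The form Fubini-Study plus `i ∂ ∂bar φ` is positive. -/
def IsKahler {n : ℕ} (φ : CP n → ℝ) : Prop :=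
  ∀ i z, (metric φ i z).PosDef

/-- Scalar curvature: the trace of the Ricci form `- i ∂ ∂bar log det g` with respect to `g`. -/
noncomputable def scal {n : ℕ} (φ : CP n → ℝ) (i : Fin (n + 1)) (z : Fin n → ℂ) : ℝ :=
  -((metric φ i z)⁻¹ * hess (fun w => Real.log (metric φ i w).det.re) z).trace.re

/-- A smooth solution on `[0, ∞)` of the Calabi flow started at the Kaehler form with potential
`φ₀`, with normalising constant `Sbar`. -/
structure IsGlobalFlow {n : ℕ} (φ₀ : CP n → ℝ) (Sbar : ℝ) (φ : ℝ → CP n → ℝ) : Prop where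
  smooth : ∀ i, ContDiffOn ℝ ∞ (fun p : ℝ × (Fin n → ℂ) => φ p.1 (chart i p.2))
    (Set.Ici 0 ×ˢ Set.univ)
  init : φ 0 = 0
  kahler : ∀ t, 0 ≤ t → IsKahler (φ₀ + φ t)
  eqn : ∀ t, 0 < t → ∀ i z,
    HasDerivAt (fun τ => φ τ (chart i z)) (scal (φ₀ + φ t) i z - Sbar) t

end Vale.Agent.P264
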