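import Vale.Agent.P264.StmB

/-!
Part B: continuity of the rescaled solutions in the data, and the family of solutions.
-/

namespace Vale.Agent.P264

open scoped ContDiff Topology
open Set MeasureTheory Filter

namespace FamAux

theorem tm_mem {ε σ : ℝ} (h0 : 0 < ε) (h1 : ε ≤ 1) (hσ : 0 ≤ σ) :
    ε ^ 2 * (1 - Real.exp (-σ)) ∈ Icc (0 : ℝ) 1 := by
  have h2 : Real.exp (-σ) ≤ 1 := Real.exp_le_one_iff.mpr (by linarith)
  have h3 : 0 < Real.exp (-σ) := Real.exp_pos _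
  have h4 : ε ^ 2 ≤ 1 := by nlinarith
  have h5 : 0 ≤ ε ^ 2 := by positivity
  constructor
  · exact mul_nonneg h5 (by linarith)
  · nlinarith

theorem sol_adm (hA : BaseA) (hB : BaseB) {n : ℕ} {γ₀ : ℝ → ℝ} {γ : ℝ → ℝ → ℝ}
    (h : Sol n γ₀ γ) {t : ℝ} (ht : 0 ≤ t) : Adm 1 1 0 (γ t) := by
  refine hB.adm_of_syA (q := 0) 0 one_pos (Or.inl one_pos) ?_
  refine hB.syA_of_bdd 0 one_pos one_pos ?_ ?_
  · rw [hA.dom_one]; exact h.cj.1 t ht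
  · intro i
    obtain ⟨C, hC⟩ := h.bdd i t
    refine ⟨C, fun x hx => hC t ⟨ht, le_rfl⟩ x ?_⟩
    rwa [hA.dom_one] at hx

theorem adm_sub (hB : BaseB) {l ε : ℝ} {f g : ℝ → ℝ} (hl : 0 < l) (hf : Adm l ε 0 f)
    (hg : Adm l ε 0 g) : Adm l ε 0 fun x => f x - g x := by
  have h := hB.adm_lin 1 (-1) hl hf hg
  refine hB.adm_congr ?_ h
  intro x _
  simp only
  ring

theorem toX_sub (Γ : ℝ → ℝ) (δ : ℝ) {ε : ℝ} (h0 : 0 < ε) (γ γ' : ℝ → ℝ → ℝ) (σ y : ℝ) :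
    toX Γ δ ε γ' σ y - toX Γ δ ε γ σ y = Real.exp (-(δ * σ)) *
      (γ' (ε ^ 2 * (1 - Real.exp (-σ))) (ε * y) - γ (ε ^ 2 * (1 - Real.exp (-σ))) (ε * y)) := by
  unfold toX
  field_simp
  ring

/-- the norm of the difference of two rescaled solutions -/
theorem QQ_diff (hA : BaseA) (hB : BaseB) (hDil : DilStmt) (n k : ℕ) (Γ : ℝ → ℝ) (δ ε S : ℝ)
    (hC : Coef n Γ) (h0 : 0 < ε) (h1 : ε ≤ 1) :
    ∃ C, 0 < C ∧ ∀ (γ₀ γ₀' : ℝ → ℝ) (γ γ' : ℝ → ℝ → ℝ) (θ : ℝ), Sol n γ₀ γ → Sol n γ₀' γ' →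
      (∀ t ∈ Icc (0 : ℝ) 1, QQ n 1 1 k 0 (fun x => γ' t x - γ t x) ≤ θ) → ∀ σ ∈ Icc 0 S,
      QQ n (lam σ) ε k 0 (fun y => toX Γ δ ε γ' σ y - toX Γ δ ε γ σ y) ≤ C * θ := by
  obtain ⟨C, hC0, hCl⟩ := hDil.QQ_lam n k 0 (ε * lam S) (mul_pos h0 (hC.lam_pos S))
  refine ⟨Real.exp (|δ| * S) ^ 2 * (C + 1), by positivity, ?_⟩
  intro γ₀ γ₀' γ γ' θ hs hs' hθ σ hσ
  obtain ⟨t, ht⟩ : ∃ t, t = ε ^ 2 * (1 - Real.exp (-σ)) := ⟨_, rfl⟩
  have htm : t ∈ Icc (0 : ℝ) 1 := ht ▸ tm_mem h0 h1 hσ.1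
  obtain ⟨f, hf⟩ : ∃ f : ℝ → ℝ, f = fun x => γ' t x - γ t x := ⟨_, rfl⟩
  have hadm : Adm 1 1 0 f := hf ▸ adm_sub hB one_pos (sol_adm hA hB hs' htm.1)
    (sol_adm hA hB hs htm.1)
  have e1 : (fun y => toX Γ δ ε γ' σ y - toX Γ δ ε γ σ y)
      = fun y => Real.exp (-(δ * σ)) * f (ε * y) := by
    funext y
    rw [toX_sub Γ δ h0, hf, ht]
  have e2 := hA.QQ_smul n (lam σ) ε k 0 (Real.exp (-(δ * σ))) (fun y => f (ε * y))
  have e3 := hDil.QQ_dil n (τ := ε) (lam := lam σ) 1 k 0 f h0 (hC.lam_pos σ)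
  rw [mul_one, neg_zero, zpow_zero, one_mul] at e3
  have hl1 : lam σ ≤ 1 := by
    have := hC.lam_anti hσ.1
    rwa [hC.lam_zero] at this
  have hl2 : lam S ≤ lam σ := hC.lam_anti hσ.2
  have hl3 := hC.lam_pos S
  have hl4 := hC.lam_pos σ
  have hm1 : ε * lam σ ∈ Icc (ε * lam S) 1 :=
    ⟨mul_le_mul_of_nonneg_left hl2 h0.le, by nlinarith⟩
  have hm2 : (1 : ℝ) ∈ Icc (ε * lam S) 1 := ⟨le_trans hm1.1 hm1.2, le_rfl⟩
  have e4 := hCl (ε * lam σ) 1 f hm1 hm2 hadm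
  have e5 : QQ n 1 1 k 0 f ≤ θ := hf ▸ hθ t htm
  have e6 : 0 ≤ QQ n 1 1 k 0 f := hA.QQ_nonneg _ _ _ _ _ _
  have e7 : Real.exp (-(δ * σ)) ≤ Real.exp (|δ| * S) := by
    apply Real.exp_le_exp.mpr
    have a1 : -(δ * σ) ≤ |δ| * σ := by
      have := neg_abs_le δ
      nlinarith [hσ.1]
    have a2 : |δ| * σ ≤ |δ| * S := mul_le_mul_of_nonneg_left hσ.2 (abs_nonneg δ)
    linarith
  have e8 : Real.exp (-(δ * σ)) ^ 2 ≤ Real.exp (|δ| * S) ^ 2 :=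
    pow_le_pow_left₀ (Real.exp_pos _).le e7 2
  rw [e1, e2, e3]
  have e9 : QQ n (ε * lam σ) 1 k 0 f ≤ (C + 1) * θ := by nlinarith
  calc Real.exp (-(δ * σ)) ^ 2 * QQ n (ε * lam σ) 1 k 0 f
      ≤ Real.exp (|δ| * S) ^ 2 * ((C + 1) * θ) :=
        mul_le_mul e8 e9 (hA.QQ_nonneg _ _ _ _ _ _) (by positivity)
    _ = _ := by ring

theorem par_zero {n : ℕ} {Γ : ℝ → ℝ} (hC : Coef n Γ) {ε : ℝ} (h0 : 0 < ε) (h1 : ε ≤ 1) :
    Par (lam 0) ε := by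
  rw [hC.lam_zero]
  exact ⟨one_pos, h0.le, by linarith⟩

/-- joint continuity from continuity in time and locally uniform continuity in the parameter -/
theorem joint {A β : Type} [PseudoMetricSpace A] [PseudoMetricSpace β] (K : Set A)
    (F : A → ℝ → β) (h1 : ∀ a ∈ K, ∀ S, ContinuousOn (F a) (Icc 0 S))
    (h2 : ∀ a ∈ K, ∀ S θ : ℝ, 0 < θ → ∃ θ', 0 < θ' ∧ ∀ a' ∈ K, dist a' a ≤ θ' →
      ∀ σ ∈ Icc 0 S, dist (F a' σ) (F a σ) ≤ θ) :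
    ContinuousOn (fun p : A × ℝ => F p.1 p.2) (K ×ˢ Ici 0) := by
  rw [Metric.continuousOn_iff]
  rintro ⟨a, s⟩ ⟨ha, hs⟩ θ hθ
  obtain ⟨θ', hθ', H⟩ := h2 a ha (s + 1) (θ / 2) (by linarith)
  have hs' : s ∈ Icc 0 (s + 1) := ⟨hs, by linarith⟩
  obtain ⟨η, hη, G⟩ := Metric.continuousOn_iff.mp (h1 a ha (s + 1)) s hs' (θ / 2) (by linarith)
  refine ⟨min θ' (min η 1), by positivity, ?_⟩
  rintro ⟨a', s'⟩ ⟨ha', hs''⟩ hd
  rw [Prod.dist_eq, max_lt_iff, lt_min_iff, lt_min_iff, lt_min_iff, lt_min_iff] at hd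
  obtain ⟨⟨d1, -, -⟩, -, d2, d3⟩ := hd
  have hm : s' ∈ Icc 0 (s + 1) := by
    refine ⟨hs'', ?_⟩
    have := (abs_lt.mp (by simpa [Real.dist_eq] using d3 : |s' - s| < 1)).2
    linarith
  have b1 := H a' ha' d1.le s' hm
  have b2 := G s' hm d2
  calc dist (F a' s') (F a s) ≤ dist (F a' s') (F a s') + dist (F a s') (F a s) :=
        dist_triangle _ _ _
    _ < θ := by linarith

end FamAux

open FamAux

theorem contX (hA : BaseA) (hB : BaseB) (hD : DelStmt) (hDil : DilStmt) (hSt : StabStmt)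
    (hE : EnStmt) (hS : SymbStmt) (hT : ToXStmt) : ContXStmt := by
  have _ := hD
  intro n Γ γ₀ γ δ ε S θ hn hC hs h0 h1 hθ
  obtain ⟨C, hC0, hQ⟩ := QQ_diff hA hB hDil n (n + 11) Γ δ ε S hC h0 h1
  obtain ⟨ε₀, CE, -, -, hEn⟩ := hE n (n + 11) 0 Γ hn (by omega) (by norm_num) hC
  obtain ⟨Cs, hCs, hSy⟩ := hS n 0 0 hn
  obtain ⟨c, hc, hlow⟩ := hC.low
  have hX := hEn δ ε ε 0 S (toX Γ δ ε γ) h0.le (par_zero hC h0 h1) (Or.inl h0)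
    (hT n Γ γ₀ γ δ ε hn hC hs h0 h1 S)
  obtain ⟨B, hB0, hBd⟩ : ∃ B, 0 < B ∧ ∀ σ ∈ Icc 0 S, En n Γ ε (n + 11) 0 (toX Γ δ ε γ) σ ≤ B := by
    obtain ⟨B, hB⟩ := isCompact_Icc.bddAbove_image hX.1
    refine ⟨max B 1, lt_max_of_lt_right one_pos, fun σ hσ => le_max_of_le_left ?_⟩
    exact hB (mem_image_of_mem _ hσ)
  obtain ⟨θ₂, hθ₂⟩ : ∃ θ₂, θ₂ = θ / (2 * B) := ⟨_, rfl⟩
  have hθ₂0 : 0 < θ₂ := by rw [hθ₂]; positivity
  obtain ⟨K, hK⟩ : ∃ K, K = (1 + θ₂⁻¹) * c⁻¹ := ⟨_, rfl⟩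
  have hK0 : 0 < K := by rw [hK]; positivity
  obtain ⟨ρ, hρ⟩ : ∃ ρ, ρ = min (θ / (2 * K)) ((θ / (Cs + 1)) ^ 2) := ⟨_, rfl⟩
  have hρ0 : 0 < ρ := by rw [hρ]; positivity
  obtain ⟨θ', hθ', hst⟩ := hSt n (n + 11) γ₀ γ 1 (ρ / C) hn (by omega) hs (by positivity)
  refine ⟨θ', hθ', fun γ₀' γ' hs' hq σ hσ => ?_⟩
  have hX' := hEn δ ε ε 0 S (toX Γ δ ε γ') h0.le (par_zero hC h0 h1) (Or.inl h0)
    (hT n Γ γ₀' γ' δ ε hn hC hs' h0 h1 S)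
  have q1 := hQ γ₀ γ₀' γ γ' (ρ / C) hs hs' (hst γ₀' γ' hs' hq) σ hσ
  have q2 : C * (ρ / C) = ρ := by field_simp
  rw [q2] at q1
  obtain ⟨hP, hadm, -, -⟩ := hX.2.1 σ hσ
  obtain ⟨-, hadm', -, -⟩ := hX'.2.1 σ hσ
  constructor
  · have hG : ContinuousOn (GG Γ ε σ) (dom ε) :=
      ((hC.cj ε univ).2.2.1.1 σ (mem_univ _)).continuousOn
    have e1 := hA.EE_near n (n + 11) 0 hP hc hθ₂0 hadm' hadm hG
      (fun x hx => (hlow ε σ h0.le x hx).2)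
    have e2 : θ₂ * EE n (lam σ) ε (n + 11) 0 (GG Γ ε σ) (toX Γ δ ε γ σ) ≤ θ / 2 := by
      have := mul_le_mul_of_nonneg_left (hBd σ hσ) hθ₂0.le
      have e : θ₂ * B = θ / 2 := by rw [hθ₂]; field_simp
      rw [e] at this
      exact this
    have e3 : K * QQ n (lam σ) ε (n + 11) 0
        (fun y => toX Γ δ ε γ' σ y - toX Γ δ ε γ σ y) ≤ θ / 2 := by
      have a1 : ρ ≤ θ / (2 * K) := hρ ▸ min_le_left _ _
      have := mul_le_mul_of_nonneg_left (q1.trans a1) hK0.le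
      have e : K * (θ / (2 * K)) = θ / 2 := by field_simp
      rw [e] at this
      exact this
    rw [← hK] at e1
    unfold En
    linarith
  · intro y hy
    have hd : Adm (lam σ) ε (-2 * 0) fun y => toX Γ δ ε γ' σ y - toX Γ δ ε γ σ y := by
      rw [mul_zero]
      exact adm_sub hB hP.1 hadm' hadm
    have e1 := (hSy (lam σ) ε _ hP hd).2 0 le_rfl y hy
    simp only [iteratedDeriv_zero, Nat.cast_zero, sub_zero, zpow_zero, mul_one, mul_zero,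
      zero_add] at e1
    have e2 := hA.QQ_mono n (lam σ) ε (h := n + 3) (h' := n + 11) 0
      (fun y => toX Γ δ ε γ' σ y - toX Γ δ ε γ σ y) (by omega)
    have a1 : ρ ≤ (θ / (Cs + 1)) ^ 2 := hρ ▸ min_le_right _ _
    have e3 : √(QQ n (lam σ) ε (n + 3) 0 fun y => toX Γ δ ε γ' σ y - toX Γ δ ε γ σ y)
        ≤ θ / (Cs + 1) := by
      rw [Real.sqrt_le_left (by positivity)]
      linarith
    have e4 := mul_le_mul_of_nonneg_left e3 hCs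
    have e5 : Cs * (θ / (Cs + 1)) ≤ θ := by
      rw [← mul_div_assoc, div_le_iff₀ (by positivity)]
      nlinarith
    linarith

theorem fam (hA : BaseA) (hB : BaseB) (hD : DelStmt) (hE : EnStmt) (hT : ToXStmt)
    (hBl : BlowStmt) (hCo : ContXStmt) (hDa : DataStmt) : FamStmt := by
  have _ := hD
  have _ := hB
  intro n Γ δ d y z hn hC hΓ hδ hSp hM
  obtain ⟨-, hD2, ε₂, hε₂, hD3⟩ := hDa n Γ δ d y z hn hC hSp
  obtain ⟨Y, hY⟩ : ∃ Y, Y = ‖y‖ + 1 := ⟨_, rfl⟩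
  have hY1 : 1 ≤ Y := by rw [hY]; linarith [norm_nonneg y]
  have hyY : ∀ i, y i ≤ Y := fun i => by
    have a1 := norm_le_pi_norm y i
    have a2 := le_abs_self (y i)
    rw [Real.norm_eq_abs] at a1
    linarith
  refine ⟨min ε₂ (min 1 ((1 / (4 * Y)) ^ 2)), by positivity,
    (min_le_right _ _).trans (min_le_left _ _), fun ε h0 hε => ?_⟩
  have h2 : ε ≤ ε₂ := hε.trans (min_le_left _ _)
  have h1 : ε ≤ 1 := hε.trans ((min_le_right _ _).trans (min_le_left _ _))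
  have h3 : ε ≤ (1 / (4 * Y)) ^ 2 := hε.trans ((min_le_right _ _).trans (min_le_right _ _))
  have hydom : ∀ i, y i ∈ dom ε ∧ √ε * y i ≤ 1 / 4 := by
    intro i
    have a1 : √ε ≤ 1 / (4 * Y) := by
      rw [Real.sqrt_le_left (by positivity)]
      exact h3
    have a2 := hSp.ypos i
    have a3 : √ε * y i ≤ 1 / 4 := by
      calc √ε * y i ≤ 1 / (4 * Y) * Y := mul_le_mul a1 (hyY i) a2.le (by positivity)
        _ = 1 / 4 := by field_simp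
    refine ⟨⟨a2, ?_⟩, a3⟩
    have a4 : √ε ≤ 1 := by
      rw [Real.sqrt_le_left (by positivity)]
      linarith
    have a5 : ε = √ε * √ε := (Real.mul_self_sqrt h0.le).symm
    have a6 : 0 ≤ √ε := Real.sqrt_nonneg ε
    calc ε * y i = √ε * (√ε * y i) := by rw [← mul_assoc, ← a5]
      _ ≤ 1 * (1 / 4) := mul_le_mul a4 a3 (by positivity) zero_le_one
      _ < 1 := by norm_num
  have hex : ∀ a : Fin d → ℝ, ∃ (γ₀ : ℝ → ℝ) (γ : ℝ → ℝ → ℝ), ‖a‖ ≤ 1 →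
      Sol n γ₀ γ ∧ EqOn γ₀ (g0a Γ z ε a) (Ioo 0 1) := by
    intro a
    by_cases ha : ‖a‖ ≤ 1
    · obtain ⟨γ₀, g1, g2, g3⟩ := hD3 ε h0 h2 a ha
      by_contra hne
      refine hM ⟨γ₀, g1, g2, fun γ hγ => hne ⟨γ₀, γ, fun _ => ⟨hγ, g3⟩⟩⟩
    · exact ⟨0, 0, fun h => absurd h ha⟩
  choose γ₀ γ hγ using hex
  obtain ⟨CD, hCD⟩ := hD2 (n + 11) ε h0 h1
  obtain ⟨ε₀, CE, -, -, hEn⟩ := hE n (n + 11) 0 Γ hn (by omega) (by norm_num) hC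
  have hsol : ∀ a, ‖a‖ ≤ 1 → ∀ b, PSol n Γ δ ε ε 0 b (toX Γ δ ε (γ a)) := fun a ha b =>
    hT n Γ (γ₀ a) (γ a) δ ε hn hC (hγ a ha).1 h0 h1 b
  have hnear : ∀ a, ‖a‖ ≤ 1 → ∀ S θ : ℝ, 0 < θ → ∃ θ', 0 < θ' ∧ ∀ a', ‖a'‖ ≤ 1 →
      dist a' a ≤ θ' → ∀ σ ∈ Icc 0 S,
        |En n Γ ε (n + 11) 0 (toX Γ δ ε (γ a')) σ - En n Γ ε (n + 11) 0 (toX Γ δ ε (γ a)) σ| ≤ θ ∧
        ∀ x ∈ dom ε, |toX Γ δ ε (γ a') σ x - toX Γ δ ε (γ a) σ x| ≤ θ := by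
    intro a ha S θ hθ
    obtain ⟨θ₁, hθ₁, H⟩ := hCo n Γ (γ₀ a) (γ a) δ ε S θ hn hC (hγ a ha).1 h0 h1 hθ
    refine ⟨√(θ₁ / (|CD| + 1)), Real.sqrt_pos.mpr (by positivity), fun a' ha' hd => ?_⟩
    refine H (γ₀ a') (γ a') (hγ a' ha').1 ?_
    have e1 : QQ n 1 1 (n + 11) 0 (fun x => γ₀ a' x - γ₀ a x)
        = QQ n 1 1 (n + 11) 0 (fun x => g0a Γ z ε a' x - g0a Γ z ε a x) := by
      apply hA.QQ_congr
      rw [hA.dom_one]
      intro x hx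
      simp only
      rw [(hγ a' ha').2 hx, (hγ a ha).2 hx]
    rw [e1]
    refine (hCD a a').trans ?_
    rw [dist_eq_norm] at hd
    have e2 : ‖a' - a‖ ^ 2 ≤ θ₁ / (|CD| + 1) := by
      have := pow_le_pow_left₀ (norm_nonneg _) hd 2
      rwa [Real.sq_sqrt (by positivity)] at this
    have e3 : CD ≤ |CD| + 1 := by linarith [le_abs_self CD]
    calc CD * ‖a' - a‖ ^ 2 ≤ (|CD| + 1) * (θ₁ / (|CD| + 1)) :=
          mul_le_mul e3 e2 (by positivity) (by positivity)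
      _ = θ₁ := by field_simp
  have hld : ∀ σ, 0 ≤ σ → ∀ i, lam σ * y i ∈ dom ε := by
    intro σ hσ i
    have hl1 : lam σ ≤ 1 := by
      have := hC.lam_anti hσ
      rwa [hC.lam_zero] at this
    have hl0 := hC.lam_pos σ
    obtain ⟨a1, a2⟩ := (hydom i).1
    refine ⟨mul_pos hl0 a1, ?_⟩
    have a3 : 0 < ε * y i := mul_pos h0 a1
    calc ε * (lam σ * y i) = lam σ * (ε * y i) := by ring
      _ ≤ 1 * (ε * y i) := mul_le_mul_of_nonneg_right hl1 a3.le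
      _ < 1 := by linarith
  refine ⟨fun a => toX Γ δ ε (γ a), hsol, ?_, ?_, ?_, ?_, hydom⟩
  · intro a ha x hx
    have hx' : ε * x ∈ Ioo (0 : ℝ) 1 := ⟨mul_pos h0 hx.1, hx.2⟩
    have e1 : γ a 0 (ε * x) = g0a Γ z ε a (ε * x) := by
      rw [(hγ a ha).1.init _ hx', (hγ a ha).2 hx']
    have e2 : ε⁻¹ * (ε * x) = x := by field_simp
    simp only [toX, mul_zero, neg_zero, Real.exp_zero, sub_self, mul_one]
    rw [e1, g0a, e2]
    field_simp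
    ring
  · intro a ha
    exact hBl n Γ (γ₀ a) (γ a) δ ε hC hΓ (hγ a ha).1 h0 hδ
  · refine joint (Metric.closedBall 0 1)
      (fun a σ => En n Γ ε (n + 11) 0 (toX Γ δ ε (γ a)) σ) ?_ ?_
    · intro a ha S
      rw [mem_closedBall_zero_iff] at ha
      exact (hEn δ ε ε 0 S _ h0.le (par_zero hC h0 h1) (Or.inl h0) (hsol a ha S)).1
    · intro a ha S θ hθ
      rw [mem_closedBall_zero_iff] at ha
      obtain ⟨θ', hθ', H⟩ := hnear a ha S θ hθ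
      refine ⟨θ', hθ', fun a' ha' hd σ hσ => ?_⟩
      rw [mem_closedBall_zero_iff] at ha'
      rw [Real.dist_eq]
      exact (H a' ha' hd σ hσ).1
  · refine joint (Metric.closedBall 0 1)
      (fun a σ => fun i => toX Γ δ ε (γ a) σ (lam σ * y i)) ?_ ?_
    · intro a ha S
      rw [mem_closedBall_zero_iff] at ha
      refine continuousOn_pi.mpr fun i => ?_
      have c1 := (hsol a ha S).cj.2 0
      simp only [iteratedDeriv_zero] at c1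
      have c2 : Continuous lam := continuous_iff_continuousAt.mpr fun σ =>
        (hC.lam_deriv σ).continuousAt
      have c3 : ContinuousOn (fun σ : ℝ => (σ, lam σ * y i)) (Icc 0 S) := by fun_prop
      have c4 : MapsTo (fun σ : ℝ => (σ, lam σ * y i)) (Icc 0 S) (Icc 0 S ×ˢ dom ε) :=
        fun σ hσ => ⟨hσ, hld σ hσ.1 i⟩
      have c5 := c1.comp c3 c4
      exact c5
    · intro a ha S θ hθ
      rw [mem_closedBall_zero_iff] at ha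
      obtain ⟨θ', hθ', H⟩ := hnear a ha S θ hθ
      refine ⟨θ', hθ', fun a' ha' hd σ hσ => ?_⟩
      rw [mem_closedBall_zero_iff] at ha'
      rw [dist_pi_le_iff hθ.le]
      intro i
      rw [Real.dist_eq]
      exact (H a' ha' hd σ hσ).2 _ (hld σ hσ.1 i)

end Vale.Agent.P264
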