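import Vale.Agent.P264.StmU

/-! Linear algebra of two orthogonal projections. -/

namespace Vale.Agent.P264

open scoped ComplexOrder Matrix

namespace Rad

variable {m : ℕ}

abbrev Mt (m : ℕ) : Type := Matrix (Fin m) (Fin m) ℂ

structure Proj (A B : Mt m) : Prop where
  aa : A * A = A
  bb : B * B = B
  ab : A * B = 0
  ba : B * A = 0
  ha : Aᴴ = A
  hb : Bᴴ = B

noncomputable def DD (A B : Mt m) (x y z : ℂ) : Mt m := x • (1 - A - B) + y • A + z • B

lemma DD_mul {A B : Mt m} (h : Proj A B) (x y z x' y' z' : ℂ) :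
    DD A B x y z * DD A B x' y' z' = DD A B (x * x') (y * y') (z * z') := by
  simp only [DD, add_mul, mul_add, smul_mul_assoc, mul_smul_comm, sub_mul, mul_sub, one_mul,
    mul_one, h.aa, h.bb, h.ab, h.ba]
  module

lemma DD_one (A B : Mt m) : DD A B 1 1 1 = 1 := by
  simp only [DD]
  module

lemma DD_sub (A B : Mt m) (x y z x' y' z' : ℂ) :
    DD A B x y z - DD A B x' y' z' = DD A B (x - x') (y - y') (z - z') := by
  simp only [DD]
  module

lemma DD_inv {A B : Mt m} (h : Proj A B) {x y z : ℂ} (hx : x ≠ 0) (hy : y ≠ 0) (hz : z ≠ 0) :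
    (DD A B x y z)⁻¹ = DD A B x⁻¹ y⁻¹ z⁻¹ := by
  apply Matrix.inv_eq_right_inv
  rw [DD_mul h, mul_inv_cancel₀ hx, mul_inv_cancel₀ hy, mul_inv_cancel₀ hz, DD_one]

lemma DD_trace {A B : Mt m} (hA : A.trace = 1) (hB : B.trace = 1) (x y z : ℂ) :
    (DD A B x y z).trace = x * (m - 2) + y + z := by
  simp only [DD, Matrix.trace_add, Matrix.trace_smul, Matrix.trace_sub, Matrix.trace_one, hA, hB,
    smul_eq_mul, Fintype.card_fin]
  ring

lemma psd_of_proj {P : Mt m} (h1 : P * P = P) (h2 : Pᴴ = P) : P.PosSemidef := by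
  have := Matrix.posSemidef_conjTranspose_mul_self P
  rwa [h2, h1] at this

lemma DD_posDef {A B : Mt m} (h : Proj A B) {x y z : ℝ} (hx : 0 < x) (hy : 0 < y) (hz : 0 < z) :
    (DD A B x y z).PosDef := by
  have hC : (1 - A - B).PosSemidef := by
    apply psd_of_proj
    · simp only [sub_mul, mul_sub, one_mul, mul_one, h.aa, h.bb, h.ab, h.ba]
      abel
    · simp only [Matrix.conjTranspose_sub, Matrix.conjTranspose_one, h.ha, h.hb]
  have h1 : (DD A B x y z).PosSemidef :=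
    ((hC.smul (Complex.zero_le_real.2 hx.le)).add
      ((psd_of_proj h.aa h.ha).smul (Complex.zero_le_real.2 hy.le))).add
      ((psd_of_proj h.bb h.hb).smul (Complex.zero_le_real.2 hz.le))
  rw [h1.posDef_iff_isUnit]
  refine IsUnit.of_mul_eq_one (DD A B (x : ℂ)⁻¹ (y : ℂ)⁻¹ (z : ℂ)⁻¹) ?_
  rw [DD_mul h, mul_inv_cancel₀ (by exact_mod_cast hx.ne'),
    mul_inv_cancel₀ (by exact_mod_cast hy.ne'), mul_inv_cancel₀ (by exact_mod_cast hz.ne'), DD_one]

lemma eig_of_mul {D P : Mt m} {x : ℂ} (hP : P.trace ≠ 0) (h : D * P = x • P) :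
    ∃ v : V m, v ≠ 0 ∧ D *ᵥ v = x • v := by
  by_contra hc
  apply hP
  have h0 : ∀ w : V m, P *ᵥ w = 0 := fun w => by
    by_contra hw
    exact hc ⟨P *ᵥ w, hw, by rw [Matrix.mulVec_mulVec, h, Matrix.smul_mulVec]⟩
  have h1 : P = 0 := by
    ext i j
    have := congrFun (h0 (Pi.single j 1)) i
    simpa using this
  rw [h1, Matrix.trace_zero]

/-- the projection onto the line of `u` -/
noncomputable def RR (u : V m) : Mt m := (star u ⬝ᵥ u)⁻¹ • Matrix.vecMulVec u (star u)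

lemma RR_mul (u w : V m) : RR u * RR w =
    ((star u ⬝ᵥ u)⁻¹ * (star w ⬝ᵥ w)⁻¹ * (star u ⬝ᵥ w)) • Matrix.vecMulVec u (star w) := by
  rw [RR, RR, smul_mul_assoc, mul_smul_comm, Matrix.vecMulVec_mul_vecMulVec, smul_smul]
  ext i j
  simp only [Matrix.smul_apply, Matrix.vecMulVec_apply, Pi.smul_apply, smul_eq_mul]
  ring

lemma RR_idem (u : V m) : RR u * RR u = RR u := by
  rw [RR_mul, RR]
  congr 1
  rcases eq_or_ne (star u ⬝ᵥ u) 0 with h | h
  · simp [h]
  · field_simp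

lemma RR_herm (u : V m) : (RR u)ᴴ = RR u := by
  rw [RR, Matrix.conjTranspose_smul, Matrix.conjTranspose_vecMulVec, star_star, star_inv₀,
    ← Matrix.star_dotProduct]

lemma RR_proj {u w : V m} (h : star u ⬝ᵥ w = 0) : Proj (RR u) (RR w) := by
  have h' : star w ⬝ᵥ u = 0 := by
    rw [Matrix.star_dotProduct, h, star_zero]
  exact ⟨RR_idem u, RR_idem w, by rw [RR_mul, h, mul_zero, zero_smul],
    by rw [RR_mul, h', mul_zero, zero_smul], RR_herm u, RR_herm w⟩

lemma RR_trace {u : V m} (h : star u ⬝ᵥ u ≠ 0) : (RR u).trace = 1 := by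
  rw [RR, Matrix.trace_smul, Matrix.trace_vecMulVec, dotProduct_comm u, smul_eq_mul,
    inv_mul_cancel₀ h]

lemma RR_det {u : V m} (h : star u ⬝ᵥ u ≠ 0) (t : ℂ) : (1 + t • RR u).det = 1 + t := by
  have e : t • RR u = Matrix.vecMulVec ((t * (star u ⬝ᵥ u)⁻¹) • u) (star u) := by
    ext i j
    simp only [RR, Matrix.smul_apply, Matrix.vecMulVec_apply, Pi.smul_apply, smul_eq_mul]
    ring
  rw [e, Matrix.vecMulVec_eq Unit, Matrix.det_one_add_replicateCol_mul_replicateRow,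
    dotProduct_smul, smul_eq_mul, mul_assoc, inv_mul_cancel₀ h, mul_one]

lemma DD_det {n : ℕ} (hn : 1 ≤ n) {u w : V (n + 1)} (h : star u ⬝ᵥ w = 0) (hu : star u ⬝ᵥ u ≠ 0)
    (hw : star w ⬝ᵥ w ≠ 0) {x : ℂ} (hx : x ≠ 0) (z : ℂ) :
    (DD (RR u) (RR w) x 1 z).det = x ^ (n - 1) * z := by
  have hp := RR_proj h
  have e : DD (RR u) (RR w) x 1 z =
      x • ((1 + (x⁻¹ - 1) • RR u) * (1 + (z * x⁻¹ - 1) • RR w)) := by
    simp only [DD, add_mul, mul_add, smul_mul_assoc, mul_smul_comm, one_mul, mul_one, hp.ab]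
    have e1 : (1 : ℂ) = x * x⁻¹ := (mul_inv_cancel₀ hx).symm
    match_scalars
    · ring
    · field_simp
      ring
    · field_simp
      ring
  rw [e, Matrix.det_smul, Matrix.det_mul, RR_det hu, RR_det hw, Fintype.card_fin]
  obtain ⟨k, rfl⟩ := Nat.exists_eq_add_of_le hn
  rw [Nat.add_sub_cancel_left]
  field_simp
  ring

end Rad

end Vale.Agent.P264
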