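import Vale.Agent.P264.StmG

/-!
Statements of part B (blow-up of the reduced equation near the shrinker). See PLAN.md.
-/

namespace Vale.Agent.P264

open scoped ContDiff Topology
open Set MeasureTheory Filter

noncomputable def lam (σ : ℝ) : ℝ := Real.exp (-σ / 2)

noncomputable def ze (u : ℝ) : ℝ := Real.smoothTransition (2 - 4 * u)

noncomputable def zt (u : ℝ) : ℝ := ze u / (1 - u) ^ 2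

/-- the approximate solution -/
noncomputable def gv (Γ : ℝ → ℝ) (ε σ x : ℝ) : ℝ :=
  zt (ε * x) * ((lam σ)⁻¹ * Γ ((lam σ)⁻¹ * x) + ε)

noncomputable def gvt (Γ : ℝ → ℝ) (ε σ x : ℝ) : ℝ :=
  zt (ε * x) * ((lam σ)⁻¹ ^ 3 *
    ((Γ ((lam σ)⁻¹ * x) + (lam σ)⁻¹ * x * deriv Γ ((lam σ)⁻¹ * x)) / 2))

noncomputable def gg (Γ : ℝ → ℝ) (ε σ x : ℝ) : ℝ := 1 + om ε x * gv Γ ε σ x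

noncomputable def GG (Γ : ℝ → ℝ) (ε σ x : ℝ) : ℝ := gg Γ ε σ x ^ 2

noncomputable def V1 (n : ℕ) (Γ : ℝ → ℝ) (ε σ x : ℝ) : ℝ := -(om ε x * LL n ε (gv Γ ε σ) x)

noncomputable def err (n : ℕ) (Γ : ℝ → ℝ) (ε σ x : ℝ) : ℝ :=
  -(GG Γ ε σ x * LL n ε (gv Γ ε σ) x) - gvt Γ ε σ x

/-- right-hand side of the equation for the rescaled perturbation -/
noncomputable def RR (n : ℕ) (Γ : ℝ → ℝ) (δ ε η σ : ℝ) (f : ℝ → ℝ) : ℝ → ℝ := fun x =>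
  -δ * f x + lam σ ^ 2 * (-(GG Γ ε σ x * LL n ε f x) + 2 * gg Γ ε σ x * V1 n Γ ε σ x * f x
    + FF n ε (gg Γ ε σ) (V1 n Γ ε σ) (fun y => η * Real.exp (δ * σ) * f y) f x
    + η⁻¹ * Real.exp (-(δ * σ)) * err n Γ ε σ x)

structure PSol (n : ℕ) (Γ : ℝ → ℝ) (δ ε η a b : ℝ) (X : ℝ → ℝ → ℝ) : Prop where
  cj : CJ (Icc a b) (dom ε) X
  sy : SyU (Icc a b) lam ε 0 X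
  eqn : ∀ σ ∈ Ioo a b, ∀ x ∈ dom ε, HasDerivAt (fun s => X s x) (RR n Γ δ ε η σ (X σ) x) σ

/-- Properties of the coefficients. -/
structure Coef (n : ℕ) (Γ : ℝ → ℝ) : Prop where
  lam_pos : ∀ σ, 0 < lam σ
  lam_zero : lam 0 = 1
  lam_add : ∀ s t, lam (s + t) = lam s * lam t
  lam_anti : Antitone lam
  lam_deriv : ∀ σ, HasDerivAt lam (-(lam σ) / 2) σ
  ze_smooth : ContDiff ℝ ∞ ze ∧ ContDiff ℝ ∞ zt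
  ze_one : ∀ u, u ≤ 1 / 4 → ze u = 1
  ze_zero : ∀ u, 1 / 2 ≤ u → ze u = 0
  ze_mem : ∀ u, ze u ∈ Icc (0 : ℝ) 1
  sy : ∀ h : ℕ, ∃ M, 1 ≤ M ∧ ∀ ε σ, Par (lam σ) ε →
    Sy (lam σ) ε h (-1) M (gv Γ ε σ) ∧ Sy (lam σ) ε h 0 M (gg Γ ε σ) ∧
    Sy (lam σ) ε h 0 M (GG Γ ε σ) ∧ Sy (lam σ) ε h (-2) M (V1 n Γ ε σ) ∧
    Sy (lam σ) ε h (-2) M (fun x => 2 * gg Γ ε σ x * V1 n Γ ε σ x) ∧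
    Sy (lam σ) ε h (-3) M (err n Γ ε σ) ∧ Sy (lam σ) ε h (-3) M (gvt Γ ε σ) ∧
    Sy (lam σ) ε h (-2) M (fun x => 2 * gg Γ ε σ x * om ε x * gvt Γ ε σ x)
  low : ∃ c, 0 < c ∧ ∀ ε σ, 0 ≤ ε → ∀ x ∈ dom ε, c ≤ gg Γ ε σ x ∧ c ≤ GG Γ ε σ x
  err_zero : ∀ ε σ x, 0 ≤ ε → 0 < x → ε * x < 1 / 4 → err n Γ ε σ x = 0
  near : ∀ ε σ x, 0 ≤ ε → 0 < x → ε * x < 1 / 4 →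
    gg Γ ε σ x = gg Γ 0 σ x / (1 - ε * x) ∧ V1 n Γ ε σ x = (1 - ε * x) * V1 n Γ 0 σ x
  cj : ∀ (ε : ℝ) (J : Set ℝ), CJ J (dom ε) (gv Γ ε) ∧ CJ J (dom ε) (gg Γ ε) ∧
    CJ J (dom ε) (GG Γ ε) ∧ CJ J (dom ε) (V1 n Γ ε) ∧ CJ J (dom ε) (err n Γ ε) ∧
    CJ J (dom ε) (gvt Γ ε)
  dt : ∀ ε σ x, 0 < x → HasDerivAt (fun s => gv Γ ε s x) (lam σ ^ 2 * gvt Γ ε σ x) σ ∧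
    HasDerivAt (fun s => GG Γ ε s x)
      (lam σ ^ 2 * (2 * gg Γ ε σ x * om ε x * gvt Γ ε σ x)) σ
  shift : ∀ ε s σ y, gv Γ (lam s * ε) σ y = lam s * gv Γ ε (s + σ) (lam s * y) ∧
    gg Γ (lam s * ε) σ y = gg Γ ε (s + σ) (lam s * y) ∧
    GG Γ (lam s * ε) σ y = GG Γ ε (s + σ) (lam s * y) ∧
    V1 n Γ (lam s * ε) σ y = lam s ^ 2 * V1 n Γ ε (s + σ) (lam s * y) ∧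
    err n Γ (lam s * ε) σ y = lam s ^ 3 * err n Γ ε (s + σ) (lam s * y)
  errQ : ∀ (k : ℕ) (p : ℤ), p ≤ 5 → ∃ C, 0 ≤ C ∧ ∀ ε σ, Par (lam σ) ε → 0 < ε →
    QQ n (lam σ) ε k p (err n Γ ε σ) ≤ C * ε ^ (6 - p)
  val : ∀ σ Y, gg Γ 0 σ (lam σ * Y) = 1 + Y * Γ Y

def CoefStmt : Prop := ∀ (n : ℕ) (Γ : ℝ → ℝ), 1 ≤ n → Shrinker n Γ → Coef n Γ

/-- Elementary operations on solutions. -/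
structure PSolStmt : Prop where
  mono : ∀ {n : ℕ} {Γ : ℝ → ℝ} {δ ε η a b a' b' : ℝ} {X : ℝ → ℝ → ℝ}, a ≤ a' → b' ≤ b →
    PSol n Γ δ ε η a b X → PSol n Γ δ ε η a' b' X
  congr : ∀ {n : ℕ} {Γ : ℝ → ℝ} {δ ε η a b : ℝ} {X Y : ℝ → ℝ → ℝ},
    (∀ σ ∈ Icc a b, EqOn (X σ) (Y σ) (dom ε)) → PSol n Γ δ ε η a b X → PSol n Γ δ ε η a b Y
  shift : ∀ {n : ℕ} {Γ : ℝ → ℝ} {δ ε η a b : ℝ} {X : ℝ → ℝ → ℝ} (s : ℝ), Coef n Γ →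
    PSol n Γ δ ε η a b X →
    PSol n Γ δ (lam s * ε) (η * Real.exp ((δ - 1 / 2) * s)) (a - s) (b - s)
      fun σ y => X (s + σ) (lam s * y)
  lin : ∀ {n : ℕ} {Γ : ℝ → ℝ} {δ a b : ℝ} {X Y : ℝ → ℝ → ℝ} (c d : ℝ),
    PSol n Γ δ 0 0 a b X → PSol n Γ δ 0 0 a b Y →
    PSol n Γ δ 0 0 a b fun σ y => c * X σ y + d * Y σ y
  zero : ∀ (n : ℕ) (Γ : ℝ → ℝ) (δ a b : ℝ), PSol n Γ δ 0 0 a b fun _ _ => 0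
  expo : ∀ {n : ℕ} {Γ : ℝ → ℝ} {δ a b : ℝ} {X : ℝ → ℝ → ℝ} (δ' : ℝ), PSol n Γ δ 0 0 a b X →
    PSol n Γ δ' 0 0 a b fun σ y => Real.exp ((δ - δ') * σ) * X σ y
  flat : ∀ (n : ℕ) (Γ : ℝ → ℝ) (δ σ : ℝ) (f : ℝ → ℝ) (x : ℝ), RR n Γ δ 0 0 σ f x
    = -δ * f x + lam σ ^ 2 * (-(GG Γ 0 σ x * LL n 0 f x) + 2 * gg Γ 0 σ x * V1 n Γ 0 σ x * f x)
  rr_cj : ∀ {n : ℕ} {Γ : ℝ → ℝ} {δ ε η a b : ℝ} {X : ℝ → ℝ → ℝ}, Coef n Γ →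
    PSol n Γ δ ε η a b X → CJ (Icc a b) (dom ε) fun σ => RR n Γ δ ε η σ (X σ)
  jet_t : ∀ {n : ℕ} {Γ : ℝ → ℝ} {δ ε η a b : ℝ} {X : ℝ → ℝ → ℝ}, Coef n Γ →
    PSol n Γ δ ε η a b X → ∀ (i : ℕ), ∀ σ ∈ Ioo a b, ∀ x ∈ dom ε,
    HasDerivAt (fun s => iteratedDeriv i (X s) x) (iteratedDeriv i (RR n Γ δ ε η σ (X σ)) x) σ
  rr_syU : ∀ {n : ℕ} {Γ : ℝ → ℝ} {δ ε η a b : ℝ} {X : ℝ → ℝ → ℝ}, Coef n Γ → Par (lam a) ε →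
    (0 < ε ∨ η = 0) → PSol n Γ δ ε η a b X →
    SyU (Icc a b) lam ε 0 fun σ => RR n Γ δ ε η σ (X σ)
  /-- time Lipschitz bound for the jets away from the gluing region -/
  tlip : ∀ {n : ℕ} {Γ : ℝ → ℝ} (δ : ℝ) (i : ℕ) (L : ℝ), Coef n Γ → ∃ C, 0 ≤ C ∧
    ∀ {ε η a b M : ℝ} {X : ℝ → ℝ → ℝ}, Par (lam a) ε → 0 ≤ M → b ≤ L → PSol n Γ δ ε η a b X →
      (∀ σ ∈ Icc a b, Sy (lam σ) ε (i + 4) 0 M (X σ) ∧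
        Sy (lam σ) ε (i + 4) (-1) 1 fun y => η * Real.exp (δ * σ) * X σ y) →
      ∀ σ ∈ Icc a b, ∀ σ' ∈ Icc a b, ∀ x ∈ dom ε, ε * x < 1 / 4 →
        |iteratedDeriv i (X σ) x - iteratedDeriv i (X σ') x| ≤ C * M * |σ - σ'|

/-- the energy at level `k` with weight `p` -/
noncomputable def En (n : ℕ) (Γ : ℝ → ℝ) (ε : ℝ) (k : ℕ) (p : ℤ) (X : ℝ → ℝ → ℝ) (σ : ℝ) : ℝ :=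
  EE n (lam σ) ε k p (GG Γ ε σ) (X σ)

/-- the squared size of the unnormalised perturbation -/
noncomputable def N1 (n : ℕ) (δ ε η : ℝ) (k : ℕ) (X : ℝ → ℝ → ℝ) (σ : ℝ) : ℝ :=
  (η * Real.exp (δ * σ)) ^ 2 * QQ n (lam σ) ε k 2 (X σ)

def EnStmt : Prop :=
  ∀ (n k : ℕ) (p : ℤ) (Γ : ℝ → ℝ), 1 ≤ n → n + 5 ≤ k → p ≤ 5 → Coef n Γ →
    ∃ ε₀ C : ℝ, 0 < ε₀ ∧ 1 ≤ C ∧ ∀ (δ ε η a b : ℝ) (X : ℝ → ℝ → ℝ), 0 ≤ η → Par (lam a) ε →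
      (0 < ε ∨ (η = 0 ∧ p ≤ -1)) → PSol n Γ δ ε η a b X →
      ContinuousOn (En n Γ ε k p X) (Icc a b) ∧
      (∀ σ ∈ Icc a b, Par (lam σ) ε ∧ Adm (lam σ) ε p (X σ) ∧
        QQ n (lam σ) ε k p (X σ) ≤ C * En n Γ ε k p X σ ∧
        En n Γ ε k p X σ ≤ C * QQ n (lam σ) ε k p (X σ)) ∧
      ∀ σ ∈ Ioo a b, ∃ E', HasDerivAt (En n Γ ε k p X) E' σ ∧ (N1 n δ ε η k X σ ≤ ε₀ →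
        E' ≤ -2 * δ * En n Γ ε k p X σ + lam σ ^ 2 * C * (TT n (lam σ) ε 0 2 (p - 2) (X σ)
          + η⁻¹ * Real.exp (-(δ * σ)) * √(ε ^ (6 - p)) * √(En n Γ ε k p X σ)))

/-- integrated energy inequalities, curved case -/
def DecCStmt : Prop :=
  ∀ (n k : ℕ) (Γ : ℝ → ℝ) (δ : ℝ), 1 ≤ n → n + 5 ≤ k → Coef n Γ → 0 < δ →
    ∃ ε₀ R C : ℝ, 0 < ε₀ ∧ 0 < R ∧ 1 ≤ C ∧ ∀ (ε b : ℝ) (X : ℝ → ℝ → ℝ), 0 < ε → ε ≤ 1 →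
      PSol n Γ δ ε ε 0 b X → (∀ σ ∈ Icc 0 b, N1 n δ ε ε k X σ ≤ ε₀) →
      ∀ s₁ s₂, 0 ≤ s₁ → s₁ ≤ s₂ → s₂ ≤ b →
        En n Γ ε k 0 X s₂ ≤ Real.exp (C * (s₂ - s₁)) * (En n Γ ε k 0 X s₁ + ε ^ 4) ∧
        ∀ ρ : ℝ, (∀ σ ∈ Icc s₁ s₂, ∀ x ∈ dom ε, x ≤ R * lam σ → |X σ x| ≤ ρ) →
          En n Γ ε k 0 X s₂
            ≤ Real.exp (-(δ * (s₂ - s₁))) * En n Γ ε k 0 X s₁ + C * (ρ ^ 2 + ε ^ 4)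

/-- integrated energy inequalities, flat linear case -/
def DecFStmt : Prop :=
  ∀ (n k : ℕ) (Γ : ℝ → ℝ) (δ : ℝ), 1 ≤ n → n + 5 ≤ k → Coef n Γ → 0 < δ →
    ∃ R C : ℝ, 0 < R ∧ 1 ≤ C ∧ ∀ (a b : ℝ) (X : ℝ → ℝ → ℝ), PSol n Γ δ 0 0 a b X →
      ∀ s₁ s₂, a ≤ s₁ → s₁ ≤ s₂ → s₂ ≤ b →
        lam s₂ * En n Γ 0 k (-1) X s₂
          ≤ Real.exp (C * (s₂ - s₁)) * (lam s₁ * En n Γ 0 k (-1) X s₁) ∧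
        ∀ ρ : ℝ, (∀ σ ∈ Icc s₁ s₂, ∀ x, 0 < x → x ≤ R * lam σ → |X σ x| ≤ ρ) →
          lam s₂ * En n Γ 0 k (-1) X s₂
            ≤ Real.exp (-(δ * (s₂ - s₁))) * (lam s₁ * En n Γ 0 k (-1) X s₁) + C * ρ ^ 2

/-- all levels are controlled inside the tube -/
def TubeStmt : Prop :=
  ∀ (n k : ℕ) (Γ : ℝ → ℝ) (δ K B θ : ℝ), 1 ≤ n → n + 11 ≤ k → Coef n Γ → 0 < δ → δ < 1 / 2 →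
    0 < θ → ∃ ε₁ C : ℝ, 0 < ε₁ ∧ ε₁ ≤ 1 ∧ ∀ (ε b : ℝ) (X : ℝ → ℝ → ℝ), 0 < ε → ε ≤ ε₁ →
      PSol n Γ δ ε ε 0 b X → QQ n 1 ε k 0 (X 0) ≤ B → ε * QQ n 1 ε k 2 (X 0) ≤ B →
      (∀ σ ∈ Icc 0 b, En n Γ ε (n + 11) 0 X σ ≤ K) →
      ∀ σ ∈ Icc 0 b, N1 n δ ε ε k X σ ≤ θ ∧ QQ n (lam σ) ε k 0 (X σ) ≤ C

/-- symbol bounds from the norms -/
def SymbStmt : Prop :=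
  ∀ (n h : ℕ) (q : ℤ), 1 ≤ n → ∃ C, 0 ≤ C ∧ ∀ (l ε : ℝ) (f : ℝ → ℝ), Par l ε →
    Adm l ε (-2 * q) f → Sy l ε h q (C * √(QQ n l ε (2 * h + n + 3) (-2 * q) f)) f

noncomputable def mass (E : ℝ → ℝ) (θ₀ r : ℝ) : ℝ := ∫ σ in (0 : ℝ)..r, max (E σ - θ₀) 0

/-- small mass forces the solution to stay in the tube -/
def ExitStmt : Prop :=
  ∀ (n : ℕ) (Γ : ℝ → ℝ) (δ B θ₀ : ℝ), 1 ≤ n → Coef n Γ → 0 < δ → δ < 1 / 2 →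
    ∃ K ε₁ : ℝ, 0 < ε₁ ∧ ε₁ ≤ 1 ∧ ∀ (ε b : ℝ) (X : ℝ → ℝ → ℝ), 0 < ε → ε ≤ ε₁ → 0 ≤ b →
      PSol n Γ δ ε ε 0 b X → QQ n 1 ε (n + 11) 0 (X 0) ≤ B → ε * QQ n 1 ε (n + 11) 2 (X 0) ≤ B →
      mass (En n Γ ε (n + 11) 0 X) θ₀ b ≤ 1 → ∀ σ ∈ Icc 0 b, En n Γ ε (n + 11) 0 X σ ≤ K

/-! ### ancient solutions of the flat linear equation -/

structure Anc (n : ℕ) (Γ : ℝ → ℝ) (δ : ℝ) (Z : ℝ → ℝ → ℝ) : Prop where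
  sol : ∀ a, a ≤ 0 → PSol n Γ δ 0 0 a 0 Z
  sy : SyU (Iic 0) lam 0 0 Z
  int : ∀ σ, σ ≤ 0 → ∀ k, IntQ n (lam σ) 0 k 0 (Z σ)
  zero : ∀ σ y, ¬ (σ ≤ 0 ∧ 0 < y) → Z σ y = 0

noncomputable def shA (τ : ℝ) (Z : ℝ → ℝ → ℝ) : ℝ → ℝ → ℝ := fun σ y =>
  if σ ≤ 0 ∧ 0 < y then Z (-τ + σ) (lam (-τ) * y) else 0

structure AncStmt : Prop where
  zero : ∀ (n : ℕ) (Γ : ℝ → ℝ) (δ : ℝ), Anc n Γ δ 0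
  add : ∀ {n : ℕ} {Γ : ℝ → ℝ} {δ : ℝ} {X Y : ℝ → ℝ → ℝ}, Anc n Γ δ X → Anc n Γ δ Y →
    Anc n Γ δ (X + Y)
  smul : ∀ {n : ℕ} {Γ : ℝ → ℝ} {δ : ℝ} {X : ℝ → ℝ → ℝ} (c : ℝ), Anc n Γ δ X → Anc n Γ δ (c • X)
  expo : ∀ {n : ℕ} {Γ : ℝ → ℝ} {δ δ' : ℝ} {X : ℝ → ℝ → ℝ}, δ' ≤ δ → Anc n Γ δ X →
    Anc n Γ δ' fun σ y => Real.exp ((δ - δ') * σ) * X σ y
  shift' : ∀ {n : ℕ} {Γ : ℝ → ℝ} {δ : ℝ} {Z : ℝ → ℝ → ℝ} (b : ℝ), Coef n Γ →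
    (∀ a, a ≤ b → PSol n Γ δ 0 0 a b Z) → SyU (Iic b) lam 0 0 Z →
    (∀ σ, σ ≤ b → ∀ k, IntQ n (lam σ) 0 k 0 (Z σ)) → Anc n Γ δ (shA (-b) Z)
  shift : ∀ {n : ℕ} {Γ : ℝ → ℝ} {δ τ : ℝ} {Z : ℝ → ℝ → ℝ}, Coef n Γ → 0 ≤ τ → Anc n Γ δ Z →
    Anc n Γ δ (shA τ Z)
  shA_shA : ∀ {τ₁ : ℝ} (τ₂ : ℝ) (Z : ℝ → ℝ → ℝ), 0 ≤ τ₁ → shA τ₁ (shA τ₂ Z) = shA (τ₁ + τ₂) Z
  shA_zero : ∀ {n : ℕ} {Γ : ℝ → ℝ} {δ : ℝ} {Z : ℝ → ℝ → ℝ}, Anc n Γ δ Z → shA 0 Z = Z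
  en_shift : ∀ {n : ℕ} {Γ : ℝ → ℝ} (k : ℕ) (τ : ℝ) (Z : ℝ → ℝ → ℝ), Coef n Γ →
    En n Γ 0 k (-1) (shA τ Z) 0 = lam (-τ) * En n Γ 0 k (-1) Z (-τ)
  /-- forward uniqueness -/
  uniq : ∀ {n : ℕ} {Γ : ℝ → ℝ} {δ a b : ℝ} {X : ℝ → ℝ → ℝ}, 1 ≤ n → Coef n Γ → 0 < δ →
    PSol n Γ δ 0 0 a b X → (∀ y, 0 < y → X a y = 0) → ∀ σ ∈ Icc a b, ∀ y, 0 < y → X σ y = 0
  en_zero : ∀ {n : ℕ} {Γ : ℝ → ℝ} {δ : ℝ} {Z : ℝ → ℝ → ℝ} (k : ℕ), Coef n Γ → Anc n Γ δ Z →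
    ∀ σ, σ ≤ 0 → En n Γ 0 k (-1) Z σ = 0 → ∀ y, Z σ y = 0

/-- an abstract volume contraction argument -/
def FDStmt : Prop :=
  ∀ (A : Type) [AddCommGroup A] [Module ℝ A] (B : A →ₗ[ℝ] A →ₗ[ℝ] ℝ) (T : A →ₗ[ℝ] A) (d : ℕ)
    (φ : Fin d → A →ₗ[ℝ] ℝ) (M : ℝ), (∀ x y, B x y = B y x) → (∀ x, 0 ≤ B x x) →
    (∀ x, B x x ≤ M * B (T x) (T x)) → (∀ x, (∀ i, φ i x = 0) → B x x ≤ B (T x) (T x) / 4) →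
    (∀ x, ∃ C, ∀ m : ℕ, B ((T ^ m) x) ((T ^ m) x) ≤ C) →
    (∀ x, (∀ m : ℕ, B ((T ^ m) x) ((T ^ m) x) = 0) → x = 0) → FiniteDimensional ℝ A

def GridStmt : Prop :=
  ∀ (n : ℕ) (Γ : ℝ → ℝ) (δ : ℝ), 1 ≤ n → Coef n Γ → 0 < δ →
    ∃ (τ M : ℝ) (d : ℕ) (P : Fin d → ℝ × ℝ), 0 < τ ∧ ∀ Z, Anc n Γ δ Z →
      En n Γ 0 (n + 11) (-1) Z 0 ≤ M * En n Γ 0 (n + 11) (-1) (shA τ Z) 0 ∧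
      ((∀ i, Z (P i).1 (P i).2 = 0) →
        En n Γ 0 (n + 11) (-1) Z 0 ≤ En n Γ 0 (n + 11) (-1) (shA τ Z) 0 / 4) ∧
      ∃ C, ∀ τ', 0 ≤ τ' → En n Γ 0 (n + 11) (-1) (shA τ' Z) 0 ≤ C

def FinDimStmt : Prop :=
  ∀ (n : ℕ) (Γ : ℝ → ℝ) (δ : ℝ), 1 ≤ n → Coef n Γ → 0 < δ →
    ∃ s : Finset (ℝ → ℝ → ℝ), ∀ Z, Anc n Γ δ Z → Z ∈ Submodule.span ℝ (s : Set (ℝ → ℝ → ℝ))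

noncomputable def Rm {d : ℕ} (z : (Fin d → ℝ) →ₗ[ℝ] (ℝ → ℝ → ℝ)) (y : Fin d → ℝ) (τ : ℝ)
    (a : Fin d → ℝ) : Fin d → ℝ := fun i => z a (-τ) (lam (-τ) * y i)

structure Spec (n : ℕ) (Γ : ℝ → ℝ) (δ : ℝ) (d : ℕ) (y : Fin d → ℝ)
    (z : (Fin d → ℝ) →ₗ[ℝ] (ℝ → ℝ → ℝ)) : Prop where
  ypos : ∀ i, 0 < y i
  anc : ∀ a, Anc n Γ δ (z a)
  eval : ∀ a i, z a 0 (y i) = a i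
  uniq : ∀ Z, Anc n Γ δ Z → Z = z fun i => Z 0 (y i)
  shift : ∀ τ, 0 ≤ τ → ∀ a, shA τ (z a) = z (Rm z y τ a)
  semi : ∀ τ₁ τ₂, 0 ≤ τ₁ → 0 ≤ τ₂ → ∀ a, Rm z y τ₁ (Rm z y τ₂ a) = Rm z y (τ₁ + τ₂) a
  inj : ∀ τ, 0 ≤ τ → ∀ a, Rm z y τ a = 0 → a = 0
  surj : ∀ τ, 0 ≤ τ → ∀ a, ∃ a', Rm z y τ a' = a
  decay : ∃ C c : ℝ, 0 < c ∧ ∀ τ, 0 ≤ τ → ∀ a, ‖Rm z y τ a‖ ≤ C * Real.exp (-(c * τ)) * ‖a‖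
  cont : ContinuousOn (fun p : ℝ × (Fin d → ℝ) => Rm z y p.1 p.2) (Ici 0 ×ˢ univ)
  bdQ : ∀ k : ℕ, ∃ C, 0 ≤ C ∧ ∀ a, QQ n 1 0 k 0 (z a 0) ≤ C * ‖a‖ ^ 2
  bdS : ∀ h : ℕ, ∃ M, 0 ≤ M ∧ ∀ a, Sy 1 0 h 0 (M * ‖a‖) (z a 0)

def SpecStmt : Prop :=
  ∀ (n : ℕ) (Γ : ℝ → ℝ), 1 ≤ n → Coef n Γ → ∃ δ : ℝ, 0 < δ ∧ δ < 1 / 2 ∧
    ∃ (d : ℕ) (y : Fin d → ℝ) (z : (Fin d → ℝ) →ₗ[ℝ] (ℝ → ℝ → ℝ)), Spec n Γ δ d y z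

/-! ### limits -/

/-- times that are limits of admissible times -/
def limJ (U : Filter ℕ) (a b : ℕ → ℝ) : Set ℝ :=
  {σ | ∀ θ : ℝ, 0 < θ → ∀ᶠ m in U, a m ≤ σ + θ ∧ σ - θ ≤ b m}

/-- convergence of all space jets along sequences of points -/
def JetConv (U : Filter ℕ) (a b : ℕ → ℝ) (X : ℕ → ℝ → ℝ → ℝ) (Z : ℝ → ℝ → ℝ) : Prop :=
  ∀ (i : ℕ) (s y : ℕ → ℝ) (σ x : ℝ), 0 < x → (∀ᶠ m in U, s m ∈ Icc (a m) (b m)) →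
    Tendsto s U (𝓝 σ) → Tendsto y U (𝓝 x) →
    Tendsto (fun m => iteratedDeriv i (X m (s m)) (y m)) U (𝓝 (iteratedDeriv i (Z σ) x))

def JetLimStmt : Prop :=
  ∀ (U : Ultrafilter ℕ) (ε a b : ℕ → ℝ) (X : ℕ → ℝ → ℝ → ℝ), (∀ m, a m ≤ b m) → (∀ m, 0 ≤ ε m) →
    Tendsto ε U (𝓝 0) → (∀ m, ∀ σ ∈ Icc (a m) (b m), ContDiffOn ℝ ∞ (X m σ) (dom (ε m))) →
    (∀ (i : ℕ) (L : ℝ), ∃ C, ∀ᶠ m in U, ∀ σ ∈ Icc (a m) (b m), |σ| ≤ L → ∀ y ∈ Ioc 0 L,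
      |iteratedDeriv i (X m σ) y| ≤ C ∧ ∀ σ' ∈ Icc (a m) (b m), |σ'| ≤ L →
        |iteratedDeriv i (X m σ) y - iteratedDeriv i (X m σ') y| ≤ C * |σ - σ'|) →
    ∃ Z, CJ (limJ U a b) (Ioi 0) Z ∧ JetConv U a b X Z

def LimStmt : Prop :=
  ∀ (n : ℕ) (Γ : ℝ → ℝ) (δ : ℝ) (U : Ultrafilter ℕ) (ε η a b : ℕ → ℝ) (X : ℕ → ℝ → ℝ → ℝ),
    1 ≤ n → Coef n Γ →
    (∀ m, a m ≤ b m ∧ Par (lam (a m)) (ε m) ∧ 0 < ε m ∧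
      PSol n Γ δ (ε m) (η m) (a m) (b m) (X m)) →
    Tendsto ε U (𝓝 0) → Tendsto η U (𝓝 0) →
    (∀ h : ℕ, ∃ M, ∀ᶠ m in U, ∀ σ ∈ Icc (a m) (b m), Sy (lam σ) (ε m) h 0 M (X m σ) ∧
      Sy (lam σ) (ε m) h (-1) 1 (fun y => η m * Real.exp (δ * σ) * X m σ y) ∧
      QQ n (lam σ) (ε m) h 0 (X m σ) ≤ M) →
    ∃ Z, JetConv U a b X Z ∧ SyU (limJ U a b) lam 0 0 Z ∧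
      (∀ σ ∈ limJ U a b, ∀ k, IntQ n (lam σ) 0 k 0 (Z σ)) ∧
      ∀ α ∈ limJ U a b, ∀ β ∈ limJ U a b, PSol n Γ δ 0 0 α β Z

/-! ### the family of solutions -/

noncomputable def toX (Γ : ℝ → ℝ) (δ ε : ℝ) (γ : ℝ → ℝ → ℝ) : ℝ → ℝ → ℝ := fun σ y =>
  ε⁻¹ * Real.exp (-(δ * σ)) * (ε * γ (ε ^ 2 * (1 - Real.exp (-σ))) (ε * y) - gv Γ ε σ y)

def ToXStmt : Prop :=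
  ∀ (n : ℕ) (Γ γ₀ : ℝ → ℝ) (γ : ℝ → ℝ → ℝ) (δ ε : ℝ), 1 ≤ n → Coef n Γ → Sol n γ₀ γ → 0 < ε →
    ε ≤ 1 → ∀ b, PSol n Γ δ ε ε 0 b (toX Γ δ ε γ)

def BlowStmt : Prop :=
  ∀ (n : ℕ) (Γ γ₀ : ℝ → ℝ) (γ : ℝ → ℝ → ℝ) (δ ε : ℝ), Coef n Γ → (∃ Y, 0 < Y ∧ Γ Y ≠ 0) →
    Sol n γ₀ γ → 0 < ε → δ < 1 / 2 →
    ¬ ∃ C, ∀ σ, 0 ≤ σ → ∀ y ∈ dom ε, |toX Γ δ ε γ σ y| ≤ C

/-- stability of solutions on bounded time intervals -/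
def StabStmt : Prop :=
  ∀ (n k : ℕ) (γ₀ : ℝ → ℝ) (γ : ℝ → ℝ → ℝ) (T θ : ℝ), 1 ≤ n → n + 5 ≤ k → Sol n γ₀ γ → 0 < θ →
    ∃ θ', 0 < θ' ∧ ∀ (γ₀' : ℝ → ℝ) (γ' : ℝ → ℝ → ℝ), Sol n γ₀' γ' →
      QQ n 1 1 k 0 (fun x => γ₀' x - γ₀ x) ≤ θ' →
      ∀ t ∈ Icc 0 T, QQ n 1 1 k 0 (fun x => γ' t x - γ t x) ≤ θ

def ContXStmt : Prop :=
  ∀ (n : ℕ) (Γ γ₀ : ℝ → ℝ) (γ : ℝ → ℝ → ℝ) (δ ε S θ : ℝ), 1 ≤ n → Coef n Γ → Sol n γ₀ γ →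
    0 < ε → ε ≤ 1 → 0 < θ → ∃ θ', 0 < θ' ∧ ∀ (γ₀' : ℝ → ℝ) (γ' : ℝ → ℝ → ℝ), Sol n γ₀' γ' →
      QQ n 1 1 (n + 11) 0 (fun x => γ₀' x - γ₀ x) ≤ θ' → ∀ σ ∈ Icc 0 S,
        |En n Γ ε (n + 11) 0 (toX Γ δ ε γ') σ - En n Γ ε (n + 11) 0 (toX Γ δ ε γ) σ| ≤ θ ∧
        ∀ y ∈ dom ε, |toX Γ δ ε γ' σ y - toX Γ δ ε γ σ y| ≤ θ

/-- the cut off initial perturbation -/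
noncomputable def cutz {d : ℕ} (z : (Fin d → ℝ) →ₗ[ℝ] (ℝ → ℝ → ℝ)) (ε : ℝ) (a : Fin d → ℝ)
    (y : ℝ) : ℝ := ze (√ε * y) * z a 0 y

noncomputable def g0a {d : ℕ} (Γ : ℝ → ℝ) (z : (Fin d → ℝ) →ₗ[ℝ] (ℝ → ℝ → ℝ)) (ε : ℝ)
    (a : Fin d → ℝ) (x : ℝ) : ℝ :=
  ε⁻¹ * (gv Γ ε 0 (ε⁻¹ * x) + ε * cutz z ε a (ε⁻¹ * x))

def DataStmt : Prop :=
  ∀ (n : ℕ) (Γ : ℝ → ℝ) (δ : ℝ) (d : ℕ) (y : Fin d → ℝ) (z : (Fin d → ℝ) →ₗ[ℝ] (ℝ → ℝ → ℝ)),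
    1 ≤ n → Coef n Γ → Spec n Γ δ d y z →
    (∀ k : ℕ, ∃ B, 0 ≤ B ∧ ∀ ε, 0 < ε → ε ≤ 1 → ∀ a,
      QQ n 1 ε k 0 (cutz z ε a) ≤ B * ‖a‖ ^ 2 ∧ ε * QQ n 1 ε k 2 (cutz z ε a) ≤ B * ‖a‖ ^ 2) ∧
    (∀ (k : ℕ) (ε : ℝ), 0 < ε → ε ≤ 1 → ∃ C, ∀ a a',
      QQ n 1 1 k 0 (fun x => g0a Γ z ε a' x - g0a Γ z ε a x) ≤ C * ‖a' - a‖ ^ 2) ∧
    ∃ ε₂, 0 < ε₂ ∧ ∀ ε, 0 < ε → ε ≤ ε₂ → ∀ a, ‖a‖ ≤ 1 → ∃ γ₀ : ℝ → ℝ,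
      ContDiffOn ℝ ∞ γ₀ (Icc 0 1) ∧ (∀ x ∈ Icc (0 : ℝ) 1, 0 < 1 + om 1 x * γ₀ x) ∧
      EqOn γ₀ (g0a Γ z ε a) (Ioo 0 1)

structure Fam (n : ℕ) (Γ : ℝ → ℝ) (δ : ℝ) {d : ℕ} (y : Fin d → ℝ)
    (z : (Fin d → ℝ) →ₗ[ℝ] (ℝ → ℝ → ℝ)) (ε : ℝ) (X : (Fin d → ℝ) → ℝ → ℝ → ℝ) : Prop where
  sol : ∀ a, ‖a‖ ≤ 1 → ∀ b, PSol n Γ δ ε ε 0 b (X a)
  init : ∀ a, ‖a‖ ≤ 1 → EqOn (X a 0) (cutz z ε a) (dom ε)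
  noblow : ∀ a, ‖a‖ ≤ 1 → ¬ ∃ C, ∀ σ, 0 ≤ σ → ∀ x ∈ dom ε, |X a σ x| ≤ C
  contE : ContinuousOn (fun p : (Fin d → ℝ) × ℝ => En n Γ ε (n + 11) 0 (X p.1) p.2)
    (Metric.closedBall 0 1 ×ˢ Ici 0)
  contP : ContinuousOn (fun p : (Fin d → ℝ) × ℝ => fun i => X p.1 p.2 (lam p.2 * y i))
    (Metric.closedBall 0 1 ×ˢ Ici 0)
  ydom : ∀ i, y i ∈ dom ε ∧ √ε * y i ≤ 1 / 4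

def FamStmt : Prop :=
  ∀ (n : ℕ) (Γ : ℝ → ℝ) (δ : ℝ) (d : ℕ) (y : Fin d → ℝ) (z : (Fin d → ℝ) →ₗ[ℝ] (ℝ → ℝ → ℝ)),
    1 ≤ n → Coef n Γ → (∃ Y, 0 < Y ∧ Γ Y ≠ 0) → δ < 1 / 2 → Spec n Γ δ d y z → ¬ Main1D n →
    ∃ ε₂, 0 < ε₂ ∧ ε₂ ≤ 1 ∧ ∀ ε, 0 < ε → ε ≤ ε₂ → ∃ X, Fam n Γ δ y z ε X

/-- uniform control of the shifted solutions -/
def CtlStmt : Prop :=
  ∀ (n : ℕ) (Γ : ℝ → ℝ) (δ θ₀ : ℝ) (d : ℕ) (y : Fin d → ℝ) (z : (Fin d → ℝ) →ₗ[ℝ] (ℝ → ℝ → ℝ)),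
    1 ≤ n → Coef n Γ → 0 < δ → δ < 1 / 2 → Spec n Γ δ d y z → ∀ (h : ℕ) (θ : ℝ), 0 < θ →
    ∃ ε₁ M : ℝ, 0 < ε₁ ∧ 0 ≤ M ∧ ∀ (ε r : ℝ) (a : Fin d → ℝ) (X : (Fin d → ℝ) → ℝ → ℝ → ℝ),
      0 < ε → ε ≤ ε₁ → Fam n Γ δ y z ε X → ‖a‖ ≤ 1 → 0 ≤ r →
      mass (En n Γ ε (n + 11) 0 (X a)) θ₀ r ≤ 1 → ∀ σ ∈ Icc 0 r,
        Sy (lam σ) ε h 0 M (X a σ) ∧
        Sy (lam σ) ε h (-1) 1 (fun x => ε * Real.exp (δ * σ) * X a σ x) ∧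
        QQ n (lam σ) ε h 0 (X a σ) ≤ M ∧ En n Γ ε (n + 11) 0 (X a) σ ≤ M ∧
        N1 n δ ε ε (n + 11) (X a) σ ≤ θ

/-- the limit of the shifted solutions does not vanish -/
def NonzStmt : Prop :=
  ∀ (n : ℕ) (Γ : ℝ → ℝ) (δ θ₀ : ℝ) (d : ℕ) (y : Fin d → ℝ) (z : (Fin d → ℝ) →ₗ[ℝ] (ℝ → ℝ → ℝ))
    (U : Ultrafilter ℕ) (ε s : ℕ → ℝ) (a : ℕ → Fin d → ℝ) (X : ℕ → (Fin d → ℝ) → ℝ → ℝ → ℝ),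
    1 ≤ n → Coef n Γ → 0 < δ → δ < 1 / 2 → 0 < θ₀ → Spec n Γ δ d y z →
    (∀ m, 0 < ε m ∧ ε m ≤ 1 ∧ Fam n Γ δ y z (ε m) (X m) ∧ ‖a m‖ ≤ 1 ∧ 0 ≤ s m ∧
      θ₀ ≤ En n Γ (ε m) (n + 11) 0 (X m (a m)) (s m) ∧
      mass (En n Γ (ε m) (n + 11) 0 (X m (a m))) θ₀ (s m) ≤ 1) →
    Tendsto ε U (𝓝 0) →
    (∀ L : ℝ, (∀ᶠ m in U, s m ≤ L) → ¬ Tendsto a U (𝓝 0)) ∧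
    (Tendsto s U atTop → ¬ ∀ (t x : ℕ → ℝ) (τ ξ : ℝ), τ ≤ 0 → 0 < ξ →
      (∀ᶠ m in U, t m ∈ Icc (-(s m)) 0) → Tendsto t U (𝓝 τ) → Tendsto x U (𝓝 ξ) →
      Tendsto (fun m => X m (a m) (s m + t m) (lam (s m) * x m)) U (𝓝 0))

def KeyStmt : Prop :=
  ∀ (n : ℕ) (Γ : ℝ → ℝ) (δ θ₀ : ℝ) (d : ℕ) (y : Fin d → ℝ) (z : (Fin d → ℝ) →ₗ[ℝ] (ℝ → ℝ → ℝ))
    (U : Ultrafilter ℕ) (ε s r : ℕ → ℝ) (a : ℕ → Fin d → ℝ) (X : ℕ → (Fin d → ℝ) → ℝ → ℝ → ℝ),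
    1 ≤ n → Coef n Γ → 0 < δ → δ < 1 / 2 → 0 < θ₀ → Spec n Γ δ d y z →
    (∀ m, 0 < ε m ∧ ε m ≤ 1 ∧ Fam n Γ δ y z (ε m) (X m) ∧ ‖a m‖ ≤ 1 ∧ 0 ≤ s m ∧ s m ≤ r m ∧
      θ₀ ≤ En n Γ (ε m) (n + 11) 0 (X m (a m)) (s m) ∧
      mass (En n Γ (ε m) (n + 11) 0 (X m (a m))) θ₀ (r m) ≤ 1) →
    Tendsto ε U (𝓝 0) →
    ∃ p₀ : Fin d → ℝ, p₀ ≠ 0 ∧
      Tendsto (fun m i => X m (a m) (s m) (lam (s m) * y i)) U (𝓝 p₀) ∧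
      Tendsto (fun m => Rm z y (r m - s m) fun i => X m (a m) (r m) (lam (r m) * y i)) U (𝓝 p₀)

/-- the topological argument -/
def TopStmt : Prop :=
  ∀ (d : ℕ) (R : ℝ → (Fin d → ℝ) → (Fin d → ℝ)) (θ₀ : ℝ) (U : Ultrafilter ℕ)
    (E : ℕ → (Fin d → ℝ) → ℝ → ℝ) (P : ℕ → (Fin d → ℝ) → ℝ → Fin d → ℝ),
    (∀ τ, IsLinearMap ℝ (R τ)) →
    ContinuousOn (fun p : ℝ × (Fin d → ℝ) => R p.1 p.2) (Ici 0 ×ˢ univ) → (∀ a, R 0 a = a) →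
    (∀ τ₁ τ₂, 0 ≤ τ₁ → 0 ≤ τ₂ → ∀ a, R τ₁ (R τ₂ a) = R (τ₁ + τ₂) a) →
    (∀ τ, 0 ≤ τ → ∀ a, R τ a = 0 → a = 0) →
    (∀ m, ContinuousOn (fun p : (Fin d → ℝ) × ℝ => E m p.1 p.2) (Metric.closedBall 0 1 ×ˢ Ici 0)) →
    (∀ m, ContinuousOn (fun p : (Fin d → ℝ) × ℝ => P m p.1 p.2) (Metric.closedBall 0 1 ×ˢ Ici 0)) →
    (∀ m a, ‖a‖ ≤ 1 → P m a 0 = a) → (∀ m a, ‖a‖ = 1 → θ₀ ≤ E m a 0) →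
    (∀ m a, ‖a‖ ≤ 1 → ∃ S, 0 ≤ S ∧ 1 < mass (E m a) θ₀ S) →
    (∀ (a : ℕ → Fin d → ℝ) (s r : ℕ → ℝ),
      (∀ m, ‖a m‖ ≤ 1 ∧ 0 ≤ s m ∧ s m ≤ r m ∧ θ₀ ≤ E m (a m) (s m) ∧
        mass (E m (a m)) θ₀ (r m) ≤ 1) →
      ∃ p₀ : Fin d → ℝ, p₀ ≠ 0 ∧ Tendsto (fun m => P m (a m) (s m)) U (𝓝 p₀) ∧
        Tendsto (fun m => R (r m - s m) (P m (a m) (r m))) U (𝓝 p₀)) → False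

def MainStmt : Prop := ∀ (n : ℕ) (Γ : ℝ → ℝ), 1 ≤ n → Shrinker n Γ → Main1D n

end Vale.Agent.P264
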