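import Vale.Agent.P264.StmS

/-!
Statements of part G (existence of the self-similar shrinker in large dimension). See PLAN.md.
-/

namespace Vale.Agent.P264

open scoped ContDiff ComplexConjugate
open Set MeasureTheory Filter

/-- self-similar profile -/
structure Shrinker (n : ℕ) (Γ : ℝ → ℝ) : Prop where
  sy : SyA 1 0 (-1) Γ
  pos : ∃ c, 0 < c ∧ ∀ y, 0 < y → c ≤ 1 + y * Γ y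
  eqn : ∀ y, 0 < y → (Γ y + y * deriv Γ y) / 2 + (1 + y * Γ y) ^ 2 * LL n 0 Γ y = 0
  ne : ∃ Y, 0 < Y ∧ Γ Y ≠ 0

def ShrinkStmt : Prop := ∃ n : ℕ, 2 ≤ n ∧ ∃ Γ, Shrinker n Γ

noncomputable def xi (z : ℂ) : ℂ := z * (1 + z / 1000) ^ 2
noncomputable def vv (z : ℂ) : ℂ := xi z ^ 2 + 2 / 9
noncomputable def ww (z : ℂ) : ℂ := xi z ^ 2 + 2 / 3
noncomputable def qq (z : ℂ) : ℂ := xi z ^ 4 + 4 / 27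
noncomputable def e1 (z : ℂ) : ℂ := (1 + z / 1000) ^ 2 * ww z / vv z
noncomputable def ee (z : ℂ) : ℂ := z * e1 z
noncomputable def mm (z : ℂ) : ℂ := (1000 + 3 * z) / (1000 + z) * qq z / (ww z * vv z)
noncomputable def g0 (z : ℂ) : ℂ := qq z / (3 * vv z ^ 2)
noncomputable def AA (z : ℂ) : ℂ := 1 / (2 * g0 z ^ 2)
noncomputable def G0 (z : ℂ) : ℂ := 3 / 2 - 1 / (2 * g0 z)

def OmO : Set ℂ := {z | √3 * |z.im| < z.re} ∪ Metric.ball 0 (1 / 10)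
def OmC : Set ℂ := {z | √3 * |z.im| ≤ z.re} ∪ Metric.closedBall 0 (1 / 10)

/-- holomorphic inside, continuous up to the boundary, real on the real axis -/
def Hol (f : ℂ → ℂ) : Prop :=
  DifferentiableOn ℂ f OmO ∧ ContinuousOn f OmC ∧ ∀ z ∈ OmC, f (conj z) = conj (f z)

/-- analytic near the closed domain -/
def An (f : ℂ → ℂ) : Prop := (∀ z ∈ OmC, AnalyticAt ℂ f z) ∧ ∀ z, f (conj z) = conj (f z)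

noncomputable def JJ (k : ℕ) (f : ℂ → ℂ) (z : ℂ) : ℂ :=
  ∫ t in (0 : ℝ)..1, (t : ℂ) ^ (k - 1) * (e1 (t * z) / e1 z) ^ k * mm (t * z) * f (t * z)

/-- the Euler derivative in the variable `ee z` -/
noncomputable def Dh (f : ℂ → ℂ) (z : ℂ) : ℂ := z * deriv f z / mm z

noncomputable def KK (n : ℕ) (F : ℂ → ℂ) (z : ℂ) : ℂ :=
  ee z ^ 2 * JJ 1 (fun w => (n : ℂ) ^ 2 * JJ (n + 1) (JJ (n + 2) F) w) z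

noncomputable def ray (s : ℝ) : ℂ := Complex.exp (s + Real.pi / 6 * Complex.I)

noncomputable def VV (s : ℝ) : ℝ := 9 / (2 * 1000 ^ 4) * Real.exp (6 * s)

/-- The domain and the classes `Hol`, `An`. -/
structure HolStmt : Prop where
  open_O : IsOpen OmO
  closed_C : IsClosed OmC
  sub : OmO ⊆ OmC
  star_O : ∀ z ∈ OmO, ∀ t ∈ Icc (0 : ℝ) 1, (t : ℂ) * z ∈ OmO
  star_C : ∀ z ∈ OmC, ∀ t ∈ Icc (0 : ℝ) 1, (t : ℂ) * z ∈ OmC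
  conj_mem : ∀ z ∈ OmC, conj z ∈ OmC
  ray_mem : ∀ s, ray s ∈ OmC
  ray_norm : ∀ s, ‖ray s‖ = Real.exp s
  ray_deriv : ∀ s, HasDerivAt ray (ray s) s
  real_mem : ∀ r : ℝ, 0 ≤ r → (r : ℂ) ∈ OmO
  tube : ∀ r : ℝ, 0 ≤ r → Metric.ball (r : ℂ) ((1 + r) / 100) ⊆ OmO
  hol_const : ∀ c : ℝ, Hol fun _ => (c : ℂ)
  hol_add : ∀ {f g : ℂ → ℂ}, Hol f → Hol g → Hol fun z => f z + g z
  hol_sub : ∀ {f g : ℂ → ℂ}, Hol f → Hol g → Hol fun z => f z - g z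
  hol_mul : ∀ {f g : ℂ → ℂ}, Hol f → Hol g → Hol fun z => f z * g z
  hol_div : ∀ {f g : ℂ → ℂ}, Hol f → Hol g → (∀ z ∈ OmC, g z ≠ 0) → Hol fun z => f z / g z
  hol_congr : ∀ {f g : ℂ → ℂ}, EqOn f g OmC → Hol f → Hol g
  hol_real : ∀ {f : ℂ → ℂ}, Hol f → ∀ r : ℝ, 0 ≤ r → (f r).im = 0
  hol_lim : ∀ {u : ℕ → ℂ → ℂ} {f : ℂ → ℂ}, (∀ j, Hol (u j)) →
    (∀ R : ℝ, TendstoUniformlyOn u f atTop (OmC ∩ Metric.closedBall 0 R)) → Hol f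
  an_hol : ∀ {f : ℂ → ℂ}, An f → Hol f
  /-- Phragmen-Lindelof in the sector -/
  pl : ∀ {u : ℂ → ℂ} {B : ℝ}, Hol u → (∃ K B', ∀ z ∈ OmC, ‖u z‖ ≤ B' * Real.exp (K * ‖z‖ ^ 2)) →
    (∀ s, ‖u (ray s)‖ ≤ B) → ∀ z, z ≠ 0 → √3 * |z.im| ≤ z.re → ‖u z‖ ≤ B

/-- The explicit rational functions. -/
structure GeoStmt : Prop where
  bd : ∃ C : ℝ, 1 ≤ C ∧ ∀ z ∈ OmC, 1000 + z ≠ 0 ∧
    C⁻¹ * (1 + ‖z‖ ^ 2) ≤ ‖e1 z‖ ∧ ‖e1 z‖ ≤ C * (1 + ‖z‖ ^ 2) ∧ ‖mm z‖ ≤ C ∧ C⁻¹ ≤ (mm z).re ∧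
    C⁻¹ ≤ ‖g0 z‖ ∧ ‖g0 z‖ ≤ C ∧ C⁻¹ * (1 + ‖xi z‖ ^ 4) ≤ ‖qq z‖ ∧
    C⁻¹ * (1 + ‖xi z‖ ^ 2) ≤ ‖vv z‖ ∧ C⁻¹ * (1 + ‖xi z‖ ^ 2) ≤ ‖ww z‖
  an : An xi ∧ An vv ∧ An ww ∧ An qq ∧ An e1 ∧ An ee ∧ An mm ∧ An g0 ∧ An AA ∧ An G0
  an_Dh : ∀ {f : ℂ → ℂ}, An f → An (Dh f)
  xi_deriv : ∀ z, HasDerivAt xi ((1 + z / 1000) * (1 + 3 * z / 1000)) z
  ee_deriv : ∀ z ∈ OmC, HasDerivAt ee (e1 z * mm z) z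
  /-- the Euler derivative of a function of `xi` -/
  Dh_xi : ∀ {f : ℂ → ℂ} {f' : ℂ} {z : ℂ}, z ∈ OmC → HasDerivAt f f' (xi z) →
    Dh (fun w => f (xi w)) z = xi z * f' * (ww z * vv z) / qq z
  mm_zero : mm 0 = 1
  real_g0 : ∀ r : ℝ, 1 / 4 ≤ (g0 r).re
  real_g0' : (g0 1).re ≤ 1 / 2
  ray_asym : ∀ ε : ℝ, 0 < ε → ∃ s₁, ∀ s, s₁ ≤ s → ‖mm (ray s) / 3 - 1‖ ≤ ε ∧
    ‖-(ee (ray s) ^ 2 * AA (ray s)) / VV s - 1‖ ≤ ε ∧ ‖ee (ray s)‖ ^ 2 ≤ VV s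

/-- The averaging operators. -/
structure JStmt : Prop where
  cont : ∀ {k : ℕ} {f : ℂ → ℂ}, ContinuousOn f OmC → ContinuousOn (JJ k f) OmC
  hol : ∀ {k : ℕ} {f : ℂ → ℂ}, Hol f → Hol (JJ k f)
  congr : ∀ (k : ℕ) {f g : ℂ → ℂ} {z : ℂ}, (∀ t ∈ Icc (0 : ℝ) 1, f (t * z) = g (t * z)) →
    JJ k f z = JJ k g z
  lin : ∀ (k : ℕ) {f g : ℂ → ℂ} (a b : ℂ) {z : ℂ}, ContinuousOn f OmC → ContinuousOn g OmC →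
    z ∈ OmC → JJ k (fun w => a * f w + b * g w) z = a * JJ k f z + b * JJ k g z
  bd1 : ∃ C : ℝ, 0 ≤ C ∧ ∀ (k : ℕ) (f : ℂ → ℂ) (B : ℝ), 1 ≤ k → ∀ z ∈ OmC,
    (∀ t ∈ Icc (0 : ℝ) 1, ‖f (t * z)‖ ≤ B) → ‖JJ k f z‖ ≤ C / k * B
  bd2 : ∀ k : ℕ, 1 ≤ k → ∃ C : ℝ, 0 ≤ C ∧ ∀ (f : ℂ → ℂ) (B A : ℝ), 0 < A → ∀ z ∈ OmC,
    (∀ t ∈ Icc (0 : ℝ) 1, ‖f (t * z)‖ ≤ B * Real.exp (A * t ^ 2)) →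
    ‖JJ k f z‖ ≤ C * B * Real.exp A * min 1 A⁻¹
  ray_ode : ∀ {k : ℕ} {f : ℂ → ℂ}, 1 ≤ k → ContinuousOn f OmC → ∀ s,
    HasDerivAt (fun s => JJ k f (ray s)) (mm (ray s) * (f (ray s) - k * JJ k f (ray s))) s
  Dh_JJ : ∀ {k : ℕ} {f : ℂ → ℂ}, 1 ≤ k → Hol f → ∀ r : ℝ, 0 < r →
    Dh (JJ k f) r = f r - k * JJ k f r
  left_inv : ∀ {k : ℕ} {u : ℂ → ℂ}, 1 ≤ k → An u → ∀ z ∈ OmC,
    JJ k (fun w => Dh u w + k * u w) z = u z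
  prim : ∀ {ψ f : ℂ → ℂ}, An ψ → (∀ w ∈ OmC, deriv ψ w = e1 w * mm w * f w) → ∀ z ∈ OmC,
    ee z * JJ 1 f z = ψ z - ψ 0
  KK_hol : ∀ (n : ℕ) {F : ℂ → ℂ}, Hol F → Hol (KK n F)
  KK_cont : ∀ (n : ℕ) {F : ℂ → ℂ}, ContinuousOn F OmC → ContinuousOn (KK n F) OmC
  KK_congr : ∀ (n : ℕ) {F G : ℂ → ℂ}, EqOn F G OmC → EqOn (KK n F) (KK n G) OmC
  KK_lin : ∀ (n : ℕ) {f g : ℂ → ℂ} (a b : ℂ) {z : ℂ}, ContinuousOn f OmC → ContinuousOn g OmC →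
    z ∈ OmC → KK n (fun w => a * f w + b * g w) z = a * KK n f z + b * KK n g z
  KK_bd : ∃ C : ℝ, 0 ≤ C ∧ ∀ (n : ℕ) (f : ℂ → ℂ) (B : ℝ), ∀ z ∈ OmC,
    (∀ t ∈ Icc (0 : ℝ) 1, ‖f (t * z)‖ ≤ B) → ‖KK n f z‖ ≤ C * ‖ee z‖ ^ 2 * B

/-- right-hand side of the linearised equation -/
noncomputable def HH (κ : ℝ) (F u : ℂ → ℂ) : ℂ → ℂ := fun w => -(AA w * u w) + κ + F w

def LinEq (n : ℕ) (a κ : ℝ) (F u : ℂ → ℂ) : Prop :=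
  ∀ z ∈ OmC, u z = a * ee z + KK n (HH κ F u) z

/-- solving the Volterra equation -/
def VolStmt : Prop :=
  ∀ (n : ℕ) (a κ : ℝ) (F : ℂ → ℂ), Hol F → (∃ B, ∀ z ∈ OmC, ‖F z‖ ≤ B) →
    ∃ u, Hol u ∧ LinEq n a κ F u ∧ ∃ K B', ∀ z ∈ OmC, ‖u z‖ ≤ B' * Real.exp (K * ‖z‖ ^ 2)

noncomputable def Ei (x : ℂ) : ℂ := x * ∫ t in (0 : ℝ)..1, Complex.exp (9 * t ^ 2 * x ^ 2 / 4)

noncomputable def ua (z : ℂ) : ℂ := 4 / 27 * Complex.exp (-(9 * xi z ^ 2 / 4)) * ee z / qq z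

noncomputable def uk (z : ℂ) : ℂ :=
  ee z * xi z * (2 / 9 * xi z ^ 4 - 16 / 81 * xi z ^ 2 + 8 / 243) / (qq z * vv z)
    + 2 * Ei (xi z) * ua z

/-- the solutions of the limit equation -/
structure LimSolStmt : Prop where
  an : An ua ∧ An uk
  eq_a : ∀ z ∈ OmC, ua z = ee z + ee z ^ 2 * JJ 1 (fun w => -(AA w * ua w)) z
  eq_k : ∀ z ∈ OmC, uk z = ee z ^ 2 * JJ 1 (fun w => -(AA w * uk w) + 1) z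
  large : ∀ Λ s' : ℝ, ∃ s₁, s' ≤ s₁ ∧ ∀ a κ : ℝ,
    Λ * (|a| + |κ|) ≤ ‖a * ua (ray s₁) + κ * uk (ray s₁)‖

noncomputable def pv (n : ℕ) (H : ℂ → ℂ) (z : ℂ) : ℂ :=
  ee z ^ 2 * (n : ℂ) ^ 2 * JJ (n + 1) (JJ (n + 2) H) z

noncomputable def wv (n : ℕ) (H : ℂ → ℂ) (z : ℂ) : ℂ := ee z ^ 2 * n * JJ (n + 2) H z

/-- near field: comparison with the limit equation -/
def NearStmt : Prop :=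
  ∀ R₁ : ℝ, ∃ C : ℝ, 0 ≤ C ∧ ∀ (n : ℕ) (a κ B : ℝ) (F u : ℂ → ℂ), 1 ≤ n → ContinuousOn F OmC →
    ContinuousOn u OmC → (∀ z ∈ OmC, ‖F z‖ ≤ B) → LinEq n a κ F u → ∀ z ∈ OmC, ‖z‖ ≤ R₁ →
      ‖u z - (a * ua z + κ * uk z)‖ ≤ C * (B + (|a| + |κ|) / n) ∧
      ‖u z‖ ≤ C * (B + |a| + |κ|) ∧ ‖pv n (HH κ F u) z‖ ≤ C * (B + |a| + |κ|) ∧
      ‖wv n (HH κ F u) z‖ ≤ C * (B + |a| + |κ|)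

noncomputable def Zf (n : ℕ) (μ : ℝ) (u p w : ℂ) : ℂ :=
  u + p / (μ + n - 1) + n * w / ((μ + n - 1) * (μ + n))

def IsRoot (n : ℕ) (c : ℝ) (μ : ℝ → ℝ) : Prop :=
  ∀ s, 1 < μ s ∧ (μ s - 1) * (μ s + n - 1) * (μ s + n) = n ^ 2 * (c * Real.exp (6 * s))

def RootStmt : Prop :=
  ∀ (n : ℕ) (c : ℝ), 1 ≤ n → 0 < c → (∃ μ, IsRoot n c μ) ∧ ∀ μ, IsRoot n c μ → ∀ s,
    ∃ μ', HasDerivAt μ μ' s ∧ 0 ≤ μ' ∧ μ' ≤ 6 * (μ s + n - 1) ∧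
      c * Real.exp (6 * s) ≤ (μ s + 1) ^ 3

/-- far field: exponential dichotomy, uniformly in `n` -/
def FarStmt : Prop :=
  ∃ ε₀ V₀ C : ℝ, 0 < ε₀ ∧ 0 ≤ C ∧ ∀ (n : ℕ) (c s₁ S φ : ℝ) (μ : ℝ → ℝ) (m ε f u p w : ℝ → ℂ),
    1 ≤ n → 0 < c → s₁ ≤ S → V₀ ≤ c * Real.exp (6 * s₁) → IsRoot n c μ →
    (∀ s ∈ Icc s₁ S, ‖m s / 3 - 1‖ ≤ ε₀ ∧ ‖ε s‖ ≤ ε₀ ∧ ‖f s‖ ≤ φ ∧
      HasDerivAt u (m s * (u s + p s)) s ∧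
      HasDerivAt p (m s * (-((n - 1) * p s) + n * w s)) s ∧
      HasDerivAt w (m s * (-(n * w s)
        + n * (c * Real.exp (6 * s) : ℝ) * ((1 + ε s) * u s + f s))) s) →
    ‖Zf n (μ s₁) (u s₁) (p s₁) (w s₁)‖
        ≤ C * (φ + Real.exp (-(7 * (S - s₁))) * ‖Zf n (μ S) (u S) (p S) (w S)‖)
          + (‖u s₁‖ + ‖p s₁‖ / (μ s₁ + n)) / 4 ∧
      ∀ s ∈ Icc s₁ S, ‖u s‖ ≤ C * (‖u s₁‖ + ‖p s₁‖ / (μ s₁ + n) + φ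
        + Real.exp (-(7 * (S - s))) * ‖Zf n (μ S) (u S) (p S) (w S)‖)

/-- the key estimate along the boundary ray -/
def RayStmt : Prop :=
  ∃ (C s₁ : ℝ) (n₀ : ℕ), 0 ≤ C ∧ 1 ≤ n₀ ∧ ∀ (n : ℕ) (a κ B S : ℝ) (μ : ℝ → ℝ) (F u : ℂ → ℂ), n₀ ≤ n →
    IsRoot n (9 / (2 * 1000 ^ 4)) μ → ContinuousOn F OmC → ContinuousOn u OmC →
    (∀ z ∈ OmC, ‖F z‖ ≤ B) → LinEq n a κ F u → s₁ ≤ S →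
    |a| + |κ| ≤ C * (B + Real.exp (-(7 * (S - s₁))) *
      ‖Zf n (μ S) (u (ray S)) (pv n (HH κ F u) (ray S)) (wv n (HH κ F u) (ray S))‖) ∧
    ∀ s ∈ Icc s₁ S, ‖u (ray s)‖ ≤ C * (B + Real.exp (-(7 * (S - s))) *
      ‖Zf n (μ S) (u (ray S)) (pv n (HH κ F u) (ray S)) (wv n (HH κ F u) (ray S))‖)

/-- the linear theorem -/
def LinStmt : Prop :=
  ∃ (C : ℝ) (n₀ : ℕ), 0 ≤ C ∧ ∀ (n : ℕ), n₀ ≤ n → ∀ (F : ℂ → ℂ) (B : ℝ), Hol F →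
    (∀ z ∈ OmC, ‖F z‖ ≤ B) →
    (∃ (a κ : ℝ) (u : ℂ → ℂ), Hol u ∧ (∃ B', ∀ z ∈ OmC, ‖u z‖ ≤ B') ∧ LinEq n a κ F u) ∧
    ∀ (a κ : ℝ) (u : ℂ → ℂ), Hol u → (∃ B', ∀ z ∈ OmC, ‖u z‖ ≤ B') → LinEq n a κ F u →
      |a| ≤ C * B ∧ |κ| ≤ C * B ∧ ∀ z ∈ OmC, ‖u z‖ ≤ C * B

/-- the limit profile solves the equation up to a small error -/
def F0Stmt : Prop :=
  ∃ C : ℝ, ∀ n : ℕ, 1 ≤ n → ∃ F₀, Hol F₀ ∧ (∀ z ∈ OmC, ‖F₀ z‖ ≤ C / n) ∧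
    ∀ z ∈ OmC, 1 - g0 z = KK n (fun w => G0 w + F₀ w) z

def HolSolStmt : Prop :=
  ∀ ρ : ℝ, 0 < ρ → ∃ (n : ℕ) (a κ : ℝ) (h : ℂ → ℂ), 2 ≤ n ∧ Hol h ∧
    (∀ z ∈ OmC, ‖h z - (1 - g0 z)‖ ≤ ρ) ∧
    ∀ z ∈ OmC, h z = a * ee z + KK n (fun w => 3 / 2 + κ - 1 / (2 * (1 - h w))) z

/-- symbols on the half line -/
def SymR (q : ℤ) (f : ℝ → ℝ) : Prop :=
  ContDiffOn ℝ ∞ f (Ioi 0) ∧
    ∀ i : ℕ, ∃ C, ∀ r, 0 < r → |iteratedDeriv i f r| ≤ C * (1 + r) ^ (q - (i : ℤ))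

def CauchyStmt : Prop :=
  ∀ (Φ : ℂ → ℂ) (q : ℤ), DifferentiableOn ℂ Φ OmO →
    (∃ C, ∀ z ∈ OmO, ‖Φ z‖ ≤ C * (1 + ‖z‖) ^ q) → SymR q fun r : ℝ => (Φ r).re

def CompStmt : Prop :=
  ∀ E b ψ : ℝ → ℝ, E 0 = 0 → ContinuousOn E (Ici 0) →
    (∀ r, 0 < r → 0 < b r ∧ HasDerivAt E (b r)⁻¹ r) → SymR (-2) b → SymR (-3) ψ →
    (∃ C, ∀ r, 0 ≤ r → E r ≤ C * (1 + r) ^ 3) → Tendsto E atTop atTop →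
    ∃ ζ : ℝ → ℝ, (∀ η, 0 < η → 0 < ζ η ∧ E (ζ η) = η ∧ HasDerivAt ζ (b (ζ η)) η) ∧
      (∀ r, 0 < r → 0 < E r ∧ ζ (E r) = r) ∧ SyA 1 0 (-1) fun η => ψ (ζ η)

end Vale.Agent.P264
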