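import Vale.Agent.P264.StmU

/-!
Statements of part S (weighted Sobolev calculus in one variable). See PLAN.md.
-/

namespace Vale.Agent.P264

open scoped ContDiff
open Set MeasureTheory Filter

noncomputable def vp (lam x : ℝ) : ℝ := √(lam ^ 2 + x ^ 2)

def dom (ε : ℝ) : Set ℝ := {x | 0 < x ∧ ε * x < 1}

def Par (lam ε : ℝ) : Prop := 0 < lam ∧ 0 ≤ ε ∧ ε * lam ≤ 1

noncomputable def Th (n : ℕ) (lam ε : ℝ) (e : ℤ) (x : ℝ) : ℝ :=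
  (x / vp lam x) ^ ((n : ℤ) - 1 + e).toNat * (1 - ε * x) ^ e.toNat

noncomputable def wt (n : ℕ) (lam ε : ℝ) (i : ℕ) (e r : ℤ) (x : ℝ) : ℝ :=
  vp lam x ^ (2 * (i : ℤ) - 1 + r) * Th n lam ε e x

noncomputable def WW (n : ℕ) (ε : ℝ) (j : ℕ) (x : ℝ) : ℝ := x ^ (n - 1) * om ε x ^ j

noncomputable def TT (n : ℕ) (lam ε : ℝ) (i : ℕ) (e r : ℤ) (f : ℝ → ℝ) : ℝ :=
  ∫ x in dom ε, iteratedDeriv i f x ^ 2 * wt n lam ε i e r x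

noncomputable def QQ (n : ℕ) (lam ε : ℝ) (h : ℕ) (r : ℤ) (f : ℝ → ℝ) : ℝ :=
  ∑ i ∈ Finset.range (h + 1), TT n lam ε i (i + 2) r f

/-- qualitative class: all weighted integrals converge -/
def Adm (lam ε : ℝ) (r : ℤ) (f : ℝ → ℝ) : Prop :=
  ContDiffOn ℝ ∞ f (dom ε) ∧ ∀ i : ℕ, ∃ C, ∀ x ∈ dom ε,
    iteratedDeriv i f x ^ 2 * vp lam x ^ (2 * (i : ℤ) + r + 1) ≤ C

/-- the same, uniformly in a time parameter -/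
def AdmU (J : Set ℝ) (lam : ℝ → ℝ) (ε : ℝ) (r : ℤ) (f : ℝ → ℝ → ℝ) : Prop :=
  (∀ s ∈ J, ContDiffOn ℝ ∞ (f s) (dom ε)) ∧ ∀ i : ℕ, ∃ C, ∀ s ∈ J, ∀ x ∈ dom ε,
    iteratedDeriv i (f s) x ^ 2 * vp (lam s) x ^ (2 * (i : ℤ) + r + 1) ≤ C

/-- symbols of order `q`, with bound `M` up to `h` derivatives -/
def Sy (lam ε : ℝ) (h : ℕ) (q : ℤ) (M : ℝ) (a : ℝ → ℝ) : Prop :=
  ContDiffOn ℝ ∞ a (dom ε) ∧ ∀ i ≤ h, ∀ x ∈ dom ε,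
    |iteratedDeriv i a x| ≤ M * vp lam x ^ (q - (i : ℤ))

def SyA (lam ε : ℝ) (q : ℤ) (a : ℝ → ℝ) : Prop := ∀ h, ∃ M, Sy lam ε h q M a

/-- symbols uniformly in a time parameter -/
def SyU (J : Set ℝ) (lam : ℝ → ℝ) (ε : ℝ) (q : ℤ) (a : ℝ → ℝ → ℝ) : Prop :=
  ∀ h, ∃ M, ∀ s ∈ J, Sy (lam s) ε h q M (a s)

/-- integrability of the diagonal integrands -/
def IntQ (n : ℕ) (lam ε : ℝ) (h : ℕ) (r : ℤ) (f : ℝ → ℝ) : Prop :=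
  ∀ i ≤ h, IntegrableOn (fun x => iteratedDeriv i f x ^ 2 * wt n lam ε i (i + 2) r x) (dom ε)

noncomputable def EE (n : ℕ) (lam ε : ℝ) (k : ℕ) (p : ℤ) (G f : ℝ → ℝ) : ℝ :=
  ∑ j ∈ Finset.range (k + 1),
    ∫ x in dom ε, iteratedDeriv j f x ^ 2 * wt n lam ε j (j + 2) p x / G x

noncomputable def PP (n : ℕ) (lam ε : ℝ) (j : ℕ) (p : ℤ) (b F f : ℝ → ℝ) : ℝ :=
  ∫ x in dom ε, iteratedDeriv j F x * iteratedDeriv j f x * wt n lam ε j (j + 2) p x * b x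

noncomputable def dEE (n : ℕ) (lam ε : ℝ) (k : ℕ) (p : ℤ) (G Gt : ℝ → ℝ) (ll : ℝ)
    (f R : ℝ → ℝ) : ℝ :=
  ∑ j ∈ Finset.range (k + 1), ∫ x in dom ε,
    (2 * iteratedDeriv j f x * iteratedDeriv j R x
      + iteratedDeriv j f x ^ 2 * (((j : ℝ) - n - 2 + p) * ll / vp lam x ^ 2 - Gt x / G x))
      * wt n lam ε j (j + 2) p x / G x

/-- Weights, integrability, Cauchy-Schwarz. -/
structure BaseA : Prop where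
  dom_open : ∀ ε, IsOpen (dom ε)
  dom_zero : dom 0 = Ioi 0
  dom_one : dom 1 = Ioo 0 1
  dom_pos : ∀ {ε : ℝ}, 0 < ε → dom ε = Ioo 0 ε⁻¹
  vp_pos : ∀ {lam : ℝ} (x : ℝ), 0 < lam → 0 < vp lam x
  lam_le : ∀ (lam x : ℝ), lam ≤ vp lam x
  x_le : ∀ (lam x : ℝ), x ≤ vp lam x
  vp_le : ∀ {lam x : ℝ}, 0 ≤ lam → 0 ≤ x → vp lam x ≤ lam + x
  vp_sq : ∀ (lam x : ℝ), vp lam x ^ 2 = lam ^ 2 + x ^ 2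
  vp_deriv : ∀ {lam : ℝ} (q : ℤ) (x : ℝ), 0 < lam →
    HasDerivAt (fun y => vp lam y ^ q) (q * x * vp lam x ^ (q - 2)) x
  eps_vp : ∀ {lam ε x : ℝ}, Par lam ε → x ∈ dom ε → ε * vp lam x ≤ 2
  Th_nonneg : ∀ (n : ℕ) {lam ε x : ℝ} (e : ℤ), x ∈ dom ε → 0 ≤ Th n lam ε e x
  Th_le_one : ∀ (n : ℕ) {lam ε x : ℝ} (e : ℤ), Par lam ε → x ∈ dom ε → Th n lam ε e x ≤ 1
  Th_anti : ∀ (n : ℕ) {lam ε x : ℝ} {e e' : ℤ}, Par lam ε → x ∈ dom ε → e ≤ e' →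
    Th n lam ε e' x ≤ Th n lam ε e x
  Th_eq : ∀ {n : ℕ} {lam ε x : ℝ} (e : ℕ), 1 ≤ n → 0 < lam →
    Th n lam ε e x = WW n ε e x * vp lam x ^ (1 - (n : ℤ) - e)
  Th_one : ∀ {n : ℕ} {lam ε x : ℝ} {e : ℤ}, 1 ≤ n → (n : ℤ) - 1 + e ≤ 0 → Th n lam ε e x = 1
  wt_nonneg : ∀ (n : ℕ) {lam ε x : ℝ} (i : ℕ) (e r : ℤ), x ∈ dom ε → 0 ≤ wt n lam ε i e r x
  wt_cont : ∀ (n : ℕ) {lam : ℝ} (ε : ℝ) (i : ℕ) (e r : ℤ), 0 < lam →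
    Continuous (wt n lam ε i e r)
  wt_eq : ∀ {n : ℕ} {lam ε x : ℝ} (i e : ℕ) (r : ℤ), 1 ≤ n → 0 < lam →
    wt n lam ε i e r x = WW n ε e x * vp lam x ^ (2 * (i : ℤ) + r - n - e)
  iter_cont : ∀ {ε : ℝ} {f : ℝ → ℝ} (i : ℕ), ContDiffOn ℝ ∞ f (dom ε) →
    ContDiffOn ℝ ∞ (iteratedDeriv i f) (dom ε)
  iter_deriv : ∀ {ε : ℝ} {f : ℝ → ℝ} (i : ℕ) {x : ℝ}, ContDiffOn ℝ ∞ f (dom ε) → x ∈ dom ε →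
    HasDerivAt (iteratedDeriv i f) (iteratedDeriv (i + 1) f x) x
  iter_congr : ∀ {ε : ℝ} {f g : ℝ → ℝ} (i : ℕ), EqOn f g (dom ε) →
    EqOn (iteratedDeriv i f) (iteratedDeriv i g) (dom ε)
  iter_lin : ∀ {ε : ℝ} {f g : ℝ → ℝ} (a b : ℝ) (i : ℕ) {x : ℝ}, ContDiffOn ℝ ∞ f (dom ε) →
    ContDiffOn ℝ ∞ g (dom ε) → x ∈ dom ε →
    iteratedDeriv i (fun y => a * f y + b * g y) x
      = a * iteratedDeriv i f x + b * iteratedDeriv i g x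
  iter_mul : ∀ {ε : ℝ} {f g : ℝ → ℝ} (j : ℕ) {x : ℝ}, ContDiffOn ℝ ∞ f (dom ε) →
    ContDiffOn ℝ ∞ g (dom ε) → x ∈ dom ε →
    iteratedDeriv j (fun y => f y * g y) x = ∑ i ∈ Finset.range (j + 1),
      (j.choose i : ℝ) * iteratedDeriv i f x * iteratedDeriv (j - i) g x
  int_of_bound : ∀ {lam ε C : ℝ} {H : ℝ → ℝ}, 0 < lam → ContinuousOn H (dom ε) →
    (∀ x ∈ dom ε, |H x| ≤ C * vp lam x ^ (-2 : ℤ)) → IntegrableOn H (dom ε)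
  ftc : ∀ {lam ε C : ℝ} {H H' : ℝ → ℝ}, Par lam ε → (∀ x ∈ dom ε, HasDerivAt H (H' x) x) →
    IntegrableOn H' (dom ε) →
    (∀ x ∈ dom ε, |H x| ≤ C * (x / vp lam x * (1 - ε * x) / vp lam x)) →
    ∫ x in dom ε, H' x = 0
  intT : ∀ (n : ℕ) {lam ε : ℝ} {r : ℤ} {f : ℝ → ℝ} (i : ℕ) (e : ℤ), Par lam ε → Adm lam ε r f →
    IntegrableOn (fun x => iteratedDeriv i f x ^ 2 * wt n lam ε i e r x) (dom ε)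
  cs : ∀ {ε : ℝ} {a b H : ℝ → ℝ}, IntegrableOn a (dom ε) → IntegrableOn b (dom ε) →
    (∀ x ∈ dom ε, 0 ≤ a x ∧ 0 ≤ b x ∧ H x ^ 2 ≤ a x * b x) →
    |∫ x in dom ε, H x| ≤ √(∫ x in dom ε, a x) * √(∫ x in dom ε, b x)
  TT_nonneg : ∀ (n : ℕ) (lam ε : ℝ) (i : ℕ) (e r : ℤ) (f : ℝ → ℝ), 0 ≤ TT n lam ε i e r f
  TT_anti : ∀ (n : ℕ) {lam ε : ℝ} (i : ℕ) {e e' r : ℤ} {f : ℝ → ℝ}, Par lam ε → Adm lam ε r f →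
    e ≤ e' → TT n lam ε i e' r f ≤ TT n lam ε i e r f
  QQ_nonneg : ∀ (n : ℕ) (lam ε : ℝ) (h : ℕ) (r : ℤ) (f : ℝ → ℝ), 0 ≤ QQ n lam ε h r f
  QQ_mono : ∀ (n : ℕ) (lam ε : ℝ) {h h' : ℕ} (r : ℤ) (f : ℝ → ℝ), h ≤ h' →
    QQ n lam ε h r f ≤ QQ n lam ε h' r f
  TT_le_QQ : ∀ (n : ℕ) (lam ε : ℝ) {i h : ℕ} (r : ℤ) (f : ℝ → ℝ), i ≤ h →
    TT n lam ε i (i + 2) r f ≤ QQ n lam ε h r f
  QQ_congr : ∀ (n : ℕ) (lam : ℝ) {ε : ℝ} (h : ℕ) (r : ℤ) {f g : ℝ → ℝ}, EqOn f g (dom ε) →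
    QQ n lam ε h r f = QQ n lam ε h r g
  EE_congr : ∀ (n : ℕ) (lam : ℝ) {ε : ℝ} (h : ℕ) (r : ℤ) {G G' f g : ℝ → ℝ}, EqOn f g (dom ε) →
    EqOn G G' (dom ε) → EE n lam ε h r G f = EE n lam ε h r G' g
  QQ_smul : ∀ (n : ℕ) (lam ε : ℝ) (h : ℕ) (r : ℤ) (c : ℝ) (f : ℝ → ℝ),
    QQ n lam ε h r (fun x => c * f x) = c ^ 2 * QQ n lam ε h r f
  QQ_add : ∀ (n : ℕ) {lam ε : ℝ} (h : ℕ) (r : ℤ) {f g : ℝ → ℝ}, ContDiffOn ℝ ∞ f (dom ε) →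
    ContDiffOn ℝ ∞ g (dom ε) → IntQ n lam ε h r f → IntQ n lam ε h r g →
    QQ n lam ε h r (fun x => f x + g x) ≤ 2 * QQ n lam ε h r f + 2 * QQ n lam ε h r g
  EE_QQ : ∀ (n : ℕ) {lam ε M : ℝ} (h : ℕ) (r : ℤ) {G f : ℝ → ℝ}, Par lam ε → 0 < M →
    Adm lam ε r f → ContinuousOn G (dom ε) → (∀ x ∈ dom ε, M⁻¹ ≤ G x ∧ G x ≤ M) →
    QQ n lam ε h r f ≤ M * EE n lam ε h r G f ∧ EE n lam ε h r G f ≤ M * QQ n lam ε h r f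
  EE_near : ∀ (n : ℕ) {lam ε c θ : ℝ} (h : ℕ) (r : ℤ) {G f g : ℝ → ℝ}, Par lam ε → 0 < c → 0 < θ →
    Adm lam ε r f → Adm lam ε r g → ContinuousOn G (dom ε) → (∀ x ∈ dom ε, c ≤ G x) →
    |EE n lam ε h r G f - EE n lam ε h r G g|
      ≤ θ * EE n lam ε h r G g + (1 + θ⁻¹) * c⁻¹ * QQ n lam ε h r (fun x => f x - g x)

noncomputable def cc (n j m : ℕ) : ℝ := m * ((n : ℝ) - 1 + 2 * j + m + 1)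

/-- Symbol calculus. -/
structure BaseB : Prop where
  mono : ∀ {lam ε M M' : ℝ} {h h' : ℕ} {q : ℤ} {a : ℝ → ℝ}, 0 < lam → h' ≤ h → M ≤ M' →
    Sy lam ε h q M a → Sy lam ε h' q M' a
  congr : ∀ {lam ε M : ℝ} {h : ℕ} {q : ℤ} {a b : ℝ → ℝ}, EqOn a b (dom ε) →
    Sy lam ε h q M a → Sy lam ε h q M b
  const : ∀ {lam : ℝ} (ε : ℝ) (h : ℕ) (c : ℝ), 0 < lam → Sy lam ε h 0 |c| fun _ => c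
  add : ∀ {lam ε M M' : ℝ} {h : ℕ} {q : ℤ} {a b : ℝ → ℝ}, Sy lam ε h q M a → Sy lam ε h q M' b →
    Sy lam ε h q (M + M') fun x => a x + b x
  smul : ∀ {lam ε M : ℝ} {h : ℕ} {q : ℤ} {a : ℝ → ℝ} (c : ℝ), Sy lam ε h q M a →
    Sy lam ε h q (|c| * M) fun x => c * a x
  mul : ∀ {lam ε M M' : ℝ} {h : ℕ} {q q' : ℤ} {a b : ℝ → ℝ}, 0 < lam → 0 ≤ M → 0 ≤ M' →
    Sy lam ε h q M a → Sy lam ε h q' M' b →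
    Sy lam ε h (q + q') (2 ^ h * M * M') fun x => a x * b x
  eps_mul : ∀ {lam ε M : ℝ} {h : ℕ} {q : ℤ} {a : ℝ → ℝ}, Par lam ε → 0 ≤ M →
    Sy lam ε h q M a → Sy lam ε h (q - 1) (2 * M) fun x => ε * a x
  lam_mul : ∀ {lam ε M : ℝ} {h : ℕ} {q : ℤ} {a : ℝ → ℝ}, 0 < lam → 0 ≤ M →
    Sy lam ε h q M a → Sy lam ε h (q + 1) M fun x => lam * a x
  deriv : ∀ {lam ε M : ℝ} {h : ℕ} {q : ℤ} {a : ℝ → ℝ}, Sy lam ε (h + 1) q M a →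
    Sy lam ε h (q - 1) M (deriv a)
  inv : ∀ (h : ℕ) (M c : ℝ), 0 < c → ∃ M', 0 ≤ M' ∧ ∀ {lam ε : ℝ} {a : ℝ → ℝ}, 0 < lam →
    Sy lam ε h 0 M a → (∀ x ∈ dom ε, c ≤ a x) → Sy lam ε h 0 M' fun x => (a x)⁻¹
  vp_sy : ∀ (h : ℕ) (q : ℤ), ∃ M, 0 ≤ M ∧ ∀ {lam : ℝ} (ε : ℝ), 0 < lam →
    Sy lam ε h q M fun x => vp lam x ^ q
  om_sy : ∀ {lam ε : ℝ} (h : ℕ), Par lam ε → Sy lam ε h 1 4 (om ε)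
  ell_sy : ∀ (n j : ℕ) {lam ε : ℝ} (h : ℕ), Par lam ε →
    Sy lam ε h 0 (4 * (n + j + 2)) (ell n ε j)
  LL_sy : ∀ (n h : ℕ), ∃ K, 0 ≤ K ∧ ∀ {lam ε M : ℝ} {q : ℤ} {f : ℝ → ℝ}, Par lam ε → 0 ≤ M →
    Sy lam ε (h + 4) q M f → Sy lam ε h (q - 2) (K * M) (LL n ε f)
  /-- a smooth function of `κ x` that is constant for `κ x ≥ 1` -/
  cut_sy : ∀ (ζ : ℝ → ℝ), ContDiff ℝ ∞ ζ → (∀ u, 1 ≤ u → ζ u = 0) → ∀ h : ℕ, ∃ M, 0 ≤ M ∧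
    ∀ {lam κ : ℝ} (ε : ℝ), 0 < lam → 0 ≤ κ → κ * lam ≤ 1 →
      Sy lam ε h 0 M (fun x => ζ (κ * x)) ∧ Sy lam ε h (-1) M fun x => κ * ζ (κ * x)
  syA_of_bdd : ∀ {lam ε : ℝ} (q : ℤ) {a : ℝ → ℝ}, 0 < lam → 0 < ε → ContDiffOn ℝ ∞ a (dom ε) →
    (∀ i : ℕ, ∃ C, ∀ x ∈ dom ε, |iteratedDeriv i a x| ≤ C) → SyA lam ε q a
  syU_of_bdd : ∀ {J : Set ℝ} {lam : ℝ → ℝ} {ε l₀ l₁ : ℝ} (q : ℤ) {a : ℝ → ℝ → ℝ}, 0 < l₀ → 0 < ε →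
    (∀ s ∈ J, l₀ ≤ lam s ∧ lam s ≤ l₁) → (∀ s ∈ J, ContDiffOn ℝ ∞ (a s) (dom ε)) →
    (∀ i : ℕ, ∃ C, ∀ s ∈ J, ∀ x ∈ dom ε, |iteratedDeriv i (a s) x| ≤ C) → SyU J lam ε q a
  syU_change : ∀ {J : Set ℝ} {lam : ℝ → ℝ} {ε l₀ l₁ : ℝ} {q : ℤ} (q' : ℤ) {a : ℝ → ℝ → ℝ},
    0 < l₀ → (∀ s ∈ J, l₀ ≤ lam s ∧ lam s ≤ l₁) → (0 < ε ∨ q ≤ q') →
    SyU J lam ε q a → SyU J lam ε q' a
  adm_of_syA : ∀ {lam ε : ℝ} {q : ℤ} (r : ℤ) {f : ℝ → ℝ}, 0 < lam → (0 < ε ∨ r + 2 * q ≤ -1) →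
    SyA lam ε q f → Adm lam ε r f
  admU_of_syU : ∀ {J : Set ℝ} {lam : ℝ → ℝ} {ε l₀ l₁ : ℝ} {q : ℤ} (r : ℤ) {f : ℝ → ℝ → ℝ},
    0 < l₀ → (∀ s ∈ J, l₀ ≤ lam s ∧ lam s ≤ l₁) → (0 < ε ∨ r + 2 * q ≤ -1) →
    SyU J lam ε q f → AdmU J lam ε r f
  adm_mono : ∀ {lam ε : ℝ} {r r' : ℤ} {f : ℝ → ℝ}, 0 < lam → r' ≤ r → Adm lam ε r f →
    Adm lam ε r' f
  adm_congr : ∀ {lam ε : ℝ} {r : ℤ} {f g : ℝ → ℝ}, EqOn f g (dom ε) → Adm lam ε r f →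
    Adm lam ε r g
  adm_lin : ∀ {lam ε : ℝ} {r : ℤ} {f g : ℝ → ℝ} (a b : ℝ), 0 < lam → Adm lam ε r f →
    Adm lam ε r g → Adm lam ε r fun x => a * f x + b * g x
  adm_mul : ∀ {lam ε : ℝ} {r q : ℤ} {a f : ℝ → ℝ}, 0 < lam → SyA lam ε q a →
    Adm lam ε (r + 2 * q) f → Adm lam ε r fun x => a x * f x
  adm_iter : ∀ {lam ε : ℝ} {r : ℤ} {f : ℝ → ℝ} (j : ℕ), Adm lam ε r f →
    Adm lam ε (r + 2 * j) (iteratedDeriv j f)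
  adm_deriv : ∀ {lam ε : ℝ} {r : ℤ} {f : ℝ → ℝ}, Adm lam ε r f → Adm lam ε (r + 2) (_root_.deriv f)
  adm_dl : ∀ (n j : ℕ) {lam ε : ℝ} {r : ℤ} {f : ℝ → ℝ}, Par lam ε → Adm lam ε r f →
    Adm lam ε r (dl n ε j f)
  adm_LL : ∀ (n : ℕ) {lam ε : ℝ} {r : ℤ} {f : ℝ → ℝ}, Par lam ε → Adm lam ε r f →
    Adm lam ε (r + 4) (LL n ε f)

/-- The operators `dl` and `LL`. -/
structure DelStmt : Prop where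
  dl_smooth : ∀ (n j : ℕ) {ε : ℝ} {f : ℝ → ℝ}, ContDiffOn ℝ ∞ f (dom ε) →
    ContDiffOn ℝ ∞ (dl n ε j f) (dom ε)
  LL_smooth : ∀ (n : ℕ) {ε : ℝ} {f : ℝ → ℝ}, ContDiffOn ℝ ∞ f (dom ε) →
    ContDiffOn ℝ ∞ (LL n ε f) (dom ε)
  LL_congr : ∀ (n : ℕ) (ε : ℝ) {f g : ℝ → ℝ} {x : ℝ}, f =ᶠ[nhds x] g →
    LL n ε f =ᶠ[nhds x] LL n ε g
  LL_lin : ∀ (n : ℕ) {ε : ℝ} {f g : ℝ → ℝ} (a b : ℝ) {x : ℝ}, ContDiffOn ℝ ∞ f (dom ε) →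
    ContDiffOn ℝ ∞ g (dom ε) → x ∈ dom ε →
    LL n ε (fun y => a * f y + b * g y) x = a * LL n ε f x + b * LL n ε g x
  iter : ∀ (n j m : ℕ) {ε : ℝ} {f : ℝ → ℝ} {x : ℝ}, ContDiffOn ℝ ∞ f (dom ε) → x ∈ dom ε →
    iteratedDeriv m (dl n ε j f) x
      = dl n ε (j + m) (iteratedDeriv m f) x - ε * cc n j m * iteratedDeriv (m - 1) f x
  top : ∀ (n j : ℕ) {ε : ℝ} {f : ℝ → ℝ} {x : ℝ}, ContDiffOn ℝ ∞ f (dom ε) → x ∈ dom ε →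
    iteratedDeriv j (LL n ε f) x
      = dl n ε (j + 2) (dl n ε (j + 3) (iteratedDeriv (j + 2) f)) x
        - ε * (cc n 0 (j + 2) + cc n 1 (j + 2)) * dl n ε (j + 2) (iteratedDeriv (j + 1) f) x
        + ε ^ 2 * (cc n 0 (j + 2) * cc n 1 (j + 1)) * iteratedDeriv j f x
  dldl : ∀ (n j : ℕ), ∃ K, ∀ {ε : ℝ}, 0 ≤ ε → ∃ c₁ c₀ : ℝ → ℝ, Continuous c₁ ∧ Continuous c₀ ∧
    (∀ x ∈ dom ε, |c₁ x| ≤ K ∧ |c₀ x| ≤ K) ∧ ∀ {u : ℝ → ℝ} {x : ℝ}, ContDiffOn ℝ ∞ u (dom ε) →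
      x ∈ dom ε → dl n ε j (dl n ε (j + 1) u) x
        = om ε x ^ 2 * iteratedDeriv 2 u x + om ε x * c₁ x * iteratedDeriv 1 u x + c₀ x * u x
  expand : ∀ (n j : ℕ), ∃ K, ∀ {ε : ℝ}, 0 ≤ ε → ∃ c₃ c₂ c₁ c₀ : ℝ → ℝ,
    (∀ x ∈ dom ε, |c₃ x| ≤ K ∧ |c₂ x| ≤ K ∧ |c₁ x| ≤ K ∧ |c₀ x| ≤ K) ∧
    ∀ {f : ℝ → ℝ} {x : ℝ}, ContDiffOn ℝ ∞ f (dom ε) → x ∈ dom ε →
      iteratedDeriv j (LL n ε f) x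
        = om ε x ^ 2 * iteratedDeriv (j + 4) f x + om ε x * c₃ x * iteratedDeriv (j + 3) f x
          + c₂ x * iteratedDeriv (j + 2) f x + ε * c₁ x * iteratedDeriv (j + 1) f x
          + ε ^ 2 * c₀ x * iteratedDeriv j f x
  jets : ∀ n : ℕ, ∃ c : Fin 5 → ℝ × ℝ → ℝ, (∀ i, ContDiff ℝ ∞ (c i)) ∧
    ∀ {ε : ℝ} {f : ℝ → ℝ} {x : ℝ}, ContDiffAt ℝ ∞ f x →
      LL n ε f x = ∑ i : Fin 5, c i (ε, x) * iteratedDeriv i f x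
  iter_dil : ∀ (i : ℕ) {τ : ℝ} (f : ℝ → ℝ) (y : ℝ), τ ≠ 0 →
    iteratedDeriv i (fun y => f (τ * y)) y = τ ^ i * iteratedDeriv i f (τ * y)
  LL_dil : ∀ (n : ℕ) (ε : ℝ) {τ : ℝ} (f : ℝ → ℝ) (y : ℝ), τ ≠ 0 →
    LL n (τ * ε) (fun y => f (τ * y)) y = τ ^ 2 * LL n ε f (τ * y)
  LL_const_mul : ∀ (n : ℕ) (ε c : ℝ) (f : ℝ → ℝ) (y : ℝ),
    LL n ε (fun y => c * f y) y = c * LL n ε f y
  ibp : ∀ {n : ℕ} (j : ℕ) {lam ε : ℝ} {r₁ r₂ : ℤ} {A B : ℝ → ℝ}, 1 ≤ n → Par lam ε →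
    Adm lam ε r₁ A → Adm lam ε r₂ B → 2 * ((n : ℤ) + j) ≤ r₁ + r₂ →
    IntegrableOn (fun x => dl n ε j A x * B x * WW n ε j x) (dom ε) ∧
    IntegrableOn (fun x => A x * deriv B x * WW n ε (j + 1) x) (dom ε) ∧
    ∫ x in dom ε, dl n ε j A x * B x * WW n ε j x
      = -∫ x in dom ε, A x * deriv B x * WW n ε (j + 1) x

def HardyStmt : Prop :=
  ∀ (n h : ℕ) (r : ℤ), 1 ≤ n → ∃ C, 0 ≤ C ∧ ∀ (lam ε : ℝ) (f : ℝ → ℝ), Par lam ε → Adm lam ε r f →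
    ∀ i ≤ h, ∀ e : ℤ, 2 * (i : ℤ) - h + 2 ≤ e → TT n lam ε i e r f ≤ C * QQ n lam ε h r f

def PtStmt : Prop :=
  ∀ (n h : ℕ) (r : ℤ), 1 ≤ n → ∃ C, 0 ≤ C ∧ ∀ (lam ε : ℝ) (f : ℝ → ℝ), Par lam ε → Adm lam ε r f →
    ∀ i, i + 1 ≤ h → ∀ x ∈ dom ε,
      iteratedDeriv i f x ^ 2 * vp lam x ^ (2 * (i : ℤ) + r) * Th n lam ε (2 * (i : ℤ) - h + 4) x
        ≤ C * QQ n lam ε h r f

/-- multiplication by a symbol -/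
def MulStmt : Prop :=
  ∀ (n h : ℕ), ∃ C, 0 ≤ C ∧ ∀ (lam ε M : ℝ) (r q : ℤ) (a f : ℝ → ℝ), Par lam ε →
    Sy lam ε h q M a → ContDiffOn ℝ ∞ f (dom ε) → IntQ n lam ε h (r + 2 * q) f →
    IntQ n lam ε h r (fun x => a x * f x) ∧
    QQ n lam ε h r (fun x => a x * f x) ≤ C * M ^ 2 * QQ n lam ε h (r + 2 * q) f

/-- algebra property -/
def AlStmt : Prop :=
  ∀ (n h : ℕ) (r : ℤ), 1 ≤ n → n + 3 ≤ h → ∃ C, 0 ≤ C ∧ ∀ (lam ε : ℝ) (a b : ℝ → ℝ), Par lam ε →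
    Adm lam ε 0 a → Adm lam ε r b →
    QQ n lam ε h r (fun x => a x * b x) ≤ C * QQ n lam ε h 0 a * QQ n lam ε h r b

def LStmt : Prop :=
  ∀ (n h : ℕ) (r : ℤ), 1 ≤ n → ∃ C, 0 ≤ C ∧ ∀ (lam ε : ℝ) (f : ℝ → ℝ), Par lam ε → Adm lam ε r f →
    QQ n lam ε h (r + 4) (LL n ε f) ≤ C * QQ n lam ε (h + 4) r f

structure PairStmt : Prop where
  int : ∀ (n j : ℕ) {lam ε M : ℝ} {r₁ r₂ p : ℤ} {b F f : ℝ → ℝ}, Par lam ε → Sy lam ε 0 0 M b →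
    Adm lam ε r₁ F → Adm lam ε r₂ f → 2 * p ≤ r₁ + r₂ →
    IntegrableOn (fun x => iteratedDeriv j F x * iteratedDeriv j f x * wt n lam ε j (j + 2) p x
      * b x) (dom ε)
  direct : ∀ (n j : ℕ) {lam ε M : ℝ} {p : ℤ} (t : ℤ) {b F f : ℝ → ℝ}, Par lam ε → 0 ≤ M →
    Sy lam ε 0 0 M b → Adm lam ε (p + t) F → Adm lam ε (p - t) f →
    |PP n lam ε j p b F f| ≤ M * √(QQ n lam ε j (p + t) F) * √(QQ n lam ε j (p - t) f)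
  dual : ∀ (n j : ℕ) (p : ℤ) (M : ℝ), 1 ≤ n → ∃ C, 0 ≤ C ∧ ∀ {lam ε : ℝ} {b F f : ℝ → ℝ},
    Par lam ε → Sy lam ε 2 0 M b → SyA lam ε 0 b → Adm lam ε (p + 2) F → Adm lam ε (p - 2) f →
    |PP n lam ε (j + 2) p b F f|
      ≤ C * √(QQ n lam ε j (p + 2) F) * √(QQ n lam ε (j + 4) (p - 2) f)

/-- coercivity at top order -/
def CoStmt : Prop :=
  ∀ (n k : ℕ) (p : ℤ) (M θ : ℝ), 1 ≤ n → 2 ≤ k → 1 ≤ M → 0 < θ → ∃ C, 0 ≤ C ∧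
    ∀ (lam ε : ℝ) (G f : ℝ → ℝ), Par lam ε → SyA lam ε 0 G → Sy lam ε k 0 M G →
      (∀ x ∈ dom ε, M⁻¹ ≤ G x) → Adm lam ε (p - 2) f →
      TT n lam ε (k + 2) (k + 4) (p - 2) f - θ * QQ n lam ε (k + 2) (p - 2) f
          - C * QQ n lam ε (k + 1) (p - 2) f
        ≤ PP n lam ε k p (fun x => (G x)⁻¹) (fun x => G x * LL n ε f x) f

/-- interpolation -/
def InStmt : Prop :=
  ∀ (n h : ℕ) (r : ℤ) (θ : ℝ), 1 ≤ n → 0 < θ → ∃ C, 0 ≤ C ∧ ∀ (lam ε : ℝ) (f : ℝ → ℝ),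
    Par lam ε → Adm lam ε r f →
    QQ n lam ε h r f ≤ θ * QQ n lam ε (h + 1) r f + C * TT n lam ε 0 2 r f

/-- the quasilinear remainder -/
noncomputable def FF (n : ℕ) (ε : ℝ) (g V χ f : ℝ → ℝ) : ℝ → ℝ := fun x =>
  -((2 * g x + om ε x * χ x) * (om ε x * χ x)) * LL n ε f x + om ε x * χ x * V x * f x

def NLStmt : Prop :=
  ∀ (n k : ℕ) (p : ℤ) (M : ℝ), 1 ≤ n → n + 5 ≤ k → ∃ C, 0 ≤ C ∧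
    ∀ (lam ε : ℝ) (g V χ f : ℝ → ℝ), Par lam ε → 0 < ε → Sy lam ε k 0 M g → Sy lam ε k (-2) M V →
      SyA lam ε 0 g → SyA lam ε (-2) V → SyA lam ε 0 χ → SyA lam ε 0 f →
      QQ n lam ε k 2 χ ≤ 1 →
      QQ n lam ε (k - 2) (p + 2) (FF n ε g V χ f)
        ≤ C * QQ n lam ε k 2 χ * QQ n lam ε (k + 2) (p - 2) f

/-- the energy inequality at a fixed time -/
def BoundStmt : Prop :=
  ∀ (n k : ℕ) (p : ℤ) (M : ℝ), 1 ≤ n → 4 ≤ k → 1 ≤ M → ∃ ε₀ C : ℝ, 0 < ε₀ ∧ 0 ≤ C ∧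
    ∀ (lam ε α μ ll : ℝ) (G Gt V f F e R : ℝ → ℝ), Par lam ε → SyA lam ε 0 G → SyA lam ε (-2) V →
      Sy lam ε k 0 M G → Sy lam ε k (-2) M V → (∀ x ∈ dom ε, M⁻¹ ≤ G x) → 0 ≤ μ →
      |ll| ≤ M * μ → ContinuousOn Gt (dom ε) →
      (∀ x ∈ dom ε, |Gt x| ≤ M * μ * vp lam x ^ (-2 : ℤ)) →
      Adm lam ε p f → Adm lam ε (p + 2) F → Adm lam ε p e →
      (∀ x ∈ dom ε, R x = -α * f x + μ * (-(G x * LL n ε f x) + V x * f x + F x + e x)) →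
      QQ n lam ε (k - 2) (p + 2) F ≤ ε₀ * QQ n lam ε (k + 2) (p - 2) f →
      dEE n lam ε k p G Gt ll f R ≤ -2 * α * EE n lam ε k p G f
        + μ * C * (TT n lam ε 0 2 (p - 2) f + √(QQ n lam ε k p e) * √(QQ n lam ε k p f))

/-- differentiating the energy -/
def DerStmt : Prop :=
  ∀ (n k : ℕ) (p : ℤ) (a b ε : ℝ) (lam lam' : ℝ → ℝ) (G Gt X R : ℝ → ℝ → ℝ), 1 ≤ n →
    (∀ s ∈ Icc a b, Par (lam s) ε) → ContinuousOn lam (Icc a b) →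
    (∀ s ∈ Ioo a b, HasDerivAt lam (lam' s) s) → (∃ B, ∀ s ∈ Ioo a b, |lam' s| ≤ B) →
    (∃ c, 0 < c ∧ ∀ s ∈ Icc a b, ∀ x ∈ dom ε, c ≤ G s x) →
    (∀ s ∈ Icc a b, ContinuousOn (G s) (dom ε)) →
    (∀ x ∈ dom ε, ContinuousOn (fun s => G s x) (Icc a b)) →
    (∀ s ∈ Ioo a b, ContinuousOn (Gt s) (dom ε) ∧
      ∀ x ∈ dom ε, HasDerivAt (fun σ => G σ x) (Gt s x) s) →
    (∃ B, ∀ s ∈ Ioo a b, ∀ x ∈ dom ε, |Gt s x| ≤ B) →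
    AdmU (Icc a b) lam ε p X → AdmU (Ioo a b) lam ε p R →
    (∀ (j : ℕ), ∀ x ∈ dom ε, ContinuousOn (fun s => iteratedDeriv j (X s) x) (Icc a b)) →
    (∀ (j : ℕ), ∀ s ∈ Ioo a b, ∀ x ∈ dom ε,
      HasDerivAt (fun σ => iteratedDeriv j (X σ) x) (iteratedDeriv j (R s) x) s) →
    ContinuousOn (fun s => EE n (lam s) ε k p (G s) (X s)) (Icc a b) ∧
      ∀ s ∈ Ioo a b, HasDerivAt (fun s => EE n (lam s) ε k p (G s) (X s))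
        (dEE n (lam s) ε k p (G s) (Gt s) (lam s * lam' s) (X s) (R s)) s

/-- jointly continuous jets -/
structure CJStmt : Prop where
  of_smooth : ∀ (J : Set ℝ) {I : Set ℝ} {f : ℝ → ℝ → ℝ}, IsOpen I →
    ContDiffOn ℝ ∞ (fun p : ℝ × ℝ => f p.1 p.2) (univ ×ˢ I) → CJ J I f
  mono : ∀ {J J' I I' : Set ℝ} {f : ℝ → ℝ → ℝ}, J' ⊆ J → I' ⊆ I → CJ J I f → CJ J' I' f
  congr : ∀ {J I : Set ℝ} {f g : ℝ → ℝ → ℝ}, IsOpen I → (∀ s ∈ J, EqOn (f s) (g s) I) →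
    CJ J I f → CJ J I g
  add : ∀ {J I : Set ℝ} {f g : ℝ → ℝ → ℝ}, IsOpen I → CJ J I f → CJ J I g →
    CJ J I fun s x => f s x + g s x
  mul : ∀ {J I : Set ℝ} {f g : ℝ → ℝ → ℝ}, IsOpen I → CJ J I f → CJ J I g →
    CJ J I fun s x => f s x * g s x
  time : ∀ {J : Set ℝ} (I : Set ℝ) {c : ℝ → ℝ}, ContinuousOn c J → CJ J I fun s _ => c s
  space : ∀ (J : Set ℝ) {I : Set ℝ} {c : ℝ → ℝ}, IsOpen I → ContDiffOn ℝ ∞ c I →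
    CJ J I fun _ x => c x
  LL : ∀ (n : ℕ) (ε : ℝ) {J I : Set ℝ} {f : ℝ → ℝ → ℝ}, IsOpen I → CJ J I f →
    CJ J I fun s => LL n ε (f s)
  comp : ∀ {J J' I I' : Set ℝ} {f : ℝ → ℝ → ℝ} {t : ℝ → ℝ} {κ : ℝ}, κ ≠ 0 → ContinuousOn t J' →
    MapsTo t J' J → (∀ y ∈ I', κ * y ∈ I) → CJ J I f → CJ J' I' fun s y => f (t s) (κ * y)
  timejet : ∀ {a b : ℝ} {I : Set ℝ} {f R : ℝ → ℝ → ℝ}, IsOpen I → CJ (Icc a b) I f →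
    CJ (Icc a b) I R → (∀ s ∈ Ioo a b, ∀ x ∈ I, HasDerivAt (fun σ => f σ x) (R s x) s) →
    ∀ (i : ℕ), ∀ s ∈ Ioo a b, ∀ x ∈ I,
      HasDerivAt (fun σ => iteratedDeriv i (f σ) x) (iteratedDeriv i (R s) x) s

/-- dilations -/
structure DilStmt : Prop where
  dom_iff : ∀ {τ : ℝ} (ε y : ℝ), 0 < τ → (y ∈ dom (τ * ε) ↔ τ * y ∈ dom ε)
  vp_dil : ∀ {τ : ℝ} (lam y : ℝ), 0 < τ → vp (τ * lam) (τ * y) = τ * vp lam y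
  TT_dil : ∀ (n : ℕ) {τ lam : ℝ} (ε : ℝ) (i : ℕ) (e r : ℤ) (f : ℝ → ℝ), 0 < τ → 0 < lam →
    TT n lam (τ * ε) i e r (fun y => f (τ * y)) = τ ^ (-r) * TT n (τ * lam) ε i e r f
  QQ_dil : ∀ (n : ℕ) {τ lam : ℝ} (ε : ℝ) (h : ℕ) (r : ℤ) (f : ℝ → ℝ), 0 < τ → 0 < lam →
    QQ n lam (τ * ε) h r (fun y => f (τ * y)) = τ ^ (-r) * QQ n (τ * lam) ε h r f
  EE_dil : ∀ (n : ℕ) {τ lam : ℝ} (ε : ℝ) (h : ℕ) (r : ℤ) (G f : ℝ → ℝ), 0 < τ → 0 < lam →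
    EE n lam (τ * ε) h r (fun y => G (τ * y)) (fun y => f (τ * y))
      = τ ^ (-r) * EE n (τ * lam) ε h r G f
  IntQ_dil : ∀ (n : ℕ) {τ lam : ℝ} (ε : ℝ) (h : ℕ) (r : ℤ) (f : ℝ → ℝ), 0 < τ → 0 < lam →
    IntQ n (τ * lam) ε h r f → IntQ n lam (τ * ε) h r fun y => f (τ * y)
  Sy_dil : ∀ {τ lam ε M : ℝ} {h : ℕ} {q : ℤ} {a : ℝ → ℝ}, 0 < τ → 0 < lam →
    Sy (τ * lam) ε h q M a → Sy lam (τ * ε) h q (M * τ ^ q) fun y => a (τ * y)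
  /-- comparison of the norms for different `lam` on a bounded domain -/
  QQ_lam : ∀ (n h : ℕ) (r : ℤ) (l₀ : ℝ), 0 < l₀ → ∃ C, 0 ≤ C ∧ ∀ (lam lam' : ℝ) (f : ℝ → ℝ),
    lam ∈ Icc l₀ 1 → lam' ∈ Icc l₀ 1 → Adm lam' 1 r f → QQ n lam 1 h r f ≤ C * QQ n lam' 1 h r f
  /-- comparison with the flat norm -/
  QQ_flat : ∀ (n h : ℕ) (r : ℤ) {lam ε : ℝ} {f : ℝ → ℝ}, 0 < lam → 0 ≤ ε → IntQ n lam 0 h r f →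
    ContDiffOn ℝ ∞ f (dom 0) → IntQ n lam ε h r f ∧ QQ n lam ε h r f ≤ QQ n lam 0 h r f

def LocStmt : Prop :=
  ∀ (n : ℕ) (p : ℤ) (θ : ℝ), p ≤ 0 → 0 < θ → ∃ R C : ℝ, 0 < R ∧ 0 ≤ C ∧
    ∀ (lam ε ρ : ℝ) (f : ℝ → ℝ), Par lam ε → Adm lam ε p f →
      (∀ x ∈ dom ε, x ≤ R * lam → |f x| ≤ ρ) →
      lam ^ (2 - p) * TT n lam ε 0 2 (p - 2) f
        ≤ θ * (lam ^ (-p) * TT n lam ε 0 2 p f) + C * ρ ^ 2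

/-- smooth extension to the closed interval -/
def ExtStmt : Prop :=
  ∀ f : ℝ → ℝ, ContDiffOn ℝ ∞ f (Ioo 0 1) →
    (∀ i : ℕ, ∃ C, ∀ x ∈ Ioo (0 : ℝ) 1, |iteratedDeriv i f x| ≤ C) →
    ∃ g : ℝ → ℝ, ContDiffOn ℝ ∞ g (Icc 0 1) ∧ EqOn g f (Ioo 0 1)

end Vale.Agent.P264
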