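import Vale.Agent.P264.Defs

/-!
Statements of parts U (uniqueness of the flow, cone form) and R (reduction to one variable).
See PLAN.md.
-/

namespace Vale.Agent.P264

open scoped ContDiff ComplexOrder Matrix
open Set MeasureTheory

abbrev V (m : ℕ) : Type := Fin m → ℂ

noncomputable def nsq {m : ℕ} (Z : V m) : ℝ := ∑ j, ‖Z j‖ ^ 2

def nz (m : ℕ) : Set (V m) := {Z | Z ≠ 0}

/-- homogeneous of degree zero -/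
def Hom0 {m : ℕ} {α : Type} (f : V m → α) : Prop :=
  ∀ c : ℂ, c ≠ 0 → ∀ Z : V m, Z ≠ 0 → f (c • Z) = f Z

/-- the cone matrix `1 + |Z|^2 Hess φ` -/
noncomputable def cM {m : ℕ} (φ : V m → ℝ) (Z : V m) : Matrix (Fin m) (Fin m) ℂ :=
  1 + (nsq Z : ℂ) • hess φ Z

noncomputable def lap {m : ℕ} (φ h : V m → ℝ) (Z : V m) : ℝ :=
  nsq Z * ((cM φ Z)⁻¹ * hess h Z).trace.re

noncomputable def ldet {m : ℕ} (φ : V m → ℝ) (Z : V m) : ℝ := Real.log (cM φ Z).det.re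

/-- scalar curvature in cone form -/
noncomputable def cS {m : ℕ} (φ : V m → ℝ) (Z : V m) : ℝ :=
  m * (((cM φ Z)⁻¹).trace.re - 1) - lap φ (ldet φ) Z

/-- jointly smooth on `[0, ∞) × (ℂ^m minus 0)` -/
def Sm {m : ℕ} {α : Type} [NormedAddCommGroup α] [NormedSpace ℝ α] (f : ℝ → V m → α) : Prop :=
  ContDiffOn ℝ ∞ (fun p : ℝ × V m => f p.1 p.2) (Ici 0 ×ˢ nz m)

structure ConeFlow {m : ℕ} (Sbar : ℝ) (Φ : ℝ → V m → ℝ) : Prop where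
  smooth : Sm Φ
  hom0 : ∀ t, 0 ≤ t → Hom0 (Φ t)
  pos : ∀ t, 0 ≤ t → ∀ Z, Z ≠ 0 → (cM (Φ t) Z).PosDef
  eqn : ∀ t, 0 < t → ∀ Z, Z ≠ 0 → HasDerivAt (fun τ => Φ τ Z) (cS (Φ t) Z - Sbar) t

open Classical in
/-- a function on projective space as a function of homogeneous coordinates -/
noncomputable def lift {n : ℕ} (ψ : CP n → ℝ) (Z : V (n + 1)) : ℝ :=
  if h : Z ≠ 0 then ψ (Projectivization.mk ℂ Z h) else 0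

/-- Wirtinger calculus. -/
structure WirtStmt : Prop where
  dz_congr : ∀ {m : ℕ} (j : Fin m) {f g : V m → ℂ} {z : V m}, f =ᶠ[nhds z] g → dz j f z = dz j g z
  dzb_congr : ∀ {m : ℕ} (j : Fin m) {f g : V m → ℂ} {z : V m}, f =ᶠ[nhds z] g →
    dzb j f z = dzb j g z
  hess_congr : ∀ {m : ℕ} {f g : V m → ℝ} {z : V m}, f =ᶠ[nhds z] g → hess f z = hess g z
  dz_add : ∀ {m : ℕ} (j : Fin m) {f g : V m → ℂ} {z : V m}, DifferentiableAt ℝ f z →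
    DifferentiableAt ℝ g z → dz j (fun w => f w + g w) z = dz j f z + dz j g z
  dzb_add : ∀ {m : ℕ} (j : Fin m) {f g : V m → ℂ} {z : V m}, DifferentiableAt ℝ f z →
    DifferentiableAt ℝ g z → dzb j (fun w => f w + g w) z = dzb j f z + dzb j g z
  dz_mul : ∀ {m : ℕ} (j : Fin m) {f g : V m → ℂ} {z : V m}, DifferentiableAt ℝ f z →
    DifferentiableAt ℝ g z → dz j (fun w => f w * g w) z = dz j f z * g z + f z * dz j g z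
  dzb_mul : ∀ {m : ℕ} (j : Fin m) {f g : V m → ℂ} {z : V m}, DifferentiableAt ℝ f z →
    DifferentiableAt ℝ g z → dzb j (fun w => f w * g w) z = dzb j f z * g z + f z * dzb j g z
  dz_const : ∀ {m : ℕ} (j : Fin m) (c : ℂ) (z : V m), dz j (fun _ => c) z = 0
  dzb_const : ∀ {m : ℕ} (j : Fin m) (c : ℂ) (z : V m), dzb j (fun _ => c) z = 0
  dz_sum : ∀ {m : ℕ} {ι : Type} (s : Finset ι) (j : Fin m) {f : ι → V m → ℂ} {z : V m},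
    (∀ i ∈ s, DifferentiableAt ℝ (f i) z) →
    dz j (fun w => ∑ i ∈ s, f i w) z = ∑ i ∈ s, dz j (f i) z
  dzb_sum : ∀ {m : ℕ} {ι : Type} (s : Finset ι) (j : Fin m) {f : ι → V m → ℂ} {z : V m},
    (∀ i ∈ s, DifferentiableAt ℝ (f i) z) →
    dzb j (fun w => ∑ i ∈ s, f i w) z = ∑ i ∈ s, dzb j (f i) z
  dz_coord : ∀ {m : ℕ} (j k : Fin m) (z : V m), dz j (fun w => w k) z = if j = k then 1 else 0
  dz_coord_conj : ∀ {m : ℕ} (j k : Fin m) (z : V m), dz j (fun w => star (w k)) z = 0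
  dzb_coord : ∀ {m : ℕ} (j k : Fin m) (z : V m), dzb j (fun w => w k) z = 0
  dzb_coord_conj : ∀ {m : ℕ} (j k : Fin m) (z : V m),
    dzb j (fun w => star (w k)) z = if j = k then 1 else 0
  nsq_smooth : ∀ {m : ℕ}, ContDiff ℝ ∞ (nsq : V m → ℝ)
  nsq_pos : ∀ {m : ℕ} {z : V m}, z ≠ 0 → 0 < nsq z
  nsq_smul : ∀ {m : ℕ} (c : ℂ) (z : V m), nsq (c • z) = ‖c‖ ^ 2 * nsq z
  nsq_eq : ∀ {m : ℕ} (z : V m), (nsq z : ℂ) = z ⬝ᵥ star z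
  dz_nsq : ∀ {m : ℕ} (j : Fin m) (z : V m), dz j (fun w => (nsq w : ℂ)) z = star (z j)
  dzb_nsq : ∀ {m : ℕ} (j : Fin m) (z : V m), dzb j (fun w => (nsq w : ℂ)) z = z j
  dz_comp : ∀ {m : ℕ} (j : Fin m) {u G : V m → ℝ} {z : V m} {c : ℝ}, DifferentiableAt ℝ u z →
    HasFDerivAt G (c • fderiv ℝ u z) z →
    dz j (fun w => (G w : ℂ)) z = c * dz j (fun w => (u w : ℂ)) z
  dzb_comp : ∀ {m : ℕ} (j : Fin m) {u G : V m → ℝ} {z : V m} {c : ℝ}, DifferentiableAt ℝ u z →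
    HasFDerivAt G (c • fderiv ℝ u z) z →
    dzb j (fun w => (G w : ℂ)) z = c * dzb j (fun w => (u w : ℂ)) z
  dz_star : ∀ {m : ℕ} (j : Fin m) (f : V m → ℂ) (z : V m),
    dz j (fun w => star (f w)) z = star (dzb j f z)
  dzb_star : ∀ {m : ℕ} (j : Fin m) (f : V m → ℂ) (z : V m),
    dzb j (fun w => star (f w)) z = star (dz j f z)
  dz_smooth : ∀ {m : ℕ} (j : Fin m) {f : V m → ℂ} {z : V m}, ContDiffAt ℝ ∞ f z →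
    ContDiffAt ℝ ∞ (dz j f) z
  dzb_smooth : ∀ {m : ℕ} (j : Fin m) {f : V m → ℂ} {z : V m}, ContDiffAt ℝ ∞ f z →
    ContDiffAt ℝ ∞ (dzb j f) z
  dz_dz : ∀ {m : ℕ} (j k : Fin m) {f : V m → ℂ} {z : V m}, ContDiffAt ℝ ∞ f z →
    dz j (dz k f) z = dz k (dz j f) z
  dz_dzb : ∀ {m : ℕ} (j k : Fin m) {f : V m → ℂ} {z : V m}, ContDiffAt ℝ ∞ f z →
    dz j (dzb k f) z = dzb k (dz j f) z
  hess_smooth : ∀ {m : ℕ} (j k : Fin m) {f : V m → ℝ} {z : V m}, ContDiffAt ℝ ∞ f z →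
    ContDiffAt ℝ ∞ (fun w => hess f w j k) z
  hess_herm : ∀ {m : ℕ} {f : V m → ℝ} {z : V m}, ContDiffAt ℝ ∞ f z → (hess f z).IsHermitian
  hess_lin : ∀ {m : ℕ} (a b c : ℝ) {f g : V m → ℝ} {z : V m}, ContDiffAt ℝ ∞ f z →
    ContDiffAt ℝ ∞ g z →
    hess (fun w => a * f w + b * g w + c) z = (a : ℂ) • hess f z + (b : ℂ) • hess g z
  hess_log_nsq : ∀ {m : ℕ} {z : V m}, z ≠ 0 →
    (nsq z : ℂ) • hess (fun w => Real.log (nsq w)) z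
      = 1 - ((nsq z : ℂ)⁻¹) • Matrix.vecMulVec (star z) z
  hess_mulVec : ∀ {m : ℕ} (A : Matrix (Fin m) (Fin m) ℂ) {f : V m → ℝ} {z : V m},
    ContDiffAt ℝ ∞ f (A *ᵥ z) →
    hess (fun w => f (A *ᵥ w)) z = Aᵀ * hess f (A *ᵥ z) * A.map star
  hess_hom : ∀ {n : ℕ} (i : Fin (n + 1)) {f : V (n + 1) → ℝ} {z : V n},
    ContDiffAt ℝ ∞ f (hom i z) →
    hess (fun w => f (hom i w)) z = (hess f (hom i z)).submatrix i.succAbove i.succAbove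
  euler_dz : ∀ {m : ℕ} {f : V m → ℂ} {z : V m}, Hom0 f → z ≠ 0 → DifferentiableAt ℝ f z →
    ∑ j, z j * dz j f z = 0
  euler_dzb : ∀ {m : ℕ} {f : V m → ℂ} {z : V m}, Hom0 f → z ≠ 0 → DifferentiableAt ℝ f z →
    ∑ k, star (z k) * dzb k f z = 0
  hess_mulVec_star : ∀ {m : ℕ} {f : V m → ℝ} {z : V m}, ContDiffOn ℝ ∞ f (nz m) → Hom0 f →
    z ≠ 0 → hess f z *ᵥ star z = 0
  vecMul_hess : ∀ {m : ℕ} {f : V m → ℝ} {z : V m}, ContDiffOn ℝ ∞ f (nz m) → Hom0 f →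
    z ≠ 0 → z ᵥ* hess f z = 0
  hom0_hess : ∀ {m : ℕ} {f : V m → ℝ}, ContDiffOn ℝ ∞ f (nz m) → Hom0 f →
    Hom0 fun z => (nsq z : ℂ) • hess f z

/-- Derivatives of determinant and inverse. -/
structure JacStmt : Prop where
  det_t : ∀ {m : ℕ} {M : ℝ → Matrix (Fin m) (Fin m) ℂ} {M' : Matrix (Fin m) (Fin m) ℂ} {t : ℝ},
    (∀ j k, HasDerivAt (fun s => M s j k) (M' j k) t) → IsUnit (M t).det →
    HasDerivAt (fun s => (M s).det) ((M t).det * ((M t)⁻¹ * M').trace) t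
  dz_det : ∀ {m : ℕ} (l : Fin m) {M : V m → Matrix (Fin m) (Fin m) ℂ} {z : V m},
    (∀ j k, DifferentiableAt ℝ (fun w => M w j k) z) → IsUnit (M z).det →
    dz l (fun w => (M w).det) z
      = (M z).det * ((M z)⁻¹ * Matrix.of fun j k => dz l (fun w => M w j k) z).trace
  dz_inv : ∀ {m : ℕ} (l : Fin m) {M : V m → Matrix (Fin m) (Fin m) ℂ} {z : V m},
    (∀ j k, DifferentiableAt ℝ (fun w => M w j k) z) → IsUnit (M z).det → ∀ a b,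
    dz l (fun w => (M w)⁻¹ a b) z
      = -((M z)⁻¹ * (Matrix.of fun j k => dz l (fun w => M w j k) z) * (M z)⁻¹) a b
  smooth_det : ∀ {m : ℕ} {E : Type} [NormedAddCommGroup E] [NormedSpace ℝ E]
    {M : E → Matrix (Fin m) (Fin m) ℂ} {s : Set E} {z : E},
    (∀ j k, ContDiffWithinAt ℝ ∞ (fun w => M w j k) s z) →
    ContDiffWithinAt ℝ ∞ (fun w => (M w).det) s z
  smooth_inv : ∀ {m : ℕ} {E : Type} [NormedAddCommGroup E] [NormedSpace ℝ E]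
    {M : E → Matrix (Fin m) (Fin m) ℂ} {s : Set E} {z : E},
    (∀ j k, ContDiffWithinAt ℝ ∞ (fun w => M w j k) s z) → IsUnit (M z).det → ∀ a b,
    ContDiffWithinAt ℝ ∞ (fun w => (M w)⁻¹ a b) s z

/-- weight for integration over the cone -/
noncomputable def bump (r : ℝ) : ℝ := Real.smoothTransition (r - 1) * Real.smoothTransition (4 - r)

noncomputable def avg {m : ℕ} (F : V m → ℝ) : ℝ := ∫ Z : V m, bump (nsq Z) * F Z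

/-- Green symmetry of the Laplacian. -/
def GreenStmt : Prop :=
  ∀ (m : ℕ) (φ f h : V m → ℝ), ContDiffOn ℝ ∞ φ (nz m) → ContDiffOn ℝ ∞ f (nz m) →
    ContDiffOn ℝ ∞ h (nz m) → Hom0 φ → Hom0 f → Hom0 h →
    (∀ Z, Z ≠ 0 → (cM φ Z).PosDef) →
    avg (fun Z => f Z * lap φ h Z * (cM φ Z).det.re)
      = avg (fun Z => h Z * lap φ f Z * (cM φ Z).det.re)

/-- strict concavity of log det -/
def MatStmt : Prop :=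
  ∀ (m : ℕ) (C : ℝ), ∃ c : ℝ, 0 < c ∧ ∀ A B : Matrix (Fin m) (Fin m) ℂ, A.PosDef → B.PosDef →
    (∀ j k, ‖A j k‖ ≤ C ∧ ‖B j k‖ ≤ C ∧ ‖A⁻¹ j k‖ ≤ C ∧ ‖B⁻¹ j k‖ ≤ C) →
    c * ∑ j, ∑ k, ‖(B - A) j k‖ ^ 2
      ≤ (A⁻¹ * B).trace.re - m - (Real.log B.det.re - Real.log A.det.re)

/-- Smoothness and homogeneity of the curvature quantities; time derivative of the Hessian. -/
structure SmStmt : Prop where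
  slice : ∀ {m : ℕ} {f : ℝ → V m → ℝ}, Sm f → ∀ t, 0 ≤ t → ContDiffOn ℝ ∞ (f t) (nz m)
  hess_sm : ∀ {m : ℕ} {f : ℝ → V m → ℝ}, Sm f → ∀ j k, Sm fun t Z => hess (f t) Z j k
  cM_sm : ∀ {m : ℕ} {Φ : ℝ → V m → ℝ}, Sm Φ → ∀ j k, Sm fun t Z => cM (Φ t) Z j k
  curv_sm : ∀ {m : ℕ} {Φ : ℝ → V m → ℝ}, Sm Φ →
    (∀ t, 0 ≤ t → ∀ Z, Z ≠ 0 → (cM (Φ t) Z).PosDef) →
    (∀ j k, Sm fun t Z => (cM (Φ t) Z)⁻¹ j k) ∧ (Sm fun t Z => (cM (Φ t) Z).det.re) ∧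
      (Sm fun t Z => ldet (Φ t) Z) ∧ (Sm fun t Z => cS (Φ t) Z) ∧
      ∀ h : ℝ → V m → ℝ, Sm h → Sm fun t Z => lap (Φ t) (h t) Z
  static : ∀ {m : ℕ} {φ : V m → ℝ}, ContDiffOn ℝ ∞ φ (nz m) → Hom0 φ →
    (∀ Z, Z ≠ 0 → (cM φ Z).PosDef) →
    Hom0 (cM φ) ∧ Hom0 (ldet φ) ∧ Hom0 (cS φ) ∧ ContDiffOn ℝ ∞ (ldet φ) (nz m) ∧
      ContDiffOn ℝ ∞ (cS φ) (nz m) ∧
      ∀ h : V m → ℝ, ContDiffOn ℝ ∞ h (nz m) → Hom0 h →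
        Hom0 (lap φ h) ∧ ContDiffOn ℝ ∞ (lap φ h) (nz m)
  hess_t : ∀ {m : ℕ} {f : ℝ → V m → ℝ} {g : V m → ℝ} {t : ℝ}, Sm f → 0 < t →
    (∀ W, W ≠ 0 → HasDerivAt (fun τ => f τ W) (g W) t) → ∀ Z, Z ≠ 0 → ∀ j k,
    HasDerivAt (fun τ => hess (f τ) Z j k) (hess g Z j k) t

/-- Uniqueness of smooth solutions in cone form. -/
def UniqStmt : Prop :=
  ∀ (m : ℕ) (S : ℝ) (Φ₁ Φ₂ : ℝ → V m → ℝ), ConeFlow S Φ₁ → ConeFlow S Φ₂ →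
    (∀ Z, Z ≠ 0 → Φ₁ 0 Z = Φ₂ 0 Z) → ∀ t, 0 ≤ t → ∀ Z, Z ≠ 0 → Φ₁ t Z = Φ₂ t Z

/-- chart metric of a homogeneous potential -/
noncomputable def gch {n : ℕ} (φ : V (n + 1) → ℝ) (i : Fin (n + 1)) (z : V n) :
    Matrix (Fin n) (Fin n) ℂ :=
  hess (fun w => Real.log (1 + ∑ j, ‖w j‖ ^ 2) + φ (hom i w)) z

/-- Chart matrix versus cone matrix. -/
def LinkStmt : Prop :=
  ∀ (n : ℕ) (φ : V (n + 1) → ℝ), ContDiffOn ℝ ∞ φ (nz (n + 1)) → Hom0 φ → ∀ i z,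
    ((gch φ i z).PosDef ↔ (cM φ (hom i z)).PosDef) ∧
    (cM φ (hom i z)).det = (nsq (hom i z) : ℂ) ^ (n + 1) * (gch φ i z).det ∧
    ((gch φ i z).PosDef →
      (∀ h : V (n + 1) → ℝ, ContDiffOn ℝ ∞ h (nz (n + 1)) → Hom0 h →
        ((gch φ i z)⁻¹ * hess (fun w => h (hom i w)) z).trace.re = lap φ h (hom i z)) ∧
      ((gch φ i z)⁻¹ * hess (fun w => Real.log (nsq (hom i w))) z).trace.re
        = ((cM φ (hom i z))⁻¹).trace.re - 1)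

def ToConeStmt : Prop :=
  ∀ (n : ℕ) (φ₀ : CP n → ℝ) (Sbar : ℝ) (φ : ℝ → CP n → ℝ), SmoothFn φ₀ →
    IsGlobalFlow φ₀ Sbar φ → ConeFlow Sbar fun t => lift (φ₀ + φ t)

/-- the invariant `|Z'|^2 / |Z|^2` -/
noncomputable def rho {n : ℕ} (Z : V (n + 1)) : ℝ := 1 - ‖Z 0‖ ^ 2 / nsq Z

/-- a point with `rho = r` -/
noncomputable def pt (n : ℕ) (r : ℝ) : V (n + 1) := fun j =>
  if j.val = 0 then ((√(1 - r) : ℝ) : ℂ) else if j.val = 1 then ((√r : ℝ) : ℂ) else 0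

structure RhoStmt : Prop where
  mem : ∀ {n : ℕ} {Z : V (n + 1)}, Z ≠ 0 → rho Z ∈ Icc (0 : ℝ) 1
  smooth : ∀ {n : ℕ}, ContDiffOn ℝ ∞ (rho : V (n + 1) → ℝ) (nz (n + 1))
  hom0 : ∀ {n : ℕ}, Hom0 (rho : V (n + 1) → ℝ)
  pt_nsq : ∀ {n : ℕ}, 1 ≤ n → ∀ r ∈ Icc (0 : ℝ) 1, nsq (pt n r) = 1
  pt_ne : ∀ {n : ℕ}, 1 ≤ n → ∀ r ∈ Icc (0 : ℝ) 1, pt n r ≠ 0
  rho_pt : ∀ {n : ℕ}, 1 ≤ n → ∀ r ∈ Icc (0 : ℝ) 1, rho (pt n r) = r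
  pt_smooth : ∀ {n : ℕ}, ContDiffOn ℝ ∞ (pt n) (Ioo 0 1)

/-- Invariant initial data give invariant solutions. -/
def InvStmt : Prop :=
  ∀ (n : ℕ), 1 ≤ n → ∀ (S : ℝ) (Φ : ℝ → V (n + 1) → ℝ) (F₀ : ℝ → ℝ), ConeFlow S Φ →
    (∀ Z, Z ≠ 0 → Φ 0 Z = F₀ (rho Z)) →
    ∀ t, 0 ≤ t → ∀ Z, Z ≠ 0 → Φ t Z = Φ t (pt n (rho Z))

noncomputable def rp (r a : ℝ) : ℝ := 1 + (1 - r) * a

noncomputable def rq (r a b : ℝ) : ℝ := 1 + (1 - 2 * r) * a + r * (1 - r) * b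

/-- `F` has first and second derivatives `F₁`, `F₂` within `S` -/
def Jet2 (S : Set ℝ) (F F₁ F₂ : ℝ → ℝ) : Prop :=
  ∀ r ∈ S, HasDerivWithinAt F (F₁ r) S r ∧ HasDerivWithinAt F₁ (F₂ r) S r

/-- Cone matrices of radial potentials. -/
structure RadStmt : Prop where
  pos : ∀ (n : ℕ), 1 ≤ n → ∀ (F F₁ F₂ : ℝ → ℝ), Jet2 (Icc 0 1) F F₁ F₂ →
    ∀ Z : V (n + 1), Z ≠ 0 → 0 < rp (rho Z) (F₁ (rho Z)) →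
    0 < rq (rho Z) (F₁ (rho Z)) (F₂ (rho Z)) → (cM (fun W => F (rho W)) Z).PosDef
  det : ∀ (n : ℕ), 1 ≤ n → ∀ (F F₁ F₂ : ℝ → ℝ), Jet2 (Ioo 0 1) F F₁ F₂ →
    ∀ Z : V (n + 1), Z ≠ 0 → rho Z ∈ Ioo (0 : ℝ) 1 → rp (rho Z) (F₁ (rho Z)) ≠ 0 →
    (cM (fun W => F (rho W)) Z).det
      = ((rp (rho Z) (F₁ (rho Z)) ^ (n - 1) * rq (rho Z) (F₁ (rho Z)) (F₂ (rho Z)) : ℝ) : ℂ)
  trace : ∀ (n : ℕ), 1 ≤ n → ∀ (F F₁ F₂ u u₁ u₂ : ℝ → ℝ), Jet2 (Ioo 0 1) F F₁ F₂ →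
    Jet2 (Ioo 0 1) u u₁ u₂ → ∀ Z : V (n + 1), Z ≠ 0 → rho Z ∈ Ioo (0 : ℝ) 1 →
    rp (rho Z) (F₁ (rho Z)) ≠ 0 → rq (rho Z) (F₁ (rho Z)) (F₂ (rho Z)) ≠ 0 →
    ((cM (fun W => F (rho W)) Z)⁻¹).trace.re
        = 1 + (n - 1) / rp (rho Z) (F₁ (rho Z)) + 1 / rq (rho Z) (F₁ (rho Z)) (F₂ (rho Z)) ∧
      lap (fun W => F (rho W)) (fun W => u (rho W)) Z
        = (n - 1) * (rp (rho Z) (u₁ (rho Z)) - 1) / rp (rho Z) (F₁ (rho Z))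
          + (rq (rho Z) (u₁ (rho Z)) (u₂ (rho Z)) - 1) / rq (rho Z) (F₁ (rho Z)) (F₂ (rho Z))
  eig : ∀ (n : ℕ), 2 ≤ n → ∀ (F F₁ F₂ : ℝ → ℝ), Jet2 (Ioo 0 1) F F₁ F₂ → ∀ r ∈ Ioo (0 : ℝ) 1,
    (∃ v : V (n + 1), v ≠ 0 ∧
      cM (fun W => F (rho W)) (pt n r) *ᵥ v = ((rp r (F₁ r) : ℝ) : ℂ) • v) ∧
    (∃ v : V (n + 1), v ≠ 0 ∧
      cM (fun W => F (rho W)) (pt n r) *ᵥ v = ((rq r (F₁ r) (F₂ r) : ℝ) : ℂ) • v)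

noncomputable def RP (f : ℝ → ℝ) (r : ℝ) : ℝ := rp r (deriv f r)

noncomputable def RQ (f : ℝ → ℝ) (r : ℝ) : ℝ := rq r (deriv f r) (deriv (deriv f) r)

noncomputable def RU (n : ℕ) (f : ℝ → ℝ) (r : ℝ) : ℝ := Real.log (RP f r ^ (n - 1) * RQ f r)

/-- scalar curvature of a radial potential -/
noncomputable def radS (n : ℕ) (f : ℝ → ℝ) (r : ℝ) : ℝ :=
  (n + 1) * ((n - 1) / RP f r + 1 / RQ f r)
    - ((n - 1) * (RP (RU n f) r - 1) / RP f r + (RQ (RU n f) r - 1) / RQ f r)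

structure RadFlow (n : ℕ) (Sbar : ℝ) (F : ℝ → ℝ → ℝ) : Prop where
  smooth : ContDiffOn ℝ ∞ (fun p : ℝ × ℝ => F p.1 p.2) (Ici 0 ×ˢ Ioo 0 1)
  bdd : ∀ (j : ℕ) (T : ℝ), ∃ C, ∀ t ∈ Icc 0 T, ∀ r ∈ Ioo (0 : ℝ) 1, |iteratedDeriv j (F t) r| ≤ C
  pos : ∀ T : ℝ, ∃ c, 0 < c ∧ ∀ t ∈ Icc 0 T, ∀ r ∈ Ioo (0 : ℝ) 1,
    c ≤ RP (F t) r ∧ c ≤ RQ (F t) r
  eqn : ∀ t, 0 < t → ∀ r ∈ Ioo (0 : ℝ) 1, HasDerivAt (fun τ => F τ r) (radS n (F t) r - Sbar) t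

/-- bounded derivatives of the profile up to both ends -/
def RadBdStmt : Prop :=
  ∀ (n : ℕ), 1 ≤ n → ∀ Φ : ℝ → V (n + 1) → ℝ, Sm Φ →
    (∀ t, 0 ≤ t → ∀ Z, Z ≠ 0 → Φ t Z = Φ t (pt n (rho Z))) →
    ∀ (j : ℕ) (T : ℝ), ∃ C, ∀ t ∈ Icc 0 T, ∀ r ∈ Ioo (0 : ℝ) 1,
      |iteratedDeriv j (fun r => Φ t (pt n r)) r| ≤ C

def RadFlowStmt : Prop :=
  ∀ (n : ℕ), 2 ≤ n → ∀ (S : ℝ) (Φ : ℝ → V (n + 1) → ℝ), ConeFlow S Φ →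
    (∀ t, 0 ≤ t → ∀ Z, Z ≠ 0 → Φ t Z = Φ t (pt n (rho Z))) →
    RadFlow n S fun t r => Φ t (pt n r)

/-! ### the one-dimensional operators -/

noncomputable def om (ε x : ℝ) : ℝ := x * (1 - ε * x)

noncomputable def ell (n : ℕ) (ε : ℝ) (j : ℕ) (x : ℝ) : ℝ :=
  ((n : ℝ) - 1) * (1 - ε * x) + ((j : ℝ) + 1) * (1 - 2 * ε * x)

noncomputable def dl (n : ℕ) (ε : ℝ) (j : ℕ) (f : ℝ → ℝ) : ℝ → ℝ :=
  fun x => om ε x * deriv f x + ell n ε j x * f x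

noncomputable def LL (n : ℕ) (ε : ℝ) (f : ℝ → ℝ) : ℝ → ℝ :=
  deriv (deriv (dl n ε 0 (dl n ε 1 f)))

/-- smooth in space with jointly continuous space jets -/
def CJ (J I : Set ℝ) (f : ℝ → ℝ → ℝ) : Prop :=
  (∀ s ∈ J, ContDiffOn ℝ ∞ (f s) I) ∧
    ∀ i : ℕ, ContinuousOn (fun p : ℝ × ℝ => iteratedDeriv i (f p.1) p.2) (J ×ˢ I)

/-- global solutions of the reduced equation in the momentum variable -/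
structure Sol (n : ℕ) (γ₀ : ℝ → ℝ) (γ : ℝ → ℝ → ℝ) : Prop where
  cj : CJ (Ici 0) (Ioo 0 1) γ
  bdd : ∀ (j : ℕ) (T : ℝ), ∃ C, ∀ t ∈ Icc 0 T, ∀ x ∈ Ioo (0 : ℝ) 1, |iteratedDeriv j (γ t) x| ≤ C
  pos : ∀ T : ℝ, ∃ c, 0 < c ∧ ∀ t ∈ Icc 0 T, ∀ x ∈ Ioo (0 : ℝ) 1, c ≤ 1 + om 1 x * γ t x
  eqn : ∀ t, 0 < t → ∀ x ∈ Ioo (0 : ℝ) 1,
    HasDerivAt (fun τ => γ τ x) (-(1 + om 1 x * γ t x) ^ 2 * LL n 1 (γ t) x) t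
  init : ∀ x ∈ Ioo (0 : ℝ) 1, γ 0 x = γ₀ x

/-- momentum coordinate -/
noncomputable def mu (f : ℝ → ℝ) (r : ℝ) : ℝ := r * RP f r

noncomputable def sig (f : ℝ → ℝ) (x : ℝ) : ℝ := Function.invFunOn (mu f) (Ioo 0 1) x

noncomputable def ghat (f : ℝ → ℝ) (r : ℝ) : ℝ :=
  (deriv (deriv f) r + deriv f r ^ 2) / (RP f r ^ 2 * (1 - r * deriv f r) ^ 2)

noncomputable def gam (f : ℝ → ℝ) (x : ℝ) : ℝ := ghat f (sig f x)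

/-- the inverse of the momentum map -/
def SigStmt : Prop :=
  ∀ (n : ℕ) (S : ℝ) (F : ℝ → ℝ → ℝ), RadFlow n S F →
    (∀ t, 0 ≤ t → (∀ r ∈ Ioo (0 : ℝ) 1, mu (F t) r ∈ Ioo (0 : ℝ) 1 ∧ sig (F t) (mu (F t) r) = r ∧
        HasDerivAt (mu (F t)) (RQ (F t) r) r) ∧
      ∀ x ∈ Ioo (0 : ℝ) 1, sig (F t) x ∈ Ioo (0 : ℝ) 1 ∧ mu (F t) (sig (F t) x) = x ∧
        HasDerivAt (sig (F t)) (RQ (F t) (sig (F t) x))⁻¹ x) ∧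
    ContinuousOn (fun p : ℝ × ℝ => sig (F p.1) p.2) (Ici 0 ×ˢ Ioo 0 1) ∧
    (∀ T : ℝ, ∃ c, 0 < c ∧ ∀ t ∈ Icc 0 T, ∀ r ∈ Ioo (0 : ℝ) 1, c ≤ 1 - r * deriv (F t) r) ∧
    ∀ t, 0 < t → ∀ x ∈ Ioo (0 : ℝ) 1, DifferentiableAt ℝ (fun τ => sig (F τ) x) t

def JetStmt : Prop :=
  ∀ (n : ℕ) (S : ℝ) (F : ℝ → ℝ → ℝ), RadFlow n S F →
    CJ (Ici 0) (Ioo 0 1) (fun t => gam (F t)) ∧
    (∀ (j : ℕ) (T : ℝ), ∃ C, ∀ t ∈ Icc 0 T, ∀ x ∈ Ioo (0 : ℝ) 1,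
      |iteratedDeriv j (gam (F t)) x| ≤ C) ∧
    (∀ T : ℝ, ∃ c, 0 < c ∧ ∀ t ∈ Icc 0 T, ∀ x ∈ Ioo (0 : ℝ) 1, c ≤ 1 + om 1 x * gam (F t) x) ∧
    ∀ t, 0 ≤ t → ∀ r ∈ Ioo (0 : ℝ) 1, r * (1 - r) * RQ (F t) r
      = om 1 (mu (F t) r) + om 1 (mu (F t) r) ^ 2 * gam (F t) (mu (F t) r)

/-- scalar curvature in the momentum variable -/
def StatStmt : Prop :=
  ∀ (n : ℕ), 1 ≤ n → ∀ (S : ℝ) (F : ℝ → ℝ → ℝ), RadFlow n S F → ∀ t, 0 ≤ t →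
    ∀ x ∈ Ioo (0 : ℝ) 1,
      radS n (F t) (sig (F t) x) = n * (n + 1) - dl n 1 0 (dl n 1 1 (gam (F t))) x

def TimeStmt : Prop :=
  ∀ (n : ℕ), 1 ≤ n → ∀ (S : ℝ) (F : ℝ → ℝ → ℝ), RadFlow n S F → ∀ t, 0 < t →
    ∀ x ∈ Ioo (0 : ℝ) 1, HasDerivAt (fun τ => gam (F τ) x)
      (-(1 + om 1 x * gam (F t) x) ^ 2 * LL n 1 (gam (F t)) x) t

/-- a radial potential with prescribed momentum profile -/
def InitStmt : Prop :=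
  ∀ γ₀ : ℝ → ℝ, ContDiffOn ℝ ∞ γ₀ (Icc 0 1) → (∀ x ∈ Icc (0 : ℝ) 1, 0 < 1 + om 1 x * γ₀ x) →
    ∃ F₀ F₁ F₂ : ℝ → ℝ, ContDiffOn ℝ ∞ F₀ (Icc 0 1) ∧ Jet2 (Icc 0 1) F₀ F₁ F₂ ∧
      (∀ r ∈ Icc (0 : ℝ) 1, 0 < rp r (F₁ r) ∧ 0 < rq r (F₁ r) (F₂ r)) ∧
      ∀ r ∈ Ioo (0 : ℝ) 1, r * (1 - r) * rq r (F₁ r) (F₂ r)
        = om 1 (r * rp r (F₁ r)) + om 1 (r * rp r (F₁ r)) ^ 2 * γ₀ (r * rp r (F₁ r))

/-- the one-dimensional blow-up theorem -/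
def Main1D (n : ℕ) : Prop :=
  ∃ γ₀ : ℝ → ℝ, ContDiffOn ℝ ∞ γ₀ (Icc 0 1) ∧ (∀ x ∈ Icc (0 : ℝ) 1, 0 < 1 + om 1 x * γ₀ x) ∧
    ∀ γ, ¬ Sol n γ₀ γ

def Goal : Prop :=
  ∃ n : ℕ, 2 ≤ n ∧ ∃ φ₀ : CP n → ℝ, SmoothFn φ₀ ∧ IsKahler φ₀ ∧
    ∀ (Sbar : ℝ) (φ : ℝ → CP n → ℝ), ¬ IsGlobalFlow φ₀ Sbar φ

def FinalStmt : Prop := (∃ n : ℕ, 2 ≤ n ∧ Main1D n) → Goal

end Vale.Agent.P264
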