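import Vale.Agent.P264.StmU

/-! The averaging functional `avg`: linearity, monotonicity, continuity and differentiation in a
parameter. -/

namespace Vale.Agent.P264

open scoped ContDiff ComplexOrder Matrix Topology
open Set MeasureTheory Filter

namespace Uniq

variable {m : ℕ}

/-- the support of the weight -/
def KK (m : ℕ) : Set (V m) := {Z | 1 ≤ nsq Z ∧ nsq Z ≤ 4}

theorem nsq_cont : Continuous (nsq : V m → ℝ) := by
  unfold nsq
  fun_prop

theorem nsq_zero : nsq (0 : V m) = 0 := by simp [nsq]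

theorem nsq_nonneg (Z : V m) : 0 ≤ nsq Z := Finset.sum_nonneg fun _ _ => by positivity

theorem nz_open : IsOpen (nz m) := isOpen_ne

theorem KK_ne {Z : V m} (hZ : Z ∈ KK m) : Z ≠ 0 := by
  rintro rfl
  have := hZ.1
  rw [nsq_zero] at this
  linarith

theorem KK_compact : IsCompact (KK m) := by
  refine Metric.isCompact_of_isClosed_isBounded ?_ ?_
  · exact (isClosed_le continuous_const nsq_cont).inter (isClosed_le nsq_cont continuous_const)
  · refine (Metric.isBounded_closedBall (x := (0 : V m)) (r := 2)).subset fun Z hZ => ?_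
    rw [mem_closedBall_zero_iff, pi_norm_le_iff_of_nonneg (by norm_num)]
    intro j
    have h1 : ‖Z j‖ ^ 2 ≤ nsq Z :=
      Finset.single_le_sum (f := fun j => ‖Z j‖ ^ 2) (fun _ _ => by positivity) (Finset.mem_univ j)
    have h2 := hZ.2
    nlinarith [norm_nonneg (Z j)]

theorem bump_nonneg (r : ℝ) : 0 ≤ bump r :=
  mul_nonneg (Real.smoothTransition.nonneg _) (Real.smoothTransition.nonneg _)

theorem bump_cont : Continuous bump := by
  unfold bump
  exact (Real.smoothTransition.continuous.comp (continuous_id.sub continuous_const)).mul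
    (Real.smoothTransition.continuous.comp (continuous_const.sub continuous_id))

theorem bump_pos {r : ℝ} (h1 : 1 < r) (h4 : r < 4) : 0 < bump r :=
  mul_pos (Real.smoothTransition.pos_of_pos (by linarith))
    (Real.smoothTransition.pos_of_pos (by linarith))

theorem bump_zero {Z : V m} (hZ : Z ∉ KK m) : bump (nsq Z) = 0 := by
  unfold bump
  by_cases h1 : 1 ≤ nsq Z
  · have h4 : 4 < nsq Z := by
      by_contra h
      exact hZ ⟨h1, not_lt.1 h⟩
    rw [Real.smoothTransition.zero_of_nonpos (x := 4 - nsq Z) (by linarith), mul_zero]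
  · rw [Real.smoothTransition.zero_of_nonpos (x := nsq Z - 1) (by linarith), zero_mul]

theorem cont_bump_param {s : Set ℝ} {F : ℝ → V m → ℝ}
    (hF : ContinuousOn (fun p : ℝ × V m => F p.1 p.2) (s ×ˢ nz m)) :
    ContinuousOn (fun p : ℝ × V m => bump (nsq p.2) * F p.1 p.2) (s ×ˢ univ) := by
  intro p hp
  by_cases h0 : p.2 = 0
  · have hev : ∀ᶠ q : ℝ × V m in 𝓝 p, nsq q.2 < 1 := by
      have hc : Continuous fun q : ℝ × V m => nsq q.2 := nsq_cont.comp continuous_snd
      refine hc.continuousAt.eventually_lt continuousAt_const ?_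
      rw [h0, nsq_zero]
      exact one_pos
    have he : (fun q : ℝ × V m => bump (nsq q.2) * F q.1 q.2) =ᶠ[𝓝 p] fun _ => 0 := by
      filter_upwards [hev] with q hq
      rw [bump_zero (fun h => absurd h.1 (not_le.2 hq)), zero_mul]
    exact (continuousAt_const.congr he.symm).continuousWithinAt
  · have h1 : ContinuousWithinAt (fun p : ℝ × V m => F p.1 p.2) (s ×ˢ univ) p := by
      refine (hF p ⟨hp.1, h0⟩).mono_of_mem_nhdsWithin ?_
      have h2 : (univ ×ˢ nz m : Set (ℝ × V m)) ∈ 𝓝 p :=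
        (isOpen_univ.prod nz_open).mem_nhds ⟨trivial, h0⟩
      filter_upwards [self_mem_nhdsWithin, mem_nhdsWithin_of_mem_nhds h2] with q hq1 hq2
      exact ⟨hq1.1, hq2.2⟩
    exact ((bump_cont.comp (nsq_cont.comp continuous_snd)).continuousWithinAt).mul h1

theorem cont_bump {F : V m → ℝ} (hF : ContinuousOn F (nz m)) :
    Continuous fun Z => bump (nsq Z) * F Z := by
  have h1 : ContinuousOn (fun p : ℝ × V m => F p.2) (univ ×ˢ nz m) :=
    hF.comp continuousOn_snd fun p hp => hp.2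
  have h2 : ContinuousOn (fun p : ℝ × V m => bump (nsq p.2) * F p.2) (univ ×ˢ univ) :=
    cont_bump_param (F := fun _ Z => F Z) h1
  rw [univ_prod_univ, continuousOn_univ] at h2
  exact Continuous.comp (g := fun p : ℝ × V m => bump (nsq p.2) * F p.2)
    (f := fun Z : V m => ((0 : ℝ), Z)) h2 (Continuous.prodMk_right (0 : ℝ))

theorem supp_bump (F : V m → ℝ) : HasCompactSupport fun Z => bump (nsq Z) * F Z :=
  HasCompactSupport.intro KK_compact fun Z hZ => by rw [bump_zero hZ, zero_mul]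

theorem int_bump {F : V m → ℝ} (hF : ContinuousOn F (nz m)) :
    Integrable fun Z => bump (nsq Z) * F Z :=
  (cont_bump hF).integrable_of_hasCompactSupport (supp_bump F)

theorem avg_congr {F G : V m → ℝ} (h : ∀ Z, Z ≠ 0 → F Z = G Z) : avg F = avg G := by
  unfold avg
  refine integral_congr_ae (Eventually.of_forall fun Z => ?_)
  by_cases hZ : Z ∈ KK m
  · simp only [h Z (KK_ne hZ)]
  · simp only [bump_zero hZ, zero_mul]

theorem avg_zero : avg (fun _ : V m => (0 : ℝ)) = 0 := by simp [avg]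

theorem avg_add {F G : V m → ℝ} (hF : ContinuousOn F (nz m)) (hG : ContinuousOn G (nz m)) :
    avg (fun Z => F Z + G Z) = avg F + avg G := by
  unfold avg
  rw [← integral_add (int_bump hF) (int_bump hG)]
  simp only [mul_add]

theorem avg_sub {F G : V m → ℝ} (hF : ContinuousOn F (nz m)) (hG : ContinuousOn G (nz m)) :
    avg (fun Z => F Z - G Z) = avg F - avg G := by
  unfold avg
  rw [← integral_sub (int_bump hF) (int_bump hG)]
  simp only [mul_sub]

theorem avg_const_mul (c : ℝ) (F : V m → ℝ) : avg (fun Z => c * F Z) = c * avg F := by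
  unfold avg
  rw [← integral_const_mul]
  simp only [mul_left_comm]

theorem avg_mono {F G : V m → ℝ} (hF : ContinuousOn F (nz m)) (hG : ContinuousOn G (nz m))
    (h : ∀ Z ∈ KK m, F Z ≤ G Z) : avg F ≤ avg G := by
  unfold avg
  refine integral_mono (int_bump hF) (int_bump hG) fun Z => ?_
  by_cases hZ : Z ∈ KK m
  · exact mul_le_mul_of_nonneg_left (h Z hZ) (bump_nonneg _)
  · simp only [bump_zero hZ, zero_mul, le_refl]

theorem avg_nonneg {F : V m → ℝ} (h : ∀ Z ∈ KK m, 0 ≤ F Z) : 0 ≤ avg F := by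
  unfold avg
  refine integral_nonneg fun Z => ?_
  by_cases hZ : Z ∈ KK m
  · exact mul_nonneg (bump_nonneg _) (h Z hZ)
  · simp only [bump_zero hZ, zero_mul, Pi.zero_apply, le_refl]

theorem eq_zero_of_avg {F : V m → ℝ} (hF : ContinuousOn F (nz m)) (h : ∀ Z ∈ KK m, 0 ≤ F Z)
    (h0 : avg F ≤ 0) {Z : V m} (h1 : 1 < nsq Z) (h4 : nsq Z < 4) : F Z = 0 := by
  by_contra hne
  have hpos : 0 < ∫ Z : V m, bump (nsq Z) * F Z := by
    refine (cont_bump hF).integral_pos_of_hasCompactSupport_nonneg_nonzero (x := Z)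
      (supp_bump F) (fun W => ?_) (mul_ne_zero (bump_pos h1 h4).ne' hne)
    by_cases hW : W ∈ KK m
    · exact mul_nonneg (bump_nonneg _) (h W hW)
    · simp only [bump_zero hW, zero_mul, Pi.zero_apply, le_refl]
  exact absurd hpos (not_lt.2 h0)

/-- jointly continuous on `[0, ∞) × (ℂ^m minus 0)` -/
def Cn {α : Type} [TopologicalSpace α] (f : ℝ → V m → α) : Prop :=
  ContinuousOn (fun p : ℝ × V m => f p.1 p.2) (Ici 0 ×ˢ nz m)

theorem Cn.slice {α : Type} [TopologicalSpace α] {f : ℝ → V m → α} (hf : Cn f) {t : ℝ}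
    (ht : 0 ≤ t) : ContinuousOn (f t) (nz m) :=
  ContinuousOn.comp (g := fun p : ℝ × V m => f p.1 p.2) (f := fun Z : V m => (t, Z)) hf
    (Continuous.prodMk_right t).continuousOn fun _ hZ => ⟨ht, hZ⟩

theorem Cn.time {α : Type} [TopologicalSpace α] {f : ℝ → V m → α} (hf : Cn f) {Z : V m}
    (hZ : Z ≠ 0) : ContinuousOn (fun t => f t Z) (Ici 0) :=
  ContinuousOn.comp (g := fun p : ℝ × V m => f p.1 p.2) (f := fun t : ℝ => (t, Z)) hf
    (Continuous.prodMk_left Z).continuousOn fun _ ht => ⟨ht, hZ⟩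

theorem Cn.bound {α : Type} [NormedAddCommGroup α] {f : ℝ → V m → α} (hf : Cn f) (T : ℝ) :
    ∃ C : ℝ, 0 ≤ C ∧ ∀ t ∈ Icc (0 : ℝ) T, ∀ Z ∈ KK m, ‖f t Z‖ ≤ C := by
  obtain ⟨C, hC⟩ := ((isCompact_Icc (a := (0 : ℝ)) (b := T)).prod
    (KK_compact (m := m))).exists_bound_of_continuousOn
    (ContinuousOn.mono hf fun p hp => ⟨hp.1.1, KK_ne hp.2⟩)
  exact ⟨max C 0, le_max_right _ _, fun t ht Z hZ => (hC (t, Z) ⟨ht, hZ⟩).trans (le_max_left _ _)⟩

theorem Cn.entry {f : ℝ → V m → Matrix (Fin m) (Fin m) ℂ} (hf : Cn f) (j k : Fin m) :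
    Cn fun t Z => f t Z j k :=
  continuousOn_pi.1 (continuousOn_pi.1 hf j) k

theorem Cn.of_entry {f : ℝ → V m → Matrix (Fin m) (Fin m) ℂ}
    (hf : ∀ j k, Cn fun t Z => f t Z j k) : Cn f :=
  continuousOn_pi.2 fun j => continuousOn_pi.2 fun k => hf j k

theorem Cn.mbound {f : ℝ → V m → Matrix (Fin m) (Fin m) ℂ} (hf : Cn f) (T : ℝ) :
    ∃ C : ℝ, 0 ≤ C ∧ ∀ t ∈ Icc (0 : ℝ) T, ∀ Z ∈ KK m, ∀ j k, ‖f t Z j k‖ ≤ C := by
  choose C hC0 hC using fun j k => (hf.entry j k).bound T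
  refine ⟨∑ j, ∑ k, C j k, Finset.sum_nonneg fun j _ => Finset.sum_nonneg fun k _ => hC0 j k,
    fun t ht Z hZ j k => (hC j k t ht Z hZ).trans ?_⟩
  calc C j k ≤ ∑ k, C j k :=
        Finset.single_le_sum (f := fun k => C j k) (fun k _ => hC0 j k) (Finset.mem_univ k)
    _ ≤ ∑ j, ∑ k, C j k :=
        Finset.single_le_sum (f := fun j => ∑ k, C j k)
          (fun j _ => Finset.sum_nonneg fun k _ => hC0 j k) (Finset.mem_univ j)

theorem avg_cont {F : ℝ → V m → ℝ} (hF : Cn F) : ContinuousOn (fun t => avg (F t)) (Ici 0) :=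
  continuousOn_integral_of_compact_support (f := fun t Z => bump (nsq Z) * F t Z) KK_compact
    (cont_bump_param hF) fun _ Z _ hZ => by rw [bump_zero hZ, zero_mul]

theorem avg_deriv {F G : ℝ → V m → ℝ} (hF : Cn F) (hG : Cn G)
    (hd : ∀ t, 0 < t → ∀ Z, Z ≠ 0 → HasDerivAt (fun τ => F τ Z) (G t Z) t) {t : ℝ} (ht : 0 < t) :
    HasDerivAt (fun τ => avg (F τ)) (avg (G t)) t := by
  obtain ⟨C, -, hC⟩ := hG.bound (2 * t)
  have hs : Ioo 0 (2 * t) ∈ 𝓝 t := Ioo_mem_nhds ht (by linarith)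
  refine (hasDerivAt_integral_of_dominated_loc_of_deriv_le (μ := volume)
    (F := fun τ Z => bump (nsq Z) * F τ Z) (F' := fun τ Z => bump (nsq Z) * G τ Z)
    (bound := fun Z => bump (nsq Z) * C) hs ?_ (int_bump (hF.slice ht.le))
    (int_bump (hG.slice ht.le)).aestronglyMeasurable (Eventually.of_forall fun Z τ hτ => ?_)
    (int_bump continuousOn_const) (Eventually.of_forall fun Z τ hτ => ?_)).2
  · filter_upwards [hs] with τ hτ
    exact (int_bump (hF.slice hτ.1.le)).aestronglyMeasurable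
  · by_cases hZ : Z ∈ KK m
    · rw [norm_mul, Real.norm_of_nonneg (bump_nonneg _)]
      exact mul_le_mul_of_nonneg_left (hC τ ⟨hτ.1.le, hτ.2.le⟩ Z hZ) (bump_nonneg _)
    · simp only [bump_zero hZ, zero_mul, norm_zero, le_refl]
  · by_cases hZ : Z ∈ KK m
    · exact (hd τ hτ.1 Z (KK_ne hZ)).const_mul _
    · simp only [bump_zero hZ, zero_mul]
      exact hasDerivAt_const _ _

theorem const_of_deriv {f : ℝ → ℝ} (hc : ContinuousOn f (Ici 0))
    (hd : ∀ t, 0 < t → HasDerivAt f 0 t) {t : ℝ} (ht : 0 ≤ t) : f t = f 0 := by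
  rcases ht.eq_or_lt with h | h
  · rw [← h]
  · obtain ⟨c, -, hc'⟩ := exists_hasDerivAt_eq_slope f (fun _ => 0) h
      (hc.mono fun x hx => hx.1) fun x hx => hd x hx.1
    have : f t - f 0 = 0 := by
      rcases div_eq_zero_iff.1 hc'.symm with h1 | h1
      · exact h1
      · linarith
    linarith

theorem gronwall_zero {e e' : ℝ → ℝ} {T C : ℝ} (hc : ContinuousOn e (Ici 0))
    (hd : ∀ t, 0 < t → HasDerivAt e (e' t) t) (hle : ∀ t, 0 < t → t < T → e' t ≤ C * e t)
    (h0 : e 0 = 0) (hT : 0 ≤ T) : e T ≤ 0 := by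
  have hd2 : ∀ t, 0 < t → HasDerivAt (fun τ => e τ * Real.exp (-C * τ))
      (e' t * Real.exp (-C * t) + e t * (Real.exp (-C * t) * (-C * 1))) t := fun t ht =>
    (hd t ht).mul (((hasDerivAt_id' t).const_mul (-C)).exp)
  have hanti : AntitoneOn (fun τ => e τ * Real.exp (-C * τ)) (Icc 0 T) := by
    refine antitoneOn_of_deriv_nonpos (convex_Icc 0 T) ?_ ?_ ?_
    · exact (hc.mono fun x hx => hx.1).mul (by fun_prop)
    · rw [interior_Icc]
      exact fun t ht => (hd2 t ht.1).differentiableAt.differentiableWithinAt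
    · rw [interior_Icc]
      intro t ht
      rw [(hd2 t ht.1).deriv]
      have h1 := hle t ht.1 ht.2
      have h2 := Real.exp_pos (-C * t)
      nlinarith
  have h3 := hanti ⟨le_rfl, hT⟩ ⟨hT, le_rfl⟩ hT
  simp only [h0, zero_mul] at h3
  have h4 := Real.exp_pos (-C * T)
  by_contra h5
  have := mul_pos (not_le.1 h5) h4
  linarith

theorem exp_quad {x B : ℝ} (hx : |x| ≤ B) : Real.exp x - 1 - x ≤ Real.exp B * x ^ 2 := by
  have hB : 0 ≤ B := (abs_nonneg x).trans hx
  have h1 : Real.exp x - 1 ≤ x * Real.exp x := by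
    have h2 := Real.add_one_le_exp (-x)
    have h3 : Real.exp (-x) * Real.exp x = 1 := by rw [← Real.exp_add]; simp
    have h4 := Real.exp_pos x
    nlinarith
  have h5 := Real.add_one_le_exp x
  have h6 : 1 ≤ Real.exp B := Real.one_le_exp hB
  rcases le_total 0 x with h | h
  · have h7 : Real.exp x ≤ Real.exp B := Real.exp_le_exp.2 ((le_abs_self x).trans hx)
    have h8 : x * (Real.exp x - 1) ≤ x * (x * Real.exp x) := mul_le_mul_of_nonneg_left h1 h
    have h9 : x ^ 2 * Real.exp x ≤ x ^ 2 * Real.exp B :=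
      mul_le_mul_of_nonneg_left h7 (sq_nonneg x)
    nlinarith
  · have h8 : x * (Real.exp x - 1) ≤ x * x := mul_le_mul_of_nonpos_left (by linarith) h
    have h9 : x ^ 2 * 1 ≤ x ^ 2 * Real.exp B := mul_le_mul_of_nonneg_left h6 (sq_nonneg x)
    nlinarith

/-- a trace against the difference of two inverses -/
theorem trace_inv_sub {A B X : Matrix (Fin m) (Fin m) ℂ} (hA : IsUnit A.det) (hB : IsUnit B.det)
    {C : ℝ} (hC : ∀ j k, ‖(B⁻¹ * X * A⁻¹) j k‖ ≤ C) :
    ((A⁻¹ * X).trace.re - (B⁻¹ * X).trace.re) ^ 2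
      ≤ (C ^ 2 * m ^ 2) * ∑ j, ∑ k, ‖(B - A) j k‖ ^ 2 := by
  have e1 : A⁻¹ * X - B⁻¹ * X = A⁻¹ * ((B - A) * (B⁻¹ * X)) := by
    rw [Matrix.sub_mul, Matrix.mul_sub, Matrix.mul_nonsing_inv_cancel_left _ _ hB,
      Matrix.nonsing_inv_mul_cancel_left _ _ hA]
  have e2 : (A⁻¹ * X).trace.re - (B⁻¹ * X).trace.re
      = ((B - A) * (B⁻¹ * X * A⁻¹)).trace.re := by
    rw [← Complex.sub_re, ← Matrix.trace_sub, e1, Matrix.trace_mul_comm, Matrix.mul_assoc]
  rw [e2]
  set D := B - A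
  set Y := B⁻¹ * X * A⁻¹
  have h1 : |(D * Y).trace.re| ≤ ∑ j, ∑ k, ‖D j k‖ * C := by
    refine (Complex.abs_re_le_norm _).trans ?_
    unfold Matrix.trace
    refine (norm_sum_le _ _).trans (Finset.sum_le_sum fun j _ => ?_)
    rw [Matrix.diag_apply, Matrix.mul_apply]
    refine (norm_sum_le _ _).trans (Finset.sum_le_sum fun k _ => ?_)
    rw [norm_mul]
    exact mul_le_mul_of_nonneg_left (hC k j) (norm_nonneg _)
  have h2 : (∑ j, ∑ k, ‖D j k‖ * C) ^ 2 ≤ (C ^ 2 * m ^ 2) * ∑ j, ∑ k, ‖D j k‖ ^ 2 := by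
    rw [← Finset.sum_product', ← Finset.sum_product' (f := fun j k => ‖D j k‖ ^ 2)]
    refine (Finset.sum_mul_sq_le_sq_mul_sq _ _ _).trans (le_of_eq ?_)
    simp only [Finset.sum_const, Finset.card_product, Finset.card_univ, Fintype.card_fin,
      nsmul_eq_mul, Nat.cast_mul]
    ring
  calc (D * Y).trace.re ^ 2 = |(D * Y).trace.re| ^ 2 := (sq_abs _).symm
    _ ≤ (∑ j, ∑ k, ‖D j k‖ * C) ^ 2 := pow_le_pow_left₀ (abs_nonneg _) h1 2
    _ ≤ _ := h2

end Uniq

end Vale.Agent.P264
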