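import Vale.Agent.P264.StmU

/-!
Wirtinger calculus.
-/

namespace Vale.Agent.P264

open scoped ContDiff ComplexOrder Matrix Topology
open Set Complex Filter

namespace Wirt

variable {m n : ℕ} {f g : V m → ℂ} {z : V m} {c : ℂ} {u v : V m}

/-- Directional derivative. -/
noncomputable def D (v : V m) (f : V m → ℂ) (z : V m) : ℂ := fderiv ℝ f z v

/-- A first order operator with constant coefficients. -/
noncomputable def op (c : ℂ) (u v : V m) (f : V m → ℂ) (z : V m) : ℂ :=
  (D u f z + c * D v f z) / 2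

theorem dz_eq (j : Fin m) : dz j = op (-I) (Pi.single j 1) (Pi.single j I) := by
  funext f z
  simp only [dz, op, D]
  ring

theorem dzb_eq (j : Fin m) : dzb j = op I (Pi.single j 1) (Pi.single j I) := rfl

theorem dAt {E : Type} [NormedAddCommGroup E] [NormedSpace ℝ E] {f : V m → E}
    (h : ContDiffAt ℝ ∞ f z) : DifferentiableAt ℝ f z := h.differentiableAt (by simp)

theorem ev_dAt {E : Type} [NormedAddCommGroup E] [NormedSpace ℝ E] {f : V m → E}
    (h : ContDiffAt ℝ ∞ f z) : ∀ᶠ w in 𝓝 z, DifferentiableAt ℝ f w :=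
  ((h.of_le (m := 1) (by simp)).eventually (by simp)).mono fun _ h => h.differentiableAt (by simp)

theorem cast_smooth {f : V m → ℝ} (h : ContDiffAt ℝ ∞ f z) :
    ContDiffAt ℝ ∞ (fun w => (f w : ℂ)) z := ofRealCLM.contDiff.contDiffAt.comp z h

theorem D_smooth (h : ContDiffAt ℝ ∞ f z) (v : V m) : ContDiffAt ℝ ∞ (D v f) z :=
  (h.fderiv_right (m := ∞) (by simp)).clm_apply contDiffAt_const

theorem D_comm (h : ContDiffAt ℝ ∞ f z) (u v : V m) : D u (D v f) z = D v (D u f) z := by
  have h2 : ContDiffAt ℝ 2 f z := h.of_le (by norm_cast)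
  have hs : IsSymmSndFDerivAt ℝ f z := h2.isSymmSndFDerivAt (by simp)
  have hd : DifferentiableAt ℝ (fderiv ℝ f) z :=
    (h2.fderiv_right (m := 1) (by norm_num)).differentiableAt (by simp)
  have key : ∀ a b : V m, D a (D b f) z = fderiv ℝ (fderiv ℝ f) z a b := by
    intro a b
    show fderiv ℝ (fun y => fderiv ℝ f y b) z a = _
    rw [fderiv_clm_apply hd (differentiableAt_const b)]
    simp
  rw [key, key]
  exact hs u v

theorem op_congr (h : f =ᶠ[𝓝 z] g) : op c u v f z = op c u v g z := by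
  simp only [op, D, h.fderiv_eq]

theorem op_congr_ev (h : f =ᶠ[𝓝 z] g) : op c u v f =ᶠ[𝓝 z] op c u v g :=
  h.eventuallyEq_nhds.mono fun _ h => op_congr h

theorem op_add (hf : DifferentiableAt ℝ f z) (hg : DifferentiableAt ℝ g z) :
    op c u v (fun w => f w + g w) z = op c u v f z + op c u v g z := by
  simp only [op, D, fderiv_fun_add hf hg, add_apply]
  ring

theorem op_mul (hf : DifferentiableAt ℝ f z) (hg : DifferentiableAt ℝ g z) :
    op c u v (fun w => f w * g w) z = op c u v f z * g z + f z * op c u v g z := by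
  simp only [op, D, fderiv_fun_mul hf hg, add_apply, smul_apply, smul_eq_mul]
  ring

theorem op_const (a : ℂ) : op c u v (fun _ => a) z = 0 := by simp [op, D]

theorem op_cmul (a : ℂ) (hf : DifferentiableAt ℝ f z) :
    op c u v (fun w => a * f w) z = a * op c u v f z := by
  rw [op_mul (differentiableAt_const a) hf, op_const, zero_mul, zero_add]

theorem op_sum {ι : Type} (s : Finset ι) {f : ι → V m → ℂ}
    (h : ∀ i ∈ s, DifferentiableAt ℝ (f i) z) :
    op c u v (fun w => ∑ i ∈ s, f i w) z = ∑ i ∈ s, op c u v (f i) z := by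
  simp only [op, D, fderiv_fun_sum h, sum_apply, Finset.mul_sum, ← Finset.sum_add_distrib,
    Finset.sum_div]

theorem op_star (f : V m → ℂ) :
    op c u v (fun w => star (f w)) z = star (op (star c) u v f z) := by
  simp only [op, D, fderiv_star]
  simp

theorem op_coord (k : Fin m) : op c u v (fun w => w k) z = (u k + c * v k) / 2 := by
  simp [op, D, fderiv_apply]

theorem D_cast {G : V m → ℝ} {L : V m →L[ℝ] ℝ} (h : HasFDerivAt G L z) (v : V m) :
    D v (fun w => (G w : ℂ)) z = L v :=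
  congrArg (fun A : V m →L[ℝ] ℂ => A v) (ofRealCLM.hasFDerivAt.comp z h).fderiv

theorem op_comp {p G : V m → ℝ} {a : ℝ} (hp : DifferentiableAt ℝ p z)
    (h : HasFDerivAt G (a • fderiv ℝ p z) z) :
    op c u v (fun w => (G w : ℂ)) z = a * op c u v (fun w => (p w : ℂ)) z := by
  simp only [op, D_cast h, D_cast hp.hasFDerivAt, smul_apply, smul_eq_mul, ofReal_mul]
  ring

theorem op_smooth (h : ContDiffAt ℝ ∞ f z) : ContDiffAt ℝ ∞ (op c u v f) z :=
  ((D_smooth h u).add (contDiffAt_const.mul (D_smooth h v))).div_const 2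

theorem op_comm {c' : ℂ} {u' v' : V m} (h : ContDiffAt ℝ ∞ f z) :
    op c u v (op c' u' v' f) z = op c' u' v' (op c u v f) z := by
  have key : ∀ (c : ℂ) (u v : V m) (c' : ℂ) (u' v' : V m), op c u v (op c' u' v' f) z =
      2⁻¹ * op c u v (D u' f) z + 2⁻¹ * c' * op c u v (D v' f) z := fun c u v c' u' v' => by
    have h1 := dAt (D_smooth h u')
    have h2 := dAt (D_smooth h v')
    rw [← op_cmul _ h1, ← op_cmul _ h2, ← op_add (h1.const_mul _) (h2.const_mul _)]
    refine op_congr (Eventually.of_forall fun w => ?_)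
    simp only [op]
    ring
  rw [key, key]
  simp only [op, D_comm h u, D_comm h v]
  ring

theorem dz_star (j : Fin m) (f : V m → ℂ) (z : V m) :
    dz j (fun w => star (f w)) z = star (dzb j f z) := by
  rw [dz_eq, dzb_eq, op_star, star_neg, star_def, conj_I, neg_neg]

theorem dzb_star (j : Fin m) (f : V m → ℂ) (z : V m) :
    dzb j (fun w => star (f w)) z = star (dz j f z) := by
  rw [dz_eq, dzb_eq, op_star, star_def, conj_I]

theorem dz_coord (j k : Fin m) (z : V m) : dz j (fun w => w k) z = if j = k then 1 else 0 := by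
  rw [dz_eq, op_coord]
  rcases eq_or_ne j k with rfl | h
  · simp
  · simp [h, h.symm]

theorem dzb_coord (j k : Fin m) (z : V m) : dzb j (fun w => w k) z = 0 := by
  rw [dzb_eq, op_coord]
  rcases eq_or_ne j k with rfl | h
  · simp
  · simp [h.symm]

theorem dz_coord_conj (j k : Fin m) (z : V m) : dz j (fun w => star (w k)) z = 0 := by
  rw [dz_star j (fun w => w k), dzb_coord, star_zero]

theorem dzb_coord_conj (j k : Fin m) (z : V m) :
    dzb j (fun w => star (w k)) z = if j = k then 1 else 0 := by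
  rw [dzb_star j (fun w => w k), dz_coord]
  split_ifs <;> simp

theorem nsq_smooth : ContDiff ℝ ∞ (nsq : V m → ℝ) :=
  ContDiff.sum fun j _ => (contDiff_norm_sq ℂ).comp (contDiff_apply ℝ ℂ j)

theorem nsq_pos (h : z ≠ 0) : 0 < nsq z := by
  obtain ⟨j, hj⟩ := Function.ne_iff.1 h
  exact Finset.sum_pos' (fun _ _ => sq_nonneg _)
    ⟨j, Finset.mem_univ j, pow_pos (norm_pos_iff.2 hj) 2⟩

theorem nsq_smul (c : ℂ) (z : V m) : nsq (c • z) = ‖c‖ ^ 2 * nsq z := by
  simp [nsq, Finset.mul_sum, mul_pow]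

theorem nsq_eq (z : V m) : (nsq z : ℂ) = ∑ j, z j * star (z j) := by
  simp [nsq, mul_conj, normSq_eq_norm_sq]

theorem d_coord (k : Fin m) : DifferentiableAt ℝ (fun w : V m => w k) z := differentiableAt_apply k z

theorem d_star (k : Fin m) : DifferentiableAt ℝ (fun w : V m => star (w k)) z :=
  (differentiableAt_apply k z).star

theorem op_nsq : op c u v (fun w => (nsq w : ℂ)) z = ∑ k, (op c u v (fun w => w k) z * star (z k) +
    z k * op c u v (fun w => star (w k)) z) := by
  simp only [nsq_eq]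
  rw [op_sum _ fun k _ => (d_coord k).fun_mul (d_star k)]
  exact Finset.sum_congr rfl fun k _ => op_mul (d_coord k) (d_star k)

theorem dz_nsq (j : Fin m) (z : V m) : dz j (fun w => (nsq w : ℂ)) z = star (z j) := by
  rw [dz_eq, op_nsq, ← dz_eq]
  simp only [dz_coord, dz_coord_conj]
  simp

theorem dzb_nsq (j : Fin m) (z : V m) : dzb j (fun w => (nsq w : ℂ)) z = z j := by
  rw [dzb_eq, op_nsq, ← dzb_eq]
  simp only [dzb_coord, dzb_coord_conj]
  simp

theorem hess_congr {f g : V m → ℝ} (h : f =ᶠ[𝓝 z] g) : hess f z = hess g z := by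
  ext j k
  simp only [hess, Matrix.of_apply, dz_eq, dzb_eq]
  exact op_congr (op_congr_ev (h.mono fun w h => congrArg ofReal h))

theorem hess_herm {f : V m → ℝ} (h : ContDiffAt ℝ ∞ f z) : (hess f z).IsHermitian := by
  ext j k
  have e : ∀ w, star (dzb j (fun w => (f w : ℂ)) w) = dz j (fun w => (f w : ℂ)) w := fun w => by
    rw [← dz_star]
    simp
  simp only [hess, Matrix.conjTranspose_apply, Matrix.of_apply, ← dzb_star, e]
  rw [dz_eq, dzb_eq]
  exact op_comm (cast_smooth h)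

theorem hess_lin (a b c : ℝ) {f g : V m → ℝ} (hf : ContDiffAt ℝ ∞ f z) (hg : ContDiffAt ℝ ∞ g z) :
    hess (fun w => a * f w + b * g w + c) z = (a : ℂ) • hess f z + (b : ℂ) • hess g z := by
  ext j k
  have hf' := cast_smooth hf
  have hg' := cast_smooth hg
  simp only [hess, Matrix.of_apply, dz_eq, dzb_eq, Matrix.add_apply, Matrix.smul_apply,
    smul_eq_mul, ofReal_add, ofReal_mul]
  rw [← op_cmul _ (dAt (op_smooth hf')), ← op_cmul _ (dAt (op_smooth hg')),
    ← op_add ((dAt (op_smooth hf')).const_mul _) ((dAt (op_smooth hg')).const_mul _)]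
  refine op_congr ?_
  filter_upwards [ev_dAt hf', ev_dAt hg'] with w h1 h2
  rw [op_add ((h1.const_mul _).fun_add (h2.const_mul _)) (differentiableAt_const _),
    op_add (h1.const_mul _) (h2.const_mul _), op_cmul _ h1, op_cmul _ h2, op_const, add_zero]

theorem hess_log_nsq (h : z ≠ 0) : (nsq z : ℂ) • hess (fun w => Real.log (nsq w)) z =
    1 - ((nsq z : ℂ)⁻¹) • Matrix.vecMulVec (star z) z := by
  ext j k
  have d : ∀ w : V m, DifferentiableAt ℝ nsq w := fun w => dAt nsq_smooth.contDiffAt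
  have hp := (nsq_pos h).ne'
  have e1 : dzb k (fun w => (Real.log (nsq w) : ℂ)) =ᶠ[𝓝 z]
      fun w => (((nsq w)⁻¹ : ℝ) : ℂ) * w k := by
    filter_upwards [isOpen_ne.mem_nhds h] with w hw
    rw [dzb_eq, op_comp (d w) ((d w).hasFDerivAt.log (nsq_pos hw).ne'), ← dzb_eq, dzb_nsq]
  have e2 : HasFDerivAt (fun w => (nsq w)⁻¹) (-(nsq z ^ 2)⁻¹ • fderiv ℝ nsq z) z :=
    (hasDerivAt_inv hp).comp_hasFDerivAt z (d z).hasFDerivAt
  have e3 : DifferentiableAt ℝ (fun w : V m => (((nsq w)⁻¹ : ℝ) : ℂ)) z :=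
    ofRealCLM.differentiableAt.comp z e2.differentiableAt
  have hp' : (nsq z : ℂ) ≠ 0 := ofReal_ne_zero.2 hp
  simp only [hess, Matrix.smul_apply, Matrix.of_apply, Matrix.sub_apply, Matrix.one_apply,
    Matrix.vecMulVec_apply, smul_eq_mul, Pi.star_apply]
  rw [dz_eq, op_congr e1, op_mul e3 (d_coord k), op_comp (d z) e2, ← dz_eq,
    dz_nsq, dz_coord]
  push_cast
  field_simp
  ring

/-- The real derivative in terms of the Wirtinger derivatives. -/
theorem D_eq (f : V m → ℂ) (z v : V m) :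
    D v f z = ∑ k, (v k * dz k f z + star (v k) * dzb k f z) := by
  have e : v = ∑ k, ((v k).re • (Pi.single k 1 : V m) + (v k).im • (Pi.single k I : V m)) := by
    funext j
    simp [Finset.sum_apply, Pi.single_apply, Finset.sum_add_distrib]
  rw [D]
  conv_lhs => rw [e]
  rw [map_sum]
  refine Finset.sum_congr rfl fun k _ => ?_
  simp only [map_add, map_smul, dz, dzb, real_smul]
  obtain ⟨a, b, hv⟩ : ∃ a b : ℝ, v k = a + b * I := ⟨_, _, (re_add_im _).symm⟩
  simp only [hv, star_add, star_mul', star_def, conj_ofReal, conj_I]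
  simp
  linear_combination b * fderiv ℝ f z (Pi.single k I) * I_mul_I

theorem hasFDerivAt_aff (A : Matrix (Fin m) (Fin n) ℂ) (b : V m) (z : V n) :
    HasFDerivAt (fun w => A *ᵥ w + b)
      ((LinearMap.toContinuousLinearMap A.mulVecLin).restrictScalars ℝ) z :=
  ((LinearMap.toContinuousLinearMap A.mulVecLin).restrictScalars ℝ).hasFDerivAt.add_const b

theorem D_aff (A : Matrix (Fin m) (Fin n) ℂ) (b : V m) {z : V n}
    (h : DifferentiableAt ℝ f (A *ᵥ z + b)) (j : Fin n) (a : ℂ) :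
    D (Pi.single j a) (fun w => f (A *ᵥ w + b)) z = a * ∑ p, A p j * dz p f (A *ᵥ z + b) +
      star a * ∑ p, star (A p j) * dzb p f (A *ᵥ z + b) := by
  have e : D (Pi.single j a) (fun w => f (A *ᵥ w + b)) z =
      D (A *ᵥ Pi.single j a) f (A *ᵥ z + b) :=
    congrArg (fun L : V n →L[ℝ] ℂ => L (Pi.single j a))
      (h.hasFDerivAt.comp z (hasFDerivAt_aff A b z)).fderiv
  rw [e, D_eq, Finset.mul_sum, Finset.mul_sum, ← Finset.sum_add_distrib]
  refine Finset.sum_congr rfl fun p _ => ?_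
  simp
  ring

theorem dz_aff (A : Matrix (Fin m) (Fin n) ℂ) (b : V m) {z : V n}
    (h : DifferentiableAt ℝ f (A *ᵥ z + b)) (j : Fin n) :
    dz j (fun w => f (A *ᵥ w + b)) z = ∑ p, A p j * dz p f (A *ᵥ z + b) := by
  rw [dz_eq j, op, D_aff A b h, D_aff A b h, star_one, star_def, conj_I]
  linear_combination (∑ p, (starRingEnd ℂ) (A p j) * dzb p f (A *ᵥ z + b) -
    ∑ p, A p j * dz p f (A *ᵥ z + b)) / 2 * I_mul_I

theorem dzb_aff (A : Matrix (Fin m) (Fin n) ℂ) (b : V m) {z : V n}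
    (h : DifferentiableAt ℝ f (A *ᵥ z + b)) (j : Fin n) :
    dzb j (fun w => f (A *ᵥ w + b)) z = ∑ p, star (A p j) * dzb p f (A *ᵥ z + b) := by
  rw [dzb_eq j, op, D_aff A b h, D_aff A b h, star_one, star_def, conj_I]
  linear_combination (∑ p, A p j * dz p f (A *ᵥ z + b) -
    ∑ p, (starRingEnd ℂ) (A p j) * dzb p f (A *ᵥ z + b)) / 2 * I_mul_I

theorem hess_aff (A : Matrix (Fin m) (Fin n) ℂ) (b : V m) {f : V m → ℝ} {z : V n}
    (h : ContDiffAt ℝ ∞ f (A *ᵥ z + b)) :
    hess (fun w => f (A *ᵥ w + b)) z = Aᵀ * hess f (A *ᵥ z + b) * A.map star := by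
  ext j k
  have h' := cast_smooth h
  have e1 : dzb k (fun w => (f (A *ᵥ w + b) : ℂ)) =ᶠ[𝓝 z]
      fun w => ∑ q, star (A q k) * dzb q (fun w => (f w : ℂ)) (A *ᵥ w + b) :=
    ((hasFDerivAt_aff A b z).continuousAt.eventually (ev_dAt h')).mono fun w hw =>
      dzb_aff A b hw k
  have d : ∀ q, DifferentiableAt ℝ (dzb q fun w => (f w : ℂ)) (A *ᵥ z + b) := fun q =>
    dAt (op_smooth h')
  have d' : ∀ q, DifferentiableAt ℝ (fun w => dzb q (fun w => (f w : ℂ)) (A *ᵥ w + b)) z :=
    fun q => DifferentiableAt.comp (f := fun w => A *ᵥ w + b) z (d q)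
      (hasFDerivAt_aff A b z).differentiableAt
  simp only [hess, Matrix.of_apply, Matrix.mul_apply, Matrix.transpose_apply, Matrix.map_apply]
  rw [dz_eq j, op_congr e1, op_sum _ fun q _ => (d' q).const_mul _]
  refine Finset.sum_congr rfl fun q _ => ?_
  rw [mul_comm, ← dz_aff A b (d q), dz_eq j]
  exact op_cmul _ (d' q)

theorem hess_mulVec (A : Matrix (Fin m) (Fin m) ℂ) {f : V m → ℝ} (h : ContDiffAt ℝ ∞ f (A *ᵥ z)) :
    hess (fun w => f (A *ᵥ w)) z = Aᵀ * hess f (A *ᵥ z) * A.map star := by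
  simpa only [add_zero] using hess_aff A 0 (f := f) (z := z) (by rwa [add_zero])

theorem hess_hom (i : Fin (n + 1)) {f : V (n + 1) → ℝ} {z : V n}
    (h : ContDiffAt ℝ ∞ f (hom i z)) :
    hess (fun w => f (hom i w)) z = (hess f (hom i z)).submatrix i.succAbove i.succAbove := by
  have e : ∀ w, hom i w =
      (1 : Matrix (Fin (n + 1)) (Fin (n + 1)) ℂ).submatrix id i.succAbove *ᵥ w + Pi.single i 1 := by
    intro w
    funext k
    rcases Fin.eq_self_or_eq_succAbove i k with rfl | ⟨l, rfl⟩ <;>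
      simp [hom, Matrix.mulVec, dotProduct, Matrix.one_apply]
  simp only [e] at h ⊢
  rw [hess_aff _ _ h]
  ext j k
  simp [Matrix.mul_apply, Matrix.one_apply, apply_ite]

theorem euler (h : Hom0 f) (hz : z ≠ 0) (hf : DifferentiableAt ℝ f z) :
    ∑ j, z j * dz j f z = 0 ∧ ∑ k, star (z k) * dzb k f z = 0 := by
  have key : ∀ a : ℂ, a * ∑ j, z j * dz j f z + star a * ∑ k, star (z k) * dzb k f z = 0 := by
    intro a
    have h1 : HasFDerivAt (fun c : ℂ => c • z) ((ContinuousLinearMap.id ℝ ℂ).smulRight z) 1 :=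
      (hasFDerivAt_id 1).smul_const z
    have h2 : HasFDerivAt f (fderiv ℝ f z) ((1 : ℂ) • z) := by
      rw [one_smul]
      exact hf.hasFDerivAt
    have h3 : HasFDerivAt (fun c : ℂ => f (c • z)) (0 : ℂ →L[ℝ] ℂ) 1 :=
      (hasFDerivAt_const (f z) 1).congr_of_eventuallyEq
        ((isOpen_ne.mem_nhds one_ne_zero : {c : ℂ | c ≠ 0} ∈ 𝓝 1) |> fun hh =>
          Filter.mem_of_superset hh fun c hc => h c hc z hz)
    have h4 : D (a • z) f z = 0 :=
      congrArg (fun L : ℂ →L[ℝ] ℂ => L a) ((h2.comp 1 h1).unique h3)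
    rw [← h4, D_eq, Finset.mul_sum, Finset.mul_sum, ← Finset.sum_add_distrib]
    refine Finset.sum_congr rfl fun p _ => ?_
    simp
    ring
  have k1 := key 1
  have k2 := key I
  rw [star_one] at k1
  rw [star_def, conj_I, ← star_def] at k2
  constructor
  · linear_combination k1 / 2 - I / 2 * k2 +
      (∑ j, z j * dz j f z - ∑ k, star (z k) * dzb k f z) / 2 * I_mul_I
  · linear_combination k1 / 2 + I / 2 * k2 -
      (∑ j, z j * dz j f z - ∑ k, star (z k) * dzb k f z) / 2 * I_mul_I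

theorem at_nz {f : V m → ℝ} (hf : ContDiffOn ℝ ∞ f (nz m)) (hz : z ≠ 0) : ContDiffAt ℝ ∞ f z :=
  hf.contDiffAt (isOpen_ne.mem_nhds hz)

theorem hess_mulVec_star {f : V m → ℝ} (hf : ContDiffOn ℝ ∞ f (nz m)) (h : Hom0 f) (hz : z ≠ 0) :
    hess f z *ᵥ star z = 0 := by
  funext j
  have e : (fun w => ∑ k, star (w k) * dzb k (fun w => (f w : ℂ)) w) =ᶠ[𝓝 z] fun _ => 0 := by
    filter_upwards [isOpen_ne.mem_nhds hz] with w hw
    exact (euler (fun c hc Z hZ => congrArg ofReal (h c hc Z hZ)) hw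
      (dAt (cast_smooth (at_nz hf hw)))).2
  have d : ∀ k, DifferentiableAt ℝ (dzb k fun w => (f w : ℂ)) z := fun k =>
    dAt (op_smooth (cast_smooth (at_nz hf hz)))
  have e2 := op_congr (c := -I) (u := Pi.single j 1) (v := Pi.single j I) e
  rw [op_const, op_sum _ fun k _ => (d_star k).fun_mul (d k)] at e2
  change ∑ k, hess f z j k * star (z k) = 0
  refine Eq.trans (Finset.sum_congr rfl fun k _ => ?_) e2
  rw [op_mul (d_star k) (d k), ← dz_eq, dz_coord_conj, zero_mul, zero_add, mul_comm]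
  rfl

theorem hom0_hess {f : V m → ℝ} (hf : ContDiffOn ℝ ∞ f (nz m)) (h : Hom0 f) :
    Hom0 fun z => (nsq z : ℂ) • hess f z := by
  intro c hc z hz
  have e : ∀ w : V m, (c • (1 : Matrix (Fin m) (Fin m) ℂ)) *ᵥ w = c • w := fun w => by
    rw [Matrix.smul_mulVec, Matrix.one_mulVec]
  have e1 := hess_mulVec (c • 1) (f := f) (z := z) (e z ▸ at_nz hf (smul_ne_zero hc hz))
  simp only [e] at e1
  have e2 : hess (fun w => f (c • w)) z = hess f z :=
    hess_congr (Filter.mem_of_superset (isOpen_ne.mem_nhds hz) fun w hw => h c hc w hw)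
  beta_reduce
  rw [← e2, e1, nsq_smul]
  ext j k
  simp [Matrix.mul_apply, Matrix.one_apply, apply_ite, ← mul_conj']
  ring

end Wirt

open Wirt in
theorem wirt : WirtStmt where
  dz_congr j _ _ _ h := by rw [dz_eq, op_congr h]
  dzb_congr _ _ _ _ h := op_congr h
  hess_congr := hess_congr
  dz_add j _ _ _ hf hg := by rw [dz_eq, op_add hf hg]
  dzb_add _ _ _ _ hf hg := op_add hf hg
  dz_mul j _ _ _ hf hg := by rw [dz_eq, op_mul hf hg]
  dzb_mul _ _ _ _ hf hg := op_mul hf hg
  dz_const j a _ := by rw [dz_eq, op_const]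
  dzb_const _ a _ := op_const a
  dz_sum s j _ _ h := by rw [dz_eq, op_sum s h]
  dzb_sum s _ _ _ h := op_sum s h
  dz_coord := dz_coord
  dz_coord_conj := dz_coord_conj
  dzb_coord := dzb_coord
  dzb_coord_conj := dzb_coord_conj
  nsq_smooth := nsq_smooth
  nsq_pos := nsq_pos
  nsq_smul := nsq_smul
  nsq_eq := nsq_eq
  dz_nsq := dz_nsq
  dzb_nsq := dzb_nsq
  dz_comp j _ _ _ _ hu h := by rw [dz_eq, op_comp hu h]
  dzb_comp _ _ _ _ _ hu h := op_comp hu h
  dz_star := dz_star
  dzb_star := dzb_star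
  dz_smooth j _ _ h := dz_eq j ▸ op_smooth h
  dzb_smooth _ _ _ h := op_smooth h
  dz_dz j k _ _ h := by rw [dz_eq j, dz_eq k, op_comm h]
  dz_dzb j k _ _ h := by rw [dz_eq j, dzb_eq k, op_comm h]
  hess_smooth j k f _ h := by
    change ContDiffAt ℝ ∞ (dz j (dzb k fun w => (f w : ℂ))) _
    rw [dz_eq]
    exact op_smooth (op_smooth (cast_smooth h))
  hess_herm := hess_herm
  hess_lin a b c _ _ _ := hess_lin a b c
  hess_log_nsq := hess_log_nsq
  hess_mulVec A _ _ h := hess_mulVec A h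
  hess_hom := hess_hom
  euler_dz h hz hf := (euler h hz hf).1
  euler_dzb h hz hf := (euler h hz hf).2
  hess_mulVec_star := hess_mulVec_star
  vecMul_hess hf h hz := by
    have := congrArg star (hess_mulVec_star hf h hz)
    rwa [Matrix.star_mulVec, star_star, (hess_herm (at_nz hf hz)).eq, star_zero] at this
  hom0_hess := hom0_hess

end Vale.Agent.P264
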